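import Mathlib
import Crest.Prelude.Def_DaugavetL1

/-!
Consequences of the Daugavet property for slices and for finite-codimensional subspaces.
-/

set_option autoImplicit false
set_option linter.unusedSectionVars false

namespace Crest.Agent.Lib.DaugavetSlices

open Crest.AnalysisR Crest.AnalysisR.L1Subspace

section hull

variable {Q : Type*} [NormedAddCommGroup Q] [NormedSpace ℝ Q]

lemma isCompact_convexHull_union {K L : Set Q} (hK : IsCompact K) (hKc : Convex ℝ K)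
    (hL : IsCompact L) (hLc : Convex ℝ L) : IsCompact (convexHull ℝ (K ∪ L)) := by
  rcases K.eq_empty_or_nonempty with rfl | hKn
  · simpa [hLc.convexHull_eq] using hL
  rcases L.eq_empty_or_nonempty with rfl | hLn
  · simpa [hKc.convexHull_eq] using hK
  rw [convexHull_union hKn hLn, hKc.convexHull_eq, hLc.convexHull_eq]
  have h : convexJoin ℝ K L = (fun p : Q × Q × ℝ => (1 - p.2.2) • p.1 + p.2.2 • p.2.1) ''
      (K ×ˢ L ×ˢ Set.Icc (0 : ℝ) 1) := by
    ext z
    simp only [mem_convexJoin, segment_eq_image, Set.mem_image, Set.mem_prod, Set.mem_Icc,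
      Prod.exists]
    constructor
    · rintro ⟨a, ha, b, hb, θ, hθ, rfl⟩
      exact ⟨a, b, θ, ⟨ha, hb, hθ⟩, rfl⟩
    · rintro ⟨a, b, θ, ⟨ha, hb, hθ⟩, rfl⟩
      exact ⟨a, ha, b, hb, θ, hθ, rfl⟩
  rw [h]
  refine (hK.prod (hL.prod isCompact_Icc)).image ?_
  fun_prop

lemma isCompact_convexHull_biUnion {ι : Type*} (t : Finset ι) (K : ι → Set Q)
    (h : ∀ i ∈ t, IsCompact (K i) ∧ Convex ℝ (K i)) :
    IsCompact (convexHull ℝ (⋃ i ∈ t, K i)) := by
  classical
  induction t using Finset.induction_on with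
  | empty => simp
  | insert a s ha ih =>
    have h1 := ih fun i hi => h i (Finset.mem_insert_of_mem hi)
    have h2 := h a (Finset.mem_insert_self _ _)
    have h3 : (⋃ i ∈ insert a s, K i) = K a ∪ ⋃ i ∈ s, K i := by
      simp [Finset.set_biUnion_insert]
    rw [h3, ← convexHull_convexHull_union_right]
    exact isCompact_convexHull_union h2.1 h2.2 h1 (convex_convexHull _ _)

/-- Slices at an extreme point of a compact convex set have small diameter. -/
lemma exists_slice {C : Set Q} (hC : IsCompact C) (hcv : Convex ℝ C) {z : Q}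
    (hz : z ∈ C.extremePoints ℝ) {ε : ℝ} (hε : 0 < ε) :
    ∃ (l : StrongDual ℝ Q) (a : ℝ), a < l z ∧ ∀ y ∈ C, a < l y → ‖y - z‖ < ε := by
  classical
  have hK : IsCompact (C \ Metric.ball z ε) := hC.diff Metric.isOpen_ball
  obtain ⟨t, htK, htfin, hcov⟩ := hK.finite_cover_balls (show 0 < ε / 2 by positivity)
  have hcd : Convex ℝ (C \ {z}) := (hcv.mem_extremePoints_iff_convex_diff).1 hz |>.2
  let K : Q → Set Q := fun y => C ∩ Metric.closedBall y (ε / 2)
  have hKprop : ∀ y ∈ htfin.toFinset, IsCompact (K y) ∧ Convex ℝ (K y) := by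
    intro y _
    exact ⟨hC.inter_right Metric.isClosed_closedBall, hcv.inter (convex_closedBall _ _)⟩
  have hM := isCompact_convexHull_biUnion htfin.toFinset K hKprop
  have hsub : convexHull ℝ (⋃ y ∈ htfin.toFinset, K y) ⊆ C \ {z} := by
    refine convexHull_min ?_ hcd
    intro w hw
    simp only [Set.mem_iUnion] at hw
    obtain ⟨y, hy, hwy⟩ := hw
    refine ⟨hwy.1, ?_⟩
    rintro rfl
    have hy' : y ∈ t := by simpa using hy
    have h1 := (htK hy').2
    have h2 := hwy.2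
    rw [Metric.mem_closedBall] at h2
    rw [Metric.mem_ball, not_lt] at h1
    rw [dist_comm] at h1
    linarith
  have hzM : z ∉ convexHull ℝ (⋃ y ∈ htfin.toFinset, K y) := fun h => (hsub h).2 rfl
  obtain ⟨l, a, hl, ha⟩ := geometric_hahn_banach_closed_point (convex_convexHull ℝ _) hM.isClosed hzM
  refine ⟨l, a, ha, fun y hy hay => ?_⟩
  by_contra hcon
  have hy1 : y ∈ C \ Metric.ball z ε := by
    refine ⟨hy, ?_⟩
    rw [Metric.mem_ball, dist_eq_norm]
    exact hcon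
  have hy2 := hcov hy1
  simp only [Set.mem_iUnion] at hy2
  obtain ⟨w, hw, hyw⟩ := hy2
  have hy3 : y ∈ convexHull ℝ (⋃ y ∈ htfin.toFinset, K y) := by
    apply subset_convexHull
    simp only [Set.mem_iUnion]
    refine ⟨w, by simpa using hw, hy, ?_⟩
    exact Metric.ball_subset_closedBall hyw
  have := hl y hy3
  linarith

end hull

section daugavet

variable {V : Type*} [NormedAddCommGroup V] [NormedSpace ℝ V]

/-- the slice form of the Daugavet property for a unit functional -/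
lemma slice_unit (hD : HasDaugavetProperty V) (φ : StrongDual ℝ V) (hφ : ‖φ‖ = 1) (v : V)
    (hv : ‖v‖ = 1) {ε : ℝ} (hε : 0 < ε) :
    ∃ u : V, ‖u‖ ≤ 1 ∧ 1 - ε ≤ φ u ∧ 2 - ε ≤ ‖u + v‖ := by
  have hT : ‖ContinuousLinearMap.id ℝ V + φ.smulRight v‖ = 2 := by
    rw [hD φ v, ContinuousLinearMap.norm_smulRight_apply, hφ, hv]
    norm_num
  set ε' : ℝ := min (ε / 2) 1 with hε'
  have hε'pos : 0 < ε' := lt_min (by positivity) one_pos
  have hε'1 : ε' ≤ ε / 2 := min_le_left _ _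
  have hε'2 : ε' ≤ 1 := min_le_right _ _
  have hex : ∃ u : V, ‖u‖ = 1 ∧ 2 - ε' < ‖(ContinuousLinearMap.id ℝ V + φ.smulRight v) u‖ := by
    by_contra hcon
    push Not at hcon
    have := ContinuousLinearMap.opNorm_le_of_unit_norm (by linarith) hcon
    rw [hT] at this
    linarith
  obtain ⟨u, hu, hTu⟩ := hex
  have hTu' : (ContinuousLinearMap.id ℝ V + φ.smulRight v) u = u + φ u • v := by simp
  rw [hTu'] at hTu
  have hφu : |φ u| ≤ 1 := by
    have := φ.le_opNorm u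
    rwa [hφ, hu, mul_one, Real.norm_eq_abs] at this
  have hup : 1 - ε' ≤ |φ u| := by
    have h1 : ‖u + φ u • v‖ ≤ ‖u‖ + ‖φ u • v‖ := norm_add_le _ _
    rw [norm_smul, hu, hv, mul_one, Real.norm_eq_abs] at h1
    linarith
  -- replace `u` by `-u` if necessary
  have key : ∀ w : V, ‖w‖ = 1 → 2 - ε' < ‖w + φ w • v‖ → 1 - ε' ≤ φ w → φ w ≤ 1 →
      ∃ u : V, ‖u‖ ≤ 1 ∧ 1 - ε ≤ φ u ∧ 2 - ε ≤ ‖u + v‖ := by
    intro w hw h1 h2 h3
    refine ⟨w, hw.le, by linarith, ?_⟩
    have h4 : w + φ w • v = (w + v) - (1 - φ w) • v := by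
      rw [sub_smul, one_smul]; abel
    rw [h4] at h1
    have h5 := norm_sub_le (w + v) ((1 - φ w) • v)
    rw [norm_smul, hv, mul_one, Real.norm_eq_abs, abs_of_nonneg (by linarith)] at h5
    linarith
  rcases le_total 0 (φ u) with h0 | h0
  · rw [abs_of_nonneg h0] at hφu hup
    exact key u hu hTu hup hφu
  · rw [abs_of_nonpos h0] at hφu hup
    refine key (-u) (by rw [norm_neg, hu]) ?_ (by simpa using hup) (by simpa using hφu)
    have h6 : -u + φ (-u) • v = -(u + φ u • v) := by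
      simp only [map_neg, neg_smul]
      abel
    rw [h6, norm_neg]
    exact hTu

/-- the slice form of the Daugavet property for an arbitrary slice -/
lemma slice_general (hD : HasDaugavetProperty V) (ψ : StrongDual ℝ V) (a : ℝ) (u₀ : V)
    (hu₀ : ‖u₀‖ ≤ 1) (hau : a < ψ u₀) (v : V) (hv : ‖v‖ = 1) {ε : ℝ} (hε : 0 < ε) :
    ∃ u : V, ‖u‖ ≤ 1 ∧ a < ψ u ∧ 2 - ε ≤ ‖u + v‖ := by
  by_cases hψ : ψ = 0
  · subst hψ
    refine ⟨v, hv.le, hau, ?_⟩
    rw [← two_smul ℝ v, norm_smul, hv]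
    simp
    linarith
  have hψpos : 0 < ‖ψ‖ := norm_pos_iff.2 hψ
  have hle : ψ u₀ ≤ ‖ψ‖ := by
    have h1 : ψ u₀ ≤ ‖ψ‖ * ‖u₀‖ := (le_abs_self _).trans (ψ.le_opNorm u₀)
    have h2 : ‖ψ‖ * ‖u₀‖ ≤ ‖ψ‖ * 1 := mul_le_mul_of_nonneg_left hu₀ hψpos.le
    linarith
  have ha : a < ‖ψ‖ := lt_of_lt_of_le hau hle
  set ε' : ℝ := min ε ((‖ψ‖ - a) / (2 * ‖ψ‖)) with hε'
  have hε'pos : 0 < ε' := lt_min hε (div_pos (by linarith) (by positivity))
  have hφ : ‖(‖ψ‖⁻¹) • ψ‖ = 1 := by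
    rw [norm_smul, norm_inv, norm_norm, inv_mul_cancel₀ hψpos.ne']
  obtain ⟨u, hu, h1, h2⟩ := slice_unit hD ((‖ψ‖⁻¹) • ψ) hφ v hv hε'pos
  refine ⟨u, hu, ?_, ?_⟩
  · have h3 : ((‖ψ‖⁻¹) • ψ) u = ‖ψ‖⁻¹ * ψ u := by simp
    rw [h3] at h1
    have h4 : ε' ≤ (‖ψ‖ - a) / (2 * ‖ψ‖) := min_le_right _ _
    have h5 : ‖ψ‖ * (1 - ε') ≤ ψ u := by
      have := mul_le_mul_of_nonneg_left h1 hψpos.le
      rwa [← mul_assoc, mul_inv_cancel₀ hψpos.ne', one_mul] at this
    have h6 : ‖ψ‖ * ε' ≤ (‖ψ‖ - a) / 2 := by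
      have := mul_le_mul_of_nonneg_left h4 hψpos.le
      have h7 : ‖ψ‖ * ((‖ψ‖ - a) / (2 * ‖ψ‖)) = (‖ψ‖ - a) / 2 := by
        field_simp
      rwa [h7] at this
    nlinarith
  · have : ε' ≤ ε := min_le_left _ _
    linarith

variable {Q : Type*} [NormedAddCommGroup Q] [NormedSpace ℝ Q]

/-- The property of a point of the image: it can be approximated by the images of ball elements
that add up in norm with any given vector. -/
def Gp (π : V →L[ℝ] Q) (q : Q) : Prop :=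
  ∀ ε : ℝ, 0 < ε → ∀ v : V, ∃ u : V, ‖u‖ ≤ 1 ∧ ‖π u - q‖ < ε ∧ ‖v‖ + 1 - ε ≤ ‖v + u‖

lemma Gp_convex (π : V →L[ℝ] Q) : Convex ℝ {q | Gp π q} := by
  rw [convex_iff_forall_pos]
  intro q₁ h₁ q₂ h₂ a b ha hb hab ε hε v
  obtain ⟨u₁, hu₁, hq₁, hn₁⟩ := h₁ (ε / 2) (by positivity) v
  have hv₁ : ‖v + u₁‖ ≤ ‖v + a • u₁‖ + b := by
    have h1 : v + u₁ = (v + a • u₁) + b • u₁ := by
      have : u₁ = a • u₁ + b • u₁ := by rw [← add_smul, hab, one_smul]
      nth_rewrite 1 [this]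
      abel
    rw [h1]
    refine (norm_add_le _ _).trans ?_
    rw [norm_smul, Real.norm_eq_abs, abs_of_pos hb]
    have : b * ‖u₁‖ ≤ b * 1 := mul_le_mul_of_nonneg_left hu₁ hb.le
    linarith
  obtain ⟨u₂, hu₂, hq₂, hn₂⟩ := h₂ (ε / 2) (by positivity) (b⁻¹ • (v + a • u₁))
  refine ⟨a • u₁ + b • u₂, ?_, ?_, ?_⟩
  · refine (norm_add_le _ _).trans ?_
    rw [norm_smul, norm_smul, Real.norm_eq_abs, Real.norm_eq_abs, abs_of_pos ha, abs_of_pos hb]
    have h1 : a * ‖u₁‖ ≤ a * 1 := mul_le_mul_of_nonneg_left hu₁ ha.le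
    have h2 : b * ‖u₂‖ ≤ b * 1 := mul_le_mul_of_nonneg_left hu₂ hb.le
    linarith
  · have h1 : π (a • u₁ + b • u₂) - (a • q₁ + b • q₂) = a • (π u₁ - q₁) + b • (π u₂ - q₂) := by
      simp only [map_add, map_smul, smul_sub]
      abel
    rw [h1]
    refine (norm_add_le _ _).trans_lt ?_
    rw [norm_smul, norm_smul, Real.norm_eq_abs, Real.norm_eq_abs, abs_of_pos ha, abs_of_pos hb]
    have h2 : a * ‖π u₁ - q₁‖ ≤ a * (ε / 2) := mul_le_mul_of_nonneg_left hq₁.le ha.le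
    have h3 : b * ‖π u₂ - q₂‖ ≤ b * (ε / 2) := mul_le_mul_of_nonneg_left hq₂.le hb.le
    have h4 : a * (ε / 2) + b * (ε / 2) = ε / 2 := by
      rw [← add_mul, hab, one_mul]
    linarith
  · have h1 : v + (a • u₁ + b • u₂) = b • (b⁻¹ • (v + a • u₁) + u₂) := by
      rw [smul_add, smul_smul, mul_inv_cancel₀ hb.ne', one_smul]
      abel
    rw [h1, norm_smul, Real.norm_eq_abs, abs_of_pos hb]
    have h2 : b * (‖b⁻¹ • (v + a • u₁)‖ + 1 - ε / 2) ≤ b * ‖b⁻¹ • (v + a • u₁) + u₂‖ :=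
      mul_le_mul_of_nonneg_left hn₂ hb.le
    have h3 : b * ‖b⁻¹ • (v + a • u₁)‖ = ‖v + a • u₁‖ := by
      rw [norm_smul, norm_inv, Real.norm_eq_abs, abs_of_pos hb, ← mul_assoc, mul_inv_cancel₀ hb.ne',
        one_mul]
    have h4 : b * (‖b⁻¹ • (v + a • u₁)‖ + 1 - ε / 2) = ‖v + a • u₁‖ + b - b * (ε / 2) := by
      rw [← h3]; ring
    rw [h4] at h2
    have hb1 : b ≤ 1 := by linarith
    have h5 : b * (ε / 2) ≤ 1 * (ε / 2) := mul_le_mul_of_nonneg_right hb1 (by positivity)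
    have hab' : a = 1 - b := by linarith
    linarith

lemma Gp_closed (π : V →L[ℝ] Q) {q : Q} (hq : q ∈ closure {q | Gp π q}) : Gp π q := by
  intro ε hε v
  obtain ⟨q', hq', hd⟩ := Metric.mem_closure_iff.1 hq (ε / 2) (by positivity)
  obtain ⟨u, hu, h1, h2⟩ := hq' (ε / 2) (by positivity) v
  refine ⟨u, hu, ?_, by linarith⟩
  have h3 : ‖π u - q‖ ≤ ‖π u - q'‖ + ‖q' - q‖ := by
    have : π u - q = (π u - q') + (q' - q) := by abel
    rw [this]
    exact norm_add_le _ _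
  rw [dist_comm, dist_eq_norm] at hd
  linarith

/-- from a unit vector to arbitrary vectors -/
lemma add_norm_of_unit {u w : V} (hu : ‖u‖ ≤ 1) (hw : ‖w‖ = 1) {ρ ε : ℝ} (hρ : 0 ≤ ρ)
    (h : 2 - ε ≤ ‖u + w‖) (hε : 0 ≤ ε) : ρ + 1 - (1 + ρ) * ε ≤ ‖ρ • w + u‖ := by
  rcases le_total ρ 1 with h1 | h1
  · have h2 : u + w = (ρ • w + u) + (1 - ρ) • w := by
      rw [sub_smul, one_smul]; abel
    rw [h2] at h
    have h3 := norm_add_le (ρ • w + u) ((1 - ρ) • w)
    rw [norm_smul, hw, mul_one, Real.norm_eq_abs, abs_of_nonneg (by linarith)] at h3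
    nlinarith
  · have h2 : ρ • w + u = ρ • (u + w) - (ρ - 1) • u := by
      rw [smul_add, sub_smul, one_smul]; abel
    rw [h2]
    have h3 := norm_sub_norm_le (ρ • (u + w)) ((ρ - 1) • u)
    rw [norm_smul, norm_smul, Real.norm_eq_abs, Real.norm_eq_abs, abs_of_nonneg hρ,
      abs_of_nonneg (by linarith)] at h3
    have h4 : (ρ - 1) * ‖u‖ ≤ (ρ - 1) * 1 := mul_le_mul_of_nonneg_left hu (by linarith)
    have h5 : ρ * (2 - ε) ≤ ρ * ‖u + w‖ := mul_le_mul_of_nonneg_left h hρ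
    nlinarith

variable [Nontrivial V]

/-- Extreme points of the closed image of the ball have the property `Gp`. -/
lemma Gp_of_extreme (hD : HasDaugavetProperty V) (π : V →L[ℝ] Q) {C : Set Q}
    (hCdef : C = closure (π '' Metric.closedBall (0 : V) 1))
    (hC : IsCompact C) (hcv : Convex ℝ C) {z : Q} (hz : z ∈ C.extremePoints ℝ) : Gp π z := by
  intro ε hε v
  obtain ⟨l, a, ha, hl⟩ := exists_slice hC hcv hz hε
  have hzC : z ∈ C := hz.1
  -- a point of the ball in the slice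
  have hopen : IsOpen {y : Q | a < l y} := isOpen_lt continuous_const l.continuous
  have hzC' : z ∈ closure (π '' Metric.closedBall (0 : V) 1) := by rwa [← hCdef]
  obtain ⟨y, hy1, hy2⟩ := mem_closure_iff.1 hzC' _ hopen ha
  obtain ⟨u₀, hu₀, rfl⟩ := hy2
  have hu₀' : ‖u₀‖ ≤ 1 := by simpa using hu₀
  -- unit direction
  obtain ⟨w, hw, hvw⟩ : ∃ w : V, ‖w‖ = 1 ∧ v = ‖v‖ • w := by
    by_cases hv : v = 0
    · obtain ⟨w, hw⟩ := exists_norm_eq V (zero_le_one)
      exact ⟨w, hw, by simp [hv]⟩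
    · have hvn : ‖v‖ ≠ 0 := norm_ne_zero_iff.2 hv
      refine ⟨(‖v‖⁻¹) • v, ?_, ?_⟩
      · rw [norm_smul, norm_inv, norm_norm, inv_mul_cancel₀ hvn]
      · rw [smul_smul, mul_inv_cancel₀ hvn, one_smul]
  have hρ : 0 < 1 + ‖v‖ := by positivity
  obtain ⟨u, hu, hlu, hsum⟩ := slice_general hD (l.comp π) a u₀ hu₀' hy1 w hw
    (show 0 < ε / (1 + ‖v‖) by positivity)
  refine ⟨u, hu, ?_, ?_⟩
  · refine hl _ ?_ hlu
    rw [hCdef]
    exact subset_closure ⟨u, by simpa using hu, rfl⟩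
  · have h1 := add_norm_of_unit hu hw (norm_nonneg v) hsum (by positivity)
    rw [← hvw] at h1
    have h2 : (1 + ‖v‖) * (ε / (1 + ‖v‖)) = ε := by field_simp
    rw [h2] at h1
    exact h1

/-- All points of the closed image of the ball have the property `Gp`. -/
theorem Gp_all [FiniteDimensional ℝ Q] (hD : HasDaugavetProperty V) (π : V →L[ℝ] Q) {u : V}
    (hu : ‖u‖ ≤ 1) : Gp π (π u) := by
  haveI : ProperSpace Q := FiniteDimensional.proper_real Q
  set C : Set Q := closure (π '' Metric.closedBall (0 : V) 1) with hCdef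
  have hcv : Convex ℝ C :=
    ((convex_closedBall (0 : V) 1).linear_image (π : V →ₗ[ℝ] Q)).closure
  have hC : IsCompact C := by
    have hb : π '' Metric.closedBall (0 : V) 1 ⊆ Metric.closedBall (0 : Q) ‖π‖ := by
      rintro _ ⟨x, hx, rfl⟩
      have hx' : ‖x‖ ≤ 1 := by simpa using hx
      simp only [mem_closedBall_zero_iff]
      have := π.le_opNorm x
      have h2 : ‖π‖ * ‖x‖ ≤ ‖π‖ * 1 := mul_le_mul_of_nonneg_left hx' (norm_nonneg _)
      linarith
    have : C ⊆ Metric.closedBall (0 : Q) ‖π‖ := closure_minimal hb Metric.isClosed_closedBall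
    exact (isCompact_closedBall (0 : Q) ‖π‖).of_isClosed_subset isClosed_closure this
  have hKM := closure_convexHull_extremePoints hC hcv
  have hsub : convexHull ℝ (C.extremePoints ℝ) ⊆ {q | Gp π q} :=
    convexHull_min (fun z hz => Gp_of_extreme hD π hCdef hC hcv hz) (Gp_convex π)
  have hmem : π u ∈ C := subset_closure ⟨u, by simpa using hu, rfl⟩
  rw [← hKM] at hmem
  exact Gp_closed π (closure_mono hsub hmem)

end daugavet

section key

variable {V : Type*} [NormedAddCommGroup V] [NormedSpace ℝ V] [Nontrivial V]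

/-- The key lemma: in a space with the Daugavet property any closed finite-codimensional subspace
contains directions of length almost `2` which almost stay in the unit ball. -/
theorem key_lemma (hD : HasDaugavetProperty V) (S : Submodule ℝ V) (hS : IsClosed (S : Set V))
    (hfin : FiniteDimensional ℝ (V ⧸ S)) (x : V) (hx : ‖x‖ ≤ 1) {ε : ℝ} (hε : 0 < ε) :
    ∃ x' : V, x' - x ∈ S ∧ ‖x'‖ ≤ 1 + ε ∧ ‖x‖ + 1 - ε ≤ ‖x' - x‖ := by
  haveI : IsClosed (S : Set V) := hS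
  let π : V →L[ℝ] (V ⧸ S) :=
    LinearMap.mkContinuous S.mkQ 1 fun y => by
      rw [one_mul]
      exact Submodule.Quotient.norm_mk_le S y
  have hπ : ∀ y, π y = Submodule.Quotient.mk y := fun y => rfl
  obtain ⟨u, hu, h1, h2⟩ := Gp_all hD π hx (ε / 2) (by positivity) (-x)
  have h3 : ‖π (u - x)‖ < ε / 2 := by
    rw [map_sub]
    exact h1
  obtain ⟨m, hm, hmnorm⟩ := Submodule.Quotient.norm_mk_lt (π (u - x)) (show 0 < ε / 2 - ‖π (u - x)‖ by linarith)
  refine ⟨u - m, ?_, ?_, ?_⟩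
  · have h4 : (Submodule.Quotient.mk (u - x) : V ⧸ S) = Submodule.Quotient.mk m := by
      rw [← hπ, ← hm]
    rw [Submodule.Quotient.eq] at h4
    have h5 : u - m - x = u - x - m := by abel
    rw [h5]
    exact h4
  · have h6 := norm_sub_le u m
    linarith
  · have h7 : u - x = (u - m - x) + m := by abel
    have h8 := norm_add_le (u - m - x) m
    rw [← h7] at h8
    rw [norm_neg] at h2
    have h9 : -x + u = u - x := by abel
    rw [h9] at h2
    linarith

end key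

end Crest.Agent.Lib.DaugavetSlices
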