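import Mathlib
import Crest.Prelude.Def_Diamond

/-!
Metric facts about the countably branching diamond graphs.
-/

set_option autoImplicit false
set_option linter.unusedSectionVars false

namespace Crest.Agent.Lib.DiamondGraph

open Crest.AnalysisR

/-- old vertices -/
def inl' {n : ℕ} (a : DiamondVertex n) : DiamondVertex (n + 1) := Sum.inl a

/-- new midpoints -/
def mid {n : ℕ} (e : DiamondEdge n) (i : ℕ) : DiamondVertex (n + 1) := Sum.inr (e, i)

/-- the first half of a subdivided edge -/
def edgeL {n : ℕ} (e : DiamondEdge n) (i : ℕ) : DiamondEdge (n + 1) := (e, i, false)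

/-- the second half of a subdivided edge -/
def edgeR {n : ℕ} (e : DiamondEdge n) (i : ℕ) : DiamondEdge (n + 1) := (e, i, true)

lemma src_edgeL {n : ℕ} (e : DiamondEdge n) (i : ℕ) :
    diamondSrc (n + 1) (edgeL e i) = inl' (diamondSrc n e) := rfl

lemma tgt_edgeL {n : ℕ} (e : DiamondEdge n) (i : ℕ) :
    diamondTgt (n + 1) (edgeL e i) = mid e i := rfl

lemma src_edgeR {n : ℕ} (e : DiamondEdge n) (i : ℕ) :
    diamondSrc (n + 1) (edgeR e i) = mid e i := rfl

lemma tgt_edgeR {n : ℕ} (e : DiamondEdge n) (i : ℕ) :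
    diamondTgt (n + 1) (edgeR e i) = inl' (diamondTgt n e) := rfl

lemma inl'_ne_mid {n : ℕ} (a : DiamondVertex n) (e : DiamondEdge n) (i : ℕ) :
    inl' a ≠ mid e i := Sum.inl_ne_inr

lemma mid_inj {n : ℕ} {e : DiamondEdge n} {i j : ℕ} (h : mid e i = mid e j) : i = j := by
  have h1 : (e, i) = (e, j) := Sum.inr.inj h
  exact (Prod.mk.inj h1).2

lemma adj_of_edge {n : ℕ} (e : DiamondEdge n) (h : diamondSrc n e ≠ diamondTgt n e) :
    (diamondGraph n).Adj (diamondSrc n e) (diamondTgt n e) := by
  rw [diamondGraph, SimpleGraph.fromRel_adj]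
  exact ⟨h, Or.inl ⟨e, rfl, rfl⟩⟩

lemma adj_left {n : ℕ} (e : DiamondEdge n) (i : ℕ) :
    (diamondGraph (n + 1)).Adj (inl' (diamondSrc n e)) (mid e i) :=
  adj_of_edge (edgeL e i) (inl'_ne_mid _ e i)

lemma adj_right {n : ℕ} (e : DiamondEdge n) (i : ℕ) :
    (diamondGraph (n + 1)).Adj (mid e i) (inl' (diamondTgt n e)) :=
  adj_of_edge (edgeR e i) (inl'_ne_mid _ e i).symm

/-- classification of adjacent pairs -/
lemma adj_cases {n : ℕ} {a b : DiamondVertex (n + 1)} (h : (diamondGraph (n + 1)).Adj a b) :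
    ∃ (e : DiamondEdge n) (i : ℕ), (a = inl' (diamondSrc n e) ∧ b = mid e i) ∨
      (a = mid e i ∧ b = inl' (diamondTgt n e)) ∨
      (b = inl' (diamondSrc n e) ∧ a = mid e i) ∨
      (b = mid e i ∧ a = inl' (diamondTgt n e)) := by
  rw [diamondGraph, SimpleGraph.fromRel_adj] at h
  obtain ⟨-, h⟩ := h
  rcases h with ⟨⟨e, i, c⟩, h1, h2⟩ | ⟨⟨e, i, c⟩, h1, h2⟩
  · cases c with
    | false => exact ⟨e, i, Or.inl ⟨h1.symm, h2.symm⟩⟩
    | true => exact ⟨e, i, Or.inr (Or.inl ⟨h1.symm, h2.symm⟩)⟩
  · cases c with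
    | false => exact ⟨e, i, Or.inr (Or.inr (Or.inl ⟨h1.symm, h2.symm⟩))⟩
    | true => exact ⟨e, i, Or.inr (Or.inr (Or.inr ⟨h1.symm, h2.symm⟩))⟩

/-- walks lift, doubling their length -/
lemma exists_lift {n : ℕ} {u v : DiamondVertex n} (p : (diamondGraph n).Walk u v) :
    ∃ q : (diamondGraph (n + 1)).Walk (inl' u) (inl' v), q.length = 2 * p.length := by
  induction p with
  | nil => exact ⟨SimpleGraph.Walk.nil, rfl⟩
  | @cons a b c h p ih =>
    obtain ⟨q, hq⟩ := ih
    rw [diamondGraph, SimpleGraph.fromRel_adj] at h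
    obtain ⟨-, h⟩ := h
    rcases h with ⟨e, rfl, rfl⟩ | ⟨e, rfl, rfl⟩
    · refine ⟨SimpleGraph.Walk.cons (adj_left e 0) (SimpleGraph.Walk.cons (adj_right e 0) q), ?_⟩
      simp only [SimpleGraph.Walk.length_cons, hq]
      ring
    · refine ⟨SimpleGraph.Walk.cons (adj_right e 0).symm
        (SimpleGraph.Walk.cons (adj_left e 0).symm q), ?_⟩
      simp only [SimpleGraph.Walk.length_cons, hq]
      ring

/-- connectedness -/
theorem reachable : ∀ (n : ℕ) (u v : DiamondVertex n), (diamondGraph n).Reachable u v := by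
  intro n
  induction n with
  | zero =>
    have h : (diamondGraph 0).Adj (false : DiamondVertex 0) (true : DiamondVertex 0) :=
      adj_of_edge (n := 0) (show DiamondEdge 0 from ()) Bool.false_ne_true
    intro u v
    have hall : ∀ w : DiamondVertex 0, (diamondGraph 0).Reachable (false : DiamondVertex 0) w := by
      intro w
      cases w with
      | false => exact SimpleGraph.Reachable.refl _
      | true => exact h.reachable
    exact (hall u).symm.trans (hall v)
  | succ n ih =>
    have hinl : ∀ a b : DiamondVertex n, (diamondGraph (n + 1)).Reachable (inl' a) (inl' b) := by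
      intro a b
      obtain ⟨p⟩ := ih a b
      obtain ⟨q, -⟩ := exists_lift p
      exact ⟨q⟩
    have hall : ∀ w : DiamondVertex (n + 1), ∃ a : DiamondVertex n,
        (diamondGraph (n + 1)).Reachable (inl' a) w := by
      intro w
      cases w with
      | inl a => exact ⟨a, SimpleGraph.Reachable.refl _⟩
      | inr x =>
        obtain ⟨e, i⟩ := x
        exact ⟨_, (adj_left e i).reachable⟩
    intro u v
    obtain ⟨a, ha⟩ := hall u
    obtain ⟨b, hb⟩ := hall v
    exact ha.symm.trans ((hinl a b).trans hb)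

theorem connected (n : ℕ) : (diamondGraph n).Connected := by
  haveI : Nonempty (DiamondVertex n) := by
    induction n with
    | zero => exact ⟨(false : Bool)⟩
    | succ n ih =>
      obtain ⟨a⟩ := ih
      exact ⟨inl' a⟩
  exact { preconnected := reachable n }

lemma dist_edge_le (n : ℕ) (e : DiamondEdge n) : diamondDist n (diamondSrc n e) (diamondTgt n e) ≤ 1 := by
  by_cases h : diamondSrc n e = diamondTgt n e
  · rw [h, diamondDist, SimpleGraph.dist_self]
    exact zero_le_one
  · rw [diamondDist, SimpleGraph.dist_eq_one_iff_adj.2 (adj_of_edge e h)]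

lemma dist_comm' (n : ℕ) (u v : DiamondVertex n) : diamondDist n u v = diamondDist n v u :=
  SimpleGraph.dist_comm

lemma dist_triangle' (n : ℕ) (u v w : DiamondVertex n) :
    diamondDist n u w ≤ diamondDist n u v + diamondDist n v w :=
  (connected n).dist_triangle

/-- potentials that are `1`-Lipschitz on adjacent pairs are `1`-Lipschitz along walks -/
lemma abs_sub_le_length {V : Type*} {G : SimpleGraph V} (Φ : V → ℝ)
    (h : ∀ a b, G.Adj a b → |Φ a - Φ b| ≤ 1) {u v : V} (p : G.Walk u v) :
    |Φ u - Φ v| ≤ p.length := by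
  induction p with
  | nil => simp
  | @cons a b c hab p ih =>
    have h1 := h a b hab
    have h2 : Φ a - Φ c = (Φ a - Φ b) + (Φ b - Φ c) := by ring
    rw [h2]
    refine (abs_add_le _ _).trans ?_
    simp only [SimpleGraph.Walk.length_cons]
    push_cast
    linarith

/-- the distance of old vertices doubles -/
theorem dist_inl (n : ℕ) (u v : DiamondVertex n) :
    diamondDist (n + 1) (inl' u) (inl' v) = 2 * diamondDist n u v := by
  apply le_antisymm
  · obtain ⟨p, hp⟩ := (reachable n u v).exists_walk_length_eq_dist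
    obtain ⟨q, hq⟩ := exists_lift p
    calc diamondDist (n + 1) (inl' u) (inl' v) ≤ q.length := SimpleGraph.dist_le q
      _ = 2 * diamondDist n u v := by rw [hq, hp]; rfl
  · -- the potential
    let φ : DiamondVertex n → ℝ := fun a => diamondDist n u a
    have hφ : ∀ e : DiamondEdge n, |φ (diamondSrc n e) - φ (diamondTgt n e)| ≤ 1 := by
      intro e
      have h1 := dist_edge_le n e
      have h2 := dist_triangle' n u (diamondSrc n e) (diamondTgt n e)
      have h3 := dist_triangle' n u (diamondTgt n e) (diamondSrc n e)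
      rw [dist_comm' n (diamondTgt n e) (diamondSrc n e)] at h3
      have h4 : (diamondDist n u (diamondTgt n e) : ℝ) ≤
          diamondDist n u (diamondSrc n e) + diamondDist n (diamondSrc n e) (diamondTgt n e) := by
        exact_mod_cast h2
      have h5 : (diamondDist n u (diamondSrc n e) : ℝ) ≤
          diamondDist n u (diamondTgt n e) + diamondDist n (diamondSrc n e) (diamondTgt n e) := by
        exact_mod_cast h3
      have h6 : (diamondDist n (diamondSrc n e) (diamondTgt n e) : ℝ) ≤ 1 := by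
        exact_mod_cast h1
      rw [abs_le]
      simp only [φ]
      constructor <;> linarith
    let Φ : DiamondVertex (n + 1) → ℝ := fun w =>
      match w with
      | Sum.inl a => 2 * φ a
      | Sum.inr x => φ (diamondSrc n x.1) + φ (diamondTgt n x.1)
    have hΦ1 : ∀ a, Φ (inl' a) = 2 * φ a := fun a => rfl
    have hΦ2 : ∀ e i, Φ (mid e i) = φ (diamondSrc n e) + φ (diamondTgt n e) := fun e i => rfl
    have hΦ : ∀ a b, (diamondGraph (n + 1)).Adj a b → |Φ a - Φ b| ≤ 1 := by
      intro a b hab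
      obtain ⟨e, i, h⟩ := adj_cases hab
      have h7 := abs_le.1 (hφ e)
      rcases h with ⟨rfl, rfl⟩ | ⟨rfl, rfl⟩ | ⟨rfl, rfl⟩ | ⟨rfl, rfl⟩ <;>
        simp only [hΦ1, hΦ2] <;> rw [abs_le] <;> constructor <;> linarith [h7.1, h7.2]
    obtain ⟨q, hq⟩ := (reachable (n + 1) (inl' u) (inl' v)).exists_walk_length_eq_dist
    have h8 := abs_sub_le_length Φ hΦ q
    rw [hq, hΦ1, hΦ1] at h8
    have h9 : φ u = 0 := by
      simp [φ, diamondDist]
    rw [h9, mul_zero, zero_sub, abs_neg, abs_mul, abs_of_pos (by norm_num : (0 : ℝ) < 2),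
      abs_of_nonneg (by simp only [φ]; positivity)] at h8
    have h10 : ((2 * diamondDist n u v : ℕ) : ℝ) ≤ ((diamondDist (n + 1) (inl' u) (inl' v) : ℕ) : ℝ) := by
      push_cast
      exact h8
    exact_mod_cast h10

/-- siblings are at distance at least two -/
theorem dist_sibling {n : ℕ} (e : DiamondEdge n) {i j : ℕ} (hij : i ≠ j) :
    2 ≤ diamondDist (n + 1) (mid e i) (mid e j) := by
  have hne : mid e i ≠ mid e j := fun h => hij (mid_inj h)
  have h0 : diamondDist (n + 1) (mid e i) (mid e j) ≠ 0 := by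
    intro h
    exact hne (((reachable (n + 1) _ _).dist_eq_zero_iff).1 h)
  have h1 : diamondDist (n + 1) (mid e i) (mid e j) ≠ 1 := by
    intro h
    have hadj := SimpleGraph.dist_eq_one_iff_adj.1 h
    obtain ⟨e', i', hc⟩ := adj_cases hadj
    rcases hc with ⟨h2, _⟩ | ⟨_, h2⟩ | ⟨h2, _⟩ | ⟨_, h2⟩ <;>
      exact inl'_ne_mid _ _ _ h2.symm
  omega

/-- a midpoint is adjacent to the source of its edge -/
theorem dist_mid_src {n : ℕ} (e : DiamondEdge n) (i : ℕ) :
    diamondDist (n + 1) (mid e i) (inl' (diamondSrc n e)) = 1 :=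
  SimpleGraph.dist_eq_one_iff_adj.2 (adj_left e i).symm

theorem dist_base : diamondDist 0 (diamondSrc 0 ()) (diamondTgt 0 ()) = 1 :=
  SimpleGraph.dist_eq_one_iff_adj.2
    (adj_of_edge (n := 0) (show DiamondEdge 0 from ()) Bool.false_ne_true)

end Crest.Agent.Lib.DiamondGraph
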