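import Mathlib
import Crest.Prelude.Def_AsymptoticConvexity

/-!
Generic obstruction to asymptotically uniformly convex renormings: a bush of points with bounded
norms, whose steps stay away from zero and are almost in every closed finite-codimensional subspace.
-/

set_option autoImplicit false

namespace Crest.Agent.Lib.TreeAUC

open Crest.AnalysisR

section generic

variable {X : Type*} [NormedAddCommGroup X] [NormedSpace ℝ X]

/-- Closed finite-codimensional subspaces, as sets. -/
def IsCofG (F : Set X) : Prop :=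
  ∃ S : Submodule ℝ X, (S : Set X) = F ∧ IsClosed F ∧ FiniteDimensional ℝ (X ⧸ S)

/-- The bush predicate: `BushAt B δ n x` says that `x` is the root of a bush of height `n` in the
ball of radius `B`. -/
def BushAt (B δ : ℝ) : ℕ → X → Prop
  | 0, x => ‖x‖ ≤ B
  | n + 1, x => ‖x‖ ≤ B ∧ ∀ F : Set X, IsCofG F → ∀ η : ℝ, 0 < η →
      ∃ x', BushAt B δ n x' ∧ δ ≤ ‖x' - x‖ ∧ ∃ z ∈ F, ‖x' - x - z‖ ≤ η

theorem BushAt.norm_le {B δ : ℝ} {n : ℕ} {x : X} (h : BushAt B δ n x) : ‖x‖ ≤ B := by
  cases n with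
  | zero => exact h
  | succ n => exact h.1

/-- An equivalent norm which is AUC cannot exist on a space with bushes of all heights. -/
theorem false_of_bushes (N : X → ℝ)
    (hadd : ∀ x y : X, N (x + y) ≤ N x + N y)
    (hsmul : ∀ (a : ℝ) (x : X), N (a • x) = |a| * N x)
    (a b : ℝ) (ha : 0 < a) (hab : ∀ x : X, a * ‖x‖ ≤ N x ∧ N x ≤ b * ‖x‖)
    (hauc : ∀ t : ℝ, 0 < t → ∃ c : ℝ, 0 < c ∧ ∀ x : X, N x = 1 → ∃ F : Set X, IsCofG F ∧
      ∀ y ∈ F, N y = 1 → c ≤ N (x + t • y) - 1)
    (B δ δ₀ : ℝ) (hδ : 0 < δ) (hδ₀ : 0 < δ₀)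
    (hbush : ∀ n : ℕ, ∃ x : X, BushAt B δ n x ∧ δ₀ ≤ ‖x‖) : False := by
  -- basic consequences
  obtain ⟨x₀, hx₀, hx₀'⟩ := hbush 0
  have hB : 0 < B := lt_of_lt_of_le (lt_of_lt_of_le hδ₀ hx₀') hx₀
  have hx₀pos : 0 < ‖x₀‖ := lt_of_lt_of_le hδ₀ hx₀'
  have hb : 0 < b := by
    have h1 := hab x₀
    have h2 : a * ‖x₀‖ ≤ b * ‖x₀‖ := h1.1.trans h1.2
    have h3 : a ≤ b := le_of_mul_le_mul_right h2 hx₀pos
    linarith
  have hNsub : ∀ x y : X, N x - N y ≤ N (x - y) := by
    intro x y
    have := hadd (x - y) y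
    simp only [sub_add_cancel] at this
    linarith
  have hNneg : ∀ x : X, N (-x) = N x := by
    intro x
    have := hsmul (-1) x
    simpa using this
  set t₀ : ℝ := a * δ / (2 * b * B) with ht₀
  have ht₀pos : 0 < t₀ := by positivity
  obtain ⟨c, hc, hauc'⟩ := hauc t₀ ht₀pos
  set A₀ : ℝ := a * δ₀ with hA₀
  have hA₀pos : 0 < A₀ := by positivity
  have key : ∀ (n : ℕ) (x : X), BushAt B δ n x → A₀ ≤ N x → (1 + c / 2) ^ n * N x ≤ b * B := by
    intro n
    induction n with
    | zero =>
      intro x hx _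
      simp only [pow_zero, one_mul]
      exact (hab x).2.trans (mul_le_mul_of_nonneg_left hx hb.le)
    | succ n ih =>
      intro x hx hAx
      obtain ⟨hxB, hstep⟩ := hx
      set A : ℝ := N x with hA
      have hApos : 0 < A := lt_of_lt_of_le hA₀pos hAx
      have hAle : A ≤ b * B := (hab x).2.trans (mul_le_mul_of_nonneg_left hxB hb.le)
      set u : X := (1 / A) • x with hu
      have hNu : N u = 1 := by
        rw [hu, hsmul, abs_of_pos (by positivity)]
        field_simp
        exact hA.symm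
      obtain ⟨F, hF, hFy⟩ := hauc' u hNu
      obtain ⟨S, hSF, -, -⟩ := id hF
      set η : ℝ := min (a * δ / (2 * b)) (A₀ * c / (2 * b)) with hη
      have hηpos : 0 < η := by
        rw [hη]; exact lt_min (by positivity) (by positivity)
      obtain ⟨x', hx', hδx', z, hzF, hz⟩ := hstep F hF η hηpos
      have hη1 : b * η ≤ a * δ / 2 := by
        have : η ≤ a * δ / (2 * b) := min_le_left _ _
        calc b * η ≤ b * (a * δ / (2 * b)) := mul_le_mul_of_nonneg_left this hb.le
          _ = a * δ / 2 := by field_simp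
      have hη2 : b * η ≤ A₀ * c / 2 := by
        have : η ≤ A₀ * c / (2 * b) := min_le_right _ _
        calc b * η ≤ b * (A₀ * c / (2 * b)) := mul_le_mul_of_nonneg_left this hb.le
          _ = A₀ * c / 2 := by field_simp
      have herr : N (x' - x - z) ≤ b * η :=
        (hab _).2.trans (mul_le_mul_of_nonneg_left hz hb.le)
      -- lower bound for N z
      have hNz : a * δ / 2 ≤ N z := by
        have h1 : a * δ ≤ N (x' - x) :=
          (mul_le_mul_of_nonneg_left hδx' ha.le).trans (hab _).1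
        have h2 := hNsub (x' - x) z
        linarith
      have hNzpos : 0 < N z := lt_of_lt_of_le (by positivity) hNz
      set s : ℝ := N z / A with hs
      have hspos : 0 < s := by positivity
      have hts : t₀ ≤ s := by
        rw [ht₀, hs, div_le_div_iff₀ (by positivity) hApos]
        have h3 : a * δ * A ≤ a * δ * (b * B) :=
          mul_le_mul_of_nonneg_left hAle (by positivity)
        have h4 : a * δ * (b * B) ≤ N z * (2 * b * B) := by
          have : a * δ / 2 * (2 * b * B) ≤ N z * (2 * b * B) :=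
            mul_le_mul_of_nonneg_right hNz (by positivity)
          calc a * δ * (b * B) = a * δ / 2 * (2 * b * B) := by ring
            _ ≤ _ := this
        linarith
      -- the unit vector in F
      set v : X := (1 / N z) • z with hv
      have hvF : v ∈ F := by
        rw [← hSF] at hzF ⊢
        exact S.smul_mem _ hzF
      have hNv : N v = 1 := by
        rw [hv, hsmul, abs_of_pos (by positivity)]
        field_simp
      have hc1 := hFy v hvF hNv
      -- convexity along the ray
      set θ : ℝ := t₀ / s with hθ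
      have hθpos : 0 < θ := by positivity
      have hθle : θ ≤ 1 := by
        rw [hθ, div_le_one hspos]; exact hts
      have hcomb : u + t₀ • v = (1 - θ) • u + θ • (u + s • v) := by
        have h1 : θ * s = t₀ := by rw [hθ]; field_simp
        have h2 : θ • (s • v) = t₀ • v := by
          rw [← h1]
          exact smul_smul θ s v
        rw [smul_add θ u (s • v), h2, sub_smul, one_smul]
        abel
      have hconv : N (u + t₀ • v) ≤ (1 - θ) * 1 + θ * N (u + s • v) := by
        rw [hcomb]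
        refine (hadd _ _).trans ?_
        have hs1 : N ((1 - θ) • u) = (1 - θ) * 1 := by
          rw [hsmul (1 - θ) u, hNu, abs_of_nonneg (by linarith)]
        have hs2 : N (θ • (u + s • v)) = θ * N (u + s • v) := by
          rw [hsmul θ (u + s • v), abs_of_pos hθpos]
        rw [hs1, hs2]
      have hus : 1 + c ≤ N (u + s • v) := by
        have h5 : θ * (1 + c) ≤ θ * N (u + s • v) := by
          have h6 : 1 + c ≤ N (u + t₀ • v) := by linarith
          nlinarith
        have h7 : 1 + c * θ ≤ N (u + s • v) := by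
          have h8 : θ * (1 + c * θ) ≤ θ * N (u + s • v) := by nlinarith
          exact le_of_mul_le_mul_left h8 hθpos
        have h9 : θ * (1 + c) ≤ θ * N (u + s • v) := h5
        exact le_of_mul_le_mul_left h9 hθpos
      have hidentity : u + s • v = (1 / A) • (x + z) := by
        rw [hu, hv, smul_smul, smul_add]
        congr 2
        rw [hs]; field_simp
      have hNxz : A * (1 + c) ≤ N (x + z) := by
        have h10 : N (u + s • v) = 1 / A * N (x + z) := by
          rw [hidentity, hsmul, abs_of_pos (by positivity)]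
        rw [h10] at hus
        have h11 : A * (1 + c) ≤ A * (1 / A * N (x + z)) :=
          mul_le_mul_of_nonneg_left hus hApos.le
        have h12 : A * (1 / A * N (x + z)) = N (x + z) := by field_simp
        linarith
      have hNx' : A * (1 + c / 2) ≤ N x' := by
        have h13 : N (x + z) - N (x' - x - z) ≤ N x' := by
          have h14 := hadd (x + z) (x' - x - z)
          have h15 : x + z + (x' - x - z) = x' := by abel
          rw [h15] at h14
          have := hNsub (x') (x' - x - z)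
          have h16 : x' - (x' - x - z) = x + z := by abel
          rw [h16] at this
          have h17 := hadd x' (-(x' - x - z))
          have h18 : x' + -(x' - x - z) = x + z := by abel
          rw [h18, hNneg] at h17
          linarith
        have h19 : A₀ * c / 2 ≤ A * c / 2 := by
          have : A₀ * c ≤ A * c := mul_le_mul_of_nonneg_right hAx hc.le
          linarith
        nlinarith
      have hA₀x' : A₀ ≤ N x' := by
        have : A ≤ A * (1 + c / 2) := by nlinarith
        linarith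
      have hih := ih x' hx' hA₀x'
      calc (1 + c / 2) ^ (n + 1) * A = (1 + c / 2) ^ n * (A * (1 + c / 2)) := by ring
        _ ≤ (1 + c / 2) ^ n * N x' := mul_le_mul_of_nonneg_left hNx' (by positivity)
        _ ≤ b * B := hih
  -- conclude by unboundedness
  obtain ⟨n, hn⟩ := pow_unbounded_of_one_lt (b * B / A₀) (show (1 : ℝ) < 1 + c / 2 by linarith)
  obtain ⟨x, hx, hxδ⟩ := hbush n
  have hAx : A₀ ≤ N x :=
    (mul_le_mul_of_nonneg_left hxδ ha.le).trans (hab x).1
  have h1 := key n x hx hAx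
  have h2 : b * B < (1 + c / 2) ^ n * A₀ := by
    rwa [div_lt_iff₀ hA₀pos] at hn
  have h3 : (1 + c / 2) ^ n * A₀ ≤ (1 + c / 2) ^ n * N x :=
    mul_le_mul_of_nonneg_left hAx (by positivity)
  linarith

/-- A finite family of continuous functionals cuts out a closed finite-codimensional subspace. -/
theorem isCofG_of_functionals {ι : Type*} (s : Finset ι) (φ : ι → StrongDual ℝ X) :
    IsCofG {x : X | ∀ i ∈ s, φ i x = 0} := by
  classical
  let Φ : X →ₗ[ℝ] (s → ℝ) := LinearMap.pi fun i : s => (φ i.1 : X →ₗ[ℝ] ℝ)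
  refine ⟨LinearMap.ker Φ, ?_, ?_, ?_⟩
  · ext x
    simp only [SetLike.mem_coe, LinearMap.mem_ker, Set.mem_setOf_eq]
    constructor
    · intro h i hi
      have := congrFun h ⟨i, hi⟩
      simpa [Φ] using this
    · intro h
      funext i
      simpa [Φ] using h i.1 i.2
  · have : {x : X | ∀ i ∈ s, φ i x = 0} = ⋂ i ∈ s, {x : X | φ i x = 0} := by
      ext x; simp
    rw [this]
    refine isClosed_biInter fun i _ => ?_
    exact isClosed_eq (φ i).continuous continuous_const
  · exact LinearEquiv.finiteDimensional (LinearMap.quotKerEquivRange Φ).symm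

/-- Uniformly small Cesàro means force a bounded sequence to come close to any closed
finite-codimensional subspace. -/
theorem exists_near_of_cesaro (S : Submodule ℝ X) (hc : IsClosed (S : Set X))
    (hfin : FiniteDimensional ℝ (X ⧸ S)) (w : ℕ → X) (C : ℝ) (hw : ∀ i, ‖w i‖ ≤ C)
    (hces : ∀ ε : ℝ, 0 < ε → ∃ K : ℕ, 0 < K ∧ ∀ A : Finset ℕ, A.card = K →
      ‖((K : ℝ)⁻¹) • ∑ i ∈ A, w i‖ ≤ ε)
    (η : ℝ) (hη : 0 < η) : ∃ i, ∃ z ∈ S, ‖w i - z‖ ≤ η := by
  classical
  haveI : IsClosed (S : Set X) := hc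
  haveI : ProperSpace (X ⧸ S) := FiniteDimensional.proper_real (X ⧸ S)
  let q : X → X ⧸ S := fun x => Submodule.Quotient.mk x
  have hq : ∀ x, ‖q x‖ ≤ ‖x‖ := fun x => Submodule.Quotient.norm_mk_le S x
  have hqmem : ∀ i, q (w i) ∈ Metric.closedBall (0 : X ⧸ S) C := by
    intro i
    simp only [mem_closedBall_zero_iff]
    exact (hq _).trans (hw i)
  obtain ⟨a, -, φ, hφ, hlim⟩ :=
    (isCompact_closedBall (0 : X ⧸ S) C).tendsto_subseq hqmem
  have hev : ∃ N₀, ∀ n ≥ N₀, ‖q (w (φ n)) - a‖ ≤ η / 4 := by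
    have := Metric.tendsto_atTop.1 hlim (η / 4) (by positivity)
    obtain ⟨N₀, hN₀⟩ := this
    exact ⟨N₀, fun n hn => by
      have := hN₀ n hn
      rw [Function.comp_apply, dist_eq_norm] at this
      exact this.le⟩
  obtain ⟨N₀, hN₀⟩ := hev
  obtain ⟨K, hK, hces'⟩ := hces (η / 4) (by positivity)
  let A : Finset ℕ := (Finset.range K).image fun j => φ (N₀ + j)
  have hAcard : A.card = K := by
    rw [Finset.card_image_of_injective, Finset.card_range]
    intro i j hij
    have := hφ.injective hij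
    omega
  have hmean := hces' A hAcard
  have hKpos : (0 : ℝ) < K := by exact_mod_cast hK
  have hqmean : q (((K : ℝ)⁻¹) • ∑ i ∈ A, w i) =
      ((K : ℝ)⁻¹) • ∑ j ∈ Finset.range K, q (w (φ (N₀ + j))) := by
    have hinj : Set.InjOn (fun j => φ (N₀ + j)) (Finset.range K : Set ℕ) := by
      intro i _ j _ hij
      have := hφ.injective hij
      omega
    simp only [A, q]
    rw [Finset.sum_image hinj, Submodule.Quotient.mk_smul]
    congr 1
    simp only [← Submodule.mkQ_apply, map_sum]
  have ha : ‖a‖ ≤ η / 2 := by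
    have h1 : ‖((K : ℝ)⁻¹) • ∑ j ∈ Finset.range K, (q (w (φ (N₀ + j))) - a)‖ ≤ η / 4 := by
      rw [norm_smul, norm_inv, Real.norm_of_nonneg hKpos.le]
      have h2 : ‖∑ j ∈ Finset.range K, (q (w (φ (N₀ + j))) - a)‖ ≤ K * (η / 4) := by
        refine (norm_sum_le _ _).trans ?_
        have : ∀ j ∈ Finset.range K, ‖q (w (φ (N₀ + j))) - a‖ ≤ η / 4 :=
          fun j _ => hN₀ _ (by omega)
        have := Finset.sum_le_sum this
        simpa using this
      calc (K : ℝ)⁻¹ * ‖∑ j ∈ Finset.range K, (q (w (φ (N₀ + j))) - a)‖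
          ≤ (K : ℝ)⁻¹ * (K * (η / 4)) := mul_le_mul_of_nonneg_left h2 (by positivity)
        _ = η / 4 := by field_simp
    have h3 : ((K : ℝ)⁻¹) • ∑ j ∈ Finset.range K, (q (w (φ (N₀ + j))) - a) =
        q (((K : ℝ)⁻¹) • ∑ i ∈ A, w i) - a := by
      rw [hqmean, Finset.sum_sub_distrib, smul_sub, Finset.sum_const, Finset.card_range,
        ← Nat.cast_smul_eq_nsmul ℝ, smul_smul, inv_mul_cancel₀ hKpos.ne', one_smul]
    rw [h3] at h1
    have h4 : ‖q (((K : ℝ)⁻¹) • ∑ i ∈ A, w i)‖ ≤ η / 4 := (hq _).trans hmean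
    calc ‖a‖ = ‖q (((K : ℝ)⁻¹) • ∑ i ∈ A, w i) - (q (((K : ℝ)⁻¹) • ∑ i ∈ A, w i) - a)‖ := by
          congr 1; abel
      _ ≤ _ := norm_sub_le _ _
      _ ≤ η / 2 := by linarith
  have hq1 : ‖q (w (φ N₀))‖ ≤ 3 * η / 4 := by
    have h1 := hN₀ N₀ le_rfl
    calc ‖q (w (φ N₀))‖ = ‖(q (w (φ N₀)) - a) + a‖ := by rw [sub_add_cancel]
      _ ≤ _ := norm_add_le _ _
      _ ≤ 3 * η / 4 := by linarith
  obtain ⟨m, hm, hmnorm⟩ := Submodule.Quotient.norm_mk_lt (q (w (φ N₀))) (show 0 < η / 4 by positivity)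
  refine ⟨φ N₀, w (φ N₀) - m, ?_, ?_⟩
  · have : (Submodule.Quotient.mk (w (φ N₀)) : X ⧸ S) = Submodule.Quotient.mk m := hm.symm
    rw [Submodule.Quotient.eq] at this
    exact this
  · rw [sub_sub_cancel]
    linarith

/-- Children with uniformly small Cesàro means of the steps give the next level of a bush. -/
theorem bushAt_succ_of_children {B δ C : ℝ} {n : ℕ} (x : X) (hx : ‖x‖ ≤ B) (y : ℕ → X)
    (hy : ∀ i, BushAt B δ n (y i)) (hδ : ∀ i, δ ≤ ‖y i - x‖) (hC : ∀ i, ‖y i - x‖ ≤ C)
    (hces : ∀ ε : ℝ, 0 < ε → ∃ K : ℕ, 0 < K ∧ ∀ A : Finset ℕ, A.card = K →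
      ‖((K : ℝ)⁻¹) • ∑ i ∈ A, (y i - x)‖ ≤ ε) :
    BushAt B δ (n + 1) x := by
  refine ⟨hx, ?_⟩
  rintro F ⟨S, hSF, hcl, hfin⟩ η hη
  subst hSF
  obtain ⟨i, z, hz, hzi⟩ := exists_near_of_cesaro S hcl hfin (fun i => y i - x) C hC hces η hη
  exact ⟨y i, hy i, hδ i, z, hz, hzi⟩

/-- A bounded sequence with small Cesàro means and norms bounded below lives in an
infinite-dimensional space. -/
theorem not_finiteDimensional_of_cesaro (w : ℕ → X) (C δ : ℝ) (hδ : 0 < δ)
    (hw : ∀ i, ‖w i‖ ≤ C) (hlow : ∀ i, δ ≤ ‖w i‖)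
    (hces : ∀ ε : ℝ, 0 < ε → ∃ K : ℕ, 0 < K ∧ ∀ A : Finset ℕ, A.card = K →
      ‖((K : ℝ)⁻¹) • ∑ i ∈ A, w i‖ ≤ ε) :
    ¬ FiniteDimensional ℝ X := by
  intro hfin
  have hcl : IsClosed ((⊥ : Submodule ℝ X) : Set X) := by
    simp only [Submodule.bot_coe]
    exact isClosed_singleton
  have hfin' : FiniteDimensional ℝ (X ⧸ (⊥ : Submodule ℝ X)) := inferInstance
  obtain ⟨i, z, hz, hzi⟩ := exists_near_of_cesaro ⊥ hcl hfin' w C hw hces (δ / 2) (by positivity)
  have hz0 : z = 0 := by simpa using hz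
  rw [hz0, sub_zero] at hzi
  have := hlow i
  linarith

end generic

/-- Packaged form for `RealBanach` records: bushes of all heights exclude equivalent AUC norms. -/
theorem not_isAUC_of_bushes (E : RealBanach) (B δ δ₀ : ℝ) (hδ : 0 < δ) (hδ₀ : 0 < δ₀)
    (hbush : letI := E.normed; letI := E.space;
      ∀ n : ℕ, ∃ x : E.X, BushAt B δ n x ∧ δ₀ ≤ ‖x‖)
    (N : E.X → ℝ) (hN : E.IsEquivNorm N) : ¬ E.IsAUC N := by
  letI := E.normed
  letI := E.space
  intro hauc
  obtain ⟨hadd, hsmul, a, b, ha, hab⟩ := hN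
  exact false_of_bushes N hadd hsmul a b ha hab hauc B δ δ₀ hδ hδ₀ hbush

end Crest.Agent.Lib.TreeAUC
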