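import Mathlib
import Crest.Prelude.Def_Diamond
import Crest.Agent.Lib.TreeAUC
import Crest.Agent.Lib.DiamondGraph

/-!
The abstract two-centre inequality and its consequences: midpoint moduli and the lower bound for
the distortion of diamond graphs in reflexive spaces.
-/

set_option autoImplicit false
set_option linter.unusedSectionVars false

namespace Crest.Agent.Lib.TwoCentreDiamond

open Crest.AnalysisR Crest.Agent.Lib.TreeAUC Crest.Agent.Lib.DiamondGraph
open Filter Topology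

variable {X : Type*} [NormedAddCommGroup X] [NormedSpace ℝ X]

/-- The two-centre inequality. -/
def TwoCentre (X : Type*) [NormedAddCommGroup X] [NormedSpace ℝ X] : Prop :=
  ∀ (c₁ c₂ : X) (ε : ℝ), 0 < ε → ∃ Φ : Finset (StrongDual ℝ X), ∀ r : X, (∀ φ ∈ Φ, φ r = 0) →
    2 * Real.sqrt (‖(1 / 2 : ℝ) • (c₁ + c₂)‖ ^ 2 + ‖r‖ ^ 2 / 4) - ε ≤ ‖c₁ + r‖ + ‖c₂ - r‖

/-- the midpoint modulus from the two-centre inequality -/
theorem midpoint_of_twoCentre (h : TwoCentre X) (x : X) (hx : ‖x‖ = 1) {t η : ℝ} (ht : 0 < t)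
    (hη : 0 < η) : ∃ F : Set X, IsCofG F ∧ ∀ y ∈ F, ‖y‖ = 1 →
      Real.sqrt (1 + t ^ 2 / 4) - 1 - η ≤ (‖x + t • y‖ + ‖x - t • y‖) / 2 - 1 := by
  obtain ⟨Φ, hΦ⟩ := h x x (2 * η) (by positivity)
  refine ⟨_, isCofG_of_functionals Φ id, fun y hy hyn => ?_⟩
  have h1 := hΦ (t • y) (fun φ hφ => by
    have := hy φ hφ
    simp only [id] at this
    simp [this])
  have h2 : (1 / 2 : ℝ) • (x + x) = x := by
    rw [← two_smul ℝ, smul_smul]; norm_num
  rw [h2, hx, norm_smul, hyn, Real.norm_eq_abs, abs_of_pos ht] at h1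
  simp only [one_pow, mul_one] at h1
  linarith

/-- vectors with small values on finitely many functionals are near their common kernel -/
lemma near_kernel (Φ : Finset (StrongDual ℝ X)) : ∃ C : ℝ, 0 ≤ C ∧ ∀ (r : X) (η : ℝ), 0 < η →
    ∃ r' : X, (∀ φ ∈ Φ, φ r' = 0) ∧ ‖r - r'‖ ≤ C * ∑ φ ∈ Φ, |φ r| + η := by
  classical
  let T : X →ₗ[ℝ] (Φ → ℝ) := LinearMap.pi fun φ : Φ => (φ.1 : X →ₗ[ℝ] ℝ)
  have hTa : ∀ (r : X) (φ : Φ), T r φ = φ.1 r := fun r φ => rfl
  let S : Submodule ℝ X := LinearMap.ker T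
  have hSmem : ∀ r, r ∈ S ↔ ∀ φ ∈ Φ, φ r = 0 := by
    intro r
    simp only [S, LinearMap.mem_ker]
    constructor
    · intro h φ hφ
      have := congrFun h ⟨φ, hφ⟩
      simpa [hTa] using this
    · intro h
      funext φ
      simpa [hTa] using h φ.1 φ.2
  have hScl : IsClosed (S : Set X) := by
    have : (S : Set X) = ⋂ φ ∈ Φ, {x : X | φ x = 0} := by
      ext x
      simp only [SetLike.mem_coe, hSmem, Set.mem_iInter, Set.mem_setOf_eq]
    rw [this]
    exact isClosed_biInter fun φ _ => isClosed_eq φ.continuous continuous_const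
  haveI : IsClosed (S : Set X) := hScl
  have hfin : FiniteDimensional ℝ (X ⧸ S) :=
    LinearEquiv.finiteDimensional (LinearMap.quotKerEquivRange T).symm
  let Tbar : (X ⧸ S) →ₗ[ℝ] (Φ → ℝ) := S.liftQ T (le_refl _)
  have hTbar : LinearMap.ker Tbar = ⊥ := Submodule.ker_liftQ_eq_bot _ _ _ (le_refl _)
  obtain ⟨K, hK, hanti⟩ := LinearMap.exists_antilipschitzWith Tbar hTbar
  refine ⟨K, K.2, fun r η hη => ?_⟩
  have hbound : ‖(Submodule.Quotient.mk r : X ⧸ S)‖ ≤ K * ∑ φ ∈ Φ, |φ r| := by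
    have h1 := hanti.le_mul_dist (Submodule.Quotient.mk r) 0
    rw [dist_zero_right, map_zero, dist_zero_right] at h1
    have h2 : Tbar (Submodule.Quotient.mk r) = T r := rfl
    rw [h2] at h1
    refine h1.trans (mul_le_mul_of_nonneg_left ?_ K.2)
    refine (pi_norm_le_iff_of_nonneg (Finset.sum_nonneg fun φ _ => abs_nonneg _)).2 fun φ => ?_
    rw [hTa, Real.norm_eq_abs]
    exact Finset.single_le_sum (f := fun φ : StrongDual ℝ X => |φ r|)
      (fun φ _ => abs_nonneg _) φ.2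
  obtain ⟨m, hm, hmn⟩ := Submodule.Quotient.norm_mk_lt (Submodule.Quotient.mk r : X ⧸ S) hη
  refine ⟨r - m, ?_, ?_⟩
  · rw [← hSmem]
    have h3 : (Submodule.Quotient.mk m : X ⧸ S) = Submodule.Quotient.mk r := hm
    rw [Submodule.Quotient.eq] at h3
    have h4 : r - m = -(m - r) := by abel
    rw [h4]
    exact S.neg_mem h3
  · rw [sub_sub_cancel]
    linarith

lemma sqrt_sub_lemma {A B c : ℝ} (hc : 0 ≤ c) :
    Real.sqrt (A ^ 2 + B ^ 2) - c ≤ Real.sqrt (A ^ 2 + (B - c) ^ 2) := by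
  by_cases h : Real.sqrt (A ^ 2 + B ^ 2) - c ≤ 0
  · exact h.trans (Real.sqrt_nonneg _)
  · push Not at h
    apply Real.le_sqrt_of_sq_le
    have h1 : B ≤ Real.sqrt (A ^ 2 + B ^ 2) := by
      apply Real.le_sqrt_of_sq_le
      nlinarith [sq_nonneg A]
    have h2 : Real.sqrt (A ^ 2 + B ^ 2) ^ 2 = A ^ 2 + B ^ 2 :=
      Real.sq_sqrt (by positivity)
    nlinarith

/-- The main step: among infinitely many separated midpoint candidates, one gives a longer
half-edge. -/
theorem step (hrefl : Function.Surjective (NormedSpace.inclusionInDoubleDual ℝ X))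
    (hTC : TwoCentre X) (a b : X) (w : ℕ → X) (L M : ℝ) (hL : 0 < L)
    (hsep : ∀ i j, i ≠ j → L ≤ ‖w i - w j‖) (hM : ∀ i, ‖w i - a‖ ≤ M) {ε : ℝ} (hε : 0 < ε) :
    ∃ i, ‖b - a‖ ^ 2 / 4 + L ^ 2 / 16 - ε ≤ (max ‖w i - a‖ ‖b - w i‖) ^ 2 := by
  classical
  set z : X := (1 / 2 : ℝ) • (b - a) with hz
  set m : X := a + z with hm
  let y : ℕ → X := fun i => w i - m
  have hnz : ‖z‖ ^ 2 = ‖b - a‖ ^ 2 / 4 := by
    rw [hz, norm_smul, mul_pow]
    norm_num
    ring
  have hbz : b = m + z := by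
    rw [hm, hz, add_assoc, ← two_smul ℝ, smul_smul]
    norm_num
  have hya : ∀ i, z + y i = w i - a := by
    intro i
    simp only [y, hm]
    abel
  have hyb : ∀ i, z - y i = b - w i := by
    intro i
    simp only [y]
    rw [hbz]
    abel
  set C : ℝ := M + ‖z‖ with hC
  have hyC : ∀ i, ‖y i‖ ≤ C := by
    intro i
    have h1 : y i = (w i - a) - z := by
      simp only [y, hm]; abel
    rw [h1]
    refine (norm_sub_le _ _).trans ?_
    linarith [hM i]
  have hC0 : 0 ≤ C := (norm_nonneg _).trans (hyC 0)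
  let U : Ultrafilter ℕ := hyperfilter ℕ
  -- the weak limit
  have hlim : ∀ φ : StrongDual ℝ X, ∃ l : ℝ, Tendsto (fun i => φ (y i)) (U : Filter ℕ) (𝓝 l) ∧
      |l| ≤ ‖φ‖ * C := by
    intro φ
    have hbd : ∀ i, φ (y i) ∈ Metric.closedBall (0 : ℝ) (‖φ‖ * C) := by
      intro i
      rw [mem_closedBall_zero_iff]
      exact (φ.le_opNorm _).trans (mul_le_mul_of_nonneg_left (hyC i) (norm_nonneg _))
    have hcompact : IsCompact (Metric.closedBall (0 : ℝ) (‖φ‖ * C)) := isCompact_closedBall _ _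
    obtain ⟨l, hl, hl2⟩ := hcompact.ultrafilter_le_nhds (U.map fun i => φ (y i)) (by
      simp only [Ultrafilter.coe_map, le_principal_iff, mem_map]
      exact Filter.univ_mem' hbd)
    refine ⟨l, hl2, ?_⟩
    rw [mem_closedBall_zero_iff] at hl
    exact hl
  choose Λ hΛ hΛb using hlim
  let Λ' : StrongDual ℝ (StrongDual ℝ X) := LinearMap.mkContinuous
    { toFun := Λ
      map_add' := fun φ ψ => tendsto_nhds_unique (hΛ (φ + ψ)) ((hΛ φ).add (hΛ ψ))
      map_smul' := fun c φ => tendsto_nhds_unique (hΛ (c • φ)) ((hΛ φ).const_mul c) } C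
    (fun φ => by
      have := hΛb φ
      rw [Real.norm_eq_abs, mul_comm]
      exact this)
  obtain ⟨yinf, hyinf⟩ := hrefl Λ'
  have hyinf2 : ∀ φ : StrongDual ℝ X, φ yinf = Λ φ := by
    intro φ
    have := congrArg (fun G : StrongDual ℝ (StrongDual ℝ X) => G φ) hyinf
    exact this
  let r : ℕ → X := fun i => y i - yinf
  have hr0 : ∀ φ : StrongDual ℝ X, Tendsto (fun i => φ (r i)) (U : Filter ℕ) (𝓝 0) := by
    intro φ
    have h1 := (hΛ φ).sub_const (Λ φ)
    rw [sub_self] at h1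
    refine h1.congr fun i => ?_
    simp only [r, map_sub, hyinf2]
  -- the parameters
  set T : ℝ := Real.sqrt (‖z‖ ^ 2 + (L / 4) ^ 2) with hT
  have hTinner : 0 < ‖z‖ ^ 2 + (L / 4) ^ 2 := by positivity
  have hTpos : 0 < T := Real.sqrt_pos.2 hTinner
  have hT2 : T ^ 2 = ‖z‖ ^ 2 + (L / 4) ^ 2 := Real.sq_sqrt hTinner.le
  set κ : ℝ := min (min (T / 2) (L / 2)) (ε / (4 * T)) with hκ
  have hκpos : 0 < κ := lt_min (lt_min (by positivity) (by positivity)) (by positivity)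
  have hκ1 : κ ≤ T / 2 := (min_le_left _ _).trans (min_le_left _ _)
  have hκ2 : κ ≤ L / 2 := (min_le_left _ _).trans (min_le_right _ _)
  have hκ3 : κ ≤ ε / (4 * T) := min_le_right _ _
  obtain ⟨Φ, hΦ⟩ := hTC (z + yinf) (z - yinf) κ hκpos
  obtain ⟨K, hK, hnear⟩ := near_kernel Φ
  -- the frequent index
  have hev1 : ∀ᶠ i in (U : Filter ℕ), L / 2 ≤ ‖r i‖ := by
    have hfin : Set.Finite {i | ‖r i‖ < L / 2} := by
      refine Set.Subsingleton.finite fun i hi j hj => ?_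
      by_contra hij
      have h1 := hsep i j hij
      have h2 : w i - w j = r i - r j := by
        simp only [r, y]; abel
      rw [h2] at h1
      have h3 := norm_sub_le (r i) (r j)
      have h4 : ‖r i‖ < L / 2 := hi
      have h5 : ‖r j‖ < L / 2 := hj
      linarith
    have h6 : {i | ‖r i‖ < L / 2}ᶜ ∈ (U : Filter ℕ) :=
      Filter.hyperfilter_le_cofinite hfin.compl_mem_cofinite
    filter_upwards [h6] with i hi
    simpa using hi
  have hev2 : ∀ᶠ i in (U : Filter ℕ), K * ∑ φ ∈ Φ, |φ (r i)| < κ / 2 := by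
    have h1 : Tendsto (fun i => K * ∑ φ ∈ Φ, |φ (r i)|) (U : Filter ℕ) (𝓝 (K * ∑ φ ∈ Φ, |(0 : ℝ)|)) :=
      (tendsto_finset_sum _ fun φ _ => (hr0 φ).abs).const_mul K
    simp only [abs_zero, Finset.sum_const_zero, mul_zero] at h1
    exact h1.eventually (gt_mem_nhds (by positivity))
  obtain ⟨i, hi1, hi2⟩ := (hev1.and hev2).exists
  obtain ⟨r', hr', hrr'⟩ := hnear (r i) (κ / 2) (by positivity)
  have hrr'2 : ‖r i - r'‖ ≤ κ := by linarith
  have hmain := hΦ r' hr'
  have hhalf : (1 / 2 : ℝ) • (z + yinf + (z - yinf)) = z := by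
    have : z + yinf + (z - yinf) = (2 : ℝ) • z := by
      rw [two_smul]; abel
    rw [this, smul_smul]
    norm_num
  rw [hhalf] at hmain
  have h1 : ‖z + yinf + r'‖ ≤ ‖w i - a‖ + κ := by
    have h2 : z + yinf + r' = (w i - a) - (r i - r') := by
      rw [← hya i]
      simp only [r]
      abel
    rw [h2]
    refine (norm_sub_le _ _).trans ?_
    linarith
  have h2 : ‖z - yinf - r'‖ ≤ ‖b - w i‖ + κ := by
    have h3 : z - yinf - r' = (b - w i) + (r i - r') := by
      rw [← hyb i]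
      simp only [r]
      abel
    rw [h3]
    refine (norm_add_le _ _).trans ?_
    linarith
  have hR : L / 2 - κ ≤ ‖r'‖ := by
    have h3 : r i = (r i - r') + r' := by abel
    have h4 := norm_add_le (r i - r') r'
    rw [← h3] at h4
    linarith
  have hRs : (L / 4 - κ / 2) ^ 2 ≤ ‖r'‖ ^ 2 / 4 := by
    have h3 : 0 ≤ L / 4 - κ / 2 := by linarith
    have h4 : (L / 4 - κ / 2) ≤ ‖r'‖ / 2 := by linarith
    have h5 := pow_le_pow_left₀ h3 h4 2
    calc (L / 4 - κ / 2) ^ 2 ≤ (‖r'‖ / 2) ^ 2 := h5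
      _ = ‖r'‖ ^ 2 / 4 := by ring
  have hs1 := sqrt_sub_lemma (A := ‖z‖) (B := L / 4) (c := κ / 2) (by positivity)
  have hs2 : Real.sqrt (‖z‖ ^ 2 + (L / 4 - κ / 2) ^ 2) ≤ Real.sqrt (‖z‖ ^ 2 + ‖r'‖ ^ 2 / 4) :=
    Real.sqrt_le_sqrt (by linarith)
  have hmax1 : ‖w i - a‖ ≤ max ‖w i - a‖ ‖b - w i‖ := le_max_left _ _
  have hmax2 : ‖b - w i‖ ≤ max ‖w i - a‖ ‖b - w i‖ := le_max_right _ _
  have hfinal : T - 2 * κ ≤ max ‖w i - a‖ ‖b - w i‖ := by
    linarith
  refine ⟨i, ?_⟩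
  have h0 : 0 ≤ T - 2 * κ := by linarith
  have hsq := pow_le_pow_left₀ h0 hfinal 2
  have h4Tκ : 4 * T * κ ≤ ε := by
    calc 4 * T * κ ≤ 4 * T * (ε / (4 * T)) := mul_le_mul_of_nonneg_left hκ3 (by positivity)
      _ = ε := by field_simp
  have hLs : (L / 4) ^ 2 = L ^ 2 / 16 := by ring
  rw [← hnz, ← hLs, ← hT2]
  nlinarith [sq_nonneg κ]

/-- the induction over the levels of the diamond -/
theorem diamond_core (hrefl : Function.Surjective (NormedSpace.inclusionInDoubleDual ℝ X))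
    (hTC : TwoCentre X) (D : ℝ) : ∀ (n : ℕ) (F : DiamondVertex n → X) (L : ℝ), 0 < L →
    (∀ u v : DiamondVertex n, L * (diamondDist n u v : ℝ) ≤ ‖F u - F v‖ ∧
      ‖F u - F v‖ ≤ D * L * (diamondDist n u v : ℝ)) →
    ∀ ε : ℝ, 0 < ε → ∃ e : DiamondEdge n,
      (1 + (n : ℝ) / 4) * L ^ 2 - ε ≤ ‖F (diamondTgt n e) - F (diamondSrc n e)‖ ^ 2 := by
  intro n
  induction n with
  | zero =>
    intro F L hL hF ε hε
    refine ⟨(), ?_⟩
    have h1 := (hF (diamondTgt 0 ()) (diamondSrc 0 ())).1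
    rw [dist_comm', dist_base] at h1
    simp only [Nat.cast_one, mul_one] at h1
    have h2 := pow_le_pow_left₀ hL.le h1 2
    simp only [Nat.cast_zero, zero_div, add_zero, one_mul]
    linarith
  | succ n ih =>
    intro F L hL hF ε hε
    let F' : DiamondVertex n → X := fun a => F (inl' a)
    have hF' : ∀ u v : DiamondVertex n, (2 * L) * (diamondDist n u v : ℝ) ≤ ‖F' u - F' v‖ ∧
        ‖F' u - F' v‖ ≤ D * (2 * L) * (diamondDist n u v : ℝ) := by
      intro u v
      have h := hF (inl' u) (inl' v)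
      rw [dist_inl] at h
      push_cast at h
      constructor
      · have := h.1
        simp only [F']
        linarith
      · have := h.2
        simp only [F']
        linarith
    obtain ⟨e, he⟩ := ih F' (2 * L) (by positivity) hF' (ε / 2) (by positivity)
    let a : X := F' (diamondSrc n e)
    let b : X := F' (diamondTgt n e)
    let w : ℕ → X := fun i => F (mid e i)
    have hsep : ∀ i j, i ≠ j → 2 * L ≤ ‖w i - w j‖ := by
      intro i j hij
      have h1 := (hF (mid e i) (mid e j)).1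
      have h2 : ((2 : ℕ) : ℝ) ≤ (diamondDist (n + 1) (mid e i) (mid e j) : ℝ) := by
        exact_mod_cast dist_sibling e hij
      have h3 := mul_le_mul_of_nonneg_left h2 hL.le
      push_cast at h3
      simp only [w]
      linarith
    have hM : ∀ i, ‖w i - a‖ ≤ D * L := by
      intro i
      have h1 := (hF (mid e i) (inl' (diamondSrc n e))).2
      rw [dist_mid_src] at h1
      simpa using h1
    obtain ⟨i, hi⟩ := step hrefl hTC a b w (2 * L) (D * L) (by positivity) hsep hM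
      (show 0 < ε / 4 by positivity)
    have hba : (1 + (n : ℝ) / 4) * (2 * L) ^ 2 - ε / 2 ≤ ‖b - a‖ ^ 2 := he
    have hgoal : (1 + ((n + 1 : ℕ) : ℝ) / 4) * L ^ 2 - ε ≤ (max ‖w i - a‖ ‖b - w i‖) ^ 2 := by
      push_cast
      nlinarith
    rcases max_cases ‖w i - a‖ ‖b - w i‖ with ⟨hmax, _⟩ | ⟨hmax, _⟩
    · refine ⟨edgeL e i, ?_⟩
      rw [hmax] at hgoal
      exact hgoal
    · refine ⟨edgeR e i, ?_⟩
      rw [hmax] at hgoal
      exact hgoal

/-- the distortion bound for diamonds -/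
theorem diamond_bound (hrefl : Function.Surjective (NormedSpace.inclusionInDoubleDual ℝ X))
    (hTC : TwoCentre X) (k : ℕ) (f : DiamondVertex k → X) (D s : ℝ) (hs : 0 < s)
    (hf : ∀ u v : DiamondVertex k, s * (diamondDist k u v : ℝ) ≤ ‖f u - f v‖ ∧
      ‖f u - f v‖ ≤ D * s * (diamondDist k u v : ℝ)) : 1 + (k : ℝ) / 4 ≤ D ^ 2 := by
  have hmain : ∀ ε : ℝ, 0 < ε → (1 + (k : ℝ) / 4) * s ^ 2 ≤ D ^ 2 * s ^ 2 + ε := by
    intro ε hε
    obtain ⟨e, he⟩ := diamond_core hrefl hTC D k f s hs hf ε hε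
    have h1 := (hf (diamondTgt k e) (diamondSrc k e)).2
    rw [dist_comm'] at h1
    have h2 : (diamondDist k (diamondSrc k e) (diamondTgt k e) : ℝ) ≤ 1 := by
      exact_mod_cast dist_edge_le k e
    have h3 : (0 : ℝ) ≤ (diamondDist k (diamondSrc k e) (diamondTgt k e) : ℝ) := Nat.cast_nonneg _
    set d : ℝ := (diamondDist k (diamondSrc k e) (diamondTgt k e) : ℝ)
    have h4 := pow_le_pow_left₀ (norm_nonneg _) h1 2
    have h5 : (D * s * d) ^ 2 ≤ D ^ 2 * s ^ 2 := by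
      have h6 : d ^ 2 ≤ 1 := by nlinarith
      calc (D * s * d) ^ 2 = D ^ 2 * s ^ 2 * d ^ 2 := by ring
        _ ≤ D ^ 2 * s ^ 2 * 1 := mul_le_mul_of_nonneg_left h6 (by positivity)
        _ = D ^ 2 * s ^ 2 := mul_one _
    linarith
  have h7 : (1 + (k : ℝ) / 4) * s ^ 2 ≤ D ^ 2 * s ^ 2 := le_of_forall_pos_le_add hmain
  exact le_of_mul_le_mul_right h7 (by positivity)

end Crest.Agent.Lib.TwoCentreDiamond
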