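import Mathlib
import Crest.Agent.Lib.TwoCentreDiamond

/-!
The `ℓ₂`-sum of a sequence of Banach spaces: reflexivity and the two-centre inequality pass to it.
-/

set_option autoImplicit false
set_option linter.unusedSectionVars false

namespace Crest.Agent.Lib.LpTwoSum

open Crest.Agent.Lib.TwoCentreDiamond
open Filter Topology

section basics

variable {X : ℕ → Type*} [∀ n, NormedAddCommGroup (X n)] [∀ n, NormedSpace ℝ (X n)]

lemma toReal_two : (2 : ENNReal).toReal = 2 := by norm_num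

lemma toReal_two_pos : 0 < (2 : ENNReal).toReal := by norm_num

lemma sum_sq_le (y : lp X 2) (M : Finset ℕ) : ∑ n ∈ M, ‖y n‖ ^ 2 ≤ ‖y‖ ^ 2 := by
  have := lp.sum_rpow_le_norm_rpow toReal_two_pos y M
  simpa only [toReal_two, Real.rpow_two] using this

lemma hasSum_sq (y : lp X 2) : HasSum (fun n => ‖y n‖ ^ 2) (‖y‖ ^ 2) := by
  have := lp.hasSum_norm toReal_two_pos y
  simpa only [toReal_two, Real.rpow_two] using this

/-- the coordinate projection -/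
noncomputable def piL (n : ℕ) : lp X 2 →L[ℝ] X n := lp.evalCLM ℝ X 2 n

/-- the coordinate embedding -/
noncomputable def iotaL (n : ℕ) : X n →L[ℝ] lp X 2 := lp.singleContinuousLinearMap ℝ X 2 n

@[simp] lemma piL_apply (y : lp X 2) (n : ℕ) : piL n y = y n := rfl

@[simp] lemma iotaL_apply (n : ℕ) (x : X n) : iotaL n x = lp.single 2 n x := rfl

/-- near-norming vectors for functionals -/
lemma exists_near_norming {V : Type*} [NormedAddCommGroup V] [NormedSpace ℝ V]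
    (f : StrongDual ℝ V) {ε : ℝ} (hε : 0 < ε) : ∃ y : V, ‖y‖ ≤ 1 ∧ ‖f‖ - ε ≤ f y := by
  by_contra hcon
  push Not at hcon
  have h0 : 0 < ‖f‖ - ε := by
    have := hcon 0 (by simp)
    simpa using this
  have h1 : ‖f‖ ≤ ‖f‖ - ε := by
    refine ContinuousLinearMap.opNorm_le_of_unit_norm h0.le fun x hx => ?_
    rw [Real.norm_eq_abs, abs_le]
    constructor
    · have h2 := hcon (-x) (by rw [norm_neg, hx])
      rw [map_neg] at h2
      linarith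
    · exact (hcon x hx.le).le
  linarith

lemma functional_sum_le (ψ : StrongDual ℝ (lp X 2)) (M : Finset ℕ) :
    ∑ n ∈ M, ‖ψ.comp (iotaL n)‖ ^ 2 ≤ ‖ψ‖ ^ 2 := by
  set b : ℕ → ℝ := fun n => ‖ψ.comp (iotaL (X := X) n)‖ with hb
  set A2 : ℝ := ∑ n ∈ M, b n ^ 2 with hA2
  have hA20 : 0 ≤ A2 := Finset.sum_nonneg fun n _ => sq_nonneg _
  set A : ℝ := Real.sqrt A2 with hA
  have hAsq : A ^ 2 = A2 := Real.sq_sqrt hA20
  have hA0 : 0 ≤ A := Real.sqrt_nonneg _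
  set S : ℝ := ∑ n ∈ M, b n with hS
  have hS0 : 0 ≤ S := Finset.sum_nonneg fun n _ => norm_nonneg _
  have hmain : ∀ ε : ℝ, 0 < ε → A2 ≤ ‖ψ‖ * A + ε := by
    intro ε hε
    set ε' : ℝ := ε / (S + 1) with hε'
    have hε'pos : 0 < ε' := by positivity
    have hex : ∀ n, ∃ y : X n, ‖y‖ ≤ 1 ∧ b n - ε' ≤ (ψ.comp (iotaL n)) y := fun n =>
      exists_near_norming _ hε'pos
    choose y hy1 hy2 using hex
    let z : lp X 2 := ∑ n ∈ M, lp.single 2 n (b n • y n)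
    have hz : ‖z‖ ≤ A := by
      have h1 := lp.norm_sum_single toReal_two_pos (fun n => b n • y n) M
      simp only [toReal_two, Real.rpow_two] at h1
      have h2 : ‖z‖ ^ 2 ≤ A ^ 2 := by
        rw [hAsq]
        refine (le_of_eq h1).trans (Finset.sum_le_sum fun n _ => ?_)
        rw [norm_smul, mul_pow]
        have h3 : ‖y n‖ ^ 2 ≤ 1 := pow_le_one₀ (norm_nonneg _) (hy1 n)
        have h4 : ‖b n‖ ^ 2 = b n ^ 2 := by rw [Real.norm_eq_abs, sq_abs]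
        rw [h4]
        nlinarith [sq_nonneg (b n)]
      exact le_of_pow_le_pow_left₀ (by norm_num) hA0 h2
    have hψz : A2 - ε' * S ≤ ψ z := by
      have h1 : ψ z = ∑ n ∈ M, b n * (ψ.comp (iotaL n)) (y n) := by
        simp only [z, map_sum]
        refine Finset.sum_congr rfl fun n _ => ?_
        have h2 : (lp.single 2 n (b n • y n) : lp X 2) = b n • iotaL n (y n) := by
          rw [iotaL_apply, lp.single_smul]
        rw [h2, map_smul, smul_eq_mul]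
        rfl
      rw [h1, hA2, hS, Finset.mul_sum, ← Finset.sum_sub_distrib]
      refine Finset.sum_le_sum fun n _ => ?_
      have h3 : 0 ≤ b n := norm_nonneg _
      have h4 := mul_le_mul_of_nonneg_left (hy2 n) h3
      nlinarith
    have h5 : ψ z ≤ ‖ψ‖ * A := by
      have h6 : ψ z ≤ ‖ψ‖ * ‖z‖ := (le_abs_self _).trans (ψ.le_opNorm z)
      exact h6.trans (mul_le_mul_of_nonneg_left hz (norm_nonneg _))
    have h7 : ε' * S ≤ ε := by
      rw [hε', div_mul_eq_mul_div, div_le_iff₀ (by positivity)]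
      nlinarith
    linarith
  have h1 : A2 ≤ ‖ψ‖ * A := le_of_forall_pos_le_add hmain
  have h2 : A ≤ ‖ψ‖ := by
    by_contra hcon
    push Not at hcon
    have h3 : 0 < A := lt_of_le_of_lt (norm_nonneg _) hcon
    rw [← hAsq] at h1
    nlinarith
  calc A2 = A ^ 2 := hAsq.symm
    _ ≤ ‖ψ‖ ^ 2 := pow_le_pow_left₀ hA0 h2 2

/-- a bounded functional is determined by finitely many coordinates up to a small error -/
lemma functional_tail (ψ : StrongDual ℝ (lp X 2)) {ε : ℝ} (hε : 0 < ε) :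
    ∃ M₀ : Finset ℕ, ∀ y : lp X 2, |ψ y - ∑ n ∈ M₀, ψ (lp.single 2 n (y n))| ≤ ε * ‖y‖ := by
  set b : ℕ → ℝ := fun n => ‖ψ.comp (iotaL (X := X) n)‖ with hb
  have hsm : Summable fun n => b n ^ 2 :=
    summable_of_sum_le (fun n => sq_nonneg _) (functional_sum_le ψ)
  have hev : ∀ᶠ M in atTop, (∑' n, b n ^ 2) - ε ^ 2 < ∑ n ∈ M, b n ^ 2 :=
    hsm.hasSum.eventually (lt_mem_nhds (by nlinarith [sq_pos_of_pos hε]))
  obtain ⟨M₀, hM₀⟩ := hev.exists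
  refine ⟨M₀, fun y => ?_⟩
  have hsum : HasSum (fun n => ψ (lp.single 2 n (y n))) (ψ y) :=
    (lp.hasSum_single (p := 2) (by simp) y).mapL ψ
  have hlim : Tendsto (fun M : Finset ℕ => |∑ n ∈ M, ψ (lp.single 2 n (y n)) -
      ∑ n ∈ M₀, ψ (lp.single 2 n (y n))|) atTop (𝓝 |ψ y - ∑ n ∈ M₀, ψ (lp.single 2 n (y n))|) :=
    (hsum.sub_const _).abs
  refine le_of_tendsto hlim ?_
  filter_upwards [eventually_ge_atTop M₀] with M hM
  have hMsub : M₀ ⊆ M := hM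
  rw [← Finset.sum_sdiff hMsub, add_sub_cancel_right]
  have h1 : ∀ n ∈ M \ M₀, |ψ (lp.single 2 n (y n))| ≤ b n * ‖y n‖ := by
    intro n _
    have := (ψ.comp (iotaL n)).le_opNorm (y n)
    exact this
  have h2 : |∑ n ∈ M \ M₀, ψ (lp.single 2 n (y n))| ≤ ∑ n ∈ M \ M₀, b n * ‖y n‖ :=
    (Finset.abs_sum_le_sum_abs _ _).trans (Finset.sum_le_sum h1)
  refine h2.trans ((Real.sum_mul_le_sqrt_mul_sqrt _ _ _).trans ?_)
  have h3 : ∑ n ∈ M \ M₀, b n ^ 2 ≤ ε ^ 2 := by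
    have h4 := Finset.sum_sdiff (f := fun n => b n ^ 2) hMsub
    have h5 : ∑ n ∈ M, b n ^ 2 ≤ ∑' n, b n ^ 2 := hsm.sum_le_tsum _ fun n _ => sq_nonneg _
    linarith
  have h4 : Real.sqrt (∑ n ∈ M \ M₀, b n ^ 2) ≤ ε := by
    rw [Real.sqrt_le_left hε.le]
    exact h3
  have h5 : Real.sqrt (∑ n ∈ M \ M₀, ‖y n‖ ^ 2) ≤ ‖y‖ := by
    rw [Real.sqrt_le_left (norm_nonneg _)]
    exact sum_sq_le y _
  exact mul_le_mul h4 h5 (Real.sqrt_nonneg _) hε.le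

/-- The `ℓ₂`-sum of reflexive spaces is reflexive. -/
theorem reflexive_lp (hX : ∀ n, Function.Surjective (NormedSpace.inclusionInDoubleDual ℝ (X n))) :
    Function.Surjective (NormedSpace.inclusionInDoubleDual ℝ (lp X 2)) := by
  intro Φ
  -- the coordinates
  let Φn : ∀ n, StrongDual ℝ (StrongDual ℝ (X n)) := fun n =>
    Φ.comp ((ContinuousLinearMap.compL ℝ (lp X 2) (X n) ℝ).flip (piL n))
  have hΦn : ∀ n (ψ : StrongDual ℝ (X n)), Φn n ψ = Φ (ψ.comp (piL n)) := fun n ψ => rfl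
  choose x hx using fun n => hX n (Φn n)
  have hx2 : ∀ n (ψ : StrongDual ℝ (X n)), ψ (x n) = Φ (ψ.comp (piL n)) := by
    intro n ψ
    have := congrArg (fun G : StrongDual ℝ (StrongDual ℝ (X n)) => G ψ) (hx n)
    exact this
  -- square summability
  have hsq : ∀ M : Finset ℕ, ∑ n ∈ M, ‖x n‖ ^ 2 ≤ ‖Φ‖ ^ 2 := by
    intro M
    set A2 : ℝ := ∑ n ∈ M, ‖x n‖ ^ 2 with hA2
    have hA20 : 0 ≤ A2 := Finset.sum_nonneg fun n _ => sq_nonneg _
    set A : ℝ := Real.sqrt A2 with hA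
    have hAsq : A ^ 2 = A2 := Real.sq_sqrt hA20
    have hA0 : 0 ≤ A := Real.sqrt_nonneg _
    have hnorm : ∀ n, ∃ ψ : StrongDual ℝ (X n), ‖ψ‖ ≤ 1 ∧ ψ (x n) = ‖x n‖ := fun n =>
      exists_dual_vector'' ℝ (x n)
    choose ψ hψ1 hψ2 using hnorm
    let G : StrongDual ℝ (lp X 2) := ∑ n ∈ M, ‖x n‖ • (ψ n).comp (piL n)
    have hG : ‖G‖ ≤ A := by
      refine ContinuousLinearMap.opNorm_le_bound _ hA0 fun y => ?_
      have h1 : G y = ∑ n ∈ M, ‖x n‖ * ψ n (y n) := by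
        simp only [G, ContinuousLinearMap.sum_apply]
        rfl
      rw [h1]
      have h2 : ‖∑ n ∈ M, ‖x n‖ * ψ n (y n)‖ ≤ ∑ n ∈ M, ‖x n‖ * ‖y n‖ := by
        refine (norm_sum_le _ _).trans (Finset.sum_le_sum fun n _ => ?_)
        rw [norm_mul, norm_norm]
        refine mul_le_mul_of_nonneg_left ?_ (norm_nonneg _)
        have h3 := (ψ n).le_opNorm (y n)
        have h4 : ‖ψ n‖ * ‖y n‖ ≤ 1 * ‖y n‖ := mul_le_mul_of_nonneg_right (hψ1 n) (norm_nonneg _)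
        linarith
      refine h2.trans ((Real.sum_mul_le_sqrt_mul_sqrt _ _ _).trans ?_)
      refine mul_le_mul_of_nonneg_left ?_ hA0
      rw [Real.sqrt_le_left (norm_nonneg _)]
      exact sum_sq_le y _
    have hΦG : Φ G = A2 := by
      simp only [G, map_sum, map_smul, smul_eq_mul]
      rw [hA2]
      refine Finset.sum_congr rfl fun n _ => ?_
      rw [← hx2, hψ2, sq]
    have h5 : A2 ≤ ‖Φ‖ * A := by
      rw [← hΦG]
      have h6 : Φ G ≤ ‖Φ‖ * ‖G‖ := (le_abs_self _).trans (Φ.le_opNorm G)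
      exact h6.trans (mul_le_mul_of_nonneg_left hG Φ.opNorm_nonneg)
    have h7 : A ≤ ‖Φ‖ := by
      by_contra hcon
      push Not at hcon
      have h3 : 0 < A := lt_of_le_of_lt Φ.opNorm_nonneg hcon
      rw [← hAsq] at h5
      nlinarith
    calc A2 = A ^ 2 := hAsq.symm
      _ ≤ ‖Φ‖ ^ 2 := pow_le_pow_left₀ hA0 h7 2
  have hmem : Memℓp (x : ∀ n, X n) 2 := by
    refine memℓp_gen' (C := ‖Φ‖ ^ 2) fun M => ?_
    simpa only [toReal_two, Real.rpow_two] using hsq M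
  let xx : lp X 2 := ⟨x, hmem⟩
  refine ⟨xx, ?_⟩
  ext ψ
  show ψ xx = Φ ψ
  -- the approximation
  have hmain : ∀ ε : ℝ, 0 < ε → |Φ ψ - ψ xx| ≤ ε * (‖Φ‖ + ‖xx‖) := by
    intro ε hε
    obtain ⟨M₀, hM₀⟩ := functional_tail ψ hε
    let ψM : StrongDual ℝ (lp X 2) := ∑ n ∈ M₀, (ψ.comp (iotaL n)).comp (piL n)
    have h1 : ∀ y, ψM y = ∑ n ∈ M₀, ψ (lp.single 2 n (y n)) := by
      intro y
      simp only [ψM, ContinuousLinearMap.sum_apply]
      rfl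
    have h2 : ‖ψ - ψM‖ ≤ ε := by
      refine ContinuousLinearMap.opNorm_le_bound _ hε.le fun y => ?_
      rw [ContinuousLinearMap.sub_apply, h1, Real.norm_eq_abs]
      exact hM₀ y
    have h3 : Φ ψM = ∑ n ∈ M₀, ψ (lp.single 2 n (xx n)) := by
      simp only [ψM, map_sum]
      refine Finset.sum_congr rfl fun n _ => ?_
      rw [← hx2]
      rfl
    have h4 := hM₀ xx
    have h5 : |Φ (ψ - ψM)| ≤ ‖Φ‖ * ε := by
      refine (Φ.le_opNorm _).trans ?_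
      exact mul_le_mul_of_nonneg_left h2 (norm_nonneg _)
    rw [map_sub, h3] at h5
    have h6 : Φ ψ - ψ xx = (Φ ψ - ∑ n ∈ M₀, ψ (lp.single 2 n (xx n))) -
        (ψ xx - ∑ n ∈ M₀, ψ (lp.single 2 n (xx n))) := by ring
    rw [h6]
    refine (abs_sub _ _).trans ?_
    linarith
  have h7 : |Φ ψ - ψ xx| ≤ 0 := by
    refine le_of_forall_pos_le_add fun ε hε => ?_
    have h8 := hmain (ε / (‖Φ‖ + ‖xx‖ + 1)) (by positivity)
    refine h8.trans ?_
    rw [zero_add, div_mul_eq_mul_div, div_le_iff₀ (by positivity)]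
    nlinarith [norm_nonneg Φ, norm_nonneg xx]
  have h9 := abs_nonpos_iff.1 h7
  linarith

end basics

section twocentre

variable {X : ℕ → Type*} [∀ n, NormedAddCommGroup (X n)] [∀ n, NormedSpace ℝ (X n)]

lemma sqrt_sum_add_le (M : Finset ℕ) (x y : ℕ → ℝ) :
    Real.sqrt (∑ n ∈ M, (x n + y n) ^ 2) ≤
      Real.sqrt (∑ n ∈ M, x n ^ 2) + Real.sqrt (∑ n ∈ M, y n ^ 2) := by
  have hx : 0 ≤ ∑ n ∈ M, x n ^ 2 := Finset.sum_nonneg fun n _ => sq_nonneg _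
  have hy : 0 ≤ ∑ n ∈ M, y n ^ 2 := Finset.sum_nonneg fun n _ => sq_nonneg _
  rw [Real.sqrt_le_left (by positivity), add_sq, Real.sq_sqrt hx, Real.sq_sqrt hy]
  have h1 := Real.sum_mul_le_sqrt_mul_sqrt M x y
  have h2 : ∑ n ∈ M, (x n + y n) ^ 2 =
      ∑ n ∈ M, x n ^ 2 + 2 * ∑ n ∈ M, x n * y n + ∑ n ∈ M, y n ^ 2 := by
    rw [Finset.mul_sum, ← Finset.sum_add_distrib, ← Finset.sum_add_distrib]
    exact Finset.sum_congr rfl fun n _ => by ring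
  rw [h2]
  nlinarith

/-- The two-centre inequality passes to `ℓ₂`-sums. -/
theorem twoCentre_lp (h : ∀ n, TwoCentre (X n)) : TwoCentre (lp X 2) := by
  intro c₁ c₂ ε hε
  classical
  set η₁ : ℝ := ε ^ 2 / 256 with hη₁
  have hη₁pos : 0 < η₁ := by positivity
  have hev1 := (hasSum_sq c₁).eventually (lt_mem_nhds (show ‖c₁‖ ^ 2 - η₁ < ‖c₁‖ ^ 2 by linarith))
  have hev2 := (hasSum_sq c₂).eventually (lt_mem_nhds (show ‖c₂‖ ^ 2 - η₁ < ‖c₂‖ ^ 2 by linarith))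
  obtain ⟨M₀, hM1, hM2⟩ := (hev1.and hev2).exists
  have hcard : (0 : ℝ) < (M₀.card : ℝ) + 1 := by positivity
  set ε₀ : ℝ := ε / (4 * ((M₀.card : ℝ) + 1)) with hε₀
  have hε₀pos : 0 < ε₀ := by positivity
  choose Φn hΦn using fun n => h n (c₁ n) (c₂ n) ε₀ hε₀pos
  refine ⟨M₀.biUnion fun n => (Φn n).image fun φ => φ.comp (piL n), fun r hr => ?_⟩
  have hvan : ∀ n ∈ M₀, ∀ φ ∈ Φn n, φ (r n) = 0 := fun n hn φ hφ =>
    hr _ (Finset.mem_biUnion.2 ⟨n, hn, Finset.mem_image.2 ⟨φ, hφ, rfl⟩⟩)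
  set u : lp X 2 := (1 / 2 : ℝ) • (c₁ + c₂) with hu
  have hun : ∀ n, u n = (1 / 2 : ℝ) • (c₁ n + c₂ n) := fun n => rfl
  let a : ℕ → ℝ := fun n => ‖(c₁ + r) n‖
  let b : ℕ → ℝ := fun n => ‖(c₂ - r) n‖
  let w : ℕ → ℝ := fun n => 2 * Real.sqrt (‖u n‖ ^ 2 + ‖r n‖ ^ 2 / 4)
  let d : ℕ → ℝ := fun n => if n ∈ M₀ then ε₀ else 2 * (‖c₁ n‖ + ‖c₂ n‖)
  have ha : ∀ n, a n = ‖c₁ n + r n‖ := fun n => rfl
  have hb : ∀ n, b n = ‖c₂ n - r n‖ := fun n => rfl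
  have hw0 : ∀ n, 0 ≤ w n := fun n => by positivity
  have hd0 : ∀ n, 0 ≤ d n := by
    intro n
    simp only [d]
    split_ifs <;> positivity
  have hwsq : ∀ n, w n ^ 2 = 4 * ‖u n‖ ^ 2 + ‖r n‖ ^ 2 := by
    intro n
    simp only [w]
    rw [mul_pow, Real.sq_sqrt (by positivity)]
    ring
  have hw : ∀ n, w n ≤ a n + b n + d n := by
    intro n
    by_cases hn : n ∈ M₀
    · have h1 := hΦn n (r n) (hvan n hn)
      rw [← hun] at h1
      simp only [d, if_pos hn, ha, hb, w]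
      linarith
    · simp only [d, if_neg hn, ha, hb, w]
      have h1 : ‖u n‖ ≤ (‖c₁ n‖ + ‖c₂ n‖) / 2 := by
        rw [hun, norm_smul]
        have h2 := norm_add_le (c₁ n) (c₂ n)
        norm_num
        linarith
      have h2 : Real.sqrt (‖u n‖ ^ 2 + ‖r n‖ ^ 2 / 4) ≤ ‖u n‖ + ‖r n‖ / 2 := by
        rw [Real.sqrt_le_left (by positivity)]
        nlinarith [norm_nonneg (u n), norm_nonneg (r n)]
      have h3 : ‖r n‖ - ‖c₁ n‖ ≤ ‖c₁ n + r n‖ := by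
        have h4 : r n = (c₁ n + r n) - c₁ n := by abel
        have h5 := norm_sub_le (c₁ n + r n) (c₁ n)
        rw [← h4] at h5
        linarith
      have h4 : ‖r n‖ - ‖c₂ n‖ ≤ ‖c₂ n - r n‖ := by
        have h5 : r n = c₂ n - (c₂ n - r n) := by abel
        have h6 := norm_sub_le (c₂ n) (c₂ n - r n)
        rw [← h5] at h6
        linarith
      linarith [norm_nonneg (r n)]
  have hHS : HasSum (fun n => w n ^ 2) (4 * ‖u‖ ^ 2 + ‖r‖ ^ 2) := by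
    have h1 : (fun n => w n ^ 2) = fun n => 4 * ‖u n‖ ^ 2 + ‖r n‖ ^ 2 := funext hwsq
    rw [h1]
    exact ((hasSum_sq u).mul_left 4).add (hasSum_sq r)
  have hεs : 0 < (ε / 2) ^ 2 := by positivity
  have hev3 := hHS.eventually (lt_mem_nhds
    (show 4 * ‖u‖ ^ 2 + ‖r‖ ^ 2 - (ε / 2) ^ 2 < 4 * ‖u‖ ^ 2 + ‖r‖ ^ 2 by linarith))
  obtain ⟨M, hM3, hM4⟩ := (hev3.and (eventually_ge_atTop M₀)).exists
  have hMsub : M₀ ⊆ M := hM4
  -- the chain of inequalities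
  set L : ℝ := Real.sqrt (∑ n ∈ M, w n ^ 2) with hL
  have hL0 : 0 ≤ L := Real.sqrt_nonneg _
  have hLsq : L ^ 2 = ∑ n ∈ M, w n ^ 2 := Real.sq_sqrt (Finset.sum_nonneg fun n _ => sq_nonneg _)
  have h1 : L ≤ Real.sqrt (∑ n ∈ M, (a n + b n + d n) ^ 2) := by
    refine Real.sqrt_le_sqrt (Finset.sum_le_sum fun n _ => ?_)
    exact pow_le_pow_left₀ (hw0 n) (hw n) 2
  have h2 : Real.sqrt (∑ n ∈ M, (a n + b n + d n) ^ 2) ≤
      Real.sqrt (∑ n ∈ M, a n ^ 2) + Real.sqrt (∑ n ∈ M, b n ^ 2) + Real.sqrt (∑ n ∈ M, d n ^ 2) := by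
    have h3 := sqrt_sum_add_le M (fun n => a n + b n) d
    have h4 := sqrt_sum_add_le M a b
    linarith
  have h3 : Real.sqrt (∑ n ∈ M, a n ^ 2) ≤ ‖c₁ + r‖ := by
    rw [Real.sqrt_le_left (norm_nonneg _)]
    exact sum_sq_le (c₁ + r) M
  have h4 : Real.sqrt (∑ n ∈ M, b n ^ 2) ≤ ‖c₂ - r‖ := by
    rw [Real.sqrt_le_left (norm_nonneg _)]
    exact sum_sq_le (c₂ - r) M
  have h5 : Real.sqrt (∑ n ∈ M, d n ^ 2) ≤ ε / 2 := by
    rw [Real.sqrt_le_left (by positivity)]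
    rw [← Finset.sum_sdiff hMsub]
    have h6 : ∑ n ∈ M₀, d n ^ 2 ≤ ε ^ 2 / 16 := by
      have h7 : ∑ n ∈ M₀, d n ^ 2 = (M₀.card : ℝ) * ε₀ ^ 2 := by
        have h7a : ∀ n ∈ M₀, d n ^ 2 = ε₀ ^ 2 := fun n hn => by simp only [d, if_pos hn]
        rw [Finset.sum_congr rfl h7a, Finset.sum_const, nsmul_eq_mul]
      rw [h7, hε₀, div_pow, mul_pow]
      have hc0 : (0 : ℝ) ≤ M₀.card := Nat.cast_nonneg _
      rw [mul_div_assoc', div_le_div_iff₀ (by positivity) (by norm_num)]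
      have h8 : (M₀.card : ℝ) ≤ ((M₀.card : ℝ) + 1) ^ 2 := by nlinarith
      nlinarith [sq_nonneg ε]
    have h9 : ∑ n ∈ M \ M₀, d n ^ 2 ≤ 8 * (η₁ + η₁) := by
      have h10 : ∀ n ∈ M \ M₀, d n ^ 2 ≤ 8 * (‖c₁ n‖ ^ 2 + ‖c₂ n‖ ^ 2) := by
        intro n hn
        have hn2 : n ∉ M₀ := (Finset.mem_sdiff.1 hn).2
        simp only [d, if_neg hn2]
        nlinarith [sq_nonneg (‖c₁ n‖ - ‖c₂ n‖)]
      refine (Finset.sum_le_sum h10).trans ?_
      rw [← Finset.mul_sum, Finset.sum_add_distrib]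
      have h11 : ∑ n ∈ M \ M₀, ‖c₁ n‖ ^ 2 ≤ η₁ := by
        have h12 := Finset.sum_sdiff (f := fun n => ‖c₁ n‖ ^ 2) hMsub
        have h13 := sum_sq_le c₁ M
        linarith
      have h12 : ∑ n ∈ M \ M₀, ‖c₂ n‖ ^ 2 ≤ η₁ := by
        have h13 := Finset.sum_sdiff (f := fun n => ‖c₂ n‖ ^ 2) hMsub
        have h14 := sum_sq_le c₂ M
        linarith
      linarith
    rw [hη₁] at h9
    nlinarith [sq_nonneg ε]
  have h6 : (2 * Real.sqrt (‖u‖ ^ 2 + ‖r‖ ^ 2 / 4)) ^ 2 ≤ (L + ε / 2) ^ 2 := by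
    rw [mul_pow, Real.sq_sqrt (by positivity)]
    have h7 : 4 * ‖u‖ ^ 2 + ‖r‖ ^ 2 - (ε / 2) ^ 2 < L ^ 2 := by
      rw [hLsq]; exact hM3
    nlinarith
  have h7 : 2 * Real.sqrt (‖u‖ ^ 2 + ‖r‖ ^ 2 / 4) ≤ L + ε / 2 :=
    le_of_pow_le_pow_left₀ (by norm_num) (by positivity) h6
  linarith

end twocentre

end Crest.Agent.Lib.LpTwoSum
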