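import Mathlib
import Crest.Prelude.Def_AsymptoticConvexity
import Crest.Prelude.Def_TreePotentials
import Crest.Agent.Lib.TreeAUC

/-!
An abstract framework for the spaces generated by coordinate vectors over a set of tests with
bounded path potentials; the key result is the two-centre inequality `two_centre`.
-/

set_option autoImplicit false
set_option linter.unusedSectionVars false

namespace Crest.Agent.Lib.TreeTests

open Crest.AnalysisR Crest.AnalysisR.TreePotential Crest.Agent.Lib.TreeAUC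

section clamp

/-- clamping to an interval -/
noncomputable def kap (lo hi x : ℝ) : ℝ := max lo (min hi x)

lemma kap_mem {lo hi : ℝ} (h : lo ≤ hi) (x : ℝ) : lo ≤ kap lo hi x ∧ kap lo hi x ≤ hi := by
  unfold kap
  constructor
  · exact le_max_left _ _
  · exact max_le h (min_le_left _ _)

lemma kap_zero {lo hi : ℝ} (h0 : lo ≤ 0) (h1 : 0 ≤ hi) : kap lo hi 0 = 0 := by
  unfold kap
  rw [min_eq_right h1, max_eq_right h0]

lemma abs_kap_add_sub {lo hi : ℝ} (h : lo ≤ hi) (x y : ℝ) :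
    |kap lo hi (x + y) - kap lo hi x| ≤ |y| := by
  unfold kap
  simp only [max_def, min_def]
  split_ifs <;> rw [abs_le] <;> constructor <;>
    cases abs_cases y <;> linarith

lemma abs_kap_add_sub' {lo hi : ℝ} (h : lo ≤ hi) (x y : ℝ) :
    |(kap lo hi (x + y) - (x + y)) - (kap lo hi x - x)| ≤ |y| := by
  unfold kap
  simp only [max_def, min_def]
  split_ifs <;> rw [abs_le] <;> constructor <;>
    cases abs_cases y <;> linarith

lemma kap_sub_mem {lo hi x : ℝ} (h0 : lo ≤ 0) (h1 : 0 ≤ hi) (hx1 : x ≤ hi - lo) (hx2 : lo - hi ≤ x) :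
    lo ≤ kap lo hi x - x ∧ kap lo hi x - x ≤ hi := by
  unfold kap
  simp only [max_def, min_def]
  split_ifs <;> constructor <;> linarith

end clamp

section potentials

/-- the increments of a potential -/
def incr (Q : List ℕ → ℝ) : List ℕ → ℝ
  | [] => Q []
  | a :: v => Q (a :: v) - Q v

lemma pathPotential_incr (Q : List ℕ → ℝ) : ∀ s, pathPotential (incr Q) s = Q s
  | [] => by simp [pathPotential, incr]
  | a :: v => by
    simp only [pathPotential, incr]
    rw [pathPotential_incr Q v]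
    ring

/-- The potential of a coefficient family at a vertex in terms of all earlier vertices is bounded
by the sum of squares: used for coordinate bounds. -/
lemma abs_coord_le {f : List ℕ → ℝ} (hf : ∀ s, |pathPotential f s| ≤ 1) (s : List ℕ) :
    |f s| ≤ 2 := by
  cases s with
  | nil =>
    have h0 := hf []
    simp only [pathPotential] at h0
    linarith
  | cons a v =>
    have h1 := hf (a :: v)
    have h2 := hf v
    simp only [pathPotential] at h1
    rw [abs_le] at h1 h2 ⊢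
    constructor <;> linarith [h1.1, h1.2, h2.1, h2.2]

variable (A : Finset (List ℕ))

/-- base values at the last vertex in `A` -/
noncomputable def cc (f : List ℕ → ℝ) : List ℕ → ℝ
  | [] => pathPotential f []
  | a :: v => if (a :: v) ∈ A then pathPotential f (a :: v) else cc f v

/-- the path sum since the last vertex in `A` -/
noncomputable def GG (g : List ℕ → ℝ) : List ℕ → ℝ
  | [] => 0
  | a :: v => if (a :: v) ∈ A then 0 else GG g v + g (a :: v)

variable {A}

lemma cc_of_mem (f : List ℕ → ℝ) {s : List ℕ} (hs : s ∈ A) :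
    cc A f s = pathPotential f s := by
  cases s with
  | nil => rfl
  | cons a v => simp [cc, hs]

lemma GG_of_mem (g : List ℕ → ℝ) {s : List ℕ} (hs : s ∈ A) : GG A g s = 0 := by
  cases s with
  | nil => rfl
  | cons a v => simp [GG, hs]

lemma abs_cc_le {f : List ℕ → ℝ} (hf : ∀ s, |pathPotential f s| ≤ 1) :
    ∀ s, |cc A f s| ≤ 1
  | [] => hf _
  | a :: v => by
    simp only [cc]
    split_ifs
    · exact hf _
    · exact abs_cc_le hf v

lemma exists_GG_eq (g : List ℕ → ℝ) : ∀ s, ∃ t, GG A g s = pathPotential g s - pathPotential g t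
  | [] => ⟨[], by simp [GG]⟩
  | a :: v => by
    by_cases h : (a :: v) ∈ A
    · exact ⟨a :: v, by simp [GG, h]⟩
    · obtain ⟨t, ht⟩ := exists_GG_eq g v
      exact ⟨t, by simp only [GG, h, if_false, pathPotential]; rw [ht]; ring⟩

lemma abs_GG_le {g : List ℕ → ℝ} (hg : ∀ s, |pathPotential g s| ≤ 1) (s : List ℕ) :
    |GG A g s| ≤ 2 := by
  obtain ⟨t, ht⟩ := exists_GG_eq (A := A) g s
  rw [ht]
  have h1 := hg s
  have h2 := hg t
  rw [abs_le] at h1 h2 ⊢
  constructor <;> linarith [h1.1, h1.2, h2.1, h2.2]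

/-- The positive split of a potential. -/
noncomputable def Qp (A : Finset (List ℕ)) (α β : ℝ) (f g : List ℕ → ℝ) (s : List ℕ) : ℝ :=
  α * cc A f s + β * kap ((-1 - α * cc A f s) / β) ((1 - α * cc A f s) / β) (GG A g s)

/-- The negative split of a potential. -/
noncomputable def Qm (A : Finset (List ℕ)) (α β : ℝ) (f g : List ℕ → ℝ) (s : List ℕ) : ℝ :=
  α * cc A f s + β * (kap ((-1 - α * cc A f s) / β) ((1 - α * cc A f s) / β) (GG A g s) - GG A g s)

section split

variable {α β : ℝ} {f g : List ℕ → ℝ} (hα0 : 0 ≤ α) (hα1 : α ≤ 1) (hβ0 : 0 < β) (hβ1 : β ≤ 1)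
  (hf : ∀ s, |pathPotential f s| ≤ 1) (hg : ∀ s, |pathPotential g s| ≤ 1)

include hα0 hα1 hβ0 hβ1 hf hg

lemma lo_hi (s : List ℕ) :
    (-1 - α * cc A f s) / β ≤ 0 ∧ 0 ≤ (1 - α * cc A f s) / β ∧
      (1 - α * cc A f s) / β - (-1 - α * cc A f s) / β = 2 / β := by
  have hc := abs_le.1 (abs_cc_le (A := A) hf s)
  have hm : |α * cc A f s| ≤ 1 := by
    rw [abs_mul, abs_of_nonneg hα0]
    calc α * |cc A f s| ≤ 1 * 1 :=
          mul_le_mul hα1 (abs_cc_le hf s) (abs_nonneg _) zero_le_one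
      _ = 1 := by ring
  have hm' := abs_le.1 hm
  refine ⟨div_nonpos_of_nonpos_of_nonneg (by linarith) hβ0.le,
    div_nonneg (by linarith) hβ0.le, ?_⟩
  field_simp
  ring

lemma Qp_bound (s : List ℕ) : |Qp A α β f g s| ≤ 1 := by
  obtain ⟨h0, h1, h2⟩ := lo_hi (A := A) hα0 hα1 hβ0 hβ1 hf hg s
  have hle : (-1 - α * cc A f s) / β ≤ (1 - α * cc A f s) / β := by linarith
  obtain ⟨h3, h4⟩ := kap_mem hle (GG A g s)
  have h5 := mul_le_mul_of_nonneg_left h3 hβ0.le
  have h6 := mul_le_mul_of_nonneg_left h4 hβ0.le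
  rw [mul_div_cancel₀ _ hβ0.ne'] at h5 h6
  unfold Qp
  rw [abs_le]
  constructor <;> linarith

lemma Qm_bound (s : List ℕ) : |Qm A α β f g s| ≤ 1 := by
  obtain ⟨h0, h1, h2⟩ := lo_hi (A := A) hα0 hα1 hβ0 hβ1 hf hg s
  have hG := abs_le.1 (abs_GG_le (A := A) hg s)
  have h2b : (2 : ℝ) ≤ 2 / β := by
    rw [le_div_iff₀ hβ0]
    linarith
  obtain ⟨h3, h4⟩ := kap_sub_mem (x := GG A g s) h0 h1 (by linarith [hG.2]) (by linarith [hG.1])
  have h5 := mul_le_mul_of_nonneg_left h3 hβ0.le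
  have h6 := mul_le_mul_of_nonneg_left h4 hβ0.le
  rw [mul_div_cancel₀ _ hβ0.ne'] at h5 h6
  unfold Qm
  rw [abs_le]
  constructor <;> linarith

lemma incr_Qp_mem (hanc : ∀ a v, (a :: v) ∈ A → v ∈ A) {s : List ℕ} (hs : s ∈ A) :
    incr (Qp A α β f g) s = α * f s := by
  obtain ⟨h0, h1, h2⟩ := lo_hi (A := A) hα0 hα1 hβ0 hβ1 hf hg s
  have e1 : Qp A α β f g s = α * pathPotential f s := by
    unfold Qp
    rw [GG_of_mem g hs, kap_zero h0 h1, cc_of_mem f hs]
    ring
  cases s with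
  | nil =>
    simp only [incr]
    rw [e1]
    rfl
  | cons a v =>
    have hv := hanc a v hs
    obtain ⟨h0', h1', h2'⟩ := lo_hi (A := A) hα0 hα1 hβ0 hβ1 hf hg v
    have e2 : Qp A α β f g v = α * pathPotential f v := by
      unfold Qp
      rw [GG_of_mem g hv, kap_zero h0' h1', cc_of_mem f hv]
      ring
    simp only [incr]
    rw [e1, e2]
    simp only [pathPotential]
    ring

lemma incr_Qm_mem (hanc : ∀ a v, (a :: v) ∈ A → v ∈ A) {s : List ℕ} (hs : s ∈ A) :
    incr (Qm A α β f g) s = α * f s := by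
  obtain ⟨h0, h1, h2⟩ := lo_hi (A := A) hα0 hα1 hβ0 hβ1 hf hg s
  have e1 : Qm A α β f g s = α * pathPotential f s := by
    unfold Qm
    rw [GG_of_mem g hs, kap_zero h0 h1, cc_of_mem f hs]
    ring
  cases s with
  | nil =>
    simp only [incr]
    rw [e1]
    rfl
  | cons a v =>
    have hv := hanc a v hs
    obtain ⟨h0', h1', h2'⟩ := lo_hi (A := A) hα0 hα1 hβ0 hβ1 hf hg v
    have e2 : Qm A α β f g v = α * pathPotential f v := by
      unfold Qm
      rw [GG_of_mem g hv, kap_zero h0' h1', cc_of_mem f hv]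
      ring
    simp only [incr]
    rw [e1, e2]
    simp only [pathPotential]
    ring

lemma step_values {a : ℕ} {v : List ℕ} (hs : (a :: v) ∉ A) :
    incr (Qp A α β f g) (a :: v) - incr (Qm A α β f g) (a :: v) = β * g (a :: v) ∧
      |incr (Qp A α β f g) (a :: v)| ≤ β * |g (a :: v)| ∧
      |incr (Qm A α β f g) (a :: v)| ≤ β * |g (a :: v)| := by
  have hcc : cc A f (a :: v) = cc A f v := by simp [cc, hs]
  have hGG : GG A g (a :: v) = GG A g v + g (a :: v) := by simp [GG, hs]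
  obtain ⟨h0, h1, h2⟩ := lo_hi (A := A) hα0 hα1 hβ0 hβ1 hf hg v
  have hle : (-1 - α * cc A f v) / β ≤ (1 - α * cc A f v) / β := by linarith
  set lo := (-1 - α * cc A f v) / β
  set hi := (1 - α * cc A f v) / β
  have hp : incr (Qp A α β f g) (a :: v) =
      β * (kap lo hi (GG A g v + g (a :: v)) - kap lo hi (GG A g v)) := by
    simp only [incr, Qp]
    rw [hcc, hGG]
    ring
  have hm : incr (Qm A α β f g) (a :: v) =
      β * ((kap lo hi (GG A g v + g (a :: v)) - (GG A g v + g (a :: v))) -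
        (kap lo hi (GG A g v) - GG A g v)) := by
    simp only [incr, Qm]
    rw [hcc, hGG]
    ring
  refine ⟨?_, ?_, ?_⟩
  · rw [hp, hm]; ring
  · rw [hp, abs_mul, abs_of_pos hβ0]
    exact mul_le_mul_of_nonneg_left (abs_kap_add_sub hle _ _) hβ0.le
  · rw [hm, abs_mul, abs_of_pos hβ0]
    exact mul_le_mul_of_nonneg_left (abs_kap_add_sub' hle _ _) hβ0.le

end split

end potentials

section system

variable {Tst : (List ℕ → ℝ) → Prop}

/-- the type of tests -/
abbrev TT (Tst : (List ℕ → ℝ) → Prop) : Type := {f : List ℕ → ℝ // Tst f}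

/-- the ambient space of bounded functions on the tests -/
abbrev LL (Tst : (List ℕ → ℝ) → Prop) : Type := lp (fun _ : TT Tst => ℝ) ⊤

/-- The abstract conditions on a set of tests. -/
structure IsSystem (Tst : (List ℕ → ℝ) → Prop) (Allowed : List ℕ → Prop) : Prop where
  pot : ∀ f, Tst f → ∀ s, |pathPotential f s| ≤ 1
  neg : ∀ f, Tst f → Tst (fun s => -f s)
  zero : Tst (fun _ => 0)
  delta : ∀ s, Allowed s → Tst (Pi.single s 1)
  vanish : ∀ f, Tst f → ∀ s, ¬ Allowed s → f s = 0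
  sibling : ∀ f, Tst f → ∀ (r : List ℕ) (A : Finset ℕ), ∑ n ∈ A, f (n :: r) ^ 2 ≤ 1
  dom : ∀ f g h : List ℕ → ℝ, Tst f → Tst g → ∀ α β : ℝ, α ^ 2 + β ^ 2 ≤ 1 →
    ∀ A : Finset (List ℕ), [] ∈ A → (∀ a v, (a :: v) ∈ A → v ∈ A) →
    (∀ s, |pathPotential h s| ≤ 1) → (∀ s ∈ A, h s = α * f s) → (∀ s, s ∉ A → |h s| ≤ β * |g s|) →
    Tst h

variable {Allowed : List ℕ → Prop} (hS : IsSystem Tst Allowed)

/-- evaluation at a test -/
noncomputable def ev (f : TT Tst) : LL Tst →L[ℝ] ℝ :=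
  lp.evalCLM (E := fun _ : TT Tst => ℝ) (𝕜 := ℝ) (p := ⊤) f

@[simp] lemma ev_apply (f : TT Tst) (z : LL Tst) : ev f z = z f := rfl

lemma abs_apply_le (z : LL Tst) (f : TT Tst) : |z f| ≤ ‖z‖ := by
  have := lp.norm_apply_le_norm (p := ⊤) (by simp) z f
  simpa using this

lemma apply_le (z : LL Tst) (f : TT Tst) : z f ≤ ‖z‖ := (le_abs_self _).trans (abs_apply_le z f)

variable (e : List ℕ → LL Tst)

/-- the closed span of the coordinate vectors -/
noncomputable def Sp : Submodule ℝ (LL Tst) :=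
  (Submodule.span ℝ (Set.range e)).topologicalClosure

lemma sp_isClosed : IsClosed (Sp e : Set (LL Tst)) := Submodule.isClosed_topologicalClosure _

variable {e}

lemma coord_mem (s : List ℕ) : e s ∈ Sp e :=
  Submodule.le_topologicalClosure _ (Submodule.subset_span ⟨s, rfl⟩)

/-- a continuous functional vanishing on coordinate vectors vanishes on the space -/
lemma vanish_of_coord (Λ : LL Tst →L[ℝ] ℝ) (h : ∀ s, Λ (e s) = 0) : ∀ z ∈ Sp e, Λ z = 0 := by
  have hker : Submodule.span ℝ (Set.range e) ≤ LinearMap.ker (Λ : LL Tst →ₗ[ℝ] ℝ) := by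
    rw [Submodule.span_le]
    rintro _ ⟨s, rfl⟩
    exact h s
  have hcl : IsClosed ((LinearMap.ker (Λ : LL Tst →ₗ[ℝ] ℝ) : Submodule ℝ (LL Tst)) : Set (LL Tst)) := by
    have : ((LinearMap.ker (Λ : LL Tst →ₗ[ℝ] ℝ) : Submodule ℝ (LL Tst)) : Set (LL Tst)) = Λ ⁻¹' {0} := by
      ext x; simp
    rw [this]
    exact isClosed_singleton.preimage Λ.continuous
  intro z hz
  have h1 : z ∈ closure ((Submodule.span ℝ (Set.range e) : Submodule ℝ (LL Tst)) : Set (LL Tst)) := hz
  have h2 := closure_minimal hker hcl h1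
  exact h2

variable (he : ∀ s (f : TT Tst), e s f = f.1 s)

include he hS

lemma neg_eval {z : LL Tst} (hz : z ∈ Sp e) (f : TT Tst) :
    z ⟨fun s => -f.1 s, hS.neg _ f.2⟩ = - z f := by
  have := vanish_of_coord (e := e) (ev ⟨fun s => -f.1 s, hS.neg _ f.2⟩ + ev f) (by
    intro s
    simp [he]) z hz
  simp only [add_apply, ev_apply] at this
  linarith

lemma zero_eval {z : LL Tst} (hz : z ∈ Sp e) : z ⟨fun _ => 0, hS.zero⟩ = 0 := by
  have := vanish_of_coord (e := e) (ev ⟨fun _ => 0, hS.zero⟩) (by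
    intro s
    simp [he]) z hz
  simpa using this

/-- approximately norming tests -/
lemma exists_norming {z : LL Tst} (hz : z ∈ Sp e) {ε : ℝ} (hε : 0 < ε) :
    ∃ f : TT Tst, ‖z‖ - ε ≤ z f := by
  by_contra hcon
  push Not at hcon
  have hC : 0 ≤ ‖z‖ - ε := by
    have := hcon ⟨fun _ => 0, hS.zero⟩
    rw [zero_eval hS he hz] at this
    exact this.le
  have : ‖z‖ ≤ ‖z‖ - ε := by
    refine lp.norm_le_of_forall_le hC fun f => ?_
    rw [Real.norm_eq_abs, abs_le]
    constructor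
    · have := hcon ⟨fun s => -f.1 s, hS.neg _ f.2⟩
      rw [neg_eval hS he hz] at this
      linarith
    · exact (hcon f).le
  linarith

omit he hS in
/-- elements of the algebraic span depend on finitely many coefficients, linearly -/
lemma span_supp (he : ∀ s (f : TT Tst), e s f = f.1 s) {z : LL Tst}
    (hz : z ∈ Submodule.span ℝ (Set.range e)) :
    ∃ A : Finset (List ℕ), ∀ (h f : TT Tst) (c : ℝ), (∀ s ∈ A, h.1 s = c * f.1 s) →
      z h = c * z f := by
  classical
  induction hz using Submodule.span_induction with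
  | mem x hx =>
    obtain ⟨s, rfl⟩ := hx
    refine ⟨{s}, fun h f c hhf => ?_⟩
    rw [he, he]
    exact hhf s (by simp)
  | zero => exact ⟨∅, fun h f c _ => by simp⟩
  | add x y _ _ ihx ihy =>
    obtain ⟨A, hA⟩ := ihx
    obtain ⟨B, hB⟩ := ihy
    refine ⟨A ∪ B, fun h f c hhf => ?_⟩
    have h1 := hA h f c fun s hs => hhf s (Finset.mem_union_left _ hs)
    have h2 := hB h f c fun s hs => hhf s (Finset.mem_union_right _ hs)
    simp only [lp.coeFn_add, Pi.add_apply]
    rw [h1, h2]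
    ring
  | smul a x _ ih =>
    obtain ⟨A, hA⟩ := ih
    refine ⟨A, fun h f c hhf => ?_⟩
    have h1 := hA h f c hhf
    simp only [lp.coeFn_smul, Pi.smul_apply, smul_eq_mul]
    rw [h1]
    ring

/-- the dirac tests (with the zero test at non-allowed vertices) -/
noncomputable def dl (hS : IsSystem Tst Allowed) (s : List ℕ) : TT Tst := by
  classical
  exact if h : Allowed s then ⟨Pi.single s 1, hS.delta s h⟩ else ⟨fun _ => 0, hS.zero⟩

omit he in
lemma dl_apply_self (g : TT Tst) (s : List ℕ) : g.1 s * (dl hS s).1 s = g.1 s := by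
  classical
  unfold dl
  split_ifs with h
  · simp
  · simp [hS.vanish g.1 g.2 s h]

omit he in
lemma dl_apply_ne {s t : List ℕ} (hst : t ≠ s) : (dl hS s).1 t = 0 := by
  classical
  unfold dl
  split_ifs with h
  · simp [hst]
  · rfl

omit he in
lemma dl_apply_of_allowed {s : List ℕ} (h : Allowed s) : (dl hS s).1 s = 1 := by
  classical
  unfold dl
  simp [h]

omit he hS in
/-- closing a finite set under ancestors -/
lemma exists_anc_closed (B : Finset (List ℕ)) :
    ∃ A : Finset (List ℕ), B ⊆ A ∧ [] ∈ A ∧ ∀ a v, (a :: v) ∈ A → v ∈ A := by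
  classical
  refine ⟨B.biUnion (fun s => s.tails.toFinset) ∪ {[]}, ?_, by simp, ?_⟩
  · intro s hs
    refine Finset.mem_union_left _ (Finset.mem_biUnion.2 ⟨s, hs, ?_⟩)
    simp
  · intro a v h
    simp only [Finset.mem_union, Finset.mem_biUnion, List.mem_toFinset, List.mem_tails,
      Finset.mem_singleton] at h ⊢
    rcases h with ⟨s, hs, hsuf⟩ | h
    · left
      exact ⟨s, hs, (List.suffix_cons a v).trans hsuf⟩
    · simp at h

/-- the two-centre inequality -/
theorem two_centre {c₁ c₂ : LL Tst} (h₁ : c₁ ∈ Sp e) (h₂ : c₂ ∈ Sp e) {ε : ℝ} (hε : 0 < ε) :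
    ∃ A : Finset (List ℕ), ∀ r ∈ Sp e, (∀ s ∈ A, r (dl hS s) = 0) →
      2 * Real.sqrt (‖(1 / 2 : ℝ) • (c₁ + c₂)‖ ^ 2 + ‖r‖ ^ 2 / 4) - ε ≤ ‖c₁ + r‖ + ‖c₂ - r‖ := by
  classical
  set δ : ℝ := ε / 8 with hδ
  have hδpos : 0 < δ := by positivity
  obtain ⟨d₁, hd₁, hd₁'⟩ := Metric.mem_closure_iff.1 h₁ δ hδpos
  obtain ⟨d₂, hd₂, hd₂'⟩ := Metric.mem_closure_iff.1 h₂ δ hδpos
  obtain ⟨A₁, hA₁⟩ := span_supp he hd₁
  obtain ⟨A₂, hA₂⟩ := span_supp he hd₂
  obtain ⟨A, hAsub, hroot, hanc⟩ := exists_anc_closed (A₁ ∪ A₂)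
  refine ⟨A, fun r hr hvan => ?_⟩
  set u : LL Tst := (1 / 2 : ℝ) • (c₁ + c₂) with hu
  have hu2 : c₁ + c₂ = (2 : ℝ) • u := by
    rw [hu, smul_smul]; norm_num
  have humem : u ∈ Sp e := (Sp e).smul_mem _ ((Sp e).add_mem h₁ h₂)
  by_cases hr0 : r = 0
  · -- the trivial case
    subst hr0
    have h1 : Real.sqrt (‖u‖ ^ 2 + ‖(0 : LL Tst)‖ ^ 2 / 4) = ‖u‖ := by
      simp [Real.sqrt_sq (norm_nonneg u)]
    rw [h1]
    have h2 : 2 * ‖u‖ ≤ ‖c₁‖ + ‖c₂‖ := by
      have h3 : ‖(2 : ℝ) • u‖ = 2 * ‖u‖ := by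
        rw [norm_smul]; simp
      rw [← h3, ← hu2]
      exact norm_add_le _ _
    simp only [add_zero, sub_zero]
    linarith
  have hrpos : 0 < ‖r‖ := norm_pos_iff.2 hr0
  set W : ℝ := Real.sqrt (‖u‖ ^ 2 + ‖r‖ ^ 2 / 4) with hW
  have hinner : 0 < ‖u‖ ^ 2 + ‖r‖ ^ 2 / 4 := by positivity
  have hWpos : 0 < W := Real.sqrt_pos.2 hinner
  have hW2 : W ^ 2 = ‖u‖ ^ 2 + ‖r‖ ^ 2 / 4 := Real.sq_sqrt hinner.le
  set α : ℝ := ‖u‖ / W with hα
  set β : ℝ := (‖r‖ / 2) / W with hβ
  have hα0 : 0 ≤ α := by positivity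
  have hβ0 : 0 < β := by positivity
  have hαβ : α ^ 2 + β ^ 2 = 1 := by
    rw [hα, hβ, div_pow, div_pow, ← add_div, hW2]
    field_simp
    ring
  have hα1 : α ≤ 1 := by nlinarith
  have hβ1 : β ≤ 1 := by nlinarith
  obtain ⟨f₀, hf₀⟩ := exists_norming hS he humem hδpos
  obtain ⟨g, hg⟩ := exists_norming hS he hr hδpos
  have hfpot := hS.pot f₀.1 f₀.2
  have hgpot := hS.pot g.1 g.2
  -- the two new tests
  have hpot1 : ∀ s, |pathPotential (incr (Qp A α β f₀.1 g.1)) s| ≤ 1 := by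
    intro s
    rw [pathPotential_incr]
    exact Qp_bound hα0 hα1 hβ0 hβ1 hfpot hgpot s
  have hpot2 : ∀ s, |pathPotential (incr (Qm A α β f₀.1 g.1)) s| ≤ 1 := by
    intro s
    rw [pathPotential_incr]
    exact Qm_bound hα0 hα1 hβ0 hβ1 hfpot hgpot s
  have hon1 : ∀ s ∈ A, incr (Qp A α β f₀.1 g.1) s = α * f₀.1 s := fun s hs =>
    incr_Qp_mem hα0 hα1 hβ0 hβ1 hfpot hgpot hanc hs
  have hon2 : ∀ s ∈ A, incr (Qm A α β f₀.1 g.1) s = α * f₀.1 s := fun s hs =>
    incr_Qm_mem hα0 hα1 hβ0 hβ1 hfpot hgpot hanc hs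
  have hoff : ∀ s, s ∉ A → incr (Qp A α β f₀.1 g.1) s - incr (Qm A α β f₀.1 g.1) s = β * g.1 s ∧
      |incr (Qp A α β f₀.1 g.1) s| ≤ β * |g.1 s| ∧ |incr (Qm A α β f₀.1 g.1) s| ≤ β * |g.1 s| := by
    intro s hs
    cases s with
    | nil => exact absurd hroot hs
    | cons a v => exact step_values hα0 hα1 hβ0 hβ1 hfpot hgpot hs
  let hplus : TT Tst := ⟨incr (Qp A α β f₀.1 g.1), hS.dom f₀.1 g.1 _ f₀.2 g.2 α β hαβ.le A hroot hanc
    hpot1 hon1 fun s hs => (hoff s hs).2.1⟩
  let hminus : TT Tst := ⟨incr (Qm A α β f₀.1 g.1), hS.dom f₀.1 g.1 _ f₀.2 g.2 α β hαβ.le A hroot hanc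
    hpot2 hon2 fun s hs => (hoff s hs).2.2⟩
  -- the linear relation
  have hrel : r hplus - r hminus = β * r g := by
    have := vanish_of_coord (e := e) (ev hplus - ev hminus - β • ev g +
      β • ∑ s ∈ A, g.1 s • ev (dl hS s)) (by
        intro t
        simp only [add_apply, sub_apply,
          smul_apply, ContinuousLinearMap.sum_apply, ev_apply, he, smul_eq_mul]
        by_cases ht : t ∈ A
        · have h5 : ∑ s ∈ A, g.1 s * (dl hS s).1 t = g.1 t := by
            rw [Finset.sum_eq_single t]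
            · exact dl_apply_self hS g t
            · intro b _ hb
              rw [dl_apply_ne hS (Ne.symm hb), mul_zero]
            · intro hh; exact absurd ht hh
          rw [h5]
          simp only [hplus, hminus]
          rw [hon1 t ht, hon2 t ht]
          ring
        · have h5 : ∑ s ∈ A, g.1 s * (dl hS s).1 t = 0 := by
            refine Finset.sum_eq_zero fun s hs => ?_
            have : t ≠ s := fun hh => ht (hh ▸ hs)
            rw [dl_apply_ne hS this, mul_zero]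
          rw [h5]
          simp only [hplus, hminus]
          have := (hoff t ht).1
          linarith) r hr
    simp only [add_apply, sub_apply,
      smul_apply, ContinuousLinearMap.sum_apply, ev_apply, smul_eq_mul] at this
    have h6 : ∑ s ∈ A, g.1 s * r (dl hS s) = 0 :=
      Finset.sum_eq_zero fun s hs => by rw [hvan s hs, mul_zero]
    rw [h6] at this
    linarith
  -- the values on the centres
  have hd₁h : d₁ hplus = α * d₁ f₀ := hA₁ hplus f₀ α fun s hs => hon1 s (hAsub (Finset.mem_union_left _ hs))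
  have hd₂h : d₂ hminus = α * d₂ f₀ := hA₂ hminus f₀ α fun s hs => hon2 s (hAsub (Finset.mem_union_right _ hs))
  have hclose : ∀ (c d : LL Tst) (t : TT Tst), dist c d < δ → |c t - d t| ≤ δ := by
    intro c d t hcd
    have h7 : (c - d) t = c t - d t := by simp [lp.coeFn_sub]
    rw [← h7]
    refine (abs_apply_le _ t).trans ?_
    rw [dist_eq_norm] at hcd
    exact hcd.le
  have hc1a := abs_le.1 (hclose c₁ d₁ hplus hd₁')
  have hc1b := abs_le.1 (hclose c₁ d₁ f₀ hd₁')
  have hc2a := abs_le.1 (hclose c₂ d₂ hminus hd₂')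
  have hc2b := abs_le.1 (hclose c₂ d₂ f₀ hd₂')
  have hsum1 : ‖c₁ + r‖ ≥ c₁ hplus + r hplus := by
    have := apply_le (c₁ + r) hplus
    simpa [lp.coeFn_add] using this
  have hsum2 : ‖c₂ - r‖ ≥ c₂ hminus - r hminus := by
    have := apply_le (c₂ - r) hminus
    simpa [lp.coeFn_sub] using this
  have hval : c₁ f₀ + c₂ f₀ = 2 * u f₀ := by
    have h8 : (c₁ + c₂) f₀ = ((2 : ℝ) • u) f₀ := by rw [hu2]
    simpa [lp.coeFn_add, lp.coeFn_smul] using h8
  have hlow : 2 * W - 7 * δ ≤ ‖c₁ + r‖ + ‖c₂ - r‖ := by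
    have h9 : 2 * α * ‖u‖ + β * ‖r‖ = 2 * W := by
      rw [hα, hβ]
      field_simp
      rw [hW2]
      ring
    have hm : ∀ a b : ℝ, a - b ≤ δ → α * a - δ ≤ α * b := by
      intro a b hab
      nlinarith
    have h10 : α * c₁ f₀ - δ ≤ α * d₁ f₀ := hm _ _ hc1b.2
    have h11 : α * c₂ f₀ - δ ≤ α * d₂ f₀ := hm _ _ hc2b.2
    have h12 : 2 * α * ‖u‖ - 2 * δ ≤ 2 * α * u f₀ := by
      have := hm ‖u‖ (u f₀) (by linarith)
      linarith
    have h13 : β * ‖r‖ - δ ≤ β * r g := by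
      have : β * (‖r‖ - r g) ≤ 1 * δ :=
        mul_le_mul hβ1 (by linarith) (by linarith [apply_le r g]) zero_le_one
      linarith
    have h14 : α * c₁ f₀ + α * c₂ f₀ = 2 * α * u f₀ := by
      have : α * (c₁ f₀ + c₂ f₀) = α * (2 * u f₀) := by rw [hval]
      linarith
    linarith [hc1a.1, hc2a.1]
  linarith

end system

section consequences

variable {Tst : (List ℕ → ℝ) → Prop} {Allowed : List ℕ → Prop} (hS : IsSystem Tst Allowed)
  {e : List ℕ → LL Tst} (he : ∀ s (f : TT Tst), e s f = f.1 s)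

/-- the coordinate vector as an element of the space -/
noncomputable def ecoord (e : List ℕ → LL Tst) (s : List ℕ) : Sp e := ⟨e s, coord_mem s⟩

/-- the path sums -/
noncomputable def Sv (e : List ℕ → LL Tst) : List ℕ → Sp e
  | [] => ecoord e []
  | a :: v => Sv e v + ecoord e (a :: v)

include he hS

omit hS in
lemma Sv_apply (f : TT Tst) : ∀ v, (Sv e v : LL Tst) f = pathPotential f.1 v
  | [] => he [] f
  | a :: v => by
    simp only [Sv, Submodule.coe_add, lp.coeFn_add, Pi.add_apply, pathPotential]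
    rw [Sv_apply f v]
    congr 1
    exact he _ f

lemma Sv_norm_le (v : List ℕ) : ‖Sv e v‖ ≤ 1 := by
  rw [Submodule.coe_norm]
  refine lp.norm_le_of_forall_le zero_le_one fun f => ?_
  rw [Sv_apply he, Real.norm_eq_abs]
  exact hS.pot f.1 f.2 v

lemma ecoord_norm_ge {s : List ℕ} (hs : Allowed s) : 1 ≤ ‖ecoord e s‖ := by
  rw [Submodule.coe_norm]
  have := apply_le (ecoord e s : LL Tst) (dl hS s)
  have h2 : (ecoord e s : LL Tst) (dl hS s) = 1 := by
    show e s (dl hS s) = 1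
    rw [he, dl_apply_of_allowed hS hs]
  rwa [h2] at this

lemma ecoord_norm_le (s : List ℕ) : ‖ecoord e s‖ ≤ 2 := by
  rw [Submodule.coe_norm]
  refine lp.norm_le_of_forall_le (by norm_num) fun f => ?_
  show ‖e s f‖ ≤ 2
  rw [he, Real.norm_eq_abs]
  exact abs_coord_le (hS.pot f.1 f.2) s

lemma cesaro_bound (r : List ℕ) (A : Finset ℕ) (hA : 0 < A.card) :
    ‖((A.card : ℝ)⁻¹) • ∑ i ∈ A, ecoord e (i :: r)‖ ≤ (Real.sqrt A.card)⁻¹ := by
  have hK : (0 : ℝ) < A.card := by exact_mod_cast hA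
  rw [Submodule.coe_norm]
  refine lp.norm_le_of_forall_le (by positivity) fun f => ?_
  have h1 : ((((A.card : ℝ)⁻¹) • ∑ i ∈ A, ecoord e (i :: r) : Sp e) : LL Tst) f =
      (A.card : ℝ)⁻¹ * ∑ i ∈ A, f.1 (i :: r) := by
    simp only [Submodule.coe_smul, Submodule.coe_sum, lp.coeFn_smul, Pi.smul_apply, smul_eq_mul]
    congr 1
    rw [lp.coeFn_sum, Finset.sum_apply]
    exact Finset.sum_congr rfl fun i _ => he _ f
  rw [h1, Real.norm_eq_abs, abs_mul, abs_of_pos (inv_pos.2 hK)]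
  have h2 : (∑ i ∈ A, f.1 (i :: r)) ^ 2 ≤ A.card := by
    have h3 := sq_sum_le_card_mul_sum_sq (s := A) (f := fun i => f.1 (i :: r))
    have h4 := hS.sibling f.1 f.2 r A
    calc (∑ i ∈ A, f.1 (i :: r)) ^ 2 ≤ A.card * ∑ i ∈ A, f.1 (i :: r) ^ 2 := h3
      _ ≤ A.card * 1 := mul_le_mul_of_nonneg_left h4 hK.le
      _ = A.card := mul_one _
  have h5 : |∑ i ∈ A, f.1 (i :: r)| ≤ Real.sqrt A.card := Real.abs_le_sqrt h2
  have hs : 0 < Real.sqrt A.card := Real.sqrt_pos.2 hK
  calc (A.card : ℝ)⁻¹ * |∑ i ∈ A, f.1 (i :: r)| ≤ (A.card : ℝ)⁻¹ * Real.sqrt A.card :=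
        mul_le_mul_of_nonneg_left h5 (by positivity)
    _ = (Real.sqrt A.card * Real.sqrt A.card)⁻¹ * Real.sqrt A.card := by
        rw [Real.mul_self_sqrt hK.le]
    _ = (Real.sqrt A.card)⁻¹ := by
        rw [mul_inv, mul_assoc, inv_mul_cancel₀ hs.ne', mul_one]

omit he hS in
/-- small averages from a `1/√K` bound -/
lemma exists_K_of_sqrt {ε : ℝ} (hε : 0 < ε) : ∃ K : ℕ, 0 < K ∧ (Real.sqrt K)⁻¹ ≤ ε := by
  obtain ⟨K₀, hK₀⟩ := exists_nat_gt (1 / ε ^ 2)
  refine ⟨K₀ + 1, Nat.succ_pos _, ?_⟩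
  have hK : (1 : ℝ) / ε ^ 2 ≤ ((K₀ + 1 : ℕ) : ℝ) := by
    push_cast; linarith
  have h1 : 1 / ε ≤ Real.sqrt ((K₀ + 1 : ℕ) : ℝ) := by
    apply Real.le_sqrt_of_sq_le
    rw [div_pow, one_pow]
    exact hK
  rw [inv_le_comm₀ (lt_of_lt_of_le (by positivity) h1) hε]
  rwa [← one_div]

lemma Sv_step (a : ℕ) (v : List ℕ) : Sv e (a :: v) - Sv e v = ecoord e (a :: v) := by
  rw [Sv, add_sub_cancel_left]

/-- Bushes through a linear isometry. -/
theorem bush_generic {Y : Type*} [NormedAddCommGroup Y] [NormedSpace ℝ Y] (J : Sp e →ₗᵢ[ℝ] Y) (L : ℕ)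
    (hL : ∀ s : List ℕ, s ≠ [] → s.length ≤ L → Allowed s) :
    ∀ (h : ℕ) (v : List ℕ), v.length + h ≤ L → BushAt (1 : ℝ) 1 h (J (Sv e v)) := by
  intro h
  induction h with
  | zero =>
    intro v _
    show ‖J (Sv e v)‖ ≤ 1
    rw [J.norm_map]
    exact Sv_norm_le hS he v
  | succ h ih =>
    intro v hv
    have hstep : ∀ i, J (Sv e (i :: v)) - J (Sv e v) = J (ecoord e (i :: v)) := by
      intro i
      rw [← map_sub, Sv_step hS he]
    have hlen : ∀ i : ℕ, (i :: v).length ≤ L := by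
      intro i
      simp only [List.length_cons]
      omega
    refine bushAt_succ_of_children (J (Sv e v)) (by rw [J.norm_map]; exact Sv_norm_le hS he v)
      (fun i => J (Sv e (i :: v))) (fun i => ih _ (by simp only [List.length_cons]; omega))
      ?_ (C := 2) ?_ ?_
    · intro i
      rw [hstep, J.norm_map]
      exact ecoord_norm_ge hS he (hL _ (by simp) (hlen i))
    · intro i
      rw [hstep, J.norm_map]
      exact ecoord_norm_le hS he _
    · intro ε hε
      obtain ⟨K, hK, hKε⟩ := exists_K_of_sqrt hε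
      refine ⟨K, hK, fun A hA => ?_⟩
      have h1 : ((K : ℝ)⁻¹) • ∑ i ∈ A, (J (Sv e (i :: v)) - J (Sv e v)) =
          J (((A.card : ℝ)⁻¹) • ∑ i ∈ A, ecoord e (i :: v)) := by
        rw [Finset.sum_congr rfl fun i _ => hstep i, map_smul, map_sum, hA]
      rw [h1, J.norm_map]
      have h2 := cesaro_bound hS he v A (by omega)
      refine h2.trans ?_
      rw [hA]
      exact hKε

lemma Sv_root_norm_ge (h0 : Allowed [0]) : 1 ≤ ‖Sv e [0]‖ := by
  rw [Submodule.coe_norm]
  have := apply_le (Sv e [0] : LL Tst) (dl hS [0])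
  rw [Sv_apply he] at this
  have h2 : pathPotential (dl hS [0]).1 [0] = 1 := by
    simp only [pathPotential]
    rw [dl_apply_of_allowed hS h0, dl_apply_ne hS (by simp)]
    simp
  rwa [h2] at this

/-- the space is infinite dimensional as soon as there are infinitely many allowed children -/
theorem not_finDim {Y : Type*} [NormedAddCommGroup Y] [NormedSpace ℝ Y] (J : Sp e →ₗᵢ[ℝ] Y)
    (h1 : ∀ i : ℕ, Allowed [i]) : ¬ FiniteDimensional ℝ Y := by
  refine not_finiteDimensional_of_cesaro (fun i => J (ecoord e [i])) 2 1 one_pos ?_ ?_ ?_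
  · intro i
    rw [J.norm_map]
    exact ecoord_norm_le hS he _
  · intro i
    rw [J.norm_map]
    exact ecoord_norm_ge hS he (h1 i)
  · intro ε hε
    obtain ⟨K, hK, hKε⟩ := exists_K_of_sqrt hε
    refine ⟨K, hK, fun A hA => ?_⟩
    have h2 : ((K : ℝ)⁻¹) • ∑ i ∈ A, J (ecoord e [i]) =
        J (((A.card : ℝ)⁻¹) • ∑ i ∈ A, ecoord e (i :: [])) := by
      rw [map_smul, map_sum, hA]
    rw [h2, J.norm_map]
    have h3 := cesaro_bound hS he [] A (by omega)
    refine h3.trans ?_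
    rw [hA]
    exact hKε

omit he hS in
/-- the space is separable -/
theorem sp_separable : TopologicalSpace.SeparableSpace (Sp e) := by
  have h1 : TopologicalSpace.IsSeparable (Set.range e) :=
    (Set.countable_range e).isSeparable
  have h2 : TopologicalSpace.IsSeparable
      ((Submodule.span ℝ (Set.range e) : Submodule ℝ (LL Tst)) : Set (LL Tst)) := h1.span
  have h3 : TopologicalSpace.IsSeparable ((Sp e : Submodule ℝ (LL Tst)) : Set (LL Tst)) := by
    have := h2.closure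
    exact this
  exact h3.separableSpace

omit he hS in
/-- evaluation at a test as a functional on the space -/
noncomputable def evS (e : List ℕ → LL Tst) (f : TT Tst) : StrongDual ℝ (Sp e) :=
  (ev f).comp (Sp e).subtypeL

omit he hS in
@[simp] lemma evS_apply (f : TT Tst) (y : Sp e) : evS e f y = (y : LL Tst) f := rfl

/-- the closed finite-codimensional subspace associated with a finite set of vertices -/
theorem isCofG_A (A : Finset (List ℕ)) :
    IsCofG {y : Sp e | ∀ s ∈ A, (y : LL Tst) (dl hS s) = 0} :=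
  isCofG_of_functionals A (fun s => evS e (dl hS s))

/-- the midpoint inequality for unit centres -/
theorem midpoint_generic (x : Sp e) (hx : ‖x‖ = 1) {t η : ℝ} (ht : 0 < t) (hη : 0 < η) :
    ∃ F : Set (Sp e), IsCofG F ∧ ∀ y ∈ F, ‖y‖ = 1 →
      Real.sqrt (1 + t ^ 2 / 4) - 1 - η ≤ (‖x + t • y‖ + ‖x - t • y‖) / 2 - 1 := by
  obtain ⟨A, hA⟩ := two_centre hS he x.2 x.2 (ε := 2 * η) (by positivity)
  refine ⟨_, isCofG_A hS he A, fun y hy hynorm => ?_⟩
  have hr : ((t • y : Sp e) : LL Tst) ∈ Sp e := (t • y).2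
  have hvan : ∀ s ∈ A, ((t • y : Sp e) : LL Tst) (dl hS s) = 0 := by
    intro s hs
    have := hy s hs
    simp [lp.coeFn_smul, this]
  have h1 := hA _ hr hvan
  have h2 : ‖((t • y : Sp e) : LL Tst)‖ = t := by
    rw [← Submodule.coe_norm, norm_smul, hynorm, Real.norm_eq_abs, abs_of_pos ht, mul_one]
  have h3 : ‖(1 / 2 : ℝ) • ((x : LL Tst) + (x : LL Tst))‖ = 1 := by
    have : (1 / 2 : ℝ) • ((x : LL Tst) + (x : LL Tst)) = x := by
      rw [← two_smul ℝ, smul_smul]; norm_num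
    rw [this, ← Submodule.coe_norm, hx]
  rw [h2, h3] at h1
  have h4 : ‖(x : LL Tst) + ((t • y : Sp e) : LL Tst)‖ = ‖x + t • y‖ := by
    rw [← Submodule.coe_add, ← Submodule.coe_norm]
  have h5 : ‖(x : LL Tst) - ((t • y : Sp e) : LL Tst)‖ = ‖x - t • y‖ := by
    rw [← Submodule.coe_sub, ← Submodule.coe_norm]
  rw [h4, h5] at h1
  simp only [one_pow] at h1
  linarith

end consequences

end Crest.Agent.Lib.TreeTests
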