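import Mathlib
import Crest.Agent.Lib.TreeTests

/-!
Verification of the abstract test-system axioms for models built from a square-sum condition.
-/

set_option autoImplicit false
set_option linter.unusedSectionVars false

namespace Crest.Agent.Lib.TreeModels

open Crest.AnalysisR Crest.AnalysisR.TreePotential Crest.Agent.Lib.TreeTests

lemma pathPotential_neg (f : List ℕ → ℝ) : ∀ s, pathPotential (fun s => -f s) s = -pathPotential f s
  | [] => rfl
  | a :: v => by
    simp only [pathPotential]
    rw [pathPotential_neg f v]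
    ring

lemma pathPotential_zero : ∀ s, pathPotential (fun _ => (0 : ℝ)) s = 0
  | [] => rfl
  | a :: v => by
    simp only [pathPotential]
    rw [pathPotential_zero v]
    ring

lemma abs_pathPotential_neg {f : List ℕ → ℝ} (h : ∀ s, |pathPotential f s| ≤ 1) (s : List ℕ) :
    |pathPotential (fun s => -f s) s| ≤ 1 := by
  rw [pathPotential_neg, abs_neg]
  exact h s

lemma pathPotential_single (s : List ℕ) : ∀ t : List ℕ,
    pathPotential (Pi.single s (1 : ℝ)) t = if s <:+ t then 1 else 0
  | [] => by
    simp only [pathPotential, List.suffix_nil]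
    by_cases h : s = []
    · simp [h]
    · simp [h, Ne.symm h]
  | a :: v => by
    simp only [pathPotential]
    rw [pathPotential_single s v]
    by_cases h : s = a :: v
    · subst h
      have hns : ¬ (a :: v) <:+ v := by
        intro hh
        have := hh.length_le
        simp at this
      simp [hns]
    · have h2 : s <:+ a :: v ↔ s <:+ v := by
        rw [List.suffix_cons_iff]
        simp [h]
      simp only [h2]
      have h3 : (Pi.single s (1 : ℝ) : List ℕ → ℝ) (a :: v) = 0 :=
        Pi.single_eq_of_ne (Ne.symm h) _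
      rw [h3, add_zero]

lemma abs_pathPotential_single (s t : List ℕ) : |pathPotential (Pi.single s (1 : ℝ)) t| ≤ 1 := by
  rw [pathPotential_single]
  split_ifs <;> simp

lemma sum_sq_single (s : List ℕ) (B : Finset (List ℕ)) :
    ∑ u ∈ B, ((Pi.single s (1 : ℝ) : List ℕ → ℝ) u) ^ 2 ≤ 1 := by
  classical
  have h1 : ∀ u, ((Pi.single s (1 : ℝ) : List ℕ → ℝ) u) ^ 2 = if u = s then 1 else 0 := by
    intro u
    rw [Pi.single_apply]
    split_ifs <;> simp
  rw [Finset.sum_congr rfl fun u _ => h1 u, Finset.sum_ite_eq']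
  split_ifs <;> simp

lemma sum_sq_children_image (f : List ℕ → ℝ) (r : List ℕ) (A : Finset ℕ) :
    ∑ n ∈ A, f (n :: r) ^ 2 = ∑ u ∈ A.image (fun n => n :: r), f u ^ 2 := by
  classical
  rw [Finset.sum_image]
  intro a _ b _ hab
  simpa using hab

lemma sum_sq_split {ι : Type*} (B : Finset ι) (x : ι → List ℕ) {h f g : List ℕ → ℝ} {α β : ℝ}
    {A : Finset (List ℕ)} (hA : ∀ s ∈ A, h s = α * f s) (hO : ∀ s, s ∉ A → |h s| ≤ β * |g s|) :
    ∑ i ∈ B, h (x i) ^ 2 ≤ α ^ 2 * ∑ i ∈ B with x i ∈ A, f (x i) ^ 2 +
      β ^ 2 * ∑ i ∈ B with x i ∉ A, g (x i) ^ 2 := by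
  classical
  rw [← Finset.sum_filter_add_sum_filter_not B (fun i => x i ∈ A), Finset.mul_sum, Finset.mul_sum]
  refine add_le_add (Finset.sum_le_sum fun i hi => ?_) (Finset.sum_le_sum fun i hi => ?_)
  · rw [hA _ (Finset.mem_filter.1 hi).2, mul_pow]
  · have h1 := hO _ (Finset.mem_filter.1 hi).2
    have h2 : |h (x i)| ^ 2 ≤ (β * |g (x i)|) ^ 2 := pow_le_pow_left₀ (abs_nonneg _) h1 2
    rw [sq_abs, mul_pow, sq_abs] at h2
    exact h2

lemma sum_sq_le_one {ι : Type*} (B : Finset ι) (x : ι → List ℕ) {h f g : List ℕ → ℝ} {α β : ℝ}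
    (hαβ : α ^ 2 + β ^ 2 ≤ 1)
    {A : Finset (List ℕ)} (hA : ∀ s ∈ A, h s = α * f s) (hO : ∀ s, s ∉ A → |h s| ≤ β * |g s|)
    (hf : ∑ i ∈ B with x i ∈ A, f (x i) ^ 2 ≤ 1) (hg : ∑ i ∈ B with x i ∉ A, g (x i) ^ 2 ≤ 1) :
    ∑ i ∈ B, h (x i) ^ 2 ≤ 1 := by
  refine (sum_sq_split B x hA hO).trans ?_
  have h1 := mul_le_mul_of_nonneg_left hf (sq_nonneg α)
  have h2 := mul_le_mul_of_nonneg_left hg (sq_nonneg β)
  linarith

/-- allowed vertices of the models -/
def allowedOf : PotentialModel → List ℕ → Prop
  | .rootlessSibling => fun s => s ≠ []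
  | .rootedSibling => fun _ => True
  | .antichain => fun _ => True
  | .global => fun _ => True

lemma antichain_children (r : List ℕ) (A : Finset ℕ) :
    IsTreeAntichain (A.image (fun n => n :: r)) := by
  classical
  intro u hu v hv huv hsuf
  obtain ⟨n, -, rfl⟩ := Finset.mem_image.1 hu
  obtain ⟨m, -, rfl⟩ := Finset.mem_image.1 hv
  exact huv (hsuf.eq_of_length (by simp))

lemma antichain_mono {A B : Finset (List ℕ)} (h : A ⊆ B) (hB : IsTreeAntichain B) :
    IsTreeAntichain A := fun u hu v hv huv => hB u (h hu) v (h hv) huv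

theorem system (m : PotentialModel) : IsSystem (IsTest m) (allowedOf m) := by
  classical
  cases m with
  | rootlessSibling =>
    refine ⟨fun f hf => hf.1, ?_, ?_, ?_, ?_, ?_, ?_⟩
    · intro f hf
      refine ⟨abs_pathPotential_neg hf.1, ?_, ?_⟩
      · simp only [hf.2.1, neg_zero]
      · intro r A
        simpa using hf.2.2 r A
    · refine ⟨fun s => by rw [pathPotential_zero]; simp, rfl, fun r A => by simp⟩
    · intro s hs
      refine ⟨abs_pathPotential_single s, Pi.single_eq_of_ne (Ne.symm hs) _, fun r A => ?_⟩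
      rw [sum_sq_children_image]
      exact sum_sq_single _ _
    · intro f hf s hs
      have : s = [] := by simpa [allowedOf] using hs
      rw [this]
      exact hf.2.1
    · exact fun f hf r A => hf.2.2 r A
    · intro f g h hf hg α β hαβ A hroot _ hpot hA hO
      refine ⟨hpot, ?_, fun r B => ?_⟩
      · rw [hA _ hroot, hf.2.1, mul_zero]
      · exact sum_sq_le_one B (fun n => n :: r) hαβ hA hO (hf.2.2 r _) (hg.2.2 r _)
  | rootedSibling =>
    refine ⟨fun f hf => hf.1, ?_, ?_, ?_, ?_, ?_, ?_⟩
    · intro f hf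
      refine ⟨abs_pathPotential_neg hf.1, fun r A => ?_⟩
      simpa using hf.2 r A
    · exact ⟨fun s => by rw [pathPotential_zero]; simp, fun r A => by simp⟩
    · intro s _
      refine ⟨abs_pathPotential_single s, fun r A => ?_⟩
      rw [sum_sq_children_image]
      exact sum_sq_single _ _
    · intro f _ s hs
      exact absurd trivial hs
    · exact fun f hf r A => hf.2 r A
    · intro f g h hf hg α β hαβ A _ _ hpot hA hO
      exact ⟨hpot, fun r B => sum_sq_le_one B (fun n => n :: r) hαβ hA hO (hf.2 r _) (hg.2 r _)⟩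
  | antichain =>
    refine ⟨fun f hf => hf.1, ?_, ?_, ?_, ?_, ?_, ?_⟩
    · intro f hf
      refine ⟨abs_pathPotential_neg hf.1, ?_, fun A hA => ?_⟩
      · have : Function.support (fun s => -f s) = Function.support f := by
          ext s; simp
        rw [this]
        exact hf.2.1
      · simpa using hf.2.2 A hA
    · refine ⟨fun s => by rw [pathPotential_zero]; simp, ?_, fun r A => by simp⟩
      simp
    · intro s _
      refine ⟨abs_pathPotential_single s, ?_, fun A _ => sum_sq_single s A⟩
      refine (Set.finite_singleton s).subset fun t ht => ?_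
      by_contra hh
      exact ht (Pi.single_eq_of_ne hh _)
    · intro f _ s hs
      exact absurd trivial hs
    · intro f hf r A
      rw [sum_sq_children_image]
      exact hf.2.2 _ (antichain_children r A)
    · intro f g h hf hg α β hαβ A _ _ hpot hA hO
      refine ⟨hpot, ?_, fun B hB => ?_⟩
      · refine (hf.2.1.union hg.2.1).subset fun s hs => ?_
        by_cases hsA : s ∈ A
        · left
          intro h0
          exact hs (by rw [hA s hsA, h0, mul_zero])
        · right
          intro h0
          have := hO s hsA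
          rw [h0, abs_zero, mul_zero] at this
          exact hs (abs_nonpos_iff.1 this)
      · refine sum_sq_le_one B id hαβ hA hO ?_ ?_
        · exact hf.2.2 _ (antichain_mono (Finset.filter_subset _ _) hB)
        · exact hg.2.2 _ (antichain_mono (Finset.filter_subset _ _) hB)
  | global =>
    refine ⟨fun f hf => hf.1, ?_, ?_, ?_, ?_, ?_, ?_⟩
    · intro f hf
      refine ⟨abs_pathPotential_neg hf.1, fun A => ?_⟩
      simpa using hf.2 A
    · exact ⟨fun s => by rw [pathPotential_zero]; simp, fun A => by simp⟩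
    · intro s _
      exact ⟨abs_pathPotential_single s, fun A => sum_sq_single s A⟩
    · intro f _ s hs
      exact absurd trivial hs
    · intro f hf r A
      rw [sum_sq_children_image]
      exact hf.2 _
    · intro f g h hf hg α β hαβ A _ _ hpot hA hO
      exact ⟨hpot, fun B => sum_sq_le_one B id hαβ hA hO (hf.2 _) (hg.2 _)⟩

lemma allowed_child (m : PotentialModel) (s : List ℕ) (hs : s ≠ []) : allowedOf m s := by
  cases m <;> first | exact hs | exact trivial

end Crest.Agent.Lib.TreeModels
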