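import Mathlib
import Crest.Agent.Lib.TreeModels
import Crest.Agent.Lib.LpTwoSum

/-!
The depth-limited global potential model: it is isomorphic to a Hilbert space, hence reflexive.
-/

set_option autoImplicit false
set_option linter.unusedSectionVars false

namespace Crest.Agent.Lib.DepthModel

open Crest.AnalysisR Crest.AnalysisR.TreePotential Crest.Agent.Lib.TreeTests
  Crest.Agent.Lib.TreeModels Crest.Agent.Lib.TreeAUC Crest.Agent.Lib.TwoCentreDiamond
  Crest.Agent.Lib.LpTwoSum
open Filter Topology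

section transfer

/-- Hilbert spaces are reflexive. -/
theorem reflexive_hilbert (H : Type*) [NormedAddCommGroup H] [InnerProductSpace ℝ H]
    [CompleteSpace H] : Function.Surjective (NormedSpace.inclusionInDoubleDual ℝ H) := by
  intro Φ
  let g : StrongDual ℝ H := LinearMap.mkContinuous
    { toFun := fun y => Φ (InnerProductSpace.toDual ℝ H y)
      map_add' := fun y z => by simp
      map_smul' := fun c y => by simp } ‖Φ‖
    (fun y => by
      refine (Φ.le_opNorm _).trans ?_
      simp)
  refine ⟨(InnerProductSpace.toDual ℝ H).symm g, ?_⟩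
  ext φ
  show φ ((InnerProductSpace.toDual ℝ H).symm g) = Φ φ
  have h1 : φ = InnerProductSpace.toDual ℝ H ((InnerProductSpace.toDual ℝ H).symm φ) := by simp
  have h2 : g ((InnerProductSpace.toDual ℝ H).symm φ) = Φ φ := by
    show Φ (InnerProductSpace.toDual ℝ H ((InnerProductSpace.toDual ℝ H).symm φ)) = Φ φ
    rw [← h1]
  rw [← h2]
  have h3 := InnerProductSpace.toDual_symm_apply (𝕜 := ℝ) (E := H)
    (x := (InnerProductSpace.toDual ℝ H).symm φ) (y := g)
  have h4 := InnerProductSpace.toDual_symm_apply (𝕜 := ℝ) (E := H)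
    (x := (InnerProductSpace.toDual ℝ H).symm g) (y := φ)
  rw [← h3, ← h4]
  exact real_inner_comm _ _

/-- Reflexivity passes along isomorphisms. -/
theorem reflexive_of_equiv {X Y : Type*} [NormedAddCommGroup X] [NormedSpace ℝ X]
    [NormedAddCommGroup Y] [NormedSpace ℝ Y] (T : X ≃L[ℝ] Y)
    (hY : Function.Surjective (NormedSpace.inclusionInDoubleDual ℝ Y)) :
    Function.Surjective (NormedSpace.inclusionInDoubleDual ℝ X) := by
  intro Φ
  let Ψ : StrongDual ℝ (StrongDual ℝ Y) :=
    Φ.comp ((ContinuousLinearMap.compL ℝ X Y ℝ).flip (T : X →L[ℝ] Y))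
  obtain ⟨y, hy⟩ := hY Ψ
  refine ⟨T.symm y, ?_⟩
  ext φ
  show φ (T.symm y) = Φ φ
  let ψ : StrongDual ℝ Y := φ.comp (T.symm : Y →L[ℝ] X)
  have h1 : ψ y = Ψ ψ := by
    have := congrArg (fun G : StrongDual ℝ (StrongDual ℝ Y) => G ψ) hy
    exact this
  have h2 : ψ.comp (T : X →L[ℝ] Y) = φ := by
    ext x
    simp [ψ]
  have h3 : Ψ ψ = Φ (ψ.comp (T : X →L[ℝ] Y)) := rfl
  rw [h2] at h3
  show ψ y = Φ φ
  rw [h1, h3]

/-- Separability of `ℓ₂`-sums. -/
theorem separable_lp {X : ℕ → Type*} [∀ n, NormedAddCommGroup (X n)] [∀ n, NormedSpace ℝ (X n)]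
    (hX : ∀ n, TopologicalSpace.SeparableSpace (X n)) :
    TopologicalSpace.SeparableSpace (lp X 2) := by
  let S : Set (lp X 2) := ⋃ n, Set.range (iotaL (X := X) n)
  have hS : TopologicalSpace.IsSeparable S :=
    TopologicalSpace.IsSeparable.iUnion fun n => TopologicalSpace.isSeparable_range (iotaL n).continuous
  have hcl := (hS.span (R := ℝ)).closure
  rw [← TopologicalSpace.isSeparable_univ_iff]
  refine hcl.mono fun y _ => ?_
  have hsum : HasSum (fun n => lp.single 2 n (y n)) y := lp.hasSum_single (p := 2) (by simp) y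
  refine mem_closure_of_tendsto hsum (Eventually.of_forall fun M => ?_)
  refine Submodule.sum_mem _ fun n _ => Submodule.subset_span ?_
  exact Set.mem_iUnion.2 ⟨n, y n, rfl⟩

/-- the coordinate embedding as a linear isometry -/
noncomputable def singleLI {X : ℕ → Type*} [∀ n, NormedAddCommGroup (X n)]
    [∀ n, NormedSpace ℝ (X n)] (n : ℕ) : X n →ₗᵢ[ℝ] lp X 2 :=
  ⟨(iotaL n : X n →L[ℝ] lp X 2).toLinearMap, fun x => lp.norm_single (by norm_num) n x⟩

@[simp] lemma singleLI_apply {X : ℕ → Type*} [∀ n, NormedAddCommGroup (X n)]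
    [∀ n, NormedSpace ℝ (X n)] (n : ℕ) (x : X n) : singleLI n x = lp.single 2 n x := rfl

end transfer

section twocentre

variable {Tst : (List ℕ → ℝ) → Prop} {Allowed : List ℕ → Prop} (hS : IsSystem Tst Allowed)
  {e : List ℕ → LL Tst} (he : ∀ s (f : TT Tst), e s f = f.1 s)

include hS he

theorem twoCentre_sp : TwoCentre (Sp e) := by
  classical
  intro c₁ c₂ ε hε
  obtain ⟨A, hA⟩ := two_centre hS he c₁.2 c₂.2 hε
  refine ⟨A.image fun s => evS e (dl hS s), fun r hr => ?_⟩
  have h1 := hA r r.2 fun s hs => hr _ (Finset.mem_image.2 ⟨s, hs, rfl⟩)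
  exact h1

end twocentre

section depth

/-- depth-limited global tests -/
def TstD (n : ℕ) (f : List ℕ → ℝ) : Prop :=
  (∀ s, |pathPotential f s| ≤ 1) ∧ (∀ A : Finset (List ℕ), ∑ u ∈ A, f u ^ 2 ≤ 1) ∧
    ∀ s : List ℕ, n < s.length → f s = 0

theorem systemD (n : ℕ) : IsSystem (TstD n) (fun s => s.length ≤ n) := by
  classical
  refine ⟨fun f hf => hf.1, ?_, ?_, ?_, ?_, ?_, ?_⟩
  · intro f hf
    refine ⟨abs_pathPotential_neg hf.1, fun A => ?_, fun s hs => ?_⟩
    · simpa using hf.2.1 A
    · simp [hf.2.2 s hs]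
  · exact ⟨fun s => by rw [pathPotential_zero]; simp, fun A => by simp, fun _ _ => rfl⟩
  · intro s hs
    refine ⟨abs_pathPotential_single s, fun A => sum_sq_single s A, fun t ht => ?_⟩
    refine Pi.single_eq_of_ne ?_ _
    rintro rfl
    omega
  · intro f hf s hs
    exact hf.2.2 s (by omega)
  · intro f hf r A
    rw [sum_sq_children_image]
    exact hf.2.1 _
  · intro f g h hf hg α β hαβ A _ _ hpot hA hO
    refine ⟨hpot, fun B => sum_sq_le_one B id hαβ hA hO (hf.2.1 _) (hg.2.1 _), fun s hs => ?_⟩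
    by_cases hsA : s ∈ A
    · rw [hA s hsA, hf.2.2 s hs, mul_zero]
    · have := hO s hsA
      rw [hg.2.2 s hs, abs_zero, mul_zero] at this
      exact abs_nonpos_iff.1 this

/-- coordinate vectors of the depth-limited model -/
noncomputable def eD (n : ℕ) (s : List ℕ) : LL (TstD n) :=
  ⟨fun f => f.1 s, memℓp_infty ⟨2, by
    rintro _ ⟨f, rfl⟩
    simpa [Real.norm_eq_abs] using abs_coord_le f.2.1 s⟩⟩

lemma eD_apply (n : ℕ) (s : List ℕ) (f : TT (TstD n)) : eD n s f = f.1 s := rfl

/-- the component spaces -/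
abbrev XD (n : ℕ) : Type := Sp (eD n)

instance completeXD (n : ℕ) : CompleteSpace (XD n) :=
  (sp_isClosed (eD n)).completeSpace_coe

lemma twoCentre_XD (n : ℕ) : TwoCentre (XD n) := twoCentre_sp (systemD n) (eD_apply n)

lemma separable_XD (n : ℕ) : TopologicalSpace.SeparableSpace (XD n) := sp_separable

/-- potentials from square sums -/
lemma pathPotential_eq_sum (f : List ℕ → ℝ) (s : List ℕ) :
    pathPotential f s = ∑ u ∈ s.tails.toFinset, f u := by
  classical
  induction s with
  | nil => simp [pathPotential]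
  | cons a v ih =>
    have h1 : (a :: v) ∉ v.tails.toFinset := by
      simp only [List.mem_toFinset, List.mem_tails]
      intro h
      have := h.length_le
      simp at this
    rw [List.tails_cons, List.toFinset_cons, Finset.sum_insert h1]
    simp only [pathPotential]
    rw [ih]
    ring

lemma potential_sq_le {n : ℕ} {f : List ℕ → ℝ} (hvan : ∀ s : List ℕ, n < s.length → f s = 0)
    {c : ℝ} (hsq : ∀ A : Finset (List ℕ), ∑ u ∈ A, f u ^ 2 ≤ c) (s : List ℕ) :
    pathPotential f s ^ 2 ≤ (n + 1) * c := by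
  classical
  set A : Finset (List ℕ) := s.tails.toFinset.filter fun u => u.length ≤ n with hA
  have h1 : pathPotential f s = ∑ u ∈ A, f u := by
    rw [pathPotential_eq_sum, hA, Finset.sum_filter]
    refine Finset.sum_congr rfl fun u _ => ?_
    split_ifs with h
    · rfl
    · exact hvan u (by omega)
  have hcard : A.card ≤ n + 1 := by
    have h2 : A.card ≤ (Finset.range (n + 1)).card := by
      refine Finset.card_le_card_of_injOn (fun u => u.length) ?_ ?_
      · intro u hu
        have hu' := (Finset.mem_filter.1 hu).2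
        simp only [Finset.coe_range, Set.mem_Iio]
        omega
      · intro u hu v hv huv
        have hu' : u <:+ s := by
          have := (Finset.mem_filter.1 hu).1
          simpa using this
        have hv' : v <:+ s := by
          have := (Finset.mem_filter.1 hv).1
          simpa using this
        have huv' : u.length = v.length := huv
        exact (List.suffix_of_suffix_length_le hu' hv' huv'.le).eq_of_length huv'
    simpa using h2
  have h3 := sq_sum_le_card_mul_sum_sq (s := A) (f := f)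
  rw [h1]
  have hc0 : 0 ≤ c := by simpa using hsq ∅
  calc (∑ u ∈ A, f u) ^ 2 ≤ A.card * ∑ u ∈ A, f u ^ 2 := h3
    _ ≤ A.card * c := mul_le_mul_of_nonneg_left (hsq A) (Nat.cast_nonneg _)
    _ ≤ (n + 1) * c := mul_le_mul_of_nonneg_right (by exact_mod_cast hcard) hc0

end depth

section hilbert

variable (n : ℕ)

/-- the vertices of bounded depth -/
abbrev VD : Type := {s : List ℕ // s.length ≤ n}

/-- the Hilbert space on the vertices of bounded depth -/
abbrev HD : Type := lp (fun _ : VD n => ℝ) 2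

lemma sum_sq_VD_le {g : List ℕ → ℝ} {c : ℝ} (hg : ∀ A : Finset (List ℕ), ∑ u ∈ A, g u ^ 2 ≤ c)
    (M : Finset (VD n)) : ∑ s ∈ M, ‖g s.1‖ ^ (2 : ENNReal).toReal ≤ c := by
  classical
  have h1 : ∑ s ∈ M, ‖g s.1‖ ^ (2 : ENNReal).toReal = ∑ u ∈ M.map (Function.Embedding.subtype _), g u ^ 2 := by
    rw [Finset.sum_map]
    refine Finset.sum_congr rfl fun s _ => ?_
    rw [toReal_two, Real.rpow_two, Real.norm_eq_abs, sq_abs]
    rfl
  rw [h1]
  exact hg _

/-- a test as a vector of the Hilbert space -/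
noncomputable def hatT (f : TT (TstD n)) : HD n :=
  ⟨fun s => f.1 s.1, memℓp_gen' (C := 1) (sum_sq_VD_le n f.2.2.1)⟩

lemma norm_hatT_le (f : TT (TstD n)) : ‖hatT n f‖ ≤ 1 := by
  refine lp.norm_le_of_forall_sum_le toReal_two_pos zero_le_one fun M => ?_
  rw [Real.one_rpow]
  exact sum_sq_VD_le n f.2.2.1 M

/-- the isomorphism from the Hilbert space to the ambient space of the model -/
noncomputable def J0 : HD n →L[ℝ] LL (TstD n) :=
  LinearMap.mkContinuous
    { toFun := fun x => ⟨fun f => inner ℝ (hatT n f) x, memℓp_infty ⟨‖x‖, by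
        rintro _ ⟨f, rfl⟩
        have h1 := abs_real_inner_le_norm (hatT n f) x
        have h2 : ‖hatT n f‖ * ‖x‖ ≤ 1 * ‖x‖ :=
          mul_le_mul_of_nonneg_right (norm_hatT_le n f) (norm_nonneg _)
        simp only [Real.norm_eq_abs]
        linarith⟩⟩
      map_add' := fun x y => lp.ext (funext fun f => by
        show inner ℝ (hatT n f) (x + y) = inner ℝ (hatT n f) x + inner ℝ (hatT n f) y
        exact inner_add_right _ _ _)
      map_smul' := fun c x => lp.ext (funext fun f => by
        show inner ℝ (hatT n f) (c • x) = c * inner ℝ (hatT n f) x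
        exact real_inner_smul_right _ _ _) } 1
    (fun x => by
      rw [one_mul]
      refine lp.norm_le_of_forall_le (norm_nonneg _) fun f => ?_
      have h1 := abs_real_inner_le_norm (hatT n f) x
      have h2 : ‖hatT n f‖ * ‖x‖ ≤ 1 * ‖x‖ :=
        mul_le_mul_of_nonneg_right (norm_hatT_le n f) (norm_nonneg _)
      show ‖inner ℝ (hatT n f) x‖ ≤ ‖x‖
      rw [Real.norm_eq_abs]
      linarith)

lemma J0_apply (x : HD n) (f : TT (TstD n)) : (J0 n x) f = inner ℝ (hatT n f) x := rfl

open scoped Classical in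
lemma J0_single (s : VD n) (c : ℝ) : J0 n (lp.single 2 s c) = c • eD n s.1 := by
  refine lp.ext (funext fun f => ?_)
  rw [J0_apply, lp.inner_single_right, lp.coeFn_smul, Pi.smul_apply, eD_apply, smul_eq_mul]
  show inner ℝ (f.1 s.1) c = _
  simp

lemma J0_mem (x : HD n) : J0 n x ∈ Sp (eD n) := by
  classical
  have hsum := (lp.hasSum_single (p := 2) (by simp) x).mapL (J0 n)
  refine (sp_isClosed (eD n)).mem_of_tendsto hsum (Eventually.of_forall fun M => ?_)
  refine Submodule.sum_mem _ fun s _ => ?_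
  rw [J0_single]
  exact Submodule.smul_mem _ _ (coord_mem _)

lemma norm_le_J0 (x : HD n) : ‖x‖ ≤ Real.sqrt (n + 1) * ‖J0 n x‖ := by
  classical
  by_cases hx : x = 0
  · subst hx
    simp
  have hxpos : 0 < ‖x‖ := norm_pos_iff.2 hx
  have hs : 0 < Real.sqrt (n + 1) := Real.sqrt_pos.2 (by positivity)
  have hs2 : Real.sqrt (n + 1) ^ 2 = n + 1 := Real.sq_sqrt (by positivity)
  set κ : ℝ := (‖x‖ * Real.sqrt (n + 1))⁻¹ with hκ
  have hκpos : 0 < κ := by positivity
  let f : List ℕ → ℝ := fun s => if h : s.length ≤ n then κ * x ⟨s, h⟩ else 0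
  have hvan : ∀ s : List ℕ, n < s.length → f s = 0 := by
    intro s hs
    simp only [f]
    rw [dif_neg (by omega)]
  have hsq : ∀ A : Finset (List ℕ), ∑ u ∈ A, f u ^ 2 ≤ 1 / ((n : ℝ) + 1) := by
    intro A
    have h1 : ∑ u ∈ A, f u ^ 2 = ∑ s ∈ A.subtype (fun u => u.length ≤ n), (κ * x s) ^ 2 := by
      have h2 : ∑ s ∈ A.subtype (fun u => u.length ≤ n), (κ * x s) ^ 2 =
          ∑ s ∈ A.subtype (fun u => u.length ≤ n), f s.1 ^ 2 := by
        refine Finset.sum_congr rfl fun s _ => ?_
        simp only [f]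
        rw [dif_pos s.2]
      rw [h2, Finset.sum_subtype_eq_sum_filter (fun u => f u ^ 2), Finset.sum_filter]
      refine Finset.sum_congr rfl fun u _ => ?_
      split_ifs with h
      · rfl
      · rw [hvan u (by omega)]
        simp
    rw [h1, ← Finset.sum_congr rfl fun s _ => (mul_pow κ (x s) 2).symm, ← Finset.mul_sum]
    have h3 : ∑ s ∈ A.subtype (fun u => u.length ≤ n), (x s) ^ 2 ≤ ‖x‖ ^ 2 := by
      have h4 := lp.sum_rpow_le_norm_rpow toReal_two_pos x (A.subtype (fun u => u.length ≤ n))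
      simp only [toReal_two, Real.rpow_two, Real.norm_eq_abs, sq_abs] at h4
      exact h4
    have h5 : κ ^ 2 * ‖x‖ ^ 2 = 1 / ((n : ℝ) + 1) := by
      rw [hκ, inv_pow, mul_pow, hs2]
      field_simp
    calc κ ^ 2 * ∑ s ∈ A.subtype (fun u => u.length ≤ n), (x s) ^ 2 ≤ κ ^ 2 * ‖x‖ ^ 2 :=
          mul_le_mul_of_nonneg_left h3 (sq_nonneg _)
      _ = 1 / ((n : ℝ) + 1) := h5
  have hle1 : 1 / ((n : ℝ) + 1) ≤ 1 := by
    rw [div_le_one (by positivity)]
    have : (0 : ℝ) ≤ n := Nat.cast_nonneg n
    linarith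
  have htest : TstD n f := by
    refine ⟨fun s => ?_, fun A => (hsq A).trans hle1, hvan⟩
    have h1 := potential_sq_le hvan hsq s
    have h2 : ((n : ℝ) + 1) * (1 / ((n : ℝ) + 1)) = 1 := by field_simp
    rw [h2] at h1
    exact (sq_le_one_iff_abs_le_one _).1 h1
  let t : TT (TstD n) := ⟨f, htest⟩
  have hhat : hatT n t = κ • x := by
    refine lp.ext (funext fun s => ?_)
    show f s.1 = κ * x s
    simp only [f]
    rw [dif_pos s.2]
  have hval : (J0 n x) t = ‖x‖ / Real.sqrt (n + 1) := by
    rw [J0_apply, hhat, real_inner_smul_left, real_inner_self_eq_norm_sq, hκ]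
    field_simp
  have h6 : ‖x‖ / Real.sqrt (n + 1) ≤ ‖J0 n x‖ := by
    rw [← hval]
    exact apply_le _ _
  rw [div_le_iff₀ hs] at h6
  linarith

/-- The isomorphism with the Hilbert space. -/
noncomputable def JD : HD n →L[ℝ] XD n := (J0 n).codRestrict (Sp (eD n)) (J0_mem n)

lemma JD_coe (x : HD n) : (JD n x : LL (TstD n)) = J0 n x := rfl

lemma JD_injective : Function.Injective (JD n) := by
  intro x y hxy
  have h1 : J0 n (x - y) = 0 := by
    rw [map_sub, ← JD_coe, ← JD_coe, hxy, sub_self]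
  have h2 := norm_le_J0 n (x - y)
  rw [h1, norm_zero, mul_zero] at h2
  exact sub_eq_zero.1 (norm_le_zero_iff.1 h2)

lemma JD_surjective : Function.Surjective (JD n) := by
  classical
  have hanti : AntilipschitzWith (Real.toNNReal (Real.sqrt (n + 1))) (J0 n) :=
    ContinuousLinearMap.antilipschitz_of_bound (J0 n) (by
      intro x
      rw [Real.coe_toNNReal _ (Real.sqrt_nonneg _)]
      exact norm_le_J0 n x)
  have hclosed : IsClosed (Set.range (J0 n)) :=
    hanti.isClosed_range (J0 n).uniformContinuous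
  have hspan : ((Submodule.span ℝ (Set.range (eD n)) : Submodule ℝ (LL (TstD n))) : Set (LL (TstD n))) ⊆
      Set.range (J0 n) := by
    have : Submodule.span ℝ (Set.range (eD n)) ≤ LinearMap.range (J0 n : HD n →ₗ[ℝ] LL (TstD n)) := by
      rw [Submodule.span_le]
      rintro _ ⟨s, rfl⟩
      by_cases hs : s.length ≤ n
      · refine ⟨lp.single 2 ⟨s, hs⟩ 1, ?_⟩
        show J0 n _ = _
        rw [J0_single, one_smul]
      · refine ⟨0, ?_⟩
        show J0 n 0 = _
        rw [map_zero]
        refine lp.ext (funext fun f => ?_)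
        rw [eD_apply, f.2.2.2 s (by omega)]
        rfl
    exact this
  rintro ⟨z, hz⟩
  have h1 : z ∈ Set.range (J0 n) := closure_minimal hspan hclosed hz
  obtain ⟨x, hx⟩ := h1
  exact ⟨x, Subtype.ext hx⟩

/-- the component spaces are reflexive -/
theorem reflexive_XD : Function.Surjective (NormedSpace.inclusionInDoubleDual ℝ (XD n)) := by
  let T : HD n ≃L[ℝ] XD n := ContinuousLinearEquiv.ofBijective (JD n)
    (LinearMap.ker_eq_bot.2 (JD_injective n)) (LinearMap.range_eq_top.2 (JD_surjective n))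
  exact reflexive_of_equiv T.symm (reflexive_hilbert (HD n))

end hilbert

end Crest.Agent.Lib.DepthModel
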