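import Mathlib

/-!
# Prékopa–Leindler inequality (midpoint form), by induction on the dimension.
-/

set_option autoImplicit false

open MeasureTheory Set
open scoped ENNReal NNReal

namespace Crest.Agent.OT

lemma vol_mid (K : Set ℝ) (β : ℝ) :
    volume ((fun u : ℝ => 2 * u - β) ⁻¹' K) = volume K / 2 := by
  have h1 : (fun u : ℝ => 2 * u - β) ⁻¹' K
      = (fun u : ℝ => 2 * u) ⁻¹' ((fun v : ℝ => v + (-β)) ⁻¹' K) := by
    ext u; simp [sub_eq_add_neg]
  rw [h1, Real.volume_preimage_mul_left (by norm_num : (2:ℝ) ≠ 0),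
    measure_preimage_add_right]
  rw [ENNReal.div_eq_inv_mul]
  congr 1
  rw [show (|(2:ℝ)⁻¹|) = 2⁻¹ by rw [abs_of_pos (by norm_num)]]
  rw [ENNReal.ofReal_inv_of_pos (by norm_num)]
  simp

/-- Brunn–Minkowski on the line for compact sets. -/
lemma bm1_compact {K₁ K₂ C : Set ℝ} (h₁ : IsCompact K₁) (h₂ : IsCompact K₂)
    (hn₁ : K₁.Nonempty) (hn₂ : K₂.Nonempty)
    (h : ∀ x ∈ K₁, ∀ y ∈ K₂, (x + y) / 2 ∈ C) :
    volume K₁ / 2 + volume K₂ / 2 ≤ volume C := by
  set α := sSup K₁ with hα
  set β := sInf K₂ with hβ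
  have hαm : α ∈ K₁ := h₁.sSup_mem hn₁
  have hβm : β ∈ K₂ := h₂.sInf_mem hn₂
  have hle : ∀ x ∈ K₁, x ≤ α := fun x hx => le_csSup h₁.bddAbove hx
  have hge : ∀ y ∈ K₂, β ≤ y := fun y hy => csInf_le h₂.bddBelow hy
  set S₁ := (fun u : ℝ => 2 * u - β) ⁻¹' K₁ with hS₁
  set S₂ := (fun u : ℝ => 2 * u - α) ⁻¹' K₂ with hS₂
  have hS₁m : MeasurableSet S₁ :=
    (by fun_prop : Measurable (fun u : ℝ => 2 * u - β)) h₁.measurableSet
  have hS₂m : MeasurableSet S₂ :=
    (by fun_prop : Measurable (fun u : ℝ => 2 * u - α)) h₂.measurableSet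
  have hsub : S₁ ∪ S₂ ⊆ C := by
    rintro u (hu | hu)
    · have := h _ hu β hβm
      have e : (2 * u - β + β) / 2 = u := by ring
      rwa [e] at this
    · have := h α hαm _ hu
      have e : (α + (2 * u - α)) / 2 = u := by ring
      rwa [e] at this
  have hinter : S₁ ∩ S₂ ⊆ {(α + β) / 2} := by
    rintro u ⟨hu1, hu2⟩
    have a1 := hle _ hu1
    have a2 := hge _ hu2
    simp only [mem_singleton_iff]
    linarith
  have hnull : volume (S₁ ∩ S₂) = 0 :=
    measure_mono_null hinter (by simp)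
  calc volume K₁ / 2 + volume K₂ / 2 = volume S₁ + volume S₂ := by
        rw [hS₁, hS₂, vol_mid, vol_mid]
    _ = volume (S₁ ∪ S₂) := by
        rw [measure_union₀ hS₂m.nullMeasurableSet]
        exact hnull
    _ ≤ volume C := measure_mono hsub

/-- Brunn–Minkowski on the line for bounded measurable sets (midpoint form). -/
lemma bm1 {A B C : Set ℝ} (hA : MeasurableSet A) (hB : MeasurableSet B)
    (hAf : volume A ≠ ∞) (hBf : volume B ≠ ∞)
    (hAn : A.Nonempty) (hBn : B.Nonempty)
    (h : ∀ x ∈ A, ∀ y ∈ B, (x + y) / 2 ∈ C) :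
    volume A / 2 + volume B / 2 ≤ volume C := by
  apply ENNReal.le_of_forall_pos_le_add
  intro ε hε _
  have hε' : (ε : ℝ≥0∞) ≠ 0 := by simpa using hε.ne'
  obtain ⟨K₁, hK₁, hK₁c, hK₁lt⟩ := hA.exists_isCompact_lt_add hAf hε'
  obtain ⟨K₂, hK₂, hK₂c, hK₂lt⟩ := hB.exists_isCompact_lt_add hBf hε'
  obtain ⟨a, ha⟩ := hAn
  obtain ⟨b, hb⟩ := hBn
  have key := bm1_compact (K₁ := insert a K₁) (K₂ := insert b K₂) (C := C)
    (hK₁c.insert a) (hK₂c.insert b) (insert_nonempty _ _) (insert_nonempty _ _)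
    (fun x hx y hy => h x (insert_subset ha hK₁ hx) y (insert_subset hb hK₂ hy))
  have m1 : volume K₁ ≤ volume (insert a K₁) := measure_mono (subset_insert _ _)
  have m2 : volume K₂ ≤ volume (insert b K₂) := measure_mono (subset_insert _ _)
  calc volume A / 2 + volume B / 2
      ≤ (volume K₁ + ε) / 2 + (volume K₂ + ε) / 2 := by
        gcongr
    _ = volume K₁ / 2 + volume K₂ / 2 + ε := by
        rw [ENNReal.add_div, ENNReal.add_div]
        have : (ε : ℝ≥0∞) = ε / 2 + ε / 2 := (ENNReal.add_halves _).symm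
        nth_rw 3 [this]
        ring
    _ ≤ volume (insert a K₁) / 2 + volume (insert b K₂) / 2 + ε := by gcongr
    _ ≤ volume C + ε := by gcongr


lemma enn_amgm (U V : ℝ≥0∞) : U * V ≤ (U / 2 + V / 2) ^ 2 := by
  by_cases hUt : U = ∞
  · by_cases hV0 : V = 0
    · simp [hV0]
    · simp [hUt, hV0, ENNReal.top_div]
  by_cases hVt : V = ∞
  · by_cases hU0 : U = 0
    · simp [hU0]
    · simp [hVt, hU0, ENNReal.top_div]
  lift U to ℝ≥0 using hUt
  lift V to ℝ≥0 using hVt
  have e : ((U : ℝ≥0∞) / 2 + (V : ℝ≥0∞) / 2) = (((U + V) / 2 : ℝ≥0) : ℝ≥0∞) := by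
    push_cast
    rw [ENNReal.add_div]
  rw [e]
  norm_cast
  have : ((U : ℝ) * V) ≤ (((U : ℝ) + V) / 2) ^ 2 := by nlinarith [sq_nonneg ((U:ℝ) - V)]
  exact_mod_cast this

/-- Normalised one-dimensional core. -/
lemma pl1_core {F G H : ℝ → ℝ} (hF : Measurable F) (hG : Measurable G) (hH : Measurable H)
    (F0 : ∀ x, 0 ≤ F x) (G0 : ∀ x, 0 ≤ G x) (H0 : ∀ x, 0 ≤ H x)
    (F1 : ∀ x, F x ≤ 1) (G1 : ∀ x, G x ≤ 1) (H1 : ∀ x, H x ≤ 1)
    (Fs : ∀ t, 0 < t → t < 1 → ∃ x, t < F x) (Gs : ∀ t, 0 < t → t < 1 → ∃ x, t < G x)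
    (Ff : ∀ t, 0 < t → volume {x | t < F x} ≠ ∞) (Gf : ∀ t, 0 < t → volume {x | t < G x} ≠ ∞)
    (hc : ∀ x y, F x * G y ≤ H ((x + y) / 2) ^ 2) :
    (∫⁻ x, ENNReal.ofReal (F x)) / 2 + (∫⁻ x, ENNReal.ofReal (G x)) / 2
      ≤ ∫⁻ x, ENNReal.ofReal (H x) := by
  rw [lintegral_eq_lintegral_meas_lt volume (ae_of_all _ F0) hF.aemeasurable,
    lintegral_eq_lintegral_meas_lt volume (ae_of_all _ G0) hG.aemeasurable,
    lintegral_eq_lintegral_meas_lt volume (ae_of_all _ H0) hH.aemeasurable]
  have mF : Measurable (fun t : ℝ => volume {x | t < F x} / 2) := by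
    apply Measurable.div_const
    apply Antitone.measurable
    intro a b hab
    apply measure_mono
    intro x hx
    exact lt_of_le_of_lt hab hx
  have mG : Measurable (fun t : ℝ => volume {x | t < G x} / 2) := by
    apply Measurable.div_const
    apply Antitone.measurable
    intro a b hab
    apply measure_mono
    intro x hx
    exact lt_of_le_of_lt hab hx
  have e1 : (∫⁻ t in Ioi (0:ℝ), volume {x | t < F x}) / 2
      = ∫⁻ t in Ioi (0:ℝ), volume {x | t < F x} / 2 := by
    simp only [ENNReal.div_eq_inv_mul]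
    rw [lintegral_const_mul' _ _ (by simp)]
  have e2 : (∫⁻ t in Ioi (0:ℝ), volume {x | t < G x}) / 2
      = ∫⁻ t in Ioi (0:ℝ), volume {x | t < G x} / 2 := by
    simp only [ENNReal.div_eq_inv_mul]
    rw [lintegral_const_mul' _ _ (by simp)]
  rw [e1, e2, ← lintegral_add_left mF]
  apply setLIntegral_mono' measurableSet_Ioi
  intro t ht
  have ht0 : 0 < t := ht
  by_cases ht1 : t < 1
  · refine bm1 (hF measurableSet_Ioi) (hG measurableSet_Ioi) (Ff t ht0) (Gf t ht0)
      (Fs t ht0 ht1) (Gs t ht0 ht1) ?_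
    intro x hx y hy
    have hx' : t < F x := hx
    have hy' : t < G y := hy
    have h1 : t ^ 2 < H ((x + y) / 2) ^ 2 := by
      have := hc x y
      have h2 : t * t < F x * G y := by
        apply mul_lt_mul'' hx' hy' ht0.le ht0.le
      nlinarith
    show t < H ((x + y) / 2)
    exact lt_of_pow_lt_pow_left₀ 2 (H0 _) h1
  · have ht1' : 1 ≤ t := not_lt.mp ht1
    have e3 : {x | t < F x} = ∅ := by
      ext x; simp only [mem_setOf_eq, mem_empty_iff_false, iff_false, not_lt]
      exact (F1 x).trans ht1'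
    have e4 : {x | t < G x} = ∅ := by
      ext x; simp only [mem_setOf_eq, mem_empty_iff_false, iff_false, not_lt]
      exact (G1 x).trans ht1'
    simp [e3, e4]

/-- One-dimensional Prékopa–Leindler for bounded functions with bounded support. -/
lemma pl1_bdd {F G H : ℝ → ℝ≥0∞} (hF : Measurable F) (hG : Measurable G) (hH : Measurable H)
    {n : ℝ} (Fb : ∀ x, F x ≤ ENNReal.ofReal n) (Gb : ∀ x, G x ≤ ENNReal.ofReal n)
    (Fz : ∀ x, x ∉ Icc (-n) n → F x = 0) (Gz : ∀ x, x ∉ Icc (-n) n → G x = 0)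
    (hc : ∀ x y, F x * G y ≤ H ((x + y) / 2) ^ 2) :
    (∫⁻ x, F x) * (∫⁻ x, G x) ≤ (∫⁻ x, H x) ^ 2 := by
  set a := ⨆ x, F x with ha
  set b := ⨆ x, G x with hb
  have ha_top : a ≠ ∞ := ne_top_of_le_ne_top ENNReal.ofReal_ne_top (iSup_le Fb)
  have hb_top : b ≠ ∞ := ne_top_of_le_ne_top ENNReal.ofReal_ne_top (iSup_le Gb)
  by_cases ha0 : a = 0
  · have : ∀ x, F x = 0 := fun x => le_antisymm ((le_iSup F x).trans ha0.le) bot_le
    simp [this]
  by_cases hb0 : b = 0
  · have : ∀ x, G x = 0 := fun x => le_antisymm ((le_iSup G x).trans hb0.le) bot_le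
    simp [this]
  set s : ℝ≥0∞ := ENNReal.ofReal (Real.sqrt (a.toReal * b.toReal)) with hs
  have ha' : 0 < a.toReal := ENNReal.toReal_pos ha0 ha_top
  have hb' : 0 < b.toReal := ENNReal.toReal_pos hb0 hb_top
  have hsq : s ^ 2 = a * b := by
    rw [hs, ← ENNReal.ofReal_pow (Real.sqrt_nonneg _), Real.sq_sqrt (by positivity),
      ENNReal.ofReal_mul ha'.le, ENNReal.ofReal_toReal ha_top, ENNReal.ofReal_toReal hb_top]
  have hs0 : s ≠ 0 := by
    intro h
    rw [h] at hsq
    have : a * b = 0 := by simpa using hsq.symm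
    rcases mul_eq_zero.mp this with h | h
    · exact ha0 h
    · exact hb0 h
  have hs_top : s ≠ ∞ := ENNReal.ofReal_ne_top
  -- normalised functions
  set f : ℝ → ℝ := fun x => (F x / a).toReal with hf
  set g : ℝ → ℝ := fun x => (G x / b).toReal with hg
  set h : ℝ → ℝ := fun x => (min (H x / s) 1).toReal with hh
  have pF : ∀ x, F x / a ≤ 1 := fun x => ENNReal.div_le_of_le_mul (by simpa using le_iSup F x)
  have pG : ∀ x, G x / b ≤ 1 := fun x => ENNReal.div_le_of_le_mul (by simpa using le_iSup G x)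
  have fF : ∀ x, F x / a ≠ ∞ := fun x => ne_top_of_le_ne_top ENNReal.one_ne_top (pF x)
  have fG : ∀ x, G x / b ≠ ∞ := fun x => ne_top_of_le_ne_top ENNReal.one_ne_top (pG x)
  have fH : ∀ x, min (H x / s) 1 ≠ ∞ := fun x =>
    ne_top_of_le_ne_top ENNReal.one_ne_top (min_le_right _ _)
  have mf : Measurable f := (hF.div_const a).ennreal_toReal
  have mg : Measurable g := (hG.div_const b).ennreal_toReal
  have mh : Measurable h := ((hH.div_const s).min measurable_const).ennreal_toReal
  have of_f : ∀ x, ENNReal.ofReal (f x) = F x / a := fun x => ENNReal.ofReal_toReal (fF x)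
  have of_g : ∀ x, ENNReal.ofReal (g x) = G x / b := fun x => ENNReal.ofReal_toReal (fG x)
  have of_h : ∀ x, ENNReal.ofReal (h x) = min (H x / s) 1 := fun x => ENNReal.ofReal_toReal (fH x)
  have core := pl1_core (F := f) (G := g) (H := h) mf mg mh
    (fun _ => ENNReal.toReal_nonneg) (fun _ => ENNReal.toReal_nonneg)
    (fun _ => ENNReal.toReal_nonneg)
    (fun x => ENNReal.toReal_le_of_le_ofReal zero_le_one (by simpa using pF x))
    (fun x => ENNReal.toReal_le_of_le_ofReal zero_le_one (by simpa using pG x))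
    (fun x => ENNReal.toReal_le_of_le_ofReal zero_le_one (by simpa using min_le_right (H x / s) 1))
    ?_ ?_ ?_ ?_ ?_
  · -- conclude
    simp only [of_f, of_g, of_h] at core
    have e1 : ∫⁻ x, F x / a = (∫⁻ x, F x) / a := by
      simp only [div_eq_mul_inv]
      rw [lintegral_mul_const _ hF]
    have e2 : ∫⁻ x, G x / b = (∫⁻ x, G x) / b := by
      simp only [div_eq_mul_inv]
      rw [lintegral_mul_const _ hG]
    have e3 : ∫⁻ x, min (H x / s) 1 ≤ (∫⁻ x, H x) / s := by
      calc ∫⁻ x, min (H x / s) 1 ≤ ∫⁻ x, H x / s := lintegral_mono (fun x => min_le_left _ _)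
        _ = (∫⁻ x, H x) / s := by
          simp only [div_eq_mul_inv]
          rw [lintegral_mul_const _ hH]
    rw [e1, e2] at core
    have core2 := core.trans e3
    set U := (∫⁻ x, F x) / a with hU
    set V := (∫⁻ x, G x) / b with hV
    set W := (∫⁻ x, H x) / s with hW
    have eF : (∫⁻ x, F x) = U * a := by
      rw [hU, ENNReal.div_mul_cancel ha0 ha_top]
    have eG : (∫⁻ x, G x) = V * b := by
      rw [hV, ENNReal.div_mul_cancel hb0 hb_top]
    have eH : (∫⁻ x, H x) = W * s := by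
      rw [hW, ENNReal.div_mul_cancel hs0 hs_top]
    have am : U * V ≤ W ^ 2 := by
      have h2 : (U / 2 + V / 2) ^ 2 ≤ W ^ 2 := by gcongr
      exact (enn_amgm U V).trans h2
    calc (∫⁻ x, F x) * (∫⁻ x, G x) = (U * V) * (a * b) := by rw [eF, eG]; ring
      _ ≤ W ^ 2 * (a * b) := by gcongr
      _ = (∫⁻ x, H x) ^ 2 := by rw [eH, mul_pow, hsq]
  · -- sup of f
    intro t ht0 ht1
    have : ENNReal.ofReal t * a < a := by
      have : ENNReal.ofReal t < 1 := by
        rw [← ENNReal.ofReal_one]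
        exact (ENNReal.ofReal_lt_ofReal_iff one_pos).mpr ht1
      calc ENNReal.ofReal t * a < 1 * a :=
            ENNReal.mul_lt_mul_left ha0 ha_top this
        _ = a := one_mul a
    obtain ⟨x, hx⟩ := lt_iSup_iff.mp this
    refine ⟨x, ?_⟩
    have h1 : ENNReal.ofReal t < F x / a := by
      rw [ENNReal.lt_div_iff_mul_lt (Or.inl ha0) (Or.inl ha_top)]
      exact hx
    exact (ENNReal.ofReal_lt_iff_lt_toReal ht0.le (fF x)).mp h1
  · intro t ht0 ht1
    have : ENNReal.ofReal t * b < b := by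
      have : ENNReal.ofReal t < 1 := by
        rw [← ENNReal.ofReal_one]
        exact (ENNReal.ofReal_lt_ofReal_iff one_pos).mpr ht1
      calc ENNReal.ofReal t * b < 1 * b :=
            ENNReal.mul_lt_mul_left hb0 hb_top this
        _ = b := one_mul b
    obtain ⟨x, hx⟩ := lt_iSup_iff.mp this
    refine ⟨x, ?_⟩
    have h1 : ENNReal.ofReal t < G x / b := by
      rw [ENNReal.lt_div_iff_mul_lt (Or.inl hb0) (Or.inl hb_top)]
      exact hx
    exact (ENNReal.ofReal_lt_iff_lt_toReal ht0.le (fG x)).mp h1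
  · -- finite level sets
    intro t ht0
    apply ne_top_of_le_ne_top (b := volume (Icc (-n) n)) (by simp)
    apply measure_mono
    intro x hx
    by_contra hxn
    have hx' : t < f x := hx
    have : f x = 0 := by simp [hf, Fz x hxn]
    linarith
  · intro t ht0
    apply ne_top_of_le_ne_top (b := volume (Icc (-n) n)) (by simp)
    apply measure_mono
    intro x hx
    by_contra hxn
    have hx' : t < g x := hx
    have : g x = 0 := by simp [hg, Gz x hxn]
    linarith
  · -- the pointwise inequality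
    intro x y
    set m := (x + y) / 2 with hm
    have key : F x / a * (G y / b) ≤ (min (H m / s) 1) ^ 2 := by
      have h1 : F x / a * (G y / b) ≤ 1 := mul_le_one' (pF x) (pG y)
      have h2 : F x / a * (G y / b) ≤ (H m / s) ^ 2 := by
        have e : F x / a * (G y / b) = (F x * G y) / (a * b) := by
          simp only [div_eq_mul_inv]
          rw [ENNReal.mul_inv (Or.inl ha0) (Or.inl ha_top)]
          ring
        have e' : (H m / s) ^ 2 = H m ^ 2 / s ^ 2 := by
          simp only [div_eq_mul_inv, mul_pow, ENNReal.inv_pow]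
        rw [e, ← hsq, e']
        exact ENNReal.div_le_div_right (hc x y) _
      rcases le_total (H m / s) 1 with h3 | h3
      · rwa [min_eq_left h3]
      · rw [min_eq_right h3]; simpa using h1
    have e1 : f x * g y = (F x / a * (G y / b)).toReal := by
      rw [ENNReal.toReal_mul]
    have e2 : h m ^ 2 = ((min (H m / s) 1) ^ 2).toReal := by
      rw [ENNReal.toReal_pow]
    rw [e1, e2]
    exact ENNReal.toReal_mono (ENNReal.pow_ne_top (fH m)) key

/-- One-dimensional Prékopa–Leindler. -/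
lemma pl1 {F G H : ℝ → ℝ≥0∞} (hF : Measurable F) (hG : Measurable G) (hH : Measurable H)
    (hc : ∀ x y, F x * G y ≤ H ((x + y) / 2) ^ 2) :
    (∫⁻ x, F x) * (∫⁻ x, G x) ≤ (∫⁻ x, H x) ^ 2 := by
  -- truncations
  set Ft : ℕ → ℝ → ℝ≥0∞ := fun k x => (Icc (-(k:ℝ)) k).indicator (fun x => min (F x) k) x with hFt
  set Gt : ℕ → ℝ → ℝ≥0∞ := fun k x => (Icc (-(k:ℝ)) k).indicator (fun x => min (G x) k) x with hGt
  have mFt : ∀ k, Measurable (Ft k) := fun k =>
    (hF.min measurable_const).indicator measurableSet_Icc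
  have mGt : ∀ k, Measurable (Gt k) := fun k =>
    (hG.min measurable_const).indicator measurableSet_Icc
  have mono_ind : ∀ (U : ℝ → ℝ≥0∞), Monotone (fun k : ℕ => (Icc (-(k:ℝ)) k).indicator
      (fun x => min (U x) k)) := by
    intro U j k hjk x
    have hsub : Icc (-(j:ℝ)) j ⊆ Icc (-(k:ℝ)) k := by
      apply Icc_subset_Icc
      · simp only [neg_le_neg_iff]; exact_mod_cast hjk
      · exact_mod_cast hjk
    by_cases hx : x ∈ Icc (-(j:ℝ)) j
    · simp only [indicator_of_mem hx, indicator_of_mem (hsub hx)]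
      apply min_le_min_left
      exact_mod_cast hjk
    · simp only [indicator_of_notMem hx]
      exact bot_le
  have lim_ind : ∀ (U : ℝ → ℝ≥0∞) (x : ℝ), ⨆ k : ℕ, (Icc (-(k:ℝ)) k).indicator
      (fun x => min (U x) k) x = U x := by
    intro U x
    apply le_antisymm
    · apply iSup_le
      intro k
      by_cases hx : x ∈ Icc (-(k:ℝ)) k
      · simp only [indicator_of_mem hx]; exact min_le_left _ _
      · simp only [indicator_of_notMem hx]; exact bot_le
    · obtain ⟨N, hN⟩ := exists_nat_ge |x|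
      have hmem : ∀ k : ℕ, N ≤ k → x ∈ Icc (-(k:ℝ)) k := by
        intro k hk
        have h1 : |x| ≤ k := hN.trans (by exact_mod_cast hk)
        exact abs_le.mp h1
      have : U x = ⨆ k : ℕ, min (U x) k := by
        apply le_antisymm
        · by_cases hU : U x = ∞
          · rw [hU]
            simp only [min_eq_right (le_top : (_ : ℝ≥0∞) ≤ ∞)]
            exact ENNReal.iSup_natCast.symm.le
          · obtain ⟨M, hM⟩ := ENNReal.exists_nat_gt hU
            refine le_trans ?_ (le_iSup _ M)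
            exact le_min le_rfl hM.le
        · exact iSup_le fun k => min_le_left _ _
      rw [this]
      apply iSup_le
      intro k
      by_cases hk : N ≤ k
      · refine le_trans ?_ (le_iSup _ k)
        simp only [indicator_of_mem (hmem k hk)]
        simp
      · refine le_trans ?_ (le_iSup _ N)
        simp only [indicator_of_mem (hmem N le_rfl)]
        have : (k:ℝ≥0∞) ≤ N := by
          exact_mod_cast (not_le.mp hk).le
        simp only [le_min_iff, min_le_iff]
        refine ⟨Or.inl le_rfl, Or.inr this⟩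
  have key : ∀ k, (∫⁻ x, Ft k x) * (∫⁻ x, Gt k x) ≤ (∫⁻ x, H x) ^ 2 := by
    intro k
    apply pl1_bdd (n := k) (mFt k) (mGt k) hH
    · intro x
      by_cases hx : x ∈ Icc (-(k:ℝ)) k
      · simp only [hFt, indicator_of_mem hx]
        refine (min_le_right _ _).trans ?_
        simp
      · simp only [hFt, indicator_of_notMem hx]; exact bot_le
    · intro x
      by_cases hx : x ∈ Icc (-(k:ℝ)) k
      · simp only [hGt, indicator_of_mem hx]
        refine (min_le_right _ _).trans ?_
        simp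
      · simp only [hGt, indicator_of_notMem hx]; exact bot_le
    · intro x hx; simp only [hFt, indicator_of_notMem hx]
    · intro x hx; simp only [hGt, indicator_of_notMem hx]
    · intro x y
      refine le_trans ?_ (hc x y)
      gcongr
      · by_cases hx : x ∈ Icc (-(k:ℝ)) k
        · simp only [hFt, indicator_of_mem hx]; exact min_le_left _ _
        · simp only [hFt, indicator_of_notMem hx]; exact bot_le
      · by_cases hx : y ∈ Icc (-(k:ℝ)) k
        · simp only [hGt, indicator_of_mem hx]; exact min_le_left _ _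
        · simp only [hGt, indicator_of_notMem hx]; exact bot_le
  have eF : ∫⁻ x, F x = ⨆ k, ∫⁻ x, Ft k x := by
    rw [← lintegral_iSup mFt (mono_ind F)]
    apply lintegral_congr
    intro x
    exact (lim_ind F x).symm
  have eG : ∫⁻ x, G x = ⨆ k, ∫⁻ x, Gt k x := by
    rw [← lintegral_iSup mGt (mono_ind G)]
    apply lintegral_congr
    intro x
    exact (lim_ind G x).symm
  rw [eF, eG, ENNReal.iSup_mul]
  apply iSup_le
  intro j
  rw [ENNReal.mul_iSup]
  apply iSup_le
  intro k
  set N := max j k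
  refine le_trans ?_ (key N)
  gcongr
  · exact mono_ind F (le_max_left j k) _
  · exact mono_ind G (le_max_right j k) _


/-- Prékopa–Leindler on `X`, midpoint form. -/
def PLHolds (X : Type*) [AddCommGroup X] [Module ℝ X] [MeasureSpace X] : Prop :=
  ∀ F G H : X → ℝ≥0∞, Measurable F → Measurable G → Measurable H →
    (∀ x y, F x * G y ≤ H ((1/2:ℝ) • (x + y)) ^ 2) →
    (∫⁻ x, F x) * (∫⁻ x, G x) ≤ (∫⁻ x, H x) ^ 2

lemma plHolds_real : PLHolds ℝ := by
  intro F G H hF hG hH hc
  apply pl1 hF hG hH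
  intro x y
  have := hc x y
  have e : (1/2:ℝ) • (x + y) = (x + y) / 2 := by
    simp only [smul_eq_mul]; ring
  rwa [e] at this

lemma plHolds_prod {X Y : Type*} [AddCommGroup X] [Module ℝ X] [MeasureSpace X]
    [AddCommGroup Y] [Module ℝ Y] [MeasureSpace Y]
    [SFinite (volume : Measure X)] [SFinite (volume : Measure Y)]
    (hX : PLHolds X) (hY : PLHolds Y) : PLHolds (X × Y) := by
  intro F G H hF hG hH hc
  rw [Measure.volume_eq_prod, lintegral_prod _ hF.aemeasurable, lintegral_prod _ hG.aemeasurable,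
    lintegral_prod _ hH.aemeasurable]
  apply hX _ _ _ hF.lintegral_prod_right' hG.lintegral_prod_right' hH.lintegral_prod_right'
  intro x₁ x₂
  apply hY (fun y => F (x₁, y)) (fun y => G (x₂, y)) (fun y => H ((1/2:ℝ) • (x₁ + x₂), y))
    (hF.comp (by fun_prop)) (hG.comp (by fun_prop)) (hH.comp (by fun_prop))
  intro y₁ y₂
  have := hc (x₁, y₁) (x₂, y₂)
  simpa using this

lemma plHolds_of_equiv {X Y : Type*} [AddCommGroup X] [Module ℝ X] [MeasureSpace X]
    [AddCommGroup Y] [Module ℝ Y] [MeasureSpace Y]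
    (e : X ≃ᵐ Y) (he : MeasurePreserving e)
    (hmid : ∀ x y : Y, e.symm ((1/2:ℝ) • (x + y)) = (1/2:ℝ) • (e.symm x + e.symm y))
    (hY : PLHolds Y) : PLHolds X := by
  intro F G H hF hG hH hc
  have key : ∀ U : X → ℝ≥0∞, ∫⁻ x, U x = ∫⁻ y, U (e.symm y) := by
    intro U
    rw [← he.map_eq, lintegral_map_equiv]
    simp
  rw [key F, key G, key H]
  apply hY _ _ _ (hF.comp e.symm.measurable) (hG.comp e.symm.measurable)
    (hH.comp e.symm.measurable)
  intro x y
  simp only [Function.comp_apply]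
  rw [hmid]
  exact hc _ _

lemma plHolds_pi : ∀ n : ℕ, PLHolds (Fin n → ℝ)
  | 0 => by
      intro F G H _ _ _ hc
      have key : ∀ U : (Fin 0 → ℝ) → ℝ≥0∞, ∫⁻ x, U x = U 0 := by
        intro U
        rw [Measure.volume_pi_eq_dirac (0 : Fin 0 → ℝ), lintegral_dirac]
      rw [key F, key G, key H]
      have := hc 0 0
      simpa using this
  | n + 1 => by
      have h1 : PLHolds (ℝ × (Fin n → ℝ)) := plHolds_prod plHolds_real (plHolds_pi n)
      refine plHolds_of_equiv (MeasurableEquiv.piFinSuccAbove (fun _ => ℝ) 0)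
        (volume_preserving_piFinSuccAbove (fun _ => ℝ) 0) ?_ h1
      intro x y
      ext i
      refine Fin.cases ?_ (fun j => ?_) i <;> simp [MeasurableEquiv.piFinSuccAbove] <;> ring

lemma plHolds_euclidean (d : ℕ) : PLHolds (EuclideanSpace ℝ (Fin d)) := by
  refine plHolds_of_equiv (MeasurableEquiv.toLp 2 (Fin d → ℝ)).symm
    (EuclideanSpace.volume_preserving_symm_measurableEquiv_toLp (Fin d)) ?_ (plHolds_pi d)
  intro x y
  ext i
  simp

lemma plHolds_euclidean_real (d : ℕ) : PLHolds (EuclideanSpace ℝ (Fin d) × ℝ) :=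
  plHolds_prod (plHolds_euclidean d) plHolds_real

/-- Height form of Prékopa–Leindler in `ℝᵈ`: the Brunn–Minkowski inequality for subgraphs. -/
theorem pl_height {d : ℕ} {A B C : Set (EuclideanSpace ℝ (Fin d))}
    (hA : MeasurableSet A) (hB : MeasurableSet B) (hC : MeasurableSet C)
    {f g h : EuclideanSpace ℝ (Fin d) → ℝ} (hf : Measurable f) (hg : Measurable g)
    (hh : Measurable h)
    (hmid : ∀ x₀ ∈ A, ∀ x₁ ∈ B, (1/2:ℝ) • (x₀ + x₁) ∈ C ∧
      (f x₀ + g x₁) / 2 ≤ h ((1/2:ℝ) • (x₀ + x₁))) :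
    (∫⁻ x in A, ENNReal.ofReal (f x)) * (∫⁻ x in B, ENNReal.ofReal (g x))
      ≤ (∫⁻ x in C, ENNReal.ofReal (h x)) ^ 2 := by
  set RA := regionBetween (fun _ => (0:ℝ)) f A with hRA
  set RB := regionBetween (fun _ => (0:ℝ)) g B with hRB
  set RC := regionBetween (fun _ => (0:ℝ)) h C with hRC
  have mRA : MeasurableSet RA := measurableSet_regionBetween measurable_const hf hA
  have mRB : MeasurableSet RB := measurableSet_regionBetween measurable_const hg hB
  have mRC : MeasurableSet RC := measurableSet_regionBetween measurable_const hh hC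
  have vol : ∀ {S : Set (EuclideanSpace ℝ (Fin d))} {u : EuclideanSpace ℝ (Fin d) → ℝ},
      Measurable u → MeasurableSet S →
      (volume : Measure (EuclideanSpace ℝ (Fin d) × ℝ))
        (regionBetween (fun _ => (0:ℝ)) u S) = ∫⁻ x in S, ENNReal.ofReal (u x) := by
    intro S u hu hS
    rw [Measure.volume_eq_prod, volume_regionBetween_eq_lintegral aemeasurable_const
      hu.aemeasurable hS]
    simp
  rw [← vol hf hA, ← vol hg hB, ← vol hh hC]
  have := plHolds_euclidean_real d (RA.indicator 1) (RB.indicator 1) (RC.indicator 1)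
    (measurable_one.indicator mRA) (measurable_one.indicator mRB) (measurable_one.indicator mRC) ?_
  · simpa only [lintegral_indicator_one mRA, lintegral_indicator_one mRB,
      lintegral_indicator_one mRC] using this
  · intro p q
    by_cases hp : p ∈ RA
    · by_cases hq : q ∈ RB
      · have hm : (1/2:ℝ) • (p + q) ∈ RC := by
          obtain ⟨p1, p2, p3⟩ := hp
          obtain ⟨q1, q2, q3⟩ := hq
          obtain ⟨h1, h2⟩ := hmid p.1 p1 q.1 q1
          refine ⟨by simpa using h1, ?_, ?_⟩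
          · simp only [Prod.smul_snd, Prod.snd_add, smul_eq_mul]
            have : (0:ℝ) < p.2 := p2
            have : (0:ℝ) < q.2 := q2
            linarith
          · simp only [Prod.smul_snd, Prod.snd_add, smul_eq_mul]
            have h2' : (f p.1 + g q.1) / 2 ≤ h ((1/2:ℝ) • (p + q)).1 := by
              simpa using h2
            have : p.2 < f p.1 := p3
            have : q.2 < g q.1 := q3
            linarith
        rw [indicator_of_mem hp, indicator_of_mem hq, indicator_of_mem hm]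
        simp
      · rw [indicator_of_notMem hq]; simp
    · rw [indicator_of_notMem hp]; simp

end Crest.Agent.OT
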