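import Crest.Agent.Lib.OTLag
import Crest.Agent.Lib.OTPL

/-!
# The two-partition bound: two Laguerre partitions of a convex body with the same atoms.

Barycentre differences are controlled by differences of the masses of the cells.
-/

set_option autoImplicit false

open MeasureTheory Set
open scoped ENNReal NNReal RealInnerProductSpace

namespace Crest.Agent.OT

variable {d : ℕ}

/-- volume as a real number -/
noncomputable def vo (S : Set (EE d)) : ℝ := (volume S).toReal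
/-- first moment -/
noncomputable def mo (S : Set (EE d)) : EE d := ∫ x in S, x
/-- quadratic moment -/
noncomputable def ro (S : Set (EE d)) : ℝ := ∫ x in S, ‖x‖ ^ 2 / 2

lemma sqrt_bound {P Q I : ℝ} (hP : 0 < P) (hQ : 0 ≤ Q) (hI : 0 ≤ I) (h : P * Q ≤ I ^ 2) :
    (P + Q) / 2 - (P - Q) ^ 2 / (2 * P) ≤ I := by
  by_contra hcon
  push Not at hcon
  set u := Q / P - 1 with hu
  have hQe : Q = P * (1 + u) := by rw [hu]; field_simp; ring
  have hu1 : -1 ≤ u := by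
    have : 0 ≤ Q / P := div_nonneg hQ hP.le
    linarith
  have hX : (P + Q) / 2 - (P - Q) ^ 2 / (2 * P) = P * (1 + u / 2 - u ^ 2 / 2) := by
    rw [hQe]; field_simp; ring
  rw [hX] at hcon
  have hY : 0 < 1 + u / 2 - u ^ 2 / 2 := by
    by_contra h2
    push Not at h2
    have : P * (1 + u / 2 - u ^ 2 / 2) ≤ 0 := mul_nonpos_of_nonneg_of_nonpos hP.le h2
    linarith
  have hu3 : u ≤ 3 := by nlinarith
  have hY2 : (1 + u / 2 - u ^ 2 / 2) ^ 2 ≤ 1 + u := by
    have : (1 + u / 2 - u ^ 2 / 2) ^ 2 - (1 + u) = u ^ 2 * ((u - 3) * (u + 1)) / 4 := by ring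
    have h4 : (u - 3) * (u + 1) ≤ 0 := mul_nonpos_of_nonpos_of_nonneg (by linarith) (by linarith)
    have h5 : u ^ 2 * ((u - 3) * (u + 1)) ≤ 0 := mul_nonpos_of_nonneg_of_nonpos (sq_nonneg _) h4
    linarith
  have h6 : (P * (1 + u / 2 - u ^ 2 / 2)) ^ 2 ≤ P * Q := by
    rw [hQe, mul_pow]
    have : P ^ 2 * (1 + u / 2 - u ^ 2 / 2) ^ 2 ≤ P ^ 2 * (1 + u) :=
      mul_le_mul_of_nonneg_left hY2 (sq_nonneg _)
    nlinarith
  have h7 : I ^ 2 < (P * (1 + u / 2 - u ^ 2 / 2)) ^ 2 :=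
    pow_lt_pow_left₀ hcon hI (by norm_num)
  linarith

lemma integrableOn_of_compact {S : Set (EE d)} (hS : IsCompact S) {β : Type*}
    [NormedAddCommGroup β] {f : EE d → β} (hf : Continuous f) : IntegrableOn f S volume :=
  hf.continuousOn.integrableOn_compact hS

/-- Prékopa–Leindler for continuous functions on compact sets, real integrals. -/
lemma pl_integral {A B C : Set (EE d)} (hA : IsCompact A) (hB : IsCompact B) (hC : IsCompact C)
    {f g h : EE d → ℝ} (hf : Continuous f) (hg : Continuous g) (hh : Continuous h)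
    (hf0 : ∀ x ∈ A, 0 ≤ f x) (hg0 : ∀ x ∈ B, 0 ≤ g x) (hh0 : ∀ x ∈ C, 0 ≤ h x)
    (hpl : ∀ x₀ ∈ A, ∀ x₁ ∈ B, (1/2:ℝ) • (x₀ + x₁) ∈ C ∧
      (f x₀ + g x₁) / 2 ≤ h ((1/2:ℝ) • (x₀ + x₁))) :
    (∫ x in A, f x) * (∫ x in B, g x) ≤ (∫ x in C, h x) ^ 2 := by
  have key := pl_height hA.measurableSet hB.measurableSet hC.measurableSet
    hf.measurable hg.measurable hh.measurable hpl
  have e1 : ∫⁻ x in A, ENNReal.ofReal (f x) = ENNReal.ofReal (∫ x in A, f x) :=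
    (ofReal_integral_eq_lintegral_ofReal (integrableOn_of_compact hA hf)
      ((ae_restrict_iff' hA.measurableSet).mpr (ae_of_all _ hf0))).symm
  have e2 : ∫⁻ x in B, ENNReal.ofReal (g x) = ENNReal.ofReal (∫ x in B, g x) :=
    (ofReal_integral_eq_lintegral_ofReal (integrableOn_of_compact hB hg)
      ((ae_restrict_iff' hB.measurableSet).mpr (ae_of_all _ hg0))).symm
  have e3 : ∫⁻ x in C, ENNReal.ofReal (h x) = ENNReal.ofReal (∫ x in C, h x) :=
    (ofReal_integral_eq_lintegral_ofReal (integrableOn_of_compact hC hh)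
      ((ae_restrict_iff' hC.measurableSet).mpr (ae_of_all _ hh0))).symm
  rw [e1, e2, e3] at key
  have hP : 0 ≤ ∫ x in A, f x := setIntegral_nonneg hA.measurableSet hf0
  have hQ : 0 ≤ ∫ x in B, g x := setIntegral_nonneg hB.measurableSet hg0
  have hI : 0 ≤ ∫ x in C, h x := setIntegral_nonneg hC.measurableSet hh0
  rw [← ENNReal.ofReal_mul hP, ← ENNReal.ofReal_pow hI] at key
  exact (ENNReal.ofReal_le_ofReal_iff (by positivity)).mp key

/-- The pointwise midpoint inequality. -/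
lemma mid_ineq {x₀ x₁ : EE d} {R L c τ : ℝ} {lam : EE d} (hL : ‖lam‖ + |τ| * R ≤ L)
    (hm : ‖(1/2:ℝ) • (x₀ + x₁)‖ ≤ R) :
    ((c - ‖x₀‖ ^ 2 / 2 - (⟪lam, x₀⟫ + τ * (‖x₀‖ ^ 2 / 2)))
      + (c - ‖x₁‖ ^ 2 / 2 + (⟪lam, x₁⟫ + τ * (‖x₁‖ ^ 2 / 2)))) / 2
    ≤ c - ‖(1/2:ℝ) • (x₀ + x₁)‖ ^ 2 / 2 + L ^ 2 / 2 := by
  set m := (1/2:ℝ) • (x₀ + x₁) with hmd
  set δ := x₁ - x₀ with hδ
  have e0 : x₀ = m - (1/2:ℝ) • δ := by
    rw [hmd, hδ]; module
  have e1 : x₁ = m + (1/2:ℝ) • δ := by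
    rw [hmd, hδ]; module
  have n0 : ‖x₀‖ ^ 2 = ‖m‖ ^ 2 - ⟪m, δ⟫ + ‖δ‖ ^ 2 / 4 := by
    rw [e0, @norm_sub_sq_real]
    simp only [inner_smul_right, norm_smul]
    norm_num
    ring
  have n1 : ‖x₁‖ ^ 2 = ‖m‖ ^ 2 + ⟪m, δ⟫ + ‖δ‖ ^ 2 / 4 := by
    rw [e1, @norm_add_sq_real]
    simp only [inner_smul_right, norm_smul]
    norm_num
    ring
  have il : ⟪lam, x₁⟫ - ⟪lam, x₀⟫ = ⟪lam, δ⟫ := by rw [hδ, inner_sub_right]
  rw [n0, n1]
  have hb : ⟪lam, δ⟫ + τ * ⟪m, δ⟫ ≤ L * ‖δ‖ := by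
    have h1 : ⟪lam, δ⟫ ≤ ‖lam‖ * ‖δ‖ := real_inner_le_norm _ _
    have h2 : τ * ⟪m, δ⟫ ≤ |τ| * R * ‖δ‖ := by
      calc τ * ⟪m, δ⟫ ≤ |τ * ⟪m, δ⟫| := le_abs_self _
        _ = |τ| * |⟪m, δ⟫| := abs_mul _ _
        _ ≤ |τ| * (‖m‖ * ‖δ‖) :=
            mul_le_mul_of_nonneg_left (abs_real_inner_le_norm _ _) (abs_nonneg _)
        _ ≤ |τ| * (R * ‖δ‖) :=
            mul_le_mul_of_nonneg_left (mul_le_mul_of_nonneg_right hm (norm_nonneg _)) (abs_nonneg _)
        _ = _ := by ring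
    have h3 : (‖lam‖ + |τ| * R) * ‖δ‖ ≤ L * ‖δ‖ := mul_le_mul_of_nonneg_right hL (norm_nonneg _)
    nlinarith
  have hsq := sq_nonneg (‖δ‖ / 2 - L)
  nlinarith

lemma integrable_norm_sq_on {S : Set (EE d)} (hS : IsCompact S) :
    IntegrableOn (fun x : EE d => ‖x‖ ^ 2 / 2) S volume :=
  integrableOn_of_compact hS (by fun_prop)

lemma integrable_inner_on {S : Set (EE d)} (hS : IsCompact S) (v : EE d) :
    IntegrableOn (fun x : EE d => ⟪v, x⟫) S volume :=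
  integrableOn_of_compact hS (by fun_prop)

lemma integral_const_on {S : Set (EE d)} (hS : IsCompact S) (c : ℝ) :
    ∫ _x in S, c = c * vo S := by
  rw [setIntegral_const, smul_eq_mul, mul_comm]
  rfl

lemma integral_inner_on {S : Set (EE d)} (hS : IsCompact S) (v : EE d) :
    ∫ x in S, ⟪v, x⟫ = ⟪v, mo S⟫ :=
  integral_inner (integrableOn_of_compact hS continuous_id) v

/-- Formula: integral of `c - r - ℓ`. -/
lemma integral_f_on {S : Set (EE d)} (hS : IsCompact S) (c τ : ℝ) (lam : EE d) :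
    ∫ x in S, (c - ‖x‖ ^ 2 / 2 - (⟪lam, x⟫ + τ * (‖x‖ ^ 2 / 2)))
      = c * vo S - ro S - (⟪lam, mo S⟫ + τ * ro S) := by
  have h1 := integrable_norm_sq_on hS
  have h2 := integrable_inner_on hS lam
  have hc : IntegrableOn (fun _ : EE d => c) S volume := integrableOn_of_compact hS continuous_const
  have h3 : IntegrableOn (fun x : EE d => c - ‖x‖ ^ 2 / 2) S volume := hc.sub h1
  have h4 : IntegrableOn (fun x : EE d => ⟪lam, x⟫ + τ * (‖x‖ ^ 2 / 2)) S volume :=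
    h2.add (h1.const_mul τ)
  rw [integral_sub h3 h4, integral_sub hc h1,
    integral_add h2 (h1.const_mul τ), integral_const_mul, integral_const_on hS,
    integral_inner_on hS, ro]

lemma integral_g_on {S : Set (EE d)} (hS : IsCompact S) (c τ : ℝ) (lam : EE d) :
    ∫ x in S, (c - ‖x‖ ^ 2 / 2 + (⟪lam, x⟫ + τ * (‖x‖ ^ 2 / 2)))
      = c * vo S - ro S + (⟪lam, mo S⟫ + τ * ro S) := by
  have h1 := integrable_norm_sq_on hS
  have h2 := integrable_inner_on hS lam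
  have hc : IntegrableOn (fun _ : EE d => c) S volume := integrableOn_of_compact hS continuous_const
  have h3 : IntegrableOn (fun x : EE d => c - ‖x‖ ^ 2 / 2) S volume := hc.sub h1
  have h4 : IntegrableOn (fun x : EE d => ⟪lam, x⟫ + τ * (‖x‖ ^ 2 / 2)) S volume :=
    h2.add (h1.const_mul τ)
  rw [integral_add h3 h4, integral_sub hc h1,
    integral_add h2 (h1.const_mul τ), integral_const_mul, integral_const_on hS,
    integral_inner_on hS, ro]

lemma integral_h_on {S : Set (EE d)} (hS : IsCompact S) (c : ℝ) :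
    ∫ x in S, (c - ‖x‖ ^ 2 / 2) = c * vo S - ro S := by
  have h1 := integrable_norm_sq_on hS
  have hc : IntegrableOn (fun _ : EE d => c) S volume := integrableOn_of_compact hS continuous_const
  rw [integral_sub hc h1, integral_const_on hS, ro]

/-- Basic facts on moments of a subset of a ball. -/
lemma vo_nonneg (S : Set (EE d)) : 0 ≤ vo S := ENNReal.toReal_nonneg

lemma norm_mo_le {S : Set (EE d)} (hS : IsCompact S) {R : ℝ} (hR : ∀ x ∈ S, ‖x‖ ≤ R) :
    ‖mo S‖ ≤ R * vo S := by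
  have := norm_setIntegral_le_of_norm_le_const (μ := volume) (s := S) (f := fun x : EE d => x)
    (C := R) hS.measure_lt_top (fun x hx => hR x hx)
  simpa [mo, vo, Measure.real] using this

lemma ro_nonneg (S : Set (EE d)) : 0 ≤ ro S :=
  integral_nonneg (fun x => by positivity)

lemma ro_le {S : Set (EE d)} (hS : IsCompact S) {R : ℝ} (hR0 : 0 ≤ R) (hR : ∀ x ∈ S, ‖x‖ ≤ R) :
    ro S ≤ R ^ 2 / 2 * vo S := by
  have h1 : ro S ≤ ∫ _x in S, R ^ 2 / 2 := by
    apply setIntegral_mono_on (integrable_norm_sq_on hS)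
      (integrableOn_of_compact hS continuous_const) hS.measurableSet
    intro x hx
    have := hR x hx
    have h2 : ‖x‖ ^ 2 ≤ R ^ 2 := pow_le_pow_left₀ (norm_nonneg _) this 2
    linarith
  rwa [integral_const_on hS] at h1

/-- The midpoint set. -/
def midSet (A B : Set (EE d)) : Set (EE d) :=
  (fun p : EE d × EE d => (1/2:ℝ) • (p.1 + p.2)) '' (A ×ˢ B)

lemma isCompact_midSet {A B : Set (EE d)} (hA : IsCompact A) (hB : IsCompact B) :
    IsCompact (midSet A B) :=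
  (hA.prod hB).image (by fun_prop)

lemma mid_mem_midSet {A B : Set (EE d)} {x₀ x₁ : EE d} (h0 : x₀ ∈ A) (h1 : x₁ ∈ B) :
    (1/2:ℝ) • (x₀ + x₁) ∈ midSet A B := ⟨(x₀, x₁), ⟨h0, h1⟩, rfl⟩

lemma midSet_subset {A B K : Set (EE d)} (hK : Convex ℝ K) (hA : A ⊆ K) (hB : B ⊆ K) :
    midSet A B ⊆ K := by
  rintro _ ⟨⟨x₀, x₁⟩, ⟨h0, h1⟩, rfl⟩
  have := hK (hA h0) (hB h1) (by norm_num : (0:ℝ) ≤ 1/2) (by norm_num : (0:ℝ) ≤ 1/2)
    (by norm_num)
  simpa [smul_add] using this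

/-- Per-cell consequence of Prékopa–Leindler. -/
lemma per_cell {A B : Set (EE d)} (hA : IsCompact A) (hB : IsCompact B)
    {R L c τ : ℝ} {lam : EE d} (hR0 : 0 ≤ R) (hL0 : 0 ≤ L)
    (hAR : ∀ x ∈ A, ‖x‖ ≤ R) (hBR : ∀ x ∈ B, ‖x‖ ≤ R) (hL : ‖lam‖ + |τ| * R ≤ L)
    (hc : R ^ 2 / 2 + L * R ≤ c) :
    (c * vo A - ro A - (⟪lam, mo A⟫ + τ * ro A)) * (c * vo B - ro B + (⟪lam, mo B⟫ + τ * ro B))
      ≤ (c * vo (midSet A B) - ro (midSet A B) + L ^ 2 / 2 * vo (midSet A B)) ^ 2 := by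
  have hC := isCompact_midSet hA hB
  have hCR : ∀ x ∈ midSet A B, ‖x‖ ≤ R := by
    rintro _ ⟨⟨x₀, x₁⟩, ⟨h0, h1⟩, rfl⟩
    have h2 := hAR _ h0
    have h3 := hBR _ h1
    simp only [norm_smul]
    have h4 : ‖x₀ + x₁‖ ≤ ‖x₀‖ + ‖x₁‖ := norm_add_le _ _
    norm_num
    linarith
  have hbd : ∀ x : EE d, ‖x‖ ≤ R →
      |⟪lam, x⟫ + τ * (‖x‖ ^ 2 / 2)| ≤ L * R ∧ ‖x‖ ^ 2 / 2 ≤ R ^ 2 / 2 := by
    intro x hx
    have hsq : ‖x‖ ^ 2 ≤ R ^ 2 := pow_le_pow_left₀ (norm_nonneg _) hx 2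
    refine ⟨?_, by linarith⟩
    have h1 : |⟪lam, x⟫| ≤ ‖lam‖ * R :=
      (abs_real_inner_le_norm _ _).trans (mul_le_mul_of_nonneg_left hx (norm_nonneg _))
    have h2 : |τ * (‖x‖ ^ 2 / 2)| ≤ |τ| * R * R := by
      rw [abs_mul, abs_of_nonneg (by positivity : 0 ≤ ‖x‖ ^ 2 / 2), mul_assoc]
      apply mul_le_mul_of_nonneg_left _ (abs_nonneg _)
      nlinarith
    calc |⟪lam, x⟫ + τ * (‖x‖ ^ 2 / 2)| ≤ |⟪lam, x⟫| + |τ * (‖x‖ ^ 2 / 2)| := abs_add_le _ _
      _ ≤ ‖lam‖ * R + |τ| * R * R := add_le_add h1 h2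
      _ = (‖lam‖ + |τ| * R) * R := by ring
      _ ≤ L * R := mul_le_mul_of_nonneg_right hL hR0
  have key := pl_integral hA hB hC
    (f := fun x => c - ‖x‖ ^ 2 / 2 - (⟪lam, x⟫ + τ * (‖x‖ ^ 2 / 2)))
    (g := fun x => c - ‖x‖ ^ 2 / 2 + (⟪lam, x⟫ + τ * (‖x‖ ^ 2 / 2)))
    (h := fun x => c - ‖x‖ ^ 2 / 2 + L ^ 2 / 2)
    (by fun_prop) (by fun_prop) (by fun_prop)
    (fun x hx => by
      obtain ⟨h1, h2⟩ := hbd x (hAR x hx)
      have := (abs_le.mp h1).2
      linarith)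
    (fun x hx => by
      obtain ⟨h1, h2⟩ := hbd x (hBR x hx)
      have := (abs_le.mp h1).1
      linarith)
    (fun x hx => by
      obtain ⟨h1, h2⟩ := hbd x (hCR x hx)
      have : 0 ≤ L * R := mul_nonneg hL0 hR0
      have : 0 ≤ L ^ 2 := sq_nonneg _
      linarith)
    (fun x₀ h0 x₁ h1 => ⟨mid_mem_midSet h0 h1, mid_ineq hL (hCR _ (mid_mem_midSet h0 h1))⟩)
  rw [integral_f_on hA, integral_g_on hB] at key
  have e3 : ∫ x in midSet A B, (c - ‖x‖ ^ 2 / 2 + L ^ 2 / 2)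
      = c * vo (midSet A B) - ro (midSet A B) + L ^ 2 / 2 * vo (midSet A B) := by
    have h1 := integrable_norm_sq_on hC
    have hc' : IntegrableOn (fun _ : EE d => c) (midSet A B) volume :=
      integrableOn_of_compact hC continuous_const
    have h3 : IntegrableOn (fun x : EE d => c - ‖x‖ ^ 2 / 2) (midSet A B) volume := hc'.sub h1
    rw [integral_add h3 (integrableOn_of_compact hC continuous_const),
      integral_h_on hC, integral_const_on hC]
  rw [e3] at key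
  exact key

/-- Volume version of the per-cell inequality. -/
lemma per_cell_vol {A B : Set (EE d)} (hA : IsCompact A) (hB : IsCompact B) :
    vo A * vo B ≤ vo (midSet A B) ^ 2 := by
  have hC := isCompact_midSet hA hB
  have key := pl_integral hA hB hC (f := fun _ => (1:ℝ)) (g := fun _ => (1:ℝ)) (h := fun _ => (1:ℝ))
    continuous_const continuous_const continuous_const
    (fun _ _ => zero_le_one) (fun _ _ => zero_le_one) (fun _ _ => zero_le_one)
    (fun x₀ h0 x₁ h1 => ⟨mid_mem_midSet h0 h1, by norm_num⟩)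
  simpa [integral_const_on hA, integral_const_on hB, integral_const_on hC] using key

/-- The scalar core of the per-cell inequality. -/
lemma per_cell_core {a b cc rc ra rb R c D Qq w2 L x z : ℝ}
    (hR : 0 < R) (ha : 0 < a) (hab : |b - a| ≤ a / 2)
    (hra0 : 0 ≤ ra) (hra : ra ≤ R ^ 2 / 2 * a) (hrb0 : 0 ≤ rb) (hrb : rb ≤ R ^ 2 / 2 * b)
    (hcc : 0 ≤ cc) (hrc : rc ≤ R ^ 2 / 2 * cc)
    (hc : c = 245 * R ^ 2) (hw2 : w2 = D ^ 2 + Qq ^ 2) (hL : L = (D + Qq) / 5)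
    (hD0 : 0 ≤ D) (hQq0 : 0 ≤ Qq) (hDle : D ≤ 5 / 2 * R) (hQqle : Qq ≤ 3 / 4 * R)
    (hx : |x| ≤ L * R * a) (hz : |z| ≤ L * R * b) (hq : |rb - ra| = a * R * Qq)
    (hzx : z - x = a * w2 / 5)
    (key : (c * a - ra - x) * (c * b - rb + z) ≤ (c * cc - rc + L ^ 2 / 2 * cc) ^ 2) :
    (c * a - ra) / 2 + (c * b - rb) / 2 + a * w2 / 10
      - (490 * R ^ 2 * (b - a) ^ 2 / a + a * w2 / 49)
      ≤ c * cc - rc + w2 / 25 * cc := by
  have hR2 : 0 < R ^ 2 := by positivity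
  have hcpos : 0 < c := by rw [hc]; positivity
  have hb1 := (abs_le.mp hab).1
  have hb2 := (abs_le.mp hab).2
  have hbpos : 0 < b := by linarith
  have hL0 : 0 ≤ L := by rw [hL]; positivity
  have hLR : L ≤ 13 / 20 * R := by rw [hL]; linarith
  have hLRR : L * R ≤ 13 / 20 * R ^ 2 := by
    have := mul_le_mul_of_nonneg_right hLR hR.le
    linarith
  have hLRa : L * R * a ≤ 13 / 20 * R ^ 2 * a := mul_le_mul_of_nonneg_right hLRR ha.le
  have hLRb : L * R * b ≤ 13 / 20 * R ^ 2 * b := mul_le_mul_of_nonneg_right hLRR hbpos.le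
  have hx2 := abs_le.mp hx
  have hz2 := abs_le.mp hz
  set P := c * a - ra - x with hP
  set Q := c * b - rb + z with hQ
  set I := c * cc - rc + L ^ 2 / 2 * cc with hI
  have hPlow : a * c / 2 ≤ P := by
    rw [hP, hc]
    linarith [mul_pos hR2 ha, hx2.2]
  have hPpos : 0 < P := lt_of_lt_of_le (by positivity) hPlow
  have hQ0 : 0 ≤ Q := by
    rw [hQ, hc]
    linarith [mul_pos hR2 hbpos, hz2.1]
  have hI0 : 0 ≤ I := by
    rw [hI]
    have : 0 ≤ L ^ 2 / 2 * cc := by positivity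
    have h1 : R ^ 2 / 2 * cc ≤ c * cc :=
      mul_le_mul_of_nonneg_right (by rw [hc]; linarith) hcc
    linarith
  have hmain := sqrt_bound hPpos hQ0 hI0 key
  have hsumPQ : (P + Q) / 2 = (c * a - ra) / 2 + (c * b - rb) / 2 + a * w2 / 10 := by
    rw [hP, hQ]
    linarith
  have hdiff : |P - Q| ≤ c * |b - a| + a * R * (D / 2 + 3 / 2 * Qq) := by
    have e1 : P - Q = c * (a - b) - (ra - rb) - (x + z) := by
      rw [hP, hQ]; ring
    have h1 : |c * (a - b)| = c * |b - a| := by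
      rw [abs_mul, abs_of_pos hcpos, abs_sub_comm]
    have h2 : |ra - rb| = a * R * Qq := by rw [← hq, abs_sub_comm]
    have h3 : |x + z| ≤ L * R * a + L * R * b :=
      (abs_add_le _ _).trans (add_le_add hx hz)
    have h4 : L * R * b ≤ L * R * (3 / 2 * a) :=
      mul_le_mul_of_nonneg_left (by linarith) (by positivity)
    have h5 : L * R * a + L * R * (3 / 2 * a) = a * R * (D / 2 + Qq / 2) := by
      rw [hL]; ring
    rw [e1]
    calc |c * (a - b) - (ra - rb) - (x + z)|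
        ≤ |c * (a - b)| + |ra - rb| + |x + z| :=
          (abs_sub _ _).trans (add_le_add_left (abs_sub _ _) _)
      _ ≤ c * |b - a| + a * R * (D / 2 + 3 / 2 * Qq) := by
          rw [h1, h2]
          have : a * R * (D / 2 + 3 / 2 * Qq) = a * R * Qq + a * R * (D / 2 + Qq / 2) := by ring
          rw [this]
          linarith
  have hw0 : 0 ≤ w2 := by rw [hw2]; positivity
  have hdiff2 : (P - Q) ^ 2 ≤ 2 * c ^ 2 * (b - a) ^ 2 + 5 * a ^ 2 * R ^ 2 * w2 := by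
    have h1 : (P - Q) ^ 2 ≤ (c * |b - a| + a * R * (D / 2 + 3 / 2 * Qq)) ^ 2 := by
      rw [← sq_abs (P - Q)]
      exact pow_le_pow_left₀ (abs_nonneg _) hdiff 2
    have h2 : (D / 2 + 3 / 2 * Qq) ^ 2 ≤ 5 / 2 * w2 := by
      rw [hw2]; linarith only [sq_nonneg (3 * D - Qq)]
    have h3 : (c * |b - a| + a * R * (D / 2 + 3 / 2 * Qq)) ^ 2
        ≤ 2 * (c * |b - a|) ^ 2 + 2 * (a * R * (D / 2 + 3 / 2 * Qq)) ^ 2 := by
      linarith only [sq_nonneg (c * |b - a| - a * R * (D / 2 + 3 / 2 * Qq))]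
    have h4 : (c * |b - a|) ^ 2 = c ^ 2 * (b - a) ^ 2 := by rw [mul_pow, sq_abs]
    have h5 : (a * R * (D / 2 + 3 / 2 * Qq)) ^ 2 ≤ (a * R) ^ 2 * (5 / 2 * w2) := by
      rw [mul_pow (a * R)]
      exact mul_le_mul_of_nonneg_left h2 (sq_nonneg _)
    linarith
  have hdiv : (P - Q) ^ 2 / (2 * P) ≤ 490 * R ^ 2 * (b - a) ^ 2 / a + a * w2 / 49 := by
    have h1 : (P - Q) ^ 2 / (2 * P) ≤ (2 * c ^ 2 * (b - a) ^ 2 + 5 * a ^ 2 * R ^ 2 * w2) / (a * c) := by
      apply div_le_div₀ (by positivity) hdiff2 (by positivity)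
      linarith
    refine h1.trans (le_of_eq ?_)
    rw [hc]
    field_simp
    ring
  have hI2 : I ≤ c * cc - rc + w2 / 25 * cc := by
    rw [hI]
    have : L ^ 2 / 2 ≤ w2 / 25 := by
      rw [hL, hw2]; linarith only [sq_nonneg (D - Qq)]
    have := mul_le_mul_of_nonneg_right this hcc
    linarith
  linarith

/-- The per-cell inequality with explicit choice of the test function. -/
lemma per_cell_real {a b cc rc ra rb R : ℝ} {α β : EE d}
    (hR : 0 < R) (ha : 0 < a) (hab : |b - a| ≤ a / 2)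
    (hα : ‖α‖ ≤ R * a) (hβ : ‖β‖ ≤ R * b)
    (hra0 : 0 ≤ ra) (hra : ra ≤ R ^ 2 / 2 * a) (hrb0 : 0 ≤ rb) (hrb : rb ≤ R ^ 2 / 2 * b)
    (hcc : 0 ≤ cc) (hrc : rc ≤ R ^ 2 / 2 * cc)
    (hPL : ∀ (L τ : ℝ) (lam : EE d), 0 ≤ L → ‖lam‖ + |τ| * R ≤ L → R ^ 2 / 2 + L * R ≤ 245 * R ^ 2 →
      (245 * R ^ 2 * a - ra - (⟪lam, α⟫ + τ * ra)) * (245 * R ^ 2 * b - rb + (⟪lam, β⟫ + τ * rb))
        ≤ (245 * R ^ 2 * cc - rc + L ^ 2 / 2 * cc) ^ 2) :
    (245 * R ^ 2 * a - ra) / 2 + (245 * R ^ 2 * b - rb) / 2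
        + a * ((‖β - α‖ ^ 2 + (rb - ra) ^ 2 / R ^ 2) / a ^ 2) / 10
      - (490 * R ^ 2 * (b - a) ^ 2 / a + a * ((‖β - α‖ ^ 2 + (rb - ra) ^ 2 / R ^ 2) / a ^ 2) / 49)
      ≤ 245 * R ^ 2 * cc - rc + (‖β - α‖ ^ 2 + (rb - ra) ^ 2 / R ^ 2) / a ^ 2 / 25 * cc
    ∧ (‖β - α‖ ^ 2 + (rb - ra) ^ 2 / R ^ 2) / a ^ 2 ≤ 7 * R ^ 2 := by
  have hR2 : 0 < R ^ 2 := by positivity
  have hb1 := (abs_le.mp hab).1
  have hb2 := (abs_le.mp hab).2
  have hbpos : 0 < b := by linarith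
  obtain ⟨D, hD⟩ : ∃ D, D = ‖β - α‖ / a := ⟨_, rfl⟩
  obtain ⟨Qq, hQq⟩ : ∃ Qq, Qq = |rb - ra| / (a * R) := ⟨_, rfl⟩
  have hD0 : 0 ≤ D := by rw [hD]; positivity
  have hQq0 : 0 ≤ Qq := by rw [hQq]; positivity
  have hw2 : (‖β - α‖ ^ 2 + (rb - ra) ^ 2 / R ^ 2) / a ^ 2 = D ^ 2 + Qq ^ 2 := by
    rw [hD, hQq, div_pow, div_pow, mul_pow, sq_abs]
    field_simp
  have hdnorm : ‖β - α‖ = a * D := by rw [hD]; field_simp
  have hqabs : |rb - ra| = a * R * Qq := by rw [hQq]; field_simp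
  have hDle : D ≤ 5 / 2 * R := by
    rw [hD, div_le_iff₀ ha]
    have : ‖β - α‖ ≤ ‖β‖ + ‖α‖ := norm_sub_le _ _
    have h1 : R * b ≤ R * (3 / 2 * a) := mul_le_mul_of_nonneg_left (by linarith) hR.le
    linarith only [this, h1, hα, hβ]
  have hQqle : Qq ≤ 3 / 4 * R := by
    rw [hQq, div_le_iff₀ (by positivity)]
    have h1 : R ^ 2 / 2 * b ≤ R ^ 2 / 2 * (3 / 2 * a) :=
      mul_le_mul_of_nonneg_left (by linarith) (by positivity)
    have h0 : 0 ≤ R ^ 2 * a := by positivity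
    have : |rb - ra| ≤ 3 / 4 * R ^ 2 * a := by
      rw [abs_le]
      constructor <;> linarith only [h1, h0, hra, hrb, hra0, hrb0]
    linarith only [this]
  have hw2le : D ^ 2 + Qq ^ 2 ≤ 7 * R ^ 2 := by
    have h1 : D ^ 2 ≤ (5 / 2 * R) ^ 2 := pow_le_pow_left₀ hD0 hDle 2
    have h2 : Qq ^ 2 ≤ (3 / 4 * R) ^ 2 := pow_le_pow_left₀ hQq0 hQqle 2
    linarith only [h1, h2, hR2]
  rw [hw2]
  refine ⟨?_, hw2le⟩
  obtain ⟨lam, hlam⟩ : ∃ lam : EE d, lam = ((1:ℝ) / 5 / a) • (β - α) := ⟨_, rfl⟩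
  obtain ⟨τ, hτ⟩ : ∃ τ : ℝ, τ = (1:ℝ) / 5 * (rb - ra) / (a * R ^ 2) := ⟨_, rfl⟩
  obtain ⟨L, hL⟩ : ∃ L : ℝ, L = (D + Qq) / 5 := ⟨_, rfl⟩
  have hL0 : 0 ≤ L := by rw [hL]; positivity
  have hlamn : ‖lam‖ = D / 5 := by
    rw [hlam, norm_smul, hD, Real.norm_of_nonneg (by positivity)]
    ring
  have hτR : |τ| * R = Qq / 5 := by
    rw [hτ, abs_div, abs_mul, abs_of_nonneg (by norm_num : (0:ℝ) ≤ 1/5),
      abs_of_pos (by positivity : 0 < a * R ^ 2), hQq]
    field_simp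
  have hLe : ‖lam‖ + |τ| * R ≤ L := by rw [hlamn, hτR, hL]; linarith
  have hLR : L ≤ 13 / 20 * R := by rw [hL]; linarith
  have hLRR : L * R ≤ 13 / 20 * R ^ 2 := by
    have := mul_le_mul_of_nonneg_right hLR hR.le
    linarith
  have hcL : R ^ 2 / 2 + L * R ≤ 245 * R ^ 2 := by linarith
  have key := hPL L τ lam hL0 hLe hcL
  have hLR0 : 0 ≤ L * R := by positivity
  have hlamα : |⟪lam, α⟫ + τ * ra| ≤ L * R * a := by
    have h1 : |⟪lam, α⟫| ≤ ‖lam‖ * (R * a) :=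
      (abs_real_inner_le_norm _ _).trans (mul_le_mul_of_nonneg_left hα (norm_nonneg _))
    have h2 : |τ * ra| ≤ |τ| * R * R * a := by
      rw [abs_mul, abs_of_nonneg hra0, mul_assoc, mul_assoc]
      apply mul_le_mul_of_nonneg_left _ (abs_nonneg _)
      linarith only [hra, mul_pos hR2 ha]
    calc |⟪lam, α⟫ + τ * ra| ≤ |⟪lam, α⟫| + |τ * ra| := abs_add_le _ _
      _ ≤ ‖lam‖ * (R * a) + |τ| * R * R * a := add_le_add h1 h2
      _ = (‖lam‖ + |τ| * R) * (R * a) := by ring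
      _ ≤ L * (R * a) := mul_le_mul_of_nonneg_right hLe (by positivity)
      _ = _ := by ring
  have hlamβ : |⟪lam, β⟫ + τ * rb| ≤ L * R * b := by
    have h1 : |⟪lam, β⟫| ≤ ‖lam‖ * (R * b) :=
      (abs_real_inner_le_norm _ _).trans (mul_le_mul_of_nonneg_left hβ (norm_nonneg _))
    have h2 : |τ * rb| ≤ |τ| * R * R * b := by
      rw [abs_mul, abs_of_nonneg hrb0, mul_assoc, mul_assoc]
      apply mul_le_mul_of_nonneg_left _ (abs_nonneg _)
      linarith only [hrb, mul_pos hR2 hbpos]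
    calc |⟪lam, β⟫ + τ * rb| ≤ |⟪lam, β⟫| + |τ * rb| := abs_add_le _ _
      _ ≤ ‖lam‖ * (R * b) + |τ| * R * R * b := add_le_add h1 h2
      _ = (‖lam‖ + |τ| * R) * (R * b) := by ring
      _ ≤ L * (R * b) := mul_le_mul_of_nonneg_right hLe (by positivity)
      _ = _ := by ring
  have hzx : (⟪lam, β⟫ + τ * rb) - (⟪lam, α⟫ + τ * ra) = a * (D ^ 2 + Qq ^ 2) / 5 := by
    have h1 : ⟪lam, β⟫ - ⟪lam, α⟫ = ‖β - α‖ ^ 2 / (5 * a) := by
      rw [← inner_sub_right, hlam, inner_smul_left, real_inner_self_eq_norm_sq]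
      simp only [conj_trivial]
      field_simp
    have h3 : τ * (rb - ra) = (rb - ra) ^ 2 / (5 * a * R ^ 2) := by
      rw [hτ]
      field_simp
    have h4 : a * (D ^ 2 + Qq ^ 2) / 5 = ‖β - α‖ ^ 2 / (5 * a) + (rb - ra) ^ 2 / (5 * a * R ^ 2) := by
      rw [← hw2]
      field_simp
    rw [h4, ← h1, ← h3]
    ring
  exact per_cell_core hR ha hab hra0 hra hrb0 hrb hcc hrc rfl rfl hL hD0 hQq0 hDle hQqle
    hlamα hlamβ hqabs hzx key

/-- Hyperplanes are Lebesgue-null. -/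
lemma volume_hyperplane (u : EE d) (c : ℝ) (hu : u ≠ 0) :
    volume {x : EE d | ⟪x, u⟫ = c} = 0 := by
  let S : AffineSubspace ℝ (EE d) :=
    { carrier := {x : EE d | ⟪x, u⟫ = c}
      smul_vsub_vadd_mem' := by
        intro t p1 p2 p3 h1 h2 h3
        simp only [mem_setOf_eq, vsub_eq_sub, vadd_eq_add, inner_add_left, inner_smul_left,
          inner_sub_left, conj_trivial] at h1 h2 h3 ⊢
        rw [h1, h2, h3]; ring }
  have hS : S ≠ ⊤ := by
    intro h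
    have h0 : (0 : EE d) ∈ S := by rw [h]; trivial
    have h1 : u ∈ S := by rw [h]; trivial
    have e0 : ⟪(0 : EE d), u⟫ = c := h0
    have e1 : ⟪u, u⟫ = c := h1
    rw [inner_zero_left] at e0
    rw [← e0, real_inner_self_eq_norm_sq] at e1
    have : ‖u‖ = 0 := by simpa using e1
    exact hu (norm_eq_zero.mp this)
  exact Measure.addHaar_affineSubspace volume S hS

lemma nullHyper_restrict_id (K : Set (EE d)) : NullHyper (volume.restrict K) (id : EE d → EE d) := by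
  intro u c hu
  rw [preimage_id]
  exact (Measure.restrict_le_self (μ := volume) (s := K)).absolutelyContinuous (volume_hyperplane u c hu)

variable {ι : Type*} [Fintype ι] [Nonempty ι]

/-- Splitting of integrals over the cells of a Laguerre partition of `K`. -/
lemma sum_integral_cells {y : ι → EE d} (hy : Function.Injective y) (w : ι → ℝ) {K : Set (EE d)}
    (hK : IsCompact K) {β : Type*} [NormedAddCommGroup β] [NormedSpace ℝ β] [CompleteSpace β]
    {f : EE d → β} (hf : Continuous f) :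
    ∑ l, ∫ x in lagCell y w l ∩ K, f x = ∫ x in K, f x := by
  have := integral_eq_sum_cells (P := volume.restrict K) (X := id) measurable_id hy
    (nullHyper_restrict_id K) w (f := f) (integrableOn_of_compact hK hf)
  rw [this]
  apply Finset.sum_congr rfl
  intro l _
  rw [preimage_id, Measure.restrict_restrict (measurableSet_lagCell y w l)]

lemma vo_eq_integral (S : Set (EE d)) (hS : IsCompact S) : vo S = ∫ _x in S, (1:ℝ) := by
  rw [integral_const_on hS, one_mul]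

lemma sum_integral_le {K : Set (EE d)} (hK : IsCompact K) {C : ι → Set (EE d)}
    (hC : ∀ l, IsCompact (C l)) (hCK : ∀ l, C l ⊆ K)
    (hdisj : ∀ᵐ x ∂(volume : Measure (EE d)), ∀ l k, x ∈ C l → x ∈ C k → l = k)
    {F : EE d → ℝ} (hF : Continuous F) (hF0 : ∀ x ∈ K, 0 ≤ F x) :
    ∑ l, ∫ x in C l, F x ≤ ∫ x in K, F x := by
  classical
  have e1 : ∀ l, ∫ x in C l, F x = ∫ x, (C l).indicator F x :=
    fun l => (integral_indicator (hC l).measurableSet).symm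
  simp only [e1]
  rw [← integral_finset_sum _ (fun l _ =>
    (integrableOn_of_compact (hC l) hF).integrable_indicator (hC l).measurableSet),
    ← integral_indicator hK.measurableSet]
  apply integral_mono_ae
  · exact integrable_finset_sum _ (fun l _ =>
      (integrableOn_of_compact (hC l) hF).integrable_indicator (hC l).measurableSet)
  · exact (integrableOn_of_compact hK hF).integrable_indicator hK.measurableSet
  · filter_upwards [hdisj] with x hx
    by_cases hex : ∃ l, x ∈ C l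
    · obtain ⟨l, hl⟩ := hex
      rw [Finset.sum_eq_single l]
      · rw [indicator_of_mem hl, indicator_of_mem (hCK l hl)]
      · intro k _ hk
        apply indicator_of_notMem
        exact fun h => hk (hx k l h hl)
      · simp
    · push Not at hex
      have : ∑ l, (C l).indicator F x = 0 :=
        Finset.sum_eq_zero (fun l _ => indicator_of_notMem (hex l) _)
      rw [this]
      exact indicator_nonneg (fun x hx => hF0 x hx) x

/-- Midpoint sets of Laguerre cells meet in hyperplanes. -/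
lemma midSet_inter_subset {y : ι → EE d} (w₀ w₁ : ι → ℝ) {K : Set (EE d)} (l k : ι) :
    midSet (lagCell y w₀ l ∩ K) (lagCell y w₁ l ∩ K) ∩
      midSet (lagCell y w₀ k ∩ K) (lagCell y w₁ k ∩ K)
    ⊆ {x | ⟪x, y l - y k⟫ = ((w₀ l - w₀ k) + (w₁ l - w₁ k)) / 2} := by
  rintro x ⟨⟨⟨p0, p1⟩, ⟨⟨hp0, -⟩, ⟨hp1, -⟩⟩, e1⟩, ⟨⟨q0, q1⟩, ⟨⟨hq0, -⟩, ⟨hq1, -⟩⟩, e2⟩⟩
  simp only at e1 e2
  have a0 := hp0 k
  have a1 := hp1 k
  have b0 := hq0 l
  have b1 := hq1 l
  have i1 : ⟪x, y l - y k⟫ = (⟪p0, y l⟫ - ⟪p0, y k⟫ + (⟪p1, y l⟫ - ⟪p1, y k⟫)) / 2 := by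
    rw [← e1, inner_smul_left, inner_add_left, inner_sub_right, inner_sub_right]
    simp only [conj_trivial]
    ring
  have i2 : ⟪x, y l - y k⟫ = (⟪q0, y l⟫ - ⟪q0, y k⟫ + (⟪q1, y l⟫ - ⟪q1, y k⟫)) / 2 := by
    rw [← e2, inner_smul_left, inner_add_left, inner_sub_right, inner_sub_right]
    simp only [conj_trivial]
    ring
  simp only [mem_setOf_eq]
  apply le_antisymm <;> linarith

/-- The two-partition bound. -/
theorem two_partition_bound {K : Set (EE d)} (hKc : IsCompact K) (hKv : Convex ℝ K) {R : ℝ}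
    (hR : 0 < R) (hKR : ∀ x ∈ K, ‖x‖ ≤ R) {y : ι → EE d} (hy : Function.Injective y)
    (w₀ w₁ : ι → ℝ)
    (ha : ∀ l, 0 < vo (lagCell y w₀ l ∩ K))
    (hab : ∀ l, |vo (lagCell y w₁ l ∩ K) - vo (lagCell y w₀ l ∩ K)|
      ≤ vo (lagCell y w₀ l ∩ K) / 2) :
    ∑ l, ‖mo (lagCell y w₁ l ∩ K) - mo (lagCell y w₀ l ∩ K)‖ ^ 2 / vo (lagCell y w₀ l ∩ K)
      ≤ 20000 * R ^ 2 * ∑ l, (vo (lagCell y w₁ l ∩ K) - vo (lagCell y w₀ l ∩ K)) ^ 2
          / vo (lagCell y w₀ l ∩ K) := by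
  classical
  obtain ⟨A, hA⟩ : ∃ A : ι → Set (EE d), A = fun l => lagCell y w₀ l ∩ K := ⟨_, rfl⟩
  obtain ⟨B, hB⟩ : ∃ B : ι → Set (EE d), B = fun l => lagCell y w₁ l ∩ K := ⟨_, rfl⟩
  obtain ⟨C, hC⟩ : ∃ C : ι → Set (EE d), C = fun l => midSet (A l) (B l) := ⟨_, rfl⟩
  have eA : ∀ l, lagCell y w₀ l ∩ K = A l := fun l => by rw [hA]
  have eB : ∀ l, lagCell y w₁ l ∩ K = B l := fun l => by rw [hB]
  simp only [eA, eB] at ha hab ⊢
  have hAc : ∀ l, IsCompact (A l) := fun l => by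
    rw [← eA]; exact hKc.inter_left (isClosed_lagCell y w₀ l)
  have hBc : ∀ l, IsCompact (B l) := fun l => by
    rw [← eB]; exact hKc.inter_left (isClosed_lagCell y w₁ l)
  have hCc : ∀ l, IsCompact (C l) := fun l => by
    rw [hC]; exact isCompact_midSet (hAc l) (hBc l)
  have hAK : ∀ l, A l ⊆ K := fun l => by rw [← eA]; exact inter_subset_right
  have hBK : ∀ l, B l ⊆ K := fun l => by rw [← eB]; exact inter_subset_right
  have hCK : ∀ l, C l ⊆ K := fun l => by rw [hC]; exact midSet_subset hKv (hAK l) (hBK l)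
  have hR0 := hR.le
  have cellR : ∀ (S : Set (EE d)), S ⊆ K → ∀ x ∈ S, ‖x‖ ≤ R := fun S hS x hx => hKR x (hS hx)
  -- per cell
  have hcell := fun l => per_cell_real (a := vo (A l)) (b := vo (B l)) (cc := vo (C l))
    (rc := ro (C l)) (ra := ro (A l)) (rb := ro (B l)) (α := mo (A l)) (β := mo (B l)) hR (ha l)
    (hab l) (norm_mo_le (hAc l) (cellR _ (hAK l))) (norm_mo_le (hBc l) (cellR _ (hBK l)))
    (ro_nonneg _) (ro_le (hAc l) hR0 (cellR _ (hAK l))) (ro_nonneg _)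
    (ro_le (hBc l) hR0 (cellR _ (hBK l))) (vo_nonneg _) (ro_le (hCc l) hR0 (cellR _ (hCK l)))
    (fun L τ lam hL0 hL hcL => by
      have := per_cell (c := 245 * R ^ 2) (hAc l) (hBc l) hR0 hL0 (cellR _ (hAK l))
        (cellR _ (hBK l)) hL hcL
      rw [hC]
      exact this)
  obtain ⟨a, ha'⟩ : ∃ a : ι → ℝ, a = fun l => vo (A l) := ⟨_, rfl⟩
  obtain ⟨b, hb'⟩ : ∃ b : ι → ℝ, b = fun l => vo (B l) := ⟨_, rfl⟩
  obtain ⟨cc, hcc'⟩ : ∃ cc : ι → ℝ, cc = fun l => vo (C l) := ⟨_, rfl⟩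
  obtain ⟨w2, hw2⟩ : ∃ w2 : ι → ℝ, w2 = fun l => (‖mo (B l) - mo (A l)‖ ^ 2
      + (ro (B l) - ro (A l)) ^ 2 / R ^ 2) / vo (A l) ^ 2 := ⟨_, rfl⟩
  have hw20 : ∀ l, 0 ≤ w2 l := fun l => by rw [hw2]; positivity
  -- partition sums
  have sA : ∑ l, a l = vo K := by
    rw [vo_eq_integral K hKc, ← sum_integral_cells hy w₀ hKc continuous_const]
    apply Finset.sum_congr rfl
    intro l _
    rw [ha', eA]; exact vo_eq_integral _ (hAc l)
  have sB : ∑ l, b l = vo K := by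
    rw [vo_eq_integral K hKc, ← sum_integral_cells hy w₁ hKc continuous_const]
    apply Finset.sum_congr rfl
    intro l _
    rw [hb', eB]; exact vo_eq_integral _ (hBc l)
  have rA : ∑ l, ro (A l) = ro K := by
    rw [ro, ← sum_integral_cells hy w₀ hKc (f := fun x : EE d => ‖x‖ ^ 2 / 2) (by fun_prop)]
    apply Finset.sum_congr rfl
    intro l _
    rw [eA, ro]
  have rB : ∑ l, ro (B l) = ro K := by
    rw [ro, ← sum_integral_cells hy w₁ hKc (f := fun x : EE d => ‖x‖ ^ 2 / 2) (by fun_prop)]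
    apply Finset.sum_congr rfl
    intro l _
    rw [eB, ro]
  -- the midsets are almost disjoint
  have hdisj : ∀ᵐ x ∂(volume : Measure (EE d)), ∀ l k, x ∈ C l → x ∈ C k → l = k := by
    rw [ae_all_iff]; intro l
    rw [ae_all_iff]; intro k
    by_cases hlk : l = k
    · exact ae_of_all _ (fun _ _ _ => hlk)
    · have hu : y l - y k ≠ 0 := sub_ne_zero.mpr (fun h => hlk (hy h))
      rw [ae_iff]
      refine measure_mono_null ?_ (volume_hyperplane (y l - y k)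
        (((w₀ l - w₀ k) + (w₁ l - w₁ k)) / 2) hu)
      intro x hx
      simp only [mem_setOf_eq, Classical.not_imp] at hx
      obtain ⟨h1, h2, -⟩ := hx
      apply midSet_inter_subset (K := K) w₀ w₁ l k
      rw [hC] at h1 h2
      simp only [hA, hB] at h1 h2
      exact ⟨h1, h2⟩
  have sC1 : ∑ l, (245 * R ^ 2 * cc l - ro (C l)) ≤ 245 * R ^ 2 * vo K - ro K := by
    have := sum_integral_le hKc hCc hCK hdisj (F := fun x : EE d => 245 * R ^ 2 - ‖x‖ ^ 2 / 2)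
      (by fun_prop) (fun x hx => by
        have := hKR x hx
        have h2 : ‖x‖ ^ 2 ≤ R ^ 2 := pow_le_pow_left₀ (norm_nonneg _) this 2
        have : 0 < R ^ 2 := by positivity
        linarith)
    simp only [integral_h_on (hCc _), integral_h_on hKc] at this
    simpa only [hcc'] using this
  have sC2 : ∑ l, cc l ≤ vo K := by
    have := sum_integral_le hKc hCc hCK hdisj (F := fun _ : EE d => (1:ℝ))
      continuous_const (fun _ _ => zero_le_one)
    simp only [← vo_eq_integral _ (hCc _), ← vo_eq_integral _ hKc] at this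
    simpa only [hcc'] using this
  obtain ⟨S, hS⟩ : ∃ S : ℝ, S = ∑ l, a l * w2 l := ⟨_, rfl⟩
  obtain ⟨EE', hE⟩ : ∃ E : ℝ, E = ∑ l, (b l - a l) ^ 2 / a l := ⟨_, rfl⟩
  have hapos : ∀ l, 0 < a l := fun l => by rw [ha']; exact ha l
  have habl : ∀ l, |b l - a l| ≤ a l / 2 := fun l => by rw [ha', hb']; exact hab l
  have hE0 : 0 ≤ EE' := by
    rw [hE]
    exact Finset.sum_nonneg (fun l _ => div_nonneg (sq_nonneg _) (hapos l).le)
  have hS0 : 0 ≤ S := by
    rw [hS]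
    exact Finset.sum_nonneg (fun l _ => mul_nonneg (hapos l).le (hw20 l))
  -- volume version
  obtain ⟨κ, hκ⟩ : ∃ κ : ι → ℝ, κ = fun l => (a l + b l) / 2 - (a l - b l) ^ 2 / (2 * a l) :=
    ⟨_, rfl⟩
  have hκle : ∀ l, κ l ≤ cc l := by
    intro l
    rw [hκ]
    have h := per_cell_vol (hAc l) (hBc l)
    rw [← show C l = midSet (A l) (B l) by rw [hC]] at h
    have hb0 : 0 ≤ b l := by rw [hb']; exact vo_nonneg _
    have hcc0 : 0 ≤ cc l := by rw [hcc']; exact vo_nonneg _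
    exact sqrt_bound (hapos l) hb0 hcc0 (by rw [ha', hb', hcc']; exact h)
  have hκa : ∀ l, κ l ≤ 5 / 4 * a l := by
    intro l
    rw [hκ]
    have h1 := (abs_le.mp (habl l)).2
    have h2 : 0 ≤ (a l - b l) ^ 2 / (2 * a l) :=
      div_nonneg (sq_nonneg _) (by have := hapos l; positivity)
    simp only
    linarith
  have hsκ : ∑ l, κ l = vo K - EE' / 2 := by
    have e : ∀ l, κ l = a l / 2 + b l / 2 - (b l - a l) ^ 2 / a l / 2 := by
      intro l
      have := (hapos l).ne'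
      rw [hκ]
      field_simp
      ring
    simp only [e]
    rw [Finset.sum_sub_distrib, Finset.sum_add_distrib, ← Finset.sum_div, ← Finset.sum_div,
      ← Finset.sum_div, sA, sB, ← hE]
    ring
  have hsw : ∑ l, w2 l * cc l ≤ 5 / 4 * S + 7 / 2 * R ^ 2 * EE' := by
    have h1 : ∀ l, w2 l * cc l ≤ 5 / 4 * (a l * w2 l) + 7 * R ^ 2 * (cc l - κ l) := by
      intro l
      have h2 : w2 l ≤ 7 * R ^ 2 := by
        have := (hcell l).2
        rw [hw2]; exact this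
      have h3 := hκle l
      have h4 := hκa l
      have h5 := hw20 l
      have e : w2 l * cc l = w2 l * κ l + w2 l * (cc l - κ l) := by ring
      rw [e]
      have h6 : w2 l * κ l ≤ w2 l * (5 / 4 * a l) := mul_le_mul_of_nonneg_left h4 h5
      have h7 : w2 l * (cc l - κ l) ≤ 7 * R ^ 2 * (cc l - κ l) :=
        mul_le_mul_of_nonneg_right h2 (by linarith)
      linarith
    refine (Finset.sum_le_sum (fun l _ => h1 l)).trans ?_
    rw [Finset.sum_add_distrib, ← Finset.mul_sum, ← Finset.mul_sum, Finset.sum_sub_distrib, hsκ,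
      ← hS]
    have : 0 ≤ R ^ 2 := by positivity
    have h8 : 7 * R ^ 2 * (∑ l, cc l - (vo K - EE' / 2)) ≤ 7 * R ^ 2 * (EE' / 2) :=
      mul_le_mul_of_nonneg_left (by linarith) (by positivity)
    linarith
  -- sum of per cell inequalities
  have hsum : ∑ l, ((245 * R ^ 2 * a l - ro (A l)) / 2 + (245 * R ^ 2 * b l - ro (B l)) / 2
        + a l * w2 l / 10 - (490 * R ^ 2 * (b l - a l) ^ 2 / a l + a l * w2 l / 49))
      ≤ ∑ l, (245 * R ^ 2 * cc l - ro (C l) + w2 l / 25 * cc l) := by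
    apply Finset.sum_le_sum
    intro l _
    have := (hcell l).1
    rw [ha', hb', hcc', hw2]
    exact this
  have hL : ∑ l, ((245 * R ^ 2 * a l - ro (A l)) / 2 + (245 * R ^ 2 * b l - ro (B l)) / 2
        + a l * w2 l / 10 - (490 * R ^ 2 * (b l - a l) ^ 2 / a l + a l * w2 l / 49))
      = 245 * R ^ 2 * vo K - ro K + S / 10 - 490 * R ^ 2 * EE' - S / 49 := by
    have e : ∀ l, (245 * R ^ 2 * a l - ro (A l)) / 2 + (245 * R ^ 2 * b l - ro (B l)) / 2
        + a l * w2 l / 10 - (490 * R ^ 2 * (b l - a l) ^ 2 / a l + a l * w2 l / 49)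
        = 245 * R ^ 2 / 2 * a l + 245 * R ^ 2 / 2 * b l - (1 / 2) * ro (A l) - (1 / 2) * ro (B l)
          + (1 / 10 - 1 / 49) * (a l * w2 l) - 490 * R ^ 2 * ((b l - a l) ^ 2 / a l) := by
      intro l
      ring
    simp only [e]
    rw [Finset.sum_sub_distrib, Finset.sum_add_distrib, Finset.sum_sub_distrib,
      Finset.sum_sub_distrib, Finset.sum_add_distrib, ← Finset.mul_sum, ← Finset.mul_sum,
      ← Finset.mul_sum, ← Finset.mul_sum, ← Finset.mul_sum, ← Finset.mul_sum, sA, sB, rA, rB,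
      ← hS, ← hE]
    ring
  have hRR : ∑ l, (245 * R ^ 2 * cc l - ro (C l) + w2 l / 25 * cc l)
      = ∑ l, (245 * R ^ 2 * cc l - ro (C l)) + (∑ l, w2 l * cc l) / 25 := by
    rw [Finset.sum_add_distrib, Finset.sum_div]
    congr 1
    apply Finset.sum_congr rfl
    intro l _
    ring
  rw [hL, hRR] at hsum
  have hfinal : S ≤ 20000 * R ^ 2 * EE' := by
    have h0 : 0 ≤ R ^ 2 * EE' := by positivity
    linarith
  have hlast : ∑ l, ‖mo (B l) - mo (A l)‖ ^ 2 / vo (A l) ≤ S := by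
    rw [hS]
    apply Finset.sum_le_sum
    intro l _
    rw [ha', hw2]
    have h1 := ha l
    have e : vo (A l) * ((‖mo (B l) - mo (A l)‖ ^ 2 + (ro (B l) - ro (A l)) ^ 2 / R ^ 2) / vo (A l) ^ 2)
        = (‖mo (B l) - mo (A l)‖ ^ 2 + (ro (B l) - ro (A l)) ^ 2 / R ^ 2) / vo (A l) := by
      field_simp
    simp only
    rw [e]
    apply div_le_div_of_nonneg_right _ h1.le
    have : 0 ≤ (ro (B l) - ro (A l)) ^ 2 / R ^ 2 := by positivity
    linarith
  calc _ ≤ S := hlast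
    _ ≤ 20000 * R ^ 2 * EE' := hfinal
    _ = _ := by rw [hE, ha', hb']

end Crest.Agent.OT
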