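import Crest.Agent.Lib.OTPot

/-!
# Discretisation of a coupling: finite partitions, atoms, plans.
-/

set_option autoImplicit false

open MeasureTheory Set Filter
open scoped ENNReal NNReal RealInnerProductSpace Topology
open Crest.AnalysisR.OT

namespace Crest.Agent.OT

variable {d : ℕ}

/-- Finite measurable partitions of small diameter. -/
lemma exists_partition {Y : Set (EE d)} (hY : IsCompact Y) {τ : ℝ} (hτ : 0 < τ) :
    ∃ (n : ℕ) (Q : Fin n → Set (EE d)) (c : Fin n → EE d), (∀ a, MeasurableSet (Q a)) ∧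
      (∀ a b, a ≠ b → Disjoint (Q a) (Q b)) ∧ (∀ a, Q a ⊆ Y) ∧ (∀ u ∈ Y, ∃ a, u ∈ Q a) ∧
      (∀ a, ∀ u ∈ Q a, ‖u - c a‖ ≤ τ) := by
  classical
  obtain ⟨t, -, htf, htc⟩ := hY.finite_cover_balls hτ
  obtain ⟨n, c, -, hc⟩ := htf.fin_param
  let f : ℕ → Set (EE d) := fun k => if h : k < n then Metric.ball (c ⟨k, h⟩) τ else ∅
  have hfm : ∀ k, MeasurableSet (f k) := by
    intro k
    by_cases h : k < n
    · simp only [f, h, dif_pos]; exact Metric.isOpen_ball.measurableSet
    · simp only [f, h, dif_neg, not_false_eq_true]; exact MeasurableSet.empty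
  refine ⟨n, fun a => Y ∩ disjointed f a, c, ?_, ?_, fun a => inter_subset_left, ?_, ?_⟩
  · intro a
    exact hY.measurableSet.inter (MeasurableSet.disjointed hfm a)
  · intro a b hab
    have h1 : (a : ℕ) ≠ b := fun h => hab (Fin.ext h)
    exact (disjoint_disjointed f h1).mono inter_subset_right inter_subset_right
  · intro u hu
    have h1 : u ∈ ⋃ x ∈ t, Metric.ball x τ := htc hu
    obtain ⟨x, hx, hux⟩ := mem_iUnion₂.mp h1
    rw [← hc] at hx
    obtain ⟨a, rfl⟩ := hx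
    have h2 : u ∈ ⋃ k, f k := by
      refine mem_iUnion.mpr ⟨a, ?_⟩
      simp only [f, a.2, dif_pos]
      exact hux
    rw [← iUnion_disjointed] at h2
    obtain ⟨k, hk⟩ := mem_iUnion.mp h2
    have hkn : k < n := by
      by_contra hcon
      have := disjointed_subset f k hk
      simp [f, hcon] at this
    exact ⟨⟨k, hkn⟩, hu, hk⟩
  · intro a u hu
    have h1 := disjointed_subset f a hu.2
    simp only [f, a.2, dif_pos] at h1
    have : dist u (c a) < τ := h1
    rw [dist_eq_norm] at this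
    exact this.le

/-- Injective perturbations. -/
lemma exists_injective_perturb {ι : Type*} [Fintype ι] (i₀ : Fin d) (p : ι → EE d) {τ : ℝ}
    (hτ : 0 < τ) : ∃ y : ι → EE d, Function.Injective y ∧ ∀ l, ‖y l - p l‖ ≤ τ := by
  classical
  rcases isEmpty_or_nonempty ι with hι | hι
  · exact ⟨p, fun a => (hι.false a).elim, fun a => (hι.false a).elim⟩
  let e := Fintype.equivFin ι
  let v : ι → EE d := fun l => (((e l : ℕ) : ℝ)) • ee i₀
  have hvinj : Function.Injective v := by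
    intro a b hab
    have h1 : (((e a : ℕ) : ℝ) - ((e b : ℕ) : ℝ)) • ee i₀ = 0 := by
      rw [sub_smul, sub_eq_zero]; exact hab
    have hne : ee i₀ ≠ 0 := by
      intro h
      have := norm_ee i₀
      rw [h] at this
      simp at this
    have h2 := (smul_eq_zero.mp h1).resolve_right hne
    have h3 : ((e a : ℕ) : ℝ) = ((e b : ℕ) : ℝ) := sub_eq_zero.mp h2
    have h4 : (e a : ℕ) = e b := by exact_mod_cast h3
    exact e.injective (Fin.ext h4)
  have hbad := finite_collisions (v := p) hvinj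
  obtain ⟨B, hB⟩ : ∃ B, B = ∑ l, ‖v l‖ := ⟨_, rfl⟩
  have hB0 : 0 ≤ B := by rw [hB]; exact Finset.sum_nonneg (fun _ _ => norm_nonneg _)
  have hinf : (Ioi (max 1 (B / τ))).Infinite := Ioi_infinite _
  obtain ⟨t, ht1, ht2⟩ := hinf.exists_notMem_finite hbad
  have ht1' : max 1 (B / τ) < t := ht1
  have ht3 : 1 < t := (le_max_left _ _).trans_lt ht1'
  have ht4 : B / τ < t := (le_max_right _ _).trans_lt ht1'
  have htpos : 0 < t := by linarith
  simp only [mem_setOf_eq, not_not] at ht2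
  refine ⟨fun l => p l + (1 / t) • v l, ?_, ?_⟩
  · intro a b hab
    simp only at hab
    apply ht2
    simp only
    have : t • (p a + (1 / t) • v a) = t • (p b + (1 / t) • v b) := by rw [hab]
    simp only [smul_add, smul_smul] at this
    have e1 : t * (1 / t) = 1 := by field_simp
    rw [e1, one_smul, one_smul] at this
    rw [add_comm, this, add_comm]
  · intro l
    simp only [add_sub_cancel_left, norm_smul, Real.norm_eq_abs]
    have h1 : ‖v l‖ ≤ B := by
      rw [hB]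
      exact Finset.single_le_sum (f := fun l => ‖v l‖) (fun _ _ => norm_nonneg _) (Finset.mem_univ l)
    rw [abs_of_pos (by positivity)]
    rw [div_lt_iff₀ hτ] at ht4
    rw [one_div, inv_mul_le_iff₀ htpos]
    nlinarith

/-- Approximate plans. -/
structure ApproxPlan {ι : Type*} [Fintype ι] (P : Measure (EE d)) (T : EE d → EE d) (y : ι → EE d)
    (m : ι → ℝ) (θ : ι → EE d → ℝ) (τ : ℝ) : Prop where
  meas : ∀ l, Measurable (θ l)
  nonneg : ∀ l x, 0 ≤ θ l x
  le_one : ∀ l x, θ l x ≤ 1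
  sum_one : ∀ᵐ x ∂P, ∑ l, θ l x = 1
  int_eq : ∀ l, ∫ x, θ l x ∂P = m l
  near : ∀ᵐ x ∂P, ∀ l, θ l x ≠ 0 → ‖y l - T x‖ ≤ τ

section Plan

variable {ι : Type*} [Fintype ι] {P : Measure (EE d)} [IsProbabilityMeasure P]
  {T X : EE d → EE d} {y : ι → EE d} {m : ι → ℝ} {θ : ι → EE d → ℝ} {τ R RY : ℝ}

/-- Plan values are close to the value of the map. -/
lemma ApproxPlan.value_ge (hp : ApproxPlan P T y m θ τ) (hX : Measurable X) (hT : Measurable T)
    (hXb : ∀ᵐ x ∂P, ‖X x‖ ≤ R) (hTb : ∀ᵐ x ∂P, ‖T x‖ ≤ RY) (hR : 0 ≤ R) :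
    ∫ x, ⟪X x, T x⟫ ∂P - R * τ ≤ ∑ l, ∫ x, θ l x * ⟪X x, y l⟫ ∂P := by
  have hi : ∀ l, Integrable (fun x => θ l x * ⟪X x, y l⟫) P := fun l => by
    refine Integrable.of_bound ((hp.meas l).mul (by fun_prop)).aestronglyMeasurable (R * ‖y l‖) ?_
    filter_upwards [hXb] with x h2
    rw [Real.norm_eq_abs, abs_mul, abs_of_nonneg (hp.nonneg l x)]
    have h3 : |⟪X x, y l⟫| ≤ R * ‖y l‖ :=
      (abs_real_inner_le_norm _ _).trans (mul_le_mul_of_nonneg_right h2 (norm_nonneg _))
    calc θ l x * |⟪X x, y l⟫| ≤ 1 * |⟪X x, y l⟫| :=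
          mul_le_mul_of_nonneg_right (hp.le_one l x) (abs_nonneg _)
      _ ≤ _ := by simpa using h3
  have hXT : Integrable (fun x => ⟪X x, T x⟫) P := by
    refine Integrable.of_bound (by fun_prop : Measurable fun x => ⟪X x, T x⟫).aestronglyMeasurable
      (R * RY) ?_
    filter_upwards [hXb, hTb] with x h1 h2
    rw [Real.norm_eq_abs]
    exact (abs_real_inner_le_norm _ _).trans (mul_le_mul h1 h2 (norm_nonneg _) hR)
  have h0 : ∫ x, ⟪X x, T x⟫ ∂P - R * τ = ∫ x, (⟪X x, T x⟫ - R * τ) ∂P := by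
    rw [integral_sub hXT (integrable_const _)]; simp
  rw [← integral_finset_sum _ (fun l _ => hi l), h0]
  apply integral_mono_ae (hXT.sub (integrable_const _)) (integrable_finset_sum _ (fun l _ => hi l))
  filter_upwards [hp.sum_one, hp.near, hXb] with x h1 h2 h3
  simp only [Pi.sub_apply]
  have e : ⟪X x, T x⟫ = ∑ l, θ l x * ⟪X x, T x⟫ := by
    rw [← Finset.sum_mul, h1, one_mul]
  have e2 : R * τ = ∑ l, θ l x * (R * τ) := by
    rw [← Finset.sum_mul, h1, one_mul]
  rw [e, e2, ← Finset.sum_sub_distrib]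
  apply Finset.sum_le_sum
  intro l _
  rw [← mul_sub]
  by_cases hθ : θ l x = 0
  · simp [hθ]
  · apply mul_le_mul_of_nonneg_left _ (hp.nonneg l x)
    have h4 : ‖y l - T x‖ ≤ τ := h2 l hθ
    have h5 : ⟪X x, T x - y l⟫ ≤ R * τ := by
      refine (real_inner_le_norm _ _).trans ?_
      rw [norm_sub_rev]
      exact mul_le_mul h3 h4 (norm_nonneg _) hR
    rw [inner_sub_right] at h5
    linarith

/-- The Lipschitz comparison. -/
lemma ApproxPlan.lipschitz_le (hp : ApproxPlan P T y m θ τ) {ψ : EE d → ℝ} {L : ℝ}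
    (hψ : ∀ u v, ψ u ≤ ψ v + L * ‖u - v‖) (hL : 0 ≤ L) (hψT : Integrable (fun x => ψ (T x)) P) :
    ∑ l, m l * ψ (y l) ≤ ∫ x, ψ (T x) ∂P + L * τ := by
  have hi : ∀ l, Integrable (fun x => θ l x * ψ (y l)) P := fun l => by
    refine Integrable.of_bound ((hp.meas l).mul_const _).aestronglyMeasurable (|ψ (y l)|) ?_
    refine ae_of_all _ fun x => ?_
    rw [Real.norm_eq_abs, abs_mul, abs_of_nonneg (hp.nonneg l x)]
    calc θ l x * |ψ (y l)| ≤ 1 * |ψ (y l)| :=
          mul_le_mul_of_nonneg_right (hp.le_one l x) (abs_nonneg _)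
      _ = _ := one_mul _
  have e : ∀ l, m l * ψ (y l) = ∫ x, θ l x * ψ (y l) ∂P := by
    intro l
    rw [integral_mul_const, hp.int_eq]
  simp only [e]
  have h0 : ∫ x, ψ (T x) ∂P + L * τ = ∫ x, (ψ (T x) + L * τ) ∂P := by
    rw [integral_add hψT (integrable_const _)]; simp
  rw [← integral_finset_sum _ (fun l _ => hi l), h0]
  apply integral_mono_ae (integrable_finset_sum _ (fun l _ => hi l))
    (hψT.add (integrable_const _))
  filter_upwards [hp.sum_one, hp.near] with x h1 h2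
  simp only [Pi.add_apply]
  have e1 : ψ (T x) + L * τ = ∑ l, θ l x * (ψ (T x) + L * τ) := by
    rw [← Finset.sum_mul, h1, one_mul]
  rw [e1]
  apply Finset.sum_le_sum
  intro l _
  by_cases hθ : θ l x = 0
  · simp [hθ]
  · apply mul_le_mul_of_nonneg_left _ (hp.nonneg l x)
    have h4 : ‖y l - T x‖ ≤ τ := h2 l hθ
    have h5 := hψ (y l) (T x)
    have h6 : L * ‖y l - T x‖ ≤ L * τ := mul_le_mul_of_nonneg_left h4 hL
    linarith

end Plan

/-- Plans from a partition. -/
lemma plan_of_partition {A ι : Type*} [Fintype A] [Fintype ι] [DecidableEq A]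
    {P : Measure (EE d)} [IsProbabilityMeasure P] {T : EE d → EE d} (hT : Measurable T)
    {Y : Set (EE d)} {Q : A → Set (EE d)} (hQm : ∀ a, MeasurableSet (Q a))
    (hQd : ∀ a b, a ≠ b → Disjoint (Q a) (Q b)) (hQY : ∀ u ∈ Y, ∃ a, u ∈ Q a)
    (hae : ∀ᵐ x ∂P, T x ∈ Y) {pr : ι → A} {m : ι → ℝ} (hm : ∀ l, 0 < m l)
    (hmass : ∀ a, ∑ l ∈ Finset.univ.filter (fun l => pr l = a), m l = (P (T ⁻¹' Q a)).toReal)
    {y : ι → EE d} {τ : ℝ} (hy : ∀ l, ∀ u ∈ Q (pr l), ‖y l - u‖ ≤ τ) :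
    ApproxPlan P T y m
      (fun l x => (T ⁻¹' Q (pr l)).indicator (fun _ => m l / (P (T ⁻¹' Q (pr l))).toReal) x) τ := by
  classical
  obtain ⟨M, hM⟩ : ∃ M : A → ℝ, M = fun a => (P (T ⁻¹' Q a)).toReal := ⟨_, rfl⟩
  have hMa : ∀ a, (P (T ⁻¹' Q a)).toReal = M a := fun a => by rw [hM]
  simp only [hMa] at hmass ⊢
  have hm0 : ∀ l, 0 ≤ m l := fun l => (hm l).le
  have hle : ∀ l, m l ≤ M (pr l) := by
    intro l
    rw [← hmass (pr l)]
    exact Finset.single_le_sum (f := m) (fun l _ => hm0 l)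
      (Finset.mem_filter.mpr ⟨Finset.mem_univ l, rfl⟩)
  have hMpos : ∀ l, 0 < M (pr l) := fun l => (hm l).trans_le (hle l)
  have hS : ∀ a, MeasurableSet (T ⁻¹' Q a) := fun a => hT (hQm a)
  refine ⟨?_, ?_, ?_, ?_, ?_, ?_⟩
  · intro l
    exact measurable_const.indicator (hS _)
  · intro l x
    exact indicator_nonneg (fun _ _ => div_nonneg (hm0 l) (hMpos l).le) x
  · intro l x
    by_cases hx : x ∈ T ⁻¹' Q (pr l)
    · rw [indicator_of_mem hx]
      exact (div_le_one (hMpos l)).mpr (hle l)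
    · rw [indicator_of_notMem hx]
      exact zero_le_one
  · have hnull : ∀ᵐ x ∂P, ∀ a, M a = 0 → T x ∉ Q a := by
      rw [ae_all_iff]
      intro a
      by_cases hMa0 : M a = 0
      · have h0 : P (T ⁻¹' Q a) = 0 := by
          have := hMa a
          rw [hMa0] at this
          rcases (ENNReal.toReal_eq_zero_iff _).mp this with h | h
          · exact h
          · exact absurd h (measure_ne_top _ _)
        have : ∀ᵐ x ∂P, x ∉ T ⁻¹' Q a := measure_eq_zero_iff_ae_notMem.mp h0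
        filter_upwards [this] with x hx _ using hx
      · exact ae_of_all _ (fun x h => absurd h hMa0)
    filter_upwards [hae, hnull] with x h1 h2
    obtain ⟨a₀, ha₀⟩ := hQY _ h1
    have hM₀ : M a₀ ≠ 0 := fun h => h2 a₀ h ha₀
    have e : ∀ l, (T ⁻¹' Q (pr l)).indicator (fun _ => m l / M (pr l)) x
        = if pr l = a₀ then m l / M a₀ else 0 := by
      intro l
      by_cases hl : pr l = a₀
      · rw [if_pos hl, indicator_of_mem (show x ∈ T ⁻¹' Q (pr l) by rw [hl]; exact ha₀), hl]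
      · rw [if_neg hl]
        apply indicator_of_notMem
        intro h
        exact Set.disjoint_left.mp (hQd _ _ hl) h ha₀
    simp only [e]
    rw [← Finset.sum_filter, ← Finset.sum_div, hmass, div_self hM₀]
  · intro l
    rw [integral_indicator_const _ (hS _)]
    simp only [Measure.real, hMa, smul_eq_mul]
    have := (hMpos l).ne'
    field_simp
  · refine ae_of_all _ fun x l hl => ?_
    by_cases hx : x ∈ T ⁻¹' Q (pr l)
    · exact hy l _ hx
    · exact absurd (indicator_of_notMem hx _) hl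

/-- The discretisation. -/
theorem discretize (i₀ : Fin d) {Y : Set (EE d)} (hYc : IsCompact Y) {RY : ℝ}
    (hYR : ∀ y ∈ Y, ‖y‖ ≤ RY) (hRY : 0 ≤ RY) {μ ν : Measure (EE d)} (hμ : IsProbabilityOn Y μ)
    (hν : IsProbabilityOn Y ν) {π : Measure (EE d × EE d)} (hπ : IsPairCoupling μ ν π)
    {P : Measure (EE d)} [IsProbabilityMeasure P] {Tμ Tν : EE d → EE d} (hTμm : Measurable Tμ)
    (hTνm : Measurable Tν) (hTμ : P.map Tμ = μ) (hTν : P.map Tν = ν) {τ : ℝ} (hτ : 0 < τ)
    {C : Prop}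
    (k : ∀ (ι : Type) [Fintype ι] [Nonempty ι] (y z : ι → EE d) (m : ι → ℝ)
      (θμ θν : ι → EE d → ℝ), Function.Injective y → Function.Injective z → (∀ l, 0 < m l) →
      ∑ l, m l = 1 → ApproxPlan P Tμ y m θμ (2 * τ) → ApproxPlan P Tν z m θν (2 * τ) →
      ∑ l, m l * ‖z l - y l‖ ^ 2 ≤ (quadCost π).toReal + (16 * τ * RY + 16 * τ ^ 2) → C) : C := by
  classical
  obtain ⟨n, Q, c, hQm, hQd, hQY, hYQ, hQc⟩ := exists_partition hYc hτ
  haveI hμp := hμ.1
  haveI hνp := hν.1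
  have hfst : ∀ S, MeasurableSet S → π (Prod.fst ⁻¹' S) = μ S := by
    intro S hS
    rw [← hπ.1, Measure.map_apply measurable_fst hS]
  have hsnd : ∀ S, MeasurableSet S → π (Prod.snd ⁻¹' S) = ν S := by
    intro S hS
    rw [← hπ.2, Measure.map_apply measurable_snd hS]
  haveI hπp : IsProbabilityMeasure π := ⟨by
    have := hfst univ MeasurableSet.univ
    simpa using this⟩
  have hYm := hYc.measurableSet
  have hπY1 : π (Prod.fst ⁻¹' Yᶜ) = 0 := by rw [hfst _ hYm.compl]; exact hμ.2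
  have hπY2 : π (Prod.snd ⁻¹' Yᶜ) = 0 := by rw [hsnd _ hYm.compl]; exact hν.2
  obtain ⟨S, hS⟩ : ∃ S : Fin n × Fin n → Set (EE d × EE d), S = fun p => Q p.1 ×ˢ Q p.2 := ⟨_, rfl⟩
  have hSm : ∀ p, MeasurableSet (S p) := fun p => by
    rw [hS]; exact (hQm p.1).prod (hQm p.2)
  have hSd : ∀ p p', p ≠ p' → Disjoint (S p) (S p') := by
    intro p p' hpp
    rw [hS]
    rw [Set.disjoint_left]
    rintro ⟨u, v⟩ ⟨h1, h2⟩ ⟨h3, h4⟩
    apply hpp
    have a : p.1 = p'.1 := by
      by_contra hne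
      exact Set.disjoint_left.mp (hQd _ _ hne) h1 h3
    have b : p.2 = p'.2 := by
      by_contra hne
      exact Set.disjoint_left.mp (hQd _ _ hne) h2 h4
    exact Prod.ext a b
  obtain ⟨mass, hmass⟩ : ∃ mass : Fin n × Fin n → ℝ, mass = fun p => (π (S p)).toReal := ⟨_, rfl⟩
  have hmass0 : ∀ p, 0 ≤ mass p := fun p => by rw [hmass]; exact ENNReal.toReal_nonneg
  -- marginals
  have hrow : ∀ a, ∑ b, mass (a, b) = (μ (Q a)).toReal := by
    intro a
    have h1 : π (⋃ b, S (a, b)) = μ (Q a) := by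
      apply le_antisymm
      · rw [← hfst _ (hQm a)]
        apply measure_mono
        intro p hp
        obtain ⟨b, hb⟩ := mem_iUnion.mp hp
        rw [hS] at hb
        exact hb.1
      · rw [← hfst _ (hQm a)]
        calc π (Prod.fst ⁻¹' Q a) ≤ π ((⋃ b, S (a, b)) ∪ Prod.snd ⁻¹' Yᶜ) := by
              apply measure_mono
              intro p hp
              by_cases hpY : p.2 ∈ Y
              · obtain ⟨b, hb⟩ := hYQ _ hpY
                left
                refine mem_iUnion.mpr ⟨b, ?_⟩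
                rw [hS]
                exact ⟨hp, hb⟩
              · right
                exact hpY
          _ ≤ π (⋃ b, S (a, b)) + π (Prod.snd ⁻¹' Yᶜ) := measure_union_le _ _
          _ = _ := by rw [hπY2, add_zero]
    rw [← h1, measure_iUnion (fun b b' hbb => hSd _ _ (fun h => hbb (Prod.ext_iff.mp h).2))
      (fun b => hSm _), tsum_fintype, ENNReal.toReal_sum (fun _ _ => measure_ne_top _ _), hmass]
  have hcol : ∀ b, ∑ a, mass (a, b) = (ν (Q b)).toReal := by
    intro b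
    have h1 : π (⋃ a, S (a, b)) = ν (Q b) := by
      apply le_antisymm
      · rw [← hsnd _ (hQm b)]
        apply measure_mono
        intro p hp
        obtain ⟨a, ha⟩ := mem_iUnion.mp hp
        rw [hS] at ha
        exact ha.2
      · rw [← hsnd _ (hQm b)]
        calc π (Prod.snd ⁻¹' Q b) ≤ π ((⋃ a, S (a, b)) ∪ Prod.fst ⁻¹' Yᶜ) := by
              apply measure_mono
              intro p hp
              by_cases hpY : p.1 ∈ Y
              · obtain ⟨a, ha⟩ := hYQ _ hpY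
                left
                refine mem_iUnion.mpr ⟨a, ?_⟩
                rw [hS]
                exact ⟨ha, hp⟩
              · right
                exact hpY
          _ ≤ π (⋃ a, S (a, b)) + π (Prod.fst ⁻¹' Yᶜ) := measure_union_le _ _
          _ = _ := by rw [hπY1, add_zero]
    rw [← h1, measure_iUnion (fun a a' haa => hSd _ _ (fun h => haa (Prod.ext_iff.mp h).1))
      (fun a => hSm _), tsum_fintype, ENNReal.toReal_sum (fun _ _ => measure_ne_top _ _), hmass]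
  have htotal : ∑ p, mass p = 1 := by
    have h1 : π (⋃ p, S p) = 1 := by
      apply le_antisymm prob_le_one
      calc (1 : ℝ≥0∞) = π univ := measure_univ.symm
        _ ≤ π ((⋃ p, S p) ∪ (Prod.fst ⁻¹' Yᶜ ∪ Prod.snd ⁻¹' Yᶜ)) := by
            apply measure_mono
            intro p _
            by_cases h1 : p.1 ∈ Y
            · by_cases h2 : p.2 ∈ Y
              · obtain ⟨a, ha⟩ := hYQ _ h1
                obtain ⟨b, hb⟩ := hYQ _ h2
                left
                refine mem_iUnion.mpr ⟨(a, b), ?_⟩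
                rw [hS]
                exact ⟨ha, hb⟩
              · right; right; exact h2
            · right; left; exact h1
        _ ≤ π (⋃ p, S p) + (π (Prod.fst ⁻¹' Yᶜ) + π (Prod.snd ⁻¹' Yᶜ)) :=
            (measure_union_le _ _).trans (add_le_add le_rfl (measure_union_le _ _))
        _ = _ := by rw [hπY1, hπY2]; simp
    have h2 := congrArg ENNReal.toReal h1
    rw [measure_iUnion (fun p p' hpp => hSd _ _ hpp) hSm, tsum_fintype,
      ENNReal.toReal_sum (fun _ _ => measure_ne_top _ _)] at h2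
    rw [hmass]
    simpa using h2
  -- the index set
  obtain ⟨s, hs⟩ : ∃ s : Finset (Fin n × Fin n), s = Finset.univ.filter (fun p => 0 < mass p) :=
    ⟨_, rfl⟩
  have hsmem : ∀ p, p ∈ s ↔ 0 < mass p := fun p => by simp [hs]
  have hszero : ∀ p, p ∉ s → mass p = 0 := by
    intro p hp
    rw [hsmem] at hp
    exact le_antisymm (not_lt.mp hp) (hmass0 p)
  haveI hne : Nonempty s := by
    by_contra hcon
    have : ∀ p, mass p = 0 := fun p => hszero p (fun hp => hcon ⟨⟨p, hp⟩⟩)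
    simp [this] at htotal
  -- sums over the index set
  have hsumext : ∀ f : Fin n × Fin n → ℝ, (∀ p, p ∉ s → f p = 0) →
      ∑ l : s, f l.1 = ∑ p, f p := by
    intro f hf
    rw [Finset.sum_coe_sort s f]
    exact Finset.sum_subset (Finset.subset_univ s) (fun p _ hp => hf p hp)
  obtain ⟨m, hm⟩ : ∃ m : s → ℝ, m = fun l => mass l.1 := ⟨_, rfl⟩
  have hmpos : ∀ l, 0 < m l := fun l => by rw [hm]; exact (hsmem _).mp l.2
  have hmsum : ∑ l, m l = 1 := by
    rw [hm, hsumext mass hszero, htotal]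
  obtain ⟨y, hyi, hyc⟩ := exists_injective_perturb i₀ (fun l : s => c l.1.1) hτ
  obtain ⟨z, hzi, hzc⟩ := exists_injective_perturb i₀ (fun l : s => c l.1.2) hτ
  have hy2 : ∀ (l : s), ∀ u ∈ Q l.1.1, ‖y l - u‖ ≤ 2 * τ := by
    intro l u hu
    have h1 := hyc l
    have h2 := hQc _ u hu
    calc ‖y l - u‖ = ‖(y l - c l.1.1) - (u - c l.1.1)‖ := by congr 1; abel
      _ ≤ ‖y l - c l.1.1‖ + ‖u - c l.1.1‖ := norm_sub_le _ _
      _ ≤ _ := by linarith
  have hz2 : ∀ (l : s), ∀ u ∈ Q l.1.2, ‖z l - u‖ ≤ 2 * τ := by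
    intro l u hu
    have h1 := hzc l
    have h2 := hQc _ u hu
    calc ‖z l - u‖ = ‖(z l - c l.1.2) - (u - c l.1.2)‖ := by congr 1; abel
      _ ≤ ‖z l - c l.1.2‖ + ‖u - c l.1.2‖ := norm_sub_le _ _
      _ ≤ _ := by linarith
  -- the plans
  have hPμ : ∀ a, (P (Tμ ⁻¹' Q a)).toReal = (μ (Q a)).toReal := by
    intro a
    rw [← hTμ, Measure.map_apply hTμm (hQm a)]
  have hPν : ∀ b, (P (Tν ⁻¹' Q b)).toReal = (ν (Q b)).toReal := by
    intro b
    rw [← hTν, Measure.map_apply hTνm (hQm b)]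
  have haeμ : ∀ᵐ x ∂P, Tμ x ∈ Y := by
    have : P (Tμ ⁻¹' Yᶜ) = 0 := by
      rw [← Measure.map_apply hTμm hYm.compl, hTμ]; exact hμ.2
    exact this
  have haeν : ∀ᵐ x ∂P, Tν x ∈ Y := by
    have : P (Tν ⁻¹' Yᶜ) = 0 := by
      rw [← Measure.map_apply hTνm hYm.compl, hTν]; exact hν.2
    exact this
  have hmass1 : ∀ a, ∑ l ∈ Finset.univ.filter (fun l : s => l.1.1 = a), m l
      = (P (Tμ ⁻¹' Q a)).toReal := by
    intro a
    rw [hPμ, ← hrow, Finset.sum_filter, hm]
    have := hsumext (fun p => if p.1 = a then mass p else 0) (fun p hp => by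
      simp [hszero p hp])
    rw [this, Fintype.sum_prod_type]
    rw [Finset.sum_eq_single a]
    · simp
    · intro a' _ ha'
      simp [ha']
    · simp
  have hmass2 : ∀ b, ∑ l ∈ Finset.univ.filter (fun l : s => l.1.2 = b), m l
      = (P (Tν ⁻¹' Q b)).toReal := by
    intro b
    rw [hPν, ← hcol, Finset.sum_filter, hm]
    have := hsumext (fun p => if p.2 = b then mass p else 0) (fun p hp => by
      simp [hszero p hp])
    rw [this, Fintype.sum_prod_type_right]
    rw [Finset.sum_eq_single b]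
    · simp
    · intro b' _ hb'
      simp [hb']
    · simp
  have hplan1 := plan_of_partition hTμm hQm hQd hYQ haeμ (pr := fun l : s => l.1.1) hmpos hmass1 hy2
  have hplan2 := plan_of_partition hTνm hQm hQd hYQ haeν (pr := fun l : s => l.1.2) hmpos hmass2 hz2
  refine k s y z m _ _ hyi hzi hmpos hmsum hplan1 hplan2 ?_
  -- the cost
  obtain ⟨c₀, hc₀⟩ : ∃ c₀, c₀ = 16 * τ * RY + 16 * τ ^ 2 := ⟨_, rfl⟩
  have hc₀0 : 0 ≤ c₀ := by rw [hc₀]; positivity
  obtain ⟨g, hg⟩ : ∃ g : EE d × EE d → ℝ≥0∞, g = fun p => ‖p.1 - p.2‖ₑ ^ 2 + ENNReal.ofReal c₀ :=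
    ⟨_, rfl⟩
  have hptw : ∀ (l : s), ∀ p ∈ S l.1, ENNReal.ofReal (‖z l - y l‖ ^ 2) ≤ g p := by
    intro l p hp
    rw [hS] at hp
    have h1 := hy2 l p.1 hp.1
    have h2 := hz2 l p.2 hp.2
    have hp1 : ‖p.1‖ ≤ RY := hYR _ (hQY _ hp.1)
    have hp2 : ‖p.2‖ ≤ RY := hYR _ (hQY _ hp.2)
    have h3 : ‖p.1 - p.2‖ ≤ 2 * RY := (norm_sub_le _ _).trans (by linarith)
    have h4 : ‖z l - y l‖ ≤ ‖p.1 - p.2‖ + 4 * τ := by
      calc ‖z l - y l‖ = ‖(z l - p.2) - (y l - p.1) - (p.1 - p.2)‖ := by congr 1; abel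
        _ ≤ ‖(z l - p.2) - (y l - p.1)‖ + ‖p.1 - p.2‖ := norm_sub_le _ _
        _ ≤ ‖z l - p.2‖ + ‖y l - p.1‖ + ‖p.1 - p.2‖ :=
            add_le_add_left (norm_sub_le _ _) _
        _ ≤ _ := by linarith
    have h5 : ‖z l - y l‖ ^ 2 ≤ ‖p.1 - p.2‖ ^ 2 + c₀ := by
      have h6 : ‖z l - y l‖ ^ 2 ≤ (‖p.1 - p.2‖ + 4 * τ) ^ 2 :=
        pow_le_pow_left₀ (norm_nonneg _) h4 2
      have h7 : 8 * τ * ‖p.1 - p.2‖ ≤ 8 * τ * (2 * RY) :=
        mul_le_mul_of_nonneg_left h3 (by positivity)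
      rw [hc₀]
      nlinarith
    rw [hg]
    simp only
    rw [← ofReal_norm_eq_enorm, ← ENNReal.ofReal_pow (norm_nonneg _),
      ← ENNReal.ofReal_add (by positivity) hc₀0]
    exact ENNReal.ofReal_le_ofReal h5
  have hgm : Measurable g := by
    rw [hg]
    exact ((measurable_fst.sub measurable_snd).enorm.pow_const 2).add_const _
  have hcell : ∀ l : s, ENNReal.ofReal (m l * ‖z l - y l‖ ^ 2) ≤ ∫⁻ p in S l.1, g p ∂π := by
    intro l
    have h1 : ∫⁻ _p in S l.1, ENNReal.ofReal (‖z l - y l‖ ^ 2) ∂π ≤ ∫⁻ p in S l.1, g p ∂π :=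
      setLIntegral_mono hgm (hptw l)
    refine le_trans (le_of_eq ?_) h1
    rw [setLIntegral_const, hm]
    simp only
    rw [ENNReal.ofReal_mul (hmass0 _), hmass]
    simp only
    rw [ENNReal.ofReal_toReal (measure_ne_top _ _), mul_comm]
  have hsum1 : ∑ l : s, ∫⁻ p in S l.1, g p ∂π ≤ ∫⁻ p, g p ∂π := by
    have h1 : ∑ l : s, ∫⁻ p in S l.1, g p ∂π = ∫⁻ p in ⋃ l : s, S l.1, g p ∂π := by
      rw [lintegral_iUnion (fun l => hSm _)
        (fun l l' hll => hSd _ _ (fun h => hll (Subtype.ext h))), tsum_fintype]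
    rw [h1]
    exact setLIntegral_le_lintegral _ _
  have hg2 : ∫⁻ p, g p ∂π = quadCost π + ENNReal.ofReal c₀ := by
    rw [hg, lintegral_add_right _ measurable_const]
    simp [quadCost]
  have hqfin : quadCost π ≠ ⊤ := by
    have h1 : quadCost π ≤ ∫⁻ _p, ENNReal.ofReal ((2 * RY) ^ 2) ∂π := by
      apply lintegral_mono_ae
      have h2 : ∀ᵐ p ∂π, p.1 ∈ Y := by
        rw [ae_iff]; exact hπY1
      have h3 : ∀ᵐ p ∂π, p.2 ∈ Y := by
        rw [ae_iff]; exact hπY2
      filter_upwards [h2, h3] with p a1 a2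
      rw [← ofReal_norm_eq_enorm, ← ENNReal.ofReal_pow (norm_nonneg _)]
      apply ENNReal.ofReal_le_ofReal
      apply pow_le_pow_left₀ (norm_nonneg _)
      refine (norm_sub_le _ _).trans ?_
      have := hYR _ a1
      have := hYR _ a2
      linarith
    refine (h1.trans_lt ?_).ne
    simp
  have hfinal : ENNReal.ofReal (∑ l, m l * ‖z l - y l‖ ^ 2)
      ≤ quadCost π + ENNReal.ofReal c₀ := by
    rw [ENNReal.ofReal_sum_of_nonneg (fun l _ => mul_nonneg (hmpos l).le (by positivity)), ← hg2]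
    exact (Finset.sum_le_sum (fun l _ => hcell l)).trans hsum1
  have := ENNReal.toReal_mono (by simp [hqfin]) hfinal
  rw [ENNReal.toReal_ofReal (Finset.sum_nonneg fun l _ => mul_nonneg (hmpos l).le (by positivity)),
    ENNReal.toReal_add hqfin ENNReal.ofReal_ne_top, ENNReal.toReal_ofReal hc₀0] at this
  rw [← hc₀]
  exact this

end Crest.Agent.OT
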