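import Crest.Agent.Lib.OTTest

/-!
# The coordinate inequality and the stability estimate.
-/

set_option autoImplicit false

open MeasureTheory Set Filter
open scoped ENNReal NNReal RealInnerProductSpace Topology
open Crest.AnalysisR.OT

namespace Crest.Agent.OT

variable {d : ℕ} {K Y : Set (EE d)} {R r RY δ κ : ℝ} {g f₁ f₂ : EE d → ℝ} {T₁ T₂ : EE d → EE d}

/-- The pointwise form of the coordinate inequality. -/
lemma coord_ptw {v w X E₁ E₂ B I : ℝ} (hB : 0 ≤ B) (hv : |v| ≤ 2 * B) (hX0 : 0 ≤ X) (hX1 : X ≤ 1)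
    (hw : |w - v| ≤ E₁ + E₂) (hI0 : 0 ≤ I) (hI : 1 - X ≤ I) :
    v ^ 2 ≤ X * w * v + (2 * B * (E₁ + E₂) + 4 * B ^ 2 * I) := by
  have h1 : v ^ 2 = X * w * v + X * (v - w) * v + (1 - X) * v ^ 2 := by ring
  have hE : 0 ≤ E₁ + E₂ := (abs_nonneg _).trans hw
  have h2 : X * (v - w) * v ≤ 2 * B * (E₁ + E₂) := by
    have h3 : |X * (v - w) * v| ≤ 1 * (E₁ + E₂) * (2 * B) := by
      rw [abs_mul, abs_mul, abs_of_nonneg hX0, abs_sub_comm]
      exact mul_le_mul (mul_le_mul hX1 hw (abs_nonneg _) zero_le_one) hv (abs_nonneg _)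
        (by positivity)
    have := (abs_le.mp h3).2
    linarith
  have h4 : (1 - X) * v ^ 2 ≤ 4 * B ^ 2 * I := by
    have h5 : v ^ 2 ≤ (2 * B) ^ 2 := by
      rw [← sq_abs v]
      exact pow_le_pow_left₀ (abs_nonneg _) hv 2
    have h6 : (1 - X) * v ^ 2 ≤ I * (2 * B) ^ 2 :=
      mul_le_mul hI h5 (sq_nonneg _) hI0
    nlinarith
  linarith

/-- The coordinate inequality. -/
theorem TestHyp.coord_ineq (H : TestHyp K R r RY δ κ g f₁ f₂) (hT₁ : Measurable T₁)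
    (hT₂ : Measurable T₂) (hYR : ∀ y ∈ Y, ‖y‖ ≤ RY)
    (h₁ : ∀ᵐ x ∂(uniformProbOn K), T₁ x ∈ Y ∧ ∀ x', f₁ x + ⟪x' - x, T₁ x⟫ ≤ f₁ x')
    (h₂ : ∀ᵐ x ∂(uniformProbOn K), T₂ x ∈ Y ∧ ∀ x', f₂ x + ⟪x' - x, T₂ x⟫ ≤ f₂ x') (i : Fin d) :
    ∫ x, (⟪T₁ x, ee i⟫ - ⟪T₂ x, ee i⟫) ^ 2 ∂(uniformProbOn K)
      ≤ (∫ x, tV g κ f₁ f₂ (ee i) δ x * ⟪T₁ x, ee i⟫ ∂(uniformProbOn K)
          - ∫ x, tV g κ f₁ f₂ (ee i) δ x * ⟪T₂ x, ee i⟫ ∂(uniformProbOn K))
        + 22 * RY ^ 2 * d * δ / r := by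
  have hB := H.body
  have hδ := H.δpos
  have hr := H.rpos
  have hRY := H.RYnn
  haveI := hB.isProb
  have hκ : 0 < κ := by rw [H.κeq]; positivity
  have hδr : δ ≤ r := by have := H.δle; linarith
  obtain ⟨Z, hZ⟩ : ∃ Z : Set (EE d), Z = K \ {x | g x ≤ 1 - 3 * κ} := ⟨_, rfl⟩
  have hZm : MeasurableSet Z := by
    rw [hZ]
    exact hB.meas.diff (isClosed_le H.g_cont continuous_const).measurableSet
  have hZK : Z ⊆ K := by rw [hZ]; exact sdiff_subset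
  have hvolZ : vo Z ≤ vo K * d * (3 * κ) := by rw [hZ]; exact H.vol_Z
  have hmem := ae_uniform_mem hB
  -- abbreviations for the functions
  obtain ⟨a₁, ha₁⟩ : ∃ a₁ : EE d → ℝ, a₁ = fun x => ⟪T₁ x, ee i⟫ := ⟨_, rfl⟩
  obtain ⟨a₂, ha₂⟩ : ∃ a₂ : EE d → ℝ, a₂ = fun x => ⟪T₂ x, ee i⟫ := ⟨_, rfl⟩
  have ha₁m : Measurable a₁ := by rw [ha₁]; fun_prop
  have ha₂m : Measurable a₂ := by rw [ha₂]; fun_prop
  have ha₁b : ∀ᵐ x ∂(uniformProbOn K), |a₁ x| ≤ RY := by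
    filter_upwards [h₁] with x hx
    rw [ha₁]
    refine (abs_real_inner_le_norm _ _).trans ?_
    rw [norm_ee, mul_one]
    exact hYR _ hx.1
  have ha₂b : ∀ᵐ x ∂(uniformProbOn K), |a₂ x| ≤ RY := by
    filter_upwards [h₂] with x hx
    rw [ha₂]
    refine (abs_real_inner_le_norm _ _).trans ?_
    rw [norm_ee, mul_one]
    exact hYR _ hx.1
  obtain ⟨V, hV⟩ : ∃ V : EE d → ℝ, V = tV g κ f₁ f₂ (ee i) δ := ⟨_, rfl⟩
  have hVc : Continuous V := by rw [hV]; exact H.tV_cont _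
  have hVb : ∀ x, |V x| ≤ 2 * RY := by
    intro x
    rw [hV]
    have := (H.shear (ε := 1 / (2 * (4 * RY / δ + 1))) i (by positivity) (by
      rw [div_mul_eq_mul_div, div_le_iff₀ (by positivity)]
      have : 0 ≤ 4 * RY / δ := by positivity
      linarith)).bound x
    exact this
  have iV₁ : Integrable (fun x => V x * a₁ x) (uniformProbOn K) := by
    refine Integrable.of_bound (hVc.measurable.mul ha₁m).aestronglyMeasurable (2 * RY * RY) ?_
    filter_upwards [ha₁b] with x hx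
    rw [Real.norm_eq_abs, abs_mul]
    exact mul_le_mul (hVb x) hx (abs_nonneg _) (by positivity)
  have iV₂ : Integrable (fun x => V x * a₂ x) (uniformProbOn K) := by
    refine Integrable.of_bound (hVc.measurable.mul ha₂m).aestronglyMeasurable (2 * RY * RY) ?_
    filter_upwards [ha₂b] with x hx
    rw [Real.norm_eq_abs, abs_mul]
    exact mul_le_mul (hVb x) hx (abs_nonneg _) (by positivity)
  have iL : Integrable (fun x => (a₁ x - a₂ x) ^ 2) (uniformProbOn K) := by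
    refine Integrable.of_bound ((ha₁m.sub ha₂m).pow_const 2).aestronglyMeasurable ((2 * RY) ^ 2) ?_
    filter_upwards [ha₁b, ha₂b] with x h3 h4
    rw [Real.norm_eq_abs, abs_of_nonneg (sq_nonneg _)]
    have h5 : |a₁ x - a₂ x| ≤ 2 * RY := by
      rw [abs_le] at *
      constructor <;> linarith [h3.1, h3.2, h4.1, h4.2]
    rw [← sq_abs]
    exact pow_le_pow_left₀ (abs_nonneg _) h5 2
  have iE₁ : Integrable (eF f₁ (ee i) δ) (uniformProbOn K) :=
    int_comp_phi (X := id) hB (eF_cont H.cont₁ _ _) measurable_id hmem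
  have iE₂ : Integrable (eF f₂ (ee i) δ) (uniformProbOn K) :=
    int_comp_phi (X := id) hB (eF_cont H.cont₂ _ _) measurable_id hmem
  have iI : Integrable (Z.indicator (fun _ => (1:ℝ))) (uniformProbOn K) := by
    refine Integrable.of_bound (measurable_const.indicator hZm).aestronglyMeasurable 1 ?_
    refine ae_of_all _ fun x => ?_
    rw [Real.norm_eq_abs]
    by_cases h : x ∈ Z
    · simp [h]
    · simp [h]
  -- the pointwise inequality
  have hptw : ∀ᵐ x ∂(uniformProbOn K), (a₁ x - a₂ x) ^ 2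
      ≤ (V x * a₁ x - V x * a₂ x)
        + (2 * RY * (eF f₁ (ee i) δ x + eF f₂ (ee i) δ x)
          + 4 * RY ^ 2 * Z.indicator (fun _ => (1:ℝ)) x) := by
    filter_upwards [h₁, h₂, hmem, ha₁b, ha₂b] with x h3 h4 hxK h5 h6
    obtain ⟨c0, c1⟩ := cutX_bounds H.g_cont κ (ee i) hδ x
    have e1 := pF_sub_err H.cont₁ H.conv₁ (norm_ee i) hδ h3.2
    have e2 := pF_sub_err H.cont₂ H.conv₂ (norm_ee i) hδ h4.2
    have hvb : |a₁ x - a₂ x| ≤ 2 * RY := by
      rw [abs_le] at *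
      constructor <;> linarith [h5.1, h5.2, h6.1, h6.2]
    have hwb : |tW f₁ f₂ (ee i) δ x - (a₁ x - a₂ x)|
        ≤ eF f₁ (ee i) δ x + eF f₂ (ee i) δ x := by
      have e3 : tW f₁ f₂ (ee i) δ x - (a₁ x - a₂ x)
          = (pF f₁ (ee i) δ x - a₁ x) - (pF f₂ (ee i) δ x - a₂ x) := by
        rw [tW]; ring
      rw [e3]
      refine (abs_sub _ _).trans ?_
      rw [ha₁, ha₂]
      exact add_le_add e1 e2
    have hI0 : 0 ≤ Z.indicator (fun _ => (1:ℝ)) x := indicator_nonneg (fun _ _ => zero_le_one) x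
    have hI : 1 - cutX g κ (ee i) δ x ≤ Z.indicator (fun _ => (1:ℝ)) x := by
      by_cases hxZ : x ∈ Z
      · rw [indicator_of_mem hxZ]
        linarith
      · have hxL : g x ≤ 1 - 3 * κ := by
          by_contra hcon
          apply hxZ
          rw [hZ]
          exact ⟨hxK, hcon⟩
        rw [(cutX_one H.gauge hr (norm_ee i) hδ H.κeq hxL).1, indicator_of_notMem hxZ]
        simp
    have := coord_ptw hRY hvb c0 c1 hwb hI0 hI
    have e4 : V x * a₁ x - V x * a₂ x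
        = cutX g κ (ee i) δ x * tW f₁ f₂ (ee i) δ x * (a₁ x - a₂ x) := by
      rw [hV, tV]; ring
    rw [e4]
    exact this
  have iE : Integrable (fun x => eF f₁ (ee i) δ x + eF f₂ (ee i) δ x) (uniformProbOn K) :=
    iE₁.add iE₂
  have iA : Integrable (fun x => V x * a₁ x - V x * a₂ x) (uniformProbOn K) := iV₁.sub iV₂
  have iB : Integrable (fun x => 2 * RY * (eF f₁ (ee i) δ x + eF f₂ (ee i) δ x)) (uniformProbOn K) :=
    iE.const_mul _
  have iC : Integrable (fun x => 4 * RY ^ 2 * Z.indicator (fun _ => (1:ℝ)) x) (uniformProbOn K) :=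
    iI.const_mul _
  have iBC : Integrable (fun x => 2 * RY * (eF f₁ (ee i) δ x + eF f₂ (ee i) δ x)
      + 4 * RY ^ 2 * Z.indicator (fun _ => (1:ℝ)) x) (uniformProbOn K) := iB.add iC
  have iAll : Integrable (fun x => (V x * a₁ x - V x * a₂ x)
        + (2 * RY * (eF f₁ (ee i) δ x + eF f₂ (ee i) δ x)
          + 4 * RY ^ 2 * Z.indicator (fun _ => (1:ℝ)) x)) (uniformProbOn K) := iA.add iBC
  have hint := integral_mono_ae iL iAll hptw
  have e5 : ∫ x, ((V x * a₁ x - V x * a₂ x)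
        + (2 * RY * (eF f₁ (ee i) δ x + eF f₂ (ee i) δ x)
          + 4 * RY ^ 2 * Z.indicator (fun _ => (1:ℝ)) x)) ∂(uniformProbOn K)
      = ((∫ x, V x * a₁ x ∂(uniformProbOn K)) - ∫ x, V x * a₂ x ∂(uniformProbOn K))
        + (2 * RY * ((∫ x, eF f₁ (ee i) δ x ∂(uniformProbOn K))
            + ∫ x, eF f₂ (ee i) δ x ∂(uniformProbOn K))
          + 4 * RY ^ 2 * ∫ x, Z.indicator (fun _ => (1:ℝ)) x ∂(uniformProbOn K)) := by
    rw [integral_add iA iBC, integral_sub iV₁ iV₂, integral_add iB iC, integral_const_mul,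
      integral_const_mul, integral_add iE₁ iE₂]
  rw [e5] at hint
  have hVK := hB.vo_pos
  -- the three error estimates
  have hd1 : ∀ {f : EE d → ℝ}, (∀ x x', f x ≤ f x' + RY * ‖x - x'‖) →
      ∫ x, eF f (ee i) δ x ∂(uniformProbOn K) ≤ 4 * RY * d * δ / r := by
    intro f hf
    have h3 := int_eF_le hB H.gauge hr hRY hf hδ hδr i
    rw [integral_uniform, smul_eq_mul, inv_mul_le_iff₀ hVK]
    refine h3.trans (le_of_eq ?_)
    ring
  have hd2 : ∫ x, Z.indicator (fun _ => (1:ℝ)) x ∂(uniformProbOn K) ≤ d * (3 * κ) := by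
    rw [integral_uniform, smul_eq_mul, inv_mul_le_iff₀ hVK, setIntegral_indicator hZm,
      inter_eq_right.mpr hZK, setIntegral_const, smul_eq_mul, mul_one]
    refine hvolZ.trans (le_of_eq ?_)
    ring
  have h7 := hd1 H.lip₁
  have h8 := hd1 H.lip₂
  have h9 : 2 * RY * ((∫ x, eF f₁ (ee i) δ x ∂(uniformProbOn K))
            + ∫ x, eF f₂ (ee i) δ x ∂(uniformProbOn K))
      ≤ 2 * RY * (4 * RY * d * δ / r + 4 * RY * d * δ / r) :=
    mul_le_mul_of_nonneg_left (add_le_add h7 h8) (by positivity)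
  have h10 : 4 * RY ^ 2 * ∫ x, Z.indicator (fun _ => (1:ℝ)) x ∂(uniformProbOn K)
      ≤ 4 * RY ^ 2 * (d * (3 * κ)) := mul_le_mul_of_nonneg_left hd2 (by positivity)
  have e6 : 2 * RY * (4 * RY * d * δ / r + 4 * RY * d * δ / r) + 4 * RY ^ 2 * (d * (3 * κ))
      = 22 * RY ^ 2 * d * δ / r := by
    rw [H.κeq]
    field_simp
    ring
  rw [ha₁, ha₂] at hint
  rw [hV] at hint
  linarith

/-- The stability estimate in a fixed coordinate direction. -/
theorem coord_stability {Tμ Tν : EE d → EE d} {μ ν : Measure (EE d)}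
    {π : Measure (EE d × EE d)} (hB : BodyHyp K R) (hne : K.Nonempty) (G : GaugeData K r g)
    (hr : 0 < r) (hYc : IsCompact Y) (hYn : Y.Nonempty) (hYR : ∀ y ∈ Y, ‖y‖ ≤ RY)
    (hμ : IsProbabilityOn Y μ) (hν : IsProbabilityOn Y ν) (hπ : IsPairCoupling μ ν π)
    (hTμ : IsOptimalMap (uniformProbOn K) μ Tμ) (hTν : IsOptimalMap (uniformProbOn K) ν Tν)
    (hδ : 0 < δ) (hδr : δ ≤ r / 2) (i : Fin d) :
    ∫ x, (⟪Tμ x, ee i⟫ - ⟪Tν x, ee i⟫) ^ 2 ∂(uniformProbOn K)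
      ≤ √(40002 * R ^ 2 * (28 * RY ^ 2 * d / (r * δ))) * √((quadCost π).toReal)
        + 22 * RY ^ 2 * d * δ / r := by
  obtain ⟨y₀, hy₀⟩ := hYn
  have hRY : 0 ≤ RY := (norm_nonneg _).trans (hYR y₀ hy₀)
  obtain ⟨φμ, hμ1, hμ2, hμ3⟩ := optimal_potential hB hYc ⟨y₀, hy₀⟩ hYR hμ hTμ
  obtain ⟨φν, hν1, hν2, hν3⟩ := optimal_potential hB hYc ⟨y₀, hy₀⟩ hYR hν hTν
  obtain ⟨κ, hκ⟩ : ∃ κ : ℝ, κ = δ / (2 * r) := ⟨_, rfl⟩
  have H : TestHyp K R r RY δ κ g φμ φν :=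
    ⟨hB, G, hr, hRY, hδ, hδr, hκ, hμ1, hν1, hμ2, hν2⟩
  have h1 := H.coord_ineq hTμ.1 hTν.1 hYR hμ3 hν3 i
  have hΛ : 0 ≤ 4 * RY / δ := by positivity
  have h2 := star_bound hB hne hYc ⟨y₀, hy₀⟩ hYR hμ hν hπ hTμ hTν hΛ
    (fun ε hε hε2 => H.shear i hε hε2)
  have h3 := H.A_bound i
  have hVK := hB.vo_pos
  have h4 : 40002 * R ^ 2 * (∫ x in K, tV' g κ φμ φν (ee i) δ x ^ 2) / vo K
      ≤ 40002 * R ^ 2 * (28 * RY ^ 2 * d / (r * δ)) := by
    have e : 40002 * R ^ 2 * (28 * RY ^ 2 * d / (r * δ))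
        = 40002 * R ^ 2 * (28 * RY ^ 2 * vo K * d / (r * δ)) / vo K := by
      field_simp
    rw [e]
    apply div_le_div_of_nonneg_right _ hVK.le
    exact mul_le_mul_of_nonneg_left h3 (by positivity)
  have h5 := mul_le_mul_of_nonneg_right (Real.sqrt_le_sqrt h4)
    (Real.sqrt_nonneg ((quadCost π).toReal))
  linarith

/-- The elementary optimisation of the parameter. -/
lemma balance {D W A b δ₀ B : ℝ} (hW : 0 ≤ W) (hA : 0 ≤ A) (hb : 0 ≤ b) (hδ₀ : 0 < δ₀) (hB : 0 ≤ B)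
    (hD : D ≤ B) (h : ∀ δ, 0 < δ → δ ≤ δ₀ → D ≤ A * √(1 / δ) * √W + b * δ) :
    D ≤ (A + b + B / δ₀) * W ^ (1 / 3 : ℝ) := by
  obtain ⟨t, ht⟩ : ∃ t : ℝ, t = W ^ (1 / 3 : ℝ) := ⟨_, rfl⟩
  have ht0 : 0 ≤ t := by rw [ht]; positivity
  have hWt : W = t ^ 3 := by
    rw [ht, ← Real.rpow_natCast, ← Real.rpow_mul hW]
    norm_num
  rw [← ht]
  have hC : 0 ≤ B / δ₀ := by positivity
  rcases ht0.eq_or_lt with h0 | hpos
  · -- `W = 0`
    have hW0 : W = 0 := by rw [hWt, ← h0]; norm_num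
    rw [← h0, mul_zero]
    by_contra hcon
    push Not at hcon
    have h1 : 0 < min δ₀ (D / (2 * (b + 1))) := lt_min hδ₀ (by positivity)
    have h2 := h _ h1 (min_le_left _ _)
    rw [hW0, Real.sqrt_zero, mul_zero, zero_add] at h2
    have h3 : min δ₀ (D / (2 * (b + 1))) ≤ D / (2 * (b + 1)) := min_le_right _ _
    have h4 : b * min δ₀ (D / (2 * (b + 1))) ≤ b * (D / (2 * (b + 1))) :=
      mul_le_mul_of_nonneg_left h3 hb
    have h5 : b * (D / (2 * (b + 1))) < D := by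
      rw [mul_div_assoc', div_lt_iff₀ (by positivity)]
      nlinarith
    linarith
  · by_cases hle : t ≤ δ₀
    · have h1 := h t hpos hle
      have e1 : √(1 / t) * √W = t := by
        rw [← Real.sqrt_mul (by positivity), hWt]
        have : 1 / t * t ^ 3 = t ^ 2 := by field_simp
        rw [this, Real.sqrt_sq ht0]
      rw [mul_assoc, e1] at h1
      have : (B / δ₀) * t ≥ 0 := by positivity
      nlinarith
    · push Not at hle
      have h1 : B ≤ (B / δ₀) * t := by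
        rw [div_mul_eq_mul_div, le_div_iff₀ hδ₀]
        exact mul_le_mul_of_nonneg_left hle.le hB
      have h2 : 0 ≤ A * t := by positivity
      have h3 : 0 ≤ b * t := by positivity
      nlinarith

/-- The squared distance of two optimal maps, in real form. -/
theorem total_stability {Tμ Tν : EE d → EE d} {μ ν : Measure (EE d)}
    {π : Measure (EE d × EE d)} (hB : BodyHyp K R) (hne : K.Nonempty) (G : GaugeData K r g)
    (hr : 0 < r) (hYc : IsCompact Y) (hYn : Y.Nonempty) (hYR : ∀ y ∈ Y, ‖y‖ ≤ RY)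
    (hμ : IsProbabilityOn Y μ) (hν : IsProbabilityOn Y ν) (hπ : IsPairCoupling μ ν π)
    (hTμ : IsOptimalMap (uniformProbOn K) μ Tμ) (hTν : IsOptimalMap (uniformProbOn K) ν Tν) :
    ∫ x, ‖Tμ x - Tν x‖ ^ 2 ∂(uniformProbOn K)
      ≤ (d * √(40002 * R ^ 2 * (28 * RY ^ 2 * d / r)) + d * (22 * RY ^ 2 * d / r)
          + 4 * RY ^ 2 / (r / 2)) * (quadCost π).toReal ^ (1 / 3 : ℝ) := by
  obtain ⟨y₀, hy₀⟩ := hYn
  have hRY : 0 ≤ RY := (norm_nonneg _).trans (hYR y₀ hy₀)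
  haveI := hB.isProb
  have hTμm := hTμ.1
  have hTνm := hTν.1
  have hae : ∀ {μ' : Measure (EE d)} {T : EE d → EE d}, IsProbabilityOn Y μ' →
      IsOptimalMap (uniformProbOn K) μ' T → ∀ᵐ x ∂(uniformProbOn K), ‖T x‖ ≤ RY := by
    intro μ' T hμ' hT
    obtain ⟨φ, -, -, h⟩ := optimal_potential hB hYc ⟨y₀, hy₀⟩ hYR hμ' hT
    exact h.mono fun x hx => hYR _ hx.1
  have hbd : ∀ᵐ x ∂(uniformProbOn K), ‖Tμ x - Tν x‖ ^ 2 ≤ 4 * RY ^ 2 := by
    filter_upwards [hae hμ hTμ, hae hν hTν] with x h1 h2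
    have h3 : ‖Tμ x - Tν x‖ ≤ 2 * RY := (norm_sub_le _ _).trans (by linarith)
    have := pow_le_pow_left₀ (norm_nonneg _) h3 2
    nlinarith
  have hint : ∀ i : Fin d, Integrable (fun x => (⟪Tμ x, ee i⟫ - ⟪Tν x, ee i⟫) ^ 2)
      (uniformProbOn K) := by
    intro i
    refine Integrable.of_bound
      (by fun_prop : Measurable fun x => (⟪Tμ x, ee i⟫ - ⟪Tν x, ee i⟫) ^ 2).aestronglyMeasurable
      (4 * RY ^ 2) ?_
    filter_upwards [hbd] with x h1
    rw [Real.norm_eq_abs, abs_of_nonneg (sq_nonneg _), ← inner_sub_left]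
    refine le_trans ?_ h1
    have h2 := abs_real_inner_le_norm (Tμ x - Tν x) (ee i)
    rw [norm_ee, mul_one] at h2
    rw [← sq_abs]
    exact pow_le_pow_left₀ (abs_nonneg _) h2 2
  have hsum : ∫ x, ‖Tμ x - Tν x‖ ^ 2 ∂(uniformProbOn K)
      = ∑ i : Fin d, ∫ x, (⟪Tμ x, ee i⟫ - ⟪Tν x, ee i⟫) ^ 2 ∂(uniformProbOn K) := by
    rw [← integral_finset_sum _ fun i _ => hint i]
    congr 1
    ext x
    rw [EuclideanSpace.real_norm_sq_eq]
    apply Finset.sum_congr rfl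
    intro i _
    rw [inner_ee, inner_ee]
    rfl
  have hDB : ∫ x, ‖Tμ x - Tν x‖ ^ 2 ∂(uniformProbOn K) ≤ 4 * RY ^ 2 := by
    have h1 : ∫ x, ‖Tμ x - Tν x‖ ^ 2 ∂(uniformProbOn K)
        ≤ ∫ _x, 4 * RY ^ 2 ∂(uniformProbOn K) := by
      apply integral_mono_of_nonneg (ae_of_all _ fun x => sq_nonneg _) (integrable_const _) hbd
    simpa using h1
  have hr2 : 0 < r / 2 := by positivity
  apply balance (D := ∫ x, ‖Tμ x - Tν x‖ ^ 2 ∂(uniformProbOn K)) (W := (quadCost π).toReal)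
    ENNReal.toReal_nonneg (by positivity) (by positivity) hr2 (by positivity) hDB
  intro δ hδ hδr
  rw [hsum]
  have hone : ∀ i : Fin d, ∫ x, (⟪Tμ x, ee i⟫ - ⟪Tν x, ee i⟫) ^ 2 ∂(uniformProbOn K)
      ≤ √(40002 * R ^ 2 * (28 * RY ^ 2 * d / r)) * √(1 / δ) * √((quadCost π).toReal)
        + (22 * RY ^ 2 * d / r) * δ := by
    intro i
    have h1 := coord_stability hB hne G hr hYc ⟨y₀, hy₀⟩ hYR hμ hν hπ hTμ hTν hδ hδr i
    have e1 : √(40002 * R ^ 2 * (28 * RY ^ 2 * d / (r * δ)))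
        = √(40002 * R ^ 2 * (28 * RY ^ 2 * d / r)) * √(1 / δ) := by
      rw [← Real.sqrt_mul (by positivity)]
      congr 1
      field_simp
    rw [e1] at h1
    refine h1.trans (le_of_eq ?_)
    ring
  calc ∑ i : Fin d, ∫ x, (⟪Tμ x, ee i⟫ - ⟪Tν x, ee i⟫) ^ 2 ∂(uniformProbOn K)
      ≤ ∑ _i : Fin d, (√(40002 * R ^ 2 * (28 * RY ^ 2 * d / r)) * √(1 / δ) * √((quadCost π).toReal)
        + (22 * RY ^ 2 * d / r) * δ) := Finset.sum_le_sum fun i _ => hone i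
    _ = _ := by
      rw [Finset.sum_const, Finset.card_univ, Fintype.card_fin, nsmul_eq_mul]
      ring

end Crest.Agent.OT
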