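import Crest.Agent.Lib.OTStar

/-!
# Geometry of a convex body: gauge function, thin boundary layers, translations.
-/

set_option autoImplicit false

open MeasureTheory Set Filter
open scoped ENNReal NNReal RealInnerProductSpace Topology Pointwise
open Crest.AnalysisR.OT

namespace Crest.Agent.OT

variable {d : ℕ}

/-- A gauge function for the body `K`. -/
structure GaugeData (K : Set (EE d)) (r : ℝ) (g : EE d → ℝ) : Prop where
  cont : Continuous g
  lip : ∀ x v, g (x + v) ≤ g x + ‖v‖ / r
  mem_iff : ∀ x, x ∈ K ↔ g x ≤ 1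
  vol : ∀ θ, 0 ≤ θ → θ ≤ 1 → vo (K \ {x | g x ≤ 1 - θ}) ≤ vo K * d * θ

theorem exists_gauge {K : Set (EE d)} (hKc : IsCompact K) (hKv : Convex ℝ K) {x₀ : EE d} {r : ℝ}
    (hr : 0 < r) (hball : Metric.closedBall x₀ r ⊆ K) : ∃ g, GaugeData K r g := by
  obtain ⟨S, hS⟩ : ∃ S : Set (EE d), S = (fun u => x₀ + u) ⁻¹' K := ⟨_, rfl⟩
  have hSmem : ∀ u, u ∈ S ↔ x₀ + u ∈ K := fun u => by rw [hS]; rfl
  have hSconv : Convex ℝ S := by
    intro a ha b hb s t hs ht hst
    rw [hSmem] at ha hb ⊢
    have h := hKv ha hb hs ht hst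
    have e : s • (x₀ + a) + t • (x₀ + b) = x₀ + (s • a + t • b) := by
      rw [smul_add, smul_add]
      have : x₀ = s • x₀ + t • x₀ := by rw [← add_smul, hst, one_smul]
      nth_rewrite 3 [this]
      abel
    rwa [e] at h
  have hSclosed : IsClosed S := by
    rw [hS]
    exact hKc.isClosed.preimage (by fun_prop)
  have hball0 : Metric.closedBall (0 : EE d) r ⊆ S := by
    intro u hu
    rw [hSmem]
    apply hball
    simp only [Metric.mem_closedBall, dist_zero_right] at hu
    simpa [Metric.mem_closedBall, dist_eq_norm] using hu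
  have hSnhds : S ∈ 𝓝 (0 : EE d) :=
    Filter.mem_of_superset (Metric.closedBall_mem_nhds _ hr) hball0
  have hSabs : Absorbent ℝ S := absorbent_nhds_zero hSnhds
  have hgS : ∀ v : EE d, gauge S v ≤ ‖v‖ / r := by
    intro v
    by_cases hv : v = 0
    · subst hv; simp [gauge_zero]
    · have hvpos : 0 < ‖v‖ := norm_pos_iff.mpr hv
      have ha : 0 < ‖v‖ / r := by positivity
      apply gauge_le_of_mem ha.le
      rw [mem_smul_set_iff_inv_smul_mem₀ ha.ne']
      apply hball0
      simp only [Metric.mem_closedBall, dist_zero_right, norm_smul, norm_inv, Real.norm_eq_abs,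
        abs_of_pos ha]
      rw [inv_mul_le_iff₀ ha]
      field_simp
      simp
  have hmem : ∀ x, x ∈ K ↔ gauge S (x - x₀) ≤ 1 := by
    intro x
    rw [gauge_le_one_iff_mem_closure hSconv hSnhds, hSclosed.closure_eq, hSmem]
    simp
  refine ⟨fun x => gauge S (x - x₀), ?_, ?_, hmem, ?_⟩
  · exact (continuous_gauge hSconv hSnhds).comp (by fun_prop)
  · intro x v
    have e : x + v - x₀ = (x - x₀) + v := by abel
    rw [e]
    exact (gauge_add_le hSconv hSabs _ _).trans (add_le_add le_rfl (hgS v))
  · intro θ h0 h1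
    obtain ⟨L, hL⟩ : ∃ L : Set (EE d), L = AffineMap.homothety x₀ (1 - θ) '' K := ⟨_, rfl⟩
    have hLc : IsCompact L := by
      rw [hL]
      exact hKc.image (AffineMap.homothety_continuous _ _)
    have hLg : ∀ x ∈ L, gauge S (x - x₀) ≤ 1 - θ := by
      intro x hx
      rw [hL] at hx
      obtain ⟨k, hk, rfl⟩ := hx
      have e : AffineMap.homothety x₀ (1 - θ) k - x₀ = (1 - θ) • (k - x₀) := by
        simp [AffineMap.homothety_apply]
      rw [e, gauge_smul_of_nonneg (by linarith)]
      have := (hmem k).mp hk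
      simp only [smul_eq_mul]
      nlinarith
    have hLK : L ⊆ K := by
      intro x hx
      rw [hmem]
      have := hLg x hx
      linarith
    have hvolL : vo L = (1 - θ) ^ d * vo K := by
      rw [hL, vo, Measure.addHaar_image_homothety, finrank_euclideanSpace_fin, ENNReal.toReal_mul,
        ENNReal.toReal_ofReal (abs_nonneg _), abs_of_nonneg (by
          have : 0 ≤ 1 - θ := by linarith
          positivity)]
      rfl
    have hsub : K \ {x | gauge S (x - x₀) ≤ 1 - θ} ⊆ K \ L := by
      intro x hx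
      refine ⟨hx.1, fun hxL => hx.2 (hLg x hxL)⟩
    have hfin : volume K ≠ ⊤ := hKc.measure_lt_top.ne
    have hdiff : vo (K \ L) = vo K - vo L := by
      rw [vo, measure_diff hLK hLc.measurableSet.nullMeasurableSet
        (hLc.measure_lt_top.ne), ENNReal.toReal_sub_of_le (measure_mono hLK) hfin]
      rfl
    have hmono : vo (K \ {x | gauge S (x - x₀) ≤ 1 - θ}) ≤ vo (K \ L) :=
      ENNReal.toReal_mono ((measure_mono diff_subset).trans_lt hKc.measure_lt_top).ne
        (measure_mono hsub)
    refine hmono.trans ?_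
    rw [hdiff, hvolL]
    have hB : 1 + (d:ℝ) * (-θ) ≤ (1 + (-θ)) ^ d :=
      one_add_mul_le_pow (by linarith) d
    have hV : 0 ≤ vo K := vo_nonneg _
    have e : (1 + (-θ)) = 1 - θ := by ring
    rw [e] at hB
    nlinarith

/-- Translating a bounded function changes its integral over `K` only by a boundary term. -/
theorem integral_translate_le {K : Set (EE d)} {r : ℝ} {g : EE d → ℝ} (G : GaugeData K r g)
    (hKc : IsCompact K) (hr : 0 < r) {h : EE d → ℝ} (hm : Measurable h) {B : ℝ}
    (hB : ∀ x, |h x| ≤ B) (v : EE d) {θ : ℝ} (hθ0 : 0 ≤ θ) (hθ1 : θ ≤ 1) (hv : ‖v‖ ≤ θ * r) :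
    (∫ x in K, h (x + v)) - ∫ x in K, h x ≤ 2 * B * (vo K * d * θ) := by
  obtain ⟨L, hL⟩ : ∃ L : Set (EE d), L = {x | g x ≤ 1 - θ} := ⟨_, rfl⟩
  have hLc : IsClosed L := by rw [hL]; exact isClosed_le G.cont continuous_const
  have hLK : L ⊆ K := by
    intro x hx
    rw [hL] at hx
    rw [G.mem_iff]
    have : g x ≤ 1 - θ := hx
    linarith
  have hLm := hLc.measurableSet
  obtain ⟨L', hL'⟩ : ∃ L' : Set (EE d), L' = (fun u => u + (-v)) ⁻¹' L := ⟨_, rfl⟩
  have hL'm : MeasurableSet L' := by
    rw [hL']; exact (by fun_prop : Measurable fun u : EE d => u + (-v)) hLm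
  have hmemL' : ∀ x, x + v ∈ L' ↔ x ∈ L := by
    intro x
    rw [hL']
    simp
  have hL'K : L' ⊆ K := by
    intro u hu
    rw [hL'] at hu
    have hu' : u + (-v) ∈ L := hu
    rw [hL] at hu'
    have h1 : g (u + (-v)) ≤ 1 - θ := hu'
    have h2 := G.lip (u + (-v)) v
    have e : u + (-v) + v = u := by abel
    rw [e] at h2
    rw [G.mem_iff]
    have h3 : ‖v‖ / r ≤ θ := by
      rw [div_le_iff₀ hr]; exact hv
    linarith
  have hvolL' : volume L' = volume L := by
    rw [hL']; exact measure_preimage_add_right _ _ _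
  have hfin : volume K < ⊤ := hKc.measure_lt_top
  have hB0 : 0 ≤ B := (abs_nonneg _).trans (hB 0)
  have hint1 : IntegrableOn (fun x => h (x + v)) K volume :=
    Measure.integrableOn_of_bounded (M := B) hfin.ne
      (hm.comp (by fun_prop)).aestronglyMeasurable (ae_of_all _ fun x => by
        rw [Real.norm_eq_abs]; exact hB _)
  have hint2 : IntegrableOn h K volume :=
    Measure.integrableOn_of_bounded (M := B) hfin.ne hm.aestronglyMeasurable
      (ae_of_all _ fun x => by rw [Real.norm_eq_abs]; exact hB _)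
  have e1 := integral_diff hLm hint1 hLK
  have e2 := integral_diff hL'm hint2 hL'K
  have etr : ∫ x in L, h (x + v) = ∫ x in L', h x := by
    rw [← integral_indicator hLm, ← integral_indicator hL'm,
      ← integral_add_right_eq_self (L'.indicator h) v]
    apply integral_congr_ae
    refine ae_of_all _ fun x => ?_
    by_cases hx : x ∈ L
    · simp only
      rw [indicator_of_mem hx, indicator_of_mem ((hmemL' x).mpr hx)]
    · simp only
      rw [indicator_of_notMem hx, indicator_of_notMem (fun h' => hx ((hmemL' x).mp h'))]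
  have hb1 : ∫ x in K \ L, h (x + v) ≤ B * vo (K \ L) := by
    have := norm_setIntegral_le_of_norm_le_const (μ := volume) (s := K \ L)
      (f := fun x => h (x + v)) (C := B) ((measure_mono diff_subset).trans_lt hfin)
      (fun x _ => by rw [Real.norm_eq_abs]; exact hB _)
    exact (le_abs_self _).trans this
  have hb2 : -(B * vo (K \ L')) ≤ ∫ x in K \ L', h x := by
    have := norm_setIntegral_le_of_norm_le_const (μ := volume) (s := K \ L')
      (f := h) (C := B) ((measure_mono diff_subset).trans_lt hfin)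
      (fun x _ => by rw [Real.norm_eq_abs]; exact hB _)
    have h2 := (abs_le.mp this).1
    exact h2
  have hvo : vo (K \ L') = vo (K \ L) := by
    have hLf : volume L ≠ ⊤ := ((measure_mono hLK).trans_lt hfin).ne
    have hL'f : volume L' ≠ ⊤ := ((measure_mono hL'K).trans_lt hfin).ne
    simp only [vo]
    rw [measure_diff hL'K hL'm.nullMeasurableSet hL'f, measure_diff hLK hLm.nullMeasurableSet hLf,
      hvolL']
  have hvol := G.vol θ hθ0 hθ1
  rw [← hL] at hvol
  have e3 : (∫ x in K, h (x + v)) - ∫ x in K, h x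
      = (∫ x in K \ L, h (x + v)) - ∫ x in K \ L', h x := by
    rw [e1, e2, etr]
    ring
  rw [e3]
  have h4 : B * vo (K \ L) ≤ B * (vo K * d * θ) := mul_le_mul_of_nonneg_left hvol hB0
  rw [hvo] at hb2
  linarith

end Crest.Agent.OT
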