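import Mathlib

/-!
# Semi-discrete optimal transport: Laguerre cells, existence of weights, duality.
-/

set_option autoImplicit false

open MeasureTheory Set
open scoped ENNReal NNReal RealInnerProductSpace

namespace Crest.Agent.OT

/-- Euclidean space of dimension `d`. -/
abbrev EE (d : ℕ) := EuclideanSpace ℝ (Fin d)

variable {d : ℕ}
variable {ι : Type*} [Fintype ι]

/-- The Laguerre potential `max_l (⟪x, y l⟫ - w l)`. -/
noncomputable def lagPot [Nonempty ι] (y : ι → EE d) (w : ι → ℝ) (x : EE d) : ℝ :=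
  Finset.univ.sup' Finset.univ_nonempty (fun l => ⟪x, y l⟫ - w l)

/-- The (closed) Laguerre cell of the atom `l`. -/
def lagCell (y : ι → EE d) (w : ι → ℝ) (l : ι) : Set (EE d) :=
  {x | ∀ k, ⟪x, y k⟫ - w k ≤ ⟪x, y l⟫ - w l}

omit [Fintype ι] in
lemma mem_lagCell {y : ι → EE d} {w : ι → ℝ} {l : ι} {x : EE d} :
    x ∈ lagCell y w l ↔ ∀ k, ⟪x, y k⟫ - w k ≤ ⟪x, y l⟫ - w l := Iff.rfl

lemma le_lagPot [Nonempty ι] (y : ι → EE d) (w : ι → ℝ) (x : EE d) (l : ι) :
    ⟪x, y l⟫ - w l ≤ lagPot y w x :=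
  Finset.le_sup' (fun l => ⟪x, y l⟫ - w l) (Finset.mem_univ l)

lemma lagPot_le [Nonempty ι] {y : ι → EE d} {w : ι → ℝ} {x : EE d} {c : ℝ}
    (h : ∀ l, ⟪x, y l⟫ - w l ≤ c) : lagPot y w x ≤ c :=
  Finset.sup'_le _ _ (fun l _ => h l)

lemma lagPot_eq_of_mem [Nonempty ι] {y : ι → EE d} {w : ι → ℝ} {x : EE d} {l : ι}
    (h : x ∈ lagCell y w l) :
    lagPot y w x = ⟪x, y l⟫ - w l :=
  le_antisymm (lagPot_le h) (le_lagPot y w x l)

lemma exists_mem_lagCell [Nonempty ι] (y : ι → EE d) (w : ι → ℝ) (x : EE d) :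
    ∃ l, x ∈ lagCell y w l := by
  obtain ⟨l, -, hl⟩ := Finset.exists_mem_eq_sup' Finset.univ_nonempty (fun l => ⟪x, y l⟫ - w l)
  refine ⟨l, fun k => ?_⟩
  have := le_lagPot y w x k
  rw [lagPot, hl] at this
  exact this

omit [Fintype ι] in
lemma isClosed_lagCell (y : ι → EE d) (w : ι → ℝ) (l : ι) : IsClosed (lagCell y w l) := by
  have : lagCell y w l = ⋂ k, {x : EE d | ⟪x, y k⟫ - w k ≤ ⟪x, y l⟫ - w l} := by
    ext x; simp [lagCell]
  rw [this]
  exact isClosed_iInter fun k => isClosed_le (by fun_prop) (by fun_prop)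

omit [Fintype ι] in
lemma measurableSet_lagCell (y : ι → EE d) (w : ι → ℝ) (l : ι) :
    MeasurableSet (lagCell y w l) :=
  (isClosed_lagCell y w l).measurableSet

lemma continuous_lagPot [Nonempty ι] (y : ι → EE d) (w : ι → ℝ) : Continuous (lagPot y w) := by
  unfold lagPot
  apply Continuous.finset_sup'_apply
  intro l _
  fun_prop

lemma lagPot_sub_le [Nonempty ι] (y : ι → EE d) (w w' : ι → ℝ) (x : EE d) :
    lagPot y w x - lagPot y w' x ≤ ‖w - w'‖ := by
  have : lagPot y w x ≤ lagPot y w' x + ‖w - w'‖ := by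
    apply lagPot_le
    intro l
    have h1 := le_lagPot y w' x l
    have h2 : |(w - w') l| ≤ ‖w - w'‖ := by
      simpa using norm_le_pi_norm (w - w') l
    have h3 := (abs_le.mp h2).1
    simp only [Pi.sub_apply] at h3
    linarith
  linarith

lemma abs_lagPot_le [Nonempty ι] (y : ι → EE d) (w : ι → ℝ) (x : EE d) :
    |lagPot y w x| ≤ ‖x‖ * ∑ l, ‖y l‖ + ‖w‖ := by
  have hy : ∀ l, ‖y l‖ ≤ ∑ l, ‖y l‖ := fun l =>
    Finset.single_le_sum (f := fun l => ‖y l‖) (fun _ _ => norm_nonneg _) (Finset.mem_univ l)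
  have hw : ∀ l, |w l| ≤ ‖w‖ := fun l => by simpa using norm_le_pi_norm w l
  have hin : ∀ l, |⟪x, y l⟫| ≤ ‖x‖ * ∑ l, ‖y l‖ := fun l =>
    (abs_real_inner_le_norm _ _).trans (mul_le_mul_of_nonneg_left (hy l) (norm_nonneg _))
  rw [abs_le]
  constructor
  · obtain ⟨l⟩ := ‹Nonempty ι›
    have h1 := le_lagPot y w x l
    have h2 := (abs_le.mp (hin l)).1
    have h3 := (abs_le.mp (hw l)).2
    linarith
  · apply lagPot_le
    intro l
    have h2 := (abs_le.mp (hin l)).2
    have h3 := (abs_le.mp (hw l)).1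
    linarith

/-- Hyperplanes are null for the image of `P` under `X`. -/
def NullHyper (P : Measure (EE d)) (X : EE d → EE d) : Prop :=
  ∀ (u : EE d) (c : ℝ), u ≠ 0 → P (X ⁻¹' {x | ⟪x, u⟫ = c}) = 0

/-- The dual (Kantorovich) functional. -/
noncomputable def dualK [Nonempty ι] (P : Measure (EE d)) (X : EE d → EE d) (y : ι → EE d)
    (m w : ι → ℝ) : ℝ :=
  ∫ ω, lagPot y w (X ω) ∂P + ∑ l, m l * w l

/-- The optimal value of the dual. -/
noncomputable def optVal [Nonempty ι] (P : Measure (EE d)) (X : EE d → EE d) (y : ι → EE d)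
    (m : ι → ℝ) : ℝ :=
  ⨅ w, dualK P X y m w

section Source

variable {P : Measure (EE d)} {X : EE d → EE d}
variable {y : ι → EE d} {m : ι → ℝ}

omit [Fintype ι] in
/-- almost surely the maximiser is unique. -/
lemma ae_unique_cell [Countable ι] (hy : Function.Injective y) (hn : NullHyper P X) (w : ι → ℝ) :
    ∀ᵐ ω ∂P, ∀ l k, X ω ∈ lagCell y w l → X ω ∈ lagCell y w k → l = k := by
  classical
  rw [ae_all_iff]; intro l
  rw [ae_all_iff]; intro k
  by_cases hlk : l = k
  · exact ae_of_all _ (fun _ _ _ => hlk)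
  · have hu : y l - y k ≠ 0 := sub_ne_zero.mpr (fun h => hlk (hy h))
    have := hn (y l - y k) (w l - w k) hu
    rw [ae_iff]
    refine measure_mono_null ?_ this
    intro ω hω
    simp only [mem_setOf_eq, Classical.not_imp] at hω
    obtain ⟨h1, h2, h3⟩ := hω
    have a1 := h1 k
    have a2 := h2 l
    simp only [mem_preimage, mem_setOf_eq, inner_sub_right]
    linarith

/-- The sum of the indicators of the cells is `1` almost surely. -/
lemma ae_sum_indicator [Nonempty ι] (hy : Function.Injective y) (hn : NullHyper P X)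
    (w : ι → ℝ) {β : Type*} [AddCommMonoid β] (f : EE d → β) :
    ∀ᵐ ω ∂P, ∑ l, (X ⁻¹' lagCell y w l).indicator f ω = f ω := by
  classical
  filter_upwards [ae_unique_cell hy hn w] with ω hω
  obtain ⟨l, hl⟩ := exists_mem_lagCell y w (X ω)
  rw [Finset.sum_eq_single l]
  · simp [indicator, hl]
  · intro k _ hk
    have : X ω ∉ lagCell y w k := fun h => hk (hω k l h hl)
    simp [indicator, this]
  · simp

lemma sum_measure_cells [Nonempty ι] [IsProbabilityMeasure P] (hX : Measurable X)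
    (hy : Function.Injective y) (hn : NullHyper P X) (w : ι → ℝ) :
    ∑ l, P (X ⁻¹' lagCell y w l) = 1 := by
  classical
  have hm : ∀ l, MeasurableSet (X ⁻¹' lagCell y w l) :=
    fun l => hX (measurableSet_lagCell y w l)
  have e : ∑ l, P (X ⁻¹' lagCell y w l)
      = ∫⁻ ω, ∑ l, (X ⁻¹' lagCell y w l).indicator (fun _ => (1:ℝ≥0∞)) ω ∂P := by
    rw [lintegral_finset_sum _ (fun l _ => measurable_const.indicator (hm l))]
    apply Finset.sum_congr rfl
    intro l _
    rw [lintegral_indicator_const (hm l)]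
    simp
  rw [e, lintegral_congr_ae (ae_sum_indicator hy hn w (fun _ => (1:ℝ≥0∞)))]
  simp

lemma sum_measure_cells_real [Nonempty ι] [IsProbabilityMeasure P] (hX : Measurable X)
    (hy : Function.Injective y) (hn : NullHyper P X) (w : ι → ℝ) :
    ∑ l, (P (X ⁻¹' lagCell y w l)).toReal = 1 := by
  have := sum_measure_cells (P := P) hX hy hn w
  rw [← ENNReal.toReal_sum (fun l _ => measure_ne_top _ _), this]
  simp

/-- An integrable function splits over the cells. -/
lemma integral_eq_sum_cells [Nonempty ι] {β : Type*} [NormedAddCommGroup β] [NormedSpace ℝ β]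
    [CompleteSpace β] (hX : Measurable X)
    (hy : Function.Injective y) (hn : NullHyper P X) (w : ι → ℝ) {f : EE d → β}
    (hf : Integrable f P) :
    ∫ ω, f ω ∂P = ∑ l, ∫ ω in X ⁻¹' lagCell y w l, f ω ∂P := by
  have hm : ∀ l, MeasurableSet (X ⁻¹' lagCell y w l) :=
    fun l => hX (measurableSet_lagCell y w l)
  calc ∫ ω, f ω ∂P = ∫ ω, ∑ l, (X ⁻¹' lagCell y w l).indicator f ω ∂P :=
        integral_congr_ae ((ae_sum_indicator hy hn w f).mono fun _ h => h.symm)
    _ = ∑ l, ∫ ω, (X ⁻¹' lagCell y w l).indicator f ω ∂P :=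
        integral_finset_sum _ (fun l _ => hf.indicator (hm l))
    _ = _ := Finset.sum_congr rfl (fun l _ => integral_indicator (hm l))

section Bounded

variable {R : ℝ}

lemma integrable_lagPot [Nonempty ι] [IsFiniteMeasure P] (hX : Measurable X)
    (hXK : ∀ᵐ ω ∂P, ‖X ω‖ ≤ R) (y : ι → EE d) (w : ι → ℝ) :
    Integrable (fun ω => lagPot y w (X ω)) P := by
  refine Integrable.of_bound ((continuous_lagPot y w).measurable.comp hX).aestronglyMeasurable
    (R * ∑ l, ‖y l‖ + ‖w‖) ?_
  filter_upwards [hXK] with ω hω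
  rw [Real.norm_eq_abs]
  refine (abs_lagPot_le y w (X ω)).trans ?_
  have : 0 ≤ ∑ l, ‖y l‖ := Finset.sum_nonneg (fun _ _ => norm_nonneg _)
  have := mul_le_mul_of_nonneg_right hω this
  linarith

lemma integrable_inner_X [IsFiniteMeasure P] (hX : Measurable X)
    (hXK : ∀ᵐ ω ∂P, ‖X ω‖ ≤ R) (v : EE d) :
    Integrable (fun ω => ⟪X ω, v⟫) P := by
  refine Integrable.of_bound (by fun_prop : Measurable fun ω => ⟪X ω, v⟫).aestronglyMeasurable
    (R * ‖v‖) ?_
  filter_upwards [hXK] with ω hω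
  rw [Real.norm_eq_abs]
  exact (abs_real_inner_le_norm _ _).trans (mul_le_mul_of_nonneg_right hω (norm_nonneg _))

lemma integrable_X [IsFiniteMeasure P] (hX : Measurable X)
    (hXK : ∀ᵐ ω ∂P, ‖X ω‖ ≤ R) :
    Integrable X P :=
  Integrable.of_bound hX.aestronglyMeasurable R hXK

lemma dualK_sub_le [Nonempty ι] [IsProbabilityMeasure P] (hX : Measurable X)
    (hXK : ∀ᵐ ω ∂P, ‖X ω‖ ≤ R) (y : ι → EE d) (m w w' : ι → ℝ) :
    dualK P X y m w - dualK P X y m w' ≤ (1 + ∑ l, |m l|) * ‖w - w'‖ := by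
  have h1 : ∫ ω, lagPot y w (X ω) ∂P ≤ ∫ ω, (lagPot y w' (X ω) + ‖w - w'‖) ∂P :=
    integral_mono (integrable_lagPot hX hXK y w)
      ((integrable_lagPot hX hXK y w').add (integrable_const _)) (fun ω => by
        have := lagPot_sub_le y w w' (X ω)
        simp only; linarith)
  rw [integral_add (integrable_lagPot hX hXK y w') (integrable_const _)] at h1
  simp only [integral_const, probReal_univ, smul_eq_mul, one_mul] at h1
  have h2 : ∑ l, m l * w l - ∑ l, m l * w' l ≤ (∑ l, |m l|) * ‖w - w'‖ := by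
    rw [← Finset.sum_sub_distrib, Finset.sum_mul]
    apply Finset.sum_le_sum
    intro l _
    have : m l * w l - m l * w' l = m l * (w - w') l := by simp [mul_sub]
    rw [this]
    have h3 : |(w - w') l| ≤ ‖w - w'‖ := by simpa using norm_le_pi_norm (w - w') l
    calc m l * (w - w') l ≤ |m l * (w - w') l| := le_abs_self _
      _ = |m l| * |(w - w') l| := abs_mul _ _
      _ ≤ _ := mul_le_mul_of_nonneg_left h3 (abs_nonneg _)
  simp only [dualK]
  linarith

lemma continuous_dualK [Nonempty ι] [IsProbabilityMeasure P] (hX : Measurable X)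
    (hXK : ∀ᵐ ω ∂P, ‖X ω‖ ≤ R) (y : ι → EE d) (m : ι → ℝ) :
    Continuous (fun w => dualK P X y m w) := by
  have hC : 0 ≤ 1 + ∑ l, |m l| := by
    have : 0 ≤ ∑ l, |m l| := Finset.sum_nonneg (fun _ _ => abs_nonneg _)
    linarith
  refine (LipschitzWith.of_dist_le_mul (K := (1 + ∑ l, |m l|).toNNReal) fun w w' => ?_).continuous
  rw [Real.dist_eq, abs_le, dist_eq_norm, Real.coe_toNNReal _ hC]
  constructor
  · have := dualK_sub_le hX hXK y m w' w
    rw [norm_sub_rev] at this
    linarith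
  · exact dualK_sub_le hX hXK y m w w'

lemma lagPot_add_const [Nonempty ι] (y : ι → EE d) (w : ι → ℝ) (c : ℝ) (x : EE d) :
    lagPot y (fun l => w l + c) x = lagPot y w x - c := by
  apply le_antisymm
  · apply lagPot_le
    intro l
    have := le_lagPot y w x l
    linarith
  · have : lagPot y w x ≤ lagPot y (fun l => w l + c) x + c := by
      apply lagPot_le
      intro l
      have := le_lagPot y (fun l => w l + c) x l
      linarith
    linarith

lemma dualK_add_const [Nonempty ι] [IsProbabilityMeasure P] (hX : Measurable X)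
    (hXK : ∀ᵐ ω ∂P, ‖X ω‖ ≤ R) (hsum : ∑ l, m l = 1) (w : ι → ℝ) (c : ℝ) :
    dualK P X y m (fun l => w l + c) = dualK P X y m w := by
  simp only [dualK, lagPot_add_const, mul_add, Finset.sum_add_distrib]
  rw [integral_sub (integrable_lagPot hX hXK y w) (integrable_const _)]
  simp only [integral_const, probReal_univ, smul_eq_mul, one_mul, ← Finset.sum_mul, hsum]
  ring

lemma exists_minimizer [Nonempty ι] [IsProbabilityMeasure P] (hX : Measurable X) (hR : 0 ≤ R)
    (hXK : ∀ᵐ ω ∂P, ‖X ω‖ ≤ R) (hm : ∀ l, 0 < m l) (hsum : ∑ l, m l = 1) :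
    ∃ w, ∀ w', dualK P X y m w ≤ dualK P X y m w' := by
  classical
  obtain ⟨l₀, -, hl₀⟩ := Finset.exists_min_image (Finset.univ : Finset ι) m Finset.univ_nonempty
  set m₀ := m l₀ with hm₀
  have hm₀pos : 0 < m₀ := hm l₀
  set R₀ := R * ∑ l, ‖y l‖ with hR₀
  have hsy : 0 ≤ ∑ l, ‖y l‖ := Finset.sum_nonneg (fun _ _ => norm_nonneg _)
  have hR₀nn : 0 ≤ R₀ := mul_nonneg hR hsy
  have hin : ∀ᵐ ω ∂P, ∀ l, |⟪X ω, y l⟫| ≤ R₀ := by
    filter_upwards [hXK] with ω hω l
    refine (abs_real_inner_le_norm _ _).trans ?_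
    exact mul_le_mul hω (Finset.single_le_sum (f := fun l => ‖y l‖)
      (fun _ _ => norm_nonneg _) (Finset.mem_univ l)) (norm_nonneg _) hR
  set B := (2 * R₀ + 1) / m₀ with hB
  have hBnn : 0 ≤ B := by positivity
  have hbox : IsCompact (Icc (0 : ι → ℝ) (fun _ => B)) := isCompact_Icc
  have hne : (Icc (0 : ι → ℝ) (fun _ => B)).Nonempty :=
    ⟨0, ⟨le_refl _, fun _ => hBnn⟩⟩
  obtain ⟨w₀, hw₀, hmin⟩ := hbox.exists_isMinOn hne
    (continuous_dualK hX hXK y m).continuousOn
  have h0box : (0 : ι → ℝ) ∈ Icc (0 : ι → ℝ) (fun _ => B) := ⟨le_refl _, fun _ => hBnn⟩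
  have hup : dualK P X y m 0 ≤ R₀ := by
    have h1 : ∫ ω, lagPot y 0 (X ω) ∂P ≤ ∫ _, R₀ ∂P := by
      apply integral_mono_ae (integrable_lagPot hX hXK y 0) (integrable_const _)
      filter_upwards [hin] with ω hω
      apply lagPot_le
      intro l
      have := (abs_le.mp (hω l)).2
      simpa using this
    simpa [dualK] using h1
  refine ⟨w₀, fun w' => ?_⟩
  obtain ⟨l₁, -, hl₁⟩ := Finset.exists_min_image (Finset.univ : Finset ι) w' Finset.univ_nonempty
  set w'' : ι → ℝ := fun l => w' l + (- w' l₁) with hw''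
  have hnn : ∀ l, 0 ≤ w'' l := fun l => by
    have := hl₁ l (Finset.mem_univ l)
    simp only [hw'']; linarith
  have he : dualK P X y m w' = dualK P X y m w'' := (dualK_add_const hX hXK hsum w' _).symm
  rw [he]
  by_cases hin' : w'' ∈ Icc (0 : ι → ℝ) (fun _ => B)
  · exact hmin hin'
  · have : ∃ l, B < w'' l := by
      by_contra hcon
      push_neg at hcon
      exact hin' ⟨fun l => hnn l, fun l => hcon l⟩
    obtain ⟨l₂, hl₂⟩ := this
    have h1 : -R₀ ≤ ∫ ω, lagPot y w'' (X ω) ∂P := by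
      have : ∫ _ : EE d, (-R₀) ∂P ≤ ∫ ω, lagPot y w'' (X ω) ∂P := by
        apply integral_mono_ae (integrable_const _) (integrable_lagPot hX hXK y w'')
        filter_upwards [hin] with ω hω
        have h2 := le_lagPot y w'' (X ω) l₁
        have h3 := (abs_le.mp (hω l₁)).1
        have h4 : w'' l₁ = 0 := by simp [hw'']
        linarith
      simpa using this
    have h2 : 2 * R₀ + 1 ≤ ∑ l, m l * w'' l := by
      have h3 : m l₂ * w'' l₂ ≤ ∑ l, m l * w'' l :=
        Finset.single_le_sum (f := fun l => m l * w'' l)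
          (fun l _ => mul_nonneg (hm l).le (hnn l)) (Finset.mem_univ l₂)
      have h4 : m₀ * B ≤ m l₂ * w'' l₂ :=
        mul_le_mul (hl₀ l₂ (Finset.mem_univ _)) hl₂.le hBnn (hm l₂).le
      have h5 : m₀ * B = 2 * R₀ + 1 := by rw [hB]; field_simp
      linarith
    have h3 := hmin h0box
    simp only [mem_setOf_eq] at h3
    have h4 : dualK P X y m w'' = ∫ ω, lagPot y w'' (X ω) ∂P + ∑ l, m l * w'' l := rfl
    linarith

/-- First-order condition at a minimiser. -/
lemma first_order [Nonempty ι] [IsProbabilityMeasure P] (hX : Measurable X)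
    (hXK : ∀ᵐ ω ∂P, ‖X ω‖ ≤ R) {w : ι → ℝ}
    (hmin : ∀ w', dualK P X y m w ≤ dualK P X y m w') (l : ι) :
    m l ≤ (P (X ⁻¹' lagCell y w l)).toReal := by
  classical
  set S : ℕ → Set (EE d) := fun n =>
    X ⁻¹' {x | lagPot y w x ≤ ⟪x, y l⟫ - w l + 1 / ((n:ℝ) + 1)} with hS
  have hSm : ∀ n, MeasurableSet (S n) := fun n =>
    hX (measurableSet_le (continuous_lagPot y w).measurable (by fun_prop))
  have hanti : Antitone S := by
    intro a b hab ω hω
    simp only [hS, mem_preimage, mem_setOf_eq] at hω ⊢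
    have : 1 / ((b:ℝ) + 1) ≤ 1 / ((a:ℝ) + 1) := by
      apply one_div_le_one_div_of_le (by positivity)
      have : (a:ℝ) ≤ b := by exact_mod_cast hab
      linarith
    linarith
  have hinter : ⋂ n, S n = X ⁻¹' lagCell y w l := by
    ext ω
    simp only [hS, mem_iInter, mem_preimage, mem_setOf_eq]
    constructor
    · intro h
      have h1 : lagPot y w (X ω) ≤ ⟪X ω, y l⟫ - w l := by
        apply le_of_forall_pos_le_add
        intro η hη
        obtain ⟨n, hn⟩ := exists_nat_one_div_lt hη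
        have := h n
        linarith
      intro k
      exact (le_lagPot y w (X ω) k).trans h1
    · intro h n
      rw [lagPot_eq_of_mem h]
      have : 0 < 1 / ((n:ℝ) + 1) := by positivity
      linarith
  have hlim : Filter.Tendsto (fun n => P (S n)) Filter.atTop (nhds (P (X ⁻¹' lagCell y w l))) := by
    rw [← hinter]
    exact tendsto_measure_iInter_atTop (fun n => (hSm n).nullMeasurableSet) hanti
      ⟨0, measure_ne_top _ _⟩
  have hlim' : Filter.Tendsto (fun n => (P (S n)).toReal) Filter.atTop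
      (nhds (P (X ⁻¹' lagCell y w l)).toReal) :=
    (ENNReal.tendsto_toReal (measure_ne_top _ _)).comp hlim
  refine ge_of_tendsto' hlim' (fun n => ?_)
  set η : ℝ := 1 / ((n:ℝ) + 1) with hη
  have hηpos : 0 < η := by positivity
  set w' : ι → ℝ := Function.update w l (w l - η) with hw'
  have hptw : ∀ ω, lagPot y w' (X ω) ≤ lagPot y w (X ω) + η * (S n).indicator (fun _ => (1:ℝ)) ω := by
    intro ω
    by_cases hω : ω ∈ S n
    · simp only [indicator_of_mem hω, mul_one]
      apply lagPot_le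
      intro k
      by_cases hk : k = l
      · subst hk
        simp only [hw', Function.update_self]
        have := le_lagPot y w (X ω) k
        linarith
      · simp only [hw', Function.update_of_ne hk]
        have := le_lagPot y w (X ω) k
        linarith
    · simp only [indicator_of_notMem hω, mul_zero, add_zero]
      apply lagPot_le
      intro k
      by_cases hk : k = l
      · subst hk
        simp only [hw', Function.update_self]
        simp only [hS, mem_preimage, mem_setOf_eq, not_le] at hω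
        linarith
      · simp only [hw', Function.update_of_ne hk]
        exact le_lagPot y w (X ω) k
  have hint : ∫ ω, lagPot y w' (X ω) ∂P ≤ ∫ ω, lagPot y w (X ω) ∂P + η * (P (S n)).toReal := by
    have hI : Integrable ((S n).indicator (fun _ => (1:ℝ))) P :=
      (integrable_const _).indicator (hSm n)
    have h1 : ∫ ω, lagPot y w' (X ω) ∂P
        ≤ ∫ ω, (lagPot y w (X ω) + η * (S n).indicator (fun _ => (1:ℝ)) ω) ∂P :=
      integral_mono (integrable_lagPot hX hXK y w')
        ((integrable_lagPot hX hXK y w).add (hI.const_mul η)) hptw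
    rw [integral_add (integrable_lagPot hX hXK y w) (hI.const_mul η), integral_const_mul,
      integral_indicator_const _ (hSm n)] at h1
    simpa [Measure.real] using h1
  have hsumw : ∑ k, m k * w' k = ∑ k, m k * w k - η * m l := by
    have : ∀ k, m k * w' k = m k * w k - (if k = l then η * m l else 0) := by
      intro k
      by_cases hk : k = l
      · subst hk
        simp [hw']; ring
      · simp [hw', hk]
    simp only [this, Finset.sum_sub_distrib, Finset.sum_ite_eq', Finset.mem_univ, if_true]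
  have h2 := hmin w'
  simp only [dualK] at h2
  rw [hsumw] at h2
  have h3 : η * m l ≤ η * (P (S n)).toReal := by linarith
  exact le_of_mul_le_mul_left h3 hηpos

/-- Existence of weights equalising the masses of the cells. -/
theorem exists_weights [Nonempty ι] [IsProbabilityMeasure P] (hX : Measurable X) (hR : 0 ≤ R)
    (hXK : ∀ᵐ ω ∂P, ‖X ω‖ ≤ R) (hn : NullHyper P X) (hy : Function.Injective y)
    (hm : ∀ l, 0 < m l) (hsum : ∑ l, m l = 1) :
    ∃ w, ∀ l, (P (X ⁻¹' lagCell y w l)).toReal = m l := by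
  obtain ⟨w, hw⟩ := exists_minimizer (y := y) hX hR hXK hm hsum
  refine ⟨w, ?_⟩
  have h1 : ∀ l, m l ≤ (P (X ⁻¹' lagCell y w l)).toReal := first_order hX hXK hw
  have h2 : ∑ l, m l = ∑ l, (P (X ⁻¹' lagCell y w l)).toReal := by
    rw [hsum, sum_measure_cells_real hX hy hn w]
  have := (Finset.sum_eq_sum_iff_of_le (fun l _ => h1 l)).mp h2
  intro l
  exact (this l (Finset.mem_univ l)).symm

/-- Weak duality for fractional plans. -/
lemma weak_duality [Nonempty ι] [IsProbabilityMeasure P] (hX : Measurable X)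
    (hXK : ∀ᵐ ω ∂P, ‖X ω‖ ≤ R) (y : ι → EE d) {θ : ι → EE d → ℝ}
    (hθm : ∀ l, Measurable (θ l)) (hθ0 : ∀ l, ∀ᵐ ω ∂P, 0 ≤ θ l ω)
    (hθ1 : ∀ᵐ ω ∂P, ∑ l, θ l ω = 1) (hθb : ∀ l, ∀ᵐ ω ∂P, θ l ω ≤ 1)
    (hθm' : ∀ l, ∫ ω, θ l ω ∂P = m l) (w : ι → ℝ) :
    ∑ l, ∫ ω, θ l ω * ⟪X ω, y l⟫ ∂P ≤ dualK P X y m w := by
  have hθi : ∀ l, Integrable (θ l) P := fun l =>
    Integrable.of_bound (hθm l).aestronglyMeasurable 1 (by
      filter_upwards [hθ0 l, hθb l] with ω h0 h1
      rw [Real.norm_eq_abs, abs_of_nonneg h0]; exact h1)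
  have hi : ∀ l, Integrable (fun ω => θ l ω * ⟪X ω, y l⟫) P := fun l => by
    refine Integrable.of_bound ((hθm l).mul (by fun_prop)).aestronglyMeasurable (R * ‖y l‖) ?_
    filter_upwards [hθ0 l, hθb l, hXK] with ω h0 h1 h2
    rw [Real.norm_eq_abs, abs_mul, abs_of_nonneg h0]
    have h3 : |⟪X ω, y l⟫| ≤ R * ‖y l‖ :=
      (abs_real_inner_le_norm _ _).trans (mul_le_mul_of_nonneg_right h2 (norm_nonneg _))
    calc θ l ω * |⟪X ω, y l⟫| ≤ 1 * |⟪X ω, y l⟫| :=
          mul_le_mul_of_nonneg_right h1 (abs_nonneg _)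
      _ ≤ _ := by simpa using h3
  have hptw : ∀ᵐ ω ∂P, ∑ l, θ l ω * ⟪X ω, y l⟫ ≤ lagPot y w (X ω) + ∑ l, w l * θ l ω := by
    filter_upwards [ae_all_iff.mpr hθ0, hθ1] with ω h0 h1
    have : ∑ l, θ l ω * ⟪X ω, y l⟫
        ≤ ∑ l, θ l ω * (lagPot y w (X ω) + w l) := by
      apply Finset.sum_le_sum
      intro l _
      apply mul_le_mul_of_nonneg_left _ (h0 l)
      have := le_lagPot y w (X ω) l
      linarith
    refine this.trans (le_of_eq ?_)
    simp only [mul_add, Finset.sum_add_distrib, ← Finset.sum_mul, h1, one_mul]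
    congr 1
    exact Finset.sum_congr rfl (fun l _ => mul_comm _ _)
  have : ∫ ω, ∑ l, θ l ω * ⟪X ω, y l⟫ ∂P
      ≤ ∫ ω, (lagPot y w (X ω) + ∑ l, w l * θ l ω) ∂P :=
    integral_mono_ae (integrable_finset_sum _ (fun l _ => hi l))
      ((integrable_lagPot hX hXK y w).add
        (integrable_finset_sum _ (fun l _ => (hθi l).const_mul (w l)))) hptw
  rw [integral_finset_sum _ (fun l _ => hi l),
    integral_add (integrable_lagPot hX hXK y w)
      (integrable_finset_sum _ (fun l _ => (hθi l).const_mul (w l))),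
    integral_finset_sum _ (fun l _ => (hθi l).const_mul (w l))] at this
  simp only [integral_const_mul, hθm'] at this
  refine this.trans (le_of_eq ?_)
  simp only [dualK]
  congr 1
  exact Finset.sum_congr rfl (fun l _ => mul_comm _ _)

/-- Cell plan: value of the plan given by the cells of a weight `w`, evaluated at other atoms. -/
lemma cell_plan_le [Nonempty ι] [IsProbabilityMeasure P] (hX : Measurable X)
    (hXK : ∀ᵐ ω ∂P, ‖X ω‖ ≤ R) (hn : NullHyper P X) (hy : Function.Injective y)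
    {w : ι → ℝ} (hw : ∀ l, (P (X ⁻¹' lagCell y w l)).toReal = m l)
    (y' : ι → EE d) (w' : ι → ℝ) :
    ∑ l, ∫ ω in X ⁻¹' lagCell y w l, ⟪X ω, y' l⟫ ∂P ≤ dualK P X y' m w' := by
  have hms : ∀ l, MeasurableSet (X ⁻¹' lagCell y w l) :=
    fun l => hX (measurableSet_lagCell y w l)
  have := weak_duality (m := m) hX hXK y'
    (θ := fun l => (X ⁻¹' lagCell y w l).indicator (fun _ => (1:ℝ)))
    (fun l => measurable_const.indicator (hms l))
    (fun l => ae_of_all _ (fun ω => indicator_nonneg (fun _ _ => zero_le_one) _))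
    (ae_sum_indicator hy hn w (fun _ => (1:ℝ)))
    (fun l => ae_of_all _ (fun ω => indicator_le_self' (fun _ _ => zero_le_one) ω))
    (fun l => by
      rw [integral_indicator_const _ (hms l)]
      simp [Measure.real, hw]) w'
  refine le_trans (le_of_eq ?_) this
  apply Finset.sum_congr rfl
  intro l _
  rw [← integral_indicator (hms l)]
  apply integral_congr_ae
  refine ae_of_all _ fun ω => ?_
  by_cases h : ω ∈ X ⁻¹' lagCell y w l
  · simp [indicator_of_mem h]
  · simp [indicator_of_notMem h]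

/-- Strong duality at equalising weights. -/
lemma dualK_eq_cells [Nonempty ι] [IsProbabilityMeasure P] (hX : Measurable X)
    (hXK : ∀ᵐ ω ∂P, ‖X ω‖ ≤ R) (hn : NullHyper P X) (hy : Function.Injective y)
    {w : ι → ℝ} (hw : ∀ l, (P (X ⁻¹' lagCell y w l)).toReal = m l) :
    dualK P X y m w = ∑ l, ∫ ω in X ⁻¹' lagCell y w l, ⟪X ω, y l⟫ ∂P := by
  have hms : ∀ l, MeasurableSet (X ⁻¹' lagCell y w l) :=
    fun l => hX (measurableSet_lagCell y w l)
  have hint : ∀ l, ∫ ω in X ⁻¹' lagCell y w l, lagPot y w (X ω) ∂P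
      = ∫ ω in X ⁻¹' lagCell y w l, ⟪X ω, y l⟫ ∂P - m l * w l := by
    intro l
    have : ∫ ω in X ⁻¹' lagCell y w l, lagPot y w (X ω) ∂P
        = ∫ ω in X ⁻¹' lagCell y w l, (⟪X ω, y l⟫ - w l) ∂P :=
      setIntegral_congr_fun (hms l) (fun ω hω => lagPot_eq_of_mem hω)
    rw [this, integral_sub ((integrable_inner_X hX hXK (y l)).integrableOn)
      (integrable_const _)]
    simp only [integral_const, smul_eq_mul, Measure.real, Measure.restrict_apply_univ, hw]
  rw [dualK, integral_eq_sum_cells hX hy hn w (integrable_lagPot hX hXK y w)]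
  simp only [hint, Finset.sum_sub_distrib]
  ring

/-- At equalising weights the dual attains its minimum. -/
lemma dualK_le_of_cells [Nonempty ι] [IsProbabilityMeasure P] (hX : Measurable X)
    (hXK : ∀ᵐ ω ∂P, ‖X ω‖ ≤ R) (hn : NullHyper P X) (hy : Function.Injective y)
    {w : ι → ℝ} (hw : ∀ l, (P (X ⁻¹' lagCell y w l)).toReal = m l) (w' : ι → ℝ) :
    dualK P X y m w ≤ dualK P X y m w' := by
  rw [dualK_eq_cells hX hXK hn hy hw]
  exact cell_plan_le hX hXK hn hy hw y w'

lemma optVal_eq_of_cells [Nonempty ι] [IsProbabilityMeasure P] (hX : Measurable X)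
    (hXK : ∀ᵐ ω ∂P, ‖X ω‖ ≤ R) (hn : NullHyper P X) (hy : Function.Injective y)
    {w : ι → ℝ} (hw : ∀ l, (P (X ⁻¹' lagCell y w l)).toReal = m l) :
    optVal P X y m = dualK P X y m w := by
  apply le_antisymm
  · exact ciInf_le ⟨dualK P X y m w, by
      rintro _ ⟨w', rfl⟩
      exact dualK_le_of_cells hX hXK hn hy hw w'⟩ w
  · exact le_ciInf (fun w' => dualK_le_of_cells hX hXK hn hy hw w')

/-- `optVal` is at most the dual at any weight (when some equalising weight exists). -/
lemma optVal_le_dualK [Nonempty ι] [IsProbabilityMeasure P] (hX : Measurable X)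
    (hR : 0 ≤ R) (hXK : ∀ᵐ ω ∂P, ‖X ω‖ ≤ R) (hn : NullHyper P X) (hy : Function.Injective y)
    (hm : ∀ l, 0 < m l) (hsum : ∑ l, m l = 1) (w' : ι → ℝ) :
    optVal P X y m ≤ dualK P X y m w' := by
  obtain ⟨w, hw⟩ := exists_weights hX hR hXK hn hy hm hsum
  rw [optVal_eq_of_cells hX hXK hn hy hw]
  exact dualK_le_of_cells hX hXK hn hy hw w'

/-- `optVal` is at least the value of any fractional plan. -/
lemma plan_le_optVal [Nonempty ι] [IsProbabilityMeasure P] (hX : Measurable X)
    (hR : 0 ≤ R) (hXK : ∀ᵐ ω ∂P, ‖X ω‖ ≤ R) (hn : NullHyper P X) (hy : Function.Injective y)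
    (hm : ∀ l, 0 < m l) (hsum : ∑ l, m l = 1) {θ : ι → EE d → ℝ}
    (hθm : ∀ l, Measurable (θ l)) (hθ0 : ∀ l, ∀ᵐ ω ∂P, 0 ≤ θ l ω)
    (hθ1 : ∀ᵐ ω ∂P, ∑ l, θ l ω = 1) (hθb : ∀ l, ∀ᵐ ω ∂P, θ l ω ≤ 1)
    (hθm' : ∀ l, ∫ ω, θ l ω ∂P = m l) :
    ∑ l, ∫ ω, θ l ω * ⟪X ω, y l⟫ ∂P ≤ optVal P X y m := by
  obtain ⟨w, hw⟩ := exists_weights hX hR hXK hn hy hm hsum
  rw [optVal_eq_of_cells hX hXK hn hy hw]
  exact weak_duality hX hXK y hθm hθ0 hθ1 hθb hθm' w

end Bounded

end Source

end Crest.Agent.OT
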