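import Mathlib

/-!
# A Riemann sum comparison for two convex-like functions with subgradients off a finite set.
-/

set_option autoImplicit false

open Set Filter
open scoped Topology

namespace Crest.Agent.OT

lemma exists_grid (F : Finset ℝ) (h0 : (0:ℝ) ∉ F) (h1 : (1:ℝ) ∉ F) (N : ℕ) (hN : 1 ≤ N) :
    ∃ t : ℕ → ℝ, t 0 = 0 ∧ t N = 1 ∧ (∀ j ≤ N, t j ∈ Icc (0:ℝ) 1 ∧ t j ∉ F) ∧
      ∀ j < N, t j < t (j + 1) ∧ t (j + 1) - t j ≤ 2 / N := by
  classical
  have hNpos : (0:ℝ) < N := by exact_mod_cast (by omega : 0 < N)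
  obtain ⟨h, hh⟩ : ∃ h : ℝ, h = 1 / (N:ℝ) := ⟨_, rfl⟩
  have hpos : 0 < h := by rw [hh]; positivity
  have hNh : (N:ℝ) * h = 1 := by rw [hh]; field_simp
  have hp : ∀ j : ℕ, ∃ p ∈ Ioo ((j:ℝ) * h) (((j:ℝ) + 1) * h), p ∉ F := by
    intro j
    have hlt : (j:ℝ) * h < ((j:ℝ) + 1) * h := by nlinarith
    obtain ⟨p, hp1, hp2⟩ := (Ioo_infinite hlt).exists_notMem_finset F
    exact ⟨p, hp1, hp2⟩
  choose p hp1 hp2 using hp
  obtain ⟨t, ht⟩ : ∃ t : ℕ → ℝ, t = fun j => if j = 0 then 0 else if j = N then 1 else p j :=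
    ⟨_, rfl⟩
  have t0 : t 0 = 0 := by simp [ht]
  have tN : t N = 1 := by
    have : N ≠ 0 := by omega
    simp [ht, this]
  have tm : ∀ j, j ≠ 0 → j ≠ N → t j = p j := by
    intro j h1 h2
    simp [ht, h1, h2]
  have low : ∀ j ≤ N, (j:ℝ) * h ≤ t j := by
    intro j hj
    by_cases hj0 : j = 0
    · subst hj0; simp [t0]
    · by_cases hjN : j = N
      · subst hjN; rw [tN, hNh]
      · rw [tm j hj0 hjN]; exact (hp1 j).1.le
  have upp : ∀ j ≤ N, t j ≤ ((j:ℝ) + 1) * h := by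
    intro j hj
    by_cases hj0 : j = 0
    · subst hj0; simp only [t0]; push_cast; linarith
    · by_cases hjN : j = N
      · subst hjN; rw [tN]; nlinarith
      · rw [tm j hj0 hjN]; exact (hp1 j).2.le
  have hjle : ∀ j : ℕ, j ≤ N → ((j:ℝ)) * h ≤ 1 := by
    intro j hj
    rw [← hNh]
    have : (j:ℝ) ≤ N := by exact_mod_cast hj
    exact mul_le_mul_of_nonneg_right this hpos.le
  refine ⟨t, t0, tN, ?_, ?_⟩
  · intro j hj
    by_cases hj0 : j = 0
    · subst hj0; simp [t0, h0]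
    · by_cases hjN : j = N
      · subst hjN; simp [tN, h1]
      · rw [tm j hj0 hjN]
        refine ⟨⟨?_, ?_⟩, hp2 j⟩
        · have := (hp1 j).1
          have : 0 ≤ (j:ℝ) * h := by positivity
          linarith
        · have := (hp1 j).2
          have := hjle (j + 1) (by omega)
          push_cast at this
          linarith
  · intro j hj
    have hj1 : j + 1 ≤ N := hj
    constructor
    · by_cases hjN : j + 1 = N
      · rw [hjN, tN]
        by_cases hj0 : j = 0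
        · rw [hj0, t0]; norm_num
        · rw [tm j hj0 (by omega)]
          have a1 := (hp1 j).2
          have : ((j:ℝ) + 1) * h = 1 := by
            have e : (N:ℝ) = (j:ℝ) + 1 := by rw [← hjN]; push_cast; ring
            rw [← e]; exact hNh
          linarith
      · rw [tm (j + 1) (by omega) hjN]
        have a1 := (hp1 (j + 1)).1
        have a2 := upp j hj.le
        push_cast at a1
        linarith
    · have a1 := low j hj.le
      have a2 := upp (j + 1) hj1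
      have e : 2 / (N:ℝ) = 2 * h := by rw [hh]; ring
      rw [e]
      push_cast at a2
      nlinarith

/-- The comparison. -/
lemma riemann_bound {F : Finset ℝ} (h0 : (0:ℝ) ∉ F) (h1 : (1:ℝ) ∉ F) {M₀ M₁ s₀ s₁ : ℝ → ℝ}
    {A B : ℝ}
    (hsub₀ : ∀ t ∈ Icc (0:ℝ) 1, t ∉ F → ∀ t' ∈ Icc (0:ℝ) 1, t' ∉ F →
      (t' - t) * s₀ t ≤ M₀ t' - M₀ t)
    (hsub₁ : ∀ t ∈ Icc (0:ℝ) 1, t ∉ F → ∀ t' ∈ Icc (0:ℝ) 1, t' ∉ F →
      (t' - t) * s₁ t ≤ M₁ t' - M₁ t)
    (hB : ∀ t ∈ Icc (0:ℝ) 1, t ∉ F → |s₀ t| ≤ B)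
    (hA : ∀ t ∈ Icc (0:ℝ) 1, t ∉ F → s₁ t - s₀ t ≤ A) :
    (M₁ 1 - M₁ 0) - (M₀ 1 - M₀ 0) ≤ A := by
  have key : ∀ N : ℕ, 1 ≤ N → (M₁ 1 - M₁ 0) - (M₀ 1 - M₀ 0) ≤ A + 4 * B / N := by
    intro N hN
    have hNpos : (0:ℝ) < N := by exact_mod_cast (by omega : 0 < N)
    obtain ⟨t, ht0, htN, htg, htm⟩ := exists_grid F h0 h1 N hN
    set D : ℝ → ℝ := fun x => M₁ x - M₀ x with hD
    have hterm : ∀ j ∈ Finset.range N, D (t (j + 1)) - D (t j)
        ≤ (t (j + 1) - t j) * A + (2 / N) * (s₀ (t (j + 1)) - s₀ (t j)) := by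
      intro j hj
      have hj' : j < N := Finset.mem_range.mp hj
      obtain ⟨g1, g2⟩ := htg j hj'.le
      obtain ⟨g3, g4⟩ := htg (j + 1) hj'
      obtain ⟨h5, h6⟩ := htm j hj'
      have a1 := hsub₁ _ g3 g4 _ g1 g2
      have a2 := hsub₀ _ g1 g2 _ g3 g4
      have a3 := hsub₀ _ g3 g4 _ g1 g2
      have a4 := hA _ g3 g4
      have hτ : 0 < t (j + 1) - t j := by linarith
      -- monotonicity of s₀
      have hmono : s₀ (t j) ≤ s₀ (t (j + 1)) := by
        have : (t (j + 1) - t j) * s₀ (t j) ≤ (t (j + 1) - t j) * s₀ (t (j + 1)) := by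
          linarith
        exact le_of_mul_le_mul_left this hτ
      have a5 : (t (j + 1) - t j) * (s₀ (t (j + 1)) - s₀ (t j))
          ≤ (2 / N) * (s₀ (t (j + 1)) - s₀ (t j)) :=
        mul_le_mul_of_nonneg_right h6 (by linarith)
      have a6 : (t (j + 1) - t j) * (s₁ (t (j + 1)) - s₀ (t (j + 1)))
          ≤ (t (j + 1) - t j) * A := mul_le_mul_of_nonneg_left a4 hτ.le
      simp only [hD]
      nlinarith
    have hsum := Finset.sum_le_sum hterm
    have e1 := Finset.sum_range_sub (fun i => D (t i)) N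
    have e2 := Finset.sum_range_sub t N
    have e3 := Finset.sum_range_sub (fun i => s₀ (t i)) N
    rw [e1, Finset.sum_add_distrib, ← Finset.mul_sum, ← Finset.sum_mul, e2, e3, htN, ht0] at hsum
    simp only [hD] at hsum
    have hb0 := hB 0 ⟨le_refl _, zero_le_one⟩ h0
    have hb1 := hB 1 ⟨zero_le_one, le_refl _⟩ h1
    have hb0' := (abs_le.mp hb0).1
    have hb1' := (abs_le.mp hb1).2
    have : (2 / (N:ℝ)) * (s₀ 1 - s₀ 0) ≤ 4 * B / N := by
      have e : 4 * B / N = (2 / (N:ℝ)) * (2 * B) := by ring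
      rw [e]
      exact mul_le_mul_of_nonneg_left (by linarith) (by positivity)
    have hone : (1 - 0) * A = A := by ring
    linarith
  apply le_of_forall_pos_le_add
  intro η hη
  obtain ⟨N, hN⟩ := exists_nat_gt (4 * B / η)
  have hNnat : 1 ≤ N + 1 := by omega
  have hB0 : 0 ≤ B := (abs_nonneg _).trans (hB 0 ⟨le_refl _, zero_le_one⟩ h0)
  have := key (N + 1) hNnat
  have h2 : 4 * B / ((N + 1 : ℕ) : ℝ) ≤ η := by
    rw [div_le_iff₀ (by positivity)]
    rw [div_lt_iff₀ hη] at hN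
    push_cast
    nlinarith
  linarith

end Crest.Agent.OT
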