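import Crest.Agent.Lib.OTShear
import Crest.Agent.Lib.OTRiem
import Crest.Prelude.Def_QuadraticTransport

/-!
# Comparison of the optimal values along a path of atoms, for two sources.
-/

set_option autoImplicit false

open MeasureTheory Set Filter
open scoped ENNReal NNReal RealInnerProductSpace Topology
open Crest.AnalysisR.OT

namespace Crest.Agent.OT

variable {d : ℕ}

/-- Assumptions on the convex body. -/
structure BodyHyp (K : Set (EE d)) (R : ℝ) : Prop where
  compact : IsCompact K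
  convex : Convex ℝ K
  volpos : 0 < volume K
  Rpos : 0 < R
  bound : ∀ x ∈ K, ‖x‖ ≤ R

section Uniform

variable {K : Set (EE d)} {R : ℝ}

lemma BodyHyp.vol_ne_top (hB : BodyHyp K R) : volume K ≠ ⊤ := hB.compact.measure_lt_top.ne

lemma BodyHyp.vo_pos (hB : BodyHyp K R) : 0 < vo K :=
  ENNReal.toReal_pos hB.volpos.ne' hB.vol_ne_top

lemma BodyHyp.meas (hB : BodyHyp K R) : MeasurableSet K := hB.compact.measurableSet

lemma BodyHyp.isProb (hB : BodyHyp K R) : IsProbabilityMeasure (uniformProbOn K) := by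
  constructor
  simp only [uniformProbOn, Measure.smul_apply, Measure.restrict_apply MeasurableSet.univ,
    univ_inter, smul_eq_mul]
  exact ENNReal.inv_mul_cancel hB.volpos.ne' hB.vol_ne_top

lemma uniform_apply (hB : BodyHyp K R) {S : Set (EE d)} (hS : MeasurableSet S) :
    (uniformProbOn K S).toReal = (vo K)⁻¹ * vo (S ∩ K) := by
  simp only [uniformProbOn, Measure.smul_apply, Measure.restrict_apply hS, smul_eq_mul]
  rw [ENNReal.toReal_mul, ENNReal.toReal_inv]
  rfl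

lemma uniform_ac : (uniformProbOn K) ≪ (volume : Measure (EE d)) := by
  simp only [uniformProbOn]
  exact (Measure.smul_absolutelyContinuous).trans
    (Measure.restrict_le_self (μ := volume) (s := K)).absolutelyContinuous

lemma ae_uniform_mem (hB : BodyHyp K R) : ∀ᵐ x ∂(uniformProbOn K), x ∈ K := by
  have : (volume.restrict K) Kᶜ = 0 := by
    rw [Measure.restrict_apply hB.meas.compl]; simp
  rw [ae_iff]
  simp only [uniformProbOn, Measure.smul_apply, smul_eq_mul]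
  have e : {x | x ∉ K} = Kᶜ := rfl
  rw [e, this, mul_zero]

lemma ae_uniform_bound (hB : BodyHyp K R) : ∀ᵐ x ∂(uniformProbOn K), ‖x‖ ≤ R :=
  (ae_uniform_mem hB).mono fun x hx => hB.bound x hx

lemma integral_uniform {β : Type*} [NormedAddCommGroup β] [NormedSpace ℝ β]
    (f : EE d → β) :
    ∫ x, f x ∂(uniformProbOn K) = (vo K)⁻¹ • ∫ x in K, f x := by
  simp only [uniformProbOn]
  rw [integral_smul_measure, ENNReal.toReal_inv]
  rfl

lemma setIntegral_uniform {β : Type*} [NormedAddCommGroup β] [NormedSpace ℝ β]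
    {S : Set (EE d)} (hS : MeasurableSet S) (f : EE d → β) :
    ∫ x in S, f x ∂(uniformProbOn K) = (vo K)⁻¹ • ∫ x in S ∩ K, f x := by
  simp only [uniformProbOn]
  rw [Measure.restrict_smul, integral_smul_measure, ENNReal.toReal_inv,
    Measure.restrict_restrict hS]
  rfl

lemma nullHyper_uniform_id : NullHyper (uniformProbOn K) (id : EE d → EE d) := by
  intro u c hu
  rw [preimage_id]
  exact uniform_ac (volume_hyperplane u c hu)

lemma measurableSet_hyper (u : EE d) (c : ℝ) : MeasurableSet {x : EE d | ⟪x, u⟫ = c} :=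
  (isClosed_eq (by fun_prop) continuous_const).measurableSet

lemma nullHyper_uniform_shear {i : Fin d} {ϖ ϖ' : EE d → ℝ} {M Λ ε : ℝ}
    (H : ShearHyp K i ϖ ϖ' M Λ ε) : NullHyper (uniformProbOn K) (shear ε ϖ i) := by
  intro u c hu
  exact uniform_ac (H.preimage_null (measurableSet_hyper u c) (volume_hyperplane u c hu))

lemma nullHyper_restrict_shear {i : Fin d} {ϖ ϖ' : EE d → ℝ} {M Λ ε : ℝ}
    (H : ShearHyp K i ϖ ϖ' M Λ ε) : NullHyper (volume.restrict K) (shear ε ϖ i) := by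
  intro u c hu
  exact (Measure.restrict_le_self (μ := volume) (s := K)).absolutelyContinuous
    (H.preimage_null (measurableSet_hyper u c) (volume_hyperplane u c hu))

lemma ae_uniform_shear_bound (hB : BodyHyp K R) {i : Fin d} {ϖ ϖ' : EE d → ℝ} {M Λ ε : ℝ}
    (H : ShearHyp K i ϖ ϖ' M Λ ε) : ∀ᵐ x ∂(uniformProbOn K), ‖shear ε ϖ i x‖ ≤ R :=
  (ae_uniform_mem hB).mono fun x hx => hB.bound _ (H.shear_mem hx)

end Uniform

/-- Cauchy–Schwarz for integrals on a set. -/
lemma integral_sq_le {Z : Set (EE d)} (hZ : MeasurableSet Z) (hZf : volume Z ≠ ⊤)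
    {f : EE d → ℝ} (hf : Measurable f) {C : ℝ} (hfC : ∀ x, |f x| ≤ C) :
    (∫ x in Z, f x) ^ 2 ≤ vo Z * ∫ x in Z, f x ^ 2 := by
  have hC0 : 0 ≤ C := (abs_nonneg _).trans (hfC 0)
  haveI : IsFiniteMeasure (volume.restrict Z) := ⟨by
    rw [Measure.restrict_apply MeasurableSet.univ, univ_inter]; exact hZf.lt_top⟩
  have hi : Integrable f (volume.restrict Z) :=
    Integrable.of_bound hf.aestronglyMeasurable C (ae_of_all _ fun x => by
      rw [Real.norm_eq_abs]; exact hfC x)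
  have hi2 : Integrable (fun x => f x ^ 2) (volume.restrict Z) :=
    Integrable.of_bound (hf.pow_const 2).aestronglyMeasurable (C ^ 2) (ae_of_all _ fun x => by
      rw [Real.norm_eq_abs, abs_pow]; exact pow_le_pow_left₀ (abs_nonneg _) (hfC x) 2)
  obtain ⟨v, hv⟩ : ∃ v, v = vo Z := ⟨_, rfl⟩
  obtain ⟨c, hc⟩ : ∃ c, c = ∫ x in Z, f x := ⟨_, rfl⟩
  obtain ⟨s, hs⟩ : ∃ s, s = ∫ x in Z, f x ^ 2 := ⟨_, rfl⟩
  have hv0 : 0 ≤ v := by rw [hv]; exact vo_nonneg _
  have hexp : ∀ t : ℝ, 0 ≤ t ^ 2 * v - 2 * t * c + s := by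
    intro t
    have h0 : 0 ≤ ∫ x in Z, (t - f x) ^ 2 := integral_nonneg (fun x => sq_nonneg _)
    have e : ∀ x, (t - f x) ^ 2 = t ^ 2 - (2 * t) * f x + f x ^ 2 := fun x => by ring
    simp only [e] at h0
    have hconst : Integrable (fun _ : EE d => t ^ 2) (volume.restrict Z) := integrable_const _
    have h1 : Integrable (fun x => t ^ 2 - (2 * t) * f x) (volume.restrict Z) :=
      hconst.sub (hi.const_mul _)
    rw [integral_add h1 hi2, integral_sub hconst (hi.const_mul _), integral_const_mul,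
      setIntegral_const, smul_eq_mul, ← hc, ← hs] at h0
    have e2 : volume.real Z = v := by rw [hv]; rfl
    rw [e2] at h0
    linarith
  rw [← hc, ← hs, ← hv]
  by_cases hv00 : v = 0
  · have hz : volume Z = 0 := by
      have : vo Z = 0 := by rw [← hv]; exact hv00
      simp only [vo, ENNReal.toReal_eq_zero_iff] at this
      exact this.resolve_right hZf
    have : c = 0 := by
      rw [hc, Measure.restrict_eq_zero.mpr hz, integral_zero_measure]
    rw [this, hv00]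
    simp
  · have hvpos : 0 < v := lt_of_le_of_ne hv0 (Ne.symm hv00)
    have := hexp (c / v)
    have e : (c / v) ^ 2 * v - 2 * (c / v) * c + s = s - c ^ 2 / v := by
      field_simp
      ring
    rw [e] at this
    have h3 : c ^ 2 / v ≤ s := by linarith
    rw [div_le_iff₀ hvpos] at h3
    linarith

/-- Barycentre of a cell. -/
noncomputable def bary {ι : Type*} (P : Measure (EE d)) (X : EE d → EE d) (y : ι → EE d)
    (w : ι → ℝ) (l : ι) : EE d :=
  ∫ ω in X ⁻¹' lagCell y w l, X ω ∂P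

section Compare

variable {ι : Type*} [Fintype ι] [Nonempty ι]
variable {K : Set (EE d)} {R : ℝ} {i : Fin d} {ϖ ϖ' : EE d → ℝ} {M Λ ε : ℝ}

/-- Per cell facts for the change of variables. -/
lemma cell_change (hB : BodyHyp K R) (H : ShearHyp K i ϖ ϖ' M Λ ε) {S : Set (EE d)}
    (hS : MeasurableSet S) :
    (∫ x in shear ε ϖ i ⁻¹' S ∩ K, shJ ε ϖ' x) = vo (S ∩ K) ∧
    (∫ x in shear ε ϖ i ⁻¹' S ∩ K, shJ ε ϖ' x • shear ε ϖ i x) = mo (S ∩ K) := by
  have hGS : MeasurableSet (shear ε ϖ i ⁻¹' S) := H.measurable_shear hS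
  constructor
  · have h := H.integral_change hB.meas (f := S.indicator (fun _ => (1:ℝ)))
      (measurable_const.indicator hS)
    have e1 : ∫ x in K, S.indicator (fun _ => (1:ℝ)) x = vo (S ∩ K) := by
      rw [setIntegral_indicator hS, setIntegral_const, smul_eq_mul, mul_one, inter_comm]
      rfl
    have e2 : (fun x => shJ ε ϖ' x • S.indicator (fun _ => (1:ℝ)) (shear ε ϖ i x))
        = (shear ε ϖ i ⁻¹' S).indicator (shJ ε ϖ') := by
      ext x
      by_cases hx : shear ε ϖ i x ∈ S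
      · rw [indicator_of_mem hx, indicator_of_mem (show x ∈ shear ε ϖ i ⁻¹' S from hx)]
        simp
      · rw [indicator_of_notMem hx, indicator_of_notMem (show x ∉ shear ε ϖ i ⁻¹' S from hx)]
        simp
    rw [e1, e2, setIntegral_indicator hGS, inter_comm] at h
    exact h
  · have h := H.integral_change hB.meas (f := S.indicator (fun x : EE d => x))
      (measurable_id.indicator hS)
    have e1 : ∫ x in K, S.indicator (fun x : EE d => x) x = mo (S ∩ K) := by
      rw [setIntegral_indicator hS, inter_comm]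
      rfl
    have e2 : (fun x => shJ ε ϖ' x • S.indicator (fun x : EE d => x) (shear ε ϖ i x))
        = (shear ε ϖ i ⁻¹' S).indicator (fun x => shJ ε ϖ' x • shear ε ϖ i x) := by
      ext1 x
      by_cases hx : shear ε ϖ i x ∈ S
      · rw [indicator_of_mem hx, indicator_of_mem (show x ∈ shear ε ϖ i ⁻¹' S from hx)]
      · rw [indicator_of_notMem hx, indicator_of_notMem (show x ∉ shear ε ϖ i ⁻¹' S from hx)]
        simp
    rw [e1, e2, setIntegral_indicator hGS, inter_comm] at h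
    exact h

/-- The per-cell estimates. -/
lemma cell_estimates (hB : BodyHyp K R) (H : ShearHyp K i ϖ ϖ' M Λ ε) {S : Set (EE d)}
    (hS : MeasurableSet S) :
    let Z := shear ε ϖ i ⁻¹' S ∩ K
    |vo (S ∩ K) - vo Z| ≤ vo Z / 2 ∧
    (vo (S ∩ K) - vo Z) ^ 2 ≤ vo Z * ∫ x in Z, (ε * ϖ' x) ^ 2 ∧
    ‖mo (S ∩ K) - ∫ x in Z, shear ε ϖ i x‖ ^ 2 ≤ R ^ 2 * (vo Z * ∫ x in Z, (ε * ϖ' x) ^ 2) := by
  intro Z
  have hGS : MeasurableSet (shear ε ϖ i ⁻¹' S) := H.measurable_shear hS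
  have hZ : MeasurableSet Z := hGS.inter hB.meas
  have hZK : Z ⊆ K := inter_subset_right
  have hZf : volume Z ≠ ⊤ :=
    ((measure_mono hZK).trans_lt hB.compact.measure_lt_top).ne
  haveI : IsFiniteMeasure (volume.restrict Z) := ⟨by
    rw [Measure.restrict_apply MeasurableSet.univ, univ_inter]; exact hZf.lt_top⟩
  obtain ⟨h1, h2⟩ := cell_change hB H hS
  have hJm := H.measurable_J
  have hu : ∀ x, |ε * ϖ' x| ≤ 1 / 2 := by
    intro x
    have a1 := H.J_lo x
    have a2 := H.J_hi x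
    simp only [shJ] at a1 a2
    rw [abs_le]; constructor <;> linarith
  have hum : Measurable (fun x => ε * ϖ' x) := H.meas'.const_mul ε
  have hui : Integrable (fun x => ε * ϖ' x) (volume.restrict Z) :=
    Integrable.of_bound hum.aestronglyMeasurable (1 / 2) (ae_of_all _ fun x => by
      rw [Real.norm_eq_abs]; exact hu x)
  have hGm := H.measurable_shear
  have hGb : ∀ᵐ x ∂(volume.restrict Z), ‖shear ε ϖ i x‖ ≤ R :=
    (ae_restrict_iff' hZ).mpr (ae_of_all _ fun x hx => hB.bound _ (H.shear_mem (hZK hx)))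
  have hGi : Integrable (shear ε ϖ i) (volume.restrict Z) :=
    Integrable.of_bound hGm.aestronglyMeasurable R hGb
  have huGi : Integrable (fun x => (ε * ϖ' x) • shear ε ϖ i x) (volume.restrict Z) := by
    refine Integrable.of_bound (hum.smul hGm).aestronglyMeasurable (1 / 2 * R) ?_
    filter_upwards [hGb] with x hx
    rw [norm_smul, Real.norm_eq_abs]
    exact mul_le_mul (hu x) hx (norm_nonneg _) (by norm_num)
  -- e = ∫ u
  have he : vo (S ∩ K) - vo Z = ∫ x in Z, ε * ϖ' x := by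
    rw [← h1]
    have : ∀ x, shJ ε ϖ' x = 1 + ε * ϖ' x := fun x => rfl
    simp only [this]
    rw [integral_add (integrable_const _) hui, setIntegral_const, smul_eq_mul, mul_one]
    have : volume.real Z = vo Z := rfl
    rw [this]
    ring
  have hg : mo (S ∩ K) - ∫ x in Z, shear ε ϖ i x = ∫ x in Z, (ε * ϖ' x) • shear ε ϖ i x := by
    rw [← h2]
    have : ∀ x, shJ ε ϖ' x • shear ε ϖ i x = shear ε ϖ i x + (ε * ϖ' x) • shear ε ϖ i x := by
      intro x
      rw [shJ, add_smul, one_smul]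
    simp only [this]
    rw [integral_add hGi huGi]
    abel
  have habsu : (∫ x in Z, |ε * ϖ' x|) ^ 2 ≤ vo Z * ∫ x in Z, (ε * ϖ' x) ^ 2 := by
    have := integral_sq_le hZ hZf (f := fun x => |ε * ϖ' x|) hum.abs (C := 1 / 2)
      (fun x => by rw [abs_abs]; exact hu x)
    simpa only [sq_abs] using this
  have habsu0 : 0 ≤ ∫ x in Z, |ε * ϖ' x| := integral_nonneg (fun x => abs_nonneg _)
  refine ⟨?_, ?_, ?_⟩
  · rw [he]
    have := norm_setIntegral_le_of_norm_le_const (μ := volume) (s := Z)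
      (f := fun x => ε * ϖ' x) (C := 1 / 2) hZf.lt_top (fun x _ => by
        rw [Real.norm_eq_abs]; exact hu x)
    rw [Real.norm_eq_abs] at this
    refine this.trans (le_of_eq ?_)
    simp only [vo, Measure.real]
    ring
  · rw [he]
    have h3 := integral_sq_le hZ hZf hum hu
    exact h3
  · rw [hg]
    have h3 : ‖∫ x in Z, (ε * ϖ' x) • shear ε ϖ i x‖ ≤ R * ∫ x in Z, |ε * ϖ' x| := by
      calc ‖∫ x in Z, (ε * ϖ' x) • shear ε ϖ i x‖ ≤ ∫ x in Z, ‖(ε * ϖ' x) • shear ε ϖ i x‖ :=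
            norm_integral_le_integral_norm _
        _ ≤ ∫ x in Z, R * |ε * ϖ' x| := by
            apply integral_mono_ae huGi.norm (hui.abs.const_mul R)
            filter_upwards [hGb] with x hx
            simp only [norm_smul, Real.norm_eq_abs]
            rw [mul_comm]
            exact mul_le_mul_of_nonneg_right hx (abs_nonneg _)
        _ = _ := integral_const_mul _ _
    have h4 : ‖∫ x in Z, (ε * ϖ' x) • shear ε ϖ i x‖ ^ 2 ≤ (R * ∫ x in Z, |ε * ϖ' x|) ^ 2 :=
      pow_le_pow_left₀ (norm_nonneg _) h3 2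
    rw [mul_pow] at h4
    exact h4.trans (mul_le_mul_of_nonneg_left habsu (sq_nonneg _))

/-- Comparison of barycentres for the two sources. -/
theorem source_comparison (hB : BodyHyp K R) (H : ShearHyp K i ϖ ϖ' M Λ ε) {y : ι → EE d}
    (hy : Function.Injective y) {m : ι → ℝ} (hm : ∀ l, 0 < m l) {w₀ w₁ : ι → ℝ}
    (hw₀ : ∀ l, (uniformProbOn K (id ⁻¹' lagCell y w₀ l)).toReal = m l)
    (hw₁ : ∀ l, (uniformProbOn K (shear ε ϖ i ⁻¹' lagCell y w₁ l)).toReal = m l) :
    ∑ l, ‖bary (uniformProbOn K) (shear ε ϖ i) y w₁ l - bary (uniformProbOn K) id y w₀ l‖ ^ 2 / m l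
      ≤ 40002 * R ^ 2 * (∫ x in K, (ε * ϖ' x) ^ 2) / vo K := by
  have hV := hB.vo_pos
  have hG := H.measurable_shear
  obtain ⟨V, hVdef⟩ : ∃ V, V = vo K := ⟨_, rfl⟩
  rw [← hVdef] at hV ⊢
  have hcell₀ : ∀ l, MeasurableSet (lagCell y w₀ l) := measurableSet_lagCell y w₀
  have hcell₁ : ∀ l, MeasurableSet (lagCell y w₁ l) := measurableSet_lagCell y w₁
  obtain ⟨Z, hZ⟩ : ∃ Z : ι → Set (EE d), Z = fun l => shear ε ϖ i ⁻¹' lagCell y w₁ l ∩ K := ⟨_, rfl⟩
  have hZl : ∀ l, shear ε ϖ i ⁻¹' lagCell y w₁ l ∩ K = Z l := fun l => by rw [hZ]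
  have hA : ∀ l, vo (lagCell y w₀ l ∩ K) = V * m l := by
    intro l
    have := uniform_apply hB (S := id ⁻¹' lagCell y w₀ l) (hcell₀ l)
    rw [hw₀ l, preimage_id, ← hVdef] at this
    rw [this]
    field_simp
  have hZv : ∀ l, vo (Z l) = V * m l := by
    intro l
    have := uniform_apply hB (S := shear ε ϖ i ⁻¹' lagCell y w₁ l) (hG (hcell₁ l))
    rw [hw₁ l, ← hVdef, hZl] at this
    rw [this]
    field_simp
  have hest := fun l => cell_estimates hB H (hcell₁ l)
  simp only [hZl, hZv] at hest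
  obtain ⟨U, hU⟩ : ∃ U : ι → ℝ, U = fun l => ∫ x in Z l, (ε * ϖ' x) ^ 2 := ⟨_, rfl⟩
  have hUl : ∀ l, ∫ x in Z l, (ε * ϖ' x) ^ 2 = U l := fun l => by rw [hU]
  simp only [hUl] at hest
  have hu : ∀ x, |ε * ϖ' x| ≤ 1 / 2 := by
    intro x
    have a1 := H.J_lo x
    have a2 := H.J_hi x
    simp only [shJ] at a1 a2
    rw [abs_le]; constructor <;> linarith
  have hum : Measurable (fun x => ε * ϖ' x) := H.meas'.const_mul ε
  haveI : IsFiniteMeasure (volume.restrict K) := ⟨by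
    rw [Measure.restrict_apply MeasurableSet.univ, univ_inter]; exact hB.compact.measure_lt_top⟩
  have hu2i : Integrable (fun x => (ε * ϖ' x) ^ 2) (volume.restrict K) :=
    Integrable.of_bound (hum.pow_const 2).aestronglyMeasurable ((1 / 2) ^ 2) (ae_of_all _ fun x => by
      rw [Real.norm_eq_abs, abs_pow]; exact pow_le_pow_left₀ (abs_nonneg _) (hu x) 2)
  have hsumU : ∑ l, U l = ∫ x in K, (ε * ϖ' x) ^ 2 := by
    rw [integral_eq_sum_cells (P := volume.restrict K) (X := shear ε ϖ i) hG hy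
      (nullHyper_restrict_shear H) w₁ hu2i]
    apply Finset.sum_congr rfl
    intro l _
    rw [Measure.restrict_restrict (hG (hcell₁ l)), hZl, hU]
  have hU0 : ∀ l, 0 ≤ U l := fun l => by
    rw [hU]; exact integral_nonneg (fun x => sq_nonneg _)
  obtain ⟨a, ha⟩ : ∃ a : ι → ℝ, a = fun l => V * m l := ⟨_, rfl⟩
  have hal : ∀ l, V * m l = a l := fun l => by rw [ha]
  have hapos : ∀ l, 0 < a l := fun l => by rw [ha]; exact mul_pos hV (hm l)
  simp only [hal] at hest hA hZv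
  have htwo := two_partition_bound hB.compact hB.convex hB.Rpos hB.bound hy w₀ w₁
    (fun l => by rw [hA]; exact hapos l)
    (fun l => by rw [hA]; exact (hest l).1)
  simp only [hA] at htwo
  have hE : ∑ l, (vo (lagCell y w₁ l ∩ K) - a l) ^ 2 / a l ≤ ∑ l, U l := by
    apply Finset.sum_le_sum
    intro l _
    rw [div_le_iff₀ (hapos l), mul_comm]
    exact (hest l).2.1
  have hbary₀ : ∀ l, bary (uniformProbOn K) id y w₀ l = V⁻¹ • mo (lagCell y w₀ l ∩ K) := by
    intro l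
    rw [bary, preimage_id, setIntegral_uniform (hcell₀ l), ← hVdef]
    rfl
  have hbary₁ : ∀ l, bary (uniformProbOn K) (shear ε ϖ i) y w₁ l
      = V⁻¹ • ∫ x in Z l, shear ε ϖ i x := by
    intro l
    rw [bary, setIntegral_uniform (hG (hcell₁ l)), ← hVdef, hZl]
  have hR2 : 0 ≤ R ^ 2 := sq_nonneg _
  have hterm : ∀ l, ‖bary (uniformProbOn K) (shear ε ϖ i) y w₁ l
        - bary (uniformProbOn K) id y w₀ l‖ ^ 2 / m l
      ≤ V⁻¹ * (2 * (‖mo (lagCell y w₁ l ∩ K) - mo (lagCell y w₀ l ∩ K)‖ ^ 2 / a l)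
        + 2 * R ^ 2 * U l) := by
    intro l
    rw [hbary₀, hbary₁, ← smul_sub, norm_smul, mul_pow, Real.norm_eq_abs, sq_abs]
    have e1 : (∫ x in Z l, shear ε ϖ i x) - mo (lagCell y w₀ l ∩ K)
        = (mo (lagCell y w₁ l ∩ K) - mo (lagCell y w₀ l ∩ K))
          - (mo (lagCell y w₁ l ∩ K) - ∫ x in Z l, shear ε ϖ i x) := by abel
    rw [e1]
    obtain ⟨p, hp⟩ : ∃ p, p = mo (lagCell y w₁ l ∩ K) - mo (lagCell y w₀ l ∩ K) := ⟨_, rfl⟩
    obtain ⟨q, hq⟩ : ∃ q, q = mo (lagCell y w₁ l ∩ K) - ∫ x in Z l, shear ε ϖ i x := ⟨_, rfl⟩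
    rw [← hp, ← hq]
    have h3 : ‖q‖ ^ 2 ≤ R ^ 2 * (a l * U l) := by rw [hq]; exact (hest l).2.2
    have h4 : ‖p - q‖ ^ 2 ≤ 2 * ‖p‖ ^ 2 + 2 * ‖q‖ ^ 2 := by
      have : ‖p - q‖ ≤ ‖p‖ + ‖q‖ := norm_sub_le _ _
      have h5 : ‖p - q‖ ^ 2 ≤ (‖p‖ + ‖q‖) ^ 2 := pow_le_pow_left₀ (norm_nonneg _) this 2
      nlinarith [sq_nonneg (‖p‖ - ‖q‖)]
    have hml := hm l
    have hal' := hapos l
    have e2 : (V⁻¹) ^ 2 * ‖p - q‖ ^ 2 / m l = V⁻¹ * (‖p - q‖ ^ 2 / a l) := by
      rw [ha]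
      field_simp
    rw [e2]
    apply mul_le_mul_of_nonneg_left _ (inv_nonneg.mpr hV.le)
    rw [div_le_iff₀ hal']
    have e3 : (2 * (‖p‖ ^ 2 / a l) + 2 * R ^ 2 * U l) * a l
        = 2 * ‖p‖ ^ 2 + 2 * (R ^ 2 * (a l * U l)) := by
      field_simp
    rw [e3]
    linarith
  refine (Finset.sum_le_sum (fun l _ => hterm l)).trans ?_
  rw [← Finset.mul_sum, Finset.sum_add_distrib, ← Finset.mul_sum, ← Finset.mul_sum, hsumU] at *
  have h6 : 2 * ∑ l, ‖mo (lagCell y w₁ l ∩ K) - mo (lagCell y w₀ l ∩ K)‖ ^ 2 / a l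
      ≤ 2 * (20000 * R ^ 2 * ∫ x in K, (ε * ϖ' x) ^ 2) := by
    apply mul_le_mul_of_nonneg_left _ (by norm_num)
    exact htwo.trans (mul_le_mul_of_nonneg_left hE (by positivity))
  rw [div_eq_inv_mul]
  apply mul_le_mul_of_nonneg_left _ (inv_nonneg.mpr hV.le)
  linarith

/-- The subgradient inequality for the optimal value. -/
lemma subgrad_ineq {P : Measure (EE d)} {X : EE d → EE d} [IsProbabilityMeasure P]
    (hX : Measurable X) (hXK : ∀ᵐ ω ∂P, ‖X ω‖ ≤ R) (hn : NullHyper P X)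
    {y y' : ι → EE d} (hy : Function.Injective y) (hy' : Function.Injective y') {m w w' : ι → ℝ}
    (hw : ∀ l, (P (X ⁻¹' lagCell y w l)).toReal = m l)
    (hw' : ∀ l, (P (X ⁻¹' lagCell y' w' l)).toReal = m l) :
    ∑ l, ⟪bary P X y w l, y' l - y l⟫ ≤ optVal P X y' m - optVal P X y m := by
  rw [optVal_eq_of_cells hX hXK hn hy' hw', optVal_eq_of_cells hX hXK hn hy hw,
    dualK_eq_cells hX hXK hn hy hw]
  have h1 := cell_plan_le hX hXK hn hy hw y' w'
  have hXi : Integrable X P := integrable_X hX hXK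
  have e : ∀ l, ⟪bary P X y w l, y' l - y l⟫
      = ∫ ω in X ⁻¹' lagCell y w l, ⟪X ω, y' l⟫ ∂P - ∫ ω in X ⁻¹' lagCell y w l, ⟪X ω, y l⟫ ∂P := by
    intro l
    have i1 : IntegrableOn (fun ω => ⟪X ω, y' l⟫) (X ⁻¹' lagCell y w l) P :=
      (integrable_inner_X hX hXK (y' l)).integrableOn
    have i2 : IntegrableOn (fun ω => ⟪X ω, y l⟫) (X ⁻¹' lagCell y w l) P :=
      (integrable_inner_X hX hXK (y l)).integrableOn
    rw [real_inner_comm, bary, ← integral_inner hXi.integrableOn, ← integral_sub i1 i2]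
    apply integral_congr_ae
    refine ae_of_all _ fun ω => ?_
    simp only
    rw [inner_sub_left, real_inner_comm, real_inner_comm (X ω) (y l)]
  simp only [e, Finset.sum_sub_distrib]
  linarith

/-- Norm bound of barycentres. -/
lemma norm_bary_le {P : Measure (EE d)} {X : EE d → EE d} [IsProbabilityMeasure P]
    (hX : Measurable X) (hR0 : 0 ≤ R) (hXK : ∀ᵐ ω ∂P, ‖X ω‖ ≤ R) (y : ι → EE d) (w : ι → ℝ) (l : ι) :
    ‖bary P X y w l‖ ≤ R := by
  have h1 : ∀ᵐ ω ∂(P.restrict (X ⁻¹' lagCell y w l)), ‖X ω‖ ≤ R :=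
    ae_restrict_of_ae hXK
  have h2 := norm_integral_le_of_norm_le_const h1
  refine h2.trans ?_
  have h3 : (P.restrict (X ⁻¹' lagCell y w l)).real univ ≤ 1 := by
    simp only [Measure.real, Measure.restrict_apply MeasurableSet.univ, univ_inter]
    have : P (X ⁻¹' lagCell y w l) ≤ 1 := prob_le_one
    exact ENNReal.toReal_le_of_le_ofReal zero_le_one (by simpa using this)
  calc R * (P.restrict (X ⁻¹' lagCell y w l)).real univ ≤ R * 1 :=
        mul_le_mul_of_nonneg_left h3 hR0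
    _ = R := mul_one R

/-- Weighted Cauchy–Schwarz. -/
lemma weighted_cs {m : ι → ℝ} (hm : ∀ l, 0 < m l) (c v : ι → EE d) :
    ∑ l, ⟪c l, v l⟫ ≤ √(∑ l, ‖c l‖ ^ 2 / m l) * √(∑ l, m l * ‖v l‖ ^ 2) := by
  have h1 : ∀ l, ⟪c l, v l⟫ ≤ (‖c l‖ / √(m l)) * (√(m l) * ‖v l‖) := by
    intro l
    have h2 : √(m l) ≠ 0 := (Real.sqrt_pos.mpr (hm l)).ne'
    have e : (‖c l‖ / √(m l)) * (√(m l) * ‖v l‖) = ‖c l‖ * ‖v l‖ := by
      field_simp
    rw [e]
    exact real_inner_le_norm _ _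
  refine (Finset.sum_le_sum (fun l _ => h1 l)).trans ?_
  refine (Real.sum_mul_le_sqrt_mul_sqrt _ _ _).trans (le_of_eq ?_)
  congr 2
  · apply Finset.sum_congr rfl
    intro l _
    rw [div_pow, Real.sq_sqrt (hm l).le]
  · apply Finset.sum_congr rfl
    intro l _
    rw [mul_pow, Real.sq_sqrt (hm l).le]

/-- The finite set of collision times. -/
lemma finite_collisions [Finite ι] {y v : ι → EE d} (hy : Function.Injective y) :
    {t : ℝ | ¬ Function.Injective (fun l => y l + t • v l)}.Finite := by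
  classical
  have hsub : {t : ℝ | ¬ Function.Injective (fun l => y l + t • v l)}
      ⊆ ⋃ p : {p : ι × ι // p.1 ≠ p.2}, {t : ℝ | y p.1.1 + t • v p.1.1 = y p.1.2 + t • v p.1.2} := by
    intro t ht
    simp only [Function.Injective, mem_setOf_eq] at ht
    push Not at ht
    obtain ⟨a, b, hab, hne⟩ := ht
    exact mem_iUnion.mpr ⟨⟨(a, b), hne⟩, hab⟩
  refine Set.Finite.subset (Set.finite_iUnion fun p => ?_) hsub
  apply Set.Subsingleton.finite
  intro t₁ h₁ t₂ h₂
  simp only [mem_setOf_eq] at h₁ h₂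
  by_contra hne
  have hsubt : (t₁ - t₂) • (v p.1.1 - v p.1.2) = 0 := by
    have : (t₁ - t₂) • (v p.1.1 - v p.1.2)
        = (y p.1.1 + t₁ • v p.1.1 - (y p.1.2 + t₁ • v p.1.2))
          - (y p.1.1 + t₂ • v p.1.1 - (y p.1.2 + t₂ • v p.1.2)) := by
      simp only [sub_smul, smul_sub]
      abel
    rw [this, h₁, h₂]
    simp
  have hv : v p.1.1 = v p.1.2 := by
    have := (smul_eq_zero.mp hsubt).resolve_left (sub_ne_zero.mpr hne)
    exact sub_eq_zero.mp this
  have hyy : y p.1.1 = y p.1.2 := by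
    rw [hv] at h₁
    exact add_right_cancel h₁
  exact p.2 (hy hyy)

/-- The path bound. -/
theorem path_bound (hB : BodyHyp K R) (H : ShearHyp K i ϖ ϖ' M Λ ε) {y z : ι → EE d}
    (hy : Function.Injective y) (hz : Function.Injective z) {m : ι → ℝ} (hm : ∀ l, 0 < m l)
    (hsum : ∑ l, m l = 1) :
    optVal (uniformProbOn K) (shear ε ϖ i) y m - optVal (uniformProbOn K) id y m
        - optVal (uniformProbOn K) (shear ε ϖ i) z m + optVal (uniformProbOn K) id z m
      ≤ √(40002 * R ^ 2 * (∫ x in K, (ε * ϖ' x) ^ 2) / vo K)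
        * √(∑ l, m l * ‖z l - y l‖ ^ 2) := by
  classical
  haveI := hB.isProb
  obtain ⟨v, hv⟩ : ∃ v : ι → EE d, v = fun l => z l - y l := ⟨_, rfl⟩
  have hvl : ∀ l, z l - y l = v l := fun l => by rw [hv]
  obtain ⟨yt, hyt⟩ : ∃ yt : ℝ → ι → EE d, yt = fun t l => y l + t • v l := ⟨_, rfl⟩
  have hyt0 : yt 0 = y := by rw [hyt]; ext1 l; simp
  have hyt1 : yt 1 = z := by rw [hyt, hv]; ext1 l; simp
  have hdiff : ∀ t t' l, yt t' l - yt t l = (t' - t) • v l := by
    intro t t' l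
    rw [hyt]
    simp only [sub_smul]
    abel
  have hfin := finite_collisions (v := v) hy
  obtain ⟨F, hF⟩ : ∃ F : Finset ℝ, (F : Set ℝ) = {t : ℝ | ¬ Function.Injective (fun l => y l + t • v l)} :=
    ⟨hfin.toFinset, hfin.coe_toFinset⟩
  have hgood : ∀ t, t ∉ F → Function.Injective (yt t) := by
    intro t ht
    have : t ∉ (F : Set ℝ) := ht
    rw [hF] at this
    simp only [mem_setOf_eq, not_not] at this
    rw [hyt]
    exact this
  have h0 : (0:ℝ) ∉ F := by
    intro h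
    have h' : (0:ℝ) ∈ (F : Set ℝ) := h
    rw [hF] at h'
    apply h'
    simpa using hy
  have h1 : (1:ℝ) ∉ F := by
    intro h
    have h' : (1:ℝ) ∈ (F : Set ℝ) := h
    rw [hF] at h'
    apply h'
    have : (fun l => y l + (1:ℝ) • v l) = z := by rw [hv]; ext1 l; simp
    rw [this]
    exact hz
  have hGm := H.measurable_shear
  have hGb := ae_uniform_shear_bound hB H
  have hIb := ae_uniform_bound hB
  have hIm : Measurable (id : EE d → EE d) := measurable_id
  have hR0 := hB.Rpos.le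
  have hexG : ∀ t, ∃ w : ι → ℝ, t ∉ F →
      ∀ l, (uniformProbOn K (shear ε ϖ i ⁻¹' lagCell (yt t) w l)).toReal = m l := by
    intro t
    by_cases ht : t ∉ F
    · obtain ⟨w, hw⟩ := exists_weights hGm hR0 hGb (nullHyper_uniform_shear H) (hgood t ht) hm hsum
      exact ⟨w, fun _ => hw⟩
    · exact ⟨0, fun h => absurd h ht⟩
  have hexI : ∀ t, ∃ w : ι → ℝ, t ∉ F →
      ∀ l, (uniformProbOn K (id ⁻¹' lagCell (yt t) w l)).toReal = m l := by
    intro t
    by_cases ht : t ∉ F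
    · obtain ⟨w, hw⟩ := exists_weights hIm hR0 hIb nullHyper_uniform_id (hgood t ht) hm hsum
      exact ⟨w, fun _ => hw⟩
    · exact ⟨0, fun h => absurd h ht⟩
  choose wG hwG using hexG
  choose wI hwI using hexI
  obtain ⟨sG, hsG⟩ : ∃ sG : ℝ → ℝ, sG = fun t =>
      ∑ l, ⟪bary (uniformProbOn K) (shear ε ϖ i) (yt t) (wG t) l, v l⟫ := ⟨_, rfl⟩
  obtain ⟨sI, hsI⟩ : ∃ sI : ℝ → ℝ, sI = fun t =>
      ∑ l, ⟪bary (uniformProbOn K) id (yt t) (wI t) l, v l⟫ := ⟨_, rfl⟩
  obtain ⟨MG, hMG⟩ : ∃ MG : ℝ → ℝ, MG = fun t => optVal (uniformProbOn K) (shear ε ϖ i) (yt t) m :=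
    ⟨_, rfl⟩
  obtain ⟨MI, hMI⟩ : ∃ MI : ℝ → ℝ, MI = fun t => optVal (uniformProbOn K) id (yt t) m := ⟨_, rfl⟩
  have hsubG : ∀ t ∈ Icc (0:ℝ) 1, t ∉ F → ∀ t' ∈ Icc (0:ℝ) 1, t' ∉ F →
      (t' - t) * sG t ≤ MG t' - MG t := by
    intro t _ ht t' _ ht'
    have := subgrad_ineq hGm hGb (nullHyper_uniform_shear H) (hgood t ht) (hgood t' ht')
      (hwG t ht) (hwG t' ht')
    simp only [hdiff, inner_smul_right, ← Finset.mul_sum] at this
    rw [hsG, hMG]
    exact this
  have hsubI : ∀ t ∈ Icc (0:ℝ) 1, t ∉ F → ∀ t' ∈ Icc (0:ℝ) 1, t' ∉ F →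
      (t' - t) * sI t ≤ MI t' - MI t := by
    intro t _ ht t' _ ht'
    have := subgrad_ineq hIm hIb nullHyper_uniform_id (hgood t ht) (hgood t' ht')
      (hwI t ht) (hwI t' ht')
    simp only [hdiff, inner_smul_right, ← Finset.mul_sum] at this
    rw [hsI, hMI]
    exact this
  have hBd : ∀ t ∈ Icc (0:ℝ) 1, t ∉ F → |sG t| ≤ R * ∑ l, ‖v l‖ := by
    intro t _ _
    rw [hsG, Finset.mul_sum]
    refine (Finset.abs_sum_le_sum_abs _ _).trans (Finset.sum_le_sum fun l _ => ?_)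
    exact (abs_real_inner_le_norm _ _).trans (mul_le_mul_of_nonneg_right
      (norm_bary_le hGm hR0 hGb _ _ _) (norm_nonneg _))
  have hAd : ∀ t ∈ Icc (0:ℝ) 1, t ∉ F → sI t - sG t
      ≤ √(40002 * R ^ 2 * (∫ x in K, (ε * ϖ' x) ^ 2) / vo K) * √(∑ l, m l * ‖z l - y l‖ ^ 2) := by
    intro t _ ht
    have hcomp := source_comparison hB H (hgood t ht) hm (hwI t ht) (hwG t ht)
    have hcs := weighted_cs hm (fun l => bary (uniformProbOn K) (shear ε ϖ i) (yt t) (wG t) l
      - bary (uniformProbOn K) id (yt t) (wI t) l) (fun l => - v l)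
    simp only [inner_neg_right, norm_neg, inner_sub_left] at hcs
    have e : sI t - sG t = ∑ l, -(⟪bary (uniformProbOn K) (shear ε ϖ i) (yt t) (wG t) l, v l⟫
        - ⟪bary (uniformProbOn K) id (yt t) (wI t) l, v l⟫) := by
      rw [hsG, hsI, Finset.sum_neg_distrib, Finset.sum_sub_distrib]
      ring
    rw [e]
    simp only [hvl]
    refine hcs.trans (mul_le_mul_of_nonneg_right (Real.sqrt_le_sqrt hcomp) (Real.sqrt_nonneg _))
  have key := riemann_bound h0 h1 hsubG hsubI hBd hAd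
  simp only [hMG, hMI, hyt0, hyt1] at key
  linarith

end Compare

end Crest.Agent.OT
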