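import Crest.Agent.Lib.OTPath

/-!
# Potentials for optimal maps: local swaps, cyclic monotonicity on Lebesgue points, Rockafellar.
-/

set_option autoImplicit false

open MeasureTheory Set Filter
open scoped ENNReal NNReal RealInnerProductSpace Topology
open Crest.AnalysisR.OT

namespace Crest.Agent.OT

variable {d : ℕ}

section Piecewise

variable {ι : Type*} [Fintype ι]

/-- The piecewise translation. -/
noncomputable def pwT (B : ι → Set (EE d)) (v : ι → EE d) (u : EE d) : EE d :=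
  by classical exact u + ∑ k, (B k).indicator (fun _ => v k) u

lemma pwT_of_mem {B : ι → Set (EE d)} {v : ι → EE d} (hd : Pairwise (Function.onFun Disjoint B))
    {k : ι} {u : EE d} (hu : u ∈ B k) : pwT B v u = u + v k := by
  classical
  simp only [pwT]
  congr 1
  rw [Finset.sum_eq_single k]
  · rw [indicator_of_mem hu]
  · intro j _ hj
    apply indicator_of_notMem
    intro h
    exact (Set.disjoint_left.mp (hd hj) h) hu
  · simp

lemma pwT_of_notMem {B : ι → Set (EE d)} {v : ι → EE d} {u : EE d} (hu : u ∉ ⋃ k, B k) :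
    pwT B v u = u := by
  classical
  simp only [pwT]
  have : ∑ k, (B k).indicator (fun _ => v k) u = 0 := by
    apply Finset.sum_eq_zero
    intro k _
    apply indicator_of_notMem
    exact fun h => hu (mem_iUnion.mpr ⟨k, h⟩)
  rw [this, add_zero]

lemma measurable_pwT {B : ι → Set (EE d)} (hB : ∀ k, MeasurableSet (B k)) (v : ι → EE d) :
    Measurable (pwT B v) := by
  classical
  unfold pwT
  exact measurable_id.add (Finset.measurable_sum _ (fun k _ =>
    measurable_const.indicator (hB k)))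

/-- The splitting formula. -/
theorem lintegral_pwT {K : Set (EE d)} (hK : MeasurableSet K) {B : ι → Set (EE d)}
    (hBm : ∀ k, MeasurableSet (B k)) (hd : Pairwise (Function.onFun Disjoint B))
    (hBK : ∀ k, B k ⊆ K) (π : Equiv.Perm ι) {v : ι → EE d}
    (htr : ∀ k u, u ∈ B k ↔ u + v k ∈ B (π k)) {F : EE d → EE d → ℝ≥0∞}
    (hF : Measurable (Function.uncurry F)) :
    ∫⁻ u in K, F u (pwT B v u) = (∫⁻ u in K \ ⋃ k, B k, F u u)
      + ∑ k, ∫⁻ w in B (π k), F (w - v k) w := by
  classical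
  have hU : MeasurableSet (⋃ k, B k) := MeasurableSet.iUnion hBm
  have hUK : K ∩ ⋃ k, B k = ⋃ k, B k := inter_eq_right.mpr (iUnion_subset hBK)
  rw [← lintegral_inter_add_diff _ K hU, hUK, lintegral_iUnion hBm hd, tsum_fintype, add_comm]
  refine congr_arg₂ (· + ·) ?_ ?_
  · apply setLIntegral_congr_fun (hK.diff hU)
    intro u hu
    simp only
    rw [pwT_of_notMem hu.2]
  · apply Finset.sum_congr rfl
    intro k _
    have h1 : ∫⁻ u in B k, F u (pwT B v u) = ∫⁻ u in B k, F u (u + v k) :=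
      setLIntegral_congr_fun (hBm k) (fun u hu => by
        show F u (pwT B v u) = F u (u + v k)
        rw [pwT_of_mem hd hu])
    have h2 := lintegral_add_right_eq_self (μ := volume)
      ((B (π k)).indicator (fun w => F (w - v k) w)) (v k)
    rw [h1, ← lintegral_indicator (hBm k), ← lintegral_indicator (hBm (π k)), ← h2]
    apply lintegral_congr
    intro u
    by_cases hu : u ∈ B k
    · rw [indicator_of_mem hu, indicator_of_mem ((htr k u).mp hu)]
      simp
    · rw [indicator_of_notMem hu, indicator_of_notMem (fun h => hu ((htr k u).mpr h))]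

/-- Splitting for the identity. -/
theorem lintegral_split {K : Set (EE d)} (hK : MeasurableSet K) {B : ι → Set (EE d)}
    (hBm : ∀ k, MeasurableSet (B k)) (hd : Pairwise (Function.onFun Disjoint B))
    (hBK : ∀ k, B k ⊆ K) (f : EE d → ℝ≥0∞) :
    ∫⁻ u in K, f u = (∫⁻ u in K \ ⋃ k, B k, f u) + ∑ k, ∫⁻ w in B k, f w := by
  classical
  have hU : MeasurableSet (⋃ k, B k) := MeasurableSet.iUnion hBm
  have hUK : K ∩ ⋃ k, B k = ⋃ k, B k := inter_eq_right.mpr (iUnion_subset hBK)
  rw [← lintegral_inter_add_diff _ K hU, hUK, lintegral_iUnion hBm hd, tsum_fintype, add_comm]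

/-- The piecewise translation preserves the Lebesgue measure on `K`. -/
theorem lintegral_comp_pwT {K : Set (EE d)} (hK : MeasurableSet K) {B : ι → Set (EE d)}
    (hBm : ∀ k, MeasurableSet (B k)) (hd : Pairwise (Function.onFun Disjoint B))
    (hBK : ∀ k, B k ⊆ K) (π : Equiv.Perm ι) {v : ι → EE d}
    (htr : ∀ k u, u ∈ B k ↔ u + v k ∈ B (π k)) {g : EE d → ℝ≥0∞} (hg : Measurable g) :
    ∫⁻ u in K, g (pwT B v u) = ∫⁻ u in K, g u := by
  have h := lintegral_pwT hK hBm hd hBK π htr (F := fun _ w => g w)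
    (hg.comp measurable_snd)
  rw [h, lintegral_split hK hBm hd hBK g, Equiv.sum_comp π (fun k => ∫⁻ w in B k, g w)]

/-- The piecewise translation preserves the uniform measure. -/
theorem map_pwT_uniform {K : Set (EE d)} (hK : MeasurableSet K) {B : ι → Set (EE d)}
    (hBm : ∀ k, MeasurableSet (B k)) (hd : Pairwise (Function.onFun Disjoint B))
    (hBK : ∀ k, B k ⊆ K) (π : Equiv.Perm ι) {v : ι → EE d}
    (htr : ∀ k u, u ∈ B k ↔ u + v k ∈ B (π k)) :
    (uniformProbOn K).map (pwT B v) = uniformProbOn K := by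
  have hm := measurable_pwT hBm v
  ext C hC
  rw [Measure.map_apply hm hC]
  simp only [uniformProbOn, Measure.smul_apply, smul_eq_mul]
  congr 1
  have h := lintegral_comp_pwT hK hBm hd hBK π htr (g := C.indicator 1)
    (measurable_one.indicator hC)
  rw [lintegral_indicator_one hC] at h
  have e : ∫⁻ u in K, C.indicator 1 (pwT B v u) = ∫⁻ u in K, (pwT B v ⁻¹' C).indicator 1 u := by
    apply lintegral_congr
    intro u
    by_cases hu : pwT B v u ∈ C
    · rw [indicator_of_mem hu, indicator_of_mem (show u ∈ pwT B v ⁻¹' C from hu)]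
      rfl
    · rw [indicator_of_notMem hu, indicator_of_notMem (show u ∉ pwT B v ⁻¹' C from hu)]
  rw [e, lintegral_indicator_one (hm hC)] at h
  exact h

end Piecewise

/-- Hypotheses for the core argument: a bounded measurable optimal map. -/
structure CoreHyp (K : Set (EE d)) (T : EE d → EE d) (RY : ℝ) : Prop where
  Tm : Measurable T
  Tb : ∀ x, ‖T x‖ ≤ RY
  opt : ∀ S : EE d → EE d, Measurable S → (uniformProbOn K).map S = (uniformProbOn K).map T →
    ∫⁻ x, ‖x - T x‖ₑ ^ 2 ∂(uniformProbOn K) ≤ ∫⁻ x, ‖x - S x‖ₑ ^ 2 ∂(uniformProbOn K)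

section Core

variable {K : Set (EE d)} {R RY : ℝ} {T : EE d → EE d}

/-- `lintegral` of a squared norm over a closed ball. -/
lemma lintegral_enorm_sq_ball {f : EE d → EE d} (hf : Measurable f) (c : EE d) (r : ℝ) {C : ℝ}
    (hC : ∀ w ∈ Metric.closedBall c r, ‖f w‖ ≤ C) :
    ∫⁻ w in Metric.closedBall c r, ‖f w‖ₑ ^ 2 = ENNReal.ofReal (∫ w in Metric.closedBall c r, ‖f w‖ ^ 2) := by
  have hfin : volume (Metric.closedBall c r) < ⊤ := measure_closedBall_lt_top
  have hi : IntegrableOn (fun w => ‖f w‖ ^ 2) (Metric.closedBall c r) volume := by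
    refine Measure.integrableOn_of_bounded (M := C ^ 2) hfin.ne
      (hf.norm.pow_const 2).aestronglyMeasurable ?_
    refine (ae_restrict_iff' measurableSet_closedBall).mpr (ae_of_all _ fun w hw => ?_)
    rw [Real.norm_eq_abs, abs_pow, abs_norm]
    exact pow_le_pow_left₀ (norm_nonneg _) (hC w hw) 2
  rw [ofReal_integral_eq_lintegral_ofReal hi (ae_of_all _ fun w => by positivity)]
  apply lintegral_congr
  intro w
  rw [← ofReal_norm_eq_enorm, ENNReal.ofReal_pow (norm_nonneg _)]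

variable {ι : Type*} [Fintype ι]

/-- The inequality on integrals given by the swap. -/
lemma swap_integral (hB : BodyHyp K R) (hT : CoreHyp K T RY) {x : ι → EE d} (π : Equiv.Perm ι)
    {r : ℝ} (hr : 0 < r) (hsub : ∀ k, Metric.closedBall (x k) r ⊆ K)
    (hd : Pairwise (Function.onFun Disjoint (fun k => Metric.closedBall (x k) r))) :
    ∑ k, ∫ w in Metric.closedBall (x (π k)) r, ‖w - T w‖ ^ 2
      ≤ ∑ k, ∫ w in Metric.closedBall (x (π k)) r, ‖w - (x (π k) - x k) - T w‖ ^ 2 := by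
  classical
  haveI := hB.isProb
  obtain ⟨B, hBdef⟩ : ∃ B : ι → Set (EE d), B = fun k => Metric.closedBall (x k) r := ⟨_, rfl⟩
  obtain ⟨v, hv⟩ : ∃ v : ι → EE d, v = fun k => x (π k) - x k := ⟨_, rfl⟩
  have hBm : ∀ k, MeasurableSet (B k) := fun k => by rw [hBdef]; exact measurableSet_closedBall
  have hd' : Pairwise (Function.onFun Disjoint B) := by rw [hBdef]; exact hd
  have hBK : ∀ k, B k ⊆ K := fun k => by rw [hBdef]; exact hsub k
  have htr : ∀ k u, u ∈ B k ↔ u + v k ∈ B (π k) := by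
    intro k u
    rw [hBdef, hv]
    simp only [Metric.mem_closedBall, dist_eq_norm]
    have : u + (x (π k) - x k) - x (π k) = u - x k := by abel
    rw [this]
  have hσ := measurable_pwT hBm v
  have hK := hB.meas
  have hmap : (uniformProbOn K).map (T ∘ pwT B v) = (uniformProbOn K).map T := by
    rw [← Measure.map_map hT.Tm hσ, map_pwT_uniform hK hBm hd' hBK π htr]
  have hopt := hT.opt (T ∘ pwT B v) (hT.Tm.comp hσ) hmap
  simp only [uniformProbOn, lintegral_smul_measure, smul_eq_mul, Function.comp] at hopt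
  have hV0 : (volume K)⁻¹ ≠ 0 := ENNReal.inv_ne_zero.mpr hB.vol_ne_top
  have hVt : (volume K)⁻¹ ≠ ⊤ := ENNReal.inv_ne_top.mpr hB.volpos.ne'
  rw [ENNReal.mul_le_mul_iff_right hV0 hVt] at hopt
  have hF : Measurable (Function.uncurry (fun u w : EE d => ‖u - T w‖ₑ ^ 2)) :=
    ((measurable_fst.sub (hT.Tm.comp measurable_snd)).enorm).pow_const 2
  rw [lintegral_pwT hK hBm hd' hBK π htr hF, lintegral_split hK hBm hd' hBK,
    ← Equiv.sum_comp π (fun k => ∫⁻ w in B k, ‖w - T w‖ₑ ^ 2)] at hopt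
  have hA : ∫⁻ u in K \ ⋃ k, B k, ‖u - T u‖ₑ ^ 2 ≠ ⊤ := by
    have h1 : ∫⁻ u in K \ ⋃ k, B k, ‖u - T u‖ₑ ^ 2
        ≤ ∫⁻ _u in K, ENNReal.ofReal ((R + RY) ^ 2) := by
      refine (lintegral_mono_set diff_subset).trans ?_
      apply setLIntegral_mono measurable_const
      intro u hu
      have h2 : ‖u - T u‖ ≤ R + RY :=
        (norm_sub_le _ _).trans (add_le_add (hB.bound u hu) (hT.Tb u))
      rw [← ofReal_norm_eq_enorm, ← ENNReal.ofReal_pow (norm_nonneg _)]
      exact ENNReal.ofReal_le_ofReal (pow_le_pow_left₀ (norm_nonneg _) h2 2)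
    refine (h1.trans_lt ?_).ne
    rw [setLIntegral_const]
    exact ENNReal.mul_lt_top ENNReal.ofReal_lt_top hB.compact.measure_lt_top
  have hcancel := (ENNReal.add_le_add_iff_left hA).mp hopt
  -- real integrals
  have hb1 : ∀ k, ∀ w ∈ B (π k), ‖w - T w‖ ≤ R + RY := by
    intro k w hw
    exact (norm_sub_le _ _).trans (add_le_add (hB.bound w (hBK _ hw)) (hT.Tb w))
  have hb2 : ∀ k, ∀ w ∈ B (π k), ‖w - v k - T w‖ ≤ R + ‖v k‖ + RY := by
    intro k w hw
    refine (norm_sub_le _ _).trans (add_le_add ?_ (hT.Tb w))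
    exact (norm_sub_le _ _).trans (add_le_add_left (hB.bound w (hBK _ hw)) _)
  have e1 : ∀ k, ∫⁻ w in B (π k), ‖w - T w‖ₑ ^ 2
      = ENNReal.ofReal (∫ w in B (π k), ‖w - T w‖ ^ 2) := by
    intro k
    rw [hBdef]
    exact lintegral_enorm_sq_ball (measurable_id.sub hT.Tm) _ r (C := R + RY)
      (by have := hb1 k; rwa [hBdef] at this)
  have e2 : ∀ k, ∫⁻ w in B (π k), ‖(w - v k) - T w‖ₑ ^ 2
      = ENNReal.ofReal (∫ w in B (π k), ‖w - v k - T w‖ ^ 2) := by
    intro k
    rw [hBdef]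
    exact lintegral_enorm_sq_ball ((measurable_id.sub_const _).sub hT.Tm) _ r
      (C := R + ‖v k‖ + RY) (by have := hb2 k; rwa [hBdef] at this)
  simp only [e1, e2] at hcancel
  rw [← ENNReal.ofReal_sum_of_nonneg (fun k _ => integral_nonneg fun w => by positivity),
    ← ENNReal.ofReal_sum_of_nonneg (fun k _ => integral_nonneg fun w => by positivity),
    ENNReal.ofReal_le_ofReal_iff (Finset.sum_nonneg fun k _ =>
      integral_nonneg fun w => by positivity)] at hcancel
  rw [hBdef, hv] at hcancel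
  exact hcancel

/-- The Lebesgue points. -/
def goodSet (K : Set (EE d)) (T : EE d → EE d) : Set (EE d) :=
  {x | x ∈ interior K ∧
    Tendsto (fun r => ⨍ y in Metric.closedBall x r, T y) (𝓝[>] 0) (𝓝 (T x)) ∧
    Tendsto (fun r => ⨍ y in Metric.closedBall x r, y) (𝓝[>] 0) (𝓝 x)}

lemma ae_good (hB : BodyHyp K R) (hT : CoreHyp K T RY) :
    ∀ᵐ x ∂(uniformProbOn K), x ∈ goodSet K T := by
  have hli : LocallyIntegrable T (volume : Measure (EE d)) :=
    (memLp_top_of_bound hT.Tm.aestronglyMeasurable RY (ae_of_all _ hT.Tb)).locallyIntegrable le_top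
  have hli2 : LocallyIntegrable (fun y : EE d => y) (volume : Measure (EE d)) :=
    continuous_id.locallyIntegrable
  have h1 := IsUnifLocDoublingMeasure.ae_tendsto_average (μ := (volume : Measure (EE d))) hli 1
  have h2 := IsUnifLocDoublingMeasure.ae_tendsto_average (μ := (volume : Measure (EE d))) hli2 1
  have h3 : ∀ᵐ x ∂(volume : Measure (EE d)), x ∉ frontier K := by
    have := hB.convex.addHaar_frontier (volume : Measure (EE d))
    rw [ae_iff]
    simpa using this
  have hall : ∀ᵐ x ∂(volume : Measure (EE d)), x ∉ frontier K ∧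
      Tendsto (fun r => ⨍ y in Metric.closedBall x r, T y) (𝓝[>] 0) (𝓝 (T x)) ∧
      Tendsto (fun r => ⨍ y in Metric.closedBall x r, y) (𝓝[>] 0) (𝓝 x) := by
    filter_upwards [h1, h2, h3] with x a1 a2 a3
    have hev : ∀ᶠ r : ℝ in 𝓝[>] 0, x ∈ Metric.closedBall x (1 * r) := by
      filter_upwards [self_mem_nhdsWithin] with r hr
      have hr' : (0:ℝ) < r := hr
      simp only [one_mul, Metric.mem_closedBall, dist_self]
      exact hr'.le
    exact ⟨a3, a1 (fun _ => x) (fun r => r) tendsto_id hev, a2 (fun _ => x) (fun r => r) tendsto_id hev⟩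
  filter_upwards [uniform_ac hall, ae_uniform_mem hB] with x hx hxK
  refine ⟨?_, hx.2.1, hx.2.2⟩
  have hcl : x ∈ closure K := subset_closure hxK
  by_contra hint
  exact hx.1 ⟨hcl, hint⟩

/-- The averaged form of the swap inequality. -/
lemma swap_avg (hB : BodyHyp K R) (hT : CoreHyp K T RY) {x : ι → EE d} (π : Equiv.Perm ι)
    {r : ℝ} (hr : 0 < r) (hsub : ∀ k, Metric.closedBall (x k) r ⊆ K)
    (hd : Pairwise (Function.onFun Disjoint (fun k => Metric.closedBall (x k) r))) :
    0 ≤ ∑ k, (‖x (π k) - x k‖ ^ 2 - 2 * ⟪x (π k) - x k, ⨍ y in Metric.closedBall (x (π k)) r, y⟫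
      + 2 * ⟪x (π k) - x k, ⨍ y in Metric.closedBall (x (π k)) r, T y⟫) := by
  have h := swap_integral hB hT π hr hsub hd
  obtain ⟨V, hV⟩ : ∃ V, V = volume.real (Metric.closedBall (0 : EE d) r) := ⟨_, rfl⟩
  have hVpos : 0 < V := by
    rw [hV]
    exact ENNReal.toReal_pos (Metric.measure_closedBall_pos _ _ hr).ne' measure_closedBall_lt_top.ne
  have hVc : ∀ c : EE d, volume.real (Metric.closedBall c r) = V := by
    intro c
    rw [hV, Measure.real, Measure.real, Measure.addHaar_closedBall_center]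
  have hint : ∀ k, (∫ w in Metric.closedBall (x (π k)) r, ‖w - (x (π k) - x k) - T w‖ ^ 2)
      - (∫ w in Metric.closedBall (x (π k)) r, ‖w - T w‖ ^ 2)
      = V * (‖x (π k) - x k‖ ^ 2 - 2 * ⟪x (π k) - x k, ⨍ y in Metric.closedBall (x (π k)) r, y⟫
        + 2 * ⟪x (π k) - x k, ⨍ y in Metric.closedBall (x (π k)) r, T y⟫) := by
    intro k
    obtain ⟨c, hc⟩ : ∃ c, c = x (π k) := ⟨_, rfl⟩
    obtain ⟨v, hv⟩ : ∃ v, v = x (π k) - x k := ⟨_, rfl⟩
    rw [← hv, ← hc]
    have hfin : volume (Metric.closedBall c r) ≠ ⊤ := measure_closedBall_lt_top.ne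
    have hid : IntegrableOn (fun y : EE d => y) (Metric.closedBall c r) volume :=
      continuous_id.continuousOn.integrableOn_compact (isCompact_closedBall c r)
    have hTi : IntegrableOn T (Metric.closedBall c r) volume :=
      Measure.integrableOn_of_bounded (M := RY) hfin hT.Tm.aestronglyMeasurable
        (ae_of_all _ hT.Tb)
    have hbdd : ∀ w ∈ Metric.closedBall c r, ‖w‖ ≤ ‖c‖ + r := by
      intro w hw
      have := Metric.mem_closedBall.mp hw
      rw [dist_eq_norm] at this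
      calc ‖w‖ = ‖(w - c) + c‖ := by simp
        _ ≤ ‖w - c‖ + ‖c‖ := norm_add_le _ _
        _ ≤ _ := by linarith
    have hI1 : IntegrableOn (fun w => ‖w - v - T w‖ ^ 2) (Metric.closedBall c r) volume := by
      refine Measure.integrableOn_of_bounded (M := (‖c‖ + r + ‖v‖ + RY) ^ 2) hfin
        (((measurable_id.sub_const v).sub hT.Tm).norm.pow_const 2).aestronglyMeasurable ?_
      refine (ae_restrict_iff' measurableSet_closedBall).mpr (ae_of_all _ fun w hw => ?_)
      rw [Real.norm_eq_abs, abs_pow, abs_norm]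
      refine pow_le_pow_left₀ (norm_nonneg _) ?_ 2
      refine (norm_sub_le _ _).trans (add_le_add ?_ (hT.Tb w))
      exact (norm_sub_le _ _).trans (add_le_add_left (hbdd w hw) _)
    have hI2 : IntegrableOn (fun w => ‖w - T w‖ ^ 2) (Metric.closedBall c r) volume := by
      refine Measure.integrableOn_of_bounded (M := (‖c‖ + r + RY) ^ 2) hfin
        ((measurable_id.sub hT.Tm).norm.pow_const 2).aestronglyMeasurable ?_
      refine (ae_restrict_iff' measurableSet_closedBall).mpr (ae_of_all _ fun w hw => ?_)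
      rw [Real.norm_eq_abs, abs_pow, abs_norm]
      refine pow_le_pow_left₀ (norm_nonneg _) ?_ 2
      exact (norm_sub_le _ _).trans (add_le_add (hbdd w hw) (hT.Tb w))
    rw [← integral_sub hI1 hI2]
    have hptw : ∀ w, ‖w - v - T w‖ ^ 2 - ‖w - T w‖ ^ 2
        = ‖v‖ ^ 2 - 2 * ⟪v, w⟫ + 2 * ⟪v, T w⟫ := by
      intro w
      have e : w - v - T w = (w - T w) - v := by abel
      rw [e, @norm_sub_sq_real, inner_sub_left, real_inner_comm, real_inner_comm (T w) v]
      ring
    simp only [hptw]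
    have i1 : IntegrableOn (fun w => ⟪v, w⟫) (Metric.closedBall c r) volume :=
      hid.const_inner v
    have i2 : IntegrableOn (fun w => ⟪v, T w⟫) (Metric.closedBall c r) volume :=
      hTi.const_inner v
    have hconst : IntegrableOn (fun _ : EE d => ‖v‖ ^ 2) (Metric.closedBall c r) volume :=
      integrableOn_const hfin
    have i3 : IntegrableOn (fun w => ‖v‖ ^ 2 - 2 * ⟪v, w⟫) (Metric.closedBall c r) volume :=
      hconst.sub (i1.const_mul 2)
    rw [integral_add i3 (i2.const_mul 2), integral_sub hconst (i1.const_mul 2),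
      integral_const_mul, integral_const_mul, setIntegral_const, smul_eq_mul, hVc c,
      integral_inner hid, integral_inner hTi, setAverage_eq, setAverage_eq, hVc c,
      inner_smul_right, inner_smul_right]
    field_simp
  have hsum : 0 ≤ ∑ k, V * (‖x (π k) - x k‖ ^ 2
      - 2 * ⟪x (π k) - x k, ⨍ y in Metric.closedBall (x (π k)) r, y⟫
      + 2 * ⟪x (π k) - x k, ⨍ y in Metric.closedBall (x (π k)) r, T y⟫) := by
    simp only [← hint]
    rw [Finset.sum_sub_distrib]
    linarith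
  rw [← Finset.mul_sum] at hsum
  exact nonneg_of_mul_nonneg_right hsum hVpos

/-- Cyclic monotonicity for injective families of good points. -/
theorem swap_ineq (hB : BodyHyp K R) (hT : CoreHyp K T RY) {x : ι → EE d}
    (hx : Function.Injective x) (hxG : ∀ k, x k ∈ goodSet K T) (π : Equiv.Perm ι) :
    ∑ k, ⟪x (π k) - x k, T (x k)⟫ ≤ 0 := by
  classical
  -- work with the inverse
  obtain ⟨σ, hσ⟩ : ∃ σ : Equiv.Perm ι, σ = π.symm := ⟨_, rfl⟩
  have hev : ∀ᶠ r : ℝ in 𝓝[>] 0, 0 < r ∧ (∀ k, Metric.closedBall (x k) r ⊆ K) ∧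
      Pairwise (Function.onFun Disjoint (fun k => Metric.closedBall (x k) r)) := by
    have h1 : ∀ᶠ r : ℝ in 𝓝[>] 0, 0 < r := self_mem_nhdsWithin
    have h2 : ∀ᶠ r : ℝ in 𝓝[>] 0, ∀ k, Metric.closedBall (x k) r ⊆ K := by
      rw [eventually_all]
      intro k
      have := (hxG k).1
      rw [mem_interior_iff_mem_nhds, Metric.nhds_basis_closedBall.mem_iff] at this
      obtain ⟨ε, hε, hεK⟩ := this
      filter_upwards [Ioo_mem_nhdsGT hε] with r hr
      exact (Metric.closedBall_subset_closedBall hr.2.le).trans hεK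
    have h3 : ∀ᶠ r : ℝ in 𝓝[>] 0, ∀ k j, k ≠ j →
        Disjoint (Metric.closedBall (x k) r) (Metric.closedBall (x j) r) := by
      rw [eventually_all]
      intro k
      rw [eventually_all]
      intro j
      by_cases hkj : k = j
      · exact Eventually.of_forall (fun _ h => absurd hkj h)
      · have hdist : 0 < dist (x k) (x j) := dist_pos.mpr (fun h => hkj (hx h))
        filter_upwards [Ioo_mem_nhdsGT (half_pos hdist)] with r hr _
        apply Metric.closedBall_disjoint_closedBall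
        have := hr.2
        linarith
    filter_upwards [h1, h2, h3] with r a1 a2 a3
    exact ⟨a1, a2, fun k j hkj => a3 k j hkj⟩
  have hlim : Tendsto (fun r => ∑ k, (‖x (σ k) - x k‖ ^ 2
      - 2 * ⟪x (σ k) - x k, ⨍ y in Metric.closedBall (x (σ k)) r, y⟫
      + 2 * ⟪x (σ k) - x k, ⨍ y in Metric.closedBall (x (σ k)) r, T y⟫)) (𝓝[>] 0)
      (𝓝 (∑ k, (‖x (σ k) - x k‖ ^ 2 - 2 * ⟪x (σ k) - x k, x (σ k)⟫
        + 2 * ⟪x (σ k) - x k, T (x (σ k))⟫))) := by
    apply tendsto_finset_sum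
    intro k _
    refine Tendsto.add (Tendsto.sub tendsto_const_nhds (Tendsto.const_mul 2 ?_))
      (Tendsto.const_mul 2 ?_)
    · exact tendsto_const_nhds.inner (hxG (σ k)).2.2
    · exact tendsto_const_nhds.inner (hxG (σ k)).2.1
  have hge := ge_of_tendsto hlim (hev.mono fun r hr => swap_avg hB hT σ hr.1 hr.2.1 hr.2.2)
  have e1 : ∀ k, ‖x (σ k) - x k‖ ^ 2 - 2 * ⟪x (σ k) - x k, x (σ k)⟫ = ‖x k‖ ^ 2 - ‖x (σ k)‖ ^ 2 := by
    intro k
    rw [@norm_sub_sq_real, inner_sub_left, real_inner_self_eq_norm_sq, real_inner_comm (x (σ k)) (x k)]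
    ring
  simp only [e1, Finset.sum_add_distrib, Finset.sum_sub_distrib] at hge
  have e2 := Equiv.sum_comp σ (fun k => ‖x k‖ ^ 2)
  rw [e2, sub_self, zero_add, ← Finset.mul_sum] at hge
  have e3 := Equiv.sum_comp σ (fun k => ⟪x k - x (σ.symm k), T (x k)⟫)
  simp only [Equiv.symm_apply_apply] at e3
  have hge2 : 0 ≤ ∑ k, ⟪x (σ k) - x k, T (x (σ k))⟫ := by linarith
  rw [e3] at hge2
  have e4 : ∑ k, ⟪x (π k) - x k, T (x k)⟫ = - ∑ k, ⟪x k - x (σ.symm k), T (x k)⟫ := by
    rw [← Finset.sum_neg_distrib, hσ]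
    apply Finset.sum_congr rfl
    intro k _
    rw [← inner_neg_left, neg_sub, Equiv.symm_symm]
  rw [e4]
  linarith

end Core

section Walk

variable {G : Set (EE d)} {T : EE d → EE d}

/-- Closed walks have nonpositive sum. -/
theorem walk_ineq
    (hswap : ∀ (n : ℕ) (x : Fin n → EE d), Function.Injective x → (∀ j, x j ∈ G) →
      ∀ π : Equiv.Perm (Fin n), ∑ j, ⟪x (π j) - x j, T (x j)⟫ ≤ 0) :
    ∀ (n : ℕ) (p : ℕ → EE d), (∀ j ≤ n, p j ∈ G) → p n = p 0 →
      ∑ j ∈ Finset.range n, ⟪p (j + 1) - p j, T (p j)⟫ ≤ 0 := by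
  intro n
  induction n using Nat.strong_induction_on with
  | _ n ih =>
  intro p hG hclose
  cases n with
  | zero => simp
  | succ m =>
    by_cases hinj : Function.Injective (fun j : Fin (m + 1) => p j)
    · have h := hswap (m + 1) _ hinj (fun j => hG j (by omega)) (finRotate (m + 1))
      rw [Finset.sum_range]
      refine le_trans (le_of_eq ?_) h
      apply Finset.sum_congr rfl
      intro j _
      by_cases hj : j = Fin.last m
      · subst hj
        simp only [finRotate_last, Fin.val_zero, Fin.val_last]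
        rw [hclose]
      · rw [coe_finRotate_of_ne_last hj]
    · simp only [Function.Injective] at hinj
      push Not at hinj
      obtain ⟨a, b, hab, hne⟩ := hinj
      -- order the two indices
      obtain ⟨i, j, hij, hjm, hpij⟩ : ∃ i j : ℕ, i < j ∧ j ≤ m ∧ p i = p j := by
        rcases lt_or_gt_of_ne hne with h | h
        · exact ⟨a, b, h, by omega, hab⟩
        · exact ⟨b, a, h, by omega, hab.symm⟩
      obtain ⟨k, hk⟩ : ∃ k, k = j - i := ⟨_, rfl⟩
      have hk1 : 1 ≤ k := by omega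
      have hjk : i + k = j := by omega
      obtain ⟨f, hf⟩ : ∃ f : ℕ → ℝ, f = fun t => ⟪p (t + 1) - p t, T (p t)⟫ := ⟨_, rfl⟩
      -- first walk
      have h1 := ih k (by omega) (fun t => p (i + t)) (fun t ht => hG _ (by omega))
        (by simp only [add_zero]; rw [hjk]; exact hpij.symm)
      have e1 : ∑ t ∈ Finset.range k, ⟪p (i + (t + 1)) - p (i + t), T (p (i + t))⟫
          = ∑ t ∈ Finset.Ico i j, f t := by
        rw [Finset.sum_Ico_eq_sum_range, ← hk, hf]
        rfl
      rw [e1] at h1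
      -- second walk
      obtain ⟨q, hq⟩ : ∃ q : ℕ → EE d, q = fun t => if t < i then p t else p (t + k) := ⟨_, rfl⟩
      have hq1 : ∀ t, t < i → q t = p t := fun t ht => by simp [hq, ht]
      have hq2 : ∀ t, i ≤ t → q t = p (t + k) := fun t ht => by
        simp [hq, not_lt.mpr ht]
      have h2 := ih (m + 1 - k) (by omega) q
        (by
          intro t ht
          by_cases hti : t < i
          · rw [hq1 t hti]; exact hG _ (by omega)
          · rw [hq2 t (by omega)]; exact hG _ (by omega))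
        (by
          rw [hq2 _ (by omega)]
          have : m + 1 - k + k = m + 1 := by omega
          rw [this, hclose]
          by_cases hi : 0 < i
          · rw [hq1 0 hi]
          · have hi0 : i = 0 := by omega
            rw [hq2 0 (by omega)]
            have : 0 + k = j := by omega
            rw [this, ← hpij, hi0])
      have e2 : ∑ t ∈ Finset.range (m + 1 - k), ⟪q (t + 1) - q t, T (q t)⟫
          = ∑ t ∈ Finset.Ico 0 i, f t + ∑ t ∈ Finset.Ico j (m + 1), f t := by
        have hsplit := Finset.sum_Ico_consecutive (fun t => ⟪q (t + 1) - q t, T (q t)⟫)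
          (Nat.zero_le i) (show i ≤ m + 1 - k by omega)
        rw [Finset.range_eq_Ico, ← hsplit]
        congr 1
        · apply Finset.sum_congr rfl
          intro t ht
          have ht' : t < i := (Finset.mem_Ico.mp ht).2
          rw [hq1 t ht', hf]
          simp only
          by_cases h3 : t + 1 < i
          · rw [hq1 _ h3]
          · have h4 : t + 1 = i := by omega
            rw [hq2 _ (by omega), h4, hjk, hpij]
        · have := Finset.sum_Ico_add' f i (m + 1 - k) k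
          have e3 : i + k = j := hjk
          have e4 : m + 1 - k + k = m + 1 := by omega
          rw [e3, e4] at this
          rw [← this]
          apply Finset.sum_congr rfl
          intro t ht
          have ht' : i ≤ t := (Finset.mem_Ico.mp ht).1
          rw [hq2 t ht', hq2 (t + 1) (by omega), hf]
          simp only
          have : t + 1 + k = t + k + 1 := by omega
          rw [this]
      rw [e2] at h2
      have htot : ∑ j ∈ Finset.range (m + 1), ⟪p (j + 1) - p j, T (p j)⟫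
          = ∑ t ∈ Finset.Ico 0 i, f t + ∑ t ∈ Finset.Ico i j, f t
            + ∑ t ∈ Finset.Ico j (m + 1), f t := by
        rw [Finset.sum_Ico_consecutive f (Nat.zero_le i) hij.le,
          Finset.sum_Ico_consecutive f (Nat.zero_le j) (by omega), Finset.range_eq_Ico, hf]
      rw [htot]
      linarith

/-- Pairs (value, endpoint) reachable along chains. -/
def reachSet (G : Set (EE d)) (T : EE d → EE d) (x₀ : EE d) : Set (ℝ × EE d) :=
  {a | ∃ (n : ℕ) (p : ℕ → EE d), (∀ j ≤ n, p j ∈ G) ∧ p 0 = x₀ ∧ p n = a.2 ∧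
    a.1 = ∑ j ∈ Finset.range n, ⟪p (j + 1) - p j, T (p j)⟫}

/-- Rockafellar's potential. -/
noncomputable def rockPot (G : Set (EE d)) (T : EE d → EE d) (x₀ x : EE d) : ℝ :=
  ⨆ a : reachSet G T x₀, a.1.1 + ⟪x - a.1.2, T a.1.2⟫

lemma reach_base {x₀ : EE d} (h : x₀ ∈ G) : ((0:ℝ), x₀) ∈ reachSet G T x₀ :=
  ⟨0, fun _ => x₀, fun _ _ => h, rfl, rfl, by simp⟩

lemma reach_extend {x₀ : EE d} {a : ℝ × EE d} (ha : a ∈ reachSet G T x₀) {q : EE d} (hq : q ∈ G) :
    (a.1 + ⟪q - a.2, T a.2⟫, q) ∈ reachSet G T x₀ := by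
  classical
  obtain ⟨n, p, h1, h2, h3, h4⟩ := ha
  refine ⟨n + 1, fun j => if j ≤ n then p j else q, ?_, ?_, ?_, ?_⟩
  · intro j hj
    by_cases hjn : j ≤ n
    · simp only [hjn, if_true]; exact h1 j hjn
    · simp only [hjn, if_false]; exact hq
  · simp [h2]
  · simp
  · rw [Finset.sum_range_succ]
    have e1 : ∑ j ∈ Finset.range n, ⟪(if j + 1 ≤ n then p (j + 1) else q) - (if j ≤ n then p j else q),
        T (if j ≤ n then p j else q)⟫ = a.1 := by
      rw [h4]
      apply Finset.sum_congr rfl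
      intro j hj
      have hj' : j < n := Finset.mem_range.mp hj
      simp only [show j + 1 ≤ n by omega, show j ≤ n by omega, if_true]
    simp only [e1, le_refl, if_true, show ¬ (n + 1 ≤ n) by omega, if_false, h3]

variable {x₀ : EE d} {RY : ℝ}

lemma reach_closed
    (hwalk : ∀ (n : ℕ) (p : ℕ → EE d), (∀ j ≤ n, p j ∈ G) → p n = p 0 →
      ∑ j ∈ Finset.range n, ⟪p (j + 1) - p j, T (p j)⟫ ≤ 0)
    (hx₀ : x₀ ∈ G) {a : ℝ × EE d} (ha : a ∈ reachSet G T x₀) :
    a.1 + ⟪x₀ - a.2, T a.2⟫ ≤ 0 := by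
  obtain ⟨n, p, h1, h2, h3, h4⟩ := reach_extend ha hx₀
  simp only at h3 h4
  rw [h4]
  exact hwalk n p h1 (by rw [h3, h2])

lemma rock_bdd
    (hwalk : ∀ (n : ℕ) (p : ℕ → EE d), (∀ j ≤ n, p j ∈ G) → p n = p 0 →
      ∑ j ∈ Finset.range n, ⟪p (j + 1) - p j, T (p j)⟫ ≤ 0)
    (hx₀ : x₀ ∈ G) (hb : ∀ q ∈ G, ‖T q‖ ≤ RY) (hRY : 0 ≤ RY) (x : EE d) :
    BddAbove (range fun a : reachSet G T x₀ => a.1.1 + ⟪x - a.1.2, T a.1.2⟫) := by
  refine ⟨RY * ‖x - x₀‖, ?_⟩
  rintro _ ⟨a, rfl⟩
  have h1 := reach_closed hwalk hx₀ a.2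
  have hq : a.1.2 ∈ G := by
    obtain ⟨n, p, h1, _, h3, _⟩ := a.2
    rw [← h3]
    exact h1 n le_rfl
  have e : ⟪x - a.1.2, T a.1.2⟫ = ⟪x₀ - a.1.2, T a.1.2⟫ + ⟪x - x₀, T a.1.2⟫ := by
    rw [← inner_add_left]
    congr 1
    abel
  have h2 : ⟪x - x₀, T a.1.2⟫ ≤ RY * ‖x - x₀‖ := by
    refine (real_inner_le_norm _ _).trans ?_
    rw [mul_comm]
    exact mul_le_mul_of_nonneg_right (hb _ hq) (norm_nonneg _)
  simp only
  linarith

theorem rock_props
    (hwalk : ∀ (n : ℕ) (p : ℕ → EE d), (∀ j ≤ n, p j ∈ G) → p n = p 0 →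
      ∑ j ∈ Finset.range n, ⟪p (j + 1) - p j, T (p j)⟫ ≤ 0)
    (hx₀ : x₀ ∈ G) (hb : ∀ q ∈ G, ‖T q‖ ≤ RY) (hRY : 0 ≤ RY) :
    (∀ x x', rockPot G T x₀ x ≤ rockPot G T x₀ x' + RY * ‖x - x'‖) ∧
    ConvexOn ℝ univ (rockPot G T x₀) ∧
    (∀ x ∈ G, ∀ x', rockPot G T x₀ x + ⟪x' - x, T x⟫ ≤ rockPot G T x₀ x') := by
  haveI : Nonempty (reachSet G T x₀) := ⟨⟨_, reach_base hx₀⟩⟩
  have hbdd := rock_bdd hwalk hx₀ hb hRY
  have hmem : ∀ a : reachSet G T x₀, a.1.2 ∈ G := by
    intro a
    obtain ⟨n, p, h1, _, h3, _⟩ := a.2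
    rw [← h3]
    exact h1 n le_rfl
  refine ⟨?_, ?_, ?_⟩
  · intro x x'
    apply ciSup_le
    intro a
    have h1 : a.1.1 + ⟪x' - a.1.2, T a.1.2⟫ ≤ rockPot G T x₀ x' := le_ciSup (hbdd x') a
    have e : ⟪x - a.1.2, T a.1.2⟫ = ⟪x' - a.1.2, T a.1.2⟫ + ⟪x - x', T a.1.2⟫ := by
      rw [← inner_add_left]
      congr 1
      abel
    have h2 : ⟪x - x', T a.1.2⟫ ≤ RY * ‖x - x'‖ := by
      refine (real_inner_le_norm _ _).trans ?_
      rw [mul_comm]
      exact mul_le_mul_of_nonneg_right (hb _ (hmem a)) (norm_nonneg _)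
    linarith
  · refine ⟨convex_univ, ?_⟩
    intro x _ y _ s t hs ht hst
    apply ciSup_le
    intro a
    have h1 : a.1.1 + ⟪x - a.1.2, T a.1.2⟫ ≤ rockPot G T x₀ x := le_ciSup (hbdd x) a
    have h2 : a.1.1 + ⟪y - a.1.2, T a.1.2⟫ ≤ rockPot G T x₀ y := le_ciSup (hbdd y) a
    have e : a.1.1 + ⟪s • x + t • y - a.1.2, T a.1.2⟫
        = s * (a.1.1 + ⟪x - a.1.2, T a.1.2⟫) + t * (a.1.1 + ⟪y - a.1.2, T a.1.2⟫) := by
      have e2 : s • x + t • y - a.1.2 = s • (x - a.1.2) + t • (y - a.1.2) := by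
        have : a.1.2 = (s + t) • a.1.2 := by rw [hst, one_smul]
        nth_rewrite 1 [this]
        rw [add_smul, smul_sub, smul_sub]
        abel
      rw [e2, inner_add_left, inner_smul_left, inner_smul_left]
      simp only [conj_trivial]
      have : a.1.1 = (s + t) * a.1.1 := by rw [hst, one_mul]
      nth_rewrite 1 [this]
      ring
    simp only [smul_eq_mul]
    rw [e]
    exact add_le_add (mul_le_mul_of_nonneg_left h1 hs) (mul_le_mul_of_nonneg_left h2 ht)
  · intro x hx x'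
    have key : ∀ a : reachSet G T x₀, a.1.1 + ⟪x - a.1.2, T a.1.2⟫
        ≤ rockPot G T x₀ x' - ⟪x' - x, T x⟫ := by
      intro a
      have hext := reach_extend a.2 hx
      have h1 : (a.1.1 + ⟪x - a.1.2, T a.1.2⟫) + ⟪x' - x, T x⟫ ≤ rockPot G T x₀ x' :=
        le_ciSup (hbdd x') ⟨_, hext⟩
      linarith
    have := ciSup_le key
    have h2 : rockPot G T x₀ x ≤ rockPot G T x₀ x' - ⟪x' - x, T x⟫ := this
    linarith

end Walk

section Potential

variable {K : Set (EE d)} {R RY : ℝ} {T : EE d → EE d}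

/-- The potential for a bounded optimal map. -/
theorem core_potential (hB : BodyHyp K R) (hT : CoreHyp K T RY) (hRY : 0 ≤ RY) :
    ∃ φ : EE d → ℝ, (∀ x x', φ x ≤ φ x' + RY * ‖x - x'‖) ∧ ConvexOn ℝ univ φ ∧
      ∀ᵐ x ∂(uniformProbOn K), ∀ x', φ x + ⟪x' - x, T x⟫ ≤ φ x' := by
  haveI := hB.isProb
  have hgood := ae_good hB hT
  obtain ⟨x₀, hx₀⟩ := hgood.exists
  have hswap : ∀ (n : ℕ) (x : Fin n → EE d), Function.Injective x → (∀ j, x j ∈ goodSet K T) →
      ∀ π : Equiv.Perm (Fin n), ∑ j, ⟪x (π j) - x j, T (x j)⟫ ≤ 0 :=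
    fun n x hx hxG π => swap_ineq hB hT hx hxG π
  have hwalk := walk_ineq hswap
  obtain ⟨h1, h2, h3⟩ := rock_props hwalk hx₀ (fun q _ => hT.Tb q) hRY
  refine ⟨rockPot (goodSet K T) T x₀, h1, h2, ?_⟩
  filter_upwards [hgood] with x hx
  exact h3 x hx

/-- The potential of an optimal map. -/
theorem optimal_potential (hB : BodyHyp K R) {Y : Set (EE d)} (hYc : IsCompact Y)
    (hYn : Y.Nonempty) (hYR : ∀ y ∈ Y, ‖y‖ ≤ RY) {μ : Measure (EE d)}
    (hμ : IsProbabilityOn Y μ) (hT : IsOptimalMap (uniformProbOn K) μ T) :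
    ∃ φ : EE d → ℝ, (∀ x x', φ x ≤ φ x' + RY * ‖x - x'‖) ∧ ConvexOn ℝ univ φ ∧
      ∀ᵐ x ∂(uniformProbOn K), T x ∈ Y ∧ ∀ x', φ x + ⟪x' - x, T x⟫ ≤ φ x' := by
  classical
  obtain ⟨y₀, hy₀⟩ := hYn
  have hRY : 0 ≤ RY := (norm_nonneg _).trans (hYR y₀ hy₀)
  obtain ⟨hTm, hTmap, hTopt⟩ := hT
  have hYm : MeasurableSet Y := hYc.measurableSet
  have hae : ∀ᵐ x ∂(uniformProbOn K), T x ∈ Y := by
    have : uniformProbOn K (T ⁻¹' Yᶜ) = 0 := by
      rw [← Measure.map_apply hTm hYm.compl, hTmap]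
      exact hμ.2
    exact this
  obtain ⟨S, hS⟩ : ∃ S : EE d → EE d, S = fun x => if T x ∈ Y then T x else y₀ := ⟨_, rfl⟩
  have hSm : Measurable S := by
    rw [hS]
    exact Measurable.ite (hTm hYm) hTm measurable_const
  have hSY : ∀ x, S x ∈ Y := by
    intro x
    rw [hS]
    by_cases h : T x ∈ Y
    · simp [h]
    · simp [h, hy₀]
  have hSae : S =ᵐ[uniformProbOn K] T := by
    filter_upwards [hae] with x hx
    rw [hS]
    simp [hx]
  have hcore : CoreHyp K S RY := by
    refine ⟨hSm, fun x => hYR _ (hSY x), ?_⟩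
    intro S' hS' hmap
    rw [Measure.map_congr hSae, hTmap] at hmap
    have h1 := hTopt S' hS' hmap
    refine le_trans (le_of_eq ?_) h1
    apply lintegral_congr_ae
    filter_upwards [hSae] with x hx
    rw [hx]
  obtain ⟨φ, h1, h2, h3⟩ := core_potential hB hcore hRY
  refine ⟨φ, h1, h2, ?_⟩
  filter_upwards [h3, hSae, hae] with x a1 a2 a3
  refine ⟨a3, ?_⟩
  rw [← a2]
  exact a1

end Potential

end Crest.Agent.OT
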