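/-
Explicit sharpness example for the optimal-transport stability exponent 1/3 on the cube
(helper for S0110).  Three atoms `-e₀`, `η e₁`, `e₀`; Laguerre cells are the parts of the cube cut by
`|x₀| ≤ 2δ + η x₁`.
-/
import Crest.Prelude.Def_QuadraticTransport

set_option autoImplicit false
open MeasureTheory
open scoped ENNReal NNReal RealInnerProductSpace
open Crest.AnalysisR.OT

namespace Crest.Agent.OTSharp

/-- Ambient space. -/
abbrev E (d : ℕ) := EuclideanSpace ℝ (Fin d)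

/-- The cube. -/
abbrev Q (d : ℕ) : Set (E d) := {x : EuclideanSpace ℝ (Fin d) | ∀ i, |x i| ≤ 1}

/-- The uniform probability measure on `[-1,1]`. -/
noncomputable def lam : Measure ℝ := (2 : ℝ≥0∞)⁻¹ • volume.restrict (Set.Icc (-1 : ℝ) 1)

lemma lam_apply {s : Set ℝ} (hs : MeasurableSet s) :
    lam s = (2 : ℝ≥0∞)⁻¹ * volume (s ∩ Set.Icc (-1 : ℝ) 1) := by
  simp [lam, Measure.restrict_apply hs]

lemma lam_univ : lam Set.univ = 1 := by
  rw [lam_apply MeasurableSet.univ, Set.univ_inter, Real.volume_Icc]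
  have : ENNReal.ofReal (1 - (-1)) = 2 := by norm_num
  rw [this]
  exact ENNReal.inv_mul_cancel (by norm_num) (by norm_num)

instance : IsProbabilityMeasure lam := ⟨lam_univ⟩

lemma volume_rect {d : ℕ} (s : Fin d → Set ℝ) (hs : ∀ i, MeasurableSet (s i)) :
    volume {x : E d | ∀ i, x i ∈ s i} = ∏ i, volume (s i) := by
  have hm : MeasurableSet (Set.pi Set.univ s) :=
    MeasurableSet.univ_pi hs
  have h1 := (PiLp.volume_preserving_ofLp (Fin d)).measure_preimage hm.nullMeasurableSet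
  have h2 : (WithLp.ofLp : E d → (Fin d → ℝ)) ⁻¹' Set.pi Set.univ s = {x : E d | ∀ i, x i ∈ s i} := by
    ext x; simp [Set.mem_pi]
  rw [h2] at h1
  rw [h1, volume_pi_pi]

lemma Q_eq (d : ℕ) : Q d = {x : E d | ∀ i, x i ∈ Set.Icc (-1 : ℝ) 1} := by
  ext x; simp [abs_le]

lemma measurableSet_Q (d : ℕ) : MeasurableSet (Q d) := by
  have : Q d = ⋂ i, {x : E d | |x i| ≤ 1} := by ext x; simp
  rw [this]
  refine MeasurableSet.iInter fun i => ?_
  exact measurableSet_le (by fun_prop) (by fun_prop)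

lemma volume_Q (d : ℕ) : volume (Q d) = 2 ^ d := by
  rw [Q_eq, volume_rect _ (fun _ => measurableSet_Icc)]
  have : ENNReal.ofReal (1 - (-1)) = 2 := by norm_num
  simp only [Real.volume_Icc, this]
  simp

lemma rho_compl (d : ℕ) : uniformProbOn (Q d) (Q d)ᶜ = 0 := by
  unfold uniformProbOn
  rw [Measure.smul_apply, Measure.restrict_apply (measurableSet_Q d).compl]
  simp

/-- The joint law of two coordinates under the uniform measure on the cube. -/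
theorem map_pair {d : ℕ} {i0 i1 : Fin d} (h : i0 ≠ i1) :
    (uniformProbOn (Q d)).map (fun x : E d => (x i0, x i1)) = lam.prod lam := by
  symm
  refine Measure.prod_eq ?_
  intro s t hs ht
  have hp : Measurable (fun x : E d => (x i0, x i1)) := by fun_prop
  rw [Measure.map_apply hp (hs.prod ht)]
  set A : Fin d → Set ℝ := fun i =>
    if i = i0 then s ∩ Set.Icc (-1 : ℝ) 1 else if i = i1 then t ∩ Set.Icc (-1 : ℝ) 1
    else Set.Icc (-1 : ℝ) 1 with hA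
  have hAm : ∀ i, MeasurableSet (A i) := by
    intro i
    simp only [hA]
    split_ifs
    · exact hs.inter measurableSet_Icc
    · exact ht.inter measurableSet_Icc
    · exact measurableSet_Icc
  have key : (fun x : E d => (x i0, x i1)) ⁻¹' (s ×ˢ t) ∩ Q d = {x : E d | ∀ i, x i ∈ A i} := by
    ext x
    simp only [Set.mem_inter_iff, Set.mem_preimage, Set.mem_prod, Set.mem_ofPred_eq, abs_le, hA]
    constructor
    · rintro ⟨⟨h1, h2⟩, h3⟩ i
      split_ifs with h4 h5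
      · subst h4; exact ⟨h1, h3 _⟩
      · subst h5; exact ⟨h2, h3 _⟩
      · exact h3 _
    · intro hx
      have h0 := hx i0
      have h1 := hx i1
      rw [if_pos rfl] at h0
      rw [if_neg h.symm, if_pos rfl] at h1
      refine ⟨⟨h0.1, h1.1⟩, fun i => ?_⟩
      have h2 := hx i
      split_ifs at h2
      · exact h2.2
      · exact h2.2
      · exact h2
  unfold uniformProbOn
  have hmeas : MeasurableSet ((fun x : E d => (x i0, x i1)) ⁻¹' (s ×ˢ t)) := hp (hs.prod ht)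
  rw [Measure.smul_apply, smul_eq_mul, Measure.restrict_apply hmeas, key, volume_rect A hAm,
    volume_Q]
  have h2inv : ((2 : ℝ≥0∞) ^ d)⁻¹ = ∏ _i : Fin d, (2 : ℝ≥0∞)⁻¹ := by
    simp [ENNReal.inv_pow]
  rw [h2inv, ← Finset.prod_mul_distrib]
  rw [Finset.prod_eq_mul i0 i1 h]
  · rw [lam_apply hs, lam_apply ht]
    simp only [hA, if_true, if_neg h.symm]
  · intro c _ hc
    simp only [hA]
    rw [if_neg hc.1, if_neg hc.2, Real.volume_Icc]
    have : ENNReal.ofReal (1 - (-1)) = 2 := by norm_num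
    rw [this]
    exact ENNReal.inv_mul_cancel (by norm_num) (by norm_num)
  · intro hc; exact absurd (Finset.mem_univ _) hc
  · intro hc; exact absurd (Finset.mem_univ _) hc

/-- `ρ` is a probability measure. -/
lemma rho_prob {d : ℕ} {i0 i1 : Fin d} (h : i0 ≠ i1) :
    IsProbabilityMeasure (uniformProbOn (Q d)) := by
  have h0 := map_pair h
  constructor
  have hp : Measurable (fun x : E d => (x i0, x i1)) := by fun_prop
  have h3 := congrArg (fun m => m Set.univ) h0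
  simp only at h3
  rw [Measure.map_apply hp MeasurableSet.univ, Set.preimage_univ] at h3
  rw [h3]
  simp

/-! ### Abstract lemmas -/

section abstract

variable {F : Type*} [NormedAddCommGroup F] [MeasurableSpace F]

/-- Optimality by a potential. -/
theorem optimal_of_potential (ρ : Measure F) (T : F → F) (H : F → ℝ≥0∞) (A : Set F)
    (hA : MeasurableSet A) (hT : Measurable T) (hH : Measurable H)
    (hfin : ∫⁻ y, H y ∂(ρ.map T) ≠ ∞)
    (hle : ∀ᵐ x ∂ρ, ∀ y ∈ A, ‖x - T x‖ₑ ^ 2 + H (T x) ≤ ‖x - y‖ₑ ^ 2 + H y)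
    (hAS : ∀ S : F → F, Measurable S → ρ.map S = ρ.map T → ∀ᵐ x ∂ρ, S x ∈ A)
    (S : F → F) (hS : Measurable S) (hST : ρ.map S = ρ.map T) :
    ∫⁻ x, ‖x - T x‖ₑ ^ 2 ∂ρ ≤ ∫⁻ x, ‖x - S x‖ₑ ^ 2 ∂ρ := by
  have hSA := hAS S hS hST
  have e1 : ∫⁻ x, H (T x) ∂ρ = ∫⁻ y, H y ∂(ρ.map T) := (lintegral_map hH hT).symm
  have e2 : ∫⁻ x, H (S x) ∂ρ = ∫⁻ y, H y ∂(ρ.map T) := by
    rw [← hST, lintegral_map hH hS]
  have hmain : ∫⁻ x, (‖x - T x‖ₑ ^ 2 + H (T x)) ∂ρ ≤ ∫⁻ x, (‖x - S x‖ₑ ^ 2 + H (S x)) ∂ρ := by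
    refine lintegral_mono_ae ?_
    filter_upwards [hle, hSA] with x h1 h2
    exact h1 _ h2
  have hHT : Measurable (fun x => H (T x)) := hH.comp hT
  have hHS : Measurable (fun x => H (S x)) := hH.comp hS
  rw [lintegral_add_right _ hHT, lintegral_add_right _ hHS, e1, e2] at hmain
  exact (ENNReal.add_le_add_iff_right hfin).1 hmain

end abstract

/-- Uniqueness on strict cells. -/
theorem eq_on_strict {d : ℕ} (ρ : Measure (E d)) (T : E d → E d) (H : E d → ℝ≥0∞) (A B : Set (E d))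
    (hT : Measurable T) (hH : Measurable H)
    (hfin : ∫⁻ y, H y ∂(ρ.map T) ≠ ∞)
    (hfin2 : ∫⁻ x, ‖x - T x‖ₑ ^ 2 ∂ρ ≠ ∞)
    (hle : ∀ᵐ x ∂ρ, ∀ y ∈ A, ‖x - T x‖ₑ ^ 2 + H (T x) ≤ ‖x - y‖ₑ ^ 2 + H y)
    (hstrict : ∀ x ∈ B, ∀ y ∈ A, y ≠ T x → ‖x - T x‖ₑ ^ 2 + H (T x) < ‖x - y‖ₑ ^ 2 + H y)
    (S : E d → E d) (hS : Measurable S) (hSA : ∀ᵐ x ∂ρ, S x ∈ A) (hST : ρ.map S = ρ.map T)
    (hopt : ∫⁻ x, ‖x - S x‖ₑ ^ 2 ∂ρ ≤ ∫⁻ x, ‖x - T x‖ₑ ^ 2 ∂ρ) :
    ∀ᵐ x ∂ρ, x ∈ B → S x = T x := by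
  have e1 : ∫⁻ x, H (T x) ∂ρ = ∫⁻ y, H y ∂(ρ.map T) := (lintegral_map hH hT).symm
  have e2 : ∫⁻ x, H (S x) ∂ρ = ∫⁻ y, H y ∂(ρ.map T) := by
    rw [← hST, lintegral_map hH hS]
  have hHT : Measurable (fun x => H (T x)) := hH.comp hT
  have hHS : Measurable (fun x => H (S x)) := hH.comp hS
  have hfg : (fun x => ‖x - T x‖ₑ ^ 2 + H (T x)) ≤ᵐ[ρ] (fun x => ‖x - S x‖ₑ ^ 2 + H (S x)) := by
    filter_upwards [hle, hSA] with x h1 h2
    exact h1 _ h2
  have hf : ∫⁻ x, (‖x - T x‖ₑ ^ 2 + H (T x)) ∂ρ ≠ ∞ := by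
    rw [lintegral_add_right _ hHT, e1]
    exact ENNReal.add_ne_top.2 ⟨hfin2, hfin⟩
  have hgm : AEMeasurable (fun x => ‖x - S x‖ₑ ^ 2 + H (S x)) ρ := by
    apply Measurable.aemeasurable
    exact ((measurable_id.sub hS).enorm.pow_const 2).add (hH.comp hS)
  have hgf : ∫⁻ x, (‖x - S x‖ₑ ^ 2 + H (S x)) ∂ρ ≤ ∫⁻ x, (‖x - T x‖ₑ ^ 2 + H (T x)) ∂ρ := by
    rw [lintegral_add_right _ hHT, lintegral_add_right _ hHS, e1, e2]
    gcongr
  have heq := ae_eq_of_ae_le_of_lintegral_le hfg hf hgm hgf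
  filter_upwards [heq, hSA] with x h1 h2 hxB
  by_contra hne
  have := hstrict x hxB (S x) h2 hne
  exact absurd h1 (ne_of_lt this)


/-! ### one-dimensional masses -/

lemma half_ofReal (x : ℝ) : (2 : ℝ≥0∞)⁻¹ * ENNReal.ofReal x = ENNReal.ofReal (x / 2) := by
  have h2 : (2 : ℝ≥0∞)⁻¹ = ENNReal.ofReal (1 / 2) := by
    rw [one_div, ENNReal.ofReal_inv_of_pos (by norm_num)]
    norm_num
  rw [h2, ← ENNReal.ofReal_mul (by norm_num)]
  congr 1
  ring

lemma lintegral_lam_affine (c e : ℝ) (h : ∀ b ∈ Set.Icc (-1 : ℝ) 1, 0 ≤ c + e * b) :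
    ∫⁻ b, ENNReal.ofReal (c + e * b) ∂lam = ENNReal.ofReal c := by
  unfold lam
  rw [lintegral_smul_measure, smul_eq_mul]
  have hint : Integrable (fun b : ℝ => c + e * b) (volume.restrict (Set.Icc (-1 : ℝ) 1)) :=
    (Continuous.integrableOn_Icc (by fun_prop))
  have hae : 0 ≤ᵐ[volume.restrict (Set.Icc (-1 : ℝ) 1)] (fun b : ℝ => c + e * b) :=
    (ae_restrict_iff' measurableSet_Icc).2 (Filter.Eventually.of_forall h)
  rw [← ofReal_integral_eq_lintegral_ofReal hint hae]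
  rw [integral_Icc_eq_integral_Ioc, ← intervalIntegral.integral_of_le (by norm_num)]
  have : ∫ b in (-1 : ℝ)..1, c + e * b = 2 * c := by
    rw [intervalIntegral.integral_add (by simp) (Continuous.intervalIntegrable (by fun_prop) _ _),
      intervalIntegral.integral_const, intervalIntegral.integral_const_mul, integral_id]
    norm_num
  rw [this, half_ofReal]
  congr 1
  ring

lemma lam_gt {w : ℝ} (h0 : -1 ≤ w) (h1 : w ≤ 1) :
    lam {a | w < a} = ENNReal.ofReal ((1 - w) / 2) := by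
  have hm : MeasurableSet {a : ℝ | w < a} := measurableSet_lt measurable_const measurable_id
  rw [lam_apply hm]
  have : {a : ℝ | w < a} ∩ Set.Icc (-1 : ℝ) 1 = Set.Ioc w 1 := by
    ext a
    simp only [Set.mem_inter_iff, Set.mem_ofPred_eq, Set.mem_Icc, Set.mem_Ioc]
    constructor
    · rintro ⟨h, _, h'⟩; exact ⟨h, h'⟩
    · rintro ⟨h, h'⟩; exact ⟨h, by linarith, h'⟩
  rw [this, Real.volume_Ioc, half_ofReal]

lemma lam_lt {w : ℝ} (h0 : -1 ≤ w) (h1 : w ≤ 1) :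
    lam {a | a < -w} = ENNReal.ofReal ((1 - w) / 2) := by
  have hm : MeasurableSet {a : ℝ | a < -w} := measurableSet_lt measurable_id measurable_const
  rw [lam_apply hm]
  have : {a : ℝ | a < -w} ∩ Set.Icc (-1 : ℝ) 1 = Set.Ico (-1) (-w) := by
    ext a
    simp only [Set.mem_inter_iff, Set.mem_ofPred_eq, Set.mem_Icc, Set.mem_Ico]
    constructor
    · rintro ⟨h, h', _⟩; exact ⟨h', h⟩
    · rintro ⟨h, h'⟩; exact ⟨h', h, by linarith⟩
  rw [this, Real.volume_Ico, half_ofReal]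
  congr 2
  ring

lemma lam_mid {w : ℝ} (h0 : 0 ≤ w) (h1 : w ≤ 1) :
    lam {a | ¬ a < -w ∧ ¬ w < a} = ENNReal.ofReal w := by
  have hm : MeasurableSet {a : ℝ | ¬ a < -w ∧ ¬ w < a} :=
    (measurableSet_lt measurable_id measurable_const).compl.inter
      (measurableSet_lt measurable_const measurable_id).compl
  rw [lam_apply hm]
  have : {a : ℝ | ¬ a < -w ∧ ¬ w < a} ∩ Set.Icc (-1 : ℝ) 1 = Set.Icc (-w) w := by
    ext a
    simp only [Set.mem_inter_iff, Set.mem_ofPred_eq, Set.mem_Icc, not_lt]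
    constructor
    · rintro ⟨⟨h, h'⟩, _⟩; exact ⟨h, h'⟩
    · rintro ⟨h, h'⟩; exact ⟨⟨h, h'⟩, by linarith, by linarith⟩
  rw [this, Real.volume_Icc, half_ofReal]
  congr 1
  ring

lemma lam_Ioo {a b : ℝ} (h0 : -1 ≤ a) (h1 : b ≤ 1) :
    lam (Set.Ioo a b) = ENNReal.ofReal ((b - a) / 2) := by
  rw [lam_apply measurableSet_Ioo]
  have : Set.Ioo a b ∩ Set.Icc (-1 : ℝ) 1 = Set.Ioo a b := by
    ext t
    simp only [Set.mem_inter_iff, Set.mem_Icc, Set.mem_Ioo]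
    constructor
    · rintro ⟨h, _⟩; exact h
    · rintro h; exact ⟨h, by linarith [h.1], by linarith [h.2]⟩
  rw [this, Real.volume_Ioo, half_ofReal]

lemma ae_lam_mem : ∀ᵐ b ∂lam, b ∈ Set.Icc (-1 : ℝ) 1 := by
  unfold lam
  exact Measure.ae_smul_measure (ae_restrict_mem measurableSet_Icc) _

/-! ### Planar cells -/

/-- The three planar cells. -/
def S0 (δ η : ℝ) : Set (ℝ × ℝ) := {q | q.1 < -(2 * δ + η * q.2)}
/-- The three planar cells. -/
def S2 (δ η : ℝ) : Set (ℝ × ℝ) := {q | ¬ q.1 < -(2 * δ + η * q.2) ∧ 2 * δ + η * q.2 < q.1}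
/-- The three planar cells. -/
def S1 (δ η : ℝ) : Set (ℝ × ℝ) := {q | ¬ q.1 < -(2 * δ + η * q.2) ∧ ¬ 2 * δ + η * q.2 < q.1}

lemma measurableSet_S0 (δ η : ℝ) : MeasurableSet (S0 δ η) :=
  measurableSet_lt (by fun_prop) (by fun_prop)
lemma measurableSet_S2 (δ η : ℝ) : MeasurableSet (S2 δ η) :=
  (measurableSet_S0 δ η).compl.inter
    (measurableSet_lt (f := fun q : ℝ × ℝ => 2 * δ + η * q.2) (g := fun q => q.1)
      (by fun_prop) (by fun_prop))
lemma measurableSet_S1 (δ η : ℝ) : MeasurableSet (S1 δ η) :=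
  (measurableSet_S0 δ η).compl.inter
    (measurableSet_lt (f := fun q : ℝ × ℝ => 2 * δ + η * q.2) (g := fun q => q.1)
      (by fun_prop) (by fun_prop)).compl

section masses

variable {δ η : ℝ} (hδ0 : 0 < δ) (hδ1 : δ ≤ 1 / 8) (hη0 : 0 ≤ η) (hη1 : η ≤ δ)

include hδ0 hδ1 hη0 hη1

lemma w_bounds {b : ℝ} (hb : b ∈ Set.Icc (-1 : ℝ) 1) :
    0 < 2 * δ + η * b ∧ 2 * δ + η * b ≤ 1 := by
  have h1 : -η ≤ η * b := by nlinarith [hb.1]
  have h2 : η * b ≤ η := by nlinarith [hb.2]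
  constructor <;> linarith

lemma mass_S0 : (lam.prod lam) (S0 δ η) = ENNReal.ofReal ((1 - 2 * δ) / 2) := by
  rw [Measure.prod_apply_symm (measurableSet_S0 δ η)]
  have : ∀ᵐ b ∂lam, lam ((fun a => (a, b)) ⁻¹' S0 δ η) =
      ENNReal.ofReal ((1 - 2 * δ) / 2 + (-(η / 2)) * b) := by
    filter_upwards [ae_lam_mem] with b hb
    obtain ⟨h1, h2⟩ := w_bounds hδ0 hδ1 hη0 hη1 hb
    have : (fun a => (a, b)) ⁻¹' S0 δ η = {a | a < -(2 * δ + η * b)} := rfl
    rw [this, lam_lt (by linarith) h2]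
    congr 1
    ring
  rw [lintegral_congr_ae this, lintegral_lam_affine]
  intro b hb
  obtain ⟨h1, h2⟩ := w_bounds hδ0 hδ1 hη0 hη1 hb
  linarith

lemma mass_S2 : (lam.prod lam) (S2 δ η) = ENNReal.ofReal ((1 - 2 * δ) / 2) := by
  rw [Measure.prod_apply_symm (measurableSet_S2 δ η)]
  have : ∀ᵐ b ∂lam, lam ((fun a => (a, b)) ⁻¹' S2 δ η) =
      ENNReal.ofReal ((1 - 2 * δ) / 2 + (-(η / 2)) * b) := by
    filter_upwards [ae_lam_mem] with b hb
    obtain ⟨h1, h2⟩ := w_bounds hδ0 hδ1 hη0 hη1 hb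
    have : (fun a => (a, b)) ⁻¹' S2 δ η = {a | 2 * δ + η * b < a} := by
      ext a
      simp only [S2, Set.mem_preimage, Set.mem_ofPred_eq]
      constructor
      · rintro ⟨_, h⟩; exact h
      · intro h; exact ⟨by linarith, h⟩
    rw [this, lam_gt (by linarith) h2]
    congr 1
    ring
  rw [lintegral_congr_ae this, lintegral_lam_affine]
  intro b hb
  obtain ⟨h1, h2⟩ := w_bounds hδ0 hδ1 hη0 hη1 hb
  linarith

lemma mass_S1 : (lam.prod lam) (S1 δ η) = ENNReal.ofReal (2 * δ) := by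
  rw [Measure.prod_apply_symm (measurableSet_S1 δ η)]
  have : ∀ᵐ b ∂lam, lam ((fun a => (a, b)) ⁻¹' S1 δ η) =
      ENNReal.ofReal (2 * δ + η * b) := by
    filter_upwards [ae_lam_mem] with b hb
    obtain ⟨h1, h2⟩ := w_bounds hδ0 hδ1 hη0 hη1 hb
    have : (fun a => (a, b)) ⁻¹' S1 δ η = {a | ¬ a < -(2 * δ + η * b) ∧ ¬ 2 * δ + η * b < a} := rfl
    rw [this, lam_mid h1.le h2]
  rw [lintegral_congr_ae this, lintegral_lam_affine]
  intro b hb
  obtain ⟨h1, h2⟩ := w_bounds hδ0 hδ1 hη0 hη1 hb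
  linarith

end masses


/-! ### The example -/

section example_

variable {d : ℕ} (i0 i1 : Fin d) (δ η : ℝ)

/-- Atoms. -/
noncomputable def y0 : E d := EuclideanSpace.single i0 (-1 : ℝ)
/-- Atoms. -/
noncomputable def y2 : E d := EuclideanSpace.single i0 (1 : ℝ)
/-- Atoms. -/
noncomputable def y1 : E d := EuclideanSpace.single i1 η

/-- The three atoms. -/
noncomputable def atom : Fin 3 → E d := ![y0 i0, y1 i1 η, y2 i0]

/-- The three weights. -/
noncomputable def mass : Fin 3 → ℝ := ![(1 - 2 * δ) / 2, 2 * δ, (1 - 2 * δ) / 2]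

/-- The target measure. -/
noncomputable def tgt : Measure (E d) :=
  ∑ i, ENNReal.ofReal (mass δ i) • Measure.dirac (atom i0 i1 η i)

/-- The Laguerre map. -/
noncomputable def Tmap (x : E d) : E d :=
  if x i0 < -(2 * δ + η * x i1) then y0 i0
  else if 2 * δ + η * x i1 < x i0 then y2 i0 else y1 i1 η

lemma measurable_Tmap : Measurable (Tmap i0 i1 δ η) := by
  unfold Tmap
  refine Measurable.ite ?_ measurable_const (Measurable.ite ?_ measurable_const measurable_const)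
  · exact measurableSet_lt (by fun_prop) (by fun_prop)
  · exact measurableSet_lt (by fun_prop) (by fun_prop)

lemma map_restrict_const {F : Type*} [MeasurableSpace F] [MeasurableSingletonClass F]
    (ρ : Measure F) (T : F → F) (hT : Measurable T) (C : Set F) (hC : MeasurableSet C) (y : F)
    (h : ∀ x ∈ C, T x = y) : (ρ.restrict C).map T = ρ C • Measure.dirac y := by
  have h1 : (ρ.restrict C).map T = (ρ.restrict C).map (fun _ => y) :=
    Measure.map_congr ((ae_restrict_iff' hC).2 (Filter.Eventually.of_forall h))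
  rw [h1, Measure.map_const, Measure.restrict_apply_univ]

/-- The pushforward of `ρ` by the Laguerre map. -/
theorem map_Tmap (h : i0 ≠ i1) {δ η : ℝ} (hδ0 : 0 < δ) (hδ1 : δ ≤ 1 / 8) (hη0 : 0 ≤ η)
    (hη1 : η ≤ δ) : (uniformProbOn (Q d)).map (Tmap i0 i1 δ η) = tgt i0 i1 δ η := by
  set ρ := uniformProbOn (Q d) with hρ
  set p : E d → ℝ × ℝ := fun x => (x i0, x i1) with hp
  have hpm : Measurable p := by fun_prop
  have hmp : ρ.map p = lam.prod lam := map_pair h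
  have hC : ∀ S : Set (ℝ × ℝ), MeasurableSet S → ρ (p ⁻¹' S) = (lam.prod lam) S := by
    intro S hS
    rw [← hmp, Measure.map_apply hpm hS]
  set C0 := p ⁻¹' S0 δ η
  set C2 := p ⁻¹' S2 δ η
  set C1 := p ⁻¹' S1 δ η
  have mC0 : MeasurableSet C0 := hpm (measurableSet_S0 δ η)
  have mC2 : MeasurableSet C2 := hpm (measurableSet_S2 δ η)
  have mC1 : MeasurableSet C1 := hpm (measurableSet_S1 δ η)
  have hT := measurable_Tmap i0 i1 δ η
  have t0 : ∀ x ∈ C0, Tmap i0 i1 δ η x = y0 i0 := by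
    intro x hx
    have hx' : x i0 < -(2 * δ + η * x i1) := hx
    unfold Tmap
    rw [if_pos hx']
  have t2 : ∀ x ∈ C2, Tmap i0 i1 δ η x = y2 i0 := by
    intro x hx
    have hx' : ¬ x i0 < -(2 * δ + η * x i1) ∧ 2 * δ + η * x i1 < x i0 := hx
    unfold Tmap
    rw [if_neg hx'.1, if_pos hx'.2]
  have t1 : ∀ x ∈ C1, Tmap i0 i1 δ η x = y1 i1 η := by
    intro x hx
    have hx' : ¬ x i0 < -(2 * δ + η * x i1) ∧ ¬ 2 * δ + η * x i1 < x i0 := hx
    unfold Tmap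
    rw [if_neg hx'.1, if_neg hx'.2]
  have hU : C0 ∪ (C2 ∪ C1) = Set.univ := by
    ext x
    simp only [C0, C1, C2, S0, S1, S2, Set.mem_union, Set.mem_preimage, Set.mem_ofPred_eq,
      Set.mem_univ, iff_true, hp]
    tauto
  have hd1 : Disjoint C2 C1 := by
    rw [Set.disjoint_left]
    rintro x hx hx'
    exact hx'.2 hx.2
  have hd2 : Disjoint C0 (C2 ∪ C1) := by
    rw [Set.disjoint_left]
    rintro x hx (hx' | hx')
    · exact hx'.1 hx
    · exact hx'.1 hx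
  have hdec : ρ = ρ.restrict C0 + (ρ.restrict C2 + ρ.restrict C1) := by
    rw [← Measure.restrict_union hd1 mC1, ← Measure.restrict_union hd2 (mC2.union mC1), hU,
      Measure.restrict_univ]
  have m0 : ρ C0 = ENNReal.ofReal ((1 - 2 * δ) / 2) := by
    rw [hC _ (measurableSet_S0 δ η), mass_S0 hδ0 hδ1 hη0 hη1]
  have m2 : ρ C2 = ENNReal.ofReal ((1 - 2 * δ) / 2) := by
    rw [hC _ (measurableSet_S2 δ η), mass_S2 hδ0 hδ1 hη0 hη1]
  have m1 : ρ C1 = ENNReal.ofReal (2 * δ) := by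
    rw [hC _ (measurableSet_S1 δ η), mass_S1 hδ0 hδ1 hη0 hη1]
  rw [hdec, Measure.map_add _ _ hT, Measure.map_add _ _ hT,
    map_restrict_const ρ _ hT C0 mC0 _ t0, map_restrict_const ρ _ hT C2 mC2 _ t2,
    map_restrict_const ρ _ hT C1 mC1 _ t1, m0, m1, m2]
  simp only [tgt, Fin.sum_univ_three, atom, mass]
  simp only [Matrix.cons_val_zero, Matrix.cons_val_one, Matrix.cons_val]
  abel

/-- Shape of the potential. -/
noncomputable def hReal (y : E d) : ℝ := 1 + 4 * δ * |y i0| - ‖y‖ ^ 2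

/-- The potential. -/
noncomputable def Hpot (y : E d) : ℝ≥0∞ := ENNReal.ofReal (hReal i0 δ y)

lemma measurable_Hpot : Measurable (Hpot (d := d) i0 δ) := by
  unfold Hpot hReal
  fun_prop

/-- The total cost. -/
noncomputable def cost (x y : E d) : ℝ := ‖x - y‖ ^ 2 + hReal i0 δ y

lemma enn_cost (x y : E d) (hy : 0 ≤ hReal i0 δ y) :
    ‖x - y‖ₑ ^ 2 + Hpot i0 δ y = ENNReal.ofReal (cost i0 δ x y) := by
  unfold Hpot cost
  rw [ENNReal.ofReal_add (by positivity) hy, ENNReal.ofReal_pow (norm_nonneg _),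
    ofReal_norm_eq_enorm]

lemma cost_y0 (x : E d) : cost i0 δ x (y0 i0) = ‖x‖ ^ 2 + 1 + 4 * δ + 2 * x i0 := by
  unfold cost hReal
  rw [norm_sub_sq_real]
  simp [y0, EuclideanSpace.inner_single_right]
  ring

lemma cost_y2 (x : E d) : cost i0 δ x (y2 i0) = ‖x‖ ^ 2 + 1 + 4 * δ - 2 * x i0 := by
  unfold cost hReal
  rw [norm_sub_sq_real]
  simp [y2, EuclideanSpace.inner_single_right]
  ring

lemma cost_y1 (h : i0 ≠ i1) (x : E d) :
    cost i0 δ x (y1 i1 η) = ‖x‖ ^ 2 + 1 - 2 * (η * x i1) := by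
  unfold cost hReal
  rw [norm_sub_sq_real]
  simp [y1, EuclideanSpace.inner_single_right, h]
  ring

/-- The atom set. -/
noncomputable def Aset : Set (E d) := Set.range (atom i0 i1 η)

lemma measurableSet_Aset : MeasurableSet (Aset i0 i1 η) :=
  (Set.finite_range _).measurableSet

lemma mem_Aset {y : E d} (hy : y ∈ Aset i0 i1 η) : y = y0 i0 ∨ y = y1 i1 η ∨ y = y2 i0 := by
  obtain ⟨j, rfl⟩ := hy
  fin_cases j
  · left; rfl
  · right; left; rfl
  · right; right; rfl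

lemma hReal_y0 (hδ : 0 ≤ δ) : 0 ≤ hReal i0 δ (y0 i0 : E d) := by
  unfold hReal
  simp [y0]
  positivity

lemma hReal_y2 (hδ : 0 ≤ δ) : 0 ≤ hReal i0 δ (y2 i0 : E d) := by
  unfold hReal
  simp [y2]
  positivity

lemma hReal_y1 (h : i0 ≠ i1) (hη : |η| ≤ 1) : 0 ≤ hReal i0 δ (y1 i1 η : E d) := by
  unfold hReal
  simp [y1, h]
  have : η ^ 2 ≤ 1 := by
    have := abs_le.1 hη
    nlinarith
  linarith

lemma hReal_A (h : i0 ≠ i1) {δ η : ℝ} (hδ : 0 ≤ δ) (hη : |η| ≤ 1) {y : E d}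
    (hy : y ∈ Aset i0 i1 η) : 0 ≤ hReal i0 δ y := by
  rcases mem_Aset i0 i1 η hy with rfl | rfl | rfl
  · exact hReal_y0 i0 δ hδ
  · exact hReal_y1 i0 i1 δ η h hη
  · exact hReal_y2 i0 δ hδ

lemma Tmap_mem (x : E d) : Tmap i0 i1 δ η x ∈ Aset i0 i1 η := by
  unfold Tmap
  split_ifs
  · exact ⟨0, rfl⟩
  · exact ⟨2, rfl⟩
  · exact ⟨1, rfl⟩

lemma cost_le_of_mem_Q (h : i0 ≠ i1) {δ η : ℝ} (hδ0 : 0 < δ) (hη0 : 0 ≤ η) (hη1 : η ≤ δ)
    {x : E d} (hx : x ∈ Q d) {y : E d} (hy : y ∈ Aset i0 i1 η) :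
    cost i0 δ x (Tmap i0 i1 δ η x) ≤ cost i0 δ x y := by
  have hb := abs_le.1 (hx i1)
  have hw : 0 < 2 * δ + η * x i1 := by nlinarith [hb.1]
  unfold Tmap
  rcases mem_Aset i0 i1 η hy with rfl | rfl | rfl <;> split_ifs with h1 h2 <;>
    simp only [cost_y0, cost_y2, cost_y1 i0 i1 δ η h] <;> linarith

lemma cost_lt_y2 (h : i0 ≠ i1) {δ η : ℝ} {x : E d}
    (hw : 0 < 2 * δ + η * x i1) (hx : 2 * δ + η * x i1 < x i0) {y : E d}
    (hy : y ∈ Aset i0 i1 η) (hne : y ≠ y2 i0) :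
    cost i0 δ x (y2 i0) < cost i0 δ x y := by
  rcases mem_Aset i0 i1 η hy with rfl | rfl | rfl
  · simp only [cost_y0, cost_y2]; linarith
  · simp only [cost_y2, cost_y1 i0 i1 δ η h]; linarith
  · exact absurd rfl hne

lemma cost_lt_y1 (h : i0 ≠ i1) {δ η : ℝ} {x : E d}
    (hx1 : -(2 * δ + η * x i1) < x i0) (hx2 : x i0 < 2 * δ + η * x i1) {y : E d}
    (hy : y ∈ Aset i0 i1 η) (hne : y ≠ y1 i1 η) :
    cost i0 δ x (y1 i1 η) < cost i0 δ x y := by
  rcases mem_Aset i0 i1 η hy with rfl | rfl | rfl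
  · simp only [cost_y0, cost_y1 i0 i1 δ η h]; linarith
  · exact absurd rfl hne
  · simp only [cost_y2, cost_y1 i0 i1 δ η h]; linarith

lemma Tmap_of_gt {x : E d} (hw : 0 < 2 * δ + η * x i1) (hx : 2 * δ + η * x i1 < x i0) :
    Tmap i0 i1 δ η x = y2 i0 := by
  unfold Tmap
  rw [if_neg (by linarith), if_pos hx]

lemma Tmap_of_mid {x : E d}
    (hx1 : -(2 * δ + η * x i1) < x i0) (hx2 : x i0 < 2 * δ + η * x i1) :
    Tmap i0 i1 δ η x = y1 i1 η := by
  unfold Tmap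
  rw [if_neg (by linarith), if_neg (by linarith)]

lemma norm_sq_le_of_mem_Q {x : E d} (hx : x ∈ Q d) : ‖x‖ ^ 2 ≤ d := by
  rw [EuclideanSpace.norm_sq_eq]
  calc ∑ i, ‖x i‖ ^ 2 ≤ ∑ _i : Fin d, (1 : ℝ) := by
        refine Finset.sum_le_sum fun i _ => ?_
        have := hx i
        rw [Real.norm_eq_abs]
        have h0 := abs_nonneg (x i)
        nlinarith
    _ = d := by simp

lemma norm_sq_le_of_mem_A {δ η : ℝ} (hη : |η| ≤ 1) {y : E d} (hy : y ∈ Aset i0 i1 η) :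
    ‖y‖ ^ 2 ≤ 1 := by
  rcases mem_Aset i0 i1 η hy with rfl | rfl | rfl
  · simp [y0]
  · simp [y1]
    have := abs_le.1 hη
    nlinarith
  · simp [y2]

end example_

section final

variable {d : ℕ} {i0 i1 : Fin d} {δ η : ℝ}

lemma tgt_compl_A : tgt i0 i1 δ η (Aset i0 i1 η)ᶜ = 0 := by
  have : ∀ j, Measure.dirac (atom i0 i1 η j) (Aset i0 i1 η)ᶜ = 0 := by
    intro j
    rw [Measure.dirac_apply' _ (measurableSet_Aset i0 i1 η).compl]
    have hj : atom i0 i1 η j ∈ Aset i0 i1 η := ⟨j, rfl⟩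
    simp [hj]
  simp [tgt, this]

lemma ae_Q (d : ℕ) : ∀ᵐ x ∂(uniformProbOn (Q d)), x ∈ Q d := by
  have := measure_eq_zero_iff_ae_notMem.1 (rho_compl d)
  filter_upwards [this] with x hx
  simpa using hx

lemma ae_mem_A_of_map {S : E d → E d} (hS : Measurable S)
    (hSμ : (uniformProbOn (Q d)).map S = tgt i0 i1 δ η) :
    ∀ᵐ x ∂(uniformProbOn (Q d)), S x ∈ Aset i0 i1 η := by
  have h1 : uniformProbOn (Q d) (S ⁻¹' (Aset i0 i1 η)ᶜ) = 0 := by
    rw [← Measure.map_apply hS (measurableSet_Aset i0 i1 η).compl, hSμ, tgt_compl_A]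
  have := measure_eq_zero_iff_ae_notMem.1 h1
  filter_upwards [this] with x hx
  simpa using hx

section withHyps

variable (h : i0 ≠ i1) (hδ0 : 0 < δ) (hδ1 : δ ≤ 1 / 8) (hη0 : 0 ≤ η) (hη1 : η ≤ δ)

include h hδ0 hδ1 hη0 hη1

lemma abs_eta_le : |η| ≤ 1 := by
  rw [abs_le]; constructor <;> linarith

lemma hle_main : ∀ᵐ x ∂(uniformProbOn (Q d)), ∀ y ∈ Aset i0 i1 η,
    ‖x - Tmap i0 i1 δ η x‖ₑ ^ 2 + Hpot i0 δ (Tmap i0 i1 δ η x) ≤ ‖x - y‖ₑ ^ 2 + Hpot i0 δ y := by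
  have hη' := abs_eta_le (i0 := i0) (i1 := i1) h hδ0 hδ1 hη0 hη1
  filter_upwards [ae_Q d] with x hx y hy
  rw [enn_cost i0 δ _ _ (hReal_A i0 i1 h hδ0.le hη' (Tmap_mem i0 i1 δ η x)),
    enn_cost i0 δ _ _ (hReal_A i0 i1 h hδ0.le hη' hy)]
  exact ENNReal.ofReal_le_ofReal (cost_le_of_mem_Q i0 i1 h hδ0 hη0 hη1 hx hy)

lemma hfin_pot : ∫⁻ y, Hpot i0 δ y ∂((uniformProbOn (Q d)).map (Tmap i0 i1 δ η)) ≠ ∞ := by
  rw [map_Tmap i0 i1 h hδ0 hδ1 hη0 hη1]
  have hH := measurable_Hpot (d := d) i0 δ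
  unfold tgt
  rw [lintegral_finset_sum_measure]
  refine (ENNReal.sum_lt_top.2 fun j _ => ?_).ne
  rw [lintegral_smul_measure, lintegral_dirac' _ hH, smul_eq_mul]
  exact ENNReal.mul_lt_top ENNReal.ofReal_lt_top ENNReal.ofReal_lt_top

lemma hfin_cost : ∫⁻ x, ‖x - Tmap i0 i1 δ η x‖ₑ ^ 2 ∂(uniformProbOn (Q d)) ≠ ∞ := by
  have hη' := abs_eta_le (i0 := i0) (i1 := i1) h hδ0 hδ1 hη0 hη1
  haveI := rho_prob h
  have hb : ∀ᵐ x ∂(uniformProbOn (Q d)),
      ‖x - Tmap i0 i1 δ η x‖ₑ ^ 2 ≤ ENNReal.ofReal (2 * d + 2) := by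
    filter_upwards [ae_Q d] with x hx
    rw [← ofReal_norm_eq_enorm, ← ENNReal.ofReal_pow (norm_nonneg _)]
    apply ENNReal.ofReal_le_ofReal
    have h1 := norm_sq_le_of_mem_Q hx
    have h2 := norm_sq_le_of_mem_A i0 i1 (δ := δ) hη' (Tmap_mem i0 i1 δ η x)
    have h3 := norm_sub_le x (Tmap i0 i1 δ η x)
    have h4 := norm_nonneg (x - Tmap i0 i1 δ η x)
    nlinarith [sq_nonneg (‖x‖ - ‖Tmap i0 i1 δ η x‖), norm_nonneg x,
      norm_nonneg (Tmap i0 i1 δ η x)]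
  refine ((lintegral_mono_ae hb).trans_lt ?_).ne
  rw [lintegral_const, measure_univ, mul_one]
  exact ENNReal.ofReal_lt_top

/-- `Tmap` is an optimal map. -/
theorem isOptimal_Tmap : IsOptimalMap (uniformProbOn (Q d)) (tgt i0 i1 δ η) (Tmap i0 i1 δ η) := by
  refine ⟨measurable_Tmap i0 i1 δ η, map_Tmap i0 i1 h hδ0 hδ1 hη0 hη1, fun S hS hSμ => ?_⟩
  rw [← map_Tmap i0 i1 h hδ0 hδ1 hη0 hη1] at hSμ
  refine optimal_of_potential _ _ (Hpot i0 δ) (Aset i0 i1 η)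
    (measurableSet_Aset i0 i1 η) (measurable_Tmap i0 i1 δ η) (measurable_Hpot i0 δ)
    (hfin_pot h hδ0 hδ1 hη0 hη1) (hle_main h hδ0 hδ1 hη0 hη1) ?_ S hS hSμ
  intro S' hS' hS'μ
  rw [map_Tmap i0 i1 h hδ0 hδ1 hη0 hη1] at hS'μ
  exact ae_mem_A_of_map hS' hS'μ

/-- General uniqueness statement on a set where the strict inequality holds. -/
lemma unique_on {S : E d → E d} (hS : IsOptimalMap (uniformProbOn (Q d)) (tgt i0 i1 δ η) S)
    (B : Set (E d)) (z : E d)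
    (hB : ∀ x ∈ B, Tmap i0 i1 δ η x = z ∧ ∀ y ∈ Aset i0 i1 η, y ≠ z → cost i0 δ x z < cost i0 δ x y) :
    ∀ᵐ x ∂(uniformProbOn (Q d)), x ∈ B → S x = z := by
  have hη' := abs_eta_le (i0 := i0) (i1 := i1) h hδ0 hδ1 hη0 hη1
  have hT := isOptimal_Tmap h hδ0 hδ1 hη0 hη1
  have hopt := hS.2.2 (Tmap i0 i1 δ η) hT.1 hT.2.1
  have hm : (uniformProbOn (Q d)).map S = (uniformProbOn (Q d)).map (Tmap i0 i1 δ η) := by
    rw [hS.2.1, hT.2.1]
  have hst : ∀ x ∈ B, ∀ y ∈ Aset i0 i1 η, y ≠ Tmap i0 i1 δ η x →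
      ‖x - Tmap i0 i1 δ η x‖ₑ ^ 2 + Hpot i0 δ (Tmap i0 i1 δ η x) < ‖x - y‖ₑ ^ 2 + Hpot i0 δ y := by
    intro x hx y hy hne
    obtain ⟨hz, hlt⟩ := hB x hx
    have hTm := Tmap_mem i0 i1 δ η x
    rw [enn_cost i0 δ _ _ (hReal_A i0 i1 h hδ0.le hη' hTm),
      enn_cost i0 δ _ _ (hReal_A i0 i1 h hδ0.le hη' hy)]
    rw [hz] at hne hTm ⊢
    have h0 : 0 ≤ cost i0 δ x z := by
      unfold cost
      have := hReal_A i0 i1 h hδ0.le hη' hTm
      positivity
    rw [ENNReal.ofReal_lt_ofReal_iff_of_nonneg h0]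
    exact hlt y hy hne
  have key := eq_on_strict _ (Tmap i0 i1 δ η) (Hpot i0 δ) (Aset i0 i1 η) B
    (measurable_Tmap i0 i1 δ η) (measurable_Hpot i0 δ)
    (hfin_pot h hδ0 hδ1 hη0 hη1) (hfin_cost h hδ0 hδ1 hη0 hη1) (hle_main h hδ0 hδ1 hη0 hη1) hst
    S hS.1 (ae_mem_A_of_map hS.1 hS.2.1) hm hopt
  filter_upwards [key] with x hx hxB
  rw [hx hxB, (hB x hxB).1]

end withHyps

/-- The coupling. -/
noncomputable def coup (i0 i1 : Fin d) (δ : ℝ) : Measure (E d × E d) :=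
  ∑ j, ENNReal.ofReal (mass δ j) • Measure.dirac (atom i0 i1 0 j, atom i0 i1 δ j)

lemma coup_isCoupling : IsPairCoupling (tgt i0 i1 δ 0) (tgt i0 i1 δ δ) (coup i0 i1 δ) := by
  constructor
  · simp only [coup, tgt, Fin.sum_univ_three]
    rw [Measure.map_add _ _ measurable_fst, Measure.map_add _ _ measurable_fst,
      Measure.map_smul, Measure.map_smul, Measure.map_smul,
      Measure.map_dirac' measurable_fst, Measure.map_dirac' measurable_fst,
      Measure.map_dirac' measurable_fst]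
  · simp only [coup, tgt, Fin.sum_univ_three]
    rw [Measure.map_add _ _ measurable_snd, Measure.map_add _ _ measurable_snd,
      Measure.map_smul, Measure.map_smul, Measure.map_smul,
      Measure.map_dirac' measurable_snd, Measure.map_dirac' measurable_snd,
      Measure.map_dirac' measurable_snd]

lemma quadCost_coup (hδ0 : 0 < δ) : quadCost (coup i0 i1 δ) = ENNReal.ofReal (2 * δ ^ 3) := by
  unfold quadCost
  simp only [coup, Fin.sum_univ_three]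
  rw [lintegral_add_measure, lintegral_add_measure, lintegral_smul_measure, lintegral_smul_measure,
    lintegral_smul_measure, lintegral_dirac, lintegral_dirac, lintegral_dirac]
  have e0 : atom i0 i1 (0 : ℝ) (0 : Fin 3) - atom i0 i1 δ (0 : Fin 3) = 0 := by
    simp [atom]
  have e2 : atom i0 i1 (0 : ℝ) (2 : Fin 3) - atom i0 i1 δ (2 : Fin 3) = 0 := by
    simp [atom]
  have e1 : ‖atom i0 i1 (0 : ℝ) (1 : Fin 3) - atom i0 i1 δ (1 : Fin 3)‖ₑ = ENNReal.ofReal δ := by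
    have : atom i0 i1 (0 : ℝ) (1 : Fin 3) - atom i0 i1 δ (1 : Fin 3) = - y1 i1 δ := by
      simp [atom, y1]
    rw [this, enorm_neg, ← ofReal_norm_eq_enorm]
    simp [y1, abs_of_pos hδ0]
  simp only [e0, e2, e1]
  have : mass δ 1 = 2 * δ := rfl
  simp only [enorm_zero, smul_eq_mul, this]
  rw [← ENNReal.ofReal_pow hδ0.le, ← ENNReal.ofReal_mul (by positivity)]
  have z : (0 : ℝ≥0∞) ^ 2 = 0 := by norm_num
  simp only [z, mul_zero, zero_add, add_zero]
  congr 1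
  ring

/-- The box. -/
def Box (i0 i1 : Fin d) (δ : ℝ) : Set (E d) :=
  (fun x : E d => (x i0, x i1)) ⁻¹' (Set.Ioo (2 * δ) (5 * δ / 2) ×ˢ Set.Ioo (1 / 2) 1)

lemma rho_Box (h : i0 ≠ i1) (hδ0 : 0 < δ) (hδ1 : δ ≤ 1 / 8) :
    uniformProbOn (Q d) (Box i0 i1 δ) = ENNReal.ofReal (δ / 16) := by
  have hp : Measurable (fun x : E d => (x i0, x i1)) := by fun_prop
  unfold Box
  rw [← Measure.map_apply hp (measurableSet_Ioo.prod measurableSet_Ioo), map_pair h,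
    Measure.prod_prod, lam_Ioo (by linarith) (by linarith), lam_Ioo (by norm_num) (by norm_num),
    ← ENNReal.ofReal_mul (by linarith)]
  congr 1
  ring

/-- The lower bound on the `L²` distance of optimal maps. -/
theorem lower_bound (h : i0 ≠ i1) (hδ0 : 0 < δ) (hδ1 : δ ≤ 1 / 8)
    {Tμ Tν : E d → E d} (hμ : IsOptimalMap (uniformProbOn (Q d)) (tgt i0 i1 δ 0) Tμ)
    (hν : IsOptimalMap (uniformProbOn (Q d)) (tgt i0 i1 δ δ) Tν) :
    ENNReal.ofReal (δ / 16) ≤ ∫⁻ x, ‖Tμ x - Tν x‖ₑ ^ 2 ∂(uniformProbOn (Q d)) := by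
  have hu0 : ∀ᵐ x ∂(uniformProbOn (Q d)), x ∈ Box i0 i1 δ → Tμ x = y2 i0 := by
    refine unique_on h hδ0 hδ1 le_rfl hδ0.le hμ _ _ ?_
    rintro x ⟨⟨hx1, hx2⟩, ⟨hx3, hx4⟩⟩
    simp only at hx1 hx2 hx3 hx4
    have hw : 0 < 2 * δ + 0 * x i1 := by linarith
    have hlt : 2 * δ + 0 * x i1 < x i0 := by linarith
    exact ⟨Tmap_of_gt i0 i1 δ 0 hw hlt, fun y hy hne => cost_lt_y2 i0 i1 h hw hlt hy hne⟩
  have hu1 : ∀ᵐ x ∂(uniformProbOn (Q d)), x ∈ Box i0 i1 δ → Tν x = y1 i1 δ := by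
    refine unique_on h hδ0 hδ1 hδ0.le le_rfl hν _ _ ?_
    rintro x ⟨⟨hx1, hx2⟩, ⟨hx3, hx4⟩⟩
    simp only at hx1 hx2 hx3 hx4
    have hl : -(2 * δ + δ * x i1) < x i0 := by nlinarith
    have hr : x i0 < 2 * δ + δ * x i1 := by nlinarith
    exact ⟨Tmap_of_mid i0 i1 δ δ hl hr, fun y hy hne => cost_lt_y1 i0 i1 h hl hr hy hne⟩
  have hB : MeasurableSet (Box i0 i1 δ) := by
    have hp : Measurable (fun x : E d => (x i0, x i1)) := by fun_prop
    exact hp (measurableSet_Ioo.prod measurableSet_Ioo)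
  rw [← rho_Box h hδ0 hδ1, ← lintegral_indicator_one hB]
  refine lintegral_mono_ae ?_
  filter_upwards [hu0, hu1] with x h0 h1
  by_cases hx : x ∈ Box i0 i1 δ
  · rw [Set.indicator_of_mem hx, h0 hx, h1 hx]
    have hone : (1 : ℝ) ≤ ‖(y2 i0 : E d) - y1 i1 δ‖ := by
      have := PiLp.norm_apply_le ((y2 i0 : E d) - y1 i1 δ) i0
      simpa [y2, y1, h] using this
    have hone' : (1 : ℝ≥0∞) ≤ ‖(y2 i0 : E d) - y1 i1 δ‖ₑ := by
      rw [← ofReal_norm_eq_enorm]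
      rw [← ENNReal.ofReal_one]
      exact ENNReal.ofReal_le_ofReal hone
    simpa using one_le_pow₀ hone' (n := 2)
  · rw [Set.indicator_of_notMem hx]
    exact zero_le

/-- Numerics. -/
lemma exists_delta (α : ℝ) (hα : 1 / 3 < α) (C : ℝ≥0) :
    ∃ δ : ℝ, 0 < δ ∧ δ ≤ 1 / 8 ∧ (C : ℝ) * (2 * δ ^ 3) ^ α < δ / 16 := by
  set κ : ℝ := 3 * α - 1 with hκ
  have hκ0 : 0 < κ := by rw [hκ]; linarith
  have hα0 : 0 < α := by linarith
  have h2α : 0 < (2 : ℝ) ^ α := Real.rpow_pos_of_pos (by norm_num) _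
  set D : ℝ := 16 * ((C : ℝ) * 2 ^ α) + 1 with hD
  have hC : 0 ≤ (C : ℝ) := C.coe_nonneg
  have hD0 : 0 < D := by rw [hD]; positivity
  set δ : ℝ := min (1 / 8) ((1 / D) ^ (1 / κ)) with hδ
  have hpos : 0 < (1 / D) ^ (1 / κ) := Real.rpow_pos_of_pos (by positivity) _
  have hδ0 : 0 < δ := lt_min (by norm_num) hpos
  refine ⟨δ, hδ0, min_le_left _ _, ?_⟩
  have hδκ : δ ^ κ ≤ 1 / D := by
    calc δ ^ κ ≤ ((1 / D) ^ (1 / κ)) ^ κ :=
          Real.rpow_le_rpow hδ0.le (min_le_right _ _) hκ0.le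
      _ = 1 / D := by
          rw [← Real.rpow_mul (by positivity), one_div_mul_cancel hκ0.ne', Real.rpow_one]
  have e1 : (2 * δ ^ 3) ^ α = 2 ^ α * (δ * δ ^ κ) := by
    rw [Real.mul_rpow (by norm_num) (by positivity)]
    congr 1
    rw [← Real.rpow_natCast, ← Real.rpow_mul hδ0.le]
    have : ((3 : ℕ) : ℝ) * α = 1 + κ := by rw [hκ]; push_cast; ring
    rw [this, Real.rpow_add hδ0, Real.rpow_one]
  rw [e1]
  have hκpos : 0 < δ ^ κ := Real.rpow_pos_of_pos hδ0 _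
  have e2 : (C : ℝ) * (2 ^ α * (δ * δ ^ κ)) = δ * ((C : ℝ) * 2 ^ α * δ ^ κ) := by ring
  rw [e2]
  have e3 : (C : ℝ) * 2 ^ α * δ ^ κ < 1 / 16 := by
    have h5 : (C : ℝ) * 2 ^ α * δ ^ κ ≤ (C : ℝ) * 2 ^ α * (1 / D) :=
      mul_le_mul_of_nonneg_left hδκ (by positivity)
    have h6 : (C : ℝ) * 2 ^ α * (1 / D) < 1 / 16 := by
      rw [mul_one_div, div_lt_div_iff₀ hD0 (by norm_num), hD]
      linarith
    linarith
  nlinarith

lemma atom_mem_Q (η : ℝ) (hη : |η| ≤ 1) (j : Fin 3) : atom i0 i1 η j ∈ Q d := by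
  intro i
  fin_cases j
  · simp only [atom, y0, Matrix.cons_val_zero, Fin.zero_eta, EuclideanSpace.single_apply]
    split_ifs <;> simp
  · simp only [atom, y1, Fin.mk_one, Matrix.cons_val_one, Matrix.cons_val_zero,
      EuclideanSpace.single_apply]
    split_ifs <;> simp [hη]
  · simp only [atom, y2, Fin.reduceFinMk, Matrix.cons_val, EuclideanSpace.single_apply]
    split_ifs <;> simp

lemma isProbOn (h : i0 ≠ i1) (hδ0 : 0 < δ) (hδ1 : δ ≤ 1 / 8) (hη0 : 0 ≤ η) (hη1 : η ≤ δ) :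
    IsProbabilityOn (Q d) (tgt i0 i1 δ η) := by
  have hη' := abs_eta_le (i0 := i0) (i1 := i1) h hδ0 hδ1 hη0 hη1
  constructor
  · rw [← map_Tmap i0 i1 h hδ0 hδ1 hη0 hη1]
    have := rho_prob h
    exact Measure.isProbabilityMeasure_map (measurable_Tmap i0 i1 δ η).aemeasurable
  · have : ∀ j, Measure.dirac (atom i0 i1 η j) (Q d)ᶜ = 0 := by
      intro j
      rw [Measure.dirac_apply' _ (measurableSet_Q d).compl]
      have hj := atom_mem_Q (i0 := i0) (i1 := i1) η hη' j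
      simp only [Set.indicator_apply]
      rw [if_neg]
      exact fun hc => hc hj
    simp [tgt, this]

lemma isThreeAtomic (h : i0 ≠ i1) (hδ0 : 0 < δ) (hδ1 : δ ≤ 1 / 8) :
    IsThreeAtomic (tgt i0 i1 δ η) := by
  refine ⟨atom i0 i1 η, ?_, mass δ, ?_, rfl⟩
  · have hv0 : (atom i0 i1 η 0) i0 = -1 := by simp [atom, y0]
    have hv1 : (atom i0 i1 η 1) i0 = 0 := by simp [atom, y1, h]
    have hv2 : (atom i0 i1 η 2) i0 = 1 := by simp [atom, y2]
    intro a b hab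
    have hab' := congrArg (fun z : E d => z i0) hab
    simp only at hab'
    fin_cases a <;> fin_cases b <;> first
      | rfl
      | (exfalso
         simp only [Fin.zero_eta, Fin.mk_one, Fin.reduceFinMk] at hab'
         first
           | (rw [hv0, hv1] at hab'; norm_num at hab')
           | (rw [hv0, hv2] at hab'; norm_num at hab')
           | (rw [hv1, hv0] at hab'; norm_num at hab')
           | (rw [hv1, hv2] at hab'; norm_num at hab')
           | (rw [hv2, hv0] at hab'; norm_num at hab')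
           | (rw [hv2, hv1] at hab'; norm_num at hab'))
  · intro j
    fin_cases j
    · simp only [mass, Fin.zero_eta, Matrix.cons_val_zero]; linarith
    · simp only [mass, Fin.mk_one, Matrix.cons_val_one, Matrix.cons_val_zero]; linarith
    · simp only [mass, Fin.reduceFinMk, Matrix.cons_val]; linarith

end final

end Crest.Agent.OTSharp
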