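import Crest.Agent.Lib.OTCells

/-!
# Shears along a coordinate direction: change of variables.
-/

set_option autoImplicit false

open MeasureTheory Set Filter
open scoped ENNReal NNReal RealInnerProductSpace Topology

namespace Crest.Agent.OT

variable {d : ℕ}

/-- The coordinate vector. -/
noncomputable def ee (i : Fin d) : EE d := EuclideanSpace.single i (1:ℝ)

lemma norm_ee (i : Fin d) : ‖ee i‖ = 1 := by simp [ee]

lemma inner_ee (x : EE d) (i : Fin d) : ⟪x, ee i⟫ = x i := by
  simp [ee, EuclideanSpace.inner_single_right]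

/-- Hypotheses on a shear. -/
structure ShearHyp (K : Set (EE d)) (i : Fin d) (ϖ ϖ' : EE d → ℝ) (M Λ ε : ℝ) : Prop where
  meas : Measurable ϖ
  meas' : Measurable ϖ'
  deriv : ∀ x : EE d, HasDerivAt (fun s : ℝ => ϖ (x + s • ee i)) (ϖ' x) 0
  bound : ∀ x, |ϖ x| ≤ M
  bound' : ∀ x, |ϖ' x| ≤ Λ
  vanish : ∀ x, x ∉ K → ϖ x = 0
  εpos : 0 < ε
  εsmall : ε * Λ ≤ 1 / 2

/-- The shear itself. -/
noncomputable def shear (ε : ℝ) (ϖ : EE d → ℝ) (i : Fin d) (x : EE d) : EE d :=
  x + (ε * ϖ x) • ee i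

/-- Jacobian of the shear. -/
noncomputable def shJ (ε : ℝ) (ϖ' : EE d → ℝ) (x : EE d) : ℝ := 1 + ε * ϖ' x

section
variable {K : Set (EE d)} {i : Fin d} {ϖ ϖ' : EE d → ℝ} {M Λ ε : ℝ}

lemma ShearHyp.deriv_at (H : ShearHyp K i ϖ ϖ' M Λ ε) (x : EE d) (t : ℝ) :
    HasDerivAt (fun s : ℝ => ϖ (x + s • ee i)) (ϖ' (x + t • ee i)) t := by
  have h := H.deriv (x + t • ee i)
  have h2 : HasDerivAt (fun s : ℝ => ϖ (x + t • ee i + (s - t) • ee i)) (ϖ' (x + t • ee i)) t :=
    HasDerivAt.comp_sub_const t t (by simpa using h)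
  refine h2.congr_of_eventuallyEq (Eventually.of_forall fun s => ?_)
  simp only
  congr 1
  rw [add_assoc, ← add_smul]
  simp

lemma ShearHyp.J_lo (H : ShearHyp K i ϖ ϖ' M Λ ε) (x : EE d) : 1 / 2 ≤ shJ ε ϖ' x := by
  have h1 := (abs_le.mp (H.bound' x)).1
  have h2 : ε * (-Λ) ≤ ε * ϖ' x := mul_le_mul_of_nonneg_left h1 H.εpos.le
  have := H.εsmall
  simp only [shJ]
  linarith

lemma ShearHyp.J_hi (H : ShearHyp K i ϖ ϖ' M Λ ε) (x : EE d) : shJ ε ϖ' x ≤ 3 / 2 := by
  have h1 := (abs_le.mp (H.bound' x)).2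
  have h2 : ε * ϖ' x ≤ ε * Λ := mul_le_mul_of_nonneg_left h1 H.εpos.le
  have := H.εsmall
  simp only [shJ]
  linarith

/-- The map along a line. -/
noncomputable def lineMap (ε : ℝ) (ϖ : EE d → ℝ) (i : Fin d) (x : EE d) (t : ℝ) : ℝ :=
  t + ε * ϖ (x + t • ee i)

lemma ShearHyp.lineMap_deriv (H : ShearHyp K i ϖ ϖ' M Λ ε) (x : EE d) (t : ℝ) :
    HasDerivAt (lineMap ε ϖ i x) (shJ ε ϖ' (x + t • ee i)) t :=
  (hasDerivAt_id t).add ((H.deriv_at x t).const_mul ε)

lemma ShearHyp.lineMap_strictMono (H : ShearHyp K i ϖ ϖ' M Λ ε) (x : EE d) :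
    StrictMono (lineMap ε ϖ i x) := by
  apply strictMono_of_deriv_pos
  intro t
  rw [(H.lineMap_deriv x t).deriv]
  have := H.J_lo (x + t • ee i)
  linarith

lemma ShearHyp.lineMap_continuous (H : ShearHyp K i ϖ ϖ' M Λ ε) (x : EE d) :
    Continuous (lineMap ε ϖ i x) :=
  continuous_iff_continuousAt.mpr fun t => (H.lineMap_deriv x t).continuousAt

lemma ShearHyp.lineMap_surjective (H : ShearHyp K i ϖ ϖ' M Λ ε) (x : EE d) :
    Function.Surjective (lineMap ε ϖ i x) := by
  have hbd : ∀ t : ℝ, |ε * ϖ (x + t • ee i)| ≤ ε * M := fun t => by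
    rw [abs_mul, abs_of_pos H.εpos]
    exact mul_le_mul_of_nonneg_left (H.bound _) H.εpos.le
  apply (H.lineMap_continuous x).surjective
  · apply tendsto_atTop_mono (f := fun t => t + (-(ε * M)))
    · intro t
      have := (abs_le.mp (hbd t)).1
      simp only [lineMap]
      linarith
    · exact tendsto_atTop_add_const_right _ _ tendsto_id
  · refine tendsto_atBot_mono (fun t => ?_) (tendsto_atBot_add_const_right _ (ε * M) tendsto_id)
    have := (abs_le.mp (hbd t)).2
    simp only [lineMap, id]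
    linarith

lemma ShearHyp.shear_mem (H : ShearHyp K i ϖ ϖ' M Λ ε) {x : EE d} (hx : x ∈ K) :
    shear ε ϖ i x ∈ K := by
  by_contra hy
  have h0 : ϖ (shear ε ϖ i x) = 0 := H.vanish _ hy
  have hinj := (H.lineMap_strictMono x).injective
  have e1 : lineMap ε ϖ i x (ε * ϖ x) = lineMap ε ϖ i x 0 := by
    simp only [lineMap, zero_smul, add_zero]
    have : ϖ (x + (ε * ϖ x) • ee i) = 0 := h0
    rw [this]
    simp
  have e2 := hinj e1
  apply hy
  rw [shear, e2]
  simpa using hx

lemma ShearHyp.shear_notMem (H : ShearHyp K i ϖ ϖ' M Λ ε) {x : EE d} (hx : x ∉ K) :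
    shear ε ϖ i x = x := by
  simp [shear, H.vanish x hx]

lemma ShearHyp.preimage_eq (H : ShearHyp K i ϖ ϖ' M Λ ε) : shear ε ϖ i ⁻¹' K = K := by
  ext x
  constructor
  · intro hx
    by_contra h
    apply h
    have : shear ε ϖ i x ∈ K := hx
    rwa [H.shear_notMem h] at this
  · exact fun hx => H.shear_mem hx

lemma ShearHyp.measurable_shear (H : ShearHyp K i ϖ ϖ' M Λ ε) : Measurable (shear ε ϖ i) := by
  unfold shear
  have := H.meas
  fun_prop

lemma ShearHyp.measurable_J (H : ShearHyp K i ϖ ϖ' M Λ ε) : Measurable (shJ ε ϖ') := by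
  unfold shJ
  have := H.meas'
  fun_prop

end

/-- Splitting of `ℝⁿ⁺¹` along a coordinate. -/
noncomputable def lineEquiv {n : ℕ} (i : Fin (n + 1)) : EE (n + 1) ≃ᵐ ℝ × (Fin n → ℝ) :=
  (MeasurableEquiv.toLp 2 (Fin (n + 1) → ℝ)).symm.trans
    (MeasurableEquiv.piFinSuccAbove (fun _ => ℝ) i)

lemma lineEquiv_measurePreserving {n : ℕ} (i : Fin (n + 1)) :
    MeasurePreserving (lineEquiv i) (volume : Measure (EE (n + 1))) volume :=
  (EuclideanSpace.volume_preserving_symm_measurableEquiv_toLp (Fin (n + 1))).trans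
    (volume_preserving_piFinSuccAbove (fun _ => ℝ) i)

lemma lineEquiv_symm_add {n : ℕ} (i : Fin (n + 1)) (t s : ℝ) (b : Fin n → ℝ) :
    (lineEquiv i).symm (t + s, b) = (lineEquiv i).symm (t, b) + s • ee i := by
  have e : ∀ (t : ℝ) (b : Fin n → ℝ), (lineEquiv i).symm (t, b)
      = WithLp.toLp 2 (Fin.insertNth (α := fun _ => ℝ) i t b) := fun _ _ => rfl
  rw [e, e]
  ext j
  by_cases hj : j = i
  · subst hj
    simp [ee]
  · obtain ⟨k, rfl⟩ := Fin.exists_succAbove_eq hj
    simp [ee, hj]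

section
variable {K : Set (EE d)} {i : Fin d} {ϖ ϖ' : EE d → ℝ} {M Λ ε : ℝ}

/-- Change of variables on the whole space. -/
theorem ShearHyp.change_var (H : ShearHyp K i ϖ ϖ' M Λ ε) {F : EE d → ℝ≥0∞} (hF : Measurable F) :
    ∫⁻ x, F (shear ε ϖ i x) * ENNReal.ofReal (shJ ε ϖ' x) = ∫⁻ x, F x := by
  obtain ⟨n, rfl⟩ : ∃ n, d = n + 1 := ⟨d - 1, by have := i.pos; omega⟩
  have hmp := lineEquiv_measurePreserving i
  have hmps := hmp.symm
  set Φ : ℝ × (Fin n → ℝ) → EE (n + 1) := fun p => (lineEquiv i).symm p with hΦ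
  have hΦm : Measurable Φ := (lineEquiv i).symm.measurable
  have e1 : ∫⁻ x, F x = ∫⁻ b, ∫⁻ t, F (Φ (t, b)) := by
    rw [← hmps.lintegral_comp hF, Measure.volume_eq_prod]
    exact lintegral_prod_symm _ (hF.comp hΦm).aemeasurable
  have hGJ : Measurable (fun x => F (shear ε ϖ i x) * ENNReal.ofReal (shJ ε ϖ' x)) :=
    (hF.comp H.measurable_shear).mul (H.measurable_J.ennreal_ofReal)
  have e2 : ∫⁻ x, F (shear ε ϖ i x) * ENNReal.ofReal (shJ ε ϖ' x)
      = ∫⁻ b, ∫⁻ t, F (shear ε ϖ i (Φ (t, b))) * ENNReal.ofReal (shJ ε ϖ' (Φ (t, b))) := by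
    rw [← hmps.lintegral_comp hGJ, Measure.volume_eq_prod]
    exact lintegral_prod_symm _ (hGJ.comp hΦm).aemeasurable
  rw [e1, e2]
  congr 1
  funext b
  -- inner integral
  set x₀ : EE (n + 1) := Φ (0, b) with hx₀
  have hΦt : ∀ t, Φ (t, b) = x₀ + t • ee i := by
    intro t
    have := lineEquiv_symm_add i 0 t b
    simpa using this
  have hg := H.lineMap_strictMono x₀
  have hd := H.lineMap_deriv x₀
  have hs := lintegral_image_eq_lintegral_abs_deriv_mul (s := univ) MeasurableSet.univ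
    (f := lineMap ε ϖ i x₀) (f' := fun t => shJ ε ϖ' (x₀ + t • ee i))
    (fun t _ => (hd t).hasDerivWithinAt) hg.injective.injOn (fun t => F (Φ (t, b)))
  rw [image_univ, (H.lineMap_surjective x₀).range_eq] at hs
  simp only [Measure.restrict_univ] at hs
  rw [hs]
  apply lintegral_congr
  intro t
  have e3 : shear ε ϖ i (Φ (t, b)) = Φ (lineMap ε ϖ i x₀ t, b) := by
    rw [show lineMap ε ϖ i x₀ t = t + ε * ϖ (Φ (t, b)) by rw [lineMap, hΦt]]
    exact (lineEquiv_symm_add i t _ b).symm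
  have e4 : |shJ ε ϖ' (x₀ + t • ee i)| = shJ ε ϖ' (x₀ + t • ee i) :=
    abs_of_pos (by have := H.J_lo (x₀ + t • ee i); linarith)
  rw [e3, e4, mul_comm, hΦt t]

/-- Change of variables on `K`. -/
theorem ShearHyp.change_var_on (H : ShearHyp K i ϖ ϖ' M Λ ε) (hK : MeasurableSet K)
    {F : EE d → ℝ≥0∞} (hF : Measurable F) :
    ∫⁻ x in K, F (shear ε ϖ i x) * ENNReal.ofReal (shJ ε ϖ' x) = ∫⁻ x in K, F x := by
  have h := H.change_var (F := K.indicator F) (hF.indicator hK)
  rw [lintegral_indicator hK] at h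
  rw [← h, ← lintegral_indicator hK]
  apply lintegral_congr
  intro x
  by_cases hx : x ∈ K
  · rw [indicator_of_mem hx, indicator_of_mem (H.shear_mem hx)]
  · rw [indicator_of_notMem hx, H.shear_notMem hx, indicator_of_notMem hx]
    simp

/-- The pushforward of the weighted measure is the Lebesgue measure on `K`. -/
theorem ShearHyp.map_withDensity (H : ShearHyp K i ϖ ϖ' M Λ ε) (hK : MeasurableSet K) :
    ((volume.restrict K).withDensity (fun x => ENNReal.ofReal (shJ ε ϖ' x))).map (shear ε ϖ i)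
      = volume.restrict K := by
  ext S hS
  rw [Measure.map_apply H.measurable_shear hS,
    withDensity_apply _ (H.measurable_shear hS), Measure.restrict_apply hS]
  have h := H.change_var_on hK (F := S.indicator 1) (measurable_one.indicator hS)
  rw [lintegral_indicator hS] at h
  simp only [Pi.one_apply, lintegral_one, Measure.restrict_apply MeasurableSet.univ, univ_inter,
    Measure.restrict_restrict hS] at h
  rw [← h, ← lintegral_indicator (H.measurable_shear hS)]
  apply lintegral_congr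
  intro x
  by_cases hx : shear ε ϖ i x ∈ S
  · rw [indicator_of_mem (show x ∈ shear ε ϖ i ⁻¹' S from hx), indicator_of_mem hx]
    simp
  · rw [indicator_of_notMem (show x ∉ shear ε ϖ i ⁻¹' S from hx), indicator_of_notMem hx]
    simp

/-- Integrals: change of variables for vector-valued functions. -/
theorem ShearHyp.integral_change (H : ShearHyp K i ϖ ϖ' M Λ ε) (hK : MeasurableSet K)
    {β : Type*} [NormedAddCommGroup β] [NormedSpace ℝ β] [CompleteSpace β] [MeasurableSpace β]
    [BorelSpace β] [SecondCountableTopology β] {f : EE d → β} (hf : Measurable f) :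
    ∫ x in K, shJ ε ϖ' x • f (shear ε ϖ i x) = ∫ x in K, f x := by
  have h1 := H.map_withDensity hK
  have hJm : Measurable (fun x => ENNReal.ofReal (shJ ε ϖ' x)) := H.measurable_J.ennreal_ofReal
  conv_rhs => rw [← h1]
  rw [integral_map H.measurable_shear.aemeasurable hf.aestronglyMeasurable,
    integral_withDensity_eq_integral_toReal_smul hJm (by
      filter_upwards with x
      exact ENNReal.ofReal_lt_top)]
  apply setIntegral_congr_fun hK
  intro x _
  have : 0 ≤ shJ ε ϖ' x := by have := H.J_lo x; linarith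
  simp only [ENNReal.toReal_ofReal this]

/-- Preimages of Lebesgue-null sets are Lebesgue-null. -/
theorem ShearHyp.preimage_null (H : ShearHyp K i ϖ ϖ' M Λ ε) {S : Set (EE d)}
    (hS : MeasurableSet S) (h0 : volume S = 0) : volume (shear ε ϖ i ⁻¹' S) = 0 := by
  have h := H.change_var (F := S.indicator 1) (measurable_one.indicator hS)
  rw [lintegral_indicator hS] at h
  simp only [Pi.one_apply, lintegral_one, Measure.restrict_apply MeasurableSet.univ, univ_inter,
    h0] at h
  have hm : Measurable (fun x => S.indicator (1 : EE d → ℝ≥0∞) (shear ε ϖ i x)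
      * ENNReal.ofReal (shJ ε ϖ' x)) :=
    ((measurable_one.indicator hS).comp H.measurable_shear).mul H.measurable_J.ennreal_ofReal
  rw [lintegral_eq_zero_iff hm] at h
  refine measure_mono_null ?_ h
  intro x hx
  have h1 : shear ε ϖ i x ∈ S := hx
  have h2 : 0 < shJ ε ϖ' x := by have := H.J_lo x; linarith
  have h3 : S.indicator (1 : EE d → ℝ≥0∞) (shear ε ϖ i x) = 1 := by
    rw [indicator_of_mem h1]; rfl
  intro h4
  simp only [mem_setOf_eq, h3, one_mul] at h4
  exact (ENNReal.ofReal_pos.mpr h2).ne' h4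

end

end Crest.Agent.OT
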