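import Crest.Agent.Lib.OTDisc

/-!
# The dual estimate: `H⁻¹`-type bound on the difference of optimal maps.
-/

set_option autoImplicit false

open MeasureTheory Set Filter
open scoped ENNReal NNReal RealInnerProductSpace Topology
open Crest.AnalysisR.OT

namespace Crest.Agent.OT

variable {d : ℕ}

/-- The conjugate over `K`. -/
noncomputable def conjK (K : Set (EE d)) (φ : EE d → ℝ) (y : EE d) : ℝ :=
  ⨆ x : K, ⟪(x : EE d), y⟫ - φ x

section Conj

variable {K : Set (EE d)} {R RY : ℝ} {φ : EE d → ℝ}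

lemma continuous_of_le_add {φ : EE d → ℝ} (h : ∀ x x', φ x ≤ φ x' + RY * ‖x - x'‖) (hRY : 0 ≤ RY) :
    Continuous φ := by
  have : LipschitzWith (Real.toNNReal RY) φ := by
    apply LipschitzWith.of_le_add_mul
    intro x x'
    rw [Real.coe_toNNReal _ hRY, dist_eq_norm]
    exact h x x'
  exact this.continuous

lemma conjK_bdd (hB : BodyHyp K R) (hφ : Continuous φ) (y : EE d) :
    BddAbove (range fun x : K => ⟪(x : EE d), y⟫ - φ x) := by
  have h : IsCompact ((fun x : EE d => ⟪x, y⟫ - φ x) '' K) :=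
    hB.compact.image (by fun_prop)
  have e : (range fun x : K => ⟪(x : EE d), y⟫ - φ x) = (fun x : EE d => ⟪x, y⟫ - φ x) '' K := by
    ext v
    simp
  rw [e]
  exact h.bddAbove

lemma le_conjK (hB : BodyHyp K R) (hφ : Continuous φ) {x : EE d} (hx : x ∈ K) (y : EE d) :
    ⟪x, y⟫ - φ x ≤ conjK K φ y :=
  le_ciSup (f := fun x : K => ⟪(x : EE d), y⟫ - φ x) (conjK_bdd hB hφ y) ⟨x, hx⟩

lemma conjK_lip (hB : BodyHyp K R) (hφ : Continuous φ) (hne : K.Nonempty) (u v : EE d) :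
    conjK K φ u ≤ conjK K φ v + R * ‖u - v‖ := by
  haveI : Nonempty K := hne.to_subtype
  apply ciSup_le
  rintro ⟨x, hx⟩
  have h1 := le_conjK hB hφ hx v
  have h2 : ⟪x, u⟫ = ⟪x, v⟫ + ⟪x, u - v⟫ := by rw [inner_sub_right]; ring
  have h3 : ⟪x, u - v⟫ ≤ R * ‖u - v‖ :=
    (real_inner_le_norm _ _).trans (mul_le_mul_of_nonneg_right (hB.bound x hx) (norm_nonneg _))
  simp only
  linarith

lemma conjK_eq (hB : BodyHyp K R) (hφ : Continuous φ) (hne : K.Nonempty) {x t : EE d} (hx : x ∈ K)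
    (hsub : ∀ x', φ x + ⟪x' - x, t⟫ ≤ φ x') : conjK K φ t = ⟪x, t⟫ - φ x := by
  haveI : Nonempty K := hne.to_subtype
  apply le_antisymm
  · apply ciSup_le
    rintro ⟨x', -⟩
    have := hsub x'
    rw [inner_sub_left] at this
    simp only
    linarith
  · exact le_conjK hB hφ hx t

end Conj

/-- Facts on the potential of an optimal map. -/
structure PotFacts (K Y : Set (EE d)) (T : EE d → EE d) (φ : EE d → ℝ) (RY : ℝ) : Prop where
  Tm : Measurable T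
  lip : ∀ x x', φ x ≤ φ x' + RY * ‖x - x'‖
  sub : ∀ᵐ x ∂(uniformProbOn K), T x ∈ Y ∧ ∀ x', φ x + ⟪x' - x, T x⟫ ≤ φ x'

section Pot

variable {K Y : Set (EE d)} {R RY : ℝ} {φ : EE d → ℝ} {T X : EE d → EE d}

lemma PotFacts.cont (H : PotFacts K Y T φ RY) (hRY : 0 ≤ RY) : Continuous φ :=
  continuous_of_le_add H.lip hRY

lemma PotFacts.bound (H : PotFacts K Y T φ RY) (hYR : ∀ y ∈ Y, ‖y‖ ≤ RY) :
    ∀ᵐ x ∂(uniformProbOn K), ‖T x‖ ≤ RY :=
  H.sub.mono fun _ hx => hYR _ hx.1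

lemma PotFacts.int_inner (H : PotFacts K Y T φ RY) (hYR : ∀ y ∈ Y, ‖y‖ ≤ RY) (hB : BodyHyp K R)
    (hX : Measurable X) (hXb : ∀ᵐ x ∂(uniformProbOn K), ‖X x‖ ≤ R) :
    Integrable (fun x => ⟪X x, T x⟫) (uniformProbOn K) := by
  haveI := hB.isProb
  have hTm := H.Tm
  refine Integrable.of_bound (by fun_prop : Measurable fun x => ⟪X x, T x⟫).aestronglyMeasurable
    (R * RY) ?_
  filter_upwards [hXb, H.bound hYR] with x h1 h2
  rw [Real.norm_eq_abs]
  exact (abs_real_inner_le_norm _ _).trans (mul_le_mul h1 h2 (norm_nonneg _) hB.Rpos.le)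

lemma int_comp_phi (hB : BodyHyp K R) (hφ : Continuous φ) (hX : Measurable X)
    (hXK : ∀ᵐ x ∂(uniformProbOn K), X x ∈ K) :
    Integrable (fun x => φ (X x)) (uniformProbOn K) := by
  haveI := hB.isProb
  obtain ⟨C, hC⟩ := hB.compact.exists_bound_of_continuousOn hφ.continuousOn
  refine Integrable.of_bound (hφ.measurable.comp hX).aestronglyMeasurable C ?_
  filter_upwards [hXK] with x hx
  exact hC _ hx

lemma PotFacts.dual_identity (H : PotFacts K Y T φ RY) (hYR : ∀ y ∈ Y, ‖y‖ ≤ RY) (hRY : 0 ≤ RY)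
    (hB : BodyHyp K R) (hne : K.Nonempty) :
    Integrable (fun x => conjK K φ (T x)) (uniformProbOn K) ∧
      ∫ x, ⟪x, T x⟫ ∂(uniformProbOn K)
        = ∫ x, φ x ∂(uniformProbOn K) + ∫ x, conjK K φ (T x) ∂(uniformProbOn K) := by
  have hφ := H.cont hRY
  have hmem := ae_uniform_mem hB
  have hae : (fun x => ⟪x, T x⟫ - φ x) =ᵐ[uniformProbOn K] fun x => conjK K φ (T x) := by
    filter_upwards [H.sub, hmem] with x h1 h2
    exact (conjK_eq hB hφ hne h2 h1.2).symm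
  have i1 : Integrable (fun x => ⟪x, T x⟫) (uniformProbOn K) :=
    H.int_inner hYR hB (X := id) measurable_id (ae_uniform_bound hB)
  have i2 : Integrable (fun x => φ x) (uniformProbOn K) :=
    int_comp_phi hB hφ (X := id) measurable_id hmem
  have i3 : Integrable (fun x => ⟪x, T x⟫ - φ x) (uniformProbOn K) := i1.sub i2
  refine ⟨i3.congr hae, ?_⟩
  rw [← integral_congr_ae hae, integral_sub i1 i2]
  ring

variable {ι : Type*} [Fintype ι] [Nonempty ι] {y : ι → EE d} {m : ι → ℝ} {θ : ι → EE d → ℝ} {τ : ℝ}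

/-- Upper bound of the optimal value through the potential. -/
lemma optVal_upper (H : PotFacts K Y T φ RY) (hYR : ∀ y ∈ Y, ‖y‖ ≤ RY) (hRY : 0 ≤ RY)
    (hB : BodyHyp K R) (hne : K.Nonempty) (hX : Measurable X)
    (hXK : ∀ᵐ x ∂(uniformProbOn K), X x ∈ K) (hn : NullHyper (uniformProbOn K) X)
    (hy : Function.Injective y) (hm : ∀ l, 0 < m l) (hsum : ∑ l, m l = 1)
    (hp : ApproxPlan (uniformProbOn K) T y m θ τ) :
    optVal (uniformProbOn K) X y m ≤ ∫ x, φ (X x) ∂(uniformProbOn K)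
      + ∫ x, conjK K φ (T x) ∂(uniformProbOn K) + R * τ := by
  haveI := hB.isProb
  have hφ := H.cont hRY
  have hXb : ∀ᵐ x ∂(uniformProbOn K), ‖X x‖ ≤ R := hXK.mono fun x hx => hB.bound _ hx
  have h1 := optVal_le_dualK hX hB.Rpos.le hXb hn hy hm hsum (fun l => conjK K φ (y l))
  have h2 : ∫ x, lagPot y (fun l => conjK K φ (y l)) (X x) ∂(uniformProbOn K)
      ≤ ∫ x, φ (X x) ∂(uniformProbOn K) := by
    apply integral_mono_ae (integrable_lagPot hX hXb y _) (int_comp_phi hB hφ hX hXK)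
    filter_upwards [hXK] with x hx
    apply lagPot_le
    intro l
    have := le_conjK hB hφ hx (y l)
    linarith
  have h3 := hp.lipschitz_le (ψ := conjK K φ) (L := R) (conjK_lip hB hφ hne) hB.Rpos.le
    (H.dual_identity hYR hRY hB hne).1
  simp only [dualK] at h1
  linarith

/-- Lower bound of the optimal value through the plan. -/
lemma optVal_lower (H : PotFacts K Y T φ RY) (hYR : ∀ y ∈ Y, ‖y‖ ≤ RY)
    (hB : BodyHyp K R) (hX : Measurable X)
    (hXb : ∀ᵐ x ∂(uniformProbOn K), ‖X x‖ ≤ R) (hn : NullHyper (uniformProbOn K) X)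
    (hy : Function.Injective y) (hm : ∀ l, 0 < m l) (hsum : ∑ l, m l = 1)
    (hp : ApproxPlan (uniformProbOn K) T y m θ τ) :
    ∫ x, ⟪X x, T x⟫ ∂(uniformProbOn K) - R * τ ≤ optVal (uniformProbOn K) X y m := by
  haveI := hB.isProb
  have h1 := plan_le_optVal hX hB.Rpos.le hXb hn hy hm hsum hp.meas
    (fun l => ae_of_all _ (hp.nonneg l)) hp.sum_one (fun l => ae_of_all _ (hp.le_one l)) hp.int_eq
  have h2 := hp.value_ge hX H.Tm hXb (H.bound hYR) hB.Rpos.le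
  linarith

end Pot

section Step

variable {K Y : Set (EE d)} {R RY : ℝ} {φμ φν : EE d → ℝ} {Tμ Tν : EE d → EE d}
  {μ ν : Measure (EE d)} {π : Measure (EE d × EE d)} {i : Fin d} {ϖ ϖ' : EE d → ℝ} {M Λ ε τ : ℝ}

/-- The inequality at a fixed scale. -/
lemma star_step (hB : BodyHyp K R) (hne : K.Nonempty) (hYc : IsCompact Y) (hYR : ∀ y ∈ Y, ‖y‖ ≤ RY)
    (hRY : 0 ≤ RY) (hμ : IsProbabilityOn Y μ) (hν : IsProbabilityOn Y ν)
    (hπ : IsPairCoupling μ ν π) (hTμ : (uniformProbOn K).map Tμ = μ)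
    (hTν : (uniformProbOn K).map Tν = ν) (Hμ : PotFacts K Y Tμ φμ RY)
    (Hν : PotFacts K Y Tν φν RY) (H : ShearHyp K i ϖ ϖ' M Λ ε) (hτ : 0 < τ) :
    ε * ∫ x, ϖ x * ⟪Tμ x, ee i⟫ ∂(uniformProbOn K)
        - ∫ x, (φν (shear ε ϖ i x) - φν x) ∂(uniformProbOn K) - 8 * R * τ
      ≤ √(40002 * R ^ 2 * (∫ x in K, (ε * ϖ' x) ^ 2) / vo K)
        * √((quadCost π).toReal + (16 * τ * RY + 16 * τ ^ 2)) := by
  haveI := hB.isProb
  have hGm := H.measurable_shear
  have hIm : Measurable (id : EE d → EE d) := measurable_id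
  have hmem := ae_uniform_mem hB
  have hGK : ∀ᵐ x ∂(uniformProbOn K), shear ε ϖ i x ∈ K :=
    hmem.mono fun x hx => H.shear_mem hx
  have hGb := ae_uniform_shear_bound hB H
  have hIb := ae_uniform_bound hB
  have hnG := nullHyper_uniform_shear H
  have hnI : NullHyper (uniformProbOn K) (id : EE d → EE d) := nullHyper_uniform_id
  apply discretize i hYc hYR hRY hμ hν hπ Hμ.Tm Hν.Tm hTμ hTν hτ
  intro ι _ _ y z m θμ θν hyi hzi hmpos hmsum hpμ hpν hcost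
  have h1 := optVal_lower Hμ hYR hB hGm hGb hnG hyi hmpos hmsum hpμ
  have h2 := optVal_upper Hμ hYR hRY hB hne hIm hmem hnI hyi hmpos hmsum hpμ
  have h3 := optVal_upper Hν hYR hRY hB hne hGm hGK hnG hzi hmpos hmsum hpν
  have h4 := optVal_lower Hν hYR hB hIm hIb hnI hzi hmpos hmsum hpν
  have h5 := path_bound hB H hyi hzi hmpos hmsum
  have h6 := (Real.sqrt_le_sqrt hcost)
  have h7 : √(40002 * R ^ 2 * (∫ x in K, (ε * ϖ' x) ^ 2) / vo K) * √(∑ l, m l * ‖z l - y l‖ ^ 2)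
      ≤ √(40002 * R ^ 2 * (∫ x in K, (ε * ϖ' x) ^ 2) / vo K)
        * √((quadCost π).toReal + (16 * τ * RY + 16 * τ ^ 2)) :=
    mul_le_mul_of_nonneg_left h6 (Real.sqrt_nonneg _)
  obtain ⟨dμ, hdμ⟩ := Hμ.dual_identity hYR hRY hB hne
  obtain ⟨dν, hdν⟩ := Hν.dual_identity hYR hRY hB hne
  simp only [id] at h1 h2 h3 h4
  have hφμ := Hμ.cont hRY
  have hφν := Hν.cont hRY
  have i1 : Integrable (fun x => ⟪x, Tμ x⟫) (uniformProbOn K) :=
    Hμ.int_inner hYR hB (X := id) hIm hIb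
  -- expansion of the linear term
  have hϖi : Integrable (fun x => ϖ x * ⟪Tμ x, ee i⟫) (uniformProbOn K) := by
    have hTm := Hμ.Tm
    have hϖm := H.meas
    refine Integrable.of_bound
      (by fun_prop : Measurable fun x => ϖ x * ⟪Tμ x, ee i⟫).aestronglyMeasurable (M * RY) ?_
    filter_upwards [Hμ.bound hYR] with x hx
    rw [Real.norm_eq_abs, abs_mul]
    have h8 : |⟪Tμ x, ee i⟫| ≤ RY := by
      refine (abs_real_inner_le_norm _ _).trans ?_
      rw [norm_ee, mul_one]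
      exact hx
    have h0 : 0 ≤ M := (abs_nonneg _).trans (H.bound 0)
    exact mul_le_mul (H.bound x) h8 (abs_nonneg _) h0
  have e1 : ∫ x, ⟪shear ε ϖ i x, Tμ x⟫ ∂(uniformProbOn K)
      = ∫ x, ⟪x, Tμ x⟫ ∂(uniformProbOn K)
        + ε * ∫ x, ϖ x * ⟪Tμ x, ee i⟫ ∂(uniformProbOn K) := by
    rw [← integral_const_mul, ← integral_add i1 (hϖi.const_mul ε)]
    apply integral_congr_ae
    refine ae_of_all _ fun x => ?_
    simp only [shear]
    rw [inner_add_left, inner_smul_left, real_inner_comm (Tμ x) (ee i)]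
    simp only [conj_trivial]
    ring
  have e2 : ∫ x, (φν (shear ε ϖ i x) - φν x) ∂(uniformProbOn K)
      = ∫ x, φν (shear ε ϖ i x) ∂(uniformProbOn K) - ∫ x, φν x ∂(uniformProbOn K) :=
    integral_sub (int_comp_phi hB hφν hGm hGK) (int_comp_phi hB hφν (X := id) hIm hmem)
  rw [e2]
  linarith

/-- Removing the discretisation scale. -/
lemma star_eps (hB : BodyHyp K R) (hne : K.Nonempty) (hYc : IsCompact Y) (hYR : ∀ y ∈ Y, ‖y‖ ≤ RY)
    (hRY : 0 ≤ RY) (hμ : IsProbabilityOn Y μ) (hν : IsProbabilityOn Y ν)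
    (hπ : IsPairCoupling μ ν π) (hTμ : (uniformProbOn K).map Tμ = μ)
    (hTν : (uniformProbOn K).map Tν = ν) (Hμ : PotFacts K Y Tμ φμ RY)
    (Hν : PotFacts K Y Tν φν RY) (H : ShearHyp K i ϖ ϖ' M Λ ε) :
    ε * ∫ x, ϖ x * ⟪Tμ x, ee i⟫ ∂(uniformProbOn K)
        - ∫ x, (φν (shear ε ϖ i x) - φν x) ∂(uniformProbOn K)
      ≤ √(40002 * R ^ 2 * (∫ x in K, (ε * ϖ' x) ^ 2) / vo K) * √((quadCost π).toReal) := by
  obtain ⟨A, hA⟩ : ∃ A, A = √(40002 * R ^ 2 * (∫ x in K, (ε * ϖ' x) ^ 2) / vo K) := ⟨_, rfl⟩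
  obtain ⟨W2, hW2⟩ : ∃ W2, W2 = (quadCost π).toReal := ⟨_, rfl⟩
  rw [← hA, ← hW2]
  have hcont : Continuous (fun t : ℝ => A * √(W2 + (16 * t * RY + 16 * t ^ 2)) + 8 * R * t) := by
    have := Real.continuous_sqrt
    fun_prop
  have hlim : Tendsto (fun t : ℝ => A * √(W2 + (16 * t * RY + 16 * t ^ 2)) + 8 * R * t) (𝓝[>] 0)
      (𝓝 (A * √W2)) := by
    have := (hcont.tendsto 0).mono_left (nhdsWithin_le_nhds (s := Ioi 0))
    simpa using this
  refine ge_of_tendsto hlim ?_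
  filter_upwards [self_mem_nhdsWithin] with t ht
  have := star_step (τ := t) hB hne hYc hYR hRY hμ hν hπ hTμ hTν Hμ Hν H ht
  rw [← hA, ← hW2] at this
  linarith

end Step

/-- Pointwise slope of a differentiable function at a point with a subgradient. -/
lemma slope_pointwise {φ : EE d → ℝ} {x t : EE d} (hd : DifferentiableAt ℝ φ x)
    (hsub : ∀ x', φ x + ⟪x' - x, t⟫ ≤ φ x') (e : EE d) (a : ℝ) :
    Tendsto (fun ε : ℝ => (φ (x + (ε * a) • e) - φ x) / ε) (𝓝[>] 0) (𝓝 (a * ⟪t, e⟫)) := by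
  obtain ⟨v, hv⟩ : ∃ v, v = a • e := ⟨_, rfl⟩
  have hline : HasDerivAt (fun s : ℝ => x + s • v) v 0 := by
    have := ((hasDerivAt_id (0:ℝ)).smul_const v).const_add x
    simpa using this
  have hf : HasDerivAt (fun s : ℝ => φ (x + s • v)) (fderiv ℝ φ x v) 0 :=
    HasFDerivAt.comp_hasDerivAt_of_eq 0 hd.hasFDerivAt hline (by simp)
  have hg : HasDerivAt (fun s : ℝ => φ (x + s • v) - φ x - s * ⟪v, t⟫)
      (fderiv ℝ φ x v - 1 * ⟪v, t⟫) 0 :=
    (hf.sub_const (φ x)).fun_sub ((hasDerivAt_id' (0:ℝ)).mul_const ⟪v, t⟫)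
  have hmin : IsLocalMin (fun s : ℝ => φ (x + s • v) - φ x - s * ⟪v, t⟫) 0 := by
    refine Eventually.of_forall fun s => ?_
    have h1 := hsub (x + s • v)
    rw [add_sub_cancel_left, inner_smul_left] at h1
    simp only [conj_trivial] at h1
    simp only [zero_smul, add_zero, sub_self, zero_mul]
    linarith
  have h0 := hmin.hasDerivAt_eq_zero hg
  have hval : fderiv ℝ φ x v = a * ⟪t, e⟫ := by
    have e1 : ⟪v, t⟫ = a * ⟪t, e⟫ := by
      rw [hv, inner_smul_left, real_inner_comm]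
      simp
    linarith
  have hslope := hf.tendsto_slope_zero_right
  rw [hval] at hslope
  refine hslope.congr (fun ε => ?_)
  simp only [zero_add, zero_smul, zero_mul, add_zero, smul_eq_mul, hv, smul_smul]
  rw [div_eq_inv_mul]

section Limit

variable {K Y : Set (EE d)} {R RY : ℝ} {φν : EE d → ℝ} {Tν : EE d → EE d}
  {i : Fin d} {ϖ : EE d → ℝ} {M : ℝ}

/-- The limit of the Bregman term. -/
lemma slope_limit (hB : BodyHyp K R) (hRY : 0 ≤ RY) (hϖm : Measurable ϖ) (hϖb : ∀ x, |ϖ x| ≤ M)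
    (Hν : PotFacts K Y Tν φν RY) :
    Tendsto (fun ε : ℝ => (∫ x, (φν (shear ε ϖ i x) - φν x) ∂(uniformProbOn K)) / ε) (𝓝[>] 0)
      (𝓝 (∫ x, ϖ x * ⟪Tν x, ee i⟫ ∂(uniformProbOn K))) := by
  haveI := hB.isProb
  have hφ := Hν.cont hRY
  have hM0 : 0 ≤ M := (abs_nonneg _).trans (hϖb 0)
  have hmeas : ∀ ε : ℝ, Measurable (shear ε ϖ i) := by
    intro ε
    unfold shear
    fun_prop
  have hlip : LipschitzWith (Real.toNNReal RY) φν := by
    apply LipschitzWith.of_le_add_mul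
    intro x x'
    rw [Real.coe_toNNReal _ hRY, dist_eq_norm]
    exact Hν.lip x x'
  have hdiff : ∀ᵐ x ∂(uniformProbOn K), DifferentiableAt ℝ φν x :=
    uniform_ac hlip.ae_differentiableAt
  have key := tendsto_integral_filter_of_dominated_convergence (μ := uniformProbOn K)
    (l := 𝓝[>] (0:ℝ)) (F := fun ε x => (φν (shear ε ϖ i x) - φν x) / ε)
    (f := fun x => ϖ x * ⟪Tν x, ee i⟫) (fun _ => RY * M)
    (Eventually.of_forall fun ε =>
      (((hφ.measurable.comp (hmeas ε)).sub hφ.measurable).div_const ε).aestronglyMeasurable)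
    (by
      filter_upwards [self_mem_nhdsWithin] with ε hε
      have hε' : (0:ℝ) < ε := hε
      refine ae_of_all _ fun x => ?_
      rw [Real.norm_eq_abs, abs_div, abs_of_pos hε', div_le_iff₀ hε', abs_le]
      have hn : ‖shear ε ϖ i x - x‖ ≤ ε * M := by
        simp only [shear, add_sub_cancel_left, norm_smul, norm_ee, mul_one, Real.norm_eq_abs,
          abs_mul, abs_of_pos hε']
        exact mul_le_mul_of_nonneg_left (hϖb x) hε'.le
      have h1 := Hν.lip (shear ε ϖ i x) x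
      have h2 := Hν.lip x (shear ε ϖ i x)
      rw [norm_sub_rev] at h2
      have h3 : RY * ‖shear ε ϖ i x - x‖ ≤ RY * (ε * M) := mul_le_mul_of_nonneg_left hn hRY
      constructor <;> linarith)
    (integrable_const _)
    (by
      filter_upwards [hdiff, Hν.sub] with x h1 h2
      exact slope_pointwise h1 h2.2 (ee i) (ϖ x))
  refine key.congr (fun ε => ?_)
  rw [integral_div]

end Limit

/-- The dual estimate. -/
theorem star_bound {K Y : Set (EE d)} {R RY : ℝ} {Tμ Tν : EE d → EE d}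
    {μ ν : Measure (EE d)} {π : Measure (EE d × EE d)} {i : Fin d} {ϖ ϖ' : EE d → ℝ} {M Λ : ℝ}
    (hB : BodyHyp K R) (hne : K.Nonempty) (hYc : IsCompact Y) (hYn : Y.Nonempty)
    (hYR : ∀ y ∈ Y, ‖y‖ ≤ RY) (hμ : IsProbabilityOn Y μ) (hν : IsProbabilityOn Y ν)
    (hπ : IsPairCoupling μ ν π) (hTμ : IsOptimalMap (uniformProbOn K) μ Tμ)
    (hTν : IsOptimalMap (uniformProbOn K) ν Tν) (hΛ : 0 ≤ Λ)
    (hH : ∀ ε, 0 < ε → ε * Λ ≤ 1 / 2 → ShearHyp K i ϖ ϖ' M Λ ε) :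
    ∫ x, ϖ x * ⟪Tμ x, ee i⟫ ∂(uniformProbOn K) - ∫ x, ϖ x * ⟪Tν x, ee i⟫ ∂(uniformProbOn K)
      ≤ √(40002 * R ^ 2 * (∫ x in K, ϖ' x ^ 2) / vo K) * √((quadCost π).toReal) := by
  obtain ⟨y₀, hy₀⟩ := hYn
  have hRY : 0 ≤ RY := (norm_nonneg _).trans (hYR y₀ hy₀)
  obtain ⟨φμ, hμ1, -, hμ3⟩ := optimal_potential hB hYc ⟨y₀, hy₀⟩ hYR hμ hTμ
  obtain ⟨φν, hν1, -, hν3⟩ := optimal_potential hB hYc ⟨y₀, hy₀⟩ hYR hν hTν
  have Hμ : PotFacts K Y Tμ φμ RY := ⟨hTμ.1, hμ1, hμ3⟩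
  have Hν : PotFacts K Y Tν φν RY := ⟨hTν.1, hν1, hν3⟩
  have hε0 : (0:ℝ) < 1 / (2 * (Λ + 1)) := by positivity
  have hev : ∀ᶠ ε : ℝ in 𝓝[>] 0, 0 < ε ∧ ε * Λ ≤ 1 / 2 := by
    filter_upwards [Ioo_mem_nhdsGT hε0] with ε hε
    refine ⟨hε.1, ?_⟩
    have h1 : ε * (2 * (Λ + 1)) ≤ 1 := by
      have := (lt_div_iff₀ (by positivity)).mp hε.2
      exact this.le
    nlinarith [hε.1]
  have H0 : ShearHyp K i ϖ ϖ' M Λ (1 / (2 * (Λ + 1))) := by
    apply hH _ hε0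
    rw [div_mul_eq_mul_div, div_le_iff₀ (by positivity)]
    linarith
  have hlim := slope_limit (i := i) hB hRY H0.meas H0.bound Hν
  have hlim2 := (tendsto_const_nhds (x := ∫ x, ϖ x * ⟪Tμ x, ee i⟫ ∂(uniformProbOn K))).sub hlim
  refine le_of_tendsto hlim2 ?_
  filter_upwards [hev] with ε hε
  obtain ⟨h1, h2⟩ := hε
  have hS := hH ε h1 h2
  have h3 := star_eps hB hne hYc hYR hRY hμ hν hπ hTμ.2.1 hTν.2.1 Hμ Hν hS
  have e1 : ∫ x in K, (ε * ϖ' x) ^ 2 = ε ^ 2 * ∫ x in K, ϖ' x ^ 2 := by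
    rw [← integral_const_mul]
    congr 1
    ext x
    ring
  have e2 : 40002 * R ^ 2 * (∫ x in K, (ε * ϖ' x) ^ 2) / vo K
      = ε ^ 2 * (40002 * R ^ 2 * (∫ x in K, ϖ' x ^ 2) / vo K) := by
    rw [e1]; ring
  rw [e2, Real.sqrt_mul (sq_nonneg _), Real.sqrt_sq h1.le] at h3
  rw [sub_le_comm, le_div_iff₀ h1]
  linarith

end Crest.Agent.OT
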