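import Crest.Agent.Lib.OTGeom

/-!
# The test function: difference quotients of a convex function, averaged along a line.
-/

set_option autoImplicit false

open MeasureTheory Set Filter
open scoped ENNReal NNReal RealInnerProductSpace Topology
open Crest.AnalysisR.OT

namespace Crest.Agent.OT

variable {d : ℕ}

section LineAvg

variable {h : EE d → ℝ}

/-- Average along a segment of a line. -/
noncomputable def lineInt (h : EE d → ℝ) (e : EE d) (a b : ℝ) (x : EE d) : ℝ :=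
  ∫ s in a..b, h (x + s • e)

lemma lineInt_cont (hc : Continuous h) (e : EE d) (a b : ℝ) : Continuous (lineInt h e a b) := by
  unfold lineInt
  apply intervalIntegral.continuous_parametric_intervalIntegral_of_continuous'
  exact hc.comp (by fun_prop)

lemma lineInt_deriv (hc : Continuous h) (e : EE d) (a b : ℝ) (x : EE d) :
    HasDerivAt (fun t : ℝ => lineInt h e a b (x + t • e)) (h (x + b • e) - h (x + a • e)) 0 := by
  obtain ⟨H, hH⟩ : ∃ H : ℝ → ℝ, H = fun u => h (x + u • e) := ⟨_, rfl⟩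
  have hHc : Continuous H := by rw [hH]; exact hc.comp (by fun_prop)
  have e1 : ∀ t : ℝ, lineInt h e a b (x + t • e)
      = (∫ u in (0:ℝ)..(b + t), H u) - ∫ u in (0:ℝ)..(a + t), H u := by
    intro t
    rw [intervalIntegral.integral_interval_sub_left (hHc.intervalIntegrable _ _)
      (hHc.intervalIntegrable _ _)]
    have e2 : ∫ u in (a + t)..(b + t), H u = ∫ s in a..b, H (s + t) :=
      (intervalIntegral.integral_comp_add_right (fun u => H u) t).symm
    rw [e2, lineInt, hH]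
    congr 1
    ext s
    congr 1
    rw [add_smul]
    abel
  have hF : ∀ c : ℝ, HasDerivAt (fun t : ℝ => ∫ u in (0:ℝ)..(c + t), H u) (H c) 0 := by
    intro c
    have h1 : HasDerivAt (fun v : ℝ => ∫ u in (0:ℝ)..v, H u) (H (c + 0)) (c + 0) :=
      intervalIntegral.integral_hasDerivAt_right (hHc.intervalIntegrable _ _)
        hHc.stronglyMeasurable.stronglyMeasurableAtFilter hHc.continuousAt
    have h3 := HasDerivAt.comp_const_add c 0 h1
    simpa using h3
  have := (hF b).fun_sub (hF a)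
  have e3 : H b - H a = h (x + b • e) - h (x + a • e) := by rw [hH]
  rw [e3] at this
  exact this.congr_of_eventuallyEq (Eventually.of_forall fun t => e1 t)

end LineAvg

section Quot

variable {f : EE d → ℝ} {RY δ : ℝ}

/-- Difference quotient. -/
noncomputable def qF (f : EE d → ℝ) (e : EE d) (δ : ℝ) (x : EE d) : ℝ := (f (x + δ • e) - f x) / δ

/-- Averaged difference quotient. -/
noncomputable def pF (f : EE d → ℝ) (e : EE d) (δ : ℝ) (x : EE d) : ℝ :=
  lineInt (qF f e δ) e 0 δ x / δ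

/-- Derivative along the line of the averaged difference quotient. -/
noncomputable def lF (f : EE d → ℝ) (e : EE d) (δ : ℝ) (x : EE d) : ℝ :=
  (qF f e δ (x + δ • e) - qF f e δ x) / δ

variable {e : EE d}

lemma qF_cont (hf : Continuous f) (e : EE d) (δ : ℝ) : Continuous (qF f e δ) := by
  unfold qF
  fun_prop

lemma qF_bd (hf : ∀ x x', f x ≤ f x' + RY * ‖x - x'‖) (he : ‖e‖ = 1) (hδ : 0 < δ) (x : EE d) :
    |qF f e δ x| ≤ RY := by
  unfold qF
  rw [abs_div, abs_of_pos hδ, div_le_iff₀ hδ, abs_le]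
  have h1 := hf (x + δ • e) x
  have h2 := hf x (x + δ • e)
  have n1 : ‖x + δ • e - x‖ = δ := by
    rw [add_sub_cancel_left, norm_smul, he, mul_one, Real.norm_of_nonneg hδ.le]
  have n2 : ‖x - (x + δ • e)‖ = δ := by rw [norm_sub_rev, n1]
  rw [n1] at h1
  rw [n2] at h2
  constructor <;> linarith

/-- The four point inequality for convex functions on a line. -/
lemma convex_four (hc : ConvexOn ℝ univ f) (x : EE d) (e : EE d) {s t : ℝ} (hs : 0 ≤ s) (ht : 0 < t) :
    f (x + t • e) - f x ≤ f (x + (s + t) • e) - f (x + s • e) := by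
  have hpos : 0 < s + t := by linarith
  have a1 : f (x + s • e) ≤ (t / (s + t)) * f x + (s / (s + t)) * f (x + (s + t) • e) := by
    have := hc.2 (mem_univ x) (mem_univ (x + (s + t) • e))
      (div_nonneg ht.le hpos.le) (div_nonneg hs hpos.le)
      (by field_simp; ring)
    simp only [smul_eq_mul] at this
    refine le_trans (le_of_eq ?_) this
    congr 1
    have e2 : (t / (s + t)) • x + (s / (s + t)) • (x + (s + t) • e)
        = ((t / (s + t)) + (s / (s + t))) • x + ((s / (s + t)) * (s + t)) • e := by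
      module
    rw [e2]
    have e3 : t / (s + t) + s / (s + t) = 1 := by field_simp; ring
    have e4 : s / (s + t) * (s + t) = s := by field_simp
    rw [e3, e4, one_smul]
  have a2 : f (x + t • e) ≤ (s / (s + t)) * f x + (t / (s + t)) * f (x + (s + t) • e) := by
    have := hc.2 (mem_univ x) (mem_univ (x + (s + t) • e))
      (div_nonneg hs hpos.le) (div_nonneg ht.le hpos.le)
      (by field_simp)
    simp only [smul_eq_mul] at this
    refine le_trans (le_of_eq ?_) this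
    congr 1
    have e2 : (s / (s + t)) • x + (t / (s + t)) • (x + (s + t) • e)
        = ((s / (s + t)) + (t / (s + t))) • x + ((t / (s + t)) * (s + t)) • e := by
      module
    rw [e2]
    have e3 : s / (s + t) + t / (s + t) = 1 := by field_simp
    have e4 : t / (s + t) * (s + t) = t := by field_simp
    rw [e3, e4, one_smul]
  have e5 : (t / (s + t)) * f x + (s / (s + t)) * f (x + (s + t) • e)
      + ((s / (s + t)) * f x + (t / (s + t)) * f (x + (s + t) • e))
      = f x + f (x + (s + t) • e) := by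
    field_simp
    ring
  linarith

lemma qF_mono (hc : ConvexOn ℝ univ f) (x : EE d) (e : EE d) (hδ : 0 < δ) {s : ℝ} (hs : 0 ≤ s) :
    qF f e δ x ≤ qF f e δ (x + s • e) := by
  unfold qF
  apply div_le_div_of_nonneg_right _ hδ.le
  have := convex_four hc x e hs hδ
  have e1 : x + s • e + δ • e = x + (s + δ) • e := by rw [add_smul, add_assoc]
  rw [e1]
  exact this

lemma pF_between (hfc : Continuous f) (hc : ConvexOn ℝ univ f) (x : EE d) (e : EE d) (hδ : 0 < δ) :
    qF f e δ x ≤ pF f e δ x ∧ pF f e δ x ≤ qF f e δ (x + δ • e) := by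
  have hQc := qF_cont hfc e δ
  have hcont : Continuous (fun s : ℝ => qF f e δ (x + s • e)) := hQc.comp (by fun_prop)
  have hi : IntervalIntegrable (fun s : ℝ => qF f e δ (x + s • e)) volume 0 δ :=
    hcont.intervalIntegrable _ _
  unfold pF lineInt
  constructor
  · rw [le_div_iff₀ hδ]
    have := intervalIntegral.integral_mono_on hδ.le (intervalIntegrable_const (c := qF f e δ x)) hi
      (fun s hs => qF_mono hc x e hδ hs.1)
    simpa [mul_comm] using this
  · rw [div_le_iff₀ hδ]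
    have := intervalIntegral.integral_mono_on hδ.le hi
      (intervalIntegrable_const (c := qF f e δ (x + δ • e)))
      (fun s hs => by
        have := qF_mono hc (x + s • e) e hδ (s := δ - s) (by linarith [hs.2])
        have e1 : x + s • e + (δ - s) • e = x + δ • e := by
          rw [add_assoc, ← add_smul]
          congr 2
          ring
        rwa [e1] at this)
    simpa [mul_comm] using this

lemma pF_bd (hf : ∀ x x', f x ≤ f x' + RY * ‖x - x'‖) (hfc : Continuous f) (hc : ConvexOn ℝ univ f)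
    (he : ‖e‖ = 1) (hδ : 0 < δ) (x : EE d) : |pF f e δ x| ≤ RY := by
  obtain ⟨h1, h2⟩ := pF_between hfc hc x e hδ
  have h3 := (abs_le.mp (qF_bd hf he hδ x)).1
  have h4 := (abs_le.mp (qF_bd hf he hδ (x + δ • e))).2
  rw [abs_le]
  constructor <;> linarith

lemma pF_cont (hfc : Continuous f) (e : EE d) (δ : ℝ) : Continuous (pF f e δ) :=
  (lineInt_cont (qF_cont hfc e δ) e 0 δ).div_const δ

lemma pF_deriv (hfc : Continuous f) (e : EE d) (δ : ℝ) (x : EE d) :
    HasDerivAt (fun t : ℝ => pF f e δ (x + t • e)) (lF f e δ x) 0 := by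
  have h := (lineInt_deriv (qF_cont hfc e δ) e 0 δ x).div_const δ
  simpa [lF, pF] using h

lemma lF_cont (hfc : Continuous f) (e : EE d) (δ : ℝ) : Continuous (lF f e δ) := by
  unfold lF
  have := qF_cont hfc e δ
  fun_prop

lemma lF_nonneg (hc : ConvexOn ℝ univ f) (x : EE d) (e : EE d) (hδ : 0 < δ) : 0 ≤ lF f e δ x := by
  unfold lF
  apply div_nonneg _ hδ.le
  have := qF_mono hc x e hδ hδ.le
  linarith

lemma lF_le (hf : ∀ x x', f x ≤ f x' + RY * ‖x - x'‖) (he : ‖e‖ = 1) (hδ : 0 < δ) (x : EE d) :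
    lF f e δ x ≤ 2 * RY / δ := by
  unfold lF
  apply div_le_div_of_nonneg_right _ hδ.le
  have h1 := (abs_le.mp (qF_bd hf he hδ (x + δ • e))).2
  have h2 := (abs_le.mp (qF_bd hf he hδ x)).1
  linarith

/-- A subgradient is squeezed by difference quotients. -/
lemma sub_between (he : ‖e‖ = 1) (hδ : 0 < δ) {x t : EE d}
    (hsub : ∀ x', f x + ⟪x' - x, t⟫ ≤ f x') :
    qF f e δ (x + (-δ) • e) ≤ ⟪t, e⟫ ∧ ⟪t, e⟫ ≤ qF f e δ x := by
  constructor
  · have h := hsub (x + (-δ) • e)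
    rw [add_sub_cancel_left, inner_smul_left, real_inner_comm] at h
    simp only [conj_trivial] at h
    unfold qF
    rw [div_le_iff₀ hδ]
    have e1 : x + (-δ) • e + δ • e = x := by
      rw [add_assoc, ← add_smul]; simp
    rw [e1]
    nlinarith
  · have h := hsub (x + δ • e)
    rw [add_sub_cancel_left, inner_smul_left, real_inner_comm] at h
    simp only [conj_trivial] at h
    unfold qF
    rw [le_div_iff₀ hδ]
    nlinarith

/-- The averaged difference quotient approximates a subgradient. -/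
lemma pF_sub_err (hfc : Continuous f) (hc : ConvexOn ℝ univ f) (he : ‖e‖ = 1) (hδ : 0 < δ)
    {x t : EE d} (hsub : ∀ x', f x + ⟪x' - x, t⟫ ≤ f x') :
    |pF f e δ x - ⟪t, e⟫| ≤ qF f e δ (x + δ • e) - qF f e δ (x + (-δ) • e) := by
  obtain ⟨h1, h2⟩ := pF_between hfc hc x e hδ
  obtain ⟨h3, h4⟩ := sub_between (f := f) he hδ hsub
  have h5 := qF_mono hc (x + (-δ) • e) e hδ hδ.le
  have e1 : x + (-δ) • e + δ • e = x := by
    rw [add_assoc, ← add_smul]; simp
  rw [e1] at h5
  have h6 := qF_mono hc x e hδ hδ.le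
  rw [abs_le]
  constructor <;> linarith

end Quot

section Cutoff

variable {g : EE d → ℝ} {K : Set (EE d)} {r δ κ : ℝ} {e : EE d}

/-- Profile of the cutoff. -/
noncomputable def cutA (g : EE d → ℝ) (κ : ℝ) (x : EE d) : ℝ :=
  max 0 (min 1 ((1 - κ - g x) / κ))

/-- The cutoff. -/
noncomputable def cutX (g : EE d → ℝ) (κ : ℝ) (e : EE d) (δ : ℝ) (x : EE d) : ℝ :=
  lineInt (cutA g κ) e (-(δ / 2)) (δ / 2) x / δ

/-- Derivative along the line of the cutoff. -/
noncomputable def cutX' (g : EE d → ℝ) (κ : ℝ) (e : EE d) (δ : ℝ) (x : EE d) : ℝ :=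
  (cutA g κ (x + (δ / 2) • e) - cutA g κ (x + (-(δ / 2)) • e)) / δ

lemma cutA_cont (hg : Continuous g) (κ : ℝ) : Continuous (cutA g κ) := by
  unfold cutA
  fun_prop

lemma cutA_nonneg (κ : ℝ) (x : EE d) : 0 ≤ cutA g κ x := le_max_left _ _

lemma cutA_le_one (κ : ℝ) (x : EE d) : cutA g κ x ≤ 1 :=
  max_le zero_le_one (min_le_left _ _)

lemma cutA_eq_one (hκ : 0 < κ) {x : EE d} (hx : g x ≤ 1 - 2 * κ) : cutA g κ x = 1 := by
  unfold cutA
  have : 1 ≤ (1 - κ - g x) / κ := by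
    rw [le_div_iff₀ hκ]
    linarith
  rw [min_eq_left this]
  simp

lemma cutA_eq_zero (hκ : 0 < κ) {x : EE d} (hx : 1 - κ ≤ g x) : cutA g κ x = 0 := by
  unfold cutA
  have : (1 - κ - g x) / κ ≤ 0 := by
    apply div_nonpos_of_nonpos_of_nonneg _ hκ.le
    linarith
  apply max_eq_left
  exact (min_le_right _ _).trans this

lemma cutX_cont (hg : Continuous g) (κ : ℝ) (e : EE d) (δ : ℝ) : Continuous (cutX g κ e δ) :=
  (lineInt_cont (cutA_cont hg κ) e _ _).div_const δ

lemma cutX'_cont (hg : Continuous g) (κ : ℝ) (e : EE d) (δ : ℝ) : Continuous (cutX' g κ e δ) := by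
  unfold cutX'
  have := cutA_cont hg κ
  fun_prop

lemma cutX_deriv (hg : Continuous g) (κ : ℝ) (e : EE d) (δ : ℝ) (x : EE d) :
    HasDerivAt (fun t : ℝ => cutX g κ e δ (x + t • e)) (cutX' g κ e δ x) 0 := by
  have h := (lineInt_deriv (cutA_cont hg κ) e (-(δ / 2)) (δ / 2) x).div_const δ
  simpa [cutX', cutX] using h

lemma cutX_bounds (hg : Continuous g) (κ : ℝ) (e : EE d) (hδ : 0 < δ) (x : EE d) :
    0 ≤ cutX g κ e δ x ∧ cutX g κ e δ x ≤ 1 := by
  have hA := cutA_cont hg κ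
  have hc : Continuous (fun s : ℝ => cutA g κ (x + s • e)) := hA.comp (by fun_prop)
  have hi : IntervalIntegrable (fun s : ℝ => cutA g κ (x + s • e)) volume (-(δ / 2)) (δ / 2) :=
    hc.intervalIntegrable _ _
  have hle : -(δ / 2) ≤ δ / 2 := by linarith
  unfold cutX lineInt
  constructor
  · apply div_nonneg _ hδ.le
    exact intervalIntegral.integral_nonneg hle (fun s _ => cutA_nonneg κ _)
  · rw [div_le_iff₀ hδ]
    have := intervalIntegral.integral_mono_on hle hi (intervalIntegrable_const (c := (1:ℝ)))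
      (fun s _ => cutA_le_one κ _)
    simp only [intervalIntegral.integral_const, smul_eq_mul, mul_one] at this
    have e1 : δ / 2 - -(δ / 2) = δ := by ring
    rw [e1] at this
    linarith

lemma cutX'_bound (hδ : 0 < δ) (x : EE d) : |cutX' g κ e δ x| ≤ 1 / δ := by
  unfold cutX'
  rw [abs_div, abs_of_pos hδ]
  apply div_le_div_of_nonneg_right _ hδ.le
  rw [abs_le]
  have a1 := cutA_nonneg (g := g) κ (x + (δ / 2) • e)
  have a2 := cutA_le_one (g := g) κ (x + (δ / 2) • e)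
  have a3 := cutA_nonneg (g := g) κ (x + (-(δ / 2)) • e)
  have a4 := cutA_le_one (g := g) κ (x + (-(δ / 2)) • e)
  constructor <;> linarith

lemma gauge_line_le (G : GaugeData K r g) (hr : 0 < r) (he : ‖e‖ = 1) {x : EE d} {s : ℝ} :
    g (x + s • e) ≤ g x + |s| / r := by
  have := G.lip x (s • e)
  rw [norm_smul, he, mul_one, Real.norm_eq_abs] at this
  exact this

lemma gauge_line_ge (G : GaugeData K r g) (hr : 0 < r) (he : ‖e‖ = 1) {x : EE d} {s : ℝ} :
    g x - |s| / r ≤ g (x + s • e) := by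
  have := gauge_line_le (x := x + s • e) (s := -s) G hr he
  have e1 : x + s • e + (-s) • e = x := by
    rw [add_assoc, ← add_smul]; simp
  rw [e1, abs_neg] at this
  linarith

lemma cutX_vanish (G : GaugeData K r g) (hr : 0 < r) (he : ‖e‖ = 1) (hδ : 0 < δ)
    (hκ : κ = δ / (2 * r)) {x : EE d} (hx : x ∉ K) : cutX g κ e δ x = 0 := by
  have hκpos : 0 < κ := by rw [hκ]; positivity
  have hgx : 1 < g x := by
    rw [G.mem_iff] at hx
    exact not_le.mp hx
  unfold cutX lineInt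
  have : ∫ s in (-(δ / 2))..(δ / 2), cutA g κ (x + s • e) = ∫ _s in (-(δ / 2))..(δ / 2), (0:ℝ) := by
    apply intervalIntegral.integral_congr
    intro s hs
    have hle : -(δ / 2) ≤ δ / 2 := by linarith
    rw [uIcc_of_le hle] at hs
    apply cutA_eq_zero hκpos
    have h1 := gauge_line_ge (x := x) (s := s) G hr he
    have h2 : |s| ≤ δ / 2 := abs_le.mpr hs
    have h3 : |s| / r ≤ κ := by
      rw [hκ, div_le_div_iff₀ hr (by positivity)]
      nlinarith
    linarith
  rw [this]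
  simp

lemma cutX_one (G : GaugeData K r g) (hr : 0 < r) (he : ‖e‖ = 1) (hδ : 0 < δ)
    (hκ : κ = δ / (2 * r)) {x : EE d} (hx : g x ≤ 1 - 3 * κ) :
    cutX g κ e δ x = 1 ∧ cutX' g κ e δ x = 0 := by
  have hκpos : 0 < κ := by rw [hκ]; positivity
  have hone : ∀ s : ℝ, |s| ≤ δ / 2 → cutA g κ (x + s • e) = 1 := by
    intro s hs
    apply cutA_eq_one hκpos
    have h1 := gauge_line_le (x := x) (s := s) G hr he
    have h3 : |s| / r ≤ κ := by
      rw [hκ, div_le_div_iff₀ hr (by positivity)]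
      nlinarith
    linarith
  constructor
  · unfold cutX lineInt
    have : ∫ s in (-(δ / 2))..(δ / 2), cutA g κ (x + s • e) = ∫ _s in (-(δ / 2))..(δ / 2), (1:ℝ) := by
      apply intervalIntegral.integral_congr
      intro s hs
      have hle : -(δ / 2) ≤ δ / 2 := by linarith
      rw [uIcc_of_le hle] at hs
      exact hone s (abs_le.mpr hs)
    rw [this]
    simp only [intervalIntegral.integral_const, smul_eq_mul, mul_one]
    have e1 : δ / 2 - -(δ / 2) = δ := by ring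
    rw [e1, div_self hδ.ne']
  · unfold cutX'
    rw [hone _ (by rw [abs_of_pos (by positivity)]), hone _ (by
      rw [abs_neg, abs_of_pos (by positivity)])]
    simp

end Cutoff

section TestFn

/-- Difference of the averaged quotients. -/
noncomputable def tW (f₁ f₂ : EE d → ℝ) (e : EE d) (δ : ℝ) (x : EE d) : ℝ :=
  pF f₁ e δ x - pF f₂ e δ x

/-- The test function. -/
noncomputable def tV (g : EE d → ℝ) (κ : ℝ) (f₁ f₂ : EE d → ℝ) (e : EE d) (δ : ℝ) (x : EE d) : ℝ :=
  cutX g κ e δ x * tW f₁ f₂ e δ x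

/-- The derivative of the test function along the line. -/
noncomputable def tV' (g : EE d → ℝ) (κ : ℝ) (f₁ f₂ : EE d → ℝ) (e : EE d) (δ : ℝ) (x : EE d) : ℝ :=
  cutX' g κ e δ x * tW f₁ f₂ e δ x + cutX g κ e δ x * (lF f₁ e δ x - lF f₂ e δ x)

variable {K : Set (EE d)} {R r RY δ κ : ℝ} {g f₁ f₂ : EE d → ℝ} {i : Fin d}

/-- Standing assumptions on the test function. -/
structure TestHyp (K : Set (EE d)) (R r RY δ κ : ℝ) (g f₁ f₂ : EE d → ℝ) : Prop where
  body : BodyHyp K R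
  gauge : GaugeData K r g
  rpos : 0 < r
  RYnn : 0 ≤ RY
  δpos : 0 < δ
  δle : δ ≤ r / 2
  κeq : κ = δ / (2 * r)
  lip₁ : ∀ x x', f₁ x ≤ f₁ x' + RY * ‖x - x'‖
  lip₂ : ∀ x x', f₂ x ≤ f₂ x' + RY * ‖x - x'‖
  conv₁ : ConvexOn ℝ univ f₁
  conv₂ : ConvexOn ℝ univ f₂

variable (H : TestHyp K R r RY δ κ g f₁ f₂)
include H

lemma TestHyp.cont₁ : Continuous f₁ := continuous_of_le_add H.lip₁ H.RYnn
lemma TestHyp.cont₂ : Continuous f₂ := continuous_of_le_add H.lip₂ H.RYnn

lemma TestHyp.tW_cont (e : EE d) : Continuous (tW f₁ f₂ e δ) :=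
  (pF_cont H.cont₁ e δ).sub (pF_cont H.cont₂ e δ)

lemma TestHyp.tW_bd (i : Fin d) (x : EE d) : |tW f₁ f₂ (ee i) δ x| ≤ 2 * RY := by
  have h1 := pF_bd H.lip₁ H.cont₁ H.conv₁ (norm_ee i) H.δpos x
  have h2 := pF_bd H.lip₂ H.cont₂ H.conv₂ (norm_ee i) H.δpos x
  unfold tW
  rw [abs_le] at *
  constructor <;> linarith [h1.1, h1.2, h2.1, h2.2]

lemma TestHyp.lDiff_bd (i : Fin d) (x : EE d) :
    |lF f₁ (ee i) δ x - lF f₂ (ee i) δ x| ≤ 2 * RY / δ := by
  have h1 := lF_nonneg H.conv₁ x (ee i) H.δpos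
  have h2 := lF_nonneg H.conv₂ x (ee i) H.δpos
  have h3 := lF_le H.lip₁ (norm_ee i) H.δpos x
  have h4 := lF_le H.lip₂ (norm_ee i) H.δpos x
  rw [abs_le]
  constructor <;> linarith

lemma TestHyp.g_cont : Continuous g := H.gauge.cont

lemma TestHyp.tV_cont (e : EE d) : Continuous (tV g κ f₁ f₂ e δ) :=
  (cutX_cont H.g_cont κ e δ).mul (H.tW_cont e)

lemma TestHyp.tV'_cont (e : EE d) : Continuous (tV' g κ f₁ f₂ e δ) :=
  ((cutX'_cont H.g_cont κ e δ).mul (H.tW_cont e)).add
    ((cutX_cont H.g_cont κ e δ).mul ((lF_cont H.cont₁ e δ).sub (lF_cont H.cont₂ e δ)))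

lemma TestHyp.shear (i : Fin d) {ε : ℝ} (hε : 0 < ε) (hε2 : ε * (4 * RY / δ) ≤ 1 / 2) :
    ShearHyp K i (tV g κ f₁ f₂ (ee i) δ) (tV' g κ f₁ f₂ (ee i) δ) (2 * RY) (4 * RY / δ) ε := by
  have hδ := H.δpos
  have hRY := H.RYnn
  refine ⟨(H.tV_cont _).measurable, (H.tV'_cont _).measurable, ?_, ?_, ?_, ?_, hε, hε2⟩
  · intro x
    have h1 := cutX_deriv H.g_cont κ (ee i) δ x
    have h2 := pF_deriv H.cont₁ (ee i) δ x
    have h3 := pF_deriv H.cont₂ (ee i) δ x
    have h4 := h1.fun_mul (h2.fun_sub h3)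
    simpa [tV, tV', tW] using h4
  · intro x
    obtain ⟨a1, a2⟩ := cutX_bounds H.g_cont κ (ee i) hδ x
    have h := H.tW_bd i x
    unfold tV
    rw [abs_mul, abs_of_nonneg a1]
    calc cutX g κ (ee i) δ x * |tW f₁ f₂ (ee i) δ x| ≤ 1 * (2 * RY) :=
          mul_le_mul a2 h (abs_nonneg _) zero_le_one
      _ = _ := one_mul _
  · intro x
    obtain ⟨a1, a2⟩ := cutX_bounds H.g_cont κ (ee i) hδ x
    have h := H.tW_bd i x
    have h' := H.lDiff_bd i x
    have h'' := cutX'_bound (g := g) (κ := κ) (e := ee i) hδ x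
    unfold tV'
    calc |cutX' g κ (ee i) δ x * tW f₁ f₂ (ee i) δ x
          + cutX g κ (ee i) δ x * (lF f₁ (ee i) δ x - lF f₂ (ee i) δ x)|
        ≤ |cutX' g κ (ee i) δ x * tW f₁ f₂ (ee i) δ x|
          + |cutX g κ (ee i) δ x * (lF f₁ (ee i) δ x - lF f₂ (ee i) δ x)| := abs_add_le _ _
      _ ≤ (1 / δ) * (2 * RY) + 1 * (2 * RY / δ) := by
          rw [abs_mul, abs_mul, abs_of_nonneg a1]
          exact add_le_add (mul_le_mul h'' h (abs_nonneg _) (by positivity))
            (mul_le_mul a2 h' (abs_nonneg _) zero_le_one)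
      _ = 4 * RY / δ := by field_simp; ring
  · intro x hx
    unfold tV
    rw [cutX_vanish H.gauge H.rpos (norm_ee i) hδ H.κeq hx, zero_mul]

end TestFn

section Integrals

variable {K : Set (EE d)} {R r RY δ κ : ℝ} {g f : EE d → ℝ} {i : Fin d}

lemma int_translate_Q (hB : BodyHyp K R) (G : GaugeData K r g) (hr : 0 < r) (hRY : 0 ≤ RY)
    (hf : ∀ x x', f x ≤ f x' + RY * ‖x - x'‖) (hδ : 0 < δ) (hδr : δ ≤ r) (i : Fin d) :
    (∫ x in K, qF f (ee i) δ (x + δ • ee i)) - ∫ x in K, qF f (ee i) δ x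
      ≤ 2 * RY * (vo K * d * (δ / r)) := by
  have hfc := continuous_of_le_add hf hRY
  refine integral_translate_le G hB.compact hr (qF_cont hfc _ _).measurable
    (qF_bd hf (norm_ee i) hδ) (δ • ee i) (by positivity) ((div_le_one hr).mpr hδr) ?_
  rw [norm_smul, norm_ee, mul_one, Real.norm_of_nonneg hδ.le]
  field_simp
  rfl

lemma int_translate_Q' (hB : BodyHyp K R) (G : GaugeData K r g) (hr : 0 < r) (hRY : 0 ≤ RY)
    (hf : ∀ x x', f x ≤ f x' + RY * ‖x - x'‖) (hδ : 0 < δ) (hδr : δ ≤ r) (i : Fin d) :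
    (∫ x in K, qF f (ee i) δ x) - ∫ x in K, qF f (ee i) δ (x + (-δ) • ee i)
      ≤ 2 * RY * (vo K * d * (δ / r)) := by
  have hfc := continuous_of_le_add hf hRY
  have h := integral_translate_le G hB.compact hr (h := fun x => - qF f (ee i) δ x)
    (qF_cont hfc _ _).measurable.neg (B := RY)
    (fun x => by rw [abs_neg]; exact qF_bd hf (norm_ee i) hδ x) ((-δ) • ee i)
    (θ := δ / r) (by positivity) ((div_le_one hr).mpr hδr) (by
      rw [norm_smul, norm_ee, mul_one, Real.norm_eq_abs, abs_neg, abs_of_pos hδ]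
      field_simp
      rfl)
  simp only [integral_neg] at h
  linarith

lemma int_lF_le (hB : BodyHyp K R) (G : GaugeData K r g) (hr : 0 < r) (hRY : 0 ≤ RY)
    (hf : ∀ x x', f x ≤ f x' + RY * ‖x - x'‖) (hδ : 0 < δ) (hδr : δ ≤ r) (i : Fin d) :
    ∫ x in K, lF f (ee i) δ x ≤ 2 * RY * vo K * d / r := by
  have hfc := continuous_of_le_add hf hRY
  have hQc := qF_cont hfc (ee i) δ
  have h := int_translate_Q hB G hr hRY hf hδ hδr i
  have i1 : IntegrableOn (fun x => qF f (ee i) δ (x + δ • ee i)) K volume :=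
    integrableOn_of_compact hB.compact (hQc.comp (by fun_prop))
  have i2 : IntegrableOn (qF f (ee i) δ) K volume := integrableOn_of_compact hB.compact hQc
  have e : ∫ x in K, lF f (ee i) δ x
      = ((∫ x in K, qF f (ee i) δ (x + δ • ee i)) - ∫ x in K, qF f (ee i) δ x) / δ := by
    unfold lF
    rw [integral_div, integral_sub i1 i2]
  rw [e, div_le_iff₀ hδ]
  refine h.trans (le_of_eq ?_)
  field_simp

/-- The error of the averaged quotient. -/
noncomputable def eF (f : EE d → ℝ) (e : EE d) (δ : ℝ) (x : EE d) : ℝ :=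
  qF f e δ (x + δ • e) - qF f e δ (x + (-δ) • e)

lemma eF_cont (hfc : Continuous f) (e : EE d) (δ : ℝ) : Continuous (eF f e δ) := by
  have hQc := qF_cont hfc e δ
  unfold eF
  fun_prop

lemma int_eF_le (hB : BodyHyp K R) (G : GaugeData K r g) (hr : 0 < r) (hRY : 0 ≤ RY)
    (hf : ∀ x x', f x ≤ f x' + RY * ‖x - x'‖) (hδ : 0 < δ) (hδr : δ ≤ r) (i : Fin d) :
    ∫ x in K, eF f (ee i) δ x ≤ 4 * RY * vo K * d * δ / r := by
  have hfc := continuous_of_le_add hf hRY
  have hQc := qF_cont hfc (ee i) δ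
  have h1 := int_translate_Q hB G hr hRY hf hδ hδr i
  have h2 := int_translate_Q' hB G hr hRY hf hδ hδr i
  have i1 : IntegrableOn (fun x => qF f (ee i) δ (x + δ • ee i)) K volume :=
    integrableOn_of_compact hB.compact (hQc.comp (by fun_prop))
  have i3 : IntegrableOn (fun x => qF f (ee i) δ (x + (-δ) • ee i)) K volume :=
    integrableOn_of_compact hB.compact (hQc.comp (by fun_prop))
  unfold eF
  rw [integral_sub i1 i3]
  have e1 : 4 * RY * vo K * d * δ / r = 2 * RY * (vo K * d * (δ / r)) + 2 * RY * (vo K * d * (δ / r)) := by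
    ring
  rw [e1]
  linarith

end Integrals

section Main

variable {K : Set (EE d)} {R r RY δ κ : ℝ} {g f₁ f₂ : EE d → ℝ}

lemma integrable_const_indicator_on {Z S : Set (EE d)} (hS : IsCompact S) (hZ : MeasurableSet Z) :
    IntegrableOn (Z.indicator (fun _ => (1:ℝ))) S volume :=
  Measure.integrableOn_of_bounded (M := 1) hS.measure_lt_top.ne
    (measurable_const.indicator hZ).aestronglyMeasurable (ae_of_all _ fun x => by
      rw [Real.norm_eq_abs]
      by_cases h : x ∈ Z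
      · simp [h]
      · simp [h])

lemma TestHyp.vol_Z (H : TestHyp K R r RY δ κ g f₁ f₂) :
    vo (K \ {x | g x ≤ 1 - 3 * κ}) ≤ vo K * d * (3 * κ) := by
  have hκ : 0 < κ := by
    rw [H.κeq]
    have := H.δpos
    have := H.rpos
    positivity
  apply H.gauge.vol _ (by linarith)
  have h1 := H.δle
  have h2 := H.rpos
  rw [H.κeq, mul_div_assoc', div_le_one (by positivity)]
  linarith

theorem TestHyp.A_bound (H : TestHyp K R r RY δ κ g f₁ f₂) (i : Fin d) :
    ∫ x in K, tV' g κ f₁ f₂ (ee i) δ x ^ 2 ≤ 28 * RY ^ 2 * vo K * d / (r * δ) := by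
  have hδ := H.δpos
  have hr := H.rpos
  have hRY := H.RYnn
  have hB := H.body
  obtain ⟨Z, hZ⟩ : ∃ Z : Set (EE d), Z = K \ {x | g x ≤ 1 - 3 * κ} := ⟨_, rfl⟩
  have hZm : MeasurableSet Z := by
    rw [hZ]
    exact hB.meas.diff (isClosed_le H.g_cont continuous_const).measurableSet
  have hZK : Z ⊆ K := by rw [hZ]; exact diff_subset
  have hvolZ : vo Z ≤ vo K * d * (3 * κ) := by rw [hZ]; exact H.vol_Z
  have hδr : δ ≤ r := by have := H.δle; linarith
  have hL₁ := int_lF_le hB H.gauge hr hRY H.lip₁ hδ hδr i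
  have hL₂ := int_lF_le hB H.gauge hr hRY H.lip₂ hδ hδr i
  have hptw : ∀ x ∈ K, tV' g κ f₁ f₂ (ee i) δ x ^ 2
      ≤ (8 * RY ^ 2 / δ ^ 2) * Z.indicator (fun _ => (1:ℝ)) x
        + (4 * RY / δ) * (lF f₁ (ee i) δ x + lF f₂ (ee i) δ x) := by
    intro x hx
    obtain ⟨a1, a2⟩ := cutX_bounds H.g_cont κ (ee i) hδ x
    have hw := H.tW_bd i x
    have hc := cutX'_bound (g := g) (κ := κ) (e := ee i) hδ x
    have h1 := lF_nonneg H.conv₁ x (ee i) hδ
    have h2 := lF_nonneg H.conv₂ x (ee i) hδ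
    have h3 := lF_le H.lip₁ (norm_ee i) hδ x
    have h4 := lF_le H.lip₂ (norm_ee i) hδ x
    obtain ⟨c, hcd⟩ : ∃ c, c = cutX' g κ (ee i) δ x := ⟨_, rfl⟩
    obtain ⟨w, hwd⟩ : ∃ w, w = tW f₁ f₂ (ee i) δ x := ⟨_, rfl⟩
    obtain ⟨X, hXd⟩ : ∃ X, X = cutX g κ (ee i) δ x := ⟨_, rfl⟩
    obtain ⟨l₁, hl₁⟩ : ∃ l₁, l₁ = lF f₁ (ee i) δ x := ⟨_, rfl⟩
    obtain ⟨l₂, hl₂⟩ : ∃ l₂, l₂ = lF f₂ (ee i) δ x := ⟨_, rfl⟩
    rw [← hcd] at hc
    rw [← hwd] at hw
    rw [← hXd] at a1 a2
    rw [← hl₁] at h1 h3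
    rw [← hl₂] at h2 h4
    have e0 : tV' g κ f₁ f₂ (ee i) δ x = c * w + X * (l₁ - l₂) := by
      rw [tV', hcd, hwd, hXd, hl₁, hl₂]
    rw [e0, ← hl₁, ← hl₂]
    have hb : (X * (l₁ - l₂)) ^ 2 ≤ (2 * RY / δ) * (l₁ + l₂) := by
      have h5 : (X * (l₁ - l₂)) ^ 2 ≤ (l₁ - l₂) ^ 2 := by
        rw [mul_pow]
        have : X ^ 2 ≤ 1 := pow_le_one₀ a1 a2
        have h6 : 0 ≤ (l₁ - l₂) ^ 2 := sq_nonneg _
        nlinarith
      have h7 : l₁ * l₁ ≤ l₁ * (2 * RY / δ) := mul_le_mul_of_nonneg_left h3 h1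
      have h8 : l₂ * l₂ ≤ l₂ * (2 * RY / δ) := mul_le_mul_of_nonneg_left h4 h2
      have h9 : 0 ≤ l₁ * l₂ := mul_nonneg h1 h2
      nlinarith
    have ha : (c * w) ^ 2 ≤ (4 * RY ^ 2 / δ ^ 2) * Z.indicator (fun _ => (1:ℝ)) x := by
      by_cases hxZ : x ∈ Z
      · rw [indicator_of_mem hxZ, mul_one, mul_pow]
        have h5 : c ^ 2 ≤ (1 / δ) ^ 2 := by
          rw [← sq_abs c]
          exact pow_le_pow_left₀ (abs_nonneg _) hc 2
        have h6 : w ^ 2 ≤ (2 * RY) ^ 2 := by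
          rw [← sq_abs w]
          exact pow_le_pow_left₀ (abs_nonneg _) hw 2
        have h7 : c ^ 2 * w ^ 2 ≤ (1 / δ) ^ 2 * (2 * RY) ^ 2 :=
          mul_le_mul h5 h6 (sq_nonneg _) (sq_nonneg _)
        refine h7.trans (le_of_eq ?_)
        field_simp
        ring
      · have hxL : g x ≤ 1 - 3 * κ := by
          by_contra hcon
          apply hxZ
          rw [hZ]
          exact ⟨hx, hcon⟩
        have := (cutX_one H.gauge hr (norm_ee i) hδ H.κeq hxL).2
        rw [← hcd] at this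
        rw [indicator_of_notMem hxZ, this]
        simp
    have hab : (c * w + X * (l₁ - l₂)) ^ 2 ≤ 2 * (c * w) ^ 2 + 2 * (X * (l₁ - l₂)) ^ 2 := by
      nlinarith [sq_nonneg (c * w - X * (l₁ - l₂))]
    have e1 : (8 * RY ^ 2 / δ ^ 2) * Z.indicator (fun _ => (1:ℝ)) x
        = 2 * ((4 * RY ^ 2 / δ ^ 2) * Z.indicator (fun _ => (1:ℝ)) x) := by ring
    have e2 : (4 * RY / δ) * (l₁ + l₂) = 2 * ((2 * RY / δ) * (l₁ + l₂)) := by ring
    rw [e1, e2]
    linarith
  have hZi := integrable_const_indicator_on hB.compact hZm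
  have hc₁ : IntegrableOn (lF f₁ (ee i) δ) K volume :=
    integrableOn_of_compact hB.compact (lF_cont H.cont₁ _ _)
  have hc₂ : IntegrableOn (lF f₂ (ee i) δ) K volume :=
    integrableOn_of_compact hB.compact (lF_cont H.cont₂ _ _)
  have i1 : IntegrableOn (fun x => (8 * RY ^ 2 / δ ^ 2) * Z.indicator (fun _ => (1:ℝ)) x) K volume :=
    hZi.const_mul _
  have i3 : IntegrableOn (fun x => lF f₁ (ee i) δ x + lF f₂ (ee i) δ x) K volume := hc₁.add hc₂
  have i2 : IntegrableOn (fun x => (4 * RY / δ) * (lF f₁ (ee i) δ x + lF f₂ (ee i) δ x)) K volume :=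
    i3.const_mul _
  have i4 : IntegrableOn (fun x => (8 * RY ^ 2 / δ ^ 2) * Z.indicator (fun _ => (1:ℝ)) x
        + (4 * RY / δ) * (lF f₁ (ee i) δ x + lF f₂ (ee i) δ x)) K volume := i1.add i2
  have hmono := setIntegral_mono_on
    (integrableOn_of_compact hB.compact ((H.tV'_cont (ee i)).pow 2)) i4
    hB.meas hptw
  have e1 : ∫ x in K, ((8 * RY ^ 2 / δ ^ 2) * Z.indicator (fun _ => (1:ℝ)) x
        + (4 * RY / δ) * (lF f₁ (ee i) δ x + lF f₂ (ee i) δ x))
      = (8 * RY ^ 2 / δ ^ 2) * vo Z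
        + (4 * RY / δ) * ((∫ x in K, lF f₁ (ee i) δ x) + ∫ x in K, lF f₂ (ee i) δ x) := by
    rw [integral_add i1 i2, integral_const_mul, integral_const_mul, integral_add hc₁ hc₂]
    congr 2
    rw [setIntegral_indicator hZm, inter_eq_right.mpr hZK, setIntegral_const, smul_eq_mul, mul_one]
    rfl
  have hmono' : ∫ x in K, tV' g κ f₁ f₂ (ee i) δ x ^ 2 ≤ (8 * RY ^ 2 / δ ^ 2) * vo Z
        + (4 * RY / δ) * ((∫ x in K, lF f₁ (ee i) δ x) + ∫ x in K, lF f₂ (ee i) δ x) := by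
    rw [← e1]
    exact hmono
  refine hmono'.trans ?_
  have h8 : (8 * RY ^ 2 / δ ^ 2) * vo Z ≤ (8 * RY ^ 2 / δ ^ 2) * (vo K * d * (3 * κ)) :=
    mul_le_mul_of_nonneg_left hvolZ (by positivity)
  have h9 : (4 * RY / δ) * ((∫ x in K, lF f₁ (ee i) δ x) + ∫ x in K, lF f₂ (ee i) δ x)
      ≤ (4 * RY / δ) * (2 * RY * vo K * d / r + 2 * RY * vo K * d / r) :=
    mul_le_mul_of_nonneg_left (add_le_add hL₁ hL₂) (by positivity)
  have e2 : (8 * RY ^ 2 / δ ^ 2) * (vo K * d * (3 * κ))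
      + (4 * RY / δ) * (2 * RY * vo K * d / r + 2 * RY * vo K * d / r)
      = 28 * RY ^ 2 * vo K * d / (r * δ) := by
    rw [H.κeq]
    field_simp
    ring
  linarith

end Main

end Crest.Agent.OT
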