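import Mathlib

/-!
# Smooth flows of vector fields with a proper conserved quantity

For a vector field `V` on a proper normed space `E` whose Nemytskii operator
`γ ↦ V ∘ γ` on `C([0,1], E)` is smooth, and which has a proper conserved quantity `Q`,
we construct the global flow and show it is jointly smooth in time and space.

The proof of smoothness uses the implicit function theorem on `C([0,1], E)` with the time as a
parameter of the equation `y' = τ V(y)`, and the semigroup property.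
-/

set_option autoImplicit false
set_option linter.unusedSectionVars false

open Set Filter Metric MeasureTheory
open scoped Topology ContDiff NNReal

namespace Crest.Agent.Lib.SmoothFlow

variable {E : Type*} [NormedAddCommGroup E] [NormedSpace ℝ E] [ProperSpace E]

/-- The unit interval used for curves. -/
abbrev I01 : Type := Set.Icc (0:ℝ) 1

/-- `0` as a point of the unit interval. -/
def i0 : I01 := ⟨0, by simp⟩
/-- `1` as a point of the unit interval. -/
def i1 : I01 := ⟨1, by simp⟩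

/-- Extension of a curve on `[0,1]` to the real line. -/
noncomputable def ext (η : C(I01, E)) : ℝ → E :=
  fun r => η (projIcc (0:ℝ) 1 zero_le_one r)

lemma continuous_ext (η : C(I01, E)) : Continuous (ext η) :=
  η.continuous.comp continuous_projIcc

lemma ext_of_mem (η : C(I01, E)) {r : ℝ} (hr : r ∈ Icc (0:ℝ) 1) : ext η r = η ⟨r, hr⟩ := by
  unfold ext
  rw [projIcc_of_mem zero_le_one hr]

lemma norm_ext_le (η : C(I01, E)) (r : ℝ) : ‖ext η r‖ ≤ ‖η‖ := η.norm_coe_le_norm _

/-- The primitive of a curve, as a curve. -/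
noncomputable def primFun (η : C(I01, E)) : C(I01, E) :=
  ⟨fun s => ∫ r in (0:ℝ)..(s:ℝ), ext η r,
    (intervalIntegral.continuous_primitive
      (fun a b => (continuous_ext η).intervalIntegrable a b) 0).comp continuous_subtype_val⟩

lemma primFun_apply (η : C(I01, E)) (s : I01) :
    primFun η s = ∫ r in (0:ℝ)..(s:ℝ), ext η r := rfl

lemma norm_primFun_le (η : C(I01, E)) : ‖primFun η‖ ≤ ‖η‖ := by
  rw [ContinuousMap.norm_le _ (norm_nonneg _)]
  intro s
  rw [primFun_apply]
  have h := intervalIntegral.norm_integral_le_of_norm_le_const (a := (0:ℝ)) (b := (s:ℝ))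
    (f := ext η) (C := ‖η‖) (fun r _ => norm_ext_le η r)
  have hs : |(s:ℝ) - 0| ≤ 1 := by
    rw [sub_zero, abs_of_nonneg s.2.1]; exact s.2.2
  calc _ ≤ ‖η‖ * |(s:ℝ) - 0| := h
    _ ≤ ‖η‖ * 1 := by gcongr
    _ = ‖η‖ := mul_one _

/-- The integral operator `η ↦ (s ↦ ∫₀ˢ η)` as a continuous linear map of norm at most `1`. -/
noncomputable def primL : C(I01, E) →L[ℝ] C(I01, E) :=
  LinearMap.mkContinuous
    { toFun := primFun
      map_add' := fun a b => by
        ext s
        simp only [primFun_apply, ContinuousMap.add_apply]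
        rw [← intervalIntegral.integral_add ((continuous_ext a).intervalIntegrable _ _)
          ((continuous_ext b).intervalIntegrable _ _)]
        rfl
      map_smul' := fun c a => by
        ext s
        simp only [primFun_apply, ContinuousMap.smul_apply, RingHom.id_apply]
        rw [← intervalIntegral.integral_smul]
        rfl }
    1 (fun η => by simpa using norm_primFun_le η)

lemma primL_apply (η : C(I01, E)) (s : I01) :
    primL η s = ∫ r in (0:ℝ)..(s:ℝ), ext η r := rfl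

lemma norm_primL_le : ‖(primL : C(I01, E) →L[ℝ] C(I01, E))‖ ≤ 1 :=
  LinearMap.mkContinuous_norm_le _ zero_le_one _

/-- Constant curves, as a continuous linear map. -/
noncomputable def constL : E →L[ℝ] C(I01, E) :=
  LinearMap.mkContinuous
    { toFun := fun x => ContinuousMap.const _ x
      map_add' := fun _ _ => rfl
      map_smul' := fun _ _ => rfl }
    1 (fun x => by
      rw [one_mul]
      exact (ContinuousMap.norm_le _ (norm_nonneg _)).2 (fun _ => le_rfl))

lemma constL_apply (x : E) (s : I01) : constL x s = x := rfl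


/-- Hypotheses on the vector field and its conserved quantity. -/
structure FlowData (V : E → E) (Q : E → ℝ) : Prop where
  smoothV : ContDiff ℝ (⊤ : ℕ∞) V
  smoothQ : ContDiff ℝ 1 Q
  cons : ∀ x, fderiv ℝ Q x (V x) = 0
  proper : ∀ ρ, ∃ R, ∀ x, Q x ≤ ρ → ‖x‖ ≤ R

section Flow

variable {V : E → E} {Q : E → ℝ}

lemma exists_lipschitz_ball {f : E → E} (hf : ContDiff ℝ 1 f) (x : E) (R : ℝ) :
    ∃ K : ℝ≥0, LipschitzOnWith K f (closedBall x R) :=
  LocallyLipschitzOn.exists_lipschitzOnWith_of_compact (isCompact_closedBall x R)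
    (hf.locallyLipschitz).locallyLipschitzOn

lemma FlowData.smoothV1 (h : FlowData V Q) : ContDiff ℝ 1 V :=
  h.smoothV.of_le (by exact_mod_cast le_top)

/-- `Q` is constant along a curve tangent to the level sets on an open interval. -/
lemma energy_const (h : FlowData V Q) {a b : ℝ} {c W : ℝ → E}
    (hc : ∀ t ∈ Ioo a b, HasDerivAt c (W t) t)
    (hW : ∀ t ∈ Ioo a b, fderiv ℝ Q (c t) (W t) = 0) {s t : ℝ}
    (hs : s ∈ Ioo a b) (ht : t ∈ Ioo a b) : Q (c s) = Q (c t) := by
  have hQd : Differentiable ℝ Q := h.smoothQ.differentiable (by norm_num)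
  have hd : ∀ t ∈ Ioo a b, HasDerivAt (fun t => Q (c t)) 0 t := by
    intro t ht
    have := (hQd (c t)).hasFDerivAt.comp_hasDerivAt t (hc t ht)
    rw [hW t ht] at this
    exact this
  refine isOpen_Ioo.is_const_of_deriv_eq_zero isPreconnected_Ioo
    (fun t ht => (hd t ht).differentiableAt.differentiableWithinAt) ?_ hs ht
  intro t ht
  exact (hd t ht).deriv

lemma exists_on_Ioo (h : FlowData V Q) (x : E) (T : ℝ) (hT : 0 < T) :
    ∃ α : ℝ → E, α 0 = x ∧ ∀ t ∈ Ioo (-T) T, HasDerivAt α (V (α t)) t ∧ Q (α t) = Q x := by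
  classical
  set ρ := Q x with hρ
  obtain ⟨R, hR⟩ := h.proper (ρ + 1)
  let χ : E → ℝ := fun y => Real.smoothTransition (ρ + 1 - Q y)
  let Vt : E → E := fun y => χ y • V y
  have hχ : ContDiff ℝ 1 χ :=
    (Real.smoothTransition.contDiff (n := 1)).comp (contDiff_const.sub h.smoothQ)
  have hVt : ContDiff ℝ 1 Vt := hχ.smul h.smoothV1
  obtain ⟨C, hC⟩ := (isCompact_closedBall (0:E) R).exists_bound_of_continuousOn
    hVt.continuous.continuousOn
  have hbd : ∀ y, ‖Vt y‖ ≤ max C 0 := by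
    intro y
    by_cases hy : Q y ≤ ρ + 1
    · exact (hC y (by simpa using hR y hy)).trans (le_max_left _ _)
    · have : χ y = 0 := Real.smoothTransition.zero_of_nonpos (by push Not at hy; linarith)
      simp [Vt, this]
  let L : ℝ≥0 := ⟨max C 0, le_max_right _ _⟩
  let a : ℝ≥0 := L * ⟨T, hT.le⟩
  obtain ⟨K, hK⟩ := exists_lipschitz_ball hVt x a
  have hmem0 : (0:ℝ) ∈ Icc (-T) T := ⟨by linarith, hT.le⟩
  let t₀ : Icc (-T) T := ⟨0, hmem0⟩
  have hpl : IsPicardLindelof (fun _ => Vt) t₀ x a 0 L K := by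
    apply IsPicardLindelof.of_time_independent (fun y _ => hbd y) hK
    simp [t₀, a]
    exact le_of_eq (by rfl)
  obtain ⟨α, hα0, hα⟩ := hpl.exists_eq_forall_mem_Icc_hasDerivWithinAt₀
  have hαd : ∀ t ∈ Ioo (-T) T, HasDerivAt α (Vt (α t)) t := fun t ht =>
    (hα t (Ioo_subset_Icc_self ht)).hasDerivAt (Icc_mem_nhds ht.1 ht.2)
  have hα0' : α 0 = x := hα0
  have hcons : ∀ y, fderiv ℝ Q y (Vt y) = 0 := by
    intro y
    simp only [Vt, map_smul, h.cons y, smul_zero]
  have h0mem : (0:ℝ) ∈ Ioo (-T) T := ⟨by linarith, hT⟩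
  refine ⟨α, hα0', fun t ht => ?_⟩
  have hQt : Q (α t) = Q x := by
    have := energy_const h (c := α) (W := fun t => Vt (α t)) hαd (fun t _ => hcons _) ht h0mem
    rwa [hα0'] at this
  have hχ1 : χ (α t) = 1 := by
    apply Real.smoothTransition.one_of_one_le
    rw [hQt]; linarith
  have : Vt (α t) = V (α t) := by simp [Vt, hχ1]
  exact ⟨this ▸ hαd t ht, hQt⟩

/-- Uniqueness of solutions on an open interval, for curves in a bounded set. -/
lemma uniq_Ioo (h : FlowData V Q) {a b t₀ R : ℝ} {f g : ℝ → E} (ht₀ : t₀ ∈ Ioo a b)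
    (hf : ∀ t ∈ Ioo a b, HasDerivAt f (V (f t)) t ∧ ‖f t‖ ≤ R)
    (hg : ∀ t ∈ Ioo a b, HasDerivAt g (V (g t)) t ∧ ‖g t‖ ≤ R)
    (heq : f t₀ = g t₀) : EqOn f g (Ioo a b) := by
  obtain ⟨K, hK⟩ := exists_lipschitz_ball h.smoothV1 (0:E) R
  refine ODE_solution_unique_of_mem_Ioo (v := fun _ => V) (s := fun _ => closedBall (0:E) R)
    (K := K) (fun _ _ => hK) ht₀ (fun t ht => ⟨(hf t ht).1, ?_⟩) (fun t ht => ⟨(hg t ht).1, ?_⟩) heq
  · simpa using (hf t ht).2
  · simpa using (hg t ht).2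

/-- Global solutions exist. -/
lemma exists_global (h : FlowData V Q) (x : E) :
    ∃ γ : ℝ → E, γ 0 = x ∧ ∀ t, HasDerivAt γ (V (γ t)) t ∧ Q (γ t) = Q x := by
  classical
  have hpos : ∀ n : ℕ, (0:ℝ) < (n:ℝ) + 1 := fun n => by positivity
  choose α hα0 hα using fun n : ℕ => exists_on_Ioo h x ((n:ℝ) + 1) (hpos n)
  obtain ⟨R, hR⟩ := h.proper (Q x)
  have hcons : ∀ (m n : ℕ) (t : ℝ), |t| < (m:ℝ) + 1 → |t| < (n:ℝ) + 1 → α m t = α n t := by
    intro m n t hm hn
    set T := min ((m:ℝ) + 1) ((n:ℝ) + 1) with hTdef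
    have hTpos : 0 < T := lt_min (hpos m) (hpos n)
    have hsub : ∀ (k : ℕ), T ≤ (k:ℝ) + 1 → ∀ s ∈ Ioo (-T) T, s ∈ Ioo (-((k:ℝ) + 1)) ((k:ℝ) + 1) :=
      fun k hk s hs => ⟨by linarith [hs.1], by linarith [hs.2]⟩
    have hmT : T ≤ (m:ℝ) + 1 := min_le_left _ _
    have hnT : T ≤ (n:ℝ) + 1 := min_le_right _ _
    have htT : t ∈ Ioo (-T) T := by
      have : |t| < T := lt_min hm hn
      exact abs_lt.1 this
    refine uniq_Ioo h (a := -T) (b := T) (t₀ := 0) (R := R) ⟨by linarith, hTpos⟩ ?_ ?_ ?_ htT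
    · intro s hs
      have := hα m s (hsub m hmT s hs)
      exact ⟨this.1, hR _ this.2.le⟩
    · intro s hs
      have := hα n s (hsub n hnT s hs)
      exact ⟨this.1, hR _ this.2.le⟩
    · rw [hα0, hα0]
  let N : ℝ → ℕ := fun t => ⌈|t|⌉₊
  have hN : ∀ t, |t| < (N t : ℝ) + 1 := fun t => by
    have := Nat.le_ceil |t|
    simp only [N]; linarith
  refine ⟨fun t => α (N t) t, ?_, fun t => ?_⟩
  · exact hα0 _
  · have hmem : t ∈ Ioo (-((N t : ℝ) + 1)) ((N t : ℝ) + 1) := abs_lt.1 (hN t)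
    refine ⟨?_, (hα _ t hmem).2⟩
    -- near `t`, the curve agrees with `α M`
    let M : ℕ := ⌈|t| + 1⌉₊
    have hM : |t| + 1 ≤ (M:ℝ) := Nat.le_ceil _
    have hmemM : t ∈ Ioo (-((M : ℝ) + 1)) ((M : ℝ) + 1) := by
      have : |t| < (M:ℝ) + 1 := by linarith
      exact abs_lt.1 this
    have hder := (hα M t hmemM).1
    have heq : α M t = α (N t) t := hcons _ _ _ (by linarith) (hN t)
    rw [heq] at hder
    refine hder.congr_of_eventuallyEq ?_
    have hnear : ∀ᶠ s in 𝓝 t, |s| < |t| + 1 := by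
      have : ContinuousAt (fun s : ℝ => |s|) t := continuous_abs.continuousAt
      exact this.eventually (gt_mem_nhds (by linarith))
    filter_upwards [hnear] with s hs
    exact hcons _ _ _ (hN s) (by linarith)

/-- The flow. -/
noncomputable def flow (h : FlowData V Q) (p : ℝ × E) : E :=
  Classical.choose (exists_global h p.2) p.1

lemma flow_zero (h : FlowData V Q) (x : E) : flow h (0, x) = x :=
  (Classical.choose_spec (exists_global h x)).1

lemma flow_hasDerivAt (h : FlowData V Q) (t : ℝ) (x : E) :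
    HasDerivAt (fun s => flow h (s, x)) (V (flow h (t, x))) t :=
  ((Classical.choose_spec (exists_global h x)).2 t).1

lemma flow_energy (h : FlowData V Q) (t : ℝ) (x : E) : Q (flow h (t, x)) = Q x :=
  ((Classical.choose_spec (exists_global h x)).2 t).2

/-- Any global integral curve is given by the flow. -/
lemma flow_unique (h : FlowData V Q) {γ : ℝ → E} (hγ : ∀ t, HasDerivAt γ (V (γ t)) t) (t : ℝ) :
    γ t = flow h (t, γ 0) := by
  obtain ⟨R, hR⟩ := h.proper (Q (γ 0))
  have hQ : ∀ s, Q (γ s) = Q (γ 0) := by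
    intro s
    set T := |s| + 1 with hT
    have hsm : s ∈ Ioo (-T) T := by
      have : |s| < T := by linarith
      exact abs_lt.1 this
    exact energy_const h (a := -T) (b := T) (c := γ) (W := fun t => V (γ t))
      (fun t _ => hγ t) (fun t _ => h.cons _) hsm
      ⟨by have := abs_nonneg s; linarith, by have := abs_nonneg s; linarith⟩
  set T := |t| + 1 with hT
  have htm : t ∈ Ioo (-T) T := by
    have : |t| < T := by linarith
    exact abs_lt.1 this
  have h0m : (0:ℝ) ∈ Ioo (-T) T :=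
    ⟨by have := abs_nonneg t; linarith, by have := abs_nonneg t; linarith⟩
  refine uniq_Ioo h (a := -T) (b := T) (t₀ := 0) (R := R) h0m ?_ ?_ ?_ htm
  · exact fun s _ => ⟨hγ s, hR _ (hQ s).le⟩
  · refine fun s _ => ⟨flow_hasDerivAt h s _, hR _ ?_⟩
    exact (flow_energy h s (γ 0)).le
  · exact (flow_zero h (γ 0)).symm

lemma flow_add (h : FlowData V Q) (t s : ℝ) (x : E) :
    flow h (t + s, x) = flow h (t, flow h (s, x)) := by
  have hγ : ∀ r, HasDerivAt (fun r => flow h (r + s, x)) (V (flow h (r + s, x))) r := by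
    intro r
    have := (flow_hasDerivAt h (r + s) x).scomp r ((hasDerivAt_id r).add_const s)
    simpa [Function.comp_def] using this
  have := flow_unique h hγ t
  simpa using this

/-! ### Smoothness -/

variable {N : C(I01, E) → C(I01, E)}

/-- The implicit equation. -/
noncomputable def eqn (N : C(I01, E) → C(I01, E)) (u : (ℝ × E) × C(I01, E)) : C(I01, E) :=
  u.2 - constL u.1.2 - u.1.1 • primL (N u.2)

lemma contDiff_eqn (hNs : ContDiff ℝ (⊤ : ℕ∞) N) : ContDiff ℝ (⊤ : ℕ∞) (eqn N) := by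
  unfold eqn
  have h1 : ContDiff ℝ (⊤ : ℕ∞) (fun u : (ℝ × E) × C(I01, E) => u.2) := contDiff_snd
  have h2 : ContDiff ℝ (⊤ : ℕ∞) (fun u : (ℝ × E) × C(I01, E) => constL u.1.2) :=
    (constL : E →L[ℝ] C(I01, E)).contDiff.comp (contDiff_snd.comp contDiff_fst)
  have h3 : ContDiff ℝ (⊤ : ℕ∞) (fun u : (ℝ × E) × C(I01, E) => u.1.1) :=
    contDiff_fst.comp contDiff_fst
  have h4 : ContDiff ℝ (⊤ : ℕ∞) (fun u : (ℝ × E) × C(I01, E) => primL (N u.2)) :=
    primL.contDiff.comp (hNs.comp contDiff_snd)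
  exact (h1.sub h2).sub (h3.smul h4)

lemma ext_N (hN : ∀ γ s, N γ s = V (γ s)) (γ : C(I01, E)) (r : ℝ) :
    ext (N γ) r = V (ext γ r) := hN _ _

/-- Solutions of the implicit equation are given by the flow. -/
lemma sol_eq_flow (h : FlowData V Q) (hN : ∀ γ s, N γ s = V (γ s))
    {τ : ℝ} {x : E} {γ : C(I01, E)} (hsol : eqn N ((τ, x), γ) = 0) :
    γ i1 = flow h (τ, x) := by
  -- the solution as a primitive
  have hcont : Continuous (fun r => V (ext γ r)) :=
    h.smoothV.continuous.comp (continuous_ext γ)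
  let y : ℝ → E := fun s => x + τ • ∫ r in (0:ℝ)..s, V (ext γ r)
  have hy : ∀ s, HasDerivAt y (τ • V (ext γ s)) s := by
    intro s
    have := (hcont.integral_hasStrictDerivAt 0 s).hasDerivAt
    exact (this.const_smul τ).const_add x
  have hyγ : ∀ s (hs : s ∈ Icc (0:ℝ) 1), y s = γ ⟨s, hs⟩ := by
    intro s hs
    have := congrArg (fun η : C(I01, E) => η ⟨s, hs⟩) hsol
    simp only [eqn, ContinuousMap.sub_apply, ContinuousMap.smul_apply, constL_apply,
      primL_apply, ContinuousMap.zero_apply] at this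
    have h2 : (∫ r in (0:ℝ)..s, ext (N γ) r) = ∫ r in (0:ℝ)..s, V (ext γ r) := by
      apply intervalIntegral.integral_congr
      intro r _
      exact ext_N hN γ r
    rw [h2] at this
    simp only [y]
    rw [sub_sub, sub_eq_zero] at this
    exact this.symm
  have hyext : ∀ s ∈ Icc (0:ℝ) 1, ext γ s = y s := fun s hs => by
    rw [ext_of_mem γ hs, hyγ s hs]
  -- the curve from the flow
  let c : ℝ → E := fun s => flow h (s * τ, x)
  have hc : ∀ s, HasDerivAt c (τ • V (c s)) s := by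
    intro s
    have h1 : HasDerivAt (fun s : ℝ => s * τ) τ s := by
      simpa using (hasDerivAt_id s).mul_const τ
    exact (flow_hasDerivAt h (s * τ) x).scomp s h1
  obtain ⟨R₀, hR₀⟩ := h.proper (Q x)
  set R := max R₀ ‖γ‖ with hRdef
  obtain ⟨K, hK⟩ := exists_lipschitz_ball h.smoothV1 (0:E) R
  have hKτ : LipschitzOnWith (‖τ‖₊ * K) (fun y => τ • V y) (closedBall (0:E) R) := by
    have h3 : LipschitzOnWith (‖τ‖₊ * K) ((fun z : E => τ • z) ∘ V) (closedBall (0:E) R) := by
      have h4 : LipschitzWith (‖τ‖₊) (fun z : E => τ • z) :=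
        LipschitzWith.of_dist_le_mul fun a b => by
          rw [dist_smul₀]; rfl
      exact h4.comp_lipschitzOnWith hK
    exact h3
  have heq := ODE_solution_unique_of_mem_Icc_right (v := fun _ y => τ • V y)
    (s := fun _ => closedBall (0:E) R) (K := ‖τ‖₊ * K) (f := y) (g := c) (a := 0) (b := 1)
    (fun _ _ => hKτ)
    (fun s _ => (hy s).continuousAt.continuousWithinAt)
    (fun s hs => by
      have hsI : s ∈ Icc (0:ℝ) 1 := Ico_subset_Icc_self hs
      have := (hy s).hasDerivWithinAt (s := Ici s)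
      rwa [hyext s hsI] at this)
    (fun s hs => by
      have hsI : s ∈ Icc (0:ℝ) 1 := Ico_subset_Icc_self hs
      rw [hyγ s hsI]
      simp only [mem_closedBall_zero_iff]
      exact (γ.norm_coe_le_norm _).trans (le_max_right _ _))
    (fun s _ => (hc s).continuousAt.continuousWithinAt)
    (fun s _ => (hc s).hasDerivWithinAt)
    (fun s _ => by
      simp only [mem_closedBall_zero_iff]
      exact (hR₀ _ (flow_energy h _ x).le).trans (le_max_left _ _))
    (by simp [y, c, flow_zero])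
  have h1 := heq (right_mem_Icc.2 zero_le_one)
  have h2 : y 1 = γ i1 := hyγ 1 (right_mem_Icc.2 zero_le_one)
  rw [← h2, h1]
  simp [c]

/-- The curve `s ↦ Φ (s τ, x)` on the unit interval. -/
noncomputable def curveOf (h : FlowData V Q) (τ : ℝ) (x : E) : C(I01, E) :=
  ⟨fun s => flow h ((s:ℝ) * τ, x), by
    have hc : Continuous (fun s : ℝ => flow h (s * τ, x)) := by
      rw [continuous_iff_continuousAt]
      intro s
      have h1 : HasDerivAt (fun s : ℝ => s * τ) τ s := by
        simpa using (hasDerivAt_id s).mul_const τ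
      exact ((flow_hasDerivAt h (s * τ) x).scomp s h1).continuousAt
    exact hc.comp continuous_subtype_val⟩

lemma curveOf_sol (h : FlowData V Q) (hN : ∀ γ s, N γ s = V (γ s)) (τ : ℝ) (x : E) :
    eqn N ((τ, x), curveOf h τ x) = 0 := by
  ext s
  simp only [eqn, ContinuousMap.sub_apply, ContinuousMap.smul_apply, constL_apply,
      primL_apply, ContinuousMap.zero_apply]
  let c : ℝ → E := fun s => flow h (s * τ, x)
  have hc : ∀ s, HasDerivAt c (τ • V (c s)) s := by
    intro s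
    have h1 : HasDerivAt (fun s : ℝ => s * τ) τ s := by
      simpa using (hasDerivAt_id s).mul_const τ
    exact (flow_hasDerivAt h (s * τ) x).scomp s h1
  have hcc : Continuous c := continuous_iff_continuousAt.2 fun s => (hc s).continuousAt
  have hcont : Continuous (fun r => τ • V (c r)) :=
    continuous_const.smul (h.smoothV.continuous.comp hcc)
  have hint := intervalIntegral.integral_eq_sub_of_hasDerivAt (a := 0) (b := (s:ℝ)) (f := c)
    (f' := fun r => τ • V (c r)) (fun r _ => hc r) (hcont.intervalIntegrable _ _)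
  have h2 : (∫ r in (0:ℝ)..(s:ℝ), ext (N (curveOf h τ x)) r) = ∫ r in (0:ℝ)..(s:ℝ), V (c r) := by
    apply intervalIntegral.integral_congr
    intro r hr
    have hr' : r ∈ Icc (0:ℝ) 1 := by
      rw [uIcc_of_le s.2.1] at hr
      exact ⟨hr.1, hr.2.trans s.2.2⟩
    show ext (N (curveOf h τ x)) r = V (c r)
    rw [ext_N hN, ext_of_mem _ hr']
    rfl
  rw [h2, ← intervalIntegral.integral_smul, hint]
  have hc0 : c 0 = x := by simp [c, flow_zero]
  have hcs : curveOf h τ x s = c s := rfl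
  rw [hc0, hcs]
  abel

/-- Pointwise formula for the derivative of the Nemytskii operator. -/
lemma fderiv_N_apply (h : FlowData V Q) (hN : ∀ γ s, N γ s = V (γ s))
    (hNs : ContDiff ℝ (⊤ : ℕ∞) N) (γ η : C(I01, E)) (s : I01) :
    fderiv ℝ N γ η s = fderiv ℝ V (γ s) (η s) := by
  have hNd : DifferentiableAt ℝ N γ := hNs.differentiable (by simp) γ
  have hVd : DifferentiableAt ℝ V (γ s) := h.smoothV.differentiable (by simp) _
  let ev : C(I01, E) →L[ℝ] E := ContinuousMap.evalCLM ℝ s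
  have h1 : HasFDerivAt (fun g => ev (N g)) (ev ∘L fderiv ℝ N γ) γ :=
    ev.hasFDerivAt.comp γ hNd.hasFDerivAt
  have h2 : HasFDerivAt (fun g => V (ev g)) (fderiv ℝ V (γ s) ∘L ev) γ :=
    hVd.hasFDerivAt.comp γ ev.hasFDerivAt
  have hfun : (fun g => ev (N g)) = fun g => V (ev g) := by
    funext g
    exact hN g s
  rw [hfun] at h1
  have := h1.unique h2
  have h3 := congrArg (fun T : C(I01, E) →L[ℝ] E => T η) this
  exact h3

lemma norm_T_le (D : C(I01, E) →L[ℝ] C(I01, E)) (τ L : ℝ) (hL0 : 0 ≤ L) (hD : ‖D‖ ≤ L) :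
    ‖τ • (primL ∘L D)‖ ≤ |τ| * L := by
  refine ContinuousLinearMap.opNorm_le_bound _ (by positivity) fun η => ?_
  rw [smul_apply, norm_smul, Real.norm_eq_abs, mul_assoc]
  gcongr
  calc ‖primL (D η)‖ ≤ ‖D η‖ := norm_primFun_le _
    _ ≤ ‖D‖ * ‖η‖ := D.le_opNorm η
    _ ≤ L * ‖η‖ := by gcongr

lemma isInvertible_one_sub (T : C(I01, E) →L[ℝ] C(I01, E)) (hT : ‖T‖ < 1) :
    (1 - T : C(I01, E) →L[ℝ] C(I01, E)).IsInvertible :=
  ⟨ContinuousLinearEquiv.unitsEquiv ℝ _ (Units.oneSub T hT), by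
      ext x; simp [Units.oneSub]⟩

/-- Smoothness of the flow for small times. -/
lemma contDiffAt_small (h : FlowData V Q) (hN : ∀ γ s, N γ s = V (γ s))
    (hNs : ContDiff ℝ (⊤ : ℕ∞) N) {τ₀ : ℝ} {x₀ : E} {L : ℝ} (hL0 : 0 ≤ L)
    (hL : ∀ s : ℝ, ‖fderiv ℝ V (flow h (s, x₀))‖ ≤ L) (hsmall : |τ₀| * L < 1) :
    ContDiffAt ℝ (⊤ : ℕ∞) (flow h) (τ₀, x₀) := by
  let γ₀ := curveOf h τ₀ x₀
  let u : (ℝ × E) × C(I01, E) := ((τ₀, x₀), γ₀)
  have hF := contDiff_eqn hNs
  have cdf : ContDiffAt ℝ ((⊤ : ℕ∞) : ℕ∞ω) (eqn N) u := hF.contDiffAt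
  have pn : (((⊤ : ℕ∞) : ℕ∞ω)) ≠ 0 := by simp
  let D := fderiv ℝ N γ₀
  have hD : ‖D‖ ≤ L := by
    refine ContinuousLinearMap.opNorm_le_bound _ hL0 fun η => ?_
    rw [ContinuousMap.norm_le _ (by positivity)]
    intro s
    rw [fderiv_N_apply h hN hNs]
    calc _ ≤ ‖fderiv ℝ V (γ₀ s)‖ * ‖η s‖ := ContinuousLinearMap.le_opNorm _ _
      _ ≤ L * ‖η‖ := by
        gcongr
        · exact hL _
        · exact η.norm_coe_le_norm s
  let T : C(I01, E) →L[ℝ] C(I01, E) := τ₀ • (primL ∘L D)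
  have hT : ‖T‖ < 1 := (norm_T_le D τ₀ L hL0 hD).trans_lt hsmall
  have hg : HasFDerivAt (fun g => eqn N ((τ₀, x₀), g)) (1 - T) γ₀ := by
    have hNd : HasFDerivAt N D γ₀ := (hNs.differentiable (by simp) γ₀).hasFDerivAt
    have h1 : HasFDerivAt (fun g : C(I01, E) => primL (N g)) (primL ∘L D) γ₀ :=
      (primL : C(I01, E) →L[ℝ] C(I01, E)).hasFDerivAt.comp γ₀ hNd
    have h2 := ((hasFDerivAt_id (𝕜 := ℝ) γ₀).sub_const (constL x₀)).sub (h1.const_smul τ₀)
    exact h2
  have hg' : HasFDerivAt (fun g => eqn N ((τ₀, x₀), g))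
      (fderiv ℝ (eqn N) u ∘L ContinuousLinearMap.inr ℝ (ℝ × E) (C(I01, E))) γ₀ := by
    have h1 : HasFDerivAt (eqn N) (fderiv ℝ (eqn N) u) u :=
      (hF.differentiable (by simp) u).hasFDerivAt
    exact h1.comp γ₀ (hasFDerivAt_prodMk_right (τ₀, x₀) γ₀)
  have hinv : (fderiv ℝ (eqn N) u ∘L ContinuousLinearMap.inr ℝ (ℝ × E) (C(I01, E))).IsInvertible := by
    rw [hg'.unique hg]
    exact isInvertible_one_sub T hT
  have hψ0 := cdf.implicitFunction_apply_self pn hinv
  have hψ1 := cdf.eventually_apply_implicitFunction pn hinv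
  have hψ2 := cdf.contDiffAt_implicitFunction pn hinv
  set ψ := cdf.implicitFunction pn hinv with hψ
  have hu : eqn N u = 0 := curveOf_sol h hN τ₀ x₀
  rw [hu] at hψ1
  let ev : C(I01, E) →L[ℝ] E := ContinuousMap.evalCLM ℝ i1
  have hc : ContDiffAt ℝ (⊤ : ℕ∞) (fun p => ev (ψ p)) (τ₀, x₀) :=
    ev.contDiff.contDiffAt.comp (τ₀, x₀) hψ2
  refine hc.congr_of_eventuallyEq ?_
  filter_upwards [hψ1] with p hp
  have := sol_eq_flow h hN (τ := p.1) (x := p.2) (γ := ψ p) hp
  exact this.symm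

/-- The flow is jointly smooth. -/
theorem contDiff_flow (h : FlowData V Q) (hN : ∀ γ s, N γ s = V (γ s))
    (hNs : ContDiff ℝ (⊤ : ℕ∞) N) : ContDiff ℝ (⊤ : ℕ∞) (flow h) := by
  rw [contDiff_iff_contDiffAt]
  rintro ⟨t₀, x₀⟩
  -- bound on the derivative on the energy level
  obtain ⟨R, hR⟩ := h.proper (Q x₀)
  have hcontD : Continuous (fun y => fderiv ℝ V y) :=
    h.smoothV.continuous_fderiv (by simp)
  obtain ⟨C, hC⟩ := (isCompact_closedBall (0:E) R).exists_bound_of_continuousOn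
    hcontD.continuousOn
  set L := max C 0 with hLdef
  have hL0 : 0 ≤ L := le_max_right _ _
  have hLb : ∀ y, Q y = Q x₀ → ‖fderiv ℝ V y‖ ≤ L := fun y hy =>
    (hC y (by simpa using hR y hy.le)).trans (le_max_left _ _)
  -- number of steps
  obtain ⟨n, hn⟩ := exists_nat_gt (|t₀| * L)
  have hn0 : (0:ℝ) ≤ |t₀| * L := by positivity
  have hnpos : (0:ℝ) < n := lt_of_le_of_lt hn0 hn
  -- small steps are smooth on the energy level
  have hstep : ∀ y, Q y = Q x₀ → ContDiffAt ℝ (⊤ : ℕ∞) (flow h) (t₀ / n, y) := by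
    intro y hy
    refine contDiffAt_small h hN hNs hL0 (fun s => hLb _ ((flow_energy h s y).trans hy)) ?_
    rw [abs_div, abs_of_pos hnpos, div_mul_eq_mul_div, div_lt_one hnpos]
    exact hn
  -- induction on the number of steps
  have hind : ∀ k : ℕ, ContDiffAt ℝ (⊤ : ℕ∞) (fun p : ℝ × E => flow h ((k:ℝ) * (p.1 / n), p.2))
      (t₀, x₀) := by
    intro k
    induction k with
    | zero =>
      have : (fun p : ℝ × E => flow h (((0:ℕ):ℝ) * (p.1 / n), p.2)) = fun p => p.2 := by
        funext p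
        simp [flow_zero]
      rw [this]
      exact contDiffAt_snd
    | succ k ih =>
      have hfun : (fun p : ℝ × E => flow h (((k + 1 : ℕ):ℝ) * (p.1 / n), p.2)) =
          fun p => flow h (p.1 / n, flow h ((k:ℝ) * (p.1 / n), p.2)) := by
        funext p
        rw [← flow_add]
        congr 2
        push_cast
        ring
      rw [hfun]
      have hin : ContDiffAt ℝ (⊤ : ℕ∞)
          (fun p : ℝ × E => (p.1 / n, flow h ((k:ℝ) * (p.1 / n), p.2))) (t₀, x₀) := by
        refine ContDiffAt.prodMk ?_ ih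
        exact (contDiffAt_fst).div_const _
      exact ContDiffAt.comp (t₀, x₀)
        (hstep _ (flow_energy h _ x₀)) hin
  have hfin := hind n
  have hfun : (fun p : ℝ × E => flow h ((n:ℝ) * (p.1 / n), p.2)) = flow h := by
    funext p
    congr 2
    field_simp
  rwa [hfun] at hfin

end Flow

/-- Summary: existence, smoothness and uniqueness of the flow. -/
theorem exists_smooth_flow {V : E → E} {Q : E → ℝ} {N : C(I01, E) → C(I01, E)}
    (hN : ∀ γ s, N γ s = V (γ s)) (hNs : ContDiff ℝ (⊤ : ℕ∞) N)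
    (hQ : ContDiff ℝ 1 Q) (hcons : ∀ x, fderiv ℝ Q x (V x) = 0)
    (hproper : ∀ ρ, ∃ R, ∀ x, Q x ≤ ρ → ‖x‖ ≤ R) :
    ∃ Φ : ℝ × E → E, ContDiff ℝ (⊤ : ℕ∞) Φ ∧ (∀ x, Φ (0, x) = x) ∧
      (∀ t x, HasDerivAt (fun s => Φ (s, x)) (V (Φ (t, x))) t) ∧
      (∀ γ : ℝ → E, (∀ t, HasDerivAt γ (V (γ t)) t) → ∀ t, γ t = Φ (t, γ 0)) ∧
      (∀ t s x, Φ (t + s, x) = Φ (t, Φ (s, x))) ∧
      (∀ t x, Q (Φ (t, x)) = Q x) := by
  have hV : ContDiff ℝ (⊤ : ℕ∞) V := by
    have h1 : V = fun x => (ContinuousMap.evalCLM ℝ i0 : C(I01, E) →L[ℝ] E) (N (constL x)) := by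
      funext x
      show V x = N (constL x) i0
      rw [hN]
      rfl
    rw [h1]
    exact (ContinuousLinearMap.contDiff _).comp
      (hNs.comp (constL : E →L[ℝ] C(I01, E)).contDiff)
  have h : FlowData V Q := ⟨hV, hQ, hcons, hproper⟩
  exact ⟨flow h, contDiff_flow h hN hNs, flow_zero h, flow_hasDerivAt h, fun γ hγ => flow_unique h hγ, flow_add h,
    flow_energy h⟩

end Crest.Agent.Lib.SmoothFlow
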