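import Mathlib
import Crest.Prelude.Def_QuadricHamiltonian
import Crest.Agent.Lib.SmoothFlow

/-!
# The vector field on the quadric threefold

`z ∈ ℂ⁵`, moment coordinates `p_ab = 2 Im (z_a conj z_b)`, Hamiltonian
`h = ε (p₀₁² + p₀₂² + p₀₃² - p₂₃² - p₁₃² - p₁₂² - p₀₁ - p₂₃ - p₀₃ + p₁₂)`, i.e.
`h = ε (⟨x, y⟩ - x₁ - y₃)` with `x = (p₀₁ + p₂₃, p₀₂ - p₁₃, p₀₃ + p₁₂)`,
`y = (p₀₁ - p₂₃, p₀₂ + p₁₃, p₀₃ - p₁₂)`. The vector field is `V z = 𝒜(z) z` with `𝒜(z)` a real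
antisymmetric matrix.
-/

set_option autoImplicit false
set_option linter.unusedSectionVars false

open Set Filter Metric
open scoped Topology ContDiff NNReal ComplexConjugate

namespace Crest.Agent.Lib.QuadricFlow

open Crest.Agent.Lib.SmoothFlow
open Crest.GeometryTopology.Quadric (herm unitCone coneTangent)

/-- Complex 5-space. -/
abbrev C5 : Type := Fin 5 → ℂ

/-- The small parameter. -/
noncomputable def eps : ℝ := 1 / 100

/-- Moment coordinates. -/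
noncomputable def pp (a b : Fin 5) (z : C5) : ℝ := 2 * (z a * conj (z b)).im

lemma pp_eq (a b : Fin 5) (z : C5) :
    pp a b z = 2 * ((z a).im * (z b).re - (z a).re * (z b).im) := by
  simp [pp, Complex.mul_im]; ring

/-- Coefficients of a real antisymmetric matrix supported on the first four coordinates. -/
structure Co where
  a01 : ℝ
  a02 : ℝ
  a03 : ℝ
  a12 : ℝ
  a13 : ℝ
  a23 : ℝ

/-- The action of the antisymmetric matrix. -/
def act (A : Co) (z : C5) : C5 :=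
  ![(A.a01 : ℂ) * z 1 + A.a02 * z 2 + A.a03 * z 3,
    -(A.a01 : ℂ) * z 0 + A.a12 * z 2 + A.a13 * z 3,
    -(A.a02 : ℂ) * z 0 - A.a12 * z 1 + A.a23 * z 3,
    -(A.a03 : ℂ) * z 0 - A.a13 * z 1 - A.a23 * z 2,
    0]

@[simp] lemma act_0 (A : Co) (z : C5) : act A z 0 = (A.a01 : ℂ) * z 1 + A.a02 * z 2 + A.a03 * z 3 :=
  rfl
@[simp] lemma act_1 (A : Co) (z : C5) : act A z 1 = -(A.a01 : ℂ) * z 0 + A.a12 * z 2 + A.a13 * z 3 :=
  rfl
@[simp] lemma act_2 (A : Co) (z : C5) : act A z 2 = -(A.a02 : ℂ) * z 0 - A.a12 * z 1 + A.a23 * z 3 :=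
  rfl
@[simp] lemma act_3 (A : Co) (z : C5) : act A z 3 = -(A.a03 : ℂ) * z 0 - A.a13 * z 1 - A.a23 * z 2 :=
  rfl
@[simp] lemma act_4 (A : Co) (z : C5) : act A z 4 = 0 := rfl

/-- The coefficient matrix of the vector field. -/
noncomputable def coef (z : C5) : Co where
  a01 := eps * (2 * pp 0 1 z - 1)
  a02 := eps * (2 * pp 0 2 z)
  a03 := eps * (2 * pp 0 3 z - 1)
  a12 := eps * (1 - 2 * pp 1 2 z)
  a13 := eps * (-2 * pp 1 3 z)
  a23 := eps * (-2 * pp 2 3 z - 1)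

/-- The vector field. -/
noncomputable def V (z : C5) : C5 := act (coef z) z

/-- The Hamiltonian. -/
noncomputable def hh (z : C5) : ℝ :=
  eps * (pp 0 1 z ^ 2 + pp 0 2 z ^ 2 + pp 0 3 z ^ 2 - pp 2 3 z ^ 2 - pp 1 3 z ^ 2 - pp 1 2 z ^ 2
    - pp 0 1 z - pp 2 3 z - pp 0 3 z + pp 1 2 z)

/-- The conserved quantity `∑ |z_j|²`. -/
noncomputable def QQ (z : C5) : ℝ := ∑ j, ((z j).re ^ 2 + (z j).im ^ 2)

/-! ### The Nemytskii operator -/

section Alg

variable {𝔸 : Type*} [CommRing 𝔸] [StarRing 𝔸] [Algebra ℂ 𝔸]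

/-- Moment coordinates in a star algebra. -/
noncomputable def pg (a b : Fin 5) (f : Fin 5 → 𝔸) : 𝔸 :=
  (-Complex.I) • (f a * star (f b) - star (f a) * f b)

/-- Coefficients in a star algebra. -/
noncomputable def cg01 (f : Fin 5 → 𝔸) : 𝔸 := (eps : ℂ) • (2 * pg 0 1 f - 1)
noncomputable def cg02 (f : Fin 5 → 𝔸) : 𝔸 := (eps : ℂ) • (2 * pg 0 2 f)
noncomputable def cg03 (f : Fin 5 → 𝔸) : 𝔸 := (eps : ℂ) • (2 * pg 0 3 f - 1)
noncomputable def cg12 (f : Fin 5 → 𝔸) : 𝔸 := (eps : ℂ) • (1 - 2 * pg 1 2 f)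
noncomputable def cg13 (f : Fin 5 → 𝔸) : 𝔸 := (eps : ℂ) • (-2 * pg 1 3 f)
noncomputable def cg23 (f : Fin 5 → 𝔸) : 𝔸 := (eps : ℂ) • (-2 * pg 2 3 f - 1)

/-- The vector field in a star algebra. -/
noncomputable def Vg (f : Fin 5 → 𝔸) : Fin 5 → 𝔸 :=
  ![cg01 f * f 1 + cg02 f * f 2 + cg03 f * f 3,
    -cg01 f * f 0 + cg12 f * f 2 + cg13 f * f 3,
    -cg02 f * f 0 - cg12 f * f 1 + cg23 f * f 3,
    -cg03 f * f 0 - cg13 f * f 1 - cg23 f * f 2,
    0]

end Alg

lemma pg_complex (a b : Fin 5) (z : C5) : pg a b z = (pp a b z : ℂ) := by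
  apply Complex.ext
  · simp [pg, pp_eq, Complex.mul_re, Complex.mul_im]
    ring
  · simp [pg, pp_eq, Complex.mul_re, Complex.mul_im]

/-- Coordinates of a curve. -/
noncomputable def coordL (j : Fin 5) : C(I01, C5) →L[ℝ] C(I01, ℂ) :=
  LinearMap.mkContinuous
    { toFun := fun γ => ⟨fun s => γ s j, (continuous_apply j).comp γ.continuous⟩
      map_add' := fun _ _ => rfl
      map_smul' := fun _ _ => rfl }
    1 (fun γ => by
      rw [one_mul]
      refine (ContinuousMap.norm_le _ (norm_nonneg _)).2 fun s => ?_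
      exact (norm_le_pi_norm (γ s) j).trans (γ.norm_coe_le_norm s))

/-- Assembling a curve from its coordinates. -/
noncomputable def asmL : (Fin 5 → C(I01, ℂ)) →L[ℝ] C(I01, C5) :=
  LinearMap.mkContinuous
    { toFun := fun f => ⟨fun s j => f j s, continuous_pi fun j => (f j).continuous⟩
      map_add' := fun _ _ => rfl
      map_smul' := fun _ _ => rfl }
    1 (fun f => by
      rw [one_mul]
      refine (ContinuousMap.norm_le _ (norm_nonneg _)).2 fun s => ?_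
      refine (pi_norm_le_iff_of_nonneg (norm_nonneg _)).2 fun j => ?_
      exact ((f j).norm_coe_le_norm s).trans (norm_le_pi_norm f j))

/-- The Nemytskii operator. -/
noncomputable def NN (γ : C(I01, C5)) : C(I01, C5) := asmL (Vg (fun j => coordL j γ))

lemma Vg_eval (f : Fin 5 → C(I01, ℂ)) (s : I01) (k : Fin 5) :
    Vg f k s = V (fun j => f j s) k := by
  have hp : ∀ a b, (pg a b f) s = (pp a b (fun j => f j s) : ℂ) := by
    intro a b
    rw [← pg_complex]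
    simp [pg]
  have h2 : (2 : C(I01, ℂ)) s = 2 := rfl
  fin_cases k <;>
  simp [Vg, V, act, coef, cg01, cg02, cg03, cg12, cg13, cg23, hp, h2] <;>
  ring

lemma NN_apply (γ : C(I01, C5)) (s : I01) : NN γ s = V (γ s) := by
  funext k
  exact Vg_eval _ s k

lemma contDiff_star_C : ContDiff ℝ (⊤ : ℕ∞) (fun f : C(I01, ℂ) => star f) :=
  (starL' ℝ : C(I01, ℂ) ≃L[ℝ] C(I01, ℂ)).contDiff

lemma contDiff_pg (a b : Fin 5) :
    ContDiff ℝ (⊤ : ℕ∞) (fun f : Fin 5 → C(I01, ℂ) => pg a b f) := by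
  unfold pg
  have ha : ∀ c : Fin 5, ContDiff ℝ (⊤ : ℕ∞) (fun f : Fin 5 → C(I01, ℂ) => f c) :=
    fun c => contDiff_apply ℝ C(I01, ℂ) c
  have hs : ∀ c : Fin 5, ContDiff ℝ (⊤ : ℕ∞) (fun f : Fin 5 → C(I01, ℂ) => star (f c)) :=
    fun c => contDiff_star_C.comp (ha c)
  exact (((ha a).mul (hs b)).sub ((hs a).mul (ha b))).const_smul _

lemma contDiff_Vg : ContDiff ℝ (⊤ : ℕ∞) (fun f : Fin 5 → C(I01, ℂ) => Vg f) := by
  have ha : ∀ c : Fin 5, ContDiff ℝ (⊤ : ℕ∞) (fun f : Fin 5 → C(I01, ℂ) => f c) :=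
    fun c => contDiff_apply ℝ C(I01, ℂ) c
  have hc : ContDiff ℝ (⊤ : ℕ∞) (fun _ : Fin 5 → C(I01, ℂ) => (1 : C(I01, ℂ))) := contDiff_const
  have h2 : ∀ a b : Fin 5, ContDiff ℝ (⊤ : ℕ∞) (fun f : Fin 5 → C(I01, ℂ) => 2 * pg a b f) :=
    fun a b => contDiff_const.mul (contDiff_pg a b)
  have h2' : ∀ a b : Fin 5, ContDiff ℝ (⊤ : ℕ∞) (fun f : Fin 5 → C(I01, ℂ) => -2 * pg a b f) :=
    fun a b => contDiff_const.mul (contDiff_pg a b)
  have c01 : ContDiff ℝ (⊤ : ℕ∞) (fun f : Fin 5 → C(I01, ℂ) => cg01 f) :=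
    ((h2 0 1).sub hc).const_smul _
  have c02 : ContDiff ℝ (⊤ : ℕ∞) (fun f : Fin 5 → C(I01, ℂ) => cg02 f) :=
    (h2 0 2).const_smul _
  have c03 : ContDiff ℝ (⊤ : ℕ∞) (fun f : Fin 5 → C(I01, ℂ) => cg03 f) :=
    ((h2 0 3).sub hc).const_smul _
  have c12 : ContDiff ℝ (⊤ : ℕ∞) (fun f : Fin 5 → C(I01, ℂ) => cg12 f) :=
    (hc.sub (h2 1 2)).const_smul _
  have c13 : ContDiff ℝ (⊤ : ℕ∞) (fun f : Fin 5 → C(I01, ℂ) => cg13 f) :=
    (h2' 1 3).const_smul _
  have c23 : ContDiff ℝ (⊤ : ℕ∞) (fun f : Fin 5 → C(I01, ℂ) => cg23 f) :=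
    ((h2' 2 3).sub hc).const_smul _
  rw [contDiff_pi]
  intro k
  fin_cases k
  · exact ((c01.mul (ha 1)).add (c02.mul (ha 2))).add (c03.mul (ha 3))
  · exact ((c01.neg.mul (ha 0)).add (c12.mul (ha 2))).add (c13.mul (ha 3))
  · exact ((c02.neg.mul (ha 0)).sub (c12.mul (ha 1))).add (c23.mul (ha 3))
  · exact ((c03.neg.mul (ha 0)).sub (c13.mul (ha 1))).sub (c23.mul (ha 2))
  · exact contDiff_const

lemma contDiff_NN : ContDiff ℝ (⊤ : ℕ∞) NN := by
  have h1 : ContDiff ℝ (⊤ : ℕ∞) (fun γ : C(I01, C5) => fun j => coordL j γ) :=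
    contDiff_pi.2 fun j => (coordL j).contDiff
  exact (asmL : (Fin 5 → C(I01, ℂ)) →L[ℝ] C(I01, C5)).contDiff.comp (contDiff_Vg.comp h1)

/-! ### Derivatives along curves -/

/-- Derivative of the moment coordinates. -/
noncomputable def dp (a b : Fin 5) (z w : C5) : ℝ :=
  2 * ((w a).im * (z b).re + (z a).im * (w b).re - (w a).re * (z b).im - (z a).re * (w b).im)

lemma hasDerivAt_re {γ : ℝ → C5} {γ' : C5} {t : ℝ} (h : HasDerivAt γ γ' t) (j : Fin 5) :
    HasDerivAt (fun s => (γ s j).re) (γ' j).re t :=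
  Complex.reCLM.hasFDerivAt.comp_hasDerivAt t (hasDerivAt_pi.1 h j)

lemma hasDerivAt_im {γ : ℝ → C5} {γ' : C5} {t : ℝ} (h : HasDerivAt γ γ' t) (j : Fin 5) :
    HasDerivAt (fun s => (γ s j).im) (γ' j).im t :=
  Complex.imCLM.hasFDerivAt.comp_hasDerivAt t (hasDerivAt_pi.1 h j)

lemma hasDerivAt_pp {γ : ℝ → C5} {γ' : C5} {t : ℝ} (h : HasDerivAt γ γ' t) (a b : Fin 5) :
    HasDerivAt (fun s => pp a b (γ s)) (dp a b (γ t) γ') t := by
  have hfun : (fun s => pp a b (γ s)) =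
      fun s => 2 * ((γ s a).im * (γ s b).re - (γ s a).re * (γ s b).im) := by
    funext s; exact pp_eq a b (γ s)
  rw [hfun]
  have := (((hasDerivAt_im h a).fun_mul (hasDerivAt_re h b)).fun_sub
    ((hasDerivAt_re h a).fun_mul (hasDerivAt_im h b))).const_mul (2:ℝ)
  refine this.congr_deriv ?_
  simp only [dp]
  ring

lemma hasDerivAt_QQ {γ : ℝ → C5} {γ' : C5} {t : ℝ} (h : HasDerivAt γ γ' t) :
    HasDerivAt (fun s => QQ (γ s))
      (∑ j, (2 * (γ t j).re * (γ' j).re + 2 * (γ t j).im * (γ' j).im)) t := by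
  unfold QQ
  have := HasDerivAt.fun_sum (u := Finset.univ) (fun j _ =>
    ((hasDerivAt_re h j).fun_pow 2).fun_add ((hasDerivAt_im h j).fun_pow 2))
  refine this.congr_deriv ?_
  apply Finset.sum_congr rfl
  intro j _
  simp

lemma line_curve (x w : C5) : HasDerivAt (fun s : ℝ => x + s • w) w 0 := by
  simpa using ((hasDerivAt_id (0:ℝ)).smul_const w).const_add x

lemma contDiff_re (j : Fin 5) : ContDiff ℝ (⊤ : ℕ∞) (fun z : C5 => (z j).re) :=
  Complex.reCLM.contDiff.comp (contDiff_apply ℝ ℂ j)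

lemma contDiff_im (j : Fin 5) : ContDiff ℝ (⊤ : ℕ∞) (fun z : C5 => (z j).im) :=
  Complex.imCLM.contDiff.comp (contDiff_apply ℝ ℂ j)

lemma contDiff_pp (a b : Fin 5) : ContDiff ℝ (⊤ : ℕ∞) (pp a b) := by
  have : pp a b = fun z => 2 * ((z a).im * (z b).re - (z a).re * (z b).im) := by
    funext z; exact pp_eq a b z
  rw [this]
  exact contDiff_const.mul
    (((contDiff_im a).mul (contDiff_re b)).sub ((contDiff_re a).mul (contDiff_im b)))

lemma contDiff_QQ : ContDiff ℝ (⊤ : ℕ∞) QQ := by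
  unfold QQ
  exact ContDiff.sum fun j _ => ((contDiff_re j).pow 2).add ((contDiff_im j).pow 2)

lemma contDiff_V : ContDiff ℝ (⊤ : ℕ∞) V := by
  have hof : ∀ {f : C5 → ℝ}, ContDiff ℝ (⊤ : ℕ∞) f → ContDiff ℝ (⊤ : ℕ∞) (fun z => (f z : ℂ)) :=
    fun hf => Complex.ofRealCLM.contDiff.comp hf
  have ha : ∀ c : Fin 5, ContDiff ℝ (⊤ : ℕ∞) (fun f : C5 => f c) :=
    fun c => contDiff_apply ℝ ℂ c
  have c01 : ContDiff ℝ (⊤ : ℕ∞) (fun z => ((coef z).a01 : ℂ)) :=
    hof (contDiff_const.mul ((contDiff_const.mul (contDiff_pp 0 1)).sub contDiff_const))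
  have c02 : ContDiff ℝ (⊤ : ℕ∞) (fun z => ((coef z).a02 : ℂ)) :=
    hof (contDiff_const.mul (contDiff_const.mul (contDiff_pp 0 2)))
  have c03 : ContDiff ℝ (⊤ : ℕ∞) (fun z => ((coef z).a03 : ℂ)) :=
    hof (contDiff_const.mul ((contDiff_const.mul (contDiff_pp 0 3)).sub contDiff_const))
  have c12 : ContDiff ℝ (⊤ : ℕ∞) (fun z => ((coef z).a12 : ℂ)) :=
    hof (contDiff_const.mul (contDiff_const.sub (contDiff_const.mul (contDiff_pp 1 2))))
  have c13 : ContDiff ℝ (⊤ : ℕ∞) (fun z => ((coef z).a13 : ℂ)) :=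
    hof (contDiff_const.mul (contDiff_const.mul (contDiff_pp 1 3)))
  have c23 : ContDiff ℝ (⊤ : ℕ∞) (fun z => ((coef z).a23 : ℂ)) :=
    hof (contDiff_const.mul ((contDiff_const.mul (contDiff_pp 2 3)).sub contDiff_const))
  rw [contDiff_pi]
  intro k
  fin_cases k
  · exact ((c01.mul (ha 1)).add (c02.mul (ha 2))).add (c03.mul (ha 3))
  · exact ((c01.neg.mul (ha 0)).add (c12.mul (ha 2))).add (c13.mul (ha 3))
  · exact ((c02.neg.mul (ha 0)).sub (c12.mul (ha 1))).add (c23.mul (ha 3))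
  · exact ((c03.neg.mul (ha 0)).sub (c13.mul (ha 1))).sub (c23.mul (ha 2))
  · exact contDiff_const

/-- Value of an fderiv computed through a line. -/
lemma fderiv_eq_of_line {F : Type*} [NormedAddCommGroup F] [NormedSpace ℝ F] {f : C5 → F} {x w : C5}
    {d : F} (hf : DifferentiableAt ℝ f x) (h : HasDerivAt (fun s : ℝ => f (x + s • w)) d 0) :
    fderiv ℝ f x w = d := by
  have hx : DifferentiableAt ℝ f (x + (0:ℝ) • w) := by simpa using hf
  have h1 := hx.hasFDerivAt.comp_hasDerivAt (0:ℝ) (line_curve x w)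
  have h2 : fderiv ℝ f x w = fderiv ℝ f (x + (0:ℝ) • w) w := by simp
  rw [h2]
  exact h1.unique h

lemma act_skew_QQ (A : Co) (z : C5) :
    ∑ j, (2 * (z j).re * (act A z j).re + 2 * (z j).im * (act A z j).im) = 0 := by
  simp [Fin.sum_univ_five, Complex.mul_re, Complex.mul_im]
  ring

lemma act_skew_q (A : Co) (z : C5) : ∑ j, z j * act A z j = 0 := by
  simp [Fin.sum_univ_five]
  ring

lemma QQ_cons (x : C5) : fderiv ℝ QQ x (V x) = 0 := by
  have h := hasDerivAt_QQ (line_curve x (V x))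
  simp only [zero_smul, add_zero] at h
  rw [fderiv_eq_of_line (contDiff_QQ.differentiable (by simp) x) h]
  exact act_skew_QQ _ _

lemma QQ_proper (ρ : ℝ) : ∃ R, ∀ x, QQ x ≤ ρ → ‖x‖ ≤ R := by
  refine ⟨Real.sqrt ρ, fun x hx => ?_⟩
  refine (pi_norm_le_iff_of_nonneg (Real.sqrt_nonneg _)).2 fun j => ?_
  apply Real.le_sqrt_of_sq_le
  have h1 : ‖x j‖ ^ 2 = (x j).re ^ 2 + (x j).im ^ 2 := by
    rw [Complex.sq_norm, Complex.normSq_apply]; ring
  rw [h1]
  refine le_trans ?_ hx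
  exact Finset.single_le_sum (f := fun j => (x j).re ^ 2 + (x j).im ^ 2)
    (fun i _ => by positivity) (Finset.mem_univ j)

/-- The flow of `V` exists and is smooth. -/
theorem exists_flow : ∃ Φ : ℝ × C5 → C5, ContDiff ℝ (⊤ : ℕ∞) Φ ∧ (∀ x, Φ (0, x) = x) ∧
      (∀ t x, HasDerivAt (fun s => Φ (s, x)) (V (Φ (t, x))) t) ∧
      (∀ γ : ℝ → C5, (∀ t, HasDerivAt γ (V (γ t)) t) → ∀ t, γ t = Φ (t, γ 0)) ∧
      (∀ t s x, Φ (t + s, x) = Φ (t, Φ (s, x))) ∧
      (∀ t x, QQ (Φ (t, x)) = QQ x) :=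
  exists_smooth_flow NN_apply contDiff_NN (contDiff_QQ.of_le (by exact_mod_cast le_top))
    QQ_cons QQ_proper

/-- The flow of `V`. -/
noncomputable def Phi : ℝ × C5 → C5 := Classical.choose exists_flow

lemma Phi_smooth : ContDiff ℝ (⊤ : ℕ∞) Phi := (Classical.choose_spec exists_flow).1
lemma Phi_zero (x : C5) : Phi (0, x) = x := (Classical.choose_spec exists_flow).2.1 x
lemma Phi_deriv (t : ℝ) (x : C5) : HasDerivAt (fun s => Phi (s, x)) (V (Phi (t, x))) t :=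
  (Classical.choose_spec exists_flow).2.2.1 t x
lemma Phi_unique {γ : ℝ → C5} (h : ∀ t, HasDerivAt γ (V (γ t)) t) (t : ℝ) : γ t = Phi (t, γ 0) :=
  (Classical.choose_spec exists_flow).2.2.2.1 γ h t
lemma Phi_add (t s : ℝ) (x : C5) : Phi (t + s, x) = Phi (t, Phi (s, x)) :=
  (Classical.choose_spec exists_flow).2.2.2.2.1 t s x
lemma Phi_QQ (t : ℝ) (x : C5) : QQ (Phi (t, x)) = QQ x :=
  (Classical.choose_spec exists_flow).2.2.2.2.2 t x

/-! ### Equivariance and conservation -/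

lemma norm_one_re_im {c : ℂ} (hc : ‖c‖ = 1) : c.re ^ 2 + c.im ^ 2 = 1 := by
  have : ‖c‖ ^ 2 = c.re ^ 2 + c.im ^ 2 := by
    rw [Complex.sq_norm, Complex.normSq_apply]; ring
  rw [← this, hc]; norm_num

lemma pp_smul {c : ℂ} (hc : ‖c‖ = 1) (a b : Fin 5) (z : C5) : pp a b (c • z) = pp a b z := by
  have h := norm_one_re_im hc
  simp only [pp_eq, Pi.smul_apply, smul_eq_mul, Complex.mul_re, Complex.mul_im]
  linear_combination (2 * ((z a).im * (z b).re - (z a).re * (z b).im)) * h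

lemma coef_smul {c : ℂ} (hc : ‖c‖ = 1) (z : C5) : coef (c • z) = coef z := by
  simp [coef, pp_smul hc]

lemma act_smul (A : Co) (c : ℂ) (z : C5) : act A (c • z) = c • act A z := by
  funext k
  fin_cases k <;> simp [act] <;> ring

lemma V_smul {c : ℂ} (hc : ‖c‖ = 1) (z : C5) : V (c • z) = c • V z := by
  simp only [V, coef_smul hc, act_smul]

lemma Phi_smul {c : ℂ} (hc : ‖c‖ = 1) (t : ℝ) (z : C5) : Phi (t, c • z) = c • Phi (t, z) := by
  have h : ∀ s, HasDerivAt (fun s => c • Phi (s, z)) (V (c • Phi (s, z))) s := by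
    intro s
    rw [V_smul hc]
    exact (Phi_deriv s z).const_smul c
  have := Phi_unique h t
  simp only [Phi_zero] at this
  exact this.symm

lemma Phi_four (t : ℝ) (z : C5) : Phi (t, z) 4 = z 4 := by
  have h : ∀ s, HasDerivAt (fun s => Phi (s, z) 4) 0 s := by
    intro s
    have := hasDerivAt_pi.1 (Phi_deriv s z) 4
    simpa [V] using this
  have h0 : (fun s => Phi (s, z) 4) = fun _ => z 4 := by
    funext s
    have := is_const_of_deriv_eq_zero (f := fun s => Phi (s, z) 4)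
      (fun s => (h s).differentiableAt) (fun s => (h s).deriv) s 0
    simpa [Phi_zero] using this
  exact congrFun h0 t

/-- The quadratic form. -/
noncomputable def qq (z : C5) : ℂ := ∑ j, z j ^ 2

lemma Phi_qq (t : ℝ) (z : C5) : qq (Phi (t, z)) = qq z := by
  have h : ∀ s, HasDerivAt (fun s => qq (Phi (s, z))) 0 s := by
    intro s
    have hc : ∀ j, HasDerivAt (fun s => Phi (s, z) j ^ 2)
        (2 * Phi (s, z) j * V (Phi (s, z)) j) s := by
      intro j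
      have := (hasDerivAt_pi.1 (Phi_deriv s z) j).fun_pow 2
      refine this.congr_deriv ?_
      simp
    have := HasDerivAt.fun_sum (u := Finset.univ) (fun j _ => hc j)
    refine this.congr_deriv ?_
    have h2 := act_skew_q (coef (Phi (s, z))) (Phi (s, z))
    calc ∑ j, 2 * Phi (s, z) j * V (Phi (s, z)) j
        = 2 * ∑ j, Phi (s, z) j * act (coef (Phi (s, z))) (Phi (s, z)) j := by
          rw [Finset.mul_sum]
          apply Finset.sum_congr rfl
          intro j _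
          simp only [V]; ring
      _ = 0 := by rw [h2]; simp
  have := is_const_of_deriv_eq_zero (f := fun s => qq (Phi (s, z)))
      (fun s => (h s).differentiableAt) (fun s => (h s).deriv) t 0
  simpa [Phi_zero] using this

lemma herm_self (z : C5) : herm z z = (QQ z : ℂ) := by
  simp only [herm, QQ]
  push_cast
  apply Finset.sum_congr rfl
  intro j _
  apply Complex.ext <;> simp [Complex.mul_re, Complex.mul_im, sq]
  ring

lemma mem_cone_iff (z : C5) : z ∈ unitCone ↔ QQ z = 1 ∧ qq z = 0 := by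
  simp only [unitCone, Set.mem_ofPred_eq, herm_self, qq]
  constructor
  · rintro ⟨h1, h2⟩
    exact ⟨by exact_mod_cast h1, h2⟩
  · rintro ⟨h1, h2⟩
    exact ⟨by rw [h1]; simp, h2⟩

lemma Phi_mem_cone {z : C5} (hz : z ∈ unitCone) (t : ℝ) : Phi (t, z) ∈ unitCone := by
  rw [mem_cone_iff] at hz ⊢
  exact ⟨(Phi_QQ t z).trans hz.1, (Phi_qq t z).trans hz.2⟩

end Crest.Agent.Lib.QuadricFlow
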