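import Mathlib
import Crest.Agent.Lib.QuadricFlow

/-!
# Fixed point analysis for the flow on the quadric threefold
-/

set_option autoImplicit false
set_option linter.unusedSectionVars false

open Set Filter Metric
open scoped Topology ContDiff NNReal ComplexConjugate

namespace Crest.Agent.Lib.QuadricFix

open Crest.Agent.Lib.QuadricFlow
open Crest.GeometryTopology.Quadric (herm unitCone coneTangent)

/-- The coordinates `x`, `y` of the two spheres. -/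
noncomputable def xy (z : C5) : Fin 6 → ℝ :=
  ![pp 0 1 z + pp 2 3 z, pp 0 2 z - pp 1 3 z, pp 0 3 z + pp 1 2 z,
    pp 0 1 z - pp 2 3 z, pp 0 2 z + pp 1 3 z, pp 0 3 z - pp 1 2 z]

/-- The vector field in the `x`, `y` coordinates. -/
noncomputable def WW (c : Fin 6 → ℝ) : Fin 6 → ℝ :=
  ![2 * eps * (c 1 * c 5 - c 2 * c 4),
    2 * eps * (c 2 * (c 3 - 1) - c 0 * c 5),
    2 * eps * (c 0 * c 4 - c 1 * (c 3 - 1)),
    -2 * eps * (c 4 * (c 2 - 1) - c 5 * c 1),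
    -2 * eps * (c 5 * c 0 - c 3 * (c 2 - 1)),
    -2 * eps * (c 3 * c 1 - c 4 * c 0)]

lemma dxy_0 (z : C5) : dp 0 1 z (V z) + dp 2 3 z (V z) = WW (xy z) 0 := by
  simp [dp, V, act, coef, WW, xy, pp_eq, Complex.mul_re, Complex.mul_im]
  ring
lemma dxy_1 (z : C5) : dp 0 2 z (V z) - dp 1 3 z (V z) = WW (xy z) 1 := by
  simp [dp, V, act, coef, WW, xy, pp_eq, Complex.mul_re, Complex.mul_im]
  ring
lemma dxy_2 (z : C5) : dp 0 3 z (V z) + dp 1 2 z (V z) = WW (xy z) 2 := by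
  simp [dp, V, act, coef, WW, xy, pp_eq, Complex.mul_re, Complex.mul_im]
  ring
lemma dxy_3 (z : C5) : dp 0 1 z (V z) - dp 2 3 z (V z) = WW (xy z) 3 := by
  simp [dp, V, act, coef, WW, xy, pp_eq, Complex.mul_re, Complex.mul_im]
  ring
lemma dxy_4 (z : C5) : dp 0 2 z (V z) + dp 1 3 z (V z) = WW (xy z) 4 := by
  simp [dp, V, act, coef, WW, xy, pp_eq, Complex.mul_re, Complex.mul_im]
  ring
lemma dxy_5 (z : C5) : dp 0 3 z (V z) - dp 1 2 z (V z) = WW (xy z) 5 := by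
  simp [dp, V, act, coef, WW, xy, pp_eq, Complex.mul_re, Complex.mul_im]
  ring

lemma hasDerivAt_xy (t : ℝ) (z : C5) :
    HasDerivAt (fun s => xy (Phi (s, z))) (WW (xy (Phi (t, z)))) t := by
  rw [hasDerivAt_pi]
  have hd := Phi_deriv t z
  intro k
  fin_cases k
  · exact ((hasDerivAt_pp hd 0 1).fun_add (hasDerivAt_pp hd 2 3)).congr_deriv (dxy_0 _)
  · exact ((hasDerivAt_pp hd 0 2).fun_sub (hasDerivAt_pp hd 1 3)).congr_deriv (dxy_1 _)
  · exact ((hasDerivAt_pp hd 0 3).fun_add (hasDerivAt_pp hd 1 2)).congr_deriv (dxy_2 _)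
  · exact ((hasDerivAt_pp hd 0 1).fun_sub (hasDerivAt_pp hd 2 3)).congr_deriv (dxy_3 _)
  · exact ((hasDerivAt_pp hd 0 2).fun_add (hasDerivAt_pp hd 1 3)).congr_deriv (dxy_4 _)
  · exact ((hasDerivAt_pp hd 0 3).fun_sub (hasDerivAt_pp hd 1 2)).congr_deriv (dxy_5 _)

/-- No short periodic orbits of a Lipschitz vector field. -/
lemma rolle_periodic {n : ℕ} (c : ℝ → Fin n → ℝ) (W : (Fin n → ℝ) → Fin n → ℝ) (L : ℝ)
    (hL0 : 0 ≤ L) (hL : L < 1)
    (hc : ∀ t, HasDerivAt c (W (c t)) t)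
    (hLip : ∀ t s, ‖W (c t) - W (c s)‖ ≤ L * ‖c t - c s‖)
    (h01 : c 0 = c 1) : ∀ t ∈ Icc (0:ℝ) 1, W (c t) = 0 := by
  have hcc : Continuous c := continuous_iff_continuousAt.2 fun t => (hc t).continuousAt
  have hWc : Continuous (fun t => W (c t)) := by
    rw [continuous_iff_continuousAt]
    intro t
    rw [Metric.continuousAt_iff]
    intro ε hε
    have hct := Metric.continuousAt_iff.1 (hcc.continuousAt (x := t)) (ε / (L + 1))
      (by positivity)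
    obtain ⟨δ, hδ, h⟩ := hct
    refine ⟨δ, hδ, fun s hs => ?_⟩
    have h1 := h hs
    rw [dist_eq_norm] at h1 ⊢
    calc ‖W (c s) - W (c t)‖ ≤ L * ‖c s - c t‖ := hLip s t
      _ ≤ (L + 1) * ‖c s - c t‖ := by nlinarith [norm_nonneg (c s - c t)]
      _ < (L + 1) * (ε / (L + 1)) := by
          apply mul_lt_mul_of_pos_left h1; positivity
      _ = ε := by field_simp
  obtain ⟨ts, hts, hmax⟩ := (isCompact_Icc (a := (0:ℝ)) (b := 1)).exists_isMaxOn
    (nonempty_Icc.2 zero_le_one) (continuous_norm.comp hWc).continuousOn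
  set M := ‖W (c ts)‖ with hM
  have hMb : ∀ t ∈ Icc (0:ℝ) 1, ‖W (c t)‖ ≤ M := fun t ht => hmax ht
  have hM0 : 0 ≤ M := norm_nonneg _
  have hcM : ∀ t ∈ Icc (0:ℝ) 1, ∀ s ∈ Icc (0:ℝ) 1, ‖c t - c s‖ ≤ M := by
    intro t ht s hs
    have := (convex_Icc (0:ℝ) 1).norm_image_sub_le_of_norm_hasDerivWithin_le
      (f := c) (f' := fun t => W (c t)) (C := M) (fun x _ => (hc x).hasDerivWithinAt)
      hMb hs ht
    refine this.trans ?_
    have h1 : ‖t - s‖ ≤ 1 := by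
      rw [Real.norm_eq_abs, abs_le]
      constructor <;> linarith [ht.1, ht.2, hs.1, hs.2]
    nlinarith
  have hbound : ∀ t ∈ Icc (0:ℝ) 1, ‖W (c t)‖ ≤ L * M := by
    intro t ht
    refine (pi_norm_le_iff_of_nonneg (by positivity)).2 fun j => ?_
    obtain ⟨s, hs, hs0⟩ := exists_hasDerivAt_eq_zero (f := fun t => c t j)
      (f' := fun t => W (c t) j) (a := 0) (b := 1) zero_lt_one
      ((continuous_apply j).comp hcc).continuousOn (by rw [h01])
      (fun x _ => hasDerivAt_pi.1 (hc x) j)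
    have hsI : s ∈ Icc (0:ℝ) 1 := Ioo_subset_Icc_self hs
    have h1 : W (c t) j = (W (c t) - W (c s)) j := by
      simp [hs0]
    rw [h1]
    calc ‖(W (c t) - W (c s)) j‖ ≤ ‖W (c t) - W (c s)‖ := norm_le_pi_norm _ j
      _ ≤ L * ‖c t - c s‖ := hLip t s
      _ ≤ L * M := by gcongr; exact hcM t ht s hsI
  have hM00 : M = 0 := by
    have h1 := hbound ts hts
    rw [← hM] at h1
    nlinarith
  intro t ht
  have := hMb t ht
  rw [hM00] at this
  exact norm_le_zero_iff.1 this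

lemma mul_diff_le {a b a' b' δ : ℝ} (hb : |b| ≤ 2) (ha' : |a'| ≤ 2) (h1 : |a - a'| ≤ δ)
    (h2 : |b - b'| ≤ δ) : |a * b - a' * b'| ≤ 4 * δ := by
  have : a * b - a' * b' = (a - a') * b + a' * (b - b') := by ring
  rw [this]
  have hδ : 0 ≤ δ := (abs_nonneg _).trans h1
  calc _ ≤ |(a - a') * b| + |a' * (b - b')| := abs_add_le _ _
    _ = |a - a'| * |b| + |a'| * |b - b'| := by rw [abs_mul, abs_mul]
    _ ≤ δ * 2 + 2 * δ := by gcongr
    _ = 4 * δ := by ring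

/-- Lipschitz bound on the vector field. -/
lemma WW_lip {c c' : Fin 6 → ℝ} (hc : ∀ j, |c j| ≤ 2) (hc' : ∀ j, |c' j| ≤ 2) :
    ‖WW c - WW c'‖ ≤ (18 / 100) * ‖c - c'‖ := by
  set δ := ‖c - c'‖ with hδ
  have hd : ∀ j, |c j - c' j| ≤ δ := fun j => by
    have := norm_le_pi_norm (c - c') j
    simpa using this
  have hδ0 : 0 ≤ δ := norm_nonneg _
  have m : ∀ i j, |c i * c j - c' i * c' j| ≤ 4 * δ := fun i j =>
    mul_diff_le (hc j) (hc' i) (hd i) (hd j)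
  refine (pi_norm_le_iff_of_nonneg (by positivity)).2 fun k => ?_
  have he : eps = 1 / 100 := rfl
  rw [Real.norm_eq_abs]
  fin_cases k
  · have h : (WW c - WW c') 0 = (1 / 50) * ((c 1 * c 5 - c' 1 * c' 5) - (c 2 * c 4 - c' 2 * c' 4)) := by
      simp [WW, he]; ring
    show |(WW c - WW c') 0| ≤ _
    rw [h, abs_mul]
    have := abs_sub (c 1 * c 5 - c' 1 * c' 5) (c 2 * c 4 - c' 2 * c' 4)
    have h1 := m 1 5
    have h2 := m 2 4
    rw [abs_of_pos (by norm_num : (0:ℝ) < 1 / 50)]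
    linarith
  · have h : (WW c - WW c') 1 = (1 / 50) * ((c 2 * c 3 - c' 2 * c' 3) - (c 2 - c' 2)
        - (c 0 * c 5 - c' 0 * c' 5)) := by
      simp [WW, he]; ring
    show |(WW c - WW c') 1| ≤ _
    rw [h, abs_mul, abs_of_pos (by norm_num : (0:ℝ) < 1 / 50)]
    have := abs_sub ((c 2 * c 3 - c' 2 * c' 3) - (c 2 - c' 2)) (c 0 * c 5 - c' 0 * c' 5)
    have h0 := abs_sub (c 2 * c 3 - c' 2 * c' 3) (c 2 - c' 2)
    have h1 := m 2 3
    have h2 := m 0 5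
    have h3 := hd 2
    linarith
  · have h : (WW c - WW c') 2 = (1 / 50) * ((c 0 * c 4 - c' 0 * c' 4) - (c 1 * c 3 - c' 1 * c' 3)
        + (c 1 - c' 1)) := by
      simp [WW, he]; ring
    show |(WW c - WW c') 2| ≤ _
    rw [h, abs_mul, abs_of_pos (by norm_num : (0:ℝ) < 1 / 50)]
    have := abs_add_le ((c 0 * c 4 - c' 0 * c' 4) - (c 1 * c 3 - c' 1 * c' 3)) (c 1 - c' 1)
    have h0 := abs_sub (c 0 * c 4 - c' 0 * c' 4) (c 1 * c 3 - c' 1 * c' 3)
    have h1 := m 0 4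
    have h2 := m 1 3
    have h3 := hd 1
    linarith
  · have h : (WW c - WW c') 3 = -(1 / 50) * ((c 4 * c 2 - c' 4 * c' 2) - (c 4 - c' 4)
        - (c 5 * c 1 - c' 5 * c' 1)) := by
      simp [WW, he]; ring
    show |(WW c - WW c') 3| ≤ _
    rw [h, abs_mul, abs_neg, abs_of_pos (by norm_num : (0:ℝ) < 1 / 50)]
    have := abs_sub ((c 4 * c 2 - c' 4 * c' 2) - (c 4 - c' 4)) (c 5 * c 1 - c' 5 * c' 1)
    have h0 := abs_sub (c 4 * c 2 - c' 4 * c' 2) (c 4 - c' 4)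
    have h1 := m 4 2
    have h2 := m 5 1
    have h3 := hd 4
    linarith
  · have h : (WW c - WW c') 4 = -(1 / 50) * ((c 5 * c 0 - c' 5 * c' 0) - (c 3 * c 2 - c' 3 * c' 2)
        + (c 3 - c' 3)) := by
      simp [WW, he]; ring
    show |(WW c - WW c') 4| ≤ _
    rw [h, abs_mul, abs_neg, abs_of_pos (by norm_num : (0:ℝ) < 1 / 50)]
    have := abs_add_le ((c 5 * c 0 - c' 5 * c' 0) - (c 3 * c 2 - c' 3 * c' 2)) (c 3 - c' 3)
    have h0 := abs_sub (c 5 * c 0 - c' 5 * c' 0) (c 3 * c 2 - c' 3 * c' 2)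
    have h1 := m 5 0
    have h2 := m 3 2
    have h3 := hd 3
    linarith
  · have h : (WW c - WW c') 5 = -(1 / 50) * ((c 3 * c 1 - c' 3 * c' 1) - (c 4 * c 0 - c' 4 * c' 0)) := by
      simp [WW, he]; ring
    show |(WW c - WW c') 5| ≤ _
    rw [h, abs_mul, abs_neg, abs_of_pos (by norm_num : (0:ℝ) < 1 / 50)]
    have := abs_sub (c 3 * c 1 - c' 3 * c' 1) (c 4 * c 0 - c' 4 * c' 0)
    have h1 := m 3 1
    have h2 := m 4 0
    linarith

lemma pp_abs_le (a b : Fin 5) (hab : a ≠ b) (z : C5) : |pp a b z| ≤ QQ z := by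
  have h1 : ((z a).re ^ 2 + (z a).im ^ 2) + ((z b).re ^ 2 + (z b).im ^ 2) ≤ QQ z := by
    have := Finset.sum_le_sum_of_subset_of_nonneg (s := {a, b}) (t := Finset.univ)
      (f := fun j => (z j).re ^ 2 + (z j).im ^ 2) (Finset.subset_univ _)
      (fun i _ _ => by positivity)
    rwa [Finset.sum_pair hab] at this
  rw [pp_eq, abs_le]
  constructor <;> nlinarith [sq_nonneg ((z a).im - (z b).re), sq_nonneg ((z a).re + (z b).im),
    sq_nonneg ((z a).im + (z b).re), sq_nonneg ((z a).re - (z b).im)]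

lemma xy_bound {z : C5} (hz : QQ z = 1) (j : Fin 6) : |xy z j| ≤ 2 := by
  have h : ∀ a b : Fin 5, a ≠ b → |pp a b z| ≤ 1 := fun a b hab => hz ▸ pp_abs_le a b hab z
  have h01 := h 0 1 (by decide)
  have h02 := h 0 2 (by decide)
  have h03 := h 0 3 (by decide)
  have h12 := h 1 2 (by decide)
  have h13 := h 1 3 (by decide)
  have h23 := h 2 3 (by decide)
  rw [abs_le] at *
  fin_cases j <;> simp [xy] <;> constructor <;> linarith [h01.1, h01.2, h02.1, h02.2, h03.1, h03.2,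
    h12.1, h12.2, h13.1, h13.2, h23.1, h23.2]

/-- Periodic `xy`-orbits are constant. -/
lemma WW_zero_of_periodic {z : C5} (hz : QQ z = 1)
    (h01 : xy (Phi (0, z)) = xy (Phi (1, z))) : WW (xy z) = 0 := by
  have := rolle_periodic (fun s => xy (Phi (s, z))) WW (18 / 100) (by norm_num) (by norm_num)
    (fun t => hasDerivAt_xy t z)
    (fun t s => WW_lip (xy_bound ((Phi_QQ t z).trans hz)) (xy_bound ((Phi_QQ s z).trans hz)))
    h01 0 (left_mem_Icc.2 zero_le_one)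
  simpa [Phi_zero] using this

/-! ### Critical points on `S² × S²` -/

/-- The unit norm relations for `x`, `y` on the quadric surface. -/
lemma xy_norm {z : C5} (hz : QQ z = 1) (hq : qq z = 0) (h4 : z 4 = 0) :
    xy z 0 ^ 2 + xy z 1 ^ 2 + xy z 2 ^ 2 = 1 ∧ xy z 3 ^ 2 + xy z 4 ^ 2 + xy z 5 ^ 2 = 1 := by
  have hr : (z 4).re = 0 := by simp [h4]
  have hi : (z 4).im = 0 := by simp [h4]
  simp only [QQ, Fin.sum_univ_five, hr, hi] at hz
  have hq1 := congrArg Complex.re hq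
  have hq2 := congrArg Complex.im hq
  simp only [qq, Fin.sum_univ_five, h4] at hq1 hq2
  simp [sq, Complex.mul_re, Complex.mul_im] at hq1 hq2
  set u0 := (z 0).re
  set u1 := (z 1).re
  set u2 := (z 2).re
  set u3 := (z 3).re
  set v0 := (z 0).im
  set v1 := (z 1).im
  set v2 := (z 2).im
  set v3 := (z 3).im
  have hU : u0 ^ 2 + u1 ^ 2 + u2 ^ 2 + u3 ^ 2 = 1 / 2 := by
    nlinarith
  have hV : v0 ^ 2 + v1 ^ 2 + v2 ^ 2 + v3 ^ 2 = 1 / 2 := by
    nlinarith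
  have hD : u0 * v0 + u1 * v1 + u2 * v2 + u3 * v3 = 0 := by
    nlinarith
  have key : 4 * ((u0 ^ 2 + u1 ^ 2 + u2 ^ 2 + u3 ^ 2) * (v0 ^ 2 + v1 ^ 2 + v2 ^ 2 + v3 ^ 2)
      - (u0 * v0 + u1 * v1 + u2 * v2 + u3 * v3) ^ 2) = 1 := by
    rw [hU, hV, hD]; norm_num
  constructor
  · simp only [xy, pp_eq]
    simp
    show (2 * (v0 * u1 - u0 * v1) + 2 * (v2 * u3 - u2 * v3)) ^ 2 +
      (2 * (v0 * u2 - u0 * v2) - 2 * (v1 * u3 - u1 * v3)) ^ 2 +
      (2 * (v0 * u3 - u0 * v3) + 2 * (v1 * u2 - u1 * v2)) ^ 2 = 1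
    linear_combination key
  · simp only [xy, pp_eq]
    simp
    show (2 * (v0 * u1 - u0 * v1) - 2 * (v2 * u3 - u2 * v3)) ^ 2 +
      (2 * (v0 * u2 - u0 * v2) + 2 * (v1 * u3 - u1 * v3)) ^ 2 +
      (2 * (v0 * u3 - u0 * v3) - 2 * (v1 * u2 - u1 * v2)) ^ 2 = 1
    linear_combination key

/-- The three solutions of the critical point equations, in real coordinates. -/
lemma crit_solutions {x1 x2 x3 y1 y2 y3 s : ℝ} (hs : s ^ 2 = 3)
    (hx : x1 ^ 2 + x2 ^ 2 + x3 ^ 2 = 1) (hy : y1 ^ 2 + y2 ^ 2 + y3 ^ 2 = 1)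
    (e1 : x2 * y3 - x3 * y2 = 0) (e2 : x3 * (y1 - 1) - x1 * y3 = 0)
    (e3 : x1 * y2 - x2 * (y1 - 1) = 0) (e4 : y2 * (x3 - 1) - y3 * x2 = 0)
    (e5 : y3 * x1 - y1 * (x3 - 1) = 0) (e6 : y1 * x2 - y2 * x1 = 0) :
    x2 = 0 ∧ y2 = 0 ∧ y1 = x3 ∧ y3 = x1 ∧
      ((x1 = 0 ∧ x3 = 1) ∨ (x1 = s / 2 ∧ x3 = -1 / 2) ∨ (x1 = -s / 2 ∧ x3 = -1 / 2)) := by
  have hx2 : x2 = 0 := by linear_combination e3 + e6
  have hy2 : y2 = 0 := by linear_combination -e1 - e4
  have hy1 : y1 = x3 := by linear_combination e2 + e5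
  subst hx2 hy2 hy1
  have e2' : y1 * (y1 - 1) - x1 * y3 = 0 := e2
  have hx' : x1 ^ 2 + y1 ^ 2 = 1 := by nlinarith
  have hy' : y1 ^ 2 + y3 ^ 2 = 1 := by nlinarith
  have hfac : (y3 - x1) * (y3 + x1) = 0 := by nlinarith
  have hrr : ∀ {a : ℝ}, a ^ 2 = 0 → a = 0 := fun h => pow_eq_zero_iff (by norm_num) |>.1 h
  rcases mul_eq_zero.1 hfac with h | h
  · have hy3 : y3 = x1 := by linarith
    subst hy3
    have hfac2 : (y1 - 1) * (2 * y1 + 1) = 0 := by nlinarith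
    rcases mul_eq_zero.1 hfac2 with h2 | h2
    · have hy11 : y1 = 1 := by linarith
      subst hy11
      have : y3 = 0 := hrr (by nlinarith)
      exact ⟨rfl, rfl, rfl, rfl, Or.inl ⟨this, rfl⟩⟩
    · have hy11 : y1 = -1 / 2 := by linarith
      subst hy11
      have hfac3 : (y3 - s / 2) * (y3 + s / 2) = 0 := by nlinarith
      rcases mul_eq_zero.1 hfac3 with h3 | h3
      · exact ⟨rfl, rfl, rfl, rfl, Or.inr (Or.inl ⟨by linarith, rfl⟩)⟩
      · exact ⟨rfl, rfl, rfl, rfl, Or.inr (Or.inr ⟨by linarith, rfl⟩)⟩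
  · have hy3 : y3 = -x1 := by linarith
    subst hy3
    have hy11 : y1 = 1 := by nlinarith
    subst hy11
    have : x1 = 0 := hrr (by nlinarith)
    subst this
    exact ⟨rfl, rfl, rfl, by simp, Or.inl ⟨rfl, rfl⟩⟩

end Crest.Agent.Lib.QuadricFix
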