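import Mathlib
import Crest.Agent.Lib.QuadricFix

/-!
# The Hamiltonian lift and its fixed points
-/

set_option autoImplicit false
set_option linter.unusedSectionVars false

open Set Filter Metric
open scoped Topology ContDiff NNReal ComplexConjugate

namespace Crest.Agent.Lib.QuadricLift

open Crest.Agent.Lib.QuadricFlow Crest.Agent.Lib.QuadricFix
open Crest.GeometryTopology.Quadric (herm unitCone coneTangent)

/-! ### The three points -/

/-- Points on the circle containing the three fixed points. -/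
noncomputable def zl (α β : ℝ) : C5 := ![(α : ℂ), -Complex.I / 2, (β : ℂ), -Complex.I / 2, 0]

@[simp] lemma zl_0 (α β : ℝ) : zl α β 0 = (α : ℂ) := rfl
@[simp] lemma zl_1 (α β : ℝ) : zl α β 1 = -Complex.I / 2 := rfl
@[simp] lemma zl_2 (α β : ℝ) : zl α β 2 = (β : ℂ) := rfl
@[simp] lemma zl_3 (α β : ℝ) : zl α β 3 = -Complex.I / 2 := rfl
@[simp] lemma zl_4 (α β : ℝ) : zl α β 4 = 0 := rfl

lemma zl_cone {α β : ℝ} (h : α ^ 2 + β ^ 2 = 1 / 2) : zl α β ∈ unitCone := by
  rw [mem_cone_iff]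
  constructor
  · simp [QQ, Fin.sum_univ_five]
    linarith
  · have hI : Complex.I ^ 2 = -1 := Complex.I_sq
    have hc : ((α : ℂ)) ^ 2 + (β : ℂ) ^ 2 = 1 / 2 := by
      have := congrArg (fun r : ℝ => (r : ℂ)) h
      push_cast at this
      exact this
    simp only [qq, Fin.sum_univ_five, zl_0, zl_1, zl_2, zl_3, zl_4]
    ring_nf
    rw [hI]
    linear_combination hc

lemma pp_zl_01 (α β : ℝ) : pp 0 1 (zl α β) = α := by simp [pp_eq] <;> ring
lemma pp_zl_02 (α β : ℝ) : pp 0 2 (zl α β) = 0 := by simp [pp_eq] <;> ring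
lemma pp_zl_03 (α β : ℝ) : pp 0 3 (zl α β) = α := by simp [pp_eq] <;> ring
lemma pp_zl_12 (α β : ℝ) : pp 1 2 (zl α β) = -β := by simp [pp_eq] <;> ring
lemma pp_zl_13 (α β : ℝ) : pp 1 3 (zl α β) = 0 := by simp [pp_eq] <;> ring
lemma pp_zl_23 (α β : ℝ) : pp 2 3 (zl α β) = β := by simp [pp_eq] <;> ring

lemma V_zl {α β κ : ℝ} (h1 : κ * α = 1 - 2 * α) (h2 : κ * β = 1 + 2 * β)
    (h3 : α ^ 2 + β ^ 2 = 1 / 2) :
    V (zl α β) = (Complex.I * ((κ * eps : ℝ) : ℂ)) • zl α β := by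
  have hI : Complex.I * Complex.I = -1 := Complex.I_mul_I
  have h1' : (κ : ℂ) * α = 1 - 2 * α := by exact_mod_cast h1
  have h2' : (κ : ℂ) * β = 1 + 2 * β := by exact_mod_cast h2
  have h3' : (α : ℂ) ^ 2 + (β : ℂ) ^ 2 = 1 / 2 := by
    have := congrArg (fun r : ℝ => (r : ℂ)) h3
    push_cast at this
    exact this
  funext k
  fin_cases k
  · simp only [V, act, coef, pp_zl_01, pp_zl_02, pp_zl_03, pp_zl_12, pp_zl_13, pp_zl_23]
    simp
    linear_combination (-(Complex.I * (eps : ℂ))) * h1'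
  · simp only [V, act, coef, pp_zl_01, pp_zl_02, pp_zl_03, pp_zl_12, pp_zl_13, pp_zl_23]
    simp
    linear_combination (eps : ℂ) * ((α : ℂ) * (-h1') + (β : ℂ) * (-h2')) +
      (eps : ℂ) * (κ : ℂ) * h3' + ((eps : ℂ) * κ / 2) * hI
  · simp only [V, act, coef, pp_zl_01, pp_zl_02, pp_zl_03, pp_zl_12, pp_zl_13, pp_zl_23]
    simp
    linear_combination (-(Complex.I * (eps : ℂ))) * h2'
  · simp only [V, act, coef, pp_zl_01, pp_zl_02, pp_zl_03, pp_zl_12, pp_zl_13, pp_zl_23]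
    simp
    linear_combination (eps : ℂ) * ((α : ℂ) * (-h1') + (β : ℂ) * (-h2')) +
      (eps : ℂ) * (κ : ℂ) * h3' + ((eps : ℂ) * κ / 2) * hI
  · simp [V, act]

lemma norm_exp_I (r : ℝ) : ‖Complex.exp (Complex.I * (r : ℂ))‖ = 1 := by
  rw [mul_comm]; exact Complex.norm_exp_ofReal_mul_I r

lemma Phi_zl {α β κ : ℝ} (h1 : κ * α = 1 - 2 * α) (h2 : κ * β = 1 + 2 * β)
    (h3 : α ^ 2 + β ^ 2 = 1 / 2) (t : ℝ) :
    Phi (t, zl α β) = Complex.exp (Complex.I * ((κ * eps * t : ℝ) : ℂ)) • zl α β := by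
  have hV := V_zl h1 h2 h3
  let γ : ℝ → C5 := fun s => Complex.exp (Complex.I * ((κ * eps * s : ℝ) : ℂ)) • zl α β
  have hγ : ∀ s, HasDerivAt γ (V (γ s)) s := by
    intro s
    have h4 : HasDerivAt (fun s : ℝ => ((κ * eps * s : ℝ) : ℂ)) ((κ * eps : ℝ) : ℂ) s := by
      have : HasDerivAt (fun s : ℝ => κ * eps * s) (κ * eps) s := by
        simpa using (hasDerivAt_id s).const_mul (κ * eps)
      exact this.ofReal_comp
    have h5 : HasDerivAt (fun s : ℝ => Complex.exp (Complex.I * ((κ * eps * s : ℝ) : ℂ)))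
        (Complex.exp (Complex.I * ((κ * eps * s : ℝ) : ℂ)) * (Complex.I * ((κ * eps : ℝ) : ℂ))) s :=
      (h4.const_mul Complex.I).cexp
    have h6 := h5.smul_const (zl α β)
    refine h6.congr_deriv ?_
    simp only [γ]
    rw [V_smul (norm_exp_I _), hV, smul_smul]
  have := Phi_unique hγ t
  have h0 : γ 0 = zl α β := by simp [γ]
  rw [h0] at this
  exact this.symm

/-! ### The eigenvector equation -/

lemma eigen {z : C5} (hz : QQ z = 1) (hq : qq z = 0) (h4 : z 4 = 0) :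
    (pp 0 1 z : ℂ) * z 1 + pp 0 2 z * z 2 + pp 0 3 z * z 3 = -Complex.I * z 0 ∧
    -(pp 0 1 z : ℂ) * z 0 + pp 1 2 z * z 2 + pp 1 3 z * z 3 = -Complex.I * z 1 ∧
    -(pp 0 2 z : ℂ) * z 0 - pp 1 2 z * z 1 + pp 2 3 z * z 3 = -Complex.I * z 2 ∧
    -(pp 0 3 z : ℂ) * z 0 - pp 1 3 z * z 1 - pp 2 3 z * z 2 = -Complex.I * z 3 := by
  have hS : conj (z 0) * z 0 + conj (z 1) * z 1 + conj (z 2) * z 2 + conj (z 3) * z 3 = 1 := by
    have h1 := herm_self z
    rw [hz] at h1
    simpa [herm, Fin.sum_univ_five, h4] using h1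
  have hQ : z 0 ^ 2 + z 1 ^ 2 + z 2 ^ 2 + z 3 ^ 2 = 0 := by
    simpa [qq, Fin.sum_univ_five, h4] using hq
  have hp : ∀ a b : Fin 5, (pp a b z : ℂ) =
      -Complex.I * (z a * conj (z b) - conj (z a) * z b) := by
    intro a b
    rw [← pg_complex]
    simp [pg]
  simp only [hp]
  refine ⟨?_, ?_, ?_, ?_⟩
  · linear_combination (-Complex.I * z 0) * hS + (Complex.I * conj (z 0)) * hQ
  · linear_combination (-Complex.I * z 1) * hS + (Complex.I * conj (z 1)) * hQ
  · linear_combination (-Complex.I * z 2) * hS + (Complex.I * conj (z 2)) * hQ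
  · linear_combination (-Complex.I * z 3) * hS + (Complex.I * conj (z 3)) * hQ

lemma z_eq_of_p {z : C5} {α β : ℝ} (hz : QQ z = 1) (hq : qq z = 0) (h4 : z 4 = 0)
    (h01 : pp 0 1 z = α) (h02 : pp 0 2 z = 0) (h03 : pp 0 3 z = α) (h12 : pp 1 2 z = -β)
    (h13 : pp 1 3 z = 0) (h23 : pp 2 3 z = β) :
    z = (2 * Complex.I * z 1) • zl α β := by
  obtain ⟨e0, e1, e2, e3⟩ := eigen hz hq h4
  rw [h01, h02, h03] at e0
  rw [h01, h12, h13] at e1
  rw [h02, h12, h23] at e2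
  rw [h03, h13, h23] at e3
  push_cast at e0 e1 e2 e3
  have hI : Complex.I * Complex.I = -1 := Complex.I_mul_I
  have h13' : z 3 = z 1 := by
    have h : -Complex.I * (z 3 - z 1) = 0 := by linear_combination e1 - e3
    have hne : -Complex.I ≠ 0 := by simp
    exact sub_eq_zero.1 ((mul_eq_zero.1 h).resolve_left hne)
  funext k
  fin_cases k
  · show z 0 = (2 * Complex.I * z 1) * (α : ℂ)
    rw [h13'] at e0
    linear_combination (-Complex.I) * e0 + (z 0) * hI
  · show z 1 = (2 * Complex.I * z 1) * (-Complex.I / 2)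
    linear_combination (z 1) * hI
  · show z 2 = (2 * Complex.I * z 1) * (β : ℂ)
    rw [h13'] at e2
    linear_combination (-Complex.I) * e2 + (z 2) * hI
  · show z 3 = (2 * Complex.I * z 1) * (-Complex.I / 2)
    rw [h13']
    linear_combination (z 1) * hI
  · show z 4 = (2 * Complex.I * z 1) * 0
    rw [h4]; ring

/-- The value of `√3` used for the two non-degenerate points. -/
noncomputable def s3 : ℝ := Real.sqrt 3

lemma s3_sq : s3 ^ 2 = 3 := Real.sq_sqrt (by norm_num)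

/-- Classification of the critical points on the quadric surface. -/
lemma crit_line {z : C5} (hz : QQ z = 1) (hq : qq z = 0) (h4 : z 4 = 0) (hW : WW (xy z) = 0) :
    z = (2 * Complex.I * z 1) • zl (1 / 2) (-1 / 2) ∨
    z = (2 * Complex.I * z 1) • zl ((s3 - 1) / 4) ((s3 + 1) / 4) ∨
    z = (2 * Complex.I * z 1) • zl ((-s3 - 1) / 4) ((1 - s3) / 4) := by
  obtain ⟨hx, hy⟩ := xy_norm hz hq h4
  have heps : (2 * eps) ≠ 0 := by norm_num [eps]
  have heps' : (-2 * eps) ≠ 0 := by norm_num [eps]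
  have w : ∀ k, WW (xy z) k = 0 := fun k => by rw [hW]; rfl
  have e1 : xy z 1 * xy z 5 - xy z 2 * xy z 4 = 0 :=
    (mul_eq_zero.1 (w 0)).resolve_left heps
  have e2 : xy z 2 * (xy z 3 - 1) - xy z 0 * xy z 5 = 0 :=
    (mul_eq_zero.1 (w 1)).resolve_left heps
  have e3 : xy z 0 * xy z 4 - xy z 1 * (xy z 3 - 1) = 0 :=
    (mul_eq_zero.1 (w 2)).resolve_left heps
  have e4 : xy z 4 * (xy z 2 - 1) - xy z 5 * xy z 1 = 0 :=
    (mul_eq_zero.1 (w 3)).resolve_left heps'
  have e5 : xy z 5 * xy z 0 - xy z 3 * (xy z 2 - 1) = 0 :=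
    (mul_eq_zero.1 (w 4)).resolve_left heps'
  have e6 : xy z 3 * xy z 1 - xy z 4 * xy z 0 = 0 :=
    (mul_eq_zero.1 (w 5)).resolve_left heps'
  obtain ⟨hx2, hy2, hy1, hy3, hcase⟩ := crit_solutions s3_sq hx hy e1 e2 e3 e4 e5 e6
  have hx0 : pp 0 1 z + pp 2 3 z = xy z 0 := rfl
  have hx1 : pp 0 2 z - pp 1 3 z = xy z 1 := rfl
  have hx3 : pp 0 3 z + pp 1 2 z = xy z 2 := rfl
  have hy0 : pp 0 1 z - pp 2 3 z = xy z 3 := rfl
  have hy1' : pp 0 2 z + pp 1 3 z = xy z 4 := rfl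
  have hy2' : pp 0 3 z - pp 1 2 z = xy z 5 := rfl
  have p02 : pp 0 2 z = 0 := by linarith
  have p13 : pp 1 3 z = 0 := by linarith
  rcases hcase with ⟨ha, hb⟩ | ⟨ha, hb⟩ | ⟨ha, hb⟩
  · left
    exact z_eq_of_p hz hq h4 (by linarith) p02 (by linarith) (by linarith) p13 (by linarith)
  · right; left
    exact z_eq_of_p hz hq h4 (by linarith) p02 (by linarith) (by linarith) p13 (by linarith)
  · right; right
    exact z_eq_of_p hz hq h4 (by linarith) p02 (by linarith) (by linarith) p13 (by linarith)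

/-! ### The rotation from the identity to `g = diag(-1,-1,-1,-1,1)` -/

/-- `cos (π t)`. -/
noncomputable def cc (t : ℝ) : ℂ := (Real.cos (Real.pi * t) : ℝ)
/-- `sin (π t)`. -/
noncomputable def ss (t : ℝ) : ℂ := (Real.sin (Real.pi * t) : ℝ)

lemma cc_ss (t : ℝ) : cc t * cc t + ss t * ss t = 1 := by
  have := Real.cos_sq_add_sin_sq (Real.pi * t)
  have h2 := congrArg (fun r : ℝ => (r : ℂ)) this
  simp only [cc, ss]
  push_cast at h2 ⊢
  linear_combination h2

lemma cc_neg (t : ℝ) : cc (-t) = cc t := by simp [cc]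
lemma ss_neg (t : ℝ) : ss (-t) = -ss t := by simp [ss]

/-- The rotation. -/
noncomputable def rot (t : ℝ) (z : C5) : C5 :=
  ![cc t * z 0 + ss t * z 1, -ss t * z 0 + cc t * z 1, cc t * z 2 + ss t * z 3,
    -ss t * z 2 + cc t * z 3, z 4]

@[simp] lemma rot_0 (t : ℝ) (z : C5) : rot t z 0 = cc t * z 0 + ss t * z 1 := rfl
@[simp] lemma rot_1 (t : ℝ) (z : C5) : rot t z 1 = -ss t * z 0 + cc t * z 1 := rfl
@[simp] lemma rot_2 (t : ℝ) (z : C5) : rot t z 2 = cc t * z 2 + ss t * z 3 := rfl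
@[simp] lemma rot_3 (t : ℝ) (z : C5) : rot t z 3 = -ss t * z 2 + cc t * z 3 := rfl
@[simp] lemma rot_4 (t : ℝ) (z : C5) : rot t z 4 = z 4 := rfl

/-- The generator of the rotation. -/
noncomputable def JJ (z : C5) : C5 := ![z 1, -z 0, z 3, -z 2, 0]

@[simp] lemma JJ_0 (z : C5) : JJ z 0 = z 1 := rfl
@[simp] lemma JJ_1 (z : C5) : JJ z 1 = -z 0 := rfl
@[simp] lemma JJ_2 (z : C5) : JJ z 2 = z 3 := rfl
@[simp] lemma JJ_3 (z : C5) : JJ z 3 = -z 2 := rfl
@[simp] lemma JJ_4 (z : C5) : JJ z 4 = 0 := rfl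

lemma rot_zero (z : C5) : rot 0 z = z := by
  funext k
  fin_cases k <;> simp [rot, cc, ss]

lemma cc_one : cc 1 = -1 := by simp [cc]
lemma ss_one : ss 1 = 0 := by simp [ss]

lemma rot_one_0 (z : C5) : rot 1 z 0 = -z 0 := by simp [cc_one, ss_one]
lemma rot_one_1 (z : C5) : rot 1 z 1 = -z 1 := by simp [cc_one, ss_one]
lemma rot_one_2 (z : C5) : rot 1 z 2 = -z 2 := by simp [cc_one, ss_one]
lemma rot_one_3 (z : C5) : rot 1 z 3 = -z 3 := by simp [cc_one, ss_one]

lemma rot_smul (t : ℝ) (c : ℂ) (z : C5) : rot t (c • z) = c • rot t z := by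
  funext k
  fin_cases k <;> simp [rot] <;> ring

lemma rot_rsmul (t : ℝ) (c : ℝ) (z : C5) : rot t (c • z) = c • rot t z := by
  funext k
  fin_cases k <;> simp [rot] <;> ring

lemma rot_add (t : ℝ) (u w : C5) : rot t (u + w) = rot t u + rot t w := by
  funext k
  fin_cases k <;> simp [rot] <;> ring

lemma rot_neg_rot (t : ℝ) (z : C5) : rot (-t) (rot t z) = z := by
  have h := cc_ss t
  funext k
  fin_cases k
  · simp only [Fin.zero_eta, rot_0, rot_1, cc_neg, ss_neg]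
    linear_combination (z 0) * h
  · show rot (-t) (rot t z) 1 = z 1
    simp only [rot_1, rot_0, cc_neg, ss_neg]
    linear_combination (z 1) * h
  · show rot (-t) (rot t z) 2 = z 2
    simp only [rot_2, rot_3, cc_neg, ss_neg]
    linear_combination (z 2) * h
  · show rot (-t) (rot t z) 3 = z 3
    simp only [rot_3, rot_2, cc_neg, ss_neg]
    linear_combination (z 3) * h
  · rfl

lemma rot_rot_neg (t : ℝ) (z : C5) : rot t (rot (-t) z) = z := by
  have := rot_neg_rot (-t) z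
  rwa [neg_neg] at this

/-- Adjoint property of the rotation for the Hermitian product. -/
lemma herm_rot (t : ℝ) (u w : C5) : herm (rot t u) w = herm u (rot (-t) w) := by
  simp only [herm, Fin.sum_univ_five, rot_0, rot_1, rot_2, rot_3, rot_4, cc_neg, ss_neg, map_add,
    map_mul, map_neg]
  have h1 : conj (cc t) = cc t := Complex.conj_ofReal _
  have h2 : conj (ss t) = ss t := Complex.conj_ofReal _
  rw [h1, h2]
  ring

lemma herm_add (a b w : C5) : herm (a + b) w = herm a w + herm b w := by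
  simp only [herm, Pi.add_apply, map_add, add_mul, Finset.sum_add_distrib]

lemma herm_rsmul (r : ℝ) (a w : C5) : herm (r • a) w = (r : ℂ) * herm a w := by
  simp only [herm, Finset.mul_sum]
  apply Finset.sum_congr rfl
  intro j _
  simp [Pi.smul_apply]
  ring

lemma rot_QQ (t : ℝ) (z : C5) : QQ (rot t z) = QQ z := by
  have h1 := herm_rot t z (rot t z)
  rw [rot_neg_rot, herm_self] at h1
  have h2 := herm_self z
  rw [h2] at h1
  exact_mod_cast h1

lemma rot_qq (t : ℝ) (z : C5) : qq (rot t z) = qq z := by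
  have h := cc_ss t
  simp only [qq, Fin.sum_univ_five, rot_0, rot_1, rot_2, rot_3, rot_4]
  linear_combination (z 0 ^ 2 + z 1 ^ 2 + z 2 ^ 2 + z 3 ^ 2) * h

lemma hasDerivAt_cc (t : ℝ) : HasDerivAt cc ((Real.pi : ℂ) * -ss t) t := by
  have h1 : HasDerivAt (fun t : ℝ => Real.pi * t) Real.pi t := by
    simpa using (hasDerivAt_id t).const_mul Real.pi
  have h2 := (Real.hasDerivAt_cos (Real.pi * t)).comp t h1
  have h3 := h2.ofReal_comp
  refine h3.congr_deriv ?_
  simp [ss]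
  ring

lemma hasDerivAt_ss (t : ℝ) : HasDerivAt ss ((Real.pi : ℂ) * cc t) t := by
  have h1 : HasDerivAt (fun t : ℝ => Real.pi * t) Real.pi t := by
    simpa using (hasDerivAt_id t).const_mul Real.pi
  have h2 := (Real.hasDerivAt_sin (Real.pi * t)).comp t h1
  have h3 := h2.ofReal_comp
  refine h3.congr_deriv ?_
  simp [cc]
  ring

/-- Derivative of a rotating curve. -/
lemma hasDerivAt_rot {γ : ℝ → C5} {γ' : C5} {t : ℝ} (h : HasDerivAt γ γ' t) :
    HasDerivAt (fun s => rot s (γ s)) ((Real.pi : ℝ) • JJ (rot t (γ t)) + rot t γ') t := by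
  rw [hasDerivAt_pi]
  have hj := hasDerivAt_pi.1 h
  have hc := hasDerivAt_cc t
  have hs := hasDerivAt_ss t
  intro k
  fin_cases k
  · refine ((hc.fun_mul (hj 0)).fun_add (hs.fun_mul (hj 1))).congr_deriv ?_
    simp [Pi.add_apply, Pi.smul_apply]
    ring
  · refine ((hs.fun_neg.fun_mul (hj 0)).fun_add (hc.fun_mul (hj 1))).congr_deriv ?_
    simp [Pi.add_apply, Pi.smul_apply]
    ring
  · refine ((hc.fun_mul (hj 2)).fun_add (hs.fun_mul (hj 3))).congr_deriv ?_
    simp [Pi.add_apply, Pi.smul_apply]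
    ring
  · refine ((hs.fun_neg.fun_mul (hj 2)).fun_add (hc.fun_mul (hj 3))).congr_deriv ?_
    simp [Pi.add_apply, Pi.smul_apply]
    ring
  · refine (hj 4).congr_deriv ?_
    simp [Pi.add_apply, Pi.smul_apply]

/-- Derivative of a curve under a fixed rotation. -/
lemma hasDerivAt_rot_const (r : ℝ) {γ : ℝ → C5} {γ' : C5} {t : ℝ} (h : HasDerivAt γ γ' t) :
    HasDerivAt (fun s => rot r (γ s)) (rot r γ') t := by
  rw [hasDerivAt_pi]
  have hj := hasDerivAt_pi.1 h
  intro k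
  fin_cases k
  · exact ((hj 0).const_mul (cc r)).fun_add ((hj 1).const_mul (ss r))
  · exact ((hj 0).const_mul (-ss r)).fun_add ((hj 1).const_mul (cc r))
  · exact ((hj 2).const_mul (cc r)).fun_add ((hj 3).const_mul (ss r))
  · exact ((hj 2).const_mul (-ss r)).fun_add ((hj 3).const_mul (cc r))
  · exact hj 4

lemma contDiff_cc : ContDiff ℝ (⊤ : ℕ∞) cc :=
  Complex.ofRealCLM.contDiff.comp (Real.contDiff_cos.comp (contDiff_const.mul contDiff_id))

lemma contDiff_ss : ContDiff ℝ (⊤ : ℕ∞) ss :=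
  Complex.ofRealCLM.contDiff.comp (Real.contDiff_sin.comp (contDiff_const.mul contDiff_id))

/-- Joint smoothness of the rotation applied to a smooth family. -/
lemma contDiff_rot {X : Type*} [NormedAddCommGroup X] [NormedSpace ℝ X] {τ : X → ℝ} {f : X → C5}
    (hτ : ContDiff ℝ (⊤ : ℕ∞) τ) (hf : ContDiff ℝ (⊤ : ℕ∞) f) :
    ContDiff ℝ (⊤ : ℕ∞) (fun p => rot (τ p) (f p)) := by
  have hj : ∀ j, ContDiff ℝ (⊤ : ℕ∞) (fun p => f p j) := contDiff_pi.1 hf
  have hc : ContDiff ℝ (⊤ : ℕ∞) (fun p => cc (τ p)) := contDiff_cc.comp hτ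
  have hs : ContDiff ℝ (⊤ : ℕ∞) (fun p => ss (τ p)) := contDiff_ss.comp hτ
  rw [contDiff_pi]
  intro k
  fin_cases k
  · exact (hc.mul (hj 0)).add (hs.mul (hj 1))
  · exact (hs.neg.mul (hj 0)).add (hc.mul (hj 1))
  · exact (hc.mul (hj 2)).add (hs.mul (hj 3))
  · exact (hs.neg.mul (hj 2)).add (hc.mul (hj 3))
  · exact hj 4

/-! ### The Hamilton equation -/

/-- Derivative of the Hamiltonian. -/
noncomputable def dhh (z w : C5) : ℝ :=
  eps * (2 * pp 0 1 z * dp 0 1 z w + 2 * pp 0 2 z * dp 0 2 z w + 2 * pp 0 3 z * dp 0 3 z w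
    - 2 * pp 2 3 z * dp 2 3 z w - 2 * pp 1 3 z * dp 1 3 z w - 2 * pp 1 2 z * dp 1 2 z w
    - dp 0 1 z w - dp 2 3 z w - dp 0 3 z w + dp 1 2 z w)

lemma hasDerivAt_hh {γ : ℝ → C5} {γ' : C5} {t : ℝ} (h : HasDerivAt γ γ' t) :
    HasDerivAt (fun s => hh (γ s)) (dhh (γ t) γ') t := by
  have p : ∀ a b, HasDerivAt (fun s => pp a b (γ s)) (dp a b (γ t) γ') t :=
    fun a b => hasDerivAt_pp h a b
  have h1 := (p 0 1).fun_pow 2
  have h2 := (p 0 2).fun_pow 2
  have h3 := (p 0 3).fun_pow 2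
  have h4 := (p 2 3).fun_pow 2
  have h5 := (p 1 3).fun_pow 2
  have h6 := (p 1 2).fun_pow 2
  have S := ((((((((h1.fun_add h2).fun_add h3).fun_sub h4).fun_sub h5).fun_sub h6).fun_sub
    (p 0 1)).fun_sub (p 2 3)).fun_sub (p 0 3)).fun_add (p 1 2)
  have := S.const_mul eps
  refine this.congr_deriv ?_
  simp [dhh]

lemma herm_V_im (z w : C5) : 2 * (herm (V z) w).im = dhh z w := by
  simp [herm, Fin.sum_univ_five, V, act, coef, dhh, dp, pp_eq, Complex.mul_re, Complex.mul_im]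
  ring

lemma herm_J_im (x w : C5) : 2 * (herm (JJ x) w).im = dp 0 1 x w + dp 2 3 x w := by
  simp [herm, Fin.sum_univ_five, dp, Complex.mul_im]
  ring

lemma contDiff_hh : ContDiff ℝ (⊤ : ℕ∞) hh := by
  unfold hh
  have p := contDiff_pp
  have h1 := (p 0 1).pow 2
  have h2 := (p 0 2).pow 2
  have h3 := (p 0 3).pow 2
  have h4 := (p 2 3).pow 2
  have h5 := (p 1 3).pow 2
  have h6 := (p 1 2).pow 2
  have S := ((((((((h1.add h2).add h3).sub h4).sub h5).sub h6).sub
    (p 0 1)).sub (p 2 3)).sub (p 0 3)).add (p 1 2)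
  exact contDiff_const.mul S

/-- The lifted isotopy. -/
noncomputable def Psi (p : ℝ × C5) : C5 := rot p.1 (Phi p)

/-- The time dependent Hamiltonian. -/
noncomputable def HH (p : ℝ × C5) : ℝ :=
  Real.pi * (pp 0 1 p.2 + pp 2 3 p.2) + hh (rot (-p.1) p.2)

lemma contDiff_Psi : ContDiff ℝ (⊤ : ℕ∞) Psi := contDiff_rot contDiff_fst Phi_smooth

lemma contDiff_HH : ContDiff ℝ (⊤ : ℕ∞) HH := by
  unfold HH
  have h1 : ContDiff ℝ (⊤ : ℕ∞) (fun p : ℝ × C5 => rot (-p.1) p.2) :=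
    contDiff_rot contDiff_fst.neg contDiff_snd
  exact (contDiff_const.mul (((contDiff_pp 0 1).comp contDiff_snd).add
    ((contDiff_pp 2 3).comp contDiff_snd))).add (contDiff_hh.comp h1)

lemma hh_smul {c : ℂ} (hc : ‖c‖ = 1) (z : C5) : hh (c • z) = hh z := by
  simp [hh, pp_smul hc]

lemma hasDerivAt_Psi (t : ℝ) (z : C5) :
    HasDerivAt (fun s => Psi (s, z))
      ((Real.pi : ℝ) • JJ (Psi (t, z)) + rot t (V (Phi (t, z)))) t :=
  hasDerivAt_rot (Phi_deriv t z)

lemma fderiv_HH (t : ℝ) (x w : C5) :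
    fderiv ℝ (fun y : C5 => HH (t, y)) x w =
      Real.pi * (dp 0 1 x w + dp 2 3 x w) + dhh (rot (-t) x) (rot (-t) w) := by
  have hd : DifferentiableAt ℝ (fun y : C5 => HH (t, y)) x :=
    (contDiff_HH.differentiable (by simp)).comp (by fun_prop) x
  refine fderiv_eq_of_line hd ?_
  have hl := line_curve x w
  have h0 : x + (0:ℝ) • w = x := by simp
  have h1 := hasDerivAt_pp hl 0 1
  have h2 := hasDerivAt_pp hl 2 3
  rw [h0] at h1 h2
  have h3 : HasDerivAt (fun s : ℝ => rot (-t) (x + s • w)) (rot (-t) w) 0 :=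
    hasDerivAt_rot_const (-t) hl
  have h4 := hasDerivAt_hh h3
  rw [h0] at h4
  exact ((h1.fun_add h2).const_mul Real.pi).fun_add h4

/-- The Hamilton equation, for all vectors. -/
lemma hamilton_eq (t : ℝ) (z w : C5) :
    2 * (herm (deriv (fun s : ℝ => Psi (s, z)) t) w).im =
      fderiv ℝ (fun y : C5 => HH (t, y)) (Psi (t, z)) w := by
  rw [(hasDerivAt_Psi t z).deriv, fderiv_HH, herm_add, herm_rsmul, herm_rot]
  have h1 : rot (-t) (Psi (t, z)) = Phi (t, z) := rot_neg_rot t _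
  rw [h1, Complex.add_im, Complex.im_ofReal_mul, mul_add, ← herm_V_im, ← herm_J_im]
  ring

/-- The Hamiltonian cone lift. -/
noncomputable def lift : Crest.GeometryTopology.Quadric.HamiltonianConeLift where
  Ψ := Psi
  H := HH
  smooth_Ψ := contDiff_Psi
  smooth_H := contDiff_HH
  mapsTo_cone := by
    intro t z hz
    have h := Phi_mem_cone hz t
    rw [mem_cone_iff] at h ⊢
    exact ⟨(rot_QQ t _).trans h.1, (rot_qq t _).trans h.2⟩
  compatible := by
    intro t z _ c hc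
    refine ⟨c, ?_⟩
    show rot t (Phi (t, c • z)) = c • rot t (Phi (t, z))
    rw [Phi_smul hc, rot_smul]
  start := by
    intro z _
    refine ⟨1, ?_⟩
    show rot 0 (Phi (0, z)) = (1 : ℂ) • z
    rw [rot_zero, Phi_zero, one_smul]
  invariant := by
    intro t z _ c hc
    show Real.pi * (pp 0 1 (c • z) + pp 2 3 (c • z)) + hh (rot (-t) (c • z)) =
      Real.pi * (pp 0 1 z + pp 2 3 z) + hh (rot (-t) z)
    rw [pp_smul hc, pp_smul hc, rot_smul, hh_smul hc]
  hamilton := by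
    intro t _ z _ w _
    exact hamilton_eq t z w

end Crest.Agent.Lib.QuadricLift
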