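import Mathlib
import Crest.Agent.Lib.QuadricLift

/-!
# The fixed lines of the time-one map and the degenerate fixed point
-/

set_option autoImplicit false
set_option linter.unusedSectionVars false

open Set Filter Metric
open scoped Topology ContDiff NNReal ComplexConjugate

namespace Crest.Agent.Lib.QuadricEnd

open Crest.Agent.Lib.QuadricFlow Crest.Agent.Lib.QuadricFix Crest.Agent.Lib.QuadricLift
open Crest.GeometryTopology.Quadric (herm unitCone coneTangent fixedLines HasDegenerateFixedPoint)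

lemma QQ_eq_norm (z : C5) : QQ z = ∑ j, ‖z j‖ ^ 2 := by
  simp only [QQ]
  apply Finset.sum_congr rfl
  intro j _
  rw [Complex.sq_norm, Complex.normSq_apply]; ring

lemma coord_le {y : C5} (hy : QQ y = 1) (j : Fin 5) : ‖y j‖ ≤ 1 := by
  have h : ‖y j‖ ^ 2 ≤ QQ y := by
    rw [QQ_eq_norm]
    exact Finset.single_le_sum (f := fun j => ‖y j‖ ^ 2) (fun i _ => by positivity)
      (Finset.mem_univ j)
  rw [hy] at h
  have h0 := norm_nonneg (y j)
  nlinarith

lemma tri_le {a b c : ℂ} (ha : ‖a‖ ≤ 3 / 100) (hb : ‖b‖ ≤ 3 / 100) (hc : ‖c‖ ≤ 3 / 100) :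
    ‖a + b + c‖ ≤ 9 / 100 := by
  have := norm_add₃_le (a := a) (b := b) (c := c)
  linarith

lemma coef_bound {y : C5} (hy : QQ y = 1) :
    |(coef y).a01| ≤ 3 / 100 ∧ |(coef y).a02| ≤ 3 / 100 ∧ |(coef y).a03| ≤ 3 / 100 ∧
    |(coef y).a12| ≤ 3 / 100 ∧ |(coef y).a13| ≤ 3 / 100 ∧ |(coef y).a23| ≤ 3 / 100 := by
  have h : ∀ a b : Fin 5, a ≠ b → |pp a b y| ≤ 1 := fun a b hab => hy ▸ pp_abs_le a b hab y
  have h01 := abs_le.1 (h 0 1 (by decide))
  have h02 := abs_le.1 (h 0 2 (by decide))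
  have h03 := abs_le.1 (h 0 3 (by decide))
  have h12 := abs_le.1 (h 1 2 (by decide))
  have h13 := abs_le.1 (h 1 3 (by decide))
  have h23 := abs_le.1 (h 2 3 (by decide))
  simp only [coef, eps]
  refine ⟨?_, ?_, ?_, ?_, ?_, ?_⟩ <;> rw [abs_le] <;> constructor <;>
    linarith [h01.1, h01.2, h02.1, h02.2, h03.1, h03.2, h12.1, h12.2, h13.1, h13.2, h23.1, h23.2]

lemma term_le {a : ℝ} {w : ℂ} (ha : |a| ≤ 3 / 100) (hw : ‖w‖ ≤ 1) : ‖(a : ℂ) * w‖ ≤ 3 / 100 := by
  rw [norm_mul, Complex.norm_real, Real.norm_eq_abs]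
  calc |a| * ‖w‖ ≤ 3 / 100 * 1 := by gcongr
    _ = 3 / 100 := by ring

lemma term_le' {a : ℝ} {w : ℂ} (ha : |a| ≤ 3 / 100) (hw : ‖w‖ ≤ 1) : ‖-(a : ℂ) * w‖ ≤ 3 / 100 := by
  rw [neg_mul, norm_neg]; exact term_le ha hw

lemma V_norm_le {y : C5} (hy : QQ y = 1) (k : Fin 5) : ‖V y k‖ ≤ 9 / 100 := by
  obtain ⟨c1, c2, c3, c4, c5, c6⟩ := coef_bound hy
  have hj := coord_le hy
  fin_cases k
  · exact tri_le (term_le c1 (hj 1)) (term_le c2 (hj 2)) (term_le c3 (hj 3))
  · exact tri_le (term_le' c1 (hj 0)) (term_le c4 (hj 2)) (term_le c5 (hj 3))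
  · have : V y 2 = -((coef y).a02 : ℂ) * y 0 + -((coef y).a12 : ℂ) * y 1 + ((coef y).a23 : ℂ) * y 3 := by
      simp [V, act]; ring
    show ‖V y 2‖ ≤ _
    rw [this]
    exact tri_le (term_le' c2 (hj 0)) (term_le' c4 (hj 1)) (term_le c6 (hj 3))
  · have : V y 3 = -((coef y).a03 : ℂ) * y 0 + -((coef y).a13 : ℂ) * y 1 + -((coef y).a23 : ℂ) * y 2 := by
      simp [V, act]; ring
    show ‖V y 3‖ ≤ _
    rw [this]
    exact tri_le (term_le' c3 (hj 0)) (term_le' c5 (hj 1)) (term_le' c6 (hj 2))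
  · simp [V, act]
    norm_num

/-- The flow cannot reach the antipode of the first four coordinates at time one. -/
lemma no_antipodal {z : C5} (hz : z ∈ unitCone) (h : ∀ a : Fin 5, a ≠ 4 → Phi (1, z) a = -z a) :
    False := by
  rw [mem_cone_iff] at hz
  obtain ⟨hQ, hq⟩ := hz
  have hsmall : ∀ a : Fin 5, a ≠ 4 → ‖z a‖ ≤ 9 / 200 := by
    intro a ha
    have hd : ∀ s ∈ Icc (0:ℝ) 1, HasDerivWithinAt (fun s => Phi (s, z) a)
        (V (Phi (s, z)) a) (Icc 0 1) s := fun s _ =>
      (hasDerivAt_pi.1 (Phi_deriv s z) a).hasDerivWithinAt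
    have hb : ∀ s ∈ Ico (0:ℝ) 1, ‖V (Phi (s, z)) a‖ ≤ 9 / 100 := fun s _ =>
      V_norm_le ((Phi_QQ s z).trans hQ) a
    have := norm_image_sub_le_of_norm_deriv_le_segment' hd hb 1 (right_mem_Icc.2 zero_le_one)
    simp only [Phi_zero, h a ha] at this
    have h2 : -z a - z a = (-2 : ℂ) * z a := by ring
    rw [h2, norm_mul] at this
    simp at this
    linarith
  have h0 := hsmall 0 (by decide)
  have h1 := hsmall 1 (by decide)
  have h2 := hsmall 2 (by decide)
  have h3 := hsmall 3 (by decide)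
  have hq' : z 4 ^ 2 = -(z 0 ^ 2 + z 1 ^ 2 + z 2 ^ 2 + z 3 ^ 2) := by
    simp only [qq, Fin.sum_univ_five] at hq
    linear_combination hq
  have h4 : ‖z 4‖ ^ 2 ≤ ‖z 0‖ ^ 2 + ‖z 1‖ ^ 2 + ‖z 2‖ ^ 2 + ‖z 3‖ ^ 2 := by
    rw [← norm_pow, hq', norm_neg]
    refine (norm_add_le _ _).trans ?_
    have e1 := norm_add₃_le (a := z 0 ^ 2) (b := z 1 ^ 2) (c := z 2 ^ 2)
    simp only [norm_pow] at e1 ⊢
    linarith
  have hQ' := hQ
  rw [QQ_eq_norm, Fin.sum_univ_five] at hQ'
  have n0 := norm_nonneg (z 0)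
  have n1 := norm_nonneg (z 1)
  have n2 := norm_nonneg (z 2)
  have n3 := norm_nonneg (z 3)
  have s0 : ‖z 0‖ ^ 2 ≤ (9 / 200) ^ 2 := by gcongr
  have s1 : ‖z 1‖ ^ 2 ≤ (9 / 200) ^ 2 := by gcongr
  have s2 : ‖z 2‖ ^ 2 ≤ (9 / 200) ^ 2 := by gcongr
  have s3 : ‖z 3‖ ^ 2 ≤ (9 / 200) ^ 2 := by gcongr
  norm_num at s0 s1 s2 s3
  linarith

lemma QQ_smul (c : ℂ) (z : C5) : QQ (c • z) = ‖c‖ ^ 2 * QQ z := by
  rw [QQ_eq_norm, QQ_eq_norm, Finset.mul_sum]
  apply Finset.sum_congr rfl
  intro j _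
  simp only [Pi.smul_apply, smul_eq_mul, norm_mul]
  ring

lemma xy_smul {c : ℂ} (hc : ‖c‖ = 1) (z : C5) : xy (c • z) = xy z := by
  simp [xy, pp_smul hc]

lemma psi_eq (p : ℝ × C5) : lift.Ψ p = rot p.1 (Phi p) := rfl

/-- The three parameters. -/
lemma par_r : (0:ℝ) * (1 / 2) = 1 - 2 * (1 / 2) ∧ (0:ℝ) * (-1 / 2) = 1 + 2 * (-1 / 2) ∧
    ((1:ℝ) / 2) ^ 2 + (-1 / 2) ^ 2 = 1 / 2 := by norm_num

lemma par_p : (2 * s3) * ((s3 - 1) / 4) = 1 - 2 * ((s3 - 1) / 4) ∧
    (2 * s3) * ((s3 + 1) / 4) = 1 + 2 * ((s3 + 1) / 4) ∧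
    ((s3 - 1) / 4) ^ 2 + ((s3 + 1) / 4) ^ 2 = 1 / 2 := by
  have h := s3_sq
  exact ⟨by linear_combination (1 / 2 : ℝ) * h, by linear_combination (1 / 2 : ℝ) * h,
    by linear_combination (1 / 8 : ℝ) * h⟩

lemma par_m : (-2 * s3) * ((-s3 - 1) / 4) = 1 - 2 * ((-s3 - 1) / 4) ∧
    (-2 * s3) * ((1 - s3) / 4) = 1 + 2 * ((1 - s3) / 4) ∧
    ((-s3 - 1) / 4) ^ 2 + ((1 - s3) / 4) ^ 2 = 1 / 2 := by
  have h := s3_sq
  exact ⟨by linear_combination (1 / 2 : ℝ) * h, by linear_combination (1 / 2 : ℝ) * h,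
    by linear_combination (1 / 8 : ℝ) * h⟩

lemma rot_one_zl (α β : ℝ) : rot 1 (zl α β) = (-1 : ℂ) • zl α β := by
  funext k
  fin_cases k
  · show rot 1 (zl α β) 0 = _
    rw [rot_one_0]; simp
  · show rot 1 (zl α β) 1 = _
    rw [rot_one_1]; simp
  · show rot 1 (zl α β) 2 = _
    rw [rot_one_2]; simp
  · show rot 1 (zl α β) 3 = _
    rw [rot_one_3]; simp
  · simp

lemma mem_fixed {α β κ : ℝ} (h1 : κ * α = 1 - 2 * α) (h2 : κ * β = 1 + 2 * β)
    (h3 : α ^ 2 + β ^ 2 = 1 / 2) : Submodule.span ℂ {zl α β} ∈ fixedLines lift := by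
  refine ⟨zl α β, zl_cone h3, rfl, ?_⟩
  rw [Submodule.mem_span_singleton]
  refine ⟨-Complex.exp (Complex.I * ((κ * eps * 1 : ℝ) : ℂ)), ?_⟩
  rw [psi_eq]
  simp only
  rw [Phi_zl h1 h2 h3, rot_smul, rot_one_zl, smul_smul]
  congr 1
  ring

lemma span_eq_of_smul {z : C5} {u : ℂ} {x : C5} (hz : QQ z = 1) (h : z = u • x) :
    Submodule.span ℂ {z} = Submodule.span ℂ {x} := by
  have hu : u ≠ 0 := by
    rintro rfl
    rw [zero_smul] at h
    rw [h] at hz
    simp [QQ] at hz
  rw [h]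
  exact Submodule.span_singleton_smul_eq (IsUnit.mk0 u hu) x

/-- The three fixed lines. -/
theorem fixedLines_lift : fixedLines lift =
    {Submodule.span ℂ {zl (1 / 2) (-1 / 2)},
     Submodule.span ℂ {zl ((s3 - 1) / 4) ((s3 + 1) / 4)},
     Submodule.span ℂ {zl ((-s3 - 1) / 4) ((1 - s3) / 4)}} := by
  apply Set.Subset.antisymm
  · rintro ℓ ⟨z, hz, rfl, hmem⟩
    rw [Submodule.mem_span_singleton] at hmem
    obtain ⟨c, hc⟩ := hmem
    rw [psi_eq] at hc
    simp only at hc
    have hk : ∀ k, c * z k = rot 1 (Phi (1, z)) k := fun k => congrFun hc k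
    have hz' := (mem_cone_iff z).1 hz
    have h4' := hk 4
    rw [rot_4, Phi_four] at h4'
    by_cases h4 : z 4 = 0
    · -- the point lies on the quadric surface
      have hy : Phi (1, z) = (-c) • z := by
        funext k
        fin_cases k
        · have := hk 0
          rw [rot_one_0] at this
          simp only [Pi.smul_apply, smul_eq_mul, Fin.zero_eta]
          linear_combination this
        · have := hk 1
          rw [rot_one_1] at this
          show Phi (1, z) 1 = (-c) * z 1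
          linear_combination this
        · have := hk 2
          rw [rot_one_2] at this
          show Phi (1, z) 2 = (-c) * z 2
          linear_combination this
        · have := hk 3
          rw [rot_one_3] at this
          show Phi (1, z) 3 = (-c) * z 3
          linear_combination this
        · show Phi (1, z) 4 = (-c) * z 4
          rw [Phi_four, h4]; ring
      have hcn : ‖-c‖ = 1 := by
        have h1 := Phi_QQ 1 z
        rw [hy, QQ_smul, hz'.1] at h1
        have h0 := norm_nonneg (-c)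
        nlinarith
      have hper : xy (Phi (0, z)) = xy (Phi (1, z)) := by
        rw [hy, Phi_zero, xy_smul hcn]
      have hW := WW_zero_of_periodic hz'.1 hper
      rcases crit_line hz'.1 hz'.2 h4 hW with h | h | h
      · have := span_eq_of_smul hz'.1 h
        simp [this]
      · have := span_eq_of_smul hz'.1 h
        simp [this]
      · have := span_eq_of_smul hz'.1 h
        simp [this]
    · exfalso
      have hc1 : c = 1 := by
        have : (c - 1) * z 4 = 0 := by linear_combination h4'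
        exact sub_eq_zero.1 ((mul_eq_zero.1 this).resolve_right h4)
      subst hc1
      refine no_antipodal hz fun a ha => ?_
      fin_cases a
      · have := hk 0
        rw [rot_one_0] at this
        show Phi (1, z) 0 = - z 0
        linear_combination this
      · have := hk 1
        rw [rot_one_1] at this
        show Phi (1, z) 1 = - z 1
        linear_combination this
      · have := hk 2
        rw [rot_one_2] at this
        show Phi (1, z) 2 = - z 2
        linear_combination this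
      · have := hk 3
        rw [rot_one_3] at this
        show Phi (1, z) 3 = - z 3
        linear_combination this
      · exact absurd rfl ha
  · intro ℓ hℓ
    simp only [Set.mem_insert_iff, Set.mem_singleton_iff] at hℓ
    rcases hℓ with rfl | rfl | rfl
    · exact mem_fixed par_r.1 par_r.2.1 par_r.2.2
    · exact mem_fixed par_p.1 par_p.2.1 par_p.2.2
    · exact mem_fixed par_m.1 par_m.2.1 par_m.2.2

lemma span_zl_inj {a b a' b' : ℝ} (h : Submodule.span ℂ {zl a b} = Submodule.span ℂ {zl a' b'}) :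
    a = a' ∧ b = b' := by
  have hm : zl a b ∈ Submodule.span ℂ {zl a' b'} := by
    rw [← h]; exact Submodule.mem_span_singleton_self _
  rw [Submodule.mem_span_singleton] at hm
  obtain ⟨c, hc⟩ := hm
  have h1 : c * (-Complex.I / 2) = -Complex.I / 2 := by
    simpa using congrFun hc 1
  have hI : (-Complex.I / 2) ≠ 0 := by simp
  have hc1 : c = 1 := by
    have : (c - 1) * (-Complex.I / 2) = 0 := by linear_combination h1
    exact sub_eq_zero.1 ((mul_eq_zero.1 this).resolve_right hI)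
  subst hc1
  have h0 := congrFun hc 0
  have h2 := congrFun hc 2
  simp at h0 h2
  exact ⟨h0.symm, h2.symm⟩

theorem ncard_fixedLines : (fixedLines lift).ncard = 3 := by
  rw [fixedLines_lift]
  have hs := s3_sq
  have h12 : Submodule.span ℂ {zl (1 / 2) (-1 / 2)} ≠
      Submodule.span ℂ {zl ((s3 - 1) / 4) ((s3 + 1) / 4)} := by
    intro h
    have := (span_zl_inj h).1
    have h3 : s3 = 3 := by linarith
    rw [h3] at hs
    norm_num at hs
  have h13 : Submodule.span ℂ {zl (1 / 2) (-1 / 2)} ≠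
      Submodule.span ℂ {zl ((-s3 - 1) / 4) ((1 - s3) / 4)} := by
    intro h
    have := (span_zl_inj h).1
    have h3 : s3 = -3 := by linarith
    rw [h3] at hs
    norm_num at hs
  have h23 : Submodule.span ℂ {zl ((s3 - 1) / 4) ((s3 + 1) / 4)} ≠
      Submodule.span ℂ {zl ((-s3 - 1) / 4) ((1 - s3) / 4)} := by
    intro h
    have := (span_zl_inj h).1
    have h3 : s3 = 0 := by linarith
    rw [h3] at hs
    norm_num at hs
  have hn : Submodule.span ℂ {zl (1 / 2) (-1 / 2)} ∉
      ({Submodule.span ℂ {zl ((s3 - 1) / 4) ((s3 + 1) / 4)},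
        Submodule.span ℂ {zl ((-s3 - 1) / 4) ((1 - s3) / 4)}} : Set (Submodule ℂ C5)) := by
    intro h
    rcases Set.mem_insert_iff.1 h with h | h
    · exact h12 h
    · exact h13 (Set.mem_singleton_iff.1 h)
  rw [Set.ncard_insert_of_notMem hn, Set.ncard_pair h23]

/-! ### The variational equation -/

lemma var_hasDerivAt (x w : C5) (t : ℝ) :
    HasDerivAt (fun s => fderiv ℝ (fun y : C5 => Phi (s, y)) x w)
      (fderiv ℝ V (Phi (t, x)) (fderiv ℝ (fun y : C5 => Phi (t, y)) x w)) t := by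
  set G := fderiv ℝ Phi with hGdef
  have hdiff : Differentiable ℝ Phi := Phi_smooth.differentiable (by simp)
  have hG : ContDiff ℝ (⊤ : ℕ∞) G := Phi_smooth.fderiv_right (by simp)
  have hGd : Differentiable ℝ G := hG.differentiable (by simp)
  have hpart : ∀ s y, fderiv ℝ (fun y : C5 => Phi (s, y)) y w = G (s, y) (0, w) := by
    intro s y
    have h1 : HasFDerivAt (fun y : C5 => Phi (s, y))
        ((G (s, y)) ∘L ContinuousLinearMap.inr ℝ ℝ C5) y :=
      (hdiff (s, y)).hasFDerivAt.comp y (hasFDerivAt_prodMk_right s y)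
    rw [h1.fderiv]
    rfl
  have hcurve : ∀ s (y : C5), HasDerivAt (fun r : ℝ => (r, y)) ((1 : ℝ), (0 : C5)) s := fun s y =>
    (hasDerivAt_id s).prodMk (hasDerivAt_const s y)
  have htime : ∀ p : ℝ × C5, G p (1, 0) = V (Phi p) := by
    rintro ⟨s, y⟩
    have h1 := (hdiff (s, y)).hasFDerivAt.comp_hasDerivAt s (hcurve s y)
    exact h1.unique (Phi_deriv s y)
  set D2 := fderiv ℝ G (t, x) with hD2
  have hsym : D2 (1, 0) (0, w) = D2 (0, w) (1, 0) := by
    have hs : IsSymmSndFDerivAt ℝ Phi (t, x) :=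
      (Phi_smooth.contDiffAt).isSymmSndFDerivAt (by
        simp only [minSmoothness_of_isRCLikeNormedField]
        exact WithTop.coe_le_coe.2 (le_top : (2 : ℕ∞) ≤ ⊤))
    exact hs _ _
  have h1 : HasDerivAt (fun s => G (s, x)) (D2 (1, 0)) t :=
    (hGd (t, x)).hasFDerivAt.comp_hasDerivAt t (hcurve t x)
  have h2 : HasDerivAt (fun s => G (s, x) (0, w)) (D2 (1, 0) (0, w)) t := by
    have := (ContinuousLinearMap.apply ℝ C5 ((0, w) : ℝ × C5)).hasFDerivAt.comp_hasDerivAt t h1
    exact this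
  have h3 : D2 (0, w) (1, 0) = fderiv ℝ V (Phi (t, x)) (G (t, x) (0, w)) := by
    have hA1 : HasFDerivAt (fun p => G p (1, 0))
        ((ContinuousLinearMap.apply ℝ C5 (((1 : ℝ), (0 : C5)) : ℝ × C5)) ∘L D2) (t, x) :=
      (ContinuousLinearMap.apply ℝ C5 (((1 : ℝ), (0 : C5)) : ℝ × C5)).hasFDerivAt.comp (t, x)
        (hGd (t, x)).hasFDerivAt
    have hVd : DifferentiableAt ℝ V (Phi (t, x)) := contDiff_V.differentiable (by simp) _
    have hA2 : HasFDerivAt (fun p => V (Phi p)) ((fderiv ℝ V (Phi (t, x))) ∘L (G (t, x))) (t, x) :=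
      hVd.hasFDerivAt.comp (t, x) (hdiff (t, x)).hasFDerivAt
    have hfun : (fun p => G p (1, 0)) = fun p => V (Phi p) := funext htime
    rw [hfun] at hA1
    have := hA1.unique hA2
    have h4 := congrArg (fun T : ℝ × C5 →L[ℝ] C5 => T (0, w)) this
    exact h4
  have hfun : (fun s => fderiv ℝ (fun y : C5 => Phi (s, y)) x w) = fun s => G (s, x) (0, w) :=
    funext fun s => hpart s x
  rw [hfun, hpart, ← h3, ← hsym]
  exact h2

/-! ### Derivative of the vector field -/

/-- Derivative of the coefficients. -/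
noncomputable def dcoef (z w : C5) : Co where
  a01 := eps * (2 * dp 0 1 z w)
  a02 := eps * (2 * dp 0 2 z w)
  a03 := eps * (2 * dp 0 3 z w)
  a12 := eps * (-(2 * dp 1 2 z w))
  a13 := eps * (-2 * dp 1 3 z w)
  a23 := eps * (-2 * dp 2 3 z w)

lemma hasDerivAt_V {γ : ℝ → C5} {γ' : C5} {t : ℝ} (h : HasDerivAt γ γ' t) :
    HasDerivAt (fun s => V (γ s)) (act (dcoef (γ t) γ') (γ t) + act (coef (γ t)) γ') t := by
  have p : ∀ a b, HasDerivAt (fun s => pp a b (γ s)) (dp a b (γ t) γ') t :=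
    fun a b => hasDerivAt_pp h a b
  have hj := hasDerivAt_pi.1 h
  have c01 : HasDerivAt (fun s => ((coef (γ s)).a01 : ℂ)) ((dcoef (γ t) γ').a01 : ℂ) t :=
    HasDerivAt.ofReal_comp (by
      have := (((p 0 1).const_mul 2).sub_const 1).const_mul eps
      exact this)
  have c02 : HasDerivAt (fun s => ((coef (γ s)).a02 : ℂ)) ((dcoef (γ t) γ').a02 : ℂ) t :=
    HasDerivAt.ofReal_comp (by
      have := ((p 0 2).const_mul 2).const_mul eps
      exact this)
  have c03 : HasDerivAt (fun s => ((coef (γ s)).a03 : ℂ)) ((dcoef (γ t) γ').a03 : ℂ) t :=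
    HasDerivAt.ofReal_comp (by
      have := (((p 0 3).const_mul 2).sub_const 1).const_mul eps
      exact this)
  have c12 : HasDerivAt (fun s => ((coef (γ s)).a12 : ℂ)) ((dcoef (γ t) γ').a12 : ℂ) t :=
    HasDerivAt.ofReal_comp (by
      have := (((p 1 2).const_mul 2).const_sub 1).const_mul eps
      exact this)
  have c13 : HasDerivAt (fun s => ((coef (γ s)).a13 : ℂ)) ((dcoef (γ t) γ').a13 : ℂ) t :=
    HasDerivAt.ofReal_comp (by
      have := ((p 1 3).const_mul (-2)).const_mul eps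
      exact this)
  have c23 : HasDerivAt (fun s => ((coef (γ s)).a23 : ℂ)) ((dcoef (γ t) γ').a23 : ℂ) t :=
    HasDerivAt.ofReal_comp (by
      have := (((p 2 3).const_mul (-2)).sub_const 1).const_mul eps
      exact this)
  rw [hasDerivAt_pi]
  intro k
  fin_cases k
  · refine (((c01.fun_mul (hj 1)).fun_add (c02.fun_mul (hj 2))).fun_add (c03.fun_mul (hj 3))).congr_deriv ?_
    simp [act]
    ring
  · refine (((c01.fun_neg.fun_mul (hj 0)).fun_add (c12.fun_mul (hj 2))).fun_add (c13.fun_mul (hj 3))).congr_deriv ?_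
    simp [act]
    ring
  · refine (((c02.fun_neg.fun_mul (hj 0)).fun_sub (c12.fun_mul (hj 1))).fun_add (c23.fun_mul (hj 3))).congr_deriv ?_
    simp [act]
    ring
  · refine (((c03.fun_neg.fun_mul (hj 0)).fun_sub (c13.fun_mul (hj 1))).fun_sub (c23.fun_mul (hj 2))).congr_deriv ?_
    simp [act]
    ring
  · refine (hasDerivAt_const t (0 : ℂ)).congr_deriv ?_
    simp [act]

lemma fderiv_V (z w : C5) : fderiv ℝ V z w = act (dcoef z w) z + act (coef z) w := by
  refine fderiv_eq_of_line (contDiff_V.differentiable (by simp) z) ?_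
  have := hasDerivAt_V (line_curve z w)
  simpa using this

/-! ### The degenerate fixed point -/

/-- The degenerate fixed point. -/
noncomputable def zr : C5 := zl (1 / 2) (-1 / 2)

/-- The degenerate tangent direction. -/
noncomputable def wr : C5 := ![1 / 2, 0, 1 / 2, 0, 0]

/-- The vertical correction. -/
noncomputable def br : C5 := (((-2 * eps : ℝ) : ℂ) * Complex.I) • zr

lemma coef_zr : coef zr = ⟨0, 0, 0, 0, 0, 0⟩ := by
  simp only [coef, zr, pp_zl_01, pp_zl_02, pp_zl_03, pp_zl_12, pp_zl_13, pp_zl_23]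
  congr 1 <;> norm_num

lemma Phi_zr (t : ℝ) : Phi (t, zr) = zr := by
  have := Phi_zl par_r.1 par_r.2.1 par_r.2.2 t
  simpa [zr] using this

lemma L_wr : fderiv ℝ V zr wr = br := by
  rw [fderiv_V, coef_zr]
  funext k
  have hI : Complex.I * Complex.I = -1 := Complex.I_mul_I
  fin_cases k <;>
    simp [act, dcoef, dp, wr, br, zr] <;> ring_nf <;> simp <;> ring

lemma L_br : fderiv ℝ V zr br = 0 := by
  rw [fderiv_V, coef_zr]
  funext k
  have hI : Complex.I * Complex.I = -1 := Complex.I_mul_I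
  fin_cases k <;>
    simp [act, dcoef, dp, br, zr, Complex.mul_re, Complex.mul_im] <;> ring_nf <;> simp

lemma fderiv_Phi_zero (x w : C5) : fderiv ℝ (fun y : C5 => Phi (0, y)) x w = w := by
  have : (fun y : C5 => Phi (0, y)) = id := funext Phi_zero
  rw [this]
  simp

/-- The solution of the variational equation at the degenerate fixed point. -/
lemma var_zr : fderiv ℝ (fun y : C5 => Phi (1, y)) zr wr = wr + br := by
  set L := fderiv ℝ V zr with hL
  let f : ℝ → C5 := fun s => fderiv ℝ (fun y : C5 => Phi (s, y)) zr wr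
  let g : ℝ → C5 := fun s => wr + s • br
  have hf : ∀ t, HasDerivAt f (L (f t)) t := by
    intro t
    have := var_hasDerivAt zr wr t
    rwa [Phi_zr] at this
  have hg : ∀ t, HasDerivAt g (L (g t)) t := by
    intro t
    have h1 : HasDerivAt g br t := by
      have := ((hasDerivAt_id t).smul_const br).const_add wr
      simpa [g] using this
    refine h1.congr_deriv ?_
    simp only [g, map_add, map_smul]
    rw [L_wr, L_br]
    simp
  have hu := ODE_solution_unique (v := fun _ => L) (K := ‖L‖₊) (f := f) (g := g) (a := 0) (b := 1)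
    (fun _ => L.lipschitz)
    (fun t _ => (hf t).continuousAt.continuousWithinAt)
    (fun t _ => (hf t).hasDerivWithinAt)
    (fun t _ => (hg t).continuousAt.continuousWithinAt)
    (fun t _ => (hg t).hasDerivWithinAt)
    (by simp [f, g, fderiv_Phi_zero])
  have := hu (right_mem_Icc.2 zero_le_one)
  simpa [f, g] using this

lemma zr_cone : zr ∈ unitCone := zl_cone par_r.2.2

lemma wr0 : wr 0 = 1 / 2 := rfl
lemma wr1 : wr 1 = 0 := rfl
lemma wr2 : wr 2 = 1 / 2 := rfl
lemma wr3 : wr 3 = 0 := rfl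
lemma wr4 : wr 4 = 0 := rfl
lemma zr4 : zr 4 = 0 := rfl

lemma herm_zr_wr : herm zr wr = 0 := by
  simp only [herm, Fin.sum_univ_five, zr, zl_0, zl_1, zl_2, zl_3, zl_4, Complex.conj_ofReal,
    wr0, wr1, wr2, wr3, wr4]
  push_cast
  ring

theorem degenerate : HasDegenerateFixedPoint lift := by
  refine ⟨zr, zr_cone, -1, ?_, wr, ⟨?_, ?_⟩, ?_, -2 * eps, ?_⟩
  · rw [psi_eq]
    simp only
    rw [Phi_zr, zr, rot_one_zl]
  · rw [herm_zr_wr]; rfl
  · simp [Fin.sum_univ_five, wr, zr]
    ring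
  · intro r h
    have := congrFun h 0
    have h2 := congrArg Complex.re this
    simp [wr, zr] at h2
  · have hd : DifferentiableAt ℝ (fun y : C5 => Phi (1, y)) zr :=
      (Phi_smooth.differentiable (by simp)).comp (by fun_prop) zr
    have hd' : DifferentiableAt ℝ (fun y : C5 => lift.Ψ (1, y)) zr :=
      (contDiff_Psi.differentiable (by simp)).comp (by fun_prop) zr
    have hline : HasDerivAt (fun s : ℝ => Phi (1, zr + s • wr)) (wr + br) 0 := by
      have h0 : DifferentiableAt ℝ (fun y : C5 => Phi (1, y)) (zr + (0:ℝ) • wr) := by simpa using hd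
      have h1 := h0.hasFDerivAt.comp_hasDerivAt (0:ℝ) (line_curve zr wr)
      have h2 : fderiv ℝ (fun y : C5 => Phi (1, y)) (zr + (0:ℝ) • wr) wr = wr + br := by
        simp only [zero_smul, add_zero]
        exact var_zr
      rw [h2] at h1
      exact h1
    have h3 := hasDerivAt_rot_const 1 hline
    have h4 : fderiv ℝ (fun y : C5 => lift.Ψ (1, y)) zr wr = rot 1 (wr + br) :=
      fderiv_eq_of_line hd' h3
    rw [h4]
    funext k
    fin_cases k
    · show rot 1 (wr + br) 0 = _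
      rw [rot_one_0]
      simp [br]
    · show rot 1 (wr + br) 1 = _
      rw [rot_one_1]
      simp [br]
    · show rot 1 (wr + br) 2 = _
      rw [rot_one_2]
      simp [br]
    · show rot 1 (wr + br) 3 = _
      rw [rot_one_3]
      simp [br]
    · show rot 1 (wr + br) 4 = _
      rw [rot_4]
      simp [br, wr4, zr4]

end Crest.Agent.Lib.QuadricEnd
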