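import Crest.Agent.Lib.TetCover

/-!
# Radial sweeps: triangular cylinders along a slowly turning axis

Tools for the cover of a ruled sweep by triangular cylinders.
-/

set_option autoImplicit false
set_option linter.unusedSimpArgs false
set_option linter.deprecated false
open MeasureTheory
open scoped ENNReal RealInnerProductSpace

namespace Crest.Agent.Lib.RadialSweep

open Crest.Agent.Lib.TetArea Crest.Agent.Lib.TetMinProj Crest.Agent.Lib.TetFanReal
  Crest.Agent.Lib.TetFan Crest.Agent.Lib.TetCover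

/-! ### Linear algebra -/

lemma gram_pos_of_li {a b : E3} (h : LinearIndependent ℝ ![a, b]) : 0 < gram a b := by
  have hb : b ≠ 0 := by
    intro hb0
    have := LinearIndependent.pair_iff.1 h 0 1 (by simp [hb0])
    simp at this
  have hb' : 0 < ‖b‖ ^ 2 := by positivity
  have h0 := gram_nonneg a b
  rcases h0.lt_or_eq with h1 | h1
  · exact h1
  exfalso
  -- the vector `‖b‖² a - ⟪a, b⟫ b` has squared norm `‖b‖² · gram a b = 0`
  have hz : (‖b‖ ^ 2 : ℝ) • a + (-⟪a, b⟫) • b = 0 := by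
    rw [← inner_self_eq_zero (𝕜 := ℝ)]
    simp only [inner_add_left, inner_add_right, inner_smul_left, inner_smul_right, conj_trivial,
      real_inner_self_eq_norm_sq]
    rw [real_inner_comm a b]
    unfold gram at h1
    linear_combination (-(‖b‖ ^ 2)) * h1
  have := (LinearIndependent.pair_iff.1 h _ _ hz).1
  linarith

/-- Alternation: the determinant vanishes on the span of the first two vectors. -/
lemma det3_span (a b : E3) (s t : ℝ) : det3 a b (s • a + t • b) = 0 := by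
  simp only [det3, PiLp.add_apply, PiLp.smul_apply, smul_eq_mul]
  ring

lemma det3_add (a b x y : E3) : det3 a b (x + y) = det3 a b x + det3 a b y := by
  simp only [det3, PiLp.add_apply]
  ring

lemma det3_smul (a b x : E3) (s : ℝ) : det3 a b (s • x) = s * det3 a b x := by
  simp only [det3, PiLp.smul_apply, smul_eq_mul]
  ring

/-- Determinant of two combinations of `a`, `b`. -/
lemma det3_comb (a b u : E3) (s t s' t' : ℝ) :
    det3 (s • a + t • b) (s' • a + t' • b) u = (s * t' - t * s') * det3 a b u := by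
  simp only [det3, PiLp.add_apply, PiLp.smul_apply, smul_eq_mul]
  ring

lemma prj_of_perp (u x : E3) (h : ⟪x, u⟫ = 0) : prj u x = x := by
  simp [prj, h]

lemma det3_sq_eq_gram (e a b : E3) (he : ‖e‖ = 1) (ha : ⟪a, e⟫ = 0) (hb : ⟪b, e⟫ = 0) :
    det3 a b e ^ 2 = gram a b := by
  rw [← gram_prj e he, prj_of_perp _ _ ha, prj_of_perp _ _ hb]

lemma eq_zero_of_perp (a b e y : E3) (hdet : det3 a b e ≠ 0) (h1 : ⟪y, a⟫ = 0) (h2 : ⟪y, b⟫ = 0)
    (h3 : ⟪y, e⟫ = 0) : y = 0 := by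
  rw [inner3] at h1 h2 h3
  unfold det3 at hdet
  have key0 : (a 0 * (b 1 * e 2 - b 2 * e 1) - a 1 * (b 0 * e 2 - b 2 * e 0) +
      a 2 * (b 0 * e 1 - b 1 * e 0)) * y 0 = 0 := by
    linear_combination (b 1 * e 2 - b 2 * e 1) * h1 + (a 2 * e 1 - a 1 * e 2) * h2 +
      (a 1 * b 2 - a 2 * b 1) * h3
  have key1 : (a 0 * (b 1 * e 2 - b 2 * e 1) - a 1 * (b 0 * e 2 - b 2 * e 0) +
      a 2 * (b 0 * e 1 - b 1 * e 0)) * y 1 = 0 := by
    linear_combination (b 2 * e 0 - b 0 * e 2) * h1 + (a 0 * e 2 - a 2 * e 0) * h2 +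
      (a 2 * b 0 - a 0 * b 2) * h3
  have key2 : (a 0 * (b 1 * e 2 - b 2 * e 1) - a 1 * (b 0 * e 2 - b 2 * e 0) +
      a 2 * (b 0 * e 1 - b 1 * e 0)) * y 2 = 0 := by
    linear_combination (b 0 * e 1 - b 1 * e 0) * h1 + (a 1 * e 0 - a 0 * e 1) * h2 +
      (a 0 * b 1 - a 1 * b 0) * h3
  ext i
  fin_cases i
  · simpa using (mul_eq_zero.1 key0).resolve_left hdet
  · simpa using (mul_eq_zero.1 key1).resolve_left hdet
  · simpa using (mul_eq_zero.1 key2).resolve_left hdet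

/-- Dual coordinate along `a`. -/
noncomputable def dualA (a b x : E3) : ℝ := (‖b‖ ^ 2 * ⟪x, a⟫ - ⟪a, b⟫ * ⟪x, b⟫) / gram a b
/-- Dual coordinate along `b`. -/
noncomputable def dualB (a b x : E3) : ℝ := (‖a‖ ^ 2 * ⟪x, b⟫ - ⟪a, b⟫ * ⟪x, a⟫) / gram a b

lemma decomp (e a b x : E3) (he : ‖e‖ = 1) (ha : ⟪a, e⟫ = 0) (hb : ⟪b, e⟫ = 0)
    (hG : 0 < gram a b) (hx : ⟪x, e⟫ = 0) : x = dualA a b x • a + dualB a b x • b := by
  have hd : det3 a b e ≠ 0 := by
    intro h0
    have := det3_sq_eq_gram e a b he ha hb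
    rw [h0] at this
    simp at this
    linarith
  have hG' : gram a b ≠ 0 := hG.ne'
  rw [← sub_eq_zero]
  apply eq_zero_of_perp a b e _ hd
  · simp only [inner_sub_left, inner_add_left, inner_smul_left, conj_trivial, dualA, dualB,
      real_inner_self_eq_norm_sq, real_inner_comm a b]
    field_simp
    unfold gram
    ring
  · simp only [inner_sub_left, inner_add_left, inner_smul_left, conj_trivial, dualA, dualB,
      real_inner_self_eq_norm_sq]
    field_simp
    unfold gram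
    ring
  · simp only [inner_sub_left, inner_add_left, inner_smul_left, conj_trivial, hx, ha, hb]
    simp

/-- Derivative of the dual coordinates along the curve. -/
lemma hasDeriv_dualA (a b : E3) (w : ℝ → E3) (w' : E3) (s : Set ℝ) (τ : ℝ)
    (h : HasDerivWithinAt w w' s τ) :
    HasDerivWithinAt (fun σ => dualA a b (w σ)) (dualA a b w') s τ := by
  have h1 : HasDerivWithinAt (fun σ => ⟪w σ, a⟫) ⟪w', a⟫ s τ := by
    have := h.inner ℝ (hasDerivWithinAt_const τ s a)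
    simpa using this
  have h2 : HasDerivWithinAt (fun σ => ⟪w σ, b⟫) ⟪w', b⟫ s τ := by
    have := h.inner ℝ (hasDerivWithinAt_const τ s b)
    simpa using this
  exact ((h1.const_mul _).sub (h2.const_mul _)).div_const _

lemma hasDeriv_dualB (a b : E3) (w : ℝ → E3) (w' : E3) (s : Set ℝ) (τ : ℝ)
    (h : HasDerivWithinAt w w' s τ) :
    HasDerivWithinAt (fun σ => dualB a b (w σ)) (dualB a b w') s τ := by
  have h1 : HasDerivWithinAt (fun σ => ⟪w σ, a⟫) ⟪w', a⟫ s τ := by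
    have := h.inner ℝ (hasDerivWithinAt_const τ s a)
    simpa using this
  have h2 : HasDerivWithinAt (fun σ => ⟪w σ, b⟫) ⟪w', b⟫ s τ := by
    have := h.inner ℝ (hasDerivWithinAt_const τ s b)
    simpa using this
  exact ((h2.const_mul _).sub (h1.const_mul _)).div_const _

lemma dualA_comb (a b : E3) (hG : 0 < gram a b) (l τ : ℝ) : dualA a b (l • (a + τ • b)) = l := by
  have hG' := hG.ne'
  simp only [dualA, inner_smul_left, inner_add_left, conj_trivial, real_inner_self_eq_norm_sq,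
    real_inner_comm a b]
  field_simp
  unfold gram
  ring

lemma dualB_comb (a b : E3) (hG : 0 < gram a b) (l τ : ℝ) :
    dualB a b (l • (a + τ • b)) = l * τ := by
  have hG' := hG.ne'
  simp only [dualB, inner_smul_left, inner_add_left, conj_trivial, real_inner_self_eq_norm_sq,
    real_inner_comm a b]
  field_simp
  unfold gram
  ring

/-! ### The projection along a non-unit axis -/

/-- Projection along `v`. -/
noncomputable def prv (v : E3) (y : E3) : E3 := y - (⟪y, v⟫ / ‖v‖ ^ 2) • v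

lemma prv_eq_prj (v : E3) (hv : v ≠ 0) : prv v = prj ((‖v‖⁻¹ : ℝ) • v) := by
  funext y
  have hn : ‖v‖ ≠ 0 := norm_ne_zero_iff.2 hv
  simp only [prv, prj, inner_smul_right, smul_smul]
  congr 2
  field_simp

lemma prv_orth (v : E3) (hv : v ≠ 0) (y : E3) : ⟪prv v y, v⟫ = 0 := by
  have hn : ‖v‖ ≠ 0 := norm_ne_zero_iff.2 hv
  simp only [prv, inner_sub_left, inner_smul_left, conj_trivial, real_inner_self_eq_norm_sq]
  field_simp
  ring

lemma prv_add_smul (v : E3) (hv : v ≠ 0) (y : E3) (s : ℝ) : prv v (y + s • v) = prv v y := by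
  have hn : ‖v‖ ≠ 0 := norm_ne_zero_iff.2 hv
  simp only [prv, inner_add_left, inner_smul_left, conj_trivial, real_inner_self_eq_norm_sq]
  have : (⟪y, v⟫ + s * ‖v‖ ^ 2) / ‖v‖ ^ 2 = ⟪y, v⟫ / ‖v‖ ^ 2 + s := by
    field_simp
  rw [this, add_smul]
  abel

lemma prv_of_perp (v y : E3) (h : ⟪y, v⟫ = 0) : prv v y = y := by
  simp [prv, h]

lemma prv_decomp (v y : E3) : y = prv v y + (⟪y, v⟫ / ‖v‖ ^ 2) • v := by
  simp [prv]

lemma prv_lin (v : E3) (α β γ : ℝ) (A B C : E3) :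
    prv v (α • A + β • B + γ • C) = α • prv v A + β • prv v B + γ • prv v C := by
  simp only [prv, inner_add_left, inner_smul_left, add_div, add_smul, mul_smul, smul_sub, mul_div_assoc]
  simp only [conj_trivial, add_smul, mul_smul]
  abel

/-- The cylinder along an axis over the projected triangle. -/
lemma mem_cyl_prv (v : E3) (A B C A' : E3) (hA' : A' ∈ convexHull ℝ {A, B, C}) (s : ℝ) :
    ∃ y ∈ convexHull ℝ {prv v A, prv v B, prv v C}, ∃ σ : ℝ, A' + s • v = y + σ • v := by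
  obtain ⟨α, β, γ, h1, h2, h3, h4, rfl⟩ := weights_of_mem_conv3 hA'
  refine ⟨prv v (α • A + β • B + γ • C), ?_, (⟪α • A + β • B + γ • C, v⟫ / ‖v‖ ^ 2) + s, ?_⟩
  · rw [prv_lin]
    exact mem_conv3_of_weights h1 h2 h3 h4 rfl
  · rw [add_smul, ← add_assoc, ← prv_decomp]

/-- A point in a wedge from the apex belongs to the sector. -/
lemma sector_mem (A₀ a b : E3) (D τ₁ τ₂ X Y : ℝ) (hD : 0 < D) (hτ : τ₁ < τ₂) (hX : X ≤ D)
    (h1 : τ₁ * X ≤ Y) (h2 : Y ≤ τ₂ * X) :
    A₀ + X • a + Y • b ∈ convexHull ℝ {A₀, A₀ + D • (a + τ₁ • b), A₀ + D • (a + τ₂ • b)} := by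
  have hh : 0 < τ₂ - τ₁ := by linarith
  have hX0 : 0 ≤ X := by
    have : 0 ≤ (τ₂ - τ₁) * X := by nlinarith
    exact nonneg_of_mul_nonneg_right this hh
  have hβ : 0 ≤ (τ₂ * X - Y) / ((τ₂ - τ₁) * D) := div_nonneg (by linarith) (by positivity)
  have hγ : 0 ≤ (Y - τ₁ * X) / ((τ₂ - τ₁) * D) := div_nonneg (by linarith) (by positivity)
  have hsum : (τ₂ * X - Y) / ((τ₂ - τ₁) * D) + (Y - τ₁ * X) / ((τ₂ - τ₁) * D) = X / D := by
    field_simp
    ring
  have hα : 0 ≤ 1 - X / D := by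
    have : X / D ≤ 1 := (div_le_one hD).2 hX
    linarith
  refine mem_conv3_of_weights' hα hβ hγ (by linarith) ?_
  have e1 : (τ₂ * X - Y) / ((τ₂ - τ₁) * D) * D + (Y - τ₁ * X) / ((τ₂ - τ₁) * D) * D = X := by
    field_simp
    ring
  have e2 : (τ₂ * X - Y) / ((τ₂ - τ₁) * D) * D * τ₁ + (Y - τ₁ * X) / ((τ₂ - τ₁) * D) * D * τ₂ = Y := by
    field_simp
    ring
  obtain ⟨β, hβ'⟩ : ∃ β, β = (τ₂ * X - Y) / ((τ₂ - τ₁) * D) := ⟨_, rfl⟩
  obtain ⟨γ, hγ'⟩ : ∃ γ, γ = (Y - τ₁ * X) / ((τ₂ - τ₁) * D) := ⟨_, rfl⟩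
  rw [← hβ', ← hγ'] at e1 e2 hsum ⊢
  have hα' : 1 - X / D = 1 - β - γ := by linarith
  rw [hα']
  conv_lhs => rw [← e1, ← e2]
  module

/-- Area of a sector projected along `v`. -/
lemma triA_sector (e a b w₀ A₀ : E3) (he : ‖e‖ = 1) (ha : ⟪a, e⟫ = 0) (hb : ⟪b, e⟫ = 0)
    (hG : 0 < gram a b) (hw : ⟪w₀, e⟫ = 0) (D τ₁ τ₂ : ℝ) (hτ : τ₁ ≤ τ₂) :
    triA (prv (e + w₀) A₀) (prv (e + w₀) (A₀ + D • (a + τ₁ • b)))
      (prv (e + w₀) (A₀ + D • (a + τ₂ • b))) =
      √(gram a b) * ((τ₂ - τ₁) * (D ^ 2 / (2 * √(1 + ‖w₀‖ ^ 2)))) := by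
  obtain ⟨v, hv⟩ : ∃ v, v = e + w₀ := ⟨_, rfl⟩
  rw [← hv]
  have hv2 : ‖v‖ ^ 2 = 1 + ‖w₀‖ ^ 2 := by
    rw [hv, ← real_inner_self_eq_norm_sq, inner_add_left, inner_add_right, inner_add_right,
      real_inner_self_eq_norm_sq, real_inner_self_eq_norm_sq, he, hw, real_inner_comm, hw]
    ring
  have hvpos : 0 < ‖v‖ ^ 2 := by rw [hv2]; positivity
  have hv0 : v ≠ 0 := by
    intro h0; rw [h0] at hvpos; simp at hvpos
  have hvn : ‖v‖ = √(1 + ‖w₀‖ ^ 2) := by
    rw [← hv2, Real.sqrt_sq (norm_nonneg _)]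
  have hn : 0 < ‖v‖ := norm_pos_iff.2 hv0
  obtain ⟨u, hu⟩ : ∃ u, u = (‖v‖⁻¹ : ℝ) • v := ⟨_, rfl⟩
  have huu : ‖u‖ = 1 := by rw [hu]; exact unit_of_ne v hv0
  have hsub : ∀ x : E3, prv v (A₀ + x) - prv v A₀ = prj u x := by
    intro x
    rw [prv_eq_prj v hv0, ← hu]
    simp only [prj, inner_add_left, add_smul]
    abel
  unfold triA
  rw [hsub, hsub, gram_prj u huu]
  have hdet : det3 a b u ^ 2 = gram a b / ‖v‖ ^ 2 := by
    have hw' := decomp e a b w₀ he ha hb hG hw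
    have hz : det3 a b w₀ = 0 := by
      have := det3_span a b (dualA a b w₀) (dualB a b w₀)
      rwa [← hw'] at this
    have h1 : det3 a b v = det3 a b e := by
      rw [hv, det3_add, hz, add_zero]
    have h2 : det3 a b u = ‖v‖⁻¹ * det3 a b e := by
      rw [hu, det3_smul, h1]
    rw [h2, mul_pow, det3_sq_eq_gram e a b he ha hb]
    field_simp
  have hc : det3 (D • (a + τ₁ • b)) (D • (a + τ₂ • b)) u = D ^ 2 * (τ₂ - τ₁) * det3 a b u := by
    have e1 : D • (a + τ₁ • b) = D • a + (D * τ₁) • b := by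
      rw [smul_add, smul_smul]
    have e2 : D • (a + τ₂ • b) = D • a + (D * τ₂) • b := by
      rw [smul_add, smul_smul]
    rw [e1, e2, det3_comb]
    ring
  rw [hc, mul_pow, hdet, Real.sqrt_mul (by positivity), Real.sqrt_sq (by
    have := sub_nonneg.2 hτ
    positivity), Real.sqrt_div hG.le, Real.sqrt_sq hn.le, hvn]
  field_simp

/-- A nondegenerate triangle has affinely independent vertices. -/
lemma affineIndependent_of_gram (p q r : E3) (h : gram (q - p) (r - p) ≠ 0) :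
    AffineIndependent ℝ ![p, q, r] := by
  rw [affineIndependent_iff_not_collinear_set]
  intro hc
  obtain ⟨v, hv⟩ := (collinear_iff_of_mem (p₀ := p) (by simp)).1 hc
  obtain ⟨s, hs⟩ := hv q (by simp)
  obtain ⟨t, ht⟩ := hv r (by simp)
  apply h
  have e1 : q - p = s • v := by
    rw [hs]; simp
  have e2 : r - p = t • v := by
    rw [ht]; simp
  rw [e1, e2]
  unfold gram
  rw [norm_smul, norm_smul, inner_smul_left, inner_smul_right, real_inner_self_eq_norm_sq]
  simp only [Real.norm_eq_abs, conj_trivial]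
  rw [mul_pow, mul_pow, sq_abs, sq_abs]
  ring

/-! ### Riemann sums over partitions indexed by `Fin` -/

lemma sum_cell_widths (N : ℕ) (t : Fin (N + 1) → ℝ) :
    ∑ i : Fin N, (t i.succ - t i.castSucc) = t (Fin.last N) - t 0 := by
  induction N with
  | zero => simp
  | succ k ih =>
    rw [Fin.sum_univ_castSucc]
    have := ih (fun i => t i.castSucc)
    simp only [Fin.succ_castSucc, ← Fin.castSucc_succ] at this ⊢
    simp only [Fin.castSucc_zero, ← Fin.succ_last] at this ⊢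
    rw [this]
    simp

lemma sum_cell_integrals (N : ℕ) (t : Fin (N + 1) → ℝ) (F : ℝ → ℝ) (ht : Monotone t)
    (hF : ContinuousOn F (Set.Icc (t 0) (t (Fin.last N)))) :
    ∑ i : Fin N, ∫ τ in t i.castSucc..t i.succ, F τ = ∫ τ in t 0..t (Fin.last N), F τ := by
  induction N with
  | zero => simp
  | succ k ih =>
    rw [Fin.sum_univ_castSucc]
    have := ih (fun i => t i.castSucc) (fun i j hij => ht (Fin.castSucc_le_castSucc_iff.2 hij))
      (hF.mono (Set.Icc_subset_Icc (by simp) (ht (Fin.le_last _))))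
    simp only [Fin.castSucc_zero] at this
    have e1 : ∀ i : Fin k, (i.castSucc : Fin (k + 1)).succ = i.succ.castSucc := fun i => rfl
    simp only [e1]
    rw [this]
    have e2 : (Fin.last k).succ = Fin.last (k + 1) := rfl
    rw [e2]
    apply intervalIntegral.integral_add_adjacent_intervals
    · apply ContinuousOn.intervalIntegrable
      rw [Set.uIcc_of_le (ht (Fin.zero_le _))]
      exact hF.mono (Set.Icc_subset_Icc le_rfl (ht (Fin.le_last _)))
    · apply ContinuousOn.intervalIntegrable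
      rw [Set.uIcc_of_le (ht (Fin.le_last _))]
      exact hF.mono (Set.Icc_subset_Icc (ht (Fin.zero_le _)) le_rfl)

/-- Riemann-sum estimate on a `Fin`-indexed partition. -/
theorem riemann_bound (N : ℕ) (t : Fin (N + 1) → ℝ) (F : ℝ → ℝ) (B : Fin N → ℝ) (ε₁ : ℝ)
    (ht : Monotone t) (hF : ContinuousOn F (Set.Icc (t 0) (t (Fin.last N))))
    (hB : ∀ i : Fin N, ∀ τ ∈ Set.Icc (t i.castSucc) (t i.succ), |B i - F τ| ≤ ε₁) :
    |∑ i : Fin N, (t i.succ - t i.castSucc) * B i - ∫ τ in t 0..t (Fin.last N), F τ| ≤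
      ε₁ * (t (Fin.last N) - t 0) := by
  rw [← sum_cell_integrals N t F ht hF, ← Finset.sum_sub_distrib, ← sum_cell_widths, Finset.mul_sum]
  refine (Finset.abs_sum_le_sum_abs _ _).trans (Finset.sum_le_sum ?_)
  intro i _
  have hle : t i.castSucc ≤ t i.succ := ht (Fin.castSucc_le_succ i)
  have hcont : ContinuousOn F (Set.Icc (t i.castSucc) (t i.succ)) :=
    hF.mono (Set.Icc_subset_Icc (ht (Fin.zero_le _)) (ht (Fin.le_last _)))
  have hint : IntervalIntegrable F volume (t i.castSucc) (t i.succ) := by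
    apply ContinuousOn.intervalIntegrable
    rwa [Set.uIcc_of_le hle]
  have e : (t i.succ - t i.castSucc) * B i - ∫ τ in t i.castSucc..t i.succ, F τ =
      ∫ τ in t i.castSucc..t i.succ, (B i - F τ) := by
    rw [intervalIntegral.integral_sub intervalIntegrable_const hint]
    simp
  rw [e]
  have hb := intervalIntegral.norm_integral_le_of_norm_le_const (a := t i.castSucc) (b := t i.succ)
    (f := fun τ => B i - F τ) (C := ε₁) (by
      intro τ hτ
      rw [Set.uIoc_of_le hle] at hτ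
      exact hB i τ ⟨hτ.1.le, hτ.2⟩)
  rw [Real.norm_eq_abs, abs_of_nonneg (sub_nonneg.2 hle)] at hb
  exact hb

/-- Every parameter lies in a cell of the partition. -/
lemma exists_cell (N : ℕ) (hN : 0 < N) (t : Fin (N + 1) → ℝ) (τ : ℝ) (h0 : t 0 ≤ τ)
    (h1 : τ ≤ t (Fin.last N)) : ∃ i : Fin N, t i.castSucc ≤ τ ∧ τ ≤ t i.succ := by
  let f : ℕ → ℝ := fun n => if h : n < N + 1 then τ - t ⟨n, h⟩ else 0
  have f0 : 0 ≤ f 0 := by
    simp only [f, Nat.succ_pos, ↓reduceDIte]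
    have : (⟨0, Nat.succ_pos N⟩ : Fin (N + 1)) = 0 := rfl
    rw [this]; linarith
  have f1 : f N ≤ 0 := by
    simp only [f, Nat.lt_succ_self, ↓reduceDIte]
    have : (⟨N, Nat.lt_succ_self N⟩ : Fin (N + 1)) = Fin.last N := rfl
    rw [this]; linarith
  obtain ⟨i, hi, h2, h3⟩ := discrete_ivt f N hN f0 f1
  refine ⟨⟨i, hi⟩, ?_, ?_⟩
  · simp only [f, show i < N + 1 by omega, ↓reduceDIte] at h2
    have : (⟨i, hi⟩ : Fin N).castSucc = ⟨i, by omega⟩ := rfl
    rw [this]; linarith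
  · simp only [f, show i + 1 < N + 1 by omega, ↓reduceDIte] at h3
    have : (⟨i, hi⟩ : Fin N).succ = ⟨i + 1, by omega⟩ := rfl
    rw [this]; linarith

/-! ### The wedge estimate -/

/-- The perturbed polar point stays in the wedge. -/
lemma wedge_real (ρ A B ξ m₁ m₂ C h : ℝ) (hC : 0 ≤ C) (hh : 0 < h) (hρ : 0 ≤ ρ)
    (hA : |A| ≤ C * h) (hB : |B| ≤ C * h ^ 2) (h1 : m₁ ≤ ξ) (h2 : ξ ≤ m₂) (hm : m₂ - m₁ = h)
    (hξ : |ξ| ≤ h) :
    let X := ρ + A
    let Y := ρ * ξ + B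
    let d := 6 * (C * h)
    let y₀ := 3 * (C * h ^ 2) - 6 * (C * h) * m₂
    m₁ * (X + d) ≤ Y - y₀ ∧ Y - y₀ ≤ m₂ * (X + d) := by
  intro X Y d y₀
  have hY : Y = X * ξ - A * ξ + B := by simp only [X, Y]; ring
  obtain ⟨hA1, hA2⟩ := abs_le.1 hA
  obtain ⟨hB1, hB2⟩ := abs_le.1 hB
  have hAξ : |A * ξ| ≤ C * h ^ 2 := by
    rw [abs_mul]
    calc |A| * |ξ| ≤ (C * h) * h := mul_le_mul hA hξ (abs_nonneg _) (by positivity)
      _ = C * h ^ 2 := by ring
  obtain ⟨hAξ1, hAξ2⟩ := abs_le.1 hAξ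
  have hX : -(C * h) ≤ X := by simp only [X]; linarith
  have hCh : 0 ≤ C * h := by positivity
  have s1 : -(C * h ^ 2) ≤ X * (m₂ - ξ) := by
    have hw0 : 0 ≤ m₂ - ξ := by linarith
    have hw1 : m₂ - ξ ≤ h := by linarith
    have : -(C * h) * (m₂ - ξ) ≤ X * (m₂ - ξ) := mul_le_mul_of_nonneg_right hX hw0
    have : (C * h) * (m₂ - ξ) ≤ (C * h) * h := mul_le_mul_of_nonneg_left hw1 hCh
    nlinarith
  have s2 : -(C * h ^ 2) ≤ X * (ξ - m₁) := by
    have hw0 : 0 ≤ ξ - m₁ := by linarith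
    have hw1 : ξ - m₁ ≤ h := by linarith
    have : -(C * h) * (ξ - m₁) ≤ X * (ξ - m₁) := mul_le_mul_of_nonneg_right hX hw0
    have : (C * h) * (ξ - m₁) ≤ (C * h) * h := mul_le_mul_of_nonneg_left hw1 hCh
    nlinarith
  have hm₁ : m₂ = m₁ + h := by linarith
  constructor
  · simp only [d, y₀]
    rw [hY, hm₁]
    have e : X * ξ - A * ξ + B - (3 * (C * h ^ 2) - 6 * (C * h) * (m₁ + h)) - m₁ * (X + 6 * (C * h)) =
        X * (ξ - m₁) - A * ξ + B + 3 * (C * h ^ 2) := by ring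
    linarith
  · simp only [d, y₀]
    rw [hY]
    have e : m₂ * (X + 6 * (C * h)) - (X * ξ - A * ξ + B - (3 * (C * h ^ 2) - 6 * (C * h) * m₂)) =
        X * (m₂ - ξ) + A * ξ - B + 3 * (C * h ^ 2) := by ring
    linarith

end Crest.Agent.Lib.RadialSweep
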