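import Crest.Agent.Lib.RuledGeom

/-!
# Covering a ruled set by sheared square cylinders: the local step and the cells
-/

set_option autoImplicit false
set_option linter.unusedSimpArgs false
set_option linter.deprecated false
set_option maxHeartbeats 1000000
open MeasureTheory
open scoped ENNReal RealInnerProductSpace

namespace Crest.Agent.Lib.RuledCover

open Crest.Agent.Lib.TetArea Crest.Agent.Lib.RuledLattice Crest.Agent.Lib.RuledGeom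

lemma norm_le_sum (x : E2) : ‖x‖ ≤ |x 0| + |x 1| := by
  have h : ‖x‖ ^ 2 ≤ (|x 0| + |x 1|) ^ 2 := by
    rw [normsq2, add_sq, sq_abs, sq_abs]
    nlinarith [abs_nonneg (x 0), abs_nonneg (x 1)]
  exact (pow_le_pow_iff_left₀ (norm_nonneg _) (by positivity) (by norm_num)).1 h

lemma abs_coord_le (x : E2) (i : Fin 2) : |x i| ≤ ‖x‖ := by
  have := PiLp.norm_apply_le (p := 2) x i
  simpa using this

/-- The point-wise covering step. -/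
theorem point_cover (A : E2 →L[ℝ] E2) (e₁ e₂ : E2) (β γ : ℝ) (hF : IsFrame A e₁ e₂ β γ)
    (L K κ₀ ε₁ ζ η : ℝ) (hL : 0 < L) (hA : ‖A‖ ≤ K) (hκ : κ₀ < 1) (hβγ : 0 ≤ β * γ)
    (hβγ' : L ^ 2 * (β * γ) ≤ κ₀) (hε₁ : L * ε₁ * (2 * ((1 + L * K) / (1 - κ₀))) ≤ ζ) (hε₁0 : 0 ≤ ε₁)
    (hη : 0 < η) (hζ : 0 ≤ ζ)
    (V : E2 → E2) (T : Set E2) (hV : ∀ x ∈ T, ∀ y ∈ T, ‖V y - V x - A (y - x)‖ ≤ ε₁ * ‖y - x‖)
    (p₀ p : E2) (hp : p ∈ T) (s : ℝ) (hs : |s| ≤ L) :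
    ∃ z : ℤ × ℤ, ‖p - lat p₀ e₁ e₂ η z‖ ≤ 2 * ((1 + L * K) / (1 - κ₀)) * η ∧
      (lat p₀ e₁ e₂ η z ∈ T → ∃ x ∈ Set.Icc (0 : ℝ) 1, ∃ y ∈ Set.Icc (0 : ℝ) 1,
        p + s • V p = (lat p₀ e₁ e₂ η z - (ζ * η) • (e₁ + e₂)) + x • ((η * (1 + 2 * ζ)) • e₁) +
          y • ((η * (1 + 2 * ζ)) • e₂) + s • V (lat p₀ e₁ e₂ η z)) := by
  obtain ⟨C₁, hC₁⟩ : ∃ C₁, C₁ = (1 + L * K) / (1 - κ₀) := ⟨_, rfl⟩
  rw [← hC₁] at hε₁ ⊢
  have hK : 0 ≤ K := (norm_nonneg _).trans hA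
  have hgap : 0 < 1 - κ₀ := by linarith
  have hC₁0 : 0 < C₁ := by rw [hC₁]; positivity
  have hβ : |β| ≤ K := hF.bβ.trans hA
  have hγ : |γ| ≤ K := hF.bγ.trans hA
  -- coordinates of the point
  obtain ⟨z₁, hz₁⟩ : ∃ z₁, z₁ = ⟪p - p₀, e₁⟫ := ⟨_, rfl⟩
  obtain ⟨z₂, hz₂⟩ : ∃ z₂, z₂ = ⟪p - p₀, e₂⟫ := ⟨_, rfl⟩
  obtain ⟨c, hc⟩ : ∃ c, c = s * β := ⟨_, rfl⟩
  obtain ⟨d, hd⟩ : ∃ d, d = s * γ := ⟨_, rfl⟩
  have hs2 : s ^ 2 ≤ L ^ 2 := by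
    rw [← sq_abs]
    exact pow_le_pow_left₀ (abs_nonneg _) hs 2
  have hcd0 : 0 ≤ c * d := by
    rw [hc, hd]
    have : s * β * (s * γ) = s ^ 2 * (β * γ) := by ring
    rw [this]
    positivity
  have hcd1 : c * d ≤ κ₀ := by
    rw [hc, hd]
    have : s * β * (s * γ) = s ^ 2 * (β * γ) := by ring
    rw [this]
    exact (mul_le_mul_of_nonneg_right hs2 hβγ).trans hβγ'
  have hcb : |c| ≤ L * K := by
    rw [hc, abs_mul]
    exact mul_le_mul hs hβ (abs_nonneg _) hL.le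
  have hdb : |d| ≤ L * K := by
    rw [hd, abs_mul]
    exact mul_le_mul hs hγ (abs_nonneg _) hL.le
  obtain ⟨j, k, h1, h2, h3, h4⟩ := lattice_cover c d hcd0 (by linarith)
    ((z₁ + c * z₂) / η) ((z₂ + d * z₁) / η)
  refine ⟨(j, k), ?_⟩
  obtain ⟨q, hq⟩ : ∃ q, q = lat p₀ e₁ e₂ η (j, k) := ⟨_, rfl⟩
  rw [← hq]
  obtain ⟨y₁, hy₁⟩ : ∃ y₁, y₁ = z₁ - η * j := ⟨_, rfl⟩
  obtain ⟨y₂, hy₂⟩ : ∃ y₂, y₂ = z₂ - η * k := ⟨_, rfl⟩
  obtain ⟨W₁, hW₁⟩ : ∃ W₁, W₁ = y₁ + c * y₂ := ⟨_, rfl⟩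
  obtain ⟨W₂, hW₂⟩ : ∃ W₂, W₂ = y₂ + d * y₁ := ⟨_, rfl⟩
  have hW₁e : W₁ = η * ((z₁ + c * z₂) / η - j - c * k) := by
    rw [hW₁, hy₁, hy₂]
    field_simp
    ring
  have hW₂e : W₂ = η * ((z₂ + d * z₁) / η - d * j - k) := by
    rw [hW₂, hy₁, hy₂]
    field_simp
    ring
  have hW₁0 : 0 ≤ W₁ := by rw [hW₁e]; positivity
  have hW₂0 : 0 ≤ W₂ := by rw [hW₂e]; positivity
  have hW₁1 : W₁ ≤ η := by
    rw [hW₁e]
    exact mul_le_of_le_one_right hη.le h2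
  have hW₂1 : W₂ ≤ η := by
    rw [hW₂e]
    exact mul_le_of_le_one_right hη.le h4
  -- solving for `y`
  have hcdgap : 1 - κ₀ ≤ 1 - c * d := by linarith
  have hy₁b : |y₁| ≤ C₁ * η := by
    have e : (1 - c * d) * y₁ = W₁ - c * W₂ := by rw [hW₁, hW₂]; ring
    have b : |W₁ - c * W₂| ≤ (1 + L * K) * η := by
      calc |W₁ - c * W₂| ≤ |W₁| + |c * W₂| := abs_sub _ _
        _ = W₁ + |c| * W₂ := by rw [abs_of_nonneg hW₁0, abs_mul, abs_of_nonneg hW₂0]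
        _ ≤ η + (L * K) * η := by
            gcongr
        _ = _ := by ring
    have e2 : (1 - c * d) * |y₁| ≤ (1 + L * K) * η := by
      have : (1 - c * d) * |y₁| = |(1 - c * d) * y₁| := by
        rw [abs_mul, abs_of_pos (by linarith : 0 < 1 - c * d)]
      rw [this, e]
      exact b
    have e3 : (1 - κ₀) * |y₁| ≤ (1 + L * K) * η :=
      (mul_le_mul_of_nonneg_right hcdgap (abs_nonneg _)).trans e2
    rw [hC₁, div_mul_eq_mul_div, le_div_iff₀ hgap]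
    linarith
  have hy₂b : |y₂| ≤ C₁ * η := by
    have e : (1 - c * d) * y₂ = W₂ - d * W₁ := by rw [hW₁, hW₂]; ring
    have b : |W₂ - d * W₁| ≤ (1 + L * K) * η := by
      calc |W₂ - d * W₁| ≤ |W₂| + |d * W₁| := abs_sub _ _
        _ = W₂ + |d| * W₁ := by rw [abs_of_nonneg hW₂0, abs_mul, abs_of_nonneg hW₁0]
        _ ≤ η + (L * K) * η := by
            gcongr
        _ = _ := by ring
    have e2 : (1 - c * d) * |y₂| ≤ (1 + L * K) * η := by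
      have : (1 - c * d) * |y₂| = |(1 - c * d) * y₂| := by
        rw [abs_mul, abs_of_pos (by linarith : 0 < 1 - c * d)]
      rw [this, e]
      exact b
    have e3 : (1 - κ₀) * |y₂| ≤ (1 + L * K) * η :=
      (mul_le_mul_of_nonneg_right hcdgap (abs_nonneg _)).trans e2
    rw [hC₁, div_mul_eq_mul_div, le_div_iff₀ hgap]
    linarith
  -- the difference vector
  have hpq : p - q = y₁ • e₁ + y₂ • e₂ := by
    have := hF.expand (p - p₀)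
    rw [← hz₁, ← hz₂] at this
    have e : p - q = (p - p₀) - (η * j) • e₁ - (η * k) • e₂ := by
      rw [hq]; simp only [lat]; abel
    rw [e]
    nth_rewrite 1 [this]
    rw [hy₁, hy₂, sub_smul, sub_smul]
    abel
  have hpqn : ‖p - q‖ ≤ 2 * C₁ * η := by
    rw [hpq]
    calc ‖y₁ • e₁ + y₂ • e₂‖ ≤ ‖y₁ • e₁‖ + ‖y₂ • e₂‖ := norm_add_le _ _
      _ = |y₁| + |y₂| := by
          rw [norm_smul, norm_smul, hF.n1, hF.n2, mul_one, mul_one, Real.norm_eq_abs, Real.norm_eq_abs]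
      _ ≤ 2 * C₁ * η := by linarith
  refine ⟨hpqn, ?_⟩
  intro hqT
  have herr := hV q hqT p hp
  obtain ⟨err, herrd⟩ : ∃ err, err = V p - V q - A (p - q) := ⟨_, rfl⟩
  rw [← herrd] at herr
  have herrb : ‖err‖ ≤ ε₁ * (2 * C₁ * η) := herr.trans (mul_le_mul_of_nonneg_left hpqn hε₁0)
  have hserr : ‖s • err‖ ≤ ζ * η := by
    rw [norm_smul, Real.norm_eq_abs]
    calc |s| * ‖err‖ ≤ L * (ε₁ * (2 * C₁ * η)) := mul_le_mul hs herrb (norm_nonneg _) hL.le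
      _ = (L * ε₁ * (2 * C₁)) * η := by ring
      _ ≤ ζ * η := mul_le_mul_of_nonneg_right hε₁ hη.le
  obtain ⟨E₁, hE₁⟩ : ∃ E₁, E₁ = ⟪s • err, e₁⟫ := ⟨_, rfl⟩
  obtain ⟨E₂, hE₂⟩ : ∃ E₂, E₂ = ⟪s • err, e₂⟫ := ⟨_, rfl⟩
  have hE₁b : |E₁| ≤ ζ * η := by
    rw [hE₁]
    calc _ ≤ ‖s • err‖ * ‖e₁‖ := abs_real_inner_le_norm _ _
      _ ≤ ζ * η := by rw [hF.n1, mul_one]; exact hserr
  have hE₂b : |E₂| ≤ ζ * η := by
    rw [hE₂]
    calc _ ≤ ‖s • err‖ * ‖e₂‖ := abs_real_inner_le_norm _ _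
      _ ≤ ζ * η := by rw [hF.n2, mul_one]; exact hserr
  have hserre : s • err = E₁ • e₁ + E₂ • e₂ := by
    rw [hE₁, hE₂]; exact hF.expand _
  -- the action of `A` on the difference
  have o' : ⟪e₂, e₁⟫ = 0 := by rw [real_inner_comm]; exact hF.o
  have h1' : ⟪e₁, e₁⟫ = 1 := by rw [real_inner_self_eq_norm_sq, hF.n1]; norm_num
  have h2' : ⟪e₂, e₂⟫ = 1 := by rw [real_inner_self_eq_norm_sq, hF.n2]; norm_num
  have hAq : A (p - q) = (y₂ * β) • e₁ + (y₁ * γ) • e₂ := by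
    rw [hF.act, hpq]
    simp only [inner_add_left, inner_smul_left, conj_trivial, h1', h2', hF.o, o']
    simp
  have hmain : p + s • V p = q + (W₁ + E₁) • e₁ + (W₂ + E₂) • e₂ + s • V q := by
    have e1 : V p = V q + A (p - q) + err := by rw [herrd]; abel
    have e2 : p = q + (y₁ • e₁ + y₂ • e₂) := by rw [← hpq]; abel
    nth_rewrite 1 [e2]
    rw [e1, hAq, smul_add, smul_add, hserre, hW₁, hW₂, hc, hd]
    module
  obtain ⟨l, hl⟩ : ∃ l, l = η * (1 + 2 * ζ) := ⟨_, rfl⟩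
  have hl0 : 0 < l := by rw [hl]; positivity
  rw [← hl]
  have hE₁' := abs_le.1 hE₁b
  have hE₂' := abs_le.1 hE₂b
  refine ⟨(W₁ + E₁ + ζ * η) / l, ⟨by
      apply div_nonneg _ hl0.le
      linarith, by
      rw [div_le_one hl0, hl]
      nlinarith⟩, (W₂ + E₂ + ζ * η) / l, ⟨by
      apply div_nonneg _ hl0.le
      linarith, by
      rw [div_le_one hl0, hl]
      nlinarith⟩, ?_⟩
  rw [hmain, smul_smul, smul_smul, div_mul_cancel₀ _ hl0.ne', div_mul_cancel₀ _ hl0.ne']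
  module

/-! ### Cells -/

/-- The grid cell of a point. -/
noncomputable def cell (δ : ℝ) (x : E2) : ℤ × ℤ := (⌊x 0 / δ⌋, ⌊x 1 / δ⌋)

/-- A grid cell as a box. -/
def Qc (δ : ℝ) (α : ℤ × ℤ) : Set E2 := box (α.1 * δ) ((α.1 + 1) * δ) (α.2 * δ) ((α.2 + 1) * δ)

lemma mem_Qc_iff (δ : ℝ) (hδ : 0 < δ) (x : E2) (α : ℤ × ℤ) : x ∈ Qc δ α ↔ cell δ x = α := by
  simp only [Qc, box, Set.mem_setOf_eq, cell, Prod.ext_iff]
  rw [Int.floor_eq_iff, Int.floor_eq_iff, le_div_iff₀ hδ, div_lt_iff₀ hδ, le_div_iff₀ hδ, div_lt_iff₀ hδ]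
  tauto

lemma Qc_disjoint (δ : ℝ) (hδ : 0 < δ) (α α' : ℤ × ℤ) (h : α ≠ α') : Disjoint (Qc δ α) (Qc δ α') := by
  rw [Set.disjoint_left]
  intro x hx hx'
  rw [mem_Qc_iff δ hδ] at hx hx'
  exact h (hx.symm.trans hx')

lemma vol_Qc (δ : ℝ) (hδ : 0 < δ) (α : ℤ × ℤ) : volume (Qc δ α) = ENNReal.ofReal (δ ^ 2) := by
  simp only [Qc, vol_box]
  rw [← ENNReal.ofReal_mul (by
    have : (α.1 + 1 : ℝ) * δ - α.1 * δ = δ := by ring
    rw [this]; exact hδ.le)]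
  congr 1
  ring

lemma Qc_dist (δ : ℝ) (hδ : 0 < δ) (α : ℤ × ℤ) (x y : E2) (hx : x ∈ Qc δ α) (hy : y ∈ Qc δ α) :
    ‖x - y‖ < 2 * δ := by
  obtain ⟨h1, h2, h3, h4⟩ := hx
  obtain ⟨h1', h2', h3', h4'⟩ := hy
  refine (norm_le_sum _).trans_lt ?_
  simp only [PiLp.sub_apply]
  have b0 : |x 0 - y 0| < δ := by
    rw [abs_lt]
    constructor <;> nlinarith
  have b1 : |x 1 - y 1| < δ := by
    rw [abs_lt]
    constructor <;> nlinarith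
  linarith

/-- Squares near a cell stay in the enlarged cell. -/
lemma sq_sub_box (δ r η C : ℝ) (α : ℤ × ℤ) (q p' e₁ e₂ : E2) (n1 : ‖e₁‖ = 1) (n2 : ‖e₂‖ = 1)
    (hp' : p' ∈ Qc δ α) (hd : ‖p' - q‖ ≤ C) (hr : C + 2 * η ≤ r) :
    sq q e₁ e₂ η ⊆ box (α.1 * δ - r) ((α.1 + 1) * δ + r) (α.2 * δ - r) ((α.2 + 1) * δ + r) := by
  rintro x ⟨t₁, ⟨h1, h2⟩, t₂, ⟨h3, h4⟩, rfl⟩
  obtain ⟨a1, a2, a3, a4⟩ := hp'
  have hn : ‖q + t₁ • e₁ + t₂ • e₂ - p'‖ ≤ r := by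
    have e : q + t₁ • e₁ + t₂ • e₂ - p' = (t₁ • e₁ + t₂ • e₂) - (p' - q) := by abel
    rw [e]
    calc _ ≤ ‖t₁ • e₁ + t₂ • e₂‖ + ‖p' - q‖ := norm_sub_le _ _
      _ ≤ (‖t₁ • e₁‖ + ‖t₂ • e₂‖) + C := by gcongr; exact norm_add_le _ _
      _ = (t₁ + t₂) + C := by
          rw [norm_smul, norm_smul, n1, n2, mul_one, mul_one, Real.norm_eq_abs, Real.norm_eq_abs,
            abs_of_nonneg h1, abs_of_nonneg h3]
      _ ≤ r := by linarith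
  have b0 := (abs_coord_le _ 0).trans hn
  have b1 := (abs_coord_le _ 1).trans hn
  simp only [PiLp.sub_apply] at b0 b1
  obtain ⟨c0, c1⟩ := abs_le.1 b0
  obtain ⟨c2, c3⟩ := abs_le.1 b1
  refine ⟨by linarith, by linarith, by linarith, by linarith⟩

end Crest.Agent.Lib.RuledCover
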