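import Mathlib

/-!
# Sheared lattices and the covering by unit squares

For real `c`, `d` with `0 ≤ c d < 1` the translates of the unit square by the lattice generated by
`(1, d)` and `(c, 1)` cover the plane.
-/

set_option autoImplicit false

namespace Crest.Agent.Lib.RuledLattice

/-- **Lattice lemma.** -/
theorem lattice_cover (c d : ℝ) (h0 : 0 ≤ c * d) (h1 : c * d < 1) (w₁ w₂ : ℝ) :
    ∃ j k : ℤ, 0 ≤ w₁ - j - c * k ∧ w₁ - j - c * k ≤ 1 ∧
      0 ≤ w₂ - d * j - k ∧ w₂ - d * j - k ≤ 1 := by
  -- the first coordinate is solved by a floor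
  let J : ℤ → ℤ := fun k => ⌊w₁ - c * k⌋
  let G : ℤ → ℝ := fun k => w₂ - d * (J k) - k
  have hJ0 : ∀ k : ℤ, 0 ≤ w₁ - (J k : ℝ) - c * k := fun k => by
    have := Int.floor_le (w₁ - c * k)
    simp only [J]
    linarith
  have hJ1 : ∀ k : ℤ, w₁ - (J k : ℝ) - c * k < 1 := fun k => by
    have := Int.lt_floor_add_one (w₁ - c * k)
    simp only [J]
    linarith
  have hgap : 0 < 1 - c * d := by linarith
  -- the step of `G` is at least `-1`
  have hcase : (0 ≤ c ∧ 0 ≤ d) ∨ (c ≤ 0 ∧ d ≤ 0) := by
    rcases le_total 0 c with hc | hc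
    · rcases le_total 0 d with hd | hd
      · exact Or.inl ⟨hc, hd⟩
      · rcases eq_or_lt_of_le hc with hc0 | hc0
        · rw [← hc0]
          exact Or.inr ⟨le_rfl, hd⟩
        · have : 0 ≤ d := by
            by_contra hneg
            rw [not_le] at hneg
            have := mul_neg_of_pos_of_neg hc0 hneg
            linarith
          exact Or.inl ⟨hc, this⟩
    · rcases le_total 0 d with hd | hd
      · rcases eq_or_lt_of_le hd with hd0 | hd0
        · rw [← hd0]
          exact Or.inr ⟨hc, le_rfl⟩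
        · have : 0 ≤ c := by
            by_contra hneg
            rw [not_le] at hneg
            have := mul_neg_of_neg_of_pos hneg hd0
            linarith
          exact Or.inl ⟨this, hd⟩
      · exact Or.inr ⟨hc, hd⟩
  have hsign : ∀ k : ℤ, 0 ≤ d * ((J (k - 1) : ℝ) - J k) := by
    intro k
    rcases hcase with ⟨hc, hd⟩ | ⟨hc, hd⟩
    · apply mul_nonneg hd
      have : J k ≤ J (k - 1) := by
        apply Int.floor_le_floor
        push_cast
        nlinarith
      have : (J k : ℝ) ≤ J (k - 1) := by exact_mod_cast this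
      linarith
    · apply mul_nonneg_of_nonpos_of_nonpos hd
      have : J (k - 1) ≤ J k := by
        apply Int.floor_le_floor
        push_cast
        nlinarith
      have : (J (k - 1) : ℝ) ≤ J k := by exact_mod_cast this
      linarith
  have hstep : ∀ k : ℤ, G (k - 1) - 1 ≤ G k := by
    intro k
    have := hsign k
    simp only [G]
    push_cast
    nlinarith
  -- the formula for `G`
  have hG : ∀ k : ℤ, ∃ y : ℝ, |d * y| ≤ |d| ∧
      G k = w₂ - d * w₁ + d * y - (1 - c * d) * k := by
    intro k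
    refine ⟨w₁ - (J k : ℝ) - c * k, ?_, ?_⟩
    · rw [abs_mul]
      have : |w₁ - (J k : ℝ) - c * k| ≤ 1 := by
        rw [abs_of_nonneg (hJ0 k)]
        exact (hJ1 k).le
      exact mul_le_of_le_one_right (abs_nonneg _) this
    · simp only [G]
      ring
  -- the least `k` with `G k ≤ 1`
  obtain ⟨lb, hlb, hmin⟩ := Int.exists_least_of_bdd (P := fun k => G k ≤ 1)
    (by
      refine ⟨⌊(w₂ - d * w₁ - |d| - 1) / (1 - c * d)⌋, ?_⟩
      intro z hz
      obtain ⟨y, hy, hGz⟩ := hG z
      rw [hGz] at hz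
      have h3 := (abs_le.1 hy).1
      have h4 : (w₂ - d * w₁ - |d| - 1) / (1 - c * d) ≤ z := by
        rw [div_le_iff₀ hgap]
        nlinarith
      exact_mod_cast (Int.floor_le _).trans h4)
    (by
      obtain ⟨z, hz⟩ := exists_int_gt ((w₂ - d * w₁ + |d| - 1) / (1 - c * d))
      refine ⟨z, ?_⟩
      obtain ⟨y, hy, hGz⟩ := hG z
      show G z ≤ 1
      rw [hGz]
      have h3 := (abs_le.1 hy).2
      rw [div_lt_iff₀ hgap] at hz
      nlinarith)
  have hprev : 1 < G (lb - 1) := by
    by_contra hcon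
    rw [not_lt] at hcon
    have := hmin (lb - 1) hcon
    omega
  refine ⟨J lb, lb, hJ0 lb, (hJ1 lb).le, ?_, hlb⟩
  have := hstep lb
  show 0 ≤ G lb
  linarith

end Crest.Agent.Lib.RuledLattice
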