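import Crest.Agent.Lib.TetArea
import Crest.Agent.Lib.RuledLattice

/-!
# Planar frames adapted to a traceless operator; squares and cells in the plane
-/

set_option autoImplicit false
set_option linter.unusedSimpArgs false
set_option linter.deprecated false
open MeasureTheory
open scoped ENNReal RealInnerProductSpace

namespace Crest.Agent.Lib.RuledGeom

open Crest.Agent.Lib.TetArea

/-! ### Frames -/

/-- Two coordinates of a linear operator. -/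
lemma clm_coord (A : E2 →L[ℝ] E2) (x : E2) (i : Fin 2) :
    (A x) i = x 0 * (A (EuclideanSpace.single 0 1)) i + x 1 * (A (EuclideanSpace.single 1 1)) i := by
  have hx : x = x 0 • (EuclideanSpace.single (0 : Fin 2) (1 : ℝ) : E2) +
      x 1 • (EuclideanSpace.single (1 : Fin 2) (1 : ℝ) : E2) := by
    ext j
    fin_cases j <;> simp
  conv_lhs => rw [hx]
  simp

lemma trace_eq (A : E2 →L[ℝ] E2) :
    LinearMap.trace ℝ _ A.toLinearMap =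
      (A (EuclideanSpace.single 0 1)) 0 + (A (EuclideanSpace.single 1 1)) 1 := by
  rw [LinearMap.trace_eq_matrix_trace ℝ (EuclideanSpace.basisFun (Fin 2) ℝ).toBasis, Matrix.trace_fin_two]
  simp [LinearMap.toMatrix_apply]

lemma det_eq (A : E2 →L[ℝ] E2) :
    LinearMap.det A.toLinearMap =
      (A (EuclideanSpace.single 0 1)) 0 * (A (EuclideanSpace.single 1 1)) 1 -
        (A (EuclideanSpace.single 1 1)) 0 * (A (EuclideanSpace.single 0 1)) 1 := by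
  rw [← LinearMap.det_toMatrix (EuclideanSpace.basisFun (Fin 2) ℝ).toBasis, Matrix.det_fin_two]
  simp [LinearMap.toMatrix_apply]

/-- A quadratic form `a (u² - v²) + B u v` has a unit zero. -/
lemma exists_unit_zero (a B : ℝ) :
    ∃ u v : ℝ, u ^ 2 + v ^ 2 = 1 ∧ a * (u ^ 2 - v ^ 2) + B * (u * v) = 0 := by
  by_cases ha : a = 0
  · exact ⟨1, 0, by norm_num, by simp [ha]⟩
  · obtain ⟨S, hS⟩ : ∃ S, S = √(B ^ 2 + 4 * a ^ 2) := ⟨_, rfl⟩
    have hs : S ^ 2 = B ^ 2 + 4 * a ^ 2 := by rw [hS]; exact Real.sq_sqrt (by positivity)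
    obtain ⟨t, ht⟩ : ∃ t, t = (-B + S) / (2 * a) := ⟨_, rfl⟩
    have hq : a * t ^ 2 + B * t - a = 0 := by
      have e : a * t ^ 2 + B * t - a = (S ^ 2 - B ^ 2 - 4 * a ^ 2) / (4 * a) := by
        rw [ht]
        field_simp
        ring
      rw [e, hs]
      simp
    have hn : 0 < 1 + t ^ 2 := by positivity
    obtain ⟨n, hn'⟩ : ∃ n, n = √(1 + t ^ 2) := ⟨_, rfl⟩
    have hn0 : 0 < n := by rw [hn']; positivity
    have hn2 : n ^ 2 = 1 + t ^ 2 := by rw [hn']; exact Real.sq_sqrt hn.le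
    refine ⟨t / n, 1 / n, ?_, ?_⟩
    · field_simp
      rw [hn2]
      ring
    · field_simp
      nlinarith

/-- A frame adapted to an operator: it is off-diagonal in the orthonormal basis `e₁`, `e₂`. -/
structure IsFrame (A : E2 →L[ℝ] E2) (e₁ e₂ : E2) (β γ : ℝ) : Prop where
  n1 : ‖e₁‖ = 1
  n2 : ‖e₂‖ = 1
  o : ⟪e₁, e₂⟫ = 0
  expand : ∀ x : E2, x = ⟪x, e₁⟫ • e₁ + ⟪x, e₂⟫ • e₂
  act : ∀ x : E2, A x = (⟪x, e₂⟫ * β) • e₁ + (⟪x, e₁⟫ * γ) • e₂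
  det : β * γ = - LinearMap.det A.toLinearMap
  absdet : |e₁ 0 * e₂ 1 - e₁ 1 * e₂ 0| = 1
  bβ : |β| ≤ ‖A‖
  bγ : |γ| ≤ ‖A‖

lemma exists_frame2 (A : E2 →L[ℝ] E2) (htr : LinearMap.trace ℝ _ A.toLinearMap = 0) :
    ∃ e₁ e₂ β γ, IsFrame A e₁ e₂ β γ := by
  rw [trace_eq] at htr
  obtain ⟨a, ha⟩ : ∃ a, a = (A (EuclideanSpace.single 0 1)) 0 := ⟨_, rfl⟩
  obtain ⟨b, hb⟩ : ∃ b, b = (A (EuclideanSpace.single 1 1)) 0 := ⟨_, rfl⟩
  obtain ⟨c, hc⟩ : ∃ c, c = (A (EuclideanSpace.single 0 1)) 1 := ⟨_, rfl⟩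
  obtain ⟨d, hd⟩ : ∃ d, d = (A (EuclideanSpace.single 1 1)) 1 := ⟨_, rfl⟩
  have hcoord : ∀ x : E2, (A x) 0 = x 0 * a + x 1 * b ∧ (A x) 1 = x 0 * c + x 1 * d := by
    intro x
    rw [clm_coord A x 0, clm_coord A x 1, ha, hb, hc, hd]
    exact ⟨rfl, rfl⟩
  have hd' : d = -a := by rw [ha, hd]; linarith
  obtain ⟨u, v, huv, hq⟩ := exists_unit_zero a (b + c)
  let e₁ : E2 := !₂[u, v]
  let e₂ : E2 := !₂[-v, u]
  have e10 : e₁ 0 = u := by simp [e₁]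
  have e11 : e₁ 1 = v := by simp [e₁]
  have e20 : e₂ 0 = -v := by simp [e₂]
  have e21 : e₂ 1 = u := by simp [e₂]
  have n1 : ‖e₁‖ = 1 := by
    have : ‖e₁‖ ^ 2 = 1 := by rw [normsq2, e10, e11, huv]
    nlinarith [norm_nonneg e₁]
  have n2 : ‖e₂‖ = 1 := by
    have : ‖e₂‖ ^ 2 = 1 := by rw [normsq2, e20, e21]; linarith
    nlinarith [norm_nonneg e₂]
  have o : ⟪e₁, e₂⟫ = 0 := by rw [inner2, e10, e11, e20, e21]; ring
  have expand : ∀ x : E2, x = ⟪x, e₁⟫ • e₁ + ⟪x, e₂⟫ • e₂ := by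
    intro x
    rw [inner2, inner2, e10, e11, e20, e21]
    ext i
    fin_cases i
    · simp only [Fin.zero_eta, PiLp.add_apply, PiLp.smul_apply, smul_eq_mul, e10, e20]
      have : (x 0 * u + x 1 * v) * u + (x 0 * (-v) + x 1 * u) * (-v) = x 0 * (u ^ 2 + v ^ 2) := by ring
      rw [this, huv, mul_one]
    · simp only [Fin.mk_one, PiLp.add_apply, PiLp.smul_apply, smul_eq_mul, e11, e21]
      have : (x 0 * u + x 1 * v) * v + (x 0 * (-v) + x 1 * u) * u = x 1 * (u ^ 2 + v ^ 2) := by ring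
      rw [this, huv, mul_one]
  obtain ⟨β, hβ⟩ : ∃ β, β = ⟪A e₂, e₁⟫ := ⟨_, rfl⟩
  obtain ⟨γ, hγ⟩ : ∃ γ, γ = ⟪A e₁, e₂⟫ := ⟨_, rfl⟩
  have h11 : ⟪A e₁, e₁⟫ = 0 := by
    rw [inner2, (hcoord e₁).1, (hcoord e₁).2, e10, e11, hd']
    linear_combination hq
  have h22 : ⟪A e₂, e₂⟫ = 0 := by
    rw [inner2, (hcoord e₂).1, (hcoord e₂).2, e20, e21, hd']
    linear_combination -hq
  have act1 : A e₁ = γ • e₂ := by
    have := expand (A e₁)
    rw [h11, ← hγ, zero_smul, zero_add] at this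
    exact this
  have act2 : A e₂ = β • e₁ := by
    have := expand (A e₂)
    rw [h22, ← hβ, zero_smul, add_zero] at this
    exact this
  have hbnd : ∀ x y : E2, ‖x‖ = 1 → ‖y‖ = 1 → |⟪A x, y⟫| ≤ ‖A‖ := by
    intro x y hx hy
    calc |⟪A x, y⟫| ≤ ‖A x‖ * ‖y‖ := abs_real_inner_le_norm _ _
      _ ≤ (‖A‖ * ‖x‖) * ‖y‖ := by gcongr; exact A.le_opNorm x
      _ = ‖A‖ := by rw [hx, hy]; ring
  refine ⟨e₁, e₂, β, γ, n1, n2, o, expand, ?_, ?_, ?_, ?_, ?_⟩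
  · intro x
    conv_lhs => rw [expand x]
    rw [map_add, map_smul, map_smul, act1, act2, smul_smul, smul_smul, add_comm]
  · rw [det_eq, ← ha, ← hb, ← hc, ← hd]
    have hkey : ⟪A e₁, e₁⟫ * ⟪A e₂, e₂⟫ - γ * β = (a * d - b * c) * (u ^ 2 + v ^ 2) ^ 2 := by
      rw [hβ, hγ, inner2, inner2, inner2, inner2]
      simp only [(hcoord e₁).1, (hcoord e₁).2, (hcoord e₂).1, (hcoord e₂).2, e10, e11, e20, e21]
      ring
    rw [h11, huv] at hkey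
    linarith
  · rw [e10, e11, e20, e21]
    have : u * u - v * (-v) = 1 := by linarith
    rw [this, abs_one]
  · rw [hβ]; exact hbnd _ _ n2 n1
  · rw [hγ]; exact hbnd _ _ n1 n2

/-! ### Half-open boxes and squares -/

/-- A half-open coordinate box. -/
def box (a b c d : ℝ) : Set E2 := {x | a ≤ x 0 ∧ x 0 < b ∧ c ≤ x 1 ∧ x 1 < d}

lemma measurableSet_box (a b c d : ℝ) : MeasurableSet (box a b c d) := by
  have h0 : Measurable (fun x : E2 => x 0) := by fun_prop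
  have h1 : Measurable (fun x : E2 => x 1) := by fun_prop
  exact (measurableSet_le measurable_const h0).inter ((measurableSet_lt h0 measurable_const).inter
    ((measurableSet_le measurable_const h1).inter (measurableSet_lt h1 measurable_const)))

lemma vol_box (a b c d : ℝ) : volume (box a b c d) = ENNReal.ofReal (b - a) * ENNReal.ofReal (d - c) := by
  have h := (EuclideanSpace.volume_preserving_symm_measurableEquiv_toLp (Fin 2))
  have hs : box a b c d = (MeasurableEquiv.toLp 2 (Fin 2 → ℝ)).symm ⁻¹'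
      (Set.pi Set.univ fun i => Set.Ico (![a, c] i) (![b, d] i)) := by
    ext x
    simp only [box, Set.mem_setOf_eq, Set.mem_preimage, Set.mem_pi, Set.mem_univ, forall_true_left,
      Fin.forall_fin_two, Set.mem_Ico, Matrix.cons_val_zero, Matrix.cons_val_one,
      MeasurableEquiv.coe_toLp_symm]
    tauto
  rw [hs, h.measure_preimage (MeasurableSet.univ_pi (fun i => measurableSet_Ico)).nullMeasurableSet,
    Real.volume_pi_Ico]
  simp [Fin.prod_univ_two]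

/-- A half-open square in a frame. -/
def sq (q e₁ e₂ : E2) (η : ℝ) : Set E2 :=
  {x | ∃ t₁ ∈ Set.Ico (0 : ℝ) η, ∃ t₂ ∈ Set.Ico (0 : ℝ) η, x = q + t₁ • e₁ + t₂ • e₂}

lemma sq_eq_image (q e₁ e₂ : E2) (η : ℝ) :
    sq q e₁ e₂ η = (fun y => q + y) '' ((fun x : E2 => x 0 • e₁ + x 1 • e₂) '' box 0 η 0 η) := by
  rw [Set.image_image]
  ext x
  constructor
  · rintro ⟨t₁, ⟨h1, h2⟩, t₂, ⟨h3, h4⟩, rfl⟩
    refine ⟨!₂[t₁, t₂], ?_, ?_⟩
    · simp only [box, Set.mem_setOf_eq]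
      simpa using ⟨h1, h2, h3, h4⟩
    · simp [add_assoc]
  · rintro ⟨y, ⟨h1, h2, h3, h4⟩, rfl⟩
    exact ⟨y 0, ⟨h1, h2⟩, y 1, ⟨h3, h4⟩, by simp [add_assoc]⟩

lemma vol_sq (q e₁ e₂ : E2) (η : ℝ) (hη : 0 ≤ η) (hdet : |e₁ 0 * e₂ 1 - e₁ 1 * e₂ 0| = 1) :
    volume (sq q e₁ e₂ η) = ENNReal.ofReal (η ^ 2) := by
  rw [sq_eq_image, Set.image_add_left, measure_preimage_add, vol_image_lin2, hdet, vol_box]
  simp only [sub_zero, ENNReal.ofReal_one, one_mul]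
  rw [← ENNReal.ofReal_mul hη, pow_two]

/-- The coordinates of a point of a square. -/
lemma sq_iff (q e₁ e₂ : E2) (η : ℝ) (n1 : ‖e₁‖ = 1) (n2 : ‖e₂‖ = 1) (o : ⟪e₁, e₂⟫ = 0)
    (expand : ∀ x : E2, x = ⟪x, e₁⟫ • e₁ + ⟪x, e₂⟫ • e₂) (x : E2) :
    x ∈ sq q e₁ e₂ η ↔ ⟪x - q, e₁⟫ ∈ Set.Ico (0 : ℝ) η ∧ ⟪x - q, e₂⟫ ∈ Set.Ico (0 : ℝ) η := by
  have o' : ⟪e₂, e₁⟫ = 0 := by rw [real_inner_comm]; exact o
  constructor
  · rintro ⟨t₁, h1, t₂, h2, rfl⟩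
    have e : q + t₁ • e₁ + t₂ • e₂ - q = t₁ • e₁ + t₂ • e₂ := by abel
    rw [e]
    simp only [inner_add_left, inner_smul_left, real_inner_self_eq_norm_sq, n1, n2, o, o',
      conj_trivial]
    simpa using ⟨h1, h2⟩
  · rintro ⟨h1, h2⟩
    refine ⟨_, h1, _, h2, ?_⟩
    rw [add_assoc, ← expand]
    abel

lemma measurableSet_sq (q e₁ e₂ : E2) (η : ℝ) (n1 : ‖e₁‖ = 1) (n2 : ‖e₂‖ = 1) (o : ⟪e₁, e₂⟫ = 0)
    (expand : ∀ x : E2, x = ⟪x, e₁⟫ • e₁ + ⟪x, e₂⟫ • e₂) : MeasurableSet (sq q e₁ e₂ η) := by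
  have : sq q e₁ e₂ η = {x | ⟪x - q, e₁⟫ ∈ Set.Ico (0 : ℝ) η ∧ ⟪x - q, e₂⟫ ∈ Set.Ico (0 : ℝ) η} := by
    ext x
    exact sq_iff q e₁ e₂ η n1 n2 o expand x
  rw [this]
  have h1 : Measurable (fun x : E2 => ⟪x - q, e₁⟫) :=
    (continuous_id.sub continuous_const).inner continuous_const |>.measurable
  have h2 : Measurable (fun x : E2 => ⟪x - q, e₂⟫) :=
    (continuous_id.sub continuous_const).inner continuous_const |>.measurable
  exact (h1 measurableSet_Ico).inter (h2 measurableSet_Ico)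

/-- The lattice point. -/
noncomputable def lat (p₀ e₁ e₂ : E2) (η : ℝ) (z : ℤ × ℤ) : E2 :=
  p₀ + (η * z.1) • e₁ + (η * z.2) • e₂

lemma lat_disjoint (p₀ e₁ e₂ : E2) (η : ℝ) (hη : 0 < η) (n1 : ‖e₁‖ = 1) (n2 : ‖e₂‖ = 1)
    (o : ⟪e₁, e₂⟫ = 0) (expand : ∀ x : E2, x = ⟪x, e₁⟫ • e₁ + ⟪x, e₂⟫ • e₂) (z z' : ℤ × ℤ)
    (hz : z ≠ z') : Disjoint (sq (lat p₀ e₁ e₂ η z) e₁ e₂ η) (sq (lat p₀ e₁ e₂ η z') e₁ e₂ η) := by
  have o' : ⟪e₂, e₁⟫ = 0 := by rw [real_inner_comm]; exact o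
  rw [Set.disjoint_left]
  intro x hx hx'
  rw [sq_iff _ _ _ _ n1 n2 o expand] at hx hx'
  obtain ⟨⟨h1, h2⟩, ⟨h3, h4⟩⟩ := hx
  obtain ⟨⟨h1', h2'⟩, ⟨h3', h4'⟩⟩ := hx'
  have key : ∀ w : ℤ × ℤ, ⟪x - lat p₀ e₁ e₂ η w, e₁⟫ = ⟪x - p₀, e₁⟫ - η * w.1 ∧
      ⟪x - lat p₀ e₁ e₂ η w, e₂⟫ = ⟪x - p₀, e₂⟫ - η * w.2 := by
    intro w
    have e : x - lat p₀ e₁ e₂ η w = (x - p₀) - (η * w.1) • e₁ - (η * w.2) • e₂ := by
      simp only [lat]; abel
    rw [e]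
    simp only [inner_sub_left, inner_smul_left, real_inner_self_eq_norm_sq, n1, n2, o, o',
      conj_trivial]
    constructor <;> ring
  rw [(key z).1] at h1 h2
  rw [(key z).2] at h3 h4
  rw [(key z').1] at h1' h2'
  rw [(key z').2] at h3' h4'
  apply hz
  have uniq : ∀ (X : ℝ) (m m' : ℤ), 0 ≤ X - η * m → X - η * m < η → 0 ≤ X - η * m' →
      X - η * m' < η → m = m' := by
    intro X m m' a1 a2 a3 a4
    have b1 : η * (m : ℝ) < η * (m' + 1) := by linarith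
    have b2 : η * (m' : ℝ) < η * (m + 1) := by linarith
    have b3 : (m : ℝ) < m' + 1 := lt_of_mul_lt_mul_left b1 hη.le
    have b4 : (m' : ℝ) < m + 1 := lt_of_mul_lt_mul_left b2 hη.le
    have b5 : m < m' + 1 := by exact_mod_cast b3
    have b6 : m' < m + 1 := by exact_mod_cast b4
    omega
  exact Prod.ext (uniq _ _ _ h1 h2 h1' h2') (uniq _ _ _ h3 h4 h3' h4')

/-- Counting lattice squares in a set. -/
theorem count_lattice (p₀ e₁ e₂ : E2) (η : ℝ) (hη : 0 < η) (n1 : ‖e₁‖ = 1) (n2 : ‖e₂‖ = 1)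
    (o : ⟪e₁, e₂⟫ = 0) (expand : ∀ x : E2, x = ⟪x, e₁⟫ • e₁ + ⟪x, e₂⟫ • e₂)
    (hdet : |e₁ 0 * e₂ 1 - e₁ 1 * e₂ 0| = 1) (S : Finset (ℤ × ℤ)) (Z : Set E2)
    (hZ : volume Z ≠ ⊤) (hS : ∀ z ∈ S, sq (lat p₀ e₁ e₂ η z) e₁ e₂ η ⊆ Z) :
    (S.card : ℝ) * η ^ 2 ≤ (volume Z).toReal := by
  have h1 : volume (⋃ z ∈ S, sq (lat p₀ e₁ e₂ η z) e₁ e₂ η) =
      ∑ z ∈ S, volume (sq (lat p₀ e₁ e₂ η z) e₁ e₂ η) := by
    apply measure_biUnion_finset
    · intro z _ z' _ hzz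
      exact lat_disjoint p₀ e₁ e₂ η hη n1 n2 o expand z z' hzz
    · intro z _
      exact measurableSet_sq _ _ _ _ n1 n2 o expand
  have h2 : volume (⋃ z ∈ S, sq (lat p₀ e₁ e₂ η z) e₁ e₂ η) ≤ volume Z :=
    measure_mono (Set.iUnion₂_subset hS)
  rw [h1] at h2
  simp only [vol_sq _ e₁ e₂ η hη.le hdet, Finset.sum_const, nsmul_eq_mul] at h2
  have h3 := ENNReal.toReal_mono hZ h2
  rw [ENNReal.toReal_mul, ENNReal.toReal_ofReal (by positivity)] at h3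
  simpa using h3

end Crest.Agent.Lib.RuledGeom
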