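import Mathlib

/-! Log-concavity is preserved by mixing with an exponential variable (elementary proof). -/

namespace Crest.Agent.Lib.S0423Aux

open MeasureTheory Set Filter Topology Real

/-- positive, bounded by one, log-concave functions on the line. -/
structure LC (k : ℝ → ℝ) : Prop where
  pos : ∀ t, 0 < k t
  le_one : ∀ t, k t ≤ 1
  conc : ConcaveOn ℝ univ (fun t => Real.log (k t))

lemma LC.logContinuous {k : ℝ → ℝ} (hk : LC k) : Continuous (fun t => Real.log (k t)) := by
  have := ConcaveOn.continuousOn isOpen_univ hk.conc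
  exact continuousOn_univ.mp this

lemma LC.continuous {k : ℝ → ℝ} (hk : LC k) : Continuous k := by
  have h := (Real.continuous_exp.comp hk.logContinuous)
  refine h.congr fun t => ?_
  simp [Real.exp_log (hk.pos t)]

/-- affine functions are concave. -/
lemma concaveOn_affine (a c : ℝ) : ConcaveOn ℝ univ (fun t : ℝ => a * t + c) := by
  refine ⟨convex_univ, fun x _ y _ α β _ _ hαβ => le_of_eq ?_⟩
  simp only [smul_eq_mul]
  have : β = 1 - α := by linarith
  subst this
  ring

/-- increments of a concave function decrease. -/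
lemma concave_incr {f : ℝ → ℝ} (hf : ConcaveOn ℝ univ f) {y₁ y₂ v : ℝ} (h : y₁ ≤ y₂) (hv : 0 ≤ v) :
    f (y₂ + v) + f y₁ ≤ f y₂ + f (y₁ + v) := by
  rcases eq_or_lt_of_le h with rfl | h'
  · linarith
  rcases eq_or_lt_of_le hv with rfl | hv'
  · simp
  have hL : 0 < (y₂ - y₁) + v := by linarith
  set L := (y₂ - y₁) + v with hLdef
  have ha : 0 ≤ v / L := by positivity
  have hb : 0 ≤ (y₂ - y₁) / L := div_nonneg (by linarith) hL.le
  have hab : v / L + (y₂ - y₁) / L = 1 := by field_simp; rw [hLdef]; ring
  have hba : (y₂ - y₁) / L + v / L = 1 := by rw [add_comm]; exact hab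
  have h1 := hf.2 (mem_univ y₁) (mem_univ (y₂ + v)) ha hb hab
  have h2 := hf.2 (mem_univ y₁) (mem_univ (y₂ + v)) hb ha hba
  have e1 : (v / L) • y₁ + ((y₂ - y₁) / L) • (y₂ + v) = y₂ := by
    simp only [smul_eq_mul]; field_simp; rw [hLdef]; ring
  have e2 : ((y₂ - y₁) / L) • y₁ + (v / L) • (y₂ + v) = y₁ + v := by
    simp only [smul_eq_mul]; field_simp; rw [hLdef]; ring
  rw [e1] at h1
  rw [e2] at h2
  simp only [smul_eq_mul] at h1 h2
  have : (v / L) * f y₁ + ((y₂ - y₁) / L) * f (y₂ + v) + (((y₂ - y₁) / L) * f y₁ + (v / L) * f (y₂ + v))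
      = f y₁ + f (y₂ + v) := by
    have : (v / L) * f y₁ + ((y₂ - y₁) / L) * f (y₂ + v) + (((y₂ - y₁) / L) * f y₁ + (v / L) * f (y₂ + v))
        = (v / L + (y₂ - y₁) / L) * (f y₁ + f (y₂ + v)) := by ring
    rw [this, hab, one_mul]
  linarith

/-- translation on a half line. -/
lemma integral_Ioi_shift (f : ℝ → ℝ) (a b : ℝ) :
    ∫ x in Ioi a, f (x + b) = ∫ x in Ioi (a + b), f x := by
  have h := (measurePreserving_add_right volume b).setIntegral_preimage_emb
    (measurableEmbedding_addRight b) f (Ioi (a + b))
  have e : (fun x => x + b) ⁻¹' Ioi (a + b) = Ioi a := by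
    ext x; simp
  rw [e] at h
  exact h

/-- The tail integral of a positive log-concave integrable function is log-concave. -/
lemma logConcave_tail {κ : ℝ → ℝ} (hpos : ∀ t, 0 < κ t) (hcont : Continuous κ)
    (hint : ∀ y, IntegrableOn κ (Ioi y))
    (hconc : ConcaveOn ℝ univ (fun t => Real.log (κ t))) :
    ConcaveOn ℝ univ (fun y => Real.log (∫ s in Ioi y, κ s)) := by
  -- the tail integral
  set J : ℝ → ℝ := fun y => ∫ s in Ioi y, κ s with hJ
  have hJpos : ∀ y, 0 < J y := by
    intro y
    have : 0 < ∫ s in Ioi y, κ s := by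
      rw [setIntegral_pos_iff_support_of_nonneg_ae]
      · have : Function.support κ = univ := by
          ext x; simp [(hpos x).ne']
        rw [this, univ_inter]
        simp
      · exact ae_of_all _ fun x => (hpos x).le
      · exact hint y
    exact this
  have hJderiv : ∀ y, HasDerivAt J (-κ y) y := by
    intro y
    have key : ∀ z, J z = J 0 - ∫ s in (0:ℝ)..z, κ s := by
      intro z
      have := intervalIntegral.integral_interval_add_Ioi (hint 0) (hint z)
      simp only [hJ]
      linarith
    have h1 : HasDerivAt (fun z => ∫ s in (0:ℝ)..z, κ s) (κ y) y :=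
      intervalIntegral.integral_hasDerivAt_right (hcont.intervalIntegrable _ _)
        (hcont.stronglyMeasurableAtFilter _ _) hcont.continuousAt
    have h2 : HasDerivAt (fun z => J 0 - ∫ s in (0:ℝ)..z, κ s) (-κ y) y := by
      simpa using h1.const_sub (J 0)
    exact h2.congr_of_eventuallyEq (Eventually.of_forall key)
  have hlogderiv : ∀ y, HasDerivAt (fun y => Real.log (J y)) (-κ y / J y) y := fun y =>
    (hJderiv y).log (hJpos y).ne'
  have hcontlog : Continuous (fun y => Real.log (J y)) :=
    continuous_iff_continuousAt.mpr fun y => (hlogderiv y).continuousAt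
  refine AntitoneOn.concaveOn_of_deriv convex_univ hcontlog.continuousOn ?_ ?_
  · exact fun y _ => (hlogderiv y).differentiableAt.differentiableWithinAt
  · intro y₁ _ y₂ _ h
    rw [(hlogderiv y₁).deriv, (hlogderiv y₂).deriv]
    -- ratio comparison
    have hQ : ∀ v, 0 ≤ v → κ (v + y₂) * κ y₁ ≤ κ y₂ * κ (v + y₁) := by
      intro v hv
      have := concave_incr hconc h hv
      have h3 : Real.log (κ (v + y₂) * κ y₁) ≤ Real.log (κ y₂ * κ (v + y₁)) := by
        rw [Real.log_mul (hpos _).ne' (hpos _).ne', Real.log_mul (hpos _).ne' (hpos _).ne',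
          add_comm v, add_comm v]
        exact this
      exact (Real.log_le_log_iff (mul_pos (hpos _) (hpos _)) (mul_pos (hpos _) (hpos _))).mp h3
    -- integrate
    have hshift : ∀ y, J y = ∫ v in Ioi (0:ℝ), κ (v + y) := by
      intro y
      rw [integral_Ioi_shift κ 0 y, zero_add]
    have hcross : J y₂ * κ y₁ ≤ κ y₂ * J y₁ := by
      rw [hshift y₂, hshift y₁, ← integral_mul_const, ← integral_const_mul]
      refine setIntegral_mono_on ?_ ?_ measurableSet_Ioi ?_
      · have : IntegrableOn (fun v => κ (v + y₂)) (Ioi 0) := by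
          have := (hint y₂)
          have h2 := (measurePreserving_add_right volume y₂).integrableOn_comp_preimage
            (measurableEmbedding_addRight y₂) (f := κ) (s := Ioi (0 + y₂))
          have e : (fun x => x + y₂) ⁻¹' Ioi (0 + y₂) = Ioi 0 := by
            ext x; simp
          rw [e] at h2
          exact h2.mpr (by simpa using this)
        exact this.mul_const _
      · have : IntegrableOn (fun v => κ (v + y₁)) (Ioi 0) := by
          have := (hint y₁)
          have h2 := (measurePreserving_add_right volume y₁).integrableOn_comp_preimage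
            (measurableEmbedding_addRight y₁) (f := κ) (s := Ioi (0 + y₁))
          have e : (fun x => x + y₁) ⁻¹' Ioi (0 + y₁) = Ioi 0 := by
            ext x; simp
          rw [e] at h2
          exact h2.mpr (by simpa using this)
        exact this.const_mul _
      · intro v hv
        exact hQ v (le_of_lt hv)
    -- conclude
    have h1 := hJpos y₁
    have h2 := hJpos y₂
    rw [neg_div, neg_div, neg_le_neg_iff, div_le_div_iff₀ h1 h2]
    nlinarith [hcross]

/-- The mixing operator: `V b k y = E[k (y + b X)]` with `X` standard exponential. -/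
noncomputable def V (b : ℝ) (k : ℝ → ℝ) (y : ℝ) : ℝ :=
  ∫ x in Ioi (0:ℝ), k (y + b * x) * Real.exp (-x)

lemma LC.integrableOn {k : ℝ → ℝ} (hk : LC k) (b y : ℝ) :
    IntegrableOn (fun x => k (y + b * x) * Real.exp (-x)) (Ioi 0) := by
  refine Integrable.mono' (integrableOn_exp_neg_Ioi 0) ?_ ?_
  · exact ((hk.continuous.comp (by fun_prop)).mul (by fun_prop)).aestronglyMeasurable
  · refine ae_of_all _ fun x => ?_
    rw [Real.norm_of_nonneg (mul_nonneg (hk.pos _).le (Real.exp_pos _).le)]
    have := hk.le_one (y + b * x)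
    have h2 := Real.exp_pos (-x)
    nlinarith

lemma V_zero {k : ℝ → ℝ} (y : ℝ) : V 0 k y = k y := by
  simp only [V, zero_mul, add_zero]
  rw [integral_const_mul, integral_exp_neg_Ioi_zero, mul_one]

lemma V_pos {k : ℝ → ℝ} (hk : LC k) (b y : ℝ) : 0 < V b k y := by
  unfold V
  rw [setIntegral_pos_iff_support_of_nonneg_ae]
  · have : Function.support (fun x => k (y + b * x) * Real.exp (-x)) = univ := by
      ext x
      simp [(hk.pos _).ne', (Real.exp_pos _).ne']
    rw [this, univ_inter]
    simp
  · exact ae_of_all _ fun x => mul_nonneg (hk.pos _).le (Real.exp_pos _).le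
  · exact hk.integrableOn b y

lemma V_le_one {k : ℝ → ℝ} (hk : LC k) (b y : ℝ) : V b k y ≤ 1 := by
  unfold V
  rw [← integral_exp_neg_Ioi_zero]
  refine setIntegral_mono_on (hk.integrableOn b y) (integrableOn_exp_neg_Ioi 0) measurableSet_Ioi ?_
  intro x _
  have := hk.le_one (y + b * x)
  have h2 := Real.exp_pos (-x)
  nlinarith

/-- formula for positive coefficient -/
lemma V_eq_of_pos {k : ℝ → ℝ} {b : ℝ} (hb : 0 < b) (y : ℝ) :
    V b k y = b⁻¹ * Real.exp (y / b) * ∫ s in Ioi y, k s * Real.exp (-s / b) := by
  unfold V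
  have h1 := integral_comp_mul_left_Ioi (E := ℝ)
    (fun z => k (z + y) * Real.exp (- (z / b))) 0 hb
  simp only [mul_zero, smul_eq_mul] at h1
  have h2 : ∀ x, k (y + b * x) * Real.exp (-x)
      = k (b * x + y) * Real.exp (-(b * x / b)) := by
    intro x
    rw [add_comm y, mul_div_cancel_left₀ x hb.ne']
  simp_rw [h2]
  rw [h1]
  have h3 := integral_Ioi_shift (fun s => k s * Real.exp (-s / b)) 0 y
  simp only [zero_add] at h3
  have h4 : ∫ x in Ioi (0:ℝ), k (x + y) * Real.exp (-(x / b))
      = Real.exp (y / b) * ∫ x in Ioi (0:ℝ), k (x + y) * Real.exp (-(x + y) / b) := by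
    rw [← integral_const_mul]
    refine integral_congr_ae (ae_of_all _ fun x => ?_)
    simp only
    rw [mul_comm (Real.exp (y / b)), mul_assoc, ← Real.exp_add]
    congr 2
    field_simp
    ring
  rw [← h3, h4, mul_assoc]

lemma V_logConcave_of_pos {k : ℝ → ℝ} (hk : LC k) {b : ℝ} (hb : 0 < b) :
    ConcaveOn ℝ univ (fun y => Real.log (V b k y)) := by
  have hκpos : ∀ t, 0 < k t * Real.exp (-t / b) := fun t => mul_pos (hk.pos t) (Real.exp_pos _)
  have hκcont : Continuous fun t => k t * Real.exp (-t / b) :=
    hk.continuous.mul (by fun_prop)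
  have hκint : ∀ y, IntegrableOn (fun t => k t * Real.exp (-t / b)) (Ioi y) := by
    intro y
    have hexp : IntegrableOn (fun t => Real.exp (-(b⁻¹) * t)) (Ioi y) :=
      exp_neg_integrableOn_Ioi y (by positivity)
    refine Integrable.mono' hexp hκcont.aestronglyMeasurable (ae_of_all _ fun t => ?_)
    rw [Real.norm_of_nonneg (hκpos t).le]
    have e : -(b⁻¹) * t = -t / b := by field_simp
    rw [e]
    have := hk.le_one t
    have h2 := Real.exp_pos (-t / b)
    nlinarith
  have hκconc : ConcaveOn ℝ univ (fun t => Real.log (k t * Real.exp (-t / b))) := by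
    have : (fun t => Real.log (k t * Real.exp (-t / b))) =
        fun t => Real.log (k t) + (-t / b) := by
      funext t
      rw [Real.log_mul (hk.pos t).ne' (Real.exp_pos _).ne', Real.log_exp]
    rw [this]
    refine hk.conc.add ?_
    have h3 := concaveOn_affine (-b⁻¹) 0
    refine h3.congr ?_
    intro t _
    simp only
    field_simp
    ring
  have htail := logConcave_tail hκpos hκcont hκint hκconc
  have heq : (fun y => Real.log (V b k y)) =
      fun y => (b⁻¹ * y + Real.log (b⁻¹)) + Real.log (∫ s in Ioi y, k s * Real.exp (-s / b)) := by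
    funext y
    have hJ : 0 < ∫ s in Ioi y, k s * Real.exp (-s / b) := by
      rw [setIntegral_pos_iff_support_of_nonneg_ae]
      · have : Function.support (fun t => k t * Real.exp (-t / b)) = univ := by
          ext x
          simp [(hk.pos x).ne', (Real.exp_pos (-x / b)).ne']
        rw [this, univ_inter]
        simp
      · exact ae_of_all _ fun x => (hκpos x).le
      · exact hκint y
    rw [V_eq_of_pos hb, Real.log_mul (by positivity) hJ.ne',
      Real.log_mul (by positivity) (Real.exp_pos _).ne', Real.log_exp]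
    field_simp
    ring
  rw [heq]
  exact (concaveOn_affine b⁻¹ (Real.log b⁻¹)).add htail

/-- reflection -/
lemma LC.reflect {k : ℝ → ℝ} (hk : LC k) : LC (fun t => k (-t)) := by
  refine ⟨fun t => hk.pos _, fun t => hk.le_one _, convex_univ, ?_⟩
  intro x _ y _ a b ha hb hab
  have := hk.conc.2 (mem_univ (-x)) (mem_univ (-y)) ha hb hab
  simp only [smul_eq_mul] at this ⊢
  have e : a * -x + b * -y = -(a * x + b * y) := by ring
  rw [e] at this
  exact this

lemma V_reflect (k : ℝ → ℝ) (b y : ℝ) : V b k y = V (-b) (fun t => k (-t)) (-y) := by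
  unfold V
  congr 1
  funext x
  congr 2
  ring

/-- `V` preserves the class `LC`. -/
theorem LC.V {k : ℝ → ℝ} (hk : LC k) (b : ℝ) : LC (V b k) := by
  refine ⟨V_pos hk b, V_le_one hk b, ?_⟩
  rcases lt_trichotomy b 0 with hb | rfl | hb
  · have h := V_logConcave_of_pos hk.reflect (b := -b) (by linarith)
    refine ⟨convex_univ, ?_⟩
    intro x _ y _ α β hα hβ hαβ
    have := h.2 (mem_univ (-x)) (mem_univ (-y)) hα hβ hαβ
    simp only [smul_eq_mul] at this ⊢
    have e : α * -x + β * -y = -(α * x + β * y) := by ring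
    rw [e] at this
    rw [V_reflect k b (α * x + β * y), V_reflect k b x, V_reflect k b y]
    exact this
  · have : (fun t => Real.log (Crest.Agent.Lib.S0423Aux.V 0 k t)) = fun t => Real.log (k t) := by
      funext t
      rw [V_zero]
    rw [this]
    exact hk.conc
  · exact V_logConcave_of_pos hk hb

end Crest.Agent.Lib.S0423Aux
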