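import Mathlib
import Crest.Prelude.Def_TruncExpWeight
import Crest.Agent.Lib.S0423LC

/-! Explicit one-dimensional integrals for S0423. -/

namespace Crest.Agent.Lib.S0423Aux

open MeasureTheory Set Filter Topology Real

lemma tendsto_mul_exp_neg_mul {γ : ℝ} (hγ : 0 < γ) :
    Tendsto (fun x : ℝ => x * Real.exp (-(γ * x))) atTop (𝓝 0) := by
  have h1 : Tendsto (fun x : ℝ => γ * x) atTop atTop :=
    tendsto_id.const_mul_atTop hγ
  have h2 := (Real.tendsto_pow_mul_exp_neg_atTop_nhds_zero 1).comp h1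
  have h3 := h2.const_mul γ⁻¹
  simp only [mul_zero] at h3
  refine h3.congr fun x => ?_
  simp only [Function.comp, pow_one]
  field_simp

lemma tendsto_exp_neg_mul {γ : ℝ} (hγ : 0 < γ) :
    Tendsto (fun x : ℝ => Real.exp (-(γ * x))) atTop (𝓝 0) :=
  Real.tendsto_exp_neg_atTop_nhds_zero.comp (tendsto_id.const_mul_atTop hγ)

/-- antiderivative of a linear times exponential -/
lemma hasDerivAt_linear_exp (α β γ x : ℝ) (hγ : 0 < γ) :
    HasDerivAt (fun x => -(Real.exp (-(γ * x)) * ((α + β * x) / γ + β / γ ^ 2)))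
      ((α + β * x) * Real.exp (-(γ * x))) x := by
  have h1 : HasDerivAt (fun x => Real.exp (-(γ * x))) (Real.exp (-(γ * x)) * (-(γ * 1))) x :=
    ((hasDerivAt_id x).const_mul γ).neg.exp
  have h2 : HasDerivAt (fun x => (α + β * x) / γ + β / γ ^ 2) ((β * 1) / γ) x := by
    have := ((((hasDerivAt_id x).const_mul β).const_add α).div_const γ).add_const (β / γ ^ 2)
    simpa using this
  have h3 := (h1.mul h2).neg
  have e : (α + β * x) * Real.exp (-(γ * x)) = -(Real.exp (-(γ * x)) * -(γ * 1) * ((α + β * x) / γ + β / γ ^ 2) +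
      Real.exp (-(γ * x)) * (β * 1 / γ)) := by
    field_simp
    ring
  rw [e]
  exact h3

lemma integrableOn_linear_exp {α β γ a : ℝ} (hγ : 0 < γ) (hβ : 0 ≤ β) (h : 0 ≤ α + β * a) :
    IntegrableOn (fun x => (α + β * x) * Real.exp (-(γ * x))) (Ioi a) := by
  refine integrableOn_Ioi_deriv_of_nonneg' (l := 0)
    (g := fun x => -(Real.exp (-(γ * x)) * ((α + β * x) / γ + β / γ ^ 2)))
    (fun x _ => hasDerivAt_linear_exp α β γ x hγ) ?_ ?_
  · intro x hx
    have hx' : a < x := hx
    have : 0 ≤ α + β * x := by nlinarith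
    exact mul_nonneg this (Real.exp_pos _).le
  · have h1 := tendsto_mul_exp_neg_mul hγ
    have h2 := tendsto_exp_neg_mul hγ
    have h3 := ((h1.const_mul (β / γ)).add (h2.const_mul (α / γ + β / γ ^ 2))).neg
    simp only [mul_zero, add_zero, neg_zero] at h3
    refine h3.congr fun x => ?_
    field_simp
    ring

lemma integral_linear_exp {α β γ a : ℝ} (hγ : 0 < γ) (hβ : 0 ≤ β) (h : 0 ≤ α + β * a) :
    ∫ x in Ioi a, (α + β * x) * Real.exp (-(γ * x))
      = Real.exp (-(γ * a)) * ((α + β * a) / γ + β / γ ^ 2) := by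
  have := integral_Ioi_of_hasDerivAt_of_nonneg' (l := 0) (a := a)
    (g := fun x => -(Real.exp (-(γ * x)) * ((α + β * x) / γ + β / γ ^ 2)))
    (g' := fun x => (α + β * x) * Real.exp (-(γ * x)))
    (fun x _ => hasDerivAt_linear_exp α β γ x hγ) ?_ ?_
  · rw [this]; simp
  · intro x hx
    have hx' : a < x := hx
    have : 0 ≤ α + β * x := by nlinarith
    exact mul_nonneg this (Real.exp_pos _).le
  · have h1 := tendsto_mul_exp_neg_mul hγ
    have h2 := tendsto_exp_neg_mul hγ
    have h3 := ((h1.const_mul (β / γ)).add (h2.const_mul (α / γ + β / γ ^ 2))).neg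
    simp only [mul_zero, add_zero, neg_zero] at h3
    refine h3.congr fun x => ?_
    field_simp
    ring

/-- the extremal profile. -/
noncomputable def r (A v : ℝ) : ℝ := min 1 (Real.exp (-1 - v / A))

lemma r_le_one (A v : ℝ) : r A v ≤ 1 := min_le_left _ _
lemma r_pos (A v : ℝ) : 0 < r A v := lt_min one_pos (Real.exp_pos _)
lemma r_le_exp (A v : ℝ) : r A v ≤ Real.exp (-1 - v / A) := min_le_right _ _

lemma r_of_le {A v : ℝ} (hA : 0 < A) (h : v ≤ -A) : r A v = 1 := by
  refine min_eq_left ?_
  have : 0 ≤ -1 - v / A := by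
    have : v / A ≤ -1 := by rw [div_le_iff₀ hA]; linarith
    linarith
  exact Real.one_le_exp this

lemma r_of_ge {A v : ℝ} (hA : 0 < A) (h : -A ≤ v) : r A v = Real.exp (-1 - v / A) := by
  refine min_eq_right ?_
  have : -1 - v / A ≤ 0 := by
    have : -1 ≤ v / A := by rw [le_div_iff₀ hA]; linarith
    linarith
  exact Real.exp_le_one_iff.mpr this

lemma r_anti {A : ℝ} (hA : 0 < A) : Antitone (r A) := by
  intro x y h
  refine min_le_min le_rfl (Real.exp_le_exp.mpr ?_)
  have : x / A ≤ y / A := div_le_div_of_nonneg_right h hA.le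
  linarith

lemma r_continuous {A : ℝ} : Continuous (r A) := by
  unfold r
  fun_prop

/-- the indicator of a bounded interval -/
lemma ico_indicator_integrable (a b : ℝ) : Integrable ((Ico a b).indicator (fun _ => (1:ℝ))) :=
  (integrableOn_const (by simp)).integrable_indicator measurableSet_Ico

lemma ico_indicator_integral {a b : ℝ} (h : a ≤ b) :
    ∫ u, (Ico a b).indicator (fun _ => (1:ℝ)) u = b - a := by
  rw [integral_indicator measurableSet_Ico, setIntegral_const, smul_eq_mul, mul_one,
    Measure.real, Real.volume_Ico, ENNReal.toReal_ofReal (by linarith)]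

/-- the difference of two half-line indicators. -/
lemma step_integrable (a b : ℝ) :
    Integrable (fun u => (Iio a).indicator (fun _ => (1:ℝ)) u - (Iio b).indicator (fun _ => (1:ℝ)) u)
    ∧ ∫ u, ((Iio a).indicator (fun _ => (1:ℝ)) u - (Iio b).indicator (fun _ => (1:ℝ)) u) = a - b := by
  rcases le_total a b with h | h
  · have e : (fun u => (Iio a).indicator (fun _ => (1:ℝ)) u - (Iio b).indicator (fun _ => (1:ℝ)) u)
        = fun u => -((Ico a b).indicator (fun _ => (1:ℝ)) u) := by
      funext u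
      by_cases h1 : u < a
      · have h2 : u < b := lt_of_lt_of_le h1 h
        simp [indicator, h1, h2, not_le.mpr h1]
      · by_cases h2 : u < b
        · simp [indicator, h1, h2, not_lt.mp h1]
        · simp [indicator, h1, h2]
    rw [e]
    refine ⟨(ico_indicator_integrable a b).neg, ?_⟩
    rw [integral_neg, ico_indicator_integral h]
    ring
  · have e : (fun u => (Iio a).indicator (fun _ => (1:ℝ)) u - (Iio b).indicator (fun _ => (1:ℝ)) u)
        = fun u => ((Ico b a).indicator (fun _ => (1:ℝ)) u) := by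
      funext u
      by_cases h1 : u < b
      · have h2 : u < a := lt_of_lt_of_le h1 h
        simp [indicator, h1, h2, not_le.mpr h1]
      · by_cases h2 : u < a
        · simp [indicator, h1, h2, not_lt.mp h1]
        · simp [indicator, h1, h2]
    rw [e]
    exact ⟨ico_indicator_integrable b a, ico_indicator_integral h⟩

/-- exponential tail -/
lemma exp_tail_integrable {A : ℝ} (hA : 0 < A) (x0 : ℝ) :
    Integrable ((Ici x0).indicator (fun u => Real.exp (-(u - x0) / A))) ∧
    ∫ u, (Ici x0).indicator (fun u => Real.exp (-(u - x0) / A)) u = A := by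
  have h1 : IntegrableOn (fun u => Real.exp (-(A⁻¹) * u)) (Ioi x0) :=
    exp_neg_integrableOn_Ioi x0 (by positivity)
  have e : (fun u => Real.exp (-(u - x0) / A)) = fun u => Real.exp (x0 / A) * Real.exp (-(A⁻¹) * u) := by
    funext u
    rw [← Real.exp_add]
    congr 1
    field_simp
    ring
  have h2 : IntegrableOn (fun u => Real.exp (-(u - x0) / A)) (Ici x0) := by
    rw [integrableOn_Ici_iff_integrableOn_Ioi, e]
    exact h1.const_mul _
  refine ⟨h2.integrable_indicator measurableSet_Ici, ?_⟩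
  rw [integral_indicator measurableSet_Ici, integral_Ici_eq_integral_Ioi, e, integral_const_mul]
  have h3 : ∫ u in Ioi x0, Real.exp (-(A⁻¹) * u) = - Real.exp (-(A⁻¹) * x0) / (-(A⁻¹)) :=
    integral_exp_mul_Ioi (by simpa using hA) x0
  rw [h3]
  have : Real.exp (-(A⁻¹) * x0) = (Real.exp (x0 / A))⁻¹ := by
    rw [← Real.exp_neg]
    congr 1
    field_simp
  rw [this]
  have hne := (Real.exp_pos (x0 / A)).ne'
  field_simp

/-- Mean of the extremal profile. -/
lemma r_mean {A : ℝ} (hA : 0 < A) (q c : ℝ) :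
    Integrable (fun u => r A (u - q) - (Iio c).indicator (fun _ => (1:ℝ)) u) ∧
    ∫ u, (r A (u - q) - (Iio c).indicator (fun _ => (1:ℝ)) u) = q - c := by
  set x0 := q - A with hx0
  have e : (fun u => r A (u - q) - (Iio c).indicator (fun _ => (1:ℝ)) u)
      = fun u => (Ici x0).indicator (fun u => Real.exp (-(u - x0) / A)) u +
        ((Iio x0).indicator (fun _ => (1:ℝ)) u - (Iio c).indicator (fun _ => (1:ℝ)) u) := by
    funext u
    by_cases h : u < x0
    · have h1 : u - q ≤ -A := by rw [hx0] at h; linarith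
      simp [indicator, h, not_le.mpr h, r_of_le hA h1]
    · have h1 : -A ≤ u - q := by rw [hx0] at h; linarith
      have h2 : x0 ≤ u := not_lt.mp h
      simp only [indicator, mem_Ici, h2, if_true, mem_Iio, h, if_false, r_of_ge hA h1]
      have : -1 - (u - q) / A = -(u - x0) / A := by
        rw [hx0]; field_simp; ring
      rw [this]
      ring
  rw [e]
  obtain ⟨h1, h2⟩ := exp_tail_integrable hA x0
  obtain ⟨h3, h4⟩ := step_integrable x0 c
  refine ⟨h1.add h3, ?_⟩
  rw [integral_add h1 h3, h2, h4, hx0]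
  ring

/-- The weighted integral of the extremal profile. -/
noncomputable def Phi (A q : ℝ) : ℝ := ∫ u in Ioi (0:ℝ), r A (u - q) * (u * Real.exp (-u))

/-- the Gamma(2) density on a half line -/
lemma gamma2_integrableOn {a : ℝ} (ha : 0 ≤ a) :
    IntegrableOn (fun u => u * Real.exp (-u)) (Ioi a) := by
  have := integrableOn_linear_exp (α := 0) (β := 1) (γ := 1) (a := a) one_pos zero_le_one (by simpa using ha)
  simpa using this

lemma gamma2_integral {a : ℝ} (ha : 0 ≤ a) :
    ∫ u in Ioi a, u * Real.exp (-u) = Real.exp (-a) * (a + 1) := by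
  have := integral_linear_exp (α := 0) (β := 1) (γ := 1) (a := a) one_pos zero_le_one (by simpa using ha)
  simpa using this

lemma Phi_of_le {A q : ℝ} (hA : 0 < A) (hd : q - A ≤ 0) :
    Phi A q = Real.exp ((q - A) / A) / (1 + 1 / A) ^ 2 := by
  unfold Phi
  have hγ : 0 < 1 + 1 / A := by positivity
  have e : ∫ u in Ioi (0:ℝ), r A (u - q) * (u * Real.exp (-u))
      = ∫ u in Ioi (0:ℝ), Real.exp ((q - A) / A) * ((0 + 1 * u) * Real.exp (-((1 + 1 / A) * u))) := by
    refine setIntegral_congr_fun measurableSet_Ioi fun u hu => ?_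
    have hu' : 0 < u := hu
    have h1 : -A ≤ u - q := by linarith
    rw [r_of_ge hA h1]
    have : Real.exp (-1 - (u - q) / A) * (u * Real.exp (-u))
        = Real.exp (-1 - (u - q) / A + (-u)) * u := by
      rw [Real.exp_add]; ring
    rw [this]
    have : Real.exp ((q - A) / A) * ((0 + 1 * u) * Real.exp (-((1 + 1 / A) * u)))
        = Real.exp ((q - A) / A + -((1 + 1 / A) * u)) * u := by
      rw [Real.exp_add]; ring
    rw [this]
    congr 2
    field_simp
    ring
  rw [e, integral_const_mul, integral_linear_exp hγ zero_le_one (by simp)]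
  simp only [mul_zero, neg_zero, Real.exp_zero, one_mul, add_zero, zero_add, zero_div]
  field_simp

lemma Phi_of_ge {A q : ℝ} (hA : 0 < A) (hd : 0 ≤ q - A) :
    Phi A q = 1 - Real.exp (-(q - A)) * ((q - A) / (A + 1) + (2 * A + 1) / (A + 1) ^ 2) := by
  unfold Phi
  set d := q - A with hdef
  have hγ : 0 < 1 + 1 / A := by positivity
  have hrint : IntegrableOn (fun u => r A (u - q) * (u * Real.exp (-u))) (Ioi 0) := by
    refine Integrable.mono' (gamma2_integrableOn le_rfl) ?_ ?_
    · exact ((r_continuous.comp (by fun_prop)).mul (by fun_prop)).aestronglyMeasurable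
    · rw [ae_restrict_iff' measurableSet_Ioi]
      refine ae_of_all _ fun u hu => ?_
      have hu' : 0 < u := hu
      have h0 : 0 ≤ u * Real.exp (-u) := by positivity
      rw [Real.norm_of_nonneg (mul_nonneg (r_pos _ _).le h0)]
      have := r_le_one A (u - q)
      nlinarith
  have hunion : Ioi (0:ℝ) = Ioc 0 d ∪ Ioi d := (Ioc_union_Ioi_eq_Ioi hd).symm
  have hsplit : ∫ u in Ioi (0:ℝ), r A (u - q) * (u * Real.exp (-u))
      = (∫ u in Ioc 0 d, r A (u - q) * (u * Real.exp (-u))) +
        ∫ u in Ioi d, r A (u - q) * (u * Real.exp (-u)) := by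
    conv_lhs => rw [hunion]
    refine setIntegral_union (Ioc_disjoint_Ioi le_rfl) measurableSet_Ioi
      (hrint.mono_set Ioc_subset_Ioi_self) (hrint.mono_set (Ioi_subset_Ioi hd))
  have h1 : ∫ u in Ioc 0 d, r A (u - q) * (u * Real.exp (-u))
      = 1 - Real.exp (-d) * (d + 1) := by
    have e1 : ∫ u in Ioc 0 d, r A (u - q) * (u * Real.exp (-u)) = ∫ u in Ioc 0 d, u * Real.exp (-u) := by
      refine setIntegral_congr_fun measurableSet_Ioc fun u hu => ?_
      have : u - q ≤ -A := by have := hu.2; rw [hdef] at this; linarith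
      rw [r_of_le hA this, one_mul]
    rw [e1]
    have h2 := intervalIntegral.integral_Ioi_sub_Ioi (gamma2_integrableOn (le_refl (0:ℝ))) hd
    rw [intervalIntegral.integral_of_le hd] at h2
    rw [← h2, gamma2_integral le_rfl, gamma2_integral hd]
    simp
  have h2 : ∫ u in Ioi d, r A (u - q) * (u * Real.exp (-u))
      = Real.exp (-d) * (d / (1 + 1 / A) + 1 / (1 + 1 / A) ^ 2) := by
    have e : ∫ u in Ioi d, r A (u - q) * (u * Real.exp (-u))
        = ∫ u in Ioi d, Real.exp (d / A) * ((0 + 1 * u) * Real.exp (-((1 + 1 / A) * u))) := by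
      refine setIntegral_congr_fun measurableSet_Ioi fun u hu => ?_
      have hu' : d < u := hu
      have h1 : -A ≤ u - q := by rw [hdef] at hu'; linarith
      rw [r_of_ge hA h1]
      have : Real.exp (-1 - (u - q) / A) * (u * Real.exp (-u))
          = Real.exp (-1 - (u - q) / A + (-u)) * u := by
        rw [Real.exp_add]; ring
      rw [this]
      have : Real.exp (d / A) * ((0 + 1 * u) * Real.exp (-((1 + 1 / A) * u)))
          = Real.exp (d / A + -((1 + 1 / A) * u)) * u := by
        rw [Real.exp_add]; ring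
      rw [this, hdef]
      congr 2
      field_simp
      ring
    rw [e, integral_const_mul, integral_linear_exp hγ zero_le_one (by simpa using hd)]
    rw [← mul_assoc, ← Real.exp_add]
    have : d / A + -((1 + 1 / A) * d) = -d := by field_simp; ring
    rw [this]
    simp
  rw [hsplit, h1, h2]
  have hne : A + 1 ≠ 0 := by positivity
  have e3 : 1 + 1 / A = (A + 1) / A := by field_simp
  rw [e3]
  field_simp
  ring

lemma kappa_le_Phi_of_large {A : ℝ} (hA : 4 / 3 ≤ A) :
    4 / 9 * Real.exp (-(1 / 3)) ≤ Phi A (4 / 3) := by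
  have hA0 : 0 < A := by linarith
  rw [Phi_of_le hA0 (by linarith)]
  set l := 1 / A with hl
  have hl0 : 0 < l := by positivity
  have h1 : Real.exp ((4 / 3 - A) / A) = Real.exp (4 / 3 * l - 1) := by
    congr 1
    rw [hl]
    field_simp
  rw [h1]
  have h2 : (1 + l) ≤ 3 / 2 * Real.exp (2 / 3 * l - 1 / 3) := by
    have := Real.add_one_le_exp (2 / 3 * l - 1 / 3)
    nlinarith
  have h3 : (1 + l) ^ 2 ≤ 9 / 4 * Real.exp (4 / 3 * l - 2 / 3) := by
    have e : Real.exp (4 / 3 * l - 2 / 3) = Real.exp (2 / 3 * l - 1 / 3) ^ 2 := by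
      rw [← Real.exp_nat_mul]
      congr 1
      push_cast
      ring
    rw [e]
    have h4 : 0 ≤ 1 + l := by linarith
    nlinarith [pow_le_pow_left₀ h4 h2 2]
  rw [le_div_iff₀ (by positivity)]
  have e : Real.exp (4 / 3 * l - 1) = Real.exp (-(1 / 3)) * Real.exp (4 / 3 * l - 2 / 3) := by
    rw [← Real.exp_add]
    congr 1
    ring
  rw [e]
  have hpos := Real.exp_pos (-(1 / 3) : ℝ)
  nlinarith

lemma exp_third_lower : (49:ℝ) / 36 ≤ Real.exp (1 / 3) := by
  have := Real.quadratic_le_exp_of_nonneg (x := (1 / 3 : ℝ)) (by norm_num)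
  norm_num at this ⊢
  linarith

lemma kappa_le_16_49 : 4 / 9 * Real.exp (-(1 / 3)) ≤ (16:ℝ) / 49 := by
  have h1 := exp_third_lower
  have h2 : Real.exp (-(1 / 3)) = (Real.exp (1 / 3))⁻¹ := Real.exp_neg _
  rw [h2]
  have h3 : 0 < Real.exp (1 / 3) := Real.exp_pos _
  rw [mul_comm, ← div_eq_inv_mul, div_le_div_iff₀ h3 (by norm_num)]
  nlinarith

lemma poly_aux {d : ℝ} (h0 : 0 ≤ d) (h1 : d ≤ 4 / 3) :
    0 ≤ 28 / 3 + 107 / 6 * d - 253 / 18 * d ^ 2 - 55 / 6 * d ^ 3 + 11 / 2 * d ^ 4 := by
  nlinarith [mul_nonneg h0 (sub_nonneg.mpr h1), mul_nonneg (mul_nonneg h0 h0) (sub_nonneg.mpr h1),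
    mul_nonneg (mul_nonneg h0 (sub_nonneg.mpr h1)) (sub_nonneg.mpr h1), sq_nonneg (d ^ 2 - d), sq_nonneg (d - 1)]

lemma kappa_le_Phi_of_small {A : ℝ} (hA : 0 < A) (hA2 : A ≤ 4 / 3) :
    4 / 9 * Real.exp (-(1 / 3)) ≤ Phi A (4 / 3) := by
  rw [Phi_of_ge hA (by linarith)]
  set d := 4 / 3 - A with hd
  have hd0 : 0 ≤ d := by rw [hd]; linarith
  have hd1 : d ≤ 4 / 3 := by rw [hd]; linarith
  have hAe : A = 4 / 3 - d := by rw [hd]; ring
  have h1 : Real.exp (-d) * (d / (A + 1) + (2 * A + 1) / (A + 1) ^ 2) ≤ 33 / 49 := by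
    have hs : 1 + d + d ^ 2 / 2 + d ^ 3 / 6 ≤ Real.exp d := by
      have := Real.sum_le_exp_of_nonneg hd0 4
      simp [Finset.sum_range_succ, Nat.factorial] at this
      linarith
    have hA1 : 0 < A + 1 := by linarith
    have e : Real.exp (-d) = (Real.exp d)⁻¹ := Real.exp_neg d
    rw [e, inv_mul_le_iff₀ (Real.exp_pos d)]
    have e2 : d / (A + 1) + (2 * A + 1) / (A + 1) ^ 2 = (d * (A + 1) + 2 * A + 1) / (A + 1) ^ 2 := by
      field_simp
      ring
    rw [e2, div_le_iff₀ (by positivity)]
    have hP : d * (A + 1) + 2 * A + 1 ≤ 33 / 49 * (1 + d + d ^ 2 / 2 + d ^ 3 / 6) * (A + 1) ^ 2 := by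
      rw [hAe]
      have := poly_aux hd0 hd1
      nlinarith [mul_nonneg hd0 this]
    have hpos : 0 < (A + 1) ^ 2 := by positivity
    calc d * (A + 1) + 2 * A + 1 ≤ 33 / 49 * (1 + d + d ^ 2 / 2 + d ^ 3 / 6) * (A + 1) ^ 2 := hP
      _ ≤ Real.exp d * (33 / 49) * (A + 1) ^ 2 := by
          apply mul_le_mul_of_nonneg_right _ hpos.le
          linarith
  have h2 := kappa_le_16_49
  linarith

/-- The key one-dimensional inequality. -/
theorem kappa_le_Phi {A : ℝ} (hA : 0 < A) : 4 / 9 * Real.exp (-(1 / 3)) ≤ Phi A (4 / 3) := by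
  rcases le_total A (4 / 3) with h | h
  · exact kappa_le_Phi_of_small hA h
  · exact kappa_le_Phi_of_large h

lemma Phi_mono {A q q' : ℝ} (hA : 0 < A) (h : q ≤ q') : Phi A q ≤ Phi A q' := by
  have hint : ∀ q, IntegrableOn (fun u => r A (u - q) * (u * Real.exp (-u))) (Ioi 0) := by
    intro q
    refine Integrable.mono' (gamma2_integrableOn le_rfl) ?_ ?_
    · exact ((r_continuous.comp (by fun_prop)).mul (by fun_prop)).aestronglyMeasurable
    · rw [ae_restrict_iff' measurableSet_Ioi]
      refine ae_of_all _ fun u hu => ?_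
      have hu' : 0 < u := hu
      have h0 : 0 ≤ u * Real.exp (-u) := by positivity
      rw [Real.norm_of_nonneg (mul_nonneg (r_pos _ _).le h0)]
      have := r_le_one A (u - q)
      nlinarith
  refine setIntegral_mono_on (hint q) (hint q') measurableSet_Ioi fun u hu => ?_
  have hu' : 0 < u := hu
  have h0 : 0 ≤ u * Real.exp (-u) := by positivity
  exact mul_le_mul_of_nonneg_right (r_anti hA (by linarith)) h0

local notation "g" => Crest.AlgGeometry.truncExpWeight

lemma g_of_nonpos {y : ℝ} (h : y ≤ 0) : g y = 1 := by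
  simp [Crest.AlgGeometry.truncExpWeight, h]

lemma g_of_pos {y : ℝ} (h : 0 < y) : g y = (1 + y) * Real.exp (-y) := by
  simp [Crest.AlgGeometry.truncExpWeight, not_le.mpr h]

lemma g_measurable : Measurable g := by
  unfold Crest.AlgGeometry.truncExpWeight
  exact Measurable.ite measurableSet_Iic measurable_const (by fun_prop)

lemma g_nonneg (y : ℝ) : 0 ≤ g y := by
  rcases le_or_gt y 0 with h | h
  · rw [g_of_nonpos h]; exact zero_le_one
  · rw [g_of_pos h]; positivity

lemma g_le_one (y : ℝ) : g y ≤ 1 := by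
  rcases le_or_gt y 0 with h | h
  · rw [g_of_nonpos h]
  · rw [g_of_pos h, Real.exp_neg]
    have h1 := Real.add_one_le_exp y
    have h2 := Real.exp_pos y
    rw [← div_eq_mul_inv, div_le_one h2]
    linarith

lemma Vg_of_nonneg {p y : ℝ} (hp : 0 < p) (hy : 0 ≤ y) :
    V p g y = Real.exp (-y) * (y / (p + 1) + (2 * p + 1) / (p + 1) ^ 2) := by
  unfold V
  have e : ∫ x in Ioi (0:ℝ), g (y + p * x) * Real.exp (-x)
      = ∫ x in Ioi (0:ℝ), Real.exp (-y) * (((1 + y) + p * x) * Real.exp (-((1 + p) * x))) := by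
    refine setIntegral_congr_fun measurableSet_Ioi fun x hx => ?_
    have hx' : 0 < x := hx
    have h1 : 0 < y + p * x := by positivity
    rw [g_of_pos h1]
    have : (1 + (y + p * x)) * Real.exp (-(y + p * x)) * Real.exp (-x)
        = (1 + (y + p * x)) * Real.exp (-(y + p * x) + -x) := by
      rw [Real.exp_add]; ring
    rw [this]
    have : Real.exp (-y) * (((1 + y) + p * x) * Real.exp (-((1 + p) * x)))
        = (1 + y + p * x) * Real.exp (-y + -((1 + p) * x)) := by
      rw [Real.exp_add]; ring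
    rw [this]
    have e5 : 1 + (y + p * x) = 1 + y + p * x := by ring
    have e6 : -(y + p * x) + -x = -y + -((1 + p) * x) := by ring
    rw [e5, e6]
  rw [e, integral_const_mul, integral_linear_exp (by linarith) hp.le (by simp; linarith)]
  simp only [mul_zero, neg_zero, Real.exp_zero, one_mul, add_zero]
  congr 1
  have : 1 + p ≠ 0 := by positivity
  have : p + 1 ≠ 0 := by positivity
  field_simp
  ring

lemma Vg_of_nonpos {p y : ℝ} (hp : 0 < p) (hy : y ≤ 0) :
    V p g y = 1 - Real.exp (y / p) / (1 + 1 / p) ^ 2 := by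
  unfold V
  set x0 := -y / p with hx0
  have hx00 : 0 ≤ x0 := by
    rw [hx0]
    exact div_nonneg (by linarith) hp.le
  have hpx0 : p * x0 = -y := by rw [hx0]; field_simp
  have hexp0 : Real.exp (y / p) = Real.exp (-x0) := by
    congr 1
    rw [hx0]
    field_simp
  have hint : IntegrableOn (fun x => g (y + p * x) * Real.exp (-x)) (Ioi 0) := by
    refine Integrable.mono' (integrableOn_exp_neg_Ioi 0) ?_ ?_
    · exact ((g_measurable.comp (by fun_prop)).mul (by fun_prop)).aestronglyMeasurable
    · refine ae_of_all _ fun x => ?_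
      rw [Real.norm_of_nonneg (mul_nonneg (g_nonneg _) (Real.exp_pos _).le)]
      have := g_le_one (y + p * x)
      have h2 := Real.exp_pos (-x)
      nlinarith
  have hunion : Ioi (0:ℝ) = Ioc 0 x0 ∪ Ioi x0 := (Ioc_union_Ioi_eq_Ioi hx00).symm
  have hsplit : ∫ x in Ioi (0:ℝ), g (y + p * x) * Real.exp (-x)
      = (∫ x in Ioc 0 x0, g (y + p * x) * Real.exp (-x)) +
        ∫ x in Ioi x0, g (y + p * x) * Real.exp (-x) := by
    conv_lhs => rw [hunion]
    exact setIntegral_union (Ioc_disjoint_Ioi le_rfl) measurableSet_Ioi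
      (hint.mono_set Ioc_subset_Ioi_self) (hint.mono_set (Ioi_subset_Ioi hx00))
  have h1 : ∫ x in Ioc 0 x0, g (y + p * x) * Real.exp (-x) = 1 - Real.exp (-x0) := by
    have e1 : ∫ x in Ioc 0 x0, g (y + p * x) * Real.exp (-x) = ∫ x in Ioc 0 x0, Real.exp (-x) := by
      refine setIntegral_congr_fun measurableSet_Ioc fun x hx => ?_
      have : y + p * x ≤ 0 := by
        have h3 : p * x ≤ p * x0 := mul_le_mul_of_nonneg_left hx.2 hp.le
        linarith
      rw [g_of_nonpos this, one_mul]
    rw [e1]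
    have h2 := intervalIntegral.integral_Ioi_sub_Ioi (integrableOn_exp_neg_Ioi (0:ℝ)) hx00
    rw [intervalIntegral.integral_of_le hx00] at h2
    rw [← h2, integral_exp_neg_Ioi_zero, integral_exp_neg_Ioi]
  have h2 : ∫ x in Ioi x0, g (y + p * x) * Real.exp (-x)
      = Real.exp (-x0) * (1 / (1 + p) + p / (1 + p) ^ 2) := by
    have e : ∫ x in Ioi x0, g (y + p * x) * Real.exp (-x)
        = ∫ x in Ioi x0, Real.exp (-y) * (((1 + y) + p * x) * Real.exp (-((1 + p) * x))) := by
      refine setIntegral_congr_fun measurableSet_Ioi fun x hx => ?_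
      have hx' : x0 < x := hx
      have h1 : 0 < y + p * x := by
        have h3 : p * x0 < p * x := mul_lt_mul_of_pos_left hx' hp
        linarith
      rw [g_of_pos h1]
      have : (1 + (y + p * x)) * Real.exp (-(y + p * x)) * Real.exp (-x)
          = (1 + (y + p * x)) * Real.exp (-(y + p * x) + -x) := by
        rw [Real.exp_add]; ring
      rw [this]
      have : Real.exp (-y) * (((1 + y) + p * x) * Real.exp (-((1 + p) * x)))
          = (1 + y + p * x) * Real.exp (-y + -((1 + p) * x)) := by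
        rw [Real.exp_add]; ring
      rw [this]
      have e5 : 1 + (y + p * x) = 1 + y + p * x := by ring
      have e6 : -(y + p * x) + -x = -y + -((1 + p) * x) := by ring
      rw [e5, e6]
    rw [e, integral_const_mul, integral_linear_exp (by linarith) hp.le (by rw [hpx0]; linarith)]
    rw [← mul_assoc, ← Real.exp_add]
    have e2 : -y + -((1 + p) * x0) = -x0 := by
      have : (1 + p) * x0 = x0 + p * x0 := by ring
      rw [this, hpx0]
      ring
    rw [e2, hpx0]
    congr 2
    ring
  rw [hsplit, h1, h2, hexp0]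
  have h1p : 1 + p ≠ 0 := by positivity
  have e3 : 1 + 1 / p = (1 + p) / p := by field_simp; ring
  rw [e3]
  field_simp
  ring

/-- Relation between the mixing of `g` and the weighted integral of the profile. -/
theorem Vg_eq {p : ℝ} (hp : 0 < p) (y : ℝ) : V p g y = 1 - Phi p (y + p) := by
  rcases le_total y 0 with h | h
  · rw [Vg_of_nonpos hp h, Phi_of_le hp (by linarith)]
    simp
  · rw [Vg_of_nonneg hp h, Phi_of_ge hp (by linarith)]
    simp

/-- lower bound used for the attainment part. -/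
theorem Vg_two_ge (y : ℝ) : 1 - 4 / 9 * Real.exp (y / 2) ≤ V 2 g y := by
  rcases le_total y 0 with h | h
  · rw [Vg_of_nonpos two_pos h]
    have e : (1 + 1 / (2:ℝ)) ^ 2 = 9 / 4 := by norm_num
    rw [e]
    apply le_of_eq
    ring
  · rw [Vg_of_nonneg two_pos h]
    -- monotonicity of an auxiliary function
    let φ : ℝ → ℝ := fun y => Real.exp (-y) * (y / 3 + 5 / 9) + 4 / 9 * Real.exp (y / 2) - 1
    have hderiv : ∀ y, HasDerivAt φ (-(Real.exp (-y) * (y / 3 + 2 / 9)) + 2 / 9 * Real.exp (y / 2)) y := by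
      intro y
      have h1 : HasDerivAt (fun y => Real.exp (-y)) (Real.exp (-y) * (-1)) y :=
        (hasDerivAt_neg y).exp
      have h2 : HasDerivAt (fun y => y / 3 + 5 / 9) (1 / 3) y := by
        simpa using ((hasDerivAt_id y).div_const 3).add_const (5 / 9 : ℝ)
      have h3 : HasDerivAt (fun y => Real.exp (y / 2)) (Real.exp (y / 2) * (1 / 2)) y :=
        ((hasDerivAt_id y).div_const 2).exp
      have h4 := ((h1.mul h2).add (h3.const_mul (4 / 9))).sub_const 1
      refine HasDerivAt.congr_deriv h4 ?_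
      ring
    have hmono : MonotoneOn φ (Ici 0) := by
      refine monotoneOn_of_deriv_nonneg (convex_Ici 0) ?_ ?_ ?_
      · exact fun y _ => (hderiv y).continuousAt.continuousWithinAt
      · exact fun y _ => (hderiv y).differentiableAt.differentiableWithinAt
      · intro y hy
        rw [interior_Ici] at hy
        have hy' : 0 < y := hy
        rw [(hderiv y).deriv]
        have h5 : 1 + 3 / 2 * y ≤ Real.exp (3 / 2 * y) := by
          have := Real.add_one_le_exp (3 / 2 * y)
          linarith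
        have h6 : Real.exp (y / 2) = Real.exp (-y) * Real.exp (3 / 2 * y) := by
          rw [← Real.exp_add]
          congr 1
          ring
        rw [h6]
        have h7 := Real.exp_pos (-y)
        nlinarith
    have h0 : φ 0 = 0 := by
      simp only [φ]
      norm_num
    have := hmono (mem_Ici.mpr le_rfl) (mem_Ici.mpr h) h
    rw [h0] at this
    simp only [φ] at this
    have e : (2:ℝ) + 1 = 3 := by norm_num
    rw [e]
    have e2 : y / 3 + (2 * 2 + 1) / 3 ^ 2 = y / 3 + 5 / 9 := by norm_num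
    rw [e2]
    linarith

end Crest.Agent.Lib.S0423Aux
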