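import Mathlib
import Crest.Agent.Lib.S0423Explicit

/-! The abstract extremal inequality for log-concave survival functions with mean zero. -/

namespace Crest.Agent.Lib.S0423Aux

open MeasureTheory Set Filter Topology Real

/-- the chord of a concave function lies below it between the end points. -/
lemma chord_between {s : Set ℝ} {f : ℝ → ℝ} (hf : ConcaveOn ℝ s f) {x y u : ℝ}
    (hx : x ∈ s) (hy : y ∈ s) (hxy : x < y) (hu : u ∈ Icc x y) :
    f x + (f y - f x) / (y - x) * (u - x) ≤ f u := by
  have hd : 0 < y - x := by linarith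
  have ha : 0 ≤ (y - u) / (y - x) := div_nonneg (by linarith [hu.2]) hd.le
  have hb : 0 ≤ (u - x) / (y - x) := div_nonneg (by linarith [hu.1]) hd.le
  have hab : (y - u) / (y - x) + (u - x) / (y - x) = 1 := by field_simp; ring
  have h := hf.2 hx hy ha hb hab
  have e : ((y - u) / (y - x)) • x + ((u - x) / (y - x)) • y = u := by
    simp only [smul_eq_mul]; field_simp; ring
  rw [e] at h
  simp only [smul_eq_mul] at h
  have e2 : f x + (f y - f x) / (y - x) * (u - x)
      = (y - u) / (y - x) * f x + (u - x) / (y - x) * f y := by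
    field_simp
    ring
  rw [e2]
  exact h

/-- the chord of a concave function lies above it outside the end points. -/
lemma chord_right {s : Set ℝ} {f : ℝ → ℝ} (hf : ConcaveOn ℝ s f) {x y u : ℝ}
    (hx : x ∈ s) (_hy : y ∈ s) (hxy : x < y) (hu : u ∈ s) (hout : y ≤ u) :
    f u ≤ f x + (f y - f x) / (y - x) * (u - x) := by
  rcases eq_or_lt_of_le hout with rfl | hlt
  · have hd : y - x ≠ 0 := by linarith [sub_pos.mpr hxy]
    field_simp
    linarith
  have h := chord_between hf hx hu (lt_trans hxy hlt) (u := y) ⟨hxy.le, hout⟩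
  have hd1 : 0 < y - x := by linarith
  have hd2 : 0 < u - x := by linarith
  have e : f x + (f y - f x) / (y - x) * (u - x) - f u
      = (f y - f x - (f u - f x) / (u - x) * (y - x)) * ((u - x) / (y - x)) := by
    field_simp
    ring
  have h2 : 0 ≤ (f y - f x - (f u - f x) / (u - x) * (y - x)) * ((u - x) / (y - x)) :=
    mul_nonneg (by linarith) (by positivity)
  linarith

lemma chord_left {s : Set ℝ} {f : ℝ → ℝ} (hf : ConcaveOn ℝ s f) {x y u : ℝ}
    (hx : x ∈ s) (hy : y ∈ s) (hxy : x < y) (hu : u ∈ s) (hout : u ≤ x) :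
    f u ≤ f x + (f y - f x) / (y - x) * (u - x) := by
  rcases eq_or_lt_of_le hout with rfl | hlt
  · simp
  have h := chord_between hf hu hy (lt_trans hlt hxy) (u := x) ⟨hout, hxy.le⟩
  have hd1 : 0 < y - x := by linarith
  have hd2 : 0 < y - u := by linarith
  have e : f x + (f y - f x) / (y - x) * (u - x) - f u
      = (f x - (f u + (f y - f u) / (y - u) * (x - u))) * ((y - u) / (y - x)) := by
    field_simp
    ring
  have h2 : 0 ≤ (f x - (f u + (f y - f u) / (y - u) * (x - u))) * ((y - u) / (y - x)) :=
    mul_nonneg (by linarith) (by positivity)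
  linarith

/-- The weight on the line. -/
noncomputable def W (u : ℝ) : ℝ := (Ioi (0:ℝ)).indicator (fun u => u * Real.exp (-u)) u

lemma W_of_pos {u : ℝ} (h : 0 < u) : W u = u * Real.exp (-u) := by
  simp [W, indicator, h]

lemma W_of_nonpos {u : ℝ} (h : u ≤ 0) : W u = 0 := by
  simp [W, indicator, not_lt.mpr h]

lemma W_nonneg (u : ℝ) : 0 ≤ W u := by
  rcases le_or_gt u 0 with h | h
  · rw [W_of_nonpos h]
  · rw [W_of_pos h]; positivity

lemma W_le_one (u : ℝ) : W u ≤ 1 := by
  rcases le_or_gt u 0 with h | h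
  · rw [W_of_nonpos h]; exact zero_le_one
  · rw [W_of_pos h, Real.exp_neg]
    have h1 := Real.add_one_le_exp u
    have h2 := Real.exp_pos u
    rw [← div_eq_mul_inv, div_le_one h2]
    linarith

lemma W_measurable : Measurable W := by
  unfold W
  exact Measurable.indicator (by fun_prop) measurableSet_Ioi

/-- Level sets of the weight. -/
lemma W_level {x y : ℝ} (hx : 0 < x) (hxy : x < y)
    (heq : x * Real.exp (-x) = y * Real.exp (-y)) :
    (∀ u ∈ Icc x y, x * Real.exp (-x) ≤ W u) ∧ (∀ u, u ∉ Icc x y → W u ≤ x * Real.exp (-x)) := by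
  have hy : 0 < y := lt_trans hx hxy
  have hconc : ConcaveOn ℝ (Ioi 0) (fun u => Real.log u - u) := by
    have h1 := strictConcaveOn_log_Ioi.concaveOn
    have h2 : ConcaveOn ℝ (Ioi (0:ℝ)) (fun u : ℝ => -u) := by
      refine ⟨convex_Ioi 0, fun a _ b _ α β _ _ _ => le_of_eq ?_⟩
      simp only [smul_eq_mul]
      ring
    have := h1.add h2
    refine this.congr fun u _ => ?_
    simp only [Pi.add_apply]
    ring
  have hlog : Real.log x - x = Real.log y - y := by
    have h1 := congrArg Real.log heq
    rw [Real.log_mul hx.ne' (Real.exp_pos _).ne', Real.log_mul hy.ne' (Real.exp_pos _).ne',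
      Real.log_exp, Real.log_exp] at h1
    linarith
  have hW : ∀ u, 0 < u → Real.exp (Real.log u - u) = u * Real.exp (-u) := by
    intro u hu
    rw [sub_eq_add_neg, Real.exp_add, Real.exp_log hu]
  constructor
  · intro u hu
    have hu0 : 0 < u := lt_of_lt_of_le hx hu.1
    rw [W_of_pos hu0, ← hW x hx, ← hW u hu0]
    refine Real.exp_le_exp.mpr ?_
    have := chord_between hconc (mem_Ioi.mpr hx) (mem_Ioi.mpr hy) hxy hu
    simp only [← hlog] at this
    simpa using this
  · intro u hu
    rcases le_or_gt u 0 with hu0 | hu0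
    · rw [W_of_nonpos hu0]; positivity
    rw [W_of_pos hu0, ← hW x hx, ← hW u hu0]
    refine Real.exp_le_exp.mpr ?_
    by_cases hux : u ≤ x
    · have := chord_left hconc (mem_Ioi.mpr hx) (mem_Ioi.mpr hy) hxy (mem_Ioi.mpr hu0) hux
      simp only [← hlog] at this
      simpa using this
    · have huy : y ≤ u := by
        by_contra hcon
        exact hu ⟨not_le.mp hux |>.le, (not_le.mp hcon).le⟩
      have := chord_right hconc (mem_Ioi.mpr hx) (mem_Ioi.mpr hy) hxy (mem_Ioi.mpr hu0) huy
      simp only [← hlog] at this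
      simpa using this

/-- The left end of the level pair with gap `s`. -/
noncomputable def U1 (s : ℝ) : ℝ := s / (Real.exp s - 1)

lemma exp_sub_one_pos {s : ℝ} (hs : 0 < s) : 0 < Real.exp s - 1 := by
  have := Real.add_one_lt_exp hs.ne'
  linarith

lemma U1_pos {s : ℝ} (hs : 0 < s) : 0 < U1 s := div_pos hs (exp_sub_one_pos hs)

lemma U1_le_one {s : ℝ} (hs : 0 < s) : U1 s ≤ 1 := by
  rw [U1, div_le_one (exp_sub_one_pos hs)]
  have := Real.add_one_le_exp s
  linarith

lemma U1_level {s : ℝ} (hs : 0 < s) :
    U1 s * Real.exp (-U1 s) = (U1 s + s) * Real.exp (-(U1 s + s)) := by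
  have h := exp_sub_one_pos hs
  have e : Real.exp (-(U1 s + s)) = Real.exp (-U1 s) * Real.exp (-s) := by
    rw [← Real.exp_add]; congr 1; ring
  have key : U1 s = (U1 s + s) * Real.exp (-s) := by
    rw [Real.exp_neg, U1]
    have hne := (Real.exp_pos s).ne'
    field_simp
    ring
  rw [e]
  calc U1 s * Real.exp (-U1 s) = ((U1 s + s) * Real.exp (-s)) * Real.exp (-U1 s) := by rw [← key]
    _ = _ := by ring

lemma U1_continuousOn : ContinuousOn U1 (Ioi 0) := by
  unfold U1
  refine ContinuousOn.div continuousOn_id (by fun_prop) ?_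
  intro s hs
  exact (exp_sub_one_pos hs).ne'

lemma U1_le_two_div {s : ℝ} (hs : 0 < s) : U1 s ≤ 2 / s := by
  rw [U1, div_le_div_iff₀ (exp_sub_one_pos hs) hs]
  have := Real.quadratic_le_exp_of_nonneg hs.le
  nlinarith

section main

variable {R : ℝ → ℝ}

local notation "c₀" => (4 / 3 : ℝ)

/-- The step function at the pivot. -/
noncomputable def step (u : ℝ) : ℝ := (Iio c₀).indicator (fun _ => (1:ℝ)) u

/-- The main comparison. -/
lemma comparison (hpos : ∀ u, 0 < R u) (hle : ∀ u, R u ≤ 1) (hmeas : Measurable R)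
    (hint : Integrable (fun u => R u - step u)) (hzero : ∫ u, (R u - step u) = 0)
    {A q μ x y : ℝ} (hA : 0 < A)
    (hin : ∀ u ∈ Icc x y, Real.exp (-1 - (u - q) / A) ≤ R u)
    (hout : ∀ u, u ∉ Icc x y → R u ≤ Real.exp (-1 - (u - q) / A))
    (hwin : ∀ u ∈ Icc x y, μ ≤ W u) (hwout : ∀ u, u ∉ Icc x y → W u ≤ μ) :
    Phi A q - μ * (q - c₀) ≤ ∫ u in Ioi (0:ℝ), R u * (u * Real.exp (-u)) := by
  obtain ⟨hE, hEz⟩ := r_mean hA q c₀
  set D : ℝ → ℝ := fun u => R u - r A (u - q) with hD
  have hDeq : D = fun u => (R u - step u) - (r A (u - q) - (Iio c₀).indicator (fun _ => (1:ℝ)) u) := by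
    funext u
    simp only [hD, step]
    ring
  have hDint : Integrable D := by
    rw [hDeq]
    exact hint.sub hE
  have hDz : ∫ u, D u = -(q - c₀) := by
    rw [hDeq, integral_sub hint hE, hzero, hEz]
    ring
  have hWD : Integrable (fun u => W u * D u) := by
    refine Integrable.bdd_mul (c := 1) hDint W_measurable.aestronglyMeasurable ?_
    exact ae_of_all _ fun u => by
      rw [Real.norm_of_nonneg (W_nonneg u)]
      exact W_le_one u
  have hsign : ∀ u, 0 ≤ (W u - μ) * D u := by
    intro u
    by_cases hu : u ∈ Icc x y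
    · refine mul_nonneg (by linarith [hwin u hu]) ?_
      have h1 := hin u hu
      have h2 := r_le_exp A (u - q)
      simp only [hD]
      linarith
    · refine mul_nonneg_of_nonpos_of_nonpos (by linarith [hwout u hu]) ?_
      have h1 := hout u hu
      have h2 := hle u
      have h3 : R u ≤ r A (u - q) := le_min h2 h1
      simp only [hD]
      linarith
  have hnonneg : 0 ≤ ∫ u, (W u - μ) * D u :=
    integral_nonneg hsign
  have hsplit : ∫ u, (W u - μ) * D u = (∫ u, W u * D u) - μ * ∫ u, D u := by
    have : (fun u => (W u - μ) * D u) = fun u => W u * D u - μ * D u := by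
      funext u; ring
    rw [this, integral_sub hWD (hDint.const_mul μ), integral_const_mul]
  have hWDeq : ∫ u, W u * D u = (∫ u in Ioi (0:ℝ), R u * (u * Real.exp (-u))) - Phi A q := by
    have h1 : (fun u => W u * D u) = (Ioi (0:ℝ)).indicator
        (fun u => R u * (u * Real.exp (-u)) - r A (u - q) * (u * Real.exp (-u))) := by
      funext u
      by_cases hu : 0 < u
      · rw [W_of_pos hu]
        simp only [indicator, mem_Ioi, hu, if_true, hD]
        ring
      · rw [W_of_nonpos (not_lt.mp hu)]
        simp [indicator, hu]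
    rw [h1, integral_indicator measurableSet_Ioi]
    have hi1 : IntegrableOn (fun u => R u * (u * Real.exp (-u))) (Ioi 0) := by
      refine Integrable.bdd_mul (c := 1) (gamma2_integrableOn le_rfl) hmeas.aestronglyMeasurable ?_
      exact ae_of_all _ fun u => by
        rw [Real.norm_of_nonneg (hpos u).le]
        exact hle u
    have hi2 : IntegrableOn (fun u => r A (u - q) * (u * Real.exp (-u))) (Ioi 0) := by
      refine Integrable.bdd_mul (c := 1) (gamma2_integrableOn le_rfl)
        (r_continuous.comp (by fun_prop)).aestronglyMeasurable ?_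
      exact ae_of_all _ fun u => by
        rw [Real.norm_of_nonneg (r_pos _ _).le]
        exact r_le_one _ _
    rw [integral_sub hi1 hi2]
    rfl
  rw [hsplit, hWDeq, hDz] at hnonneg
  nlinarith

end main

end Crest.Agent.Lib.S0423Aux
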