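import Mathlib
import Crest.Agent.Lib.S0423Abstract

/-! The abstract extremal inequality for log-concave survival functions with mean zero. -/

namespace Crest.Agent.Lib.S0423Aux

open MeasureTheory Set Filter Topology Real

section bound

variable {R : ℝ → ℝ}

local notation "c₀" => (4 / 3 : ℝ)

/-- A mean-zero profile cannot stay uniformly below one at minus infinity. -/
lemma tail_not_le (hint : Integrable (fun u => R u - step u)) {r z : ℝ} (hr : r < 1)
    (h : ∀ t ≤ z, R t ≤ r) : False := by
  set m := min z c₀ with hm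
  have h1 : IntegrableOn (fun _ : ℝ => (1 - r)) (Iio m) := by
    refine Integrable.mono' (hint.norm.integrableOn (s := Iio m)) aestronglyMeasurable_const ?_
    refine (ae_restrict_iff' measurableSet_Iio).mpr (ae_of_all _ fun u hu => ?_)
    have hu1 : u < z := lt_of_lt_of_le hu (min_le_left _ _)
    have hu2 : u < c₀ := lt_of_lt_of_le hu (min_le_right _ _)
    have hs : step u = 1 := by simp [step, indicator, hu2]
    have hRu := h u hu1.le
    rw [hs, Real.norm_of_nonneg (by linarith), Real.norm_eq_abs, abs_of_nonpos (by linarith)]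
    linarith
  have h2 := (integrableOn_const_iff (C := 1 - r) (μ := volume) (s := Iio m)).mp h1
  rcases h2 with h2 | h2
  · have : ‖(1 - r)‖ₑ = 0 := h2
    rw [enorm_eq_zero] at this
    linarith
  · rw [Real.volume_Iio] at h2
    exact lt_irrefl _ h2

/-- Every value below one: the profile does not stay below one. -/
lemma grunbaum (hpos : ∀ u, 0 < R u) (hle : ∀ u, R u ≤ 1)
    (hconc : ConcaveOn ℝ univ (fun u => Real.log (R u)))
    (hint : Integrable (fun u => R u - step u)) (hzero : ∫ u, (R u - step u) = 0) :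
    -1 ≤ Real.log (R c₀) := by
  by_contra hcon
  push Not at hcon
  set δ := (-Real.log (R c₀) - 1) / 2 with hδ
  have hδ0 : 0 < δ := by rw [hδ]; linarith
  set f : ℝ → ℝ := fun u => Real.log (R u) with hf
  have hfcont : Continuous f := by
    have := hconc.continuousOn isOpen_univ
    exact continuousOn_univ.mp this
  have hneg : ConvexOn ℝ univ (fun u => - f u) := hconc.neg
  have hlsc : LowerSemicontinuousOn (fun u => - f u) univ :=
    (hfcont.neg.lowerSemicontinuous).lowerSemicontinuousOn _
  have hlt : 1 + δ < - f c₀ := by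
    simp only [hf]
    rw [hδ]; linarith
  obtain ⟨c, c', hcle, hceq⟩ := hneg.exists_affine_le_of_lt_real (mem_univ c₀) hlt isClosed_univ hlsc
  have hfle : ∀ u, f u ≤ -1 - δ + (-c) * (u - c₀) := by
    intro u
    have := hcle u (mem_univ u)
    nlinarith
  rcases le_or_gt 0 (-c) with hβ | hβ
  · -- non-negative slope: the profile stays below one on the left
    refine tail_not_le hint (r := Real.exp (-1 - δ)) (z := c₀) ?_ ?_
    · rw [Real.exp_lt_one_iff]
      linarith
    · intro t ht
      have h1 := hfle t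
      have h2 : -c * (t - c₀) ≤ 0 := mul_nonpos_of_nonneg_of_nonpos hβ (by linarith)
      have h3 : Real.log (R t) ≤ -1 - δ := by
        have : f t = Real.log (R t) := rfl
        linarith
      calc R t = Real.exp (Real.log (R t)) := (Real.exp_log (hpos t)).symm
        _ ≤ _ := Real.exp_le_exp.mpr h3
  · -- negative slope
    have hcpos : 0 < c := by linarith
    set A := 1 / c with hA
    have hA0 : 0 < A := by positivity
    set q := c₀ - δ * A with hq
    have hrle : ∀ u, R u ≤ r A (u - q) := by
      intro u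
      refine le_min (hle u) ?_
      have e : -1 - (u - q) / A = -1 - δ + (-c) * (u - c₀) := by
        rw [hq, hA]
        field_simp
        ring
      rw [e]
      calc R u = Real.exp (f u) := (Real.exp_log (hpos u)).symm
        _ ≤ _ := Real.exp_le_exp.mpr (hfle u)
    obtain ⟨hE, hEz⟩ := r_mean hA0 q c₀
    have hmono : ∫ u, (R u - step u) ≤ ∫ u, (r A (u - q) - (Iio c₀).indicator (fun _ => (1:ℝ)) u) := by
      refine integral_mono hint hE fun u => ?_
      simp only [step]
      linarith [hrle u]
    rw [hzero, hEz, hq] at hmono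
    have : 0 < δ * A := by positivity
    linarith

/-- The profile is strictly below one at `c₀ + 1`. -/
lemma value_lt_one (hle : ∀ u, R u ≤ 1) (hpos : ∀ u, 0 < R u) (hanti : Antitone R)
    (hint : Integrable (fun u => R u - step u)) (hzero : ∫ u, (R u - step u) = 0) :
    R (c₀ + 1) < 1 := by
  by_contra hcon
  push Not at hcon
  have hone : ∀ u ≤ c₀ + 1, R u = 1 := fun u hu =>
    le_antisymm (hle u) (le_trans hcon (hanti hu))
  have hnn : ∀ u, 0 ≤ R u - step u := by
    intro u
    by_cases hu : u < c₀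
    · have hs : step u = 1 := by simp [step, indicator, hu]
      rw [hs, hone u (by linarith)]
      norm_num
    · have hs : step u = 0 := by simp [step, indicator, hu]
      rw [hs]
      linarith [hpos u]
  have h1 : ∫ u in Ico c₀ (c₀ + 1), (R u - step u) ≤ ∫ u, (R u - step u) :=
    setIntegral_le_integral hint (ae_of_all _ hnn)
  have h2 : ∫ u in Ico c₀ (c₀ + 1), (R u - step u) = ∫ _ in Ico c₀ (c₀ + 1), (1:ℝ) := by
    refine setIntegral_congr_fun measurableSet_Ico fun u hu => ?_
    have hs : step u = 0 := by simp [step, indicator, not_lt.mpr hu.1]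
    simp only [hs, hone u hu.2.le]
    norm_num
  rw [h2, hzero] at h1
  simp at h1
  linarith

/-- slope of the log-profile on the level pair of gap `s`. -/
noncomputable def beta (R : ℝ → ℝ) (s : ℝ) : ℝ :=
  (Real.log (R (U1 s + s)) - Real.log (R (U1 s))) / s

/-- value at the pivot of the chord of the log-profile on the level pair of gap `s`. -/
noncomputable def chordVal (R : ℝ → ℝ) (s : ℝ) : ℝ :=
  Real.log (R (U1 s)) + beta R s * (c₀ - U1 s)

lemma chord_step (hpos : ∀ u, 0 < R u) (hle : ∀ u, R u ≤ 1) (hmeas : Measurable R)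
    (hconc : ConcaveOn ℝ univ (fun u => Real.log (R u)))
    (hint : Integrable (fun u => R u - step u)) (hzero : ∫ u, (R u - step u) = 0)
    {s : ℝ} (hs : 0 < s) (hβ : beta R s < 0) (hC : -1 ≤ chordVal R s) :
    4 / 9 * Real.exp (-(1 / 3)) - (U1 s * Real.exp (-U1 s)) * ((-1 / beta R s) * (chordVal R s + 1))
      ≤ ∫ u in Ioi (0:ℝ), R u * (u * Real.exp (-u)) := by
  set x := U1 s with hx
  set y := x + s with hy
  have hxpos : 0 < x := U1_pos hs
  have hxy : x < y := by rw [hy]; linarith
  have hyx : y - x = s := by rw [hy]; ring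
  set β := beta R s with hβdef
  have hβeq : β = (Real.log (R y) - Real.log (R x)) / (y - x) := by
    rw [hyx]; rfl
  set C := chordVal R s with hCdef
  have hCeq : C = Real.log (R x) + β * (c₀ - x) := rfl
  set A := -1 / β with hAdef
  have hA : 0 < A := by
    rw [hAdef]
    exact div_pos_of_neg_of_neg (by norm_num) hβ
  have hβne : β ≠ 0 := hβ.ne
  set q := c₀ + A * (C + 1) with hq
  have hline : ∀ u, -1 - (u - q) / A = Real.log (R x) + β * (u - x) := by
    intro u
    rw [hq, hAdef, hCeq]
    field_simp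
    ring
  have hR : ∀ u, Real.exp (Real.log (R u)) = R u := fun u => Real.exp_log (hpos u)
  have hin : ∀ u ∈ Icc x y, Real.exp (-1 - (u - q) / A) ≤ R u := by
    intro u hu
    rw [hline, ← hR u]
    refine Real.exp_le_exp.mpr ?_
    rw [hβeq]
    exact chord_between hconc (mem_univ x) (mem_univ y) hxy hu
  have hout : ∀ u, u ∉ Icc x y → R u ≤ Real.exp (-1 - (u - q) / A) := by
    intro u hu
    rw [hline]
    conv_lhs => rw [← hR u]
    refine Real.exp_le_exp.mpr ?_
    rw [hβeq]
    by_cases hux : u ≤ x
    · exact chord_left hconc (mem_univ x) (mem_univ y) hxy (mem_univ u) hux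
    · have huy : y ≤ u := by
        by_contra hcon
        exact hu ⟨(not_le.mp hux).le, (not_le.mp hcon).le⟩
      exact chord_right hconc (mem_univ x) (mem_univ y) hxy (mem_univ u) huy
  have hlev := W_level hxpos hxy (U1_level hs)
  have hcomp := comparison hpos hle hmeas hint hzero hA hin hout hlev.1 hlev.2
  have hqc : q - c₀ = A * (C + 1) := by rw [hq]; ring
  have hqle : c₀ ≤ q := by
    have : 0 ≤ A * (C + 1) := mul_nonneg hA.le (by linarith)
    linarith
  have h1 := Phi_mono hA hqle
  have h2 := kappa_le_Phi hA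
  rw [hqc] at hcomp
  linarith

lemma chordVal_continuousOn (hfc : Continuous fun u => Real.log (R u)) {a b : ℝ} (ha : 0 < a) :
    ContinuousOn (chordVal R) (Icc a b) := by
  have hsub : Icc a b ⊆ Ioi 0 := fun s hs => lt_of_lt_of_le ha hs.1
  have hU : ContinuousOn U1 (Icc a b) := U1_continuousOn.mono hsub
  have h1 : ContinuousOn (fun s => Real.log (R (U1 s))) (Icc a b) :=
    hfc.comp_continuousOn hU
  have h2 : ContinuousOn (fun s => Real.log (R (U1 s + s))) (Icc a b) :=
    hfc.comp_continuousOn (hU.add continuousOn_id)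
  have h3 : ContinuousOn (beta R) (Icc a b) := by
    unfold beta
    refine (h2.sub h1).div continuousOn_id ?_
    intro s hs
    exact (hsub hs).ne'
  unfold chordVal
  exact h1.add (h3.mul (continuousOn_const.sub hU))

/-- The abstract extremal inequality. -/
theorem abstract_bound (hpos : ∀ u, 0 < R u) (hle : ∀ u, R u ≤ 1) (hanti : Antitone R)
    (hconc : ConcaveOn ℝ univ (fun u => Real.log (R u)))
    (hint : Integrable (fun u => R u - step u)) (hzero : ∫ u, (R u - step u) = 0) :
    4 / 9 * Real.exp (-(1 / 3)) ≤ ∫ u in Ioi (0:ℝ), R u * (u * Real.exp (-u)) := by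
  have hfc : Continuous fun u => Real.log (R u) :=
    continuousOn_univ.mp (hconc.continuousOn isOpen_univ)
  have hRcont : Continuous R := by
    have : R = fun u => Real.exp (Real.log (R u)) := by
      funext u; rw [Real.exp_log (hpos u)]
    rw [this]
    exact Real.continuous_exp.comp hfc
  have hmeas : Measurable R := hRcont.measurable
  have hgr := grunbaum hpos hle hconc hint hzero
  have hR1 := value_lt_one hle hpos hanti hint hzero
  have hfanti : ∀ {u v : ℝ}, u ≤ v → Real.log (R v) ≤ Real.log (R u) := fun {u v} huv =>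
    Real.log_le_log (hpos v) (hanti huv)
  have hlog0 : ∀ u, Real.log (R u) ≤ 0 := fun u => Real.log_nonpos (hpos u).le (hle u)
  have hR1log : Real.log (R (c₀ + 1)) < 0 := Real.log_neg (hpos _) hR1
  have hfstrict : Real.log (R (c₀ + 1)) < Real.log (R 0) := by
    by_contra hcon
    push Not at hcon
    have hpos1 : (0:ℝ) < c₀ + 1 := by norm_num
    refine tail_not_le hint (r := R (c₀ + 1)) (z := 0) hR1 ?_
    intro t ht
    have h1 := chord_left hconc (mem_univ (0:ℝ)) (mem_univ (c₀ + 1)) hpos1 (mem_univ t) ht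
    have h2 : Real.log (R (c₀ + 1)) - Real.log (R 0) = 0 :=
      le_antisymm (by linarith [hfanti (u := 0) (v := c₀ + 1) hpos1.le]) (by linarith)
    simp only [h2, zero_div, zero_mul, add_zero] at h1
    have h3 : Real.log (R t) ≤ Real.log (R (c₀ + 1)) := by linarith
    exact (Real.log_le_log_iff (hpos t) (hpos _)).mp h3
  set β₀ := (Real.log (R (c₀ + 1)) - Real.log (R 0)) / (c₀ + 1 - 0) with hβ₀
  have hβ₀neg : β₀ < 0 := div_neg_of_neg_of_pos (by linarith) (by norm_num)
  set A₀ := -1 / β₀ with hA₀
  have hA₀pos : 0 < A₀ := div_pos_of_neg_of_neg (by norm_num) hβ₀neg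
  refine le_of_forall_pos_le_add fun ε hε => ?_
  -- the two scales
  set s₀ : ℝ := 1 / 2 with hs₀
  have hs₀pos : 0 < s₀ := by norm_num [hs₀]
  set s₁ : ℝ := max (c₀ + 1) (2 * A₀ / ε) with hs₁
  have hs₁a : c₀ + 1 ≤ s₁ := le_max_left _ _
  have hs₁b : 2 * A₀ / ε ≤ s₁ := le_max_right _ _
  have hs₁pos : 0 < s₁ := lt_of_lt_of_le (by norm_num) hs₁a
  have hs₀₁ : s₀ ≤ s₁ := le_trans (by norm_num [hs₀]) hs₁a
  -- the chord at `s₀` lies above the pivot value
  have hC₀ : -1 ≤ chordVal R s₀ := by
    have hy : U1 s₀ + s₀ < c₀ := by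
      have h1 : (13:ℝ) / 8 ≤ Real.exp s₀ := by
        have := Real.quadratic_le_exp_of_nonneg hs₀pos.le
        rw [hs₀] at this ⊢
        norm_num at this ⊢
        linarith
      have h2 : U1 s₀ ≤ 4 / 5 := by
        rw [U1, div_le_iff₀ (exp_sub_one_pos hs₀pos)]
        rw [hs₀] at h1 ⊢
        linarith
      rw [hs₀] at h2 ⊢
      linarith
    have hxy : U1 s₀ < U1 s₀ + s₀ := by linarith
    have h1 := chord_right hconc (mem_univ (U1 s₀)) (mem_univ (U1 s₀ + s₀)) hxy (mem_univ c₀) hy.le
    have e : U1 s₀ + s₀ - U1 s₀ = s₀ := by ring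
    rw [e] at h1
    have : chordVal R s₀ = Real.log (R (U1 s₀))
        + (Real.log (R (U1 s₀ + s₀)) - Real.log (R (U1 s₀))) / s₀ * (c₀ - U1 s₀) := rfl
    rw [this]
    linarith
  -- the integral is at least the bound in all cases
  by_cases hC₁ : -1 ≤ chordVal R s₁
  · -- the chord at `s₁`
    set x₁ := U1 s₁ with hx₁
    set y₁ := x₁ + s₁ with hy₁
    have hx₁pos : 0 < x₁ := U1_pos hs₁pos
    have hx₁le : x₁ ≤ 1 := U1_le_one hs₁pos
    have hxy₁ : x₁ < y₁ := by rw [hy₁]; linarith
    have hyc : c₀ + 1 ≤ y₁ := by rw [hy₁]; linarith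
    have hyx : y₁ - x₁ = s₁ := by rw [hy₁]; ring
    have hpos1 : (0:ℝ) < c₀ + 1 := by norm_num
    -- comparison of slopes
    have hlow := chord_between hconc (mem_univ (0:ℝ)) (mem_univ (c₀ + 1)) hpos1
      (u := x₁) ⟨hx₁pos.le, by linarith⟩
    have hup := chord_right hconc (mem_univ (0:ℝ)) (mem_univ (c₀ + 1)) hpos1
      (u := y₁) (mem_univ _) hyc
    have hβle : beta R s₁ ≤ β₀ := by
      have e : beta R s₁ = (Real.log (R y₁) - Real.log (R x₁)) / s₁ := rfl
      rw [e, div_le_iff₀ hs₁pos]
      rw [← hβ₀] at hlow hup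
      have : β₀ * s₁ = β₀ * (y₁ - 0) - β₀ * (x₁ - 0) := by rw [← hyx]; ring
      rw [this]
      linarith
    have hβneg : beta R s₁ < 0 := lt_of_le_of_lt hβle hβ₀neg
    have hstep := chord_step hpos hle hmeas hconc hint hzero hs₁pos hβneg hC₁
    have hCle : chordVal R s₁ ≤ 0 := by
      have h1 := chord_between hconc (mem_univ x₁) (mem_univ y₁) hxy₁
        (u := c₀) ⟨by linarith, by linarith⟩
      rw [hyx] at h1
      have : chordVal R s₁ = Real.log (R x₁)
        + (Real.log (R y₁) - Real.log (R x₁)) / s₁ * (c₀ - x₁) := rfl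
      rw [this]
      linarith [hlog0 c₀]
    have hAle : -1 / beta R s₁ ≤ A₀ := by
      rw [hA₀]
      have h1 : 0 < -beta R s₁ := by linarith
      have h2 : 0 < -β₀ := by linarith
      rw [show (-1:ℝ) / beta R s₁ = 1 / (-beta R s₁) by field_simp,
        show (-1:ℝ) / β₀ = 1 / (-β₀) by field_simp]
      exact one_div_le_one_div_of_le h2 (by linarith)
    have hApos : 0 < -1 / beta R s₁ := div_pos_of_neg_of_neg (by norm_num) hβneg
    have hμ : x₁ * Real.exp (-x₁) ≤ 2 / s₁ := by
      have h1 : Real.exp (-x₁) ≤ 1 := Real.exp_le_one_iff.mpr (by linarith)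
      have h2 := U1_le_two_div hs₁pos
      calc x₁ * Real.exp (-x₁) ≤ x₁ * 1 := by gcongr
        _ = x₁ := mul_one _
        _ ≤ _ := h2
    have herr : (x₁ * Real.exp (-x₁)) * ((-1 / beta R s₁) * (chordVal R s₁ + 1)) ≤ ε := by
      have hμ0 : 0 ≤ x₁ * Real.exp (-x₁) := by positivity
      have h1 : (-1 / beta R s₁) * (chordVal R s₁ + 1) ≤ A₀ * 1 := by
        refine mul_le_mul hAle (by linarith) (by linarith) hA₀pos.le
      have h2 : (x₁ * Real.exp (-x₁)) * ((-1 / beta R s₁) * (chordVal R s₁ + 1))
          ≤ (2 / s₁) * (A₀ * 1) :=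
        mul_le_mul hμ h1 (mul_nonneg hApos.le (by linarith)) (by positivity)
      have h3 : (2 / s₁) * (A₀ * 1) ≤ ε := by
        rw [mul_one, div_mul_eq_mul_div, div_le_iff₀ hs₁pos]
        rw [div_le_iff₀ hε] at hs₁b
        linarith
      linarith
    linarith
  · -- intermediate value
    push Not at hC₁
    have hcont := chordVal_continuousOn (R := R) hfc (a := s₀) (b := s₁) hs₀pos
    have hmem : (-1:ℝ) ∈ Icc (chordVal R s₁) (chordVal R s₀) := ⟨hC₁.le, hC₀⟩
    obtain ⟨s, hs, hsC⟩ := intermediate_value_Icc' hs₀₁ hcont hmem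
    have hspos : 0 < s := lt_of_lt_of_le hs₀pos hs.1
    have hβle : beta R s ≤ 0 := by
      refine div_nonpos_of_nonpos_of_nonneg ?_ hspos.le
      have := hfanti (u := U1 s) (v := U1 s + s) (by linarith)
      linarith
    have hβneg : beta R s < 0 := by
      refine lt_of_le_of_ne hβle fun h0 => ?_
      have hfx : Real.log (R (U1 s)) = -1 := by
        have : chordVal R s = Real.log (R (U1 s)) + beta R s * (c₀ - U1 s) := rfl
        rw [this, h0] at hsC
        linarith
      refine tail_not_le hint (r := Real.exp (-1)) (z := U1 s) ?_ ?_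
      · rw [Real.exp_lt_one_iff]; norm_num
      · intro t ht
        have hxy : U1 s < U1 s + s := by linarith
        have h1 := chord_left hconc (mem_univ (U1 s)) (mem_univ (U1 s + s)) hxy (mem_univ t) ht
        have e : U1 s + s - U1 s = s := by ring
        rw [e] at h1
        have h2 : (Real.log (R (U1 s + s)) - Real.log (R (U1 s))) / s = 0 := h0
        rw [h2, zero_mul, add_zero, hfx] at h1
        calc R t = Real.exp (Real.log (R t)) := (Real.exp_log (hpos t)).symm
          _ ≤ _ := Real.exp_le_exp.mpr h1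
    have hstep := chord_step hpos hle hmeas hconc hint hzero hspos hβneg (le_of_eq hsC.symm)
    rw [hsC] at hstep
    have e : (-1 : ℝ) + 1 = 0 := by norm_num
    simp only [e, mul_zero, sub_zero] at hstep
    linarith

end bound

end Crest.Agent.Lib.S0423Aux
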