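import Mathlib
import Crest.Agent.Lib.S0423Bound

/-! Integration over the positive orthant against the exponential weight. -/

namespace Crest.Agent.Lib.S0423Aux

open MeasureTheory Set Filter Topology Real

/-- The positive orthant. -/
def orthant (n : ℕ) : Set (Fin n → ℝ) := Set.pi univ (fun _ => Ioi (0:ℝ))

lemma orthant_measurable (n : ℕ) : MeasurableSet (orthant n) :=
  MeasurableSet.univ_pi (fun _ => measurableSet_Ioi)

/-- Lebesgue measure on the positive half-line. -/
noncomputable abbrev mu1 : Measure ℝ := (volume : Measure ℝ).restrict (Ioi 0)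

/-- Lebesgue measure on the positive orthant. -/
noncomputable abbrev nu (n : ℕ) : Measure (Fin n → ℝ) := (volume : Measure (Fin n → ℝ)).restrict (orthant n)

lemma nu_eq_pi (n : ℕ) : nu n = Measure.pi (fun _ : Fin n => mu1) := by
  rw [nu, volume_pi, orthant, Measure.restrict_pi_pi]

/-- the exponential weight. -/
noncomputable def ew {n : ℕ} (x : Fin n → ℝ) : ℝ := Real.exp (-∑ i, x i)

lemma ew_pos {n : ℕ} (x : Fin n → ℝ) : 0 < ew x := Real.exp_pos _

lemma ew_measurable {n : ℕ} : Measurable (ew (n := n)) := by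
  unfold ew
  fun_prop

lemma ew_eq_prod {n : ℕ} (x : Fin n → ℝ) : ew x = ∏ i, Real.exp (-x i) := by
  rw [ew, ← Finset.sum_neg_distrib, Real.exp_sum]

lemma ew_integrable (n : ℕ) : Integrable (ew (n := n)) (nu n) := by
  rw [nu_eq_pi]
  have : (ew (n := n)) = fun x => ∏ i, Real.exp (-x i) := funext ew_eq_prod
  rw [this]
  exact Integrable.fintype_prod (fun _ => integrableOn_exp_neg_Ioi 0)

lemma ew_integral (n : ℕ) : ∫ x, ew x ∂(nu n) = 1 := by
  rw [nu_eq_pi]
  have : (ew (n := n)) = fun x => ∏ i, Real.exp (-x i) := funext ew_eq_prod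
  rw [this, integral_fintype_prod_eq_prod (𝕜 := ℝ) (fun _ x => Real.exp (-x))]
  refine Finset.prod_eq_one fun _ _ => ?_
  have h := integral_exp_neg_Ioi 0
  rwa [neg_zero, Real.exp_zero] at h

lemma coord_prod {n : ℕ} (i : Fin n) (x : Fin n → ℝ) :
    x i * ew x = ∏ j, ((if j = i then x j else 1) * Real.exp (-x j)) := by
  rw [Finset.prod_mul_distrib, ew_eq_prod, Finset.prod_ite_eq' Finset.univ i]
  simp

lemma coord_integrable {n : ℕ} (i : Fin n) : Integrable (fun x => x i * ew x) (nu n) := by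
  rw [nu_eq_pi]
  have : (fun x : Fin n → ℝ => x i * ew x)
      = fun x => ∏ j, ((fun (j : Fin n) (t : ℝ) => (if j = i then t else 1) * Real.exp (-t)) j (x j)) :=
    funext (coord_prod i)
  rw [this]
  refine Integrable.fintype_prod (f := fun (j : Fin n) (t : ℝ) => (if j = i then t else 1) * Real.exp (-t))
    (μ := fun _ => mu1) (fun j => ?_)
  by_cases hj : j = i
  · simp only [hj, if_true]
    exact gamma2_integrableOn (le_refl (0:ℝ))
  · simp only [hj, if_false, one_mul]
    exact integrableOn_exp_neg_Ioi 0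

lemma coord_integral {n : ℕ} (i : Fin n) : ∫ x, x i * ew x ∂(nu n) = 1 := by
  rw [nu_eq_pi]
  have : (fun x : Fin n → ℝ => x i * ew x)
      = fun x => ∏ j, ((fun (j : Fin n) (t : ℝ) => (if j = i then t else 1) * Real.exp (-t)) j (x j)) :=
    funext (coord_prod i)
  rw [this, integral_fintype_prod_eq_prod (𝕜 := ℝ) (fun (j : Fin n) (t : ℝ) => (if j = i then t else 1) * Real.exp (-t))]
  refine Finset.prod_eq_one fun j _ => ?_
  by_cases hj : j = i
  · simpa [hj] using gamma2_integral (le_refl (0:ℝ))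
  · simp only [hj, if_false, one_mul]
    have h := integral_exp_neg_Ioi 0
    rwa [neg_zero, Real.exp_zero] at h

/-- bounded measurable functions against the weight. -/
lemma bdd_mul_ew {n : ℕ} {F : (Fin n → ℝ) → ℝ} (hF : Measurable F) {C : ℝ} (hC : ∀ x, |F x| ≤ C) :
    Integrable (fun x => F x * ew x) (nu n) := by
  refine Integrable.bdd_mul (c := C) (ew_integrable n) hF.aestronglyMeasurable ?_
  exact ae_of_all _ fun x => by
    rw [Real.norm_eq_abs]
    exact hC x

/-- The expectation of a profile of a linear form. -/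
noncomputable def E (n : ℕ) (a : Fin n → ℝ) (h : ℝ → ℝ) (y : ℝ) : ℝ :=
  ∫ x in orthant n, h (y + ∑ i, a i * x i) * Real.exp (-∑ i, x i)

lemma E_eq (n : ℕ) (a : Fin n → ℝ) (h : ℝ → ℝ) (y : ℝ) :
    E n a h y = ∫ x, h (y + ∑ i, a i * x i) * ew x ∂(nu n) := rfl

lemma E_zero (a : Fin 0 → ℝ) (h : ℝ → ℝ) (y : ℝ) : E 0 a h y = h y := by
  rw [E_eq]
  have hnu : nu 0 = Measure.dirac (fun _ => 0) := by
    rw [nu_eq_pi]
    exact Measure.pi_of_empty _ _
  rw [hnu, integral_dirac]
  simp [ew]

lemma linear_measurable {n : ℕ} (a : Fin n → ℝ) (y : ℝ) :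
    Measurable (fun x : Fin n → ℝ => y + ∑ i, a i * x i) := by
  fun_prop

/-- Peeling off one coordinate. -/
theorem E_succAbove {n : ℕ} (a : Fin (n + 1) → ℝ) (i : Fin (n + 1)) {h : ℝ → ℝ} (hm : Measurable h)
    {C : ℝ} (hb : ∀ t, |h t| ≤ C) (y : ℝ) :
    E (n + 1) a h y = E n (fun j => a (i.succAbove j)) (V (a i) h) y := by
  set b : Fin n → ℝ := fun j => a (i.succAbove j) with hb'
  set G : ℝ × (Fin n → ℝ) → ℝ := fun z =>
    h (y + (a i * z.1 + ∑ j, b j * z.2 j)) * (Real.exp (-z.1) * ew z.2) with hG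
  have hmp := measurePreserving_piFinSuccAbove (α := fun _ => ℝ) (fun _ => mu1) i
  have hFG : ∀ x : Fin (n + 1) → ℝ, h (y + ∑ j, a j * x j) * ew x
      = G (MeasurableEquiv.piFinSuccAbove (fun _ => ℝ) i x) := by
    intro x
    simp only [hG, MeasurableEquiv.piFinSuccAbove_apply, Fin.insertNthEquiv_symm_apply, ew, Fin.removeNth, hb']
    rw [Fin.sum_univ_succAbove (fun j => a j * x j) i, Fin.sum_univ_succAbove (fun j => x j) i,
      neg_add, Real.exp_add]
  rw [E_eq, nu_eq_pi]
  simp_rw [hFG]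
  rw [hmp.integral_comp' G]
  have hGint : Integrable G (mu1.prod (Measure.pi fun _ : Fin n => mu1)) := by
    have h1 : Integrable (fun z : ℝ × (Fin n → ℝ) => Real.exp (-z.1) * ew z.2)
        (mu1.prod (Measure.pi fun _ : Fin n => mu1)) := by
      refine Integrable.mul_prod (integrableOn_exp_neg_Ioi 0) ?_
      rw [← nu_eq_pi]
      exact ew_integrable n
    refine Integrable.bdd_mul (c := C) h1 ?_ ?_
    · exact (hm.comp (by fun_prop)).aestronglyMeasurable
    · exact ae_of_all _ fun z => by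
        rw [Real.norm_eq_abs]
        exact hb _
  rw [integral_prod_symm G hGint, E_eq, nu_eq_pi]
  refine integral_congr_ae (ae_of_all _ fun x => ?_)
  simp only [hG, V]
  rw [← integral_mul_const]
  refine integral_congr_ae (ae_of_all _ fun t => ?_)
  have e : y + (a i * t + ∑ j, b j * x j) = y + ∑ j, b j * x j + a i * t := by ring
  simp only [e]
  ring

/-- log-concavity is preserved. -/
theorem LC.multi {h : ℝ → ℝ} (hh : LC h) : ∀ (n : ℕ) (a : Fin n → ℝ), LC (E n a h) := by
  intro n
  induction n generalizing h with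
  | zero =>
    intro a
    have : E 0 a h = h := funext (E_zero a h)
    rw [this]
    exact hh
  | succ n ih =>
    intro a
    have hb : ∀ t, |h t| ≤ 1 := fun t => by
      rw [abs_of_pos (hh.pos t)]
      exact hh.le_one t
    have : E (n + 1) a h = E n (fun j => a ((0 : Fin (n + 1)).succAbove j)) (S0423Aux.V (a 0) h) :=
      funext (E_succAbove a 0 hh.continuous.measurable hb)
    rw [this]
    exact ih (hh.V (a 0)) _

end Crest.Agent.Lib.S0423Aux
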