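import Mathlib
import Crest.Agent.Lib.S0423Multi

/-! Fubini computations for the one-parameter family of profiles. -/

namespace Crest.Agent.Lib.S0423Aux

open MeasureTheory Set Filter Topology Real

/-- An `L¹` bound for the deviation of the profile from a step. -/
lemma r_abs_bound {A : ℝ} (hA : 0 < A) (q c : ℝ) :
    ∫ u, |r A (u - q) - (Iio c).indicator (fun _ => (1:ℝ)) u| ≤ 2 * A + 3 * |q - c| := by
  obtain ⟨hE, hEz⟩ := r_mean hA q c
  set I := Ico (q - A) c with hI
  have hIint : Integrable (I.indicator (fun _ => (1:ℝ))) := ico_indicator_integrable _ _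
  have hle : ∀ u, |r A (u - q) - (Iio c).indicator (fun _ => (1:ℝ)) u|
      ≤ (r A (u - q) - (Iio c).indicator (fun _ => (1:ℝ)) u) + 2 * I.indicator (fun _ => (1:ℝ)) u := by
    intro u
    by_cases hu : u < c
    · have h1 : (Iio c).indicator (fun _ => (1:ℝ)) u = 1 := by simp [indicator, hu]
      rw [h1, abs_of_nonpos (by linarith [r_le_one A (u - q)])]
      by_cases hu2 : q - A ≤ u
      · have h2 : I.indicator (fun _ => (1:ℝ)) u = 1 := by
          simp [indicator, hI, hu, hu2]
        rw [h2]
        linarith [r_pos A (u - q)]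
      · have h2 : I.indicator (fun _ => (1:ℝ)) u = 0 := by
          simp [indicator, hI, hu2]
        have h3 : r A (u - q) = 1 := r_of_le hA (by linarith [not_le.mp hu2])
        rw [h2, h3]
        norm_num
    · have h1 : (Iio c).indicator (fun _ => (1:ℝ)) u = 0 := by simp [indicator, hu]
      rw [h1, sub_zero, abs_of_pos (r_pos _ _)]
      have : 0 ≤ I.indicator (fun _ => (1:ℝ)) u := indicator_nonneg (fun _ _ => zero_le_one) _
      linarith
  have hsum : Integrable (fun u => (r A (u - q) - (Iio c).indicator (fun _ => (1:ℝ)) u)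
      + 2 * I.indicator (fun _ => (1:ℝ)) u) := hE.add (hIint.const_mul 2)
  have hmono := integral_mono hE.abs hsum hle
  refine le_trans hmono ?_
  rw [integral_add hE (hIint.const_mul 2), integral_const_mul, hEz]
  have hlen : ∫ u, I.indicator (fun _ => (1:ℝ)) u ≤ A + |q - c| := by
    rcases le_total (q - A) c with h | h
    · rw [hI, ico_indicator_integral h]
      have := neg_abs_le (q - c)
      linarith
    · have : I = ∅ := Ico_eq_empty (not_lt.mpr h)
      rw [this]
      simp only [indicator_empty, integral_zero]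
      positivity
  have := le_abs_self (q - c)
  linarith

section generic

variable {Ω : Type*} [MeasurableSpace Ω] {ν : Measure Ω} [SFinite ν]
  {w : Ω → ℝ} {q : Ω → ℝ}

/-- Fubini for the mean. -/
theorem generic_mean (hw : Measurable w) (hw0 : ∀ ω, 0 ≤ w ω) (hwi : Integrable w ν)
    (hw1 : ∫ ω, w ω ∂ν = 1) (hq : Measurable q) (hqi : Integrable (fun ω => q ω * w ω) ν)
    {A : ℝ} (hA : 0 < A) (c : ℝ) :
    Integrable (fun u => (∫ ω, r A (u - q ω) * w ω ∂ν) - (Iio c).indicator (fun _ => (1:ℝ)) u) ∧
    ∫ u, ((∫ ω, r A (u - q ω) * w ω ∂ν) - (Iio c).indicator (fun _ => (1:ℝ)) u)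
      = ∫ ω, (q ω - c) * w ω ∂ν := by
  set F : ℝ × Ω → ℝ := fun z =>
    (r A (z.1 - q z.2) - (Iio c).indicator (fun _ => (1:ℝ)) z.1) * w z.2 with hF
  have hmeasF : Measurable F := by
    have h1 : Measurable fun z : ℝ × Ω => r A (z.1 - q z.2) :=
      r_continuous.measurable.comp (measurable_fst.sub (hq.comp measurable_snd))
    have h2 : Measurable fun z : ℝ × Ω => (Iio c).indicator (fun _ => (1:ℝ)) z.1 :=
      (measurable_const.indicator measurableSet_Iio).comp measurable_fst
    exact (h1.sub h2).mul (hw.comp measurable_snd)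
  have hqci : Integrable (fun ω => (q ω - c) * w ω) ν := by
    have : (fun ω => (q ω - c) * w ω) = fun ω => q ω * w ω - c * w ω := by
      funext ω; ring
    rw [this]
    exact hqi.sub (hwi.const_mul c)
  have hFint : Integrable F ((volume : Measure ℝ).prod ν) := by
    rw [integrable_prod_iff' hmeasF.aestronglyMeasurable]
    constructor
    · refine ae_of_all _ fun ω => ?_
      exact (r_mean hA (q ω) c).1.mul_const (w ω)
    · have hbound : Integrable (fun ω => (2 * A * w ω + 3 * |(q ω - c) * w ω|)) ν :=
        (hwi.const_mul _).add (hqci.abs.const_mul _)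
      refine Integrable.mono' hbound ?_ ?_
      · exact (hmeasF.norm.stronglyMeasurable.integral_prod_left').aestronglyMeasurable
      · refine ae_of_all _ fun ω => ?_
        have e : ∀ u, ‖F (u, ω)‖ = |r A (u - q ω) - (Iio c).indicator (fun _ => (1:ℝ)) u| * w ω := by
          intro u
          simp only [hF, Real.norm_eq_abs, abs_mul, abs_of_nonneg (hw0 ω)]
        simp_rw [e]
        rw [integral_mul_const, Real.norm_of_nonneg
          (mul_nonneg (integral_nonneg fun _ => abs_nonneg _) (hw0 ω))]
        have h := r_abs_bound hA (q ω) c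
        have h2 : (∫ u, |r A (u - q ω) - (Iio c).indicator (fun _ => (1:ℝ)) u|) * w ω
            ≤ (2 * A + 3 * |q ω - c|) * w ω := mul_le_mul_of_nonneg_right h (hw0 ω)
        refine le_trans h2 (le_of_eq ?_)
        rw [abs_mul, abs_of_nonneg (hw0 ω)]
        ring
  have hinner : ∀ u, ∫ ω, F (u, ω) ∂ν
      = (∫ ω, r A (u - q ω) * w ω ∂ν) - (Iio c).indicator (fun _ => (1:ℝ)) u := by
    intro u
    have h1 : Integrable (fun ω => r A (u - q ω) * w ω) ν := by
      refine Integrable.bdd_mul (c := 1) hwi ?_ ?_
      · exact (r_continuous.measurable.comp (measurable_const.sub hq)).aestronglyMeasurable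
      · exact ae_of_all _ fun ω => by
          rw [Real.norm_of_nonneg (r_pos _ _).le]
          exact r_le_one _ _
    have h2 : (fun ω => F (u, ω))
        = fun ω => r A (u - q ω) * w ω - (Iio c).indicator (fun _ => (1:ℝ)) u * w ω := by
      funext ω
      simp only [hF]
      ring
    rw [h2, integral_sub h1 (hwi.const_mul _), integral_const_mul, hw1, mul_one]
  constructor
  · have := hFint.integral_prod_left
    simp_rw [hinner] at this
    exact this
  · simp_rw [← hinner]
    have := integral_integral_swap (f := fun u ω => F (u, ω)) (μ := (volume : Measure ℝ)) (ν := ν) hFint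
    rw [this]
    refine integral_congr_ae (ae_of_all _ fun ω => ?_)
    simp only [hF]
    rw [integral_mul_const, (r_mean hA (q ω) c).2]

/-- Fubini for the weighted integral. -/
theorem generic_swap (hwi : Integrable w ν)
    (hq : Measurable q) (A : ℝ) :
    Integrable (fun ω => Phi A (q ω) * w ω) ν ∧
    ∫ ω, Phi A (q ω) * w ω ∂ν
      = ∫ u in Ioi (0:ℝ), (∫ ω, r A (u - q ω) * w ω ∂ν) * (u * Real.exp (-u)) := by
  set f : Ω × ℝ → ℝ := fun z => r A (z.2 - q z.1) * (w z.1 * (z.2 * Real.exp (-z.2))) with hf
  have hfint : Integrable f (ν.prod mu1) := by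
    have h1 : Integrable (fun z : Ω × ℝ => w z.1 * (z.2 * Real.exp (-z.2))) (ν.prod mu1) :=
      hwi.mul_prod (gamma2_integrableOn le_rfl)
    refine Integrable.bdd_mul (c := 1) h1 ?_ ?_
    · exact (r_continuous.measurable.comp (measurable_snd.sub (hq.comp measurable_fst))).aestronglyMeasurable
    · exact ae_of_all _ fun z => by
        rw [Real.norm_of_nonneg (r_pos _ _).le]
        exact r_le_one _ _
  have hin1 : ∀ ω, ∫ u, f (ω, u) ∂mu1 = Phi A (q ω) * w ω := by
    intro ω
    rw [Phi, ← integral_mul_const]
    refine integral_congr_ae (ae_of_all _ fun u => ?_)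
    simp only [hf]
    ring
  have hin2 : ∀ u, ∫ ω, f (ω, u) ∂ν = (∫ ω, r A (u - q ω) * w ω ∂ν) * (u * Real.exp (-u)) := by
    intro u
    rw [← integral_mul_const]
    refine integral_congr_ae (ae_of_all _ fun ω => ?_)
    simp only [hf]
    ring
  constructor
  · have := hfint.integral_prod_left
    simp_rw [hin1] at this
    exact this
  · simp_rw [← hin1, ← hin2]
    exact integral_integral_swap (f := fun ω u => f (ω, u)) hfint

end generic

end Crest.Agent.Lib.S0423Aux
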