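import Mathlib
import Crest.Agent.Lib.S0423Fubini

/-! The final inequalities. -/

namespace Crest.Agent.Lib.S0423Aux

open MeasureTheory Set Filter Topology Real

local notation "c₀" => (4 / 3 : ℝ)
local notation "g" => Crest.AlgGeometry.truncExpWeight

lemma g_abs (t : ℝ) : |g t| ≤ 1 := by
  rw [abs_of_nonneg (g_nonneg t)]
  exact g_le_one t

/-- The basic profile is log-concave. -/
lemma r_LC {A : ℝ} (hA : 0 < A) (s : ℝ) : LC (fun t => r A (t - s)) := by
  refine ⟨fun t => r_pos _ _, fun t => r_le_one _ _, ?_⟩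
  have hlog : ∀ t, Real.log (r A (t - s)) = min 0 (-1 - (t - s) / A) := by
    intro t
    rw [r]
    rcases le_total 0 (-1 - (t - s) / A) with h | h
    · have h1 : 1 ≤ Real.exp (-1 - (t - s) / A) := Real.one_le_exp h
      rw [min_eq_left h1, min_eq_left h, Real.log_one]
    · have h1 : Real.exp (-1 - (t - s) / A) ≤ 1 := Real.exp_le_one_iff.mpr h
      rw [min_eq_right h1, min_eq_right h, Real.log_exp]
  have e : (fun t => Real.log (r A (t - s))) = (fun _ => (0:ℝ)) ⊓ (fun t => -1 - (t - s) / A) := by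
    funext t
    simp only [Pi.inf_apply, hlog t]
  rw [e]
  refine ConcaveOn.inf (concaveOn_const _ convex_univ) ?_
  have := concaveOn_affine (-1 / A) (-1 + s / A)
  refine this.congr fun t _ => ?_
  field_simp
  ring

/-- Main inequality with a distinguished positive coefficient. -/
theorem main_bound {n : ℕ} (b : Fin n → ℝ) {p : ℝ} (hp : 0 < p) (hsum : p + ∑ j, b j = 0) :
    E n b (V p g) c₀ ≤ 1 - 4 / 9 * Real.exp (-(1 / 3)) := by
  set q : (Fin n → ℝ) → ℝ := fun x => c₀ + ∑ j, b j * x j + p with hq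
  have hqm : Measurable q := by
    rw [hq]
    fun_prop
  have hsub : ∀ (u : ℝ) (x : Fin n → ℝ), u + ∑ i, (-b i) * x i - (c₀ + p) = u - q x := by
    intro u x
    simp only [hq, neg_mul, Finset.sum_neg_distrib]
    ring
  set R : ℝ → ℝ := fun u => ∫ x, r p (u - q x) * ew x ∂(nu n) with hR
  have hRE : R = E n (fun i => -b i) (fun t => r p (t - (c₀ + p))) := by
    funext u
    rw [E_eq, hR]
    simp only [hsub]
  have hLC : LC R := by
    rw [hRE]
    exact LC.multi (r_LC hp _) n _
  have hri : ∀ u, Integrable (fun x => r p (u - q x) * ew x) (nu n) := fun u =>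
    bdd_mul_ew (r_continuous.measurable.comp (measurable_const.sub hqm)) (C := 1) fun x => by
      rw [abs_of_pos (r_pos _ _)]
      exact r_le_one _ _
  have hanti : Antitone R := by
    intro u v huv
    refine integral_mono (hri v) (hri u) fun x => ?_
    have h1 := r_anti hp (a := u - q x) (b := v - q x) (by linarith)
    exact mul_le_mul_of_nonneg_right h1 (ew_pos x).le
  have hew_m : Measurable (ew (n := n)) := ew_measurable
  have hew_0 : ∀ x : Fin n → ℝ, 0 ≤ ew x := fun x => (ew_pos x).le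
  -- the first moment
  have hSi : Integrable (fun x : Fin n → ℝ => ∑ j, b j * (x j * ew x)) (nu n) :=
    integrable_finsetSum _ fun j _ => (coord_integrable j).const_mul _
  have hqi' : (fun x => (q x - c₀) * ew x) = fun x => p * ew x + ∑ j, b j * (x j * ew x) := by
    funext x
    simp only [hq]
    have : ∑ j, b j * (x j * ew x) = (∑ j, b j * x j) * ew x := by
      rw [Finset.sum_mul]
      exact Finset.sum_congr rfl fun j _ => by ring
    rw [this]
    ring
  have hqci : Integrable (fun x => (q x - c₀) * ew x) (nu n) := by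
    rw [hqi']
    exact ((ew_integrable n).const_mul p).add hSi
  have hqi : Integrable (fun x => q x * ew x) (nu n) := by
    have : (fun x => q x * ew x) = fun x => (q x - c₀) * ew x + c₀ * ew x := by
      funext x; ring
    rw [this]
    exact hqci.add ((ew_integrable n).const_mul _)
  have hmean0 : ∫ x, (q x - c₀) * ew x ∂(nu n) = 0 := by
    rw [hqi', integral_add ((ew_integrable n).const_mul p) hSi, integral_const_mul, ew_integral,
      integral_finsetSum _ fun j _ => (coord_integrable j).const_mul _]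
    simp_rw [integral_const_mul, coord_integral, mul_one]
    exact hsum
  obtain ⟨hint, hzero⟩ := generic_mean hew_m hew_0 (ew_integrable n) (ew_integral n) hqm hqi hp c₀
  have hstep : ∀ u, (Iio c₀).indicator (fun _ => (1:ℝ)) u = step u := fun _ => rfl
  simp_rw [hstep] at hint hzero
  rw [hmean0] at hzero
  have hbound := abstract_bound hLC.pos hLC.le_one hanti hLC.conc hint hzero
  obtain ⟨hPi, hPz⟩ := generic_swap (ν := nu n) (ew_integrable n) hqm p
  -- identify the main term
  have hmain : E n b (V p g) c₀ = 1 - ∫ x, Phi p (q x) * ew x ∂(nu n) := by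
    rw [E_eq]
    have e : (fun x : Fin n → ℝ => V p g (c₀ + ∑ i, b i * x i) * ew x)
        = fun x => ew x - Phi p (q x) * ew x := by
      funext x
      rw [Vg_eq hp]
      ring
    rw [e, integral_sub (ew_integrable n) hPi, ew_integral]
  rw [hmain, hPz]
  linarith

/-- The pivot value. -/
lemma g_pivot : g c₀ ≤ 1 - 4 / 9 * Real.exp (-(1 / 3)) := by
  rw [g_of_pos (by norm_num)]
  have h1 : (25:ℝ) / 18 ≤ Real.exp (1 / 3) := by
    have := Real.quadratic_le_exp_of_nonneg (x := (1 / 3 : ℝ)) (by norm_num)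
    norm_num at this ⊢
    linarith
  set t := Real.exp (-(1 / 3)) with ht
  have ht0 : 0 < t := Real.exp_pos _
  have ht1 : t ≤ 18 / 25 := by
    rw [ht, Real.exp_neg, inv_le_comm₀ (Real.exp_pos _) (by norm_num)]
    norm_num
    norm_num at h1
    linarith
  have e : Real.exp (-(4 / 3)) = t ^ 4 := by
    rw [ht, ← Real.exp_nat_mul]
    norm_num
  rw [e]
  have h2 : t ^ 4 ≤ (18 / 25) ^ 4 := pow_le_pow_left₀ ht0.le ht1 4
  norm_num at h2 ⊢
  nlinarith

/-- Upper bound in all dimensions. -/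
theorem upper_bound {N : ℕ} (a : Fin N → ℝ) (hN : 1 ≤ N) (hsum : ∑ i, a i = 0) :
    E N a g c₀ ≤ 1 - 4 / 9 * Real.exp (-(1 / 3)) := by
  obtain ⟨n, rfl⟩ : ∃ n, N = n + 1 := ⟨N - 1, by omega⟩
  by_cases hall : ∀ i, a i ≤ 0
  · -- then all coefficients vanish
    have h0 := (Finset.sum_eq_zero_iff_of_nonpos (fun i _ => hall i)).mp hsum
    have e : E (n + 1) a g c₀ = g c₀ := by
      rw [E_eq]
      have : (fun x : Fin (n + 1) → ℝ => g (c₀ + ∑ i, a i * x i) * ew x) = fun x => g c₀ * ew x := by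
        funext x
        have : ∑ i, a i * x i = 0 :=
          Finset.sum_eq_zero fun i hi => by rw [h0 i hi, zero_mul]
        rw [this, add_zero]
      rw [this, integral_const_mul, ew_integral, mul_one]
    rw [e]
    exact g_pivot
  · push Not at hall
    obtain ⟨i, hi⟩ := hall
    rw [E_succAbove a i g_measurable g_abs]
    refine main_bound _ hi ?_
    rw [← hsum, Fin.sum_univ_succAbove a i]

/-- `V` of the weight is measurable. -/
lemma Vg_measurable {p : ℝ} (hp : 0 < p) : Measurable (V p g) := by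
  have e : V p g = fun y => 1 - Phi p (y + p) := funext (Vg_eq hp)
  rw [e]
  have h1 : Monotone (Phi p) := fun _ _ h => Phi_mono hp h
  exact measurable_const.sub (h1.measurable.comp (by fun_prop))

lemma Vg_abs (p y : ℝ) : |V p g y| ≤ 1 := by
  have h0 : 0 ≤ V p g y := by
    refine integral_nonneg fun x => ?_
    exact mul_nonneg (g_nonneg _) (Real.exp_pos _).le
  have h1 : V p g y ≤ 1 := by
    have h2 : V p g y ≤ ∫ x in Ioi (0:ℝ), Real.exp (-x) := by
      refine setIntegral_mono_on ?_ (integrableOn_exp_neg_Ioi 0) measurableSet_Ioi fun x _ => ?_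
      · refine Integrable.mono' (integrableOn_exp_neg_Ioi 0) ?_ ?_
        · exact ((g_measurable.comp (by fun_prop)).mul (by fun_prop)).aestronglyMeasurable
        · refine ae_of_all _ fun x => ?_
          rw [Real.norm_of_nonneg (mul_nonneg (g_nonneg _) (Real.exp_pos _).le)]
          exact mul_le_of_le_one_left (Real.exp_pos _).le (g_le_one _)
      · exact mul_le_of_le_one_left (Real.exp_pos _).le (g_le_one _)
    have h3 := integral_exp_neg_Ioi 0
    rw [neg_zero, Real.exp_zero] at h3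
    linarith
  rw [abs_of_nonneg h0]
  exact h1

/-- lower bound for the extremal family. -/
theorem extremal_lower (m : ℕ) (hm : 1 ≤ m) :
    1 - 4 / 9 * Real.exp (-(1 / 3) + 1 / ((m:ℝ) + 1))
      ≤ E (m + 1) (Fin.cons 2 (fun _ => -2 / (m:ℝ))) g c₀ := by
  have hm0 : (0:ℝ) < m := by exact_mod_cast hm
  set a : Fin (m + 1) → ℝ := Fin.cons 2 (fun _ => -2 / (m:ℝ)) with ha
  set b : Fin m → ℝ := fun _ => -2 / (m:ℝ) with hb
  rw [E_succAbove a 0 g_measurable g_abs]
  have e1 : (fun j => a ((0 : Fin (m + 1)).succAbove j)) = b := by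
    funext j
    simp [ha, hb]
  have e2 : a 0 = 2 := by simp [ha]
  rw [e1, e2, E_eq]
  set γ : ℝ := 1 + 1 / (m:ℝ) with hγ
  have hγ0 : 0 < γ := by positivity
  -- the lower integrand
  set L : (Fin m → ℝ) → ℝ := fun x => ∏ i, Real.exp (-(γ * x i)) with hL
  have hLeq : ∀ x : Fin m → ℝ, Real.exp ((c₀ + ∑ i, b i * x i) / 2) * ew x
      = Real.exp (2 / 3) * L x := by
    intro x
    simp only [hL, ew]
    rw [← Real.exp_sum, ← Real.exp_add, ← Real.exp_add]
    congr 1
    have h1 : ∑ i, b i * x i = -2 / (m:ℝ) * ∑ i, x i := by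
      rw [Finset.mul_sum]
    have h2 : ∑ i, -(γ * x i) = -γ * ∑ i, x i := by
      rw [Finset.mul_sum]
      exact Finset.sum_congr rfl fun i _ => by ring
    rw [h1, h2, hγ]
    field_simp
    ring
  have hone : ∫ t in Ioi (0:ℝ), Real.exp (-(γ * t)) = 1 / γ := by
    have h := integral_linear_exp (α := 1) (β := 0) (γ := γ) (a := 0) hγ0 le_rfl (by norm_num)
    simpa using h
  have hone_int : IntegrableOn (fun t => Real.exp (-(γ * t))) (Ioi (0:ℝ)) := by
    have h := integrableOn_linear_exp (α := 1) (β := 0) (γ := γ) (a := 0) hγ0 le_rfl (by norm_num)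
    simpa using h
  have hLint : Integrable L (nu m) := by
    rw [nu_eq_pi]
    exact Integrable.fintype_prod (f := fun (_ : Fin m) t => Real.exp (-(γ * t)))
      (μ := fun _ => mu1) (fun _ => hone_int)
  have hLval : ∫ x, L x ∂(nu m) = (1 / γ) ^ m := by
    rw [nu_eq_pi, hL, integral_fintype_prod_eq_prod (𝕜 := ℝ) (fun _ t => Real.exp (-(γ * t)))]
    simp [hone]
  have hlow : ∀ x : Fin m → ℝ, ew x - 4 / 9 * Real.exp (2 / 3) * L x
      ≤ V 2 g (c₀ + ∑ i, b i * x i) * ew x := by
    intro x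
    have h1 := Vg_two_ge (c₀ + ∑ i, b i * x i)
    have h2 := mul_le_mul_of_nonneg_right h1 (ew_pos x).le
    have e : (1 - 4 / 9 * Real.exp ((c₀ + ∑ i, b i * x i) / 2)) * ew x
        = ew x - 4 / 9 * Real.exp (2 / 3) * L x := by
      rw [sub_mul, one_mul, mul_assoc, hLeq]
      ring
    rwa [e] at h2
  have hVint : Integrable (fun x : Fin m → ℝ => V 2 g (c₀ + ∑ i, b i * x i) * ew x) (nu m) :=
    bdd_mul_ew ((Vg_measurable two_pos).comp (by fun_prop)) (C := 1) fun x => Vg_abs _ _
  have hLowInt : Integrable (fun x : Fin m → ℝ => ew x - 4 / 9 * Real.exp (2 / 3) * L x) (nu m) :=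
    (ew_integrable m).sub (hLint.const_mul _)
  have hmono := integral_mono hLowInt hVint hlow
  rw [integral_sub (ew_integrable m) (hLint.const_mul _), integral_const_mul, ew_integral, hLval] at hmono
  refine le_trans ?_ hmono
  -- estimate the power
  have hm1 : (0:ℝ) < (m:ℝ) + 1 := by positivity
  have hinv : 1 / γ ≤ Real.exp (-(1 / ((m:ℝ) + 1))) := by
    have h := Real.add_one_le_exp (-(1 / ((m:ℝ) + 1)))
    refine le_trans (le_of_eq ?_) h
    rw [hγ]
    field_simp
    ring
  have hpow : (1 / γ) ^ m ≤ Real.exp (-1 + 1 / ((m:ℝ) + 1)) := by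
    have h1 : (1 / γ) ^ m ≤ Real.exp (-(1 / ((m:ℝ) + 1))) ^ m :=
      pow_le_pow_left₀ (by positivity) hinv m
    refine le_trans h1 (le_of_eq ?_)
    rw [← Real.exp_nat_mul]
    congr 1
    field_simp
    ring
  have hfinal : Real.exp (2 / 3) * (1 / γ) ^ m ≤ Real.exp (-(1 / 3) + 1 / ((m:ℝ) + 1)) := by
    have h2 := mul_le_mul_of_nonneg_left hpow (Real.exp_pos (2 / 3)).le
    refine le_trans h2 (le_of_eq ?_)
    rw [← Real.exp_add]
    congr 1
    ring
  have : 4 / 9 * Real.exp (2 / 3) * (1 / γ) ^ m = 4 / 9 * (Real.exp (2 / 3) * (1 / γ) ^ m) := by ring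
  rw [this]
  linarith

/-- Final constants. -/
lemma constant_identity :
    Real.exp (4 / 3) / (4 / 3) * (4 / 9 * Real.exp (-(1 / 3))) = Real.exp 1 / 3 := by
  have h : Real.exp (4 / 3) * Real.exp (-(1 / 3)) = Real.exp 1 := by
    rw [← Real.exp_add]
    norm_num
  calc Real.exp (4 / 3) / (4 / 3) * (4 / 9 * Real.exp (-(1 / 3)))
      = (Real.exp (4 / 3) * Real.exp (-(1 / 3))) / 3 := by ring
    _ = _ := by rw [h]

/-- The upper bound in the required form. -/
theorem final_upper (N : ℕ) (a : Fin N → ℝ) (hN : 1 ≤ N) (hsum : ∑ i, a i = 0) :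
    Real.exp (4 / 3) / (4 / 3) *
        ∫ x in Set.pi Set.univ (fun _ : Fin N => Set.Ioi (0 : ℝ)),
          g (4 / 3 + ∑ i, a i * x i) * Real.exp (-∑ i, x i)
      ≤ 3 / 4 * Real.exp (4 / 3) - Real.exp 1 / 3 := by
  have h := upper_bound a hN hsum
  have hE : E N a g c₀ = ∫ x in Set.pi Set.univ (fun _ : Fin N => Set.Ioi (0 : ℝ)),
          g (4 / 3 + ∑ i, a i * x i) * Real.exp (-∑ i, x i) := rfl
  rw [← hE]
  have hc : 0 < Real.exp (4 / 3) / (4 / 3) := by positivity
  have h2 := mul_le_mul_of_nonneg_left h hc.le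
  refine le_trans h2 (le_of_eq ?_)
  rw [mul_sub, constant_identity]
  ring

/-- The attainment in the required form. -/
theorem final_attain (ε : ℝ) (hε : 0 < ε) : ∃ (N : ℕ) (a : Fin N → ℝ), 1 ≤ N ∧ ∑ i, a i = 0 ∧
    3 / 4 * Real.exp (4 / 3) - Real.exp 1 / 3 - ε <
      Real.exp (4 / 3) / (4 / 3) *
        ∫ x in Set.pi Set.univ (fun _ : Fin N => Set.Ioi (0 : ℝ)),
          g (4 / 3 + ∑ i, a i * x i) * Real.exp (-∑ i, x i) := by
  have hlim : Tendsto (fun m : ℕ => Real.exp (1 / ((m:ℝ) + 1))) atTop (𝓝 (Real.exp 0)) :=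
    (Real.continuous_exp.tendsto 0).comp tendsto_one_div_add_atTop_nhds_zero_nat
  rw [Real.exp_zero] at hlim
  have hδ : 1 < 1 + ε * 3 / Real.exp 1 := by
    have : 0 < ε * 3 / Real.exp 1 := by positivity
    linarith
  have hev := (hlim.eventually (gt_mem_nhds hδ)).and (eventually_ge_atTop 1)
  obtain ⟨m, hm1, hm2⟩ := hev.exists
  refine ⟨m + 1, Fin.cons 2 (fun _ => -2 / (m:ℝ)), by omega, ?_, ?_⟩
  · rw [Fin.sum_univ_succ]
    have hm0 : (m:ℝ) ≠ 0 := by
      have : (0:ℝ) < m := by exact_mod_cast hm2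
      exact this.ne'
    simp only [Fin.cons_zero, Fin.cons_succ, Finset.sum_const, Finset.card_univ, Fintype.card_fin,
      nsmul_eq_mul]
    field_simp
    ring
  · have h := extremal_lower m hm2
    have hE : E (m + 1) (Fin.cons 2 (fun _ => -2 / (m:ℝ))) g c₀
        = ∫ x in Set.pi Set.univ (fun _ : Fin (m + 1) => Set.Ioi (0 : ℝ)),
          g (4 / 3 + ∑ i, (Fin.cons 2 (fun _ => -2 / (m:ℝ)) : Fin (m + 1) → ℝ) i * x i)
            * Real.exp (-∑ i, x i) := rfl
    rw [← hE]
    have hc : 0 < Real.exp (4 / 3) / (4 / 3) := by positivity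
    refine lt_of_lt_of_le ?_ (mul_le_mul_of_nonneg_left h hc.le)
    have e1 : Real.exp (-(1 / 3) + 1 / ((m:ℝ) + 1))
        = Real.exp (-(1 / 3)) * Real.exp (1 / ((m:ℝ) + 1)) := Real.exp_add _ _
    rw [e1, mul_sub, mul_one]
    have e2 : Real.exp (4 / 3) / (4 / 3) * (4 / 9 * (Real.exp (-(1 / 3)) * Real.exp (1 / ((m:ℝ) + 1))))
        = (Real.exp (4 / 3) / (4 / 3) * (4 / 9 * Real.exp (-(1 / 3)))) * Real.exp (1 / ((m:ℝ) + 1)) := by ring
    rw [e2, constant_identity]
    have h3 : Real.exp 1 / 3 * Real.exp (1 / ((m:ℝ) + 1)) < Real.exp 1 / 3 * (1 + ε * 3 / Real.exp 1) :=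
      mul_lt_mul_of_pos_left hm1 (by positivity)
    have h4 : Real.exp 1 / 3 * (1 + ε * 3 / Real.exp 1) = Real.exp 1 / 3 + ε := by
      have := Real.exp_pos 1
      field_simp
    have h5 : Real.exp (4 / 3) / (4 / 3) = 3 / 4 * Real.exp (4 / 3) := by ring
    rw [h5]
    linarith

end Crest.Agent.Lib.S0423Aux
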