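import Mathlib

/-!
Univariate interlacing lemma for the stochastic covering inequality of strongly Rayleigh laws.
If `a + z b` never vanishes on `H⁺ × H⁺` and `a b > 0` on `(0,∞)` then
`a'(1) b(1) - a(1) b'(1) ≤ a(1) b(1)`.
-/

open Polynomial Filter Topology

namespace Crest.Agent.SRUni

/-- evaluation of a real polynomial at a complex point -/
noncomputable abbrev ev (p : ℝ[X]) (t : ℂ) : ℂ := aeval t p

/-- the stability hypothesis -/
def Stab (a b : ℝ[X]) : Prop :=
  ∀ t z : ℂ, 0 < t.im → 0 < z.im → ev a t + z * ev b t ≠ 0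

lemma pick {a b : ℝ[X]} (H : Stab a b) {t : ℂ} (ht : 0 < t.im) (hb : ev b t ≠ 0) :
    0 ≤ (ev a t / ev b t).im := by
  by_contra hneg
  push Not at hneg
  have hz : 0 < (-(ev a t / ev b t)).im := by simpa using hneg
  apply H t _ ht hz
  field_simp
  ring

lemma ev_continuous (p : ℝ[X]) : Continuous (ev p) := by
  unfold ev
  simpa using (Polynomial.continuous_aeval (p := p) (A := ℂ))

/-- local analysis at a root -/
lemma local_im {a b : ℝ[X]} (H : Stab a b) {t0 v : ℂ} {k : ℕ} (R : ℂ → ℂ)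
    (hR : ContinuousAt R t0)
    (hfac : ∀ t, ev a t = (t - t0) ^ k * R t)
    (hb : ev b t0 ≠ 0)
    (hv : ∀ᶠ ρ : ℝ in 𝓝[>] (0:ℝ), 0 < (t0 + (ρ:ℂ) * v).im) :
    0 ≤ (v ^ k * R t0 / ev b t0).im := by
  have hpath : Tendsto (fun ρ : ℝ => t0 + (ρ:ℂ) * v) (𝓝[>] (0:ℝ)) (𝓝 t0) := by
    have : Continuous (fun ρ : ℝ => t0 + (ρ:ℂ) * v) := by fun_prop
    have h := this.tendsto 0
    simp only [Complex.ofReal_zero, zero_mul, add_zero] at h
    exact h.mono_left nhdsWithin_le_nhds
  have hbev : ∀ᶠ ρ : ℝ in 𝓝[>] (0:ℝ), ev b (t0 + (ρ:ℂ) * v) ≠ 0 :=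
    hpath.eventually ((ev_continuous b).continuousAt.eventually_ne hb)
  have hlim : Tendsto (fun ρ : ℝ => (v ^ k * R (t0 + (ρ:ℂ) * v) / ev b (t0 + (ρ:ℂ) * v)).im)
      (𝓝[>] (0:ℝ)) (𝓝 (v ^ k * R t0 / ev b t0).im) := by
    apply Complex.continuous_im.continuousAt.tendsto.comp
    apply Tendsto.div
    · exact tendsto_const_nhds.mul (hR.tendsto.comp hpath)
    · exact (ev_continuous b).continuousAt.tendsto.comp hpath
    · exact hb
  refine ge_of_tendsto hlim ?_
  filter_upwards [hv, hbev, self_mem_nhdsWithin] with ρ h1 h2 h3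
  have hρ : (0:ℝ) < ρ := h3
  have hp := pick H h1 h2
  rw [hfac] at hp
  have heq : (t0 + (ρ:ℂ) * v - t0) ^ k * R (t0 + (ρ:ℂ) * v) / ev b (t0 + (ρ:ℂ) * v)
      = ((ρ ^ k : ℝ) : ℂ) * (v ^ k * R (t0 + (ρ:ℂ) * v) / ev b (t0 + (ρ:ℂ) * v)) := by
    push_cast
    ring
  rw [heq, Complex.im_ofReal_mul] at hp
  exact nonneg_of_mul_nonneg_right hp (by positivity)


lemma ev_ne_of_coprime {a b : ℝ[X]} (hc : IsCoprime a b) {t : ℂ} (ha : ev a t = 0) :
    ev b t ≠ 0 := by
  intro hb
  obtain ⟨u, v, huv⟩ := hc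
  have := congrArg (fun p : ℝ[X] => ev p t) huv
  simp only [ev, map_add, map_mul, map_one] at this
  simp only [ev] at ha hb
  rw [ha, hb] at this
  simp at this

lemma ev_ne_zero_of_im_pos {a b : ℝ[X]} (H : Stab a b) (hc : IsCoprime a b) {t0 : ℂ}
    (ht : 0 < t0.im) (ha0 : a ≠ 0) : ev a t0 ≠ 0 := by
  intro ha
  have hb := ev_ne_of_coprime hc ha
  have hA : a.map (algebraMap ℝ ℂ) ≠ 0 := by
    simpa [Polynomial.map_eq_zero] using ha0
  obtain ⟨q, hq, hnd⟩ := (a.map (algebraMap ℝ ℂ)).exists_eq_pow_rootMultiplicity_mul_and_not_dvd hA t0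
  set k := (a.map (algebraMap ℝ ℂ)).rootMultiplicity t0 with hk
  have hq0 : q.eval t0 ≠ 0 := by
    intro h
    exact hnd (Polynomial.dvd_iff_isRoot.mpr h)
  have hfac : ∀ t, ev a t = (t - t0) ^ k * q.eval t := by
    intro t
    have h1 : ev a t = (a.map (algebraMap ℝ ℂ)).eval t := by
      simp only [ev, aeval_def, eval₂_eq_eval_map]
    rw [h1]
    conv_lhs => rw [hq]
    simp only [eval_mul, eval_pow, eval_sub, eval_X, eval_C]
  have hk0 : 0 < k := by
    rcases Nat.eq_zero_or_pos k with h | h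
    · exfalso
      have := hfac t0
      rw [h] at this
      simp [ha] at this
      exact hq0 this.symm
    · exact h
  obtain ⟨v, hv⟩ := IsAlgClosed.exists_pow_nat_eq (-Complex.I * ev b t0 / q.eval t0) hk0
  have hcont : ContinuousAt (fun t => q.eval t) t0 := q.continuous.continuousAt
  have hev : ∀ᶠ ρ : ℝ in 𝓝[>] (0:ℝ), 0 < (t0 + (ρ:ℂ) * v).im := by
    have hc2 : Continuous (fun ρ : ℝ => (t0 + (ρ:ℂ) * v).im) := by fun_prop
    have : ∀ᶠ ρ : ℝ in 𝓝 (0:ℝ), 0 < (t0 + (ρ:ℂ) * v).im := by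
      apply hc2.continuousAt.eventually (lt_mem_nhds _)
      simpa using ht
    exact this.filter_mono nhdsWithin_le_nhds
  have := local_im H (fun t => q.eval t) hcont hfac hb hev
  rw [hv] at this
  have h2 : -Complex.I * ev b t0 / q.eval t0 * q.eval t0 / ev b t0 = -Complex.I := by
    field_simp
  rw [h2] at this
  simp at this
  linarith

lemma root_real {a b : ℝ[X]} (H : Stab a b) (hc : IsCoprime a b) (ha0 : a ≠ 0) {t0 : ℂ}
    (ha : ev a t0 = 0) : t0.im = 0 := by
  rcases lt_trichotomy t0.im 0 with h | h | h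
  · exfalso
    have h2 : 0 < ((starRingEnd ℂ) t0).im := by simpa using h
    apply ev_ne_zero_of_im_pos H hc h2 ha0
    have : ev a ((starRingEnd ℂ) t0) = (starRingEnd ℂ) (ev a t0) := by
      simpa [ev] using Polynomial.aeval_conj a t0
    rw [this, ha, map_zero]
  · exact h
  · exact absurd ha (ev_ne_zero_of_im_pos H hc h ha0)

lemma ev_real (p : ℝ[X]) (x : ℝ) : ev p (x:ℂ) = ((p.eval x : ℝ) : ℂ) := by
  have := Polynomial.aeval_algebraMap_apply_eq_algebraMap_eval (A := ℂ) x p
  simpa [ev] using this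

/-- at a real root: simple, with positive residue -/
lemma root_simple {a b : ℝ[X]} (H : Stab a b) (hc : IsCoprime a b) (ha0 : a ≠ 0) {x : ℝ}
    (ha : a.eval x = 0) :
    ∃ r : ℝ[X], a = (X - C x) * r ∧ r.eval x ≠ 0 ∧ 0 < r.eval x / b.eval x := by
  obtain ⟨r, hr, hnd⟩ := a.exists_eq_pow_rootMultiplicity_mul_and_not_dvd ha0 x
  set k := a.rootMultiplicity x with hk
  have hr0 : r.eval x ≠ 0 := by
    intro h
    exact hnd (Polynomial.dvd_iff_isRoot.mpr h)
  have hb : ev b (x:ℂ) ≠ 0 := ev_ne_of_coprime hc (by rw [ev_real, ha]; simp)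
  have hbr : b.eval x ≠ 0 := by
    intro h
    apply hb
    rw [ev_real, h]
    simp
  have hfac : ∀ t, ev a t = (t - (x:ℂ)) ^ k * ev r t := by
    intro t
    conv_lhs => rw [hr]
    simp [ev]
  have hk0 : 0 < k := by
    rcases Nat.eq_zero_or_pos k with h | h
    · exfalso
      have := hfac (x:ℂ)
      rw [h, ev_real, ev_real, ha] at this
      simp at this
      exact hr0 (by exact_mod_cast this.symm)
    · exact h
  set C0 : ℝ := r.eval x / b.eval x with hC0
  have hC0ne : C0 ≠ 0 := div_ne_zero hr0 hbr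
  -- general test
  have test : ∀ θ : ℝ, 0 < θ → θ < Real.pi →
      0 ≤ C0 * Real.sin (k * θ) := by
    intro θ h1 h2
    have hsin : 0 < Real.sin θ := Real.sin_pos_of_pos_of_lt_pi h1 h2
    set v : ℂ := Complex.exp (θ * Complex.I) with hv
    have him : v.im = Real.sin θ := by
      rw [hv, Complex.exp_ofReal_mul_I_im]
    have hev : ∀ᶠ ρ : ℝ in 𝓝[>] (0:ℝ), 0 < (((x:ℂ)) + (ρ:ℂ) * v).im := by
      filter_upwards [self_mem_nhdsWithin] with ρ hρ
      have hρ' : (0:ℝ) < ρ := hρ
      simp only [Complex.add_im, Complex.ofReal_im, zero_add, Complex.im_ofReal_mul, him]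
      positivity
    have hcont : ContinuousAt (ev r) (x:ℂ) := (ev_continuous r).continuousAt
    have := local_im H (ev r) hcont hfac hb hev
    rw [ev_real, ev_real] at this
    have h2 : v ^ k = Complex.exp ((k * θ : ℝ) * Complex.I) := by
      rw [hv, ← Complex.exp_nat_mul]
      congr 1
      push_cast
      ring
    have h3 : v ^ k * ((r.eval x : ℝ) : ℂ) / ((b.eval x : ℝ) : ℂ) = (C0 : ℂ) * v ^ k := by
      rw [hC0]
      push_cast
      field_simp
    rw [h3, Complex.im_ofReal_mul, h2, Complex.exp_ofReal_mul_I_im] at this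
    exact this
  have hkpos : (0:ℝ) < k := by exact_mod_cast hk0
  have hk1 : k = 1 := by
    by_contra hne
    have hk2 : 2 ≤ k := by omega
    have hk2' : (2:ℝ) ≤ k := by exact_mod_cast hk2
    have hpi := Real.pi_pos
    have t1 := test (Real.pi / (2 * k)) (by positivity) (by
      rw [div_lt_iff₀ (by positivity)]
      nlinarith)
    have t2 := test (3 * Real.pi / (2 * k)) (by positivity) (by
      rw [div_lt_iff₀ (by positivity)]
      nlinarith)
    have e1 : (k:ℝ) * (Real.pi / (2 * k)) = Real.pi / 2 := by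
      field_simp
    have e2 : (k:ℝ) * (3 * Real.pi / (2 * k)) = Real.pi + Real.pi / 2 := by
      field_simp
      ring
    rw [e1, Real.sin_pi_div_two] at t1
    rw [e2, Real.sin_add, Real.sin_pi, Real.cos_pi, Real.sin_pi_div_two] at t2
    apply hC0ne
    nlinarith
  refine ⟨r, ?_, hr0, ?_⟩
  · rw [hk1] at hr
    simpa using hr
  · have t1 := test (Real.pi / 2) (by positivity) (by linarith [Real.pi_pos])
    rw [hk1] at t1
    simp only [Nat.cast_one, one_mul, Real.sin_pi_div_two, mul_one] at t1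
    exact lt_of_le_of_ne t1 (Ne.symm hC0ne)


lemma ev_rev (p : ℝ[X]) {t : ℂ} (ht : t ≠ 0) :
    ev p t = t ^ p.natDegree * ev p.reverse t⁻¹ := by
  let _ := invertibleOfNonzero ht
  have := eval₂_reverse_mul_pow (algebraMap ℝ ℂ) t p
  rw [invOf_eq_inv] at this
  simp only [ev, aeval_def]
  rw [← this]
  ring

lemma ev_rev_zero (p : ℝ[X]) : ev p.reverse 0 = ((p.leadingCoeff : ℝ) : ℂ) := by
  have := Polynomial.coeff_zero_eq_aeval_zero' (A := ℂ) p.reverse
  simp only [ev]
  rw [← this, coeff_zero_reverse]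
  rfl

/-- the ratio asymptotics along a ray -/
lemma ray_tendsto {a b : ℝ[X]} (hb0 : b ≠ 0) {v : ℂ} (hv : v ≠ 0)
    (hdeg : a.natDegree ≤ b.natDegree) :
    Tendsto (fun ρ : ℝ => ((ρ:ℂ) * v) ^ (b.natDegree - a.natDegree) *
        (ev a ((ρ:ℂ) * v) / ev b ((ρ:ℂ) * v)))
      atTop (𝓝 (((a.leadingCoeff / b.leadingCoeff : ℝ)) : ℂ)) := by
  have hinv : Tendsto (fun ρ : ℝ => (((ρ:ℂ) * v))⁻¹) atTop (𝓝 0) := by
    have h1 : Tendsto (fun ρ : ℝ => ‖(ρ:ℂ) * v‖) atTop atTop := by
      have : (fun ρ : ℝ => ‖(ρ:ℂ) * v‖) =ᶠ[atTop] (fun ρ : ℝ => ρ * ‖v‖) := by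
        filter_upwards [eventually_ge_atTop 0] with ρ hρ
        simp [abs_of_nonneg hρ]
      refine Tendsto.congr' this.symm ?_
      exact tendsto_id.atTop_mul_const (norm_pos_iff.mpr hv)
    have h2 : Tendsto (fun ρ : ℝ => (ρ:ℂ) * v) atTop (Bornology.cobounded ℂ) :=
      tendsto_norm_atTop_iff_cobounded.mp h1
    exact tendsto_inv₀_cobounded.comp h2
  have hL : b.leadingCoeff ≠ 0 := leadingCoeff_ne_zero.mpr hb0
  have hlim : Tendsto (fun ρ : ℝ => ev a.reverse (((ρ:ℂ) * v))⁻¹ / ev b.reverse (((ρ:ℂ) * v))⁻¹)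
      atTop (𝓝 (ev a.reverse 0 / ev b.reverse 0)) := by
    apply Tendsto.div
    · exact ((ev_continuous _).tendsto 0).comp hinv
    · exact ((ev_continuous _).tendsto 0).comp hinv
    · rw [ev_rev_zero]
      exact_mod_cast hL
  rw [ev_rev_zero, ev_rev_zero] at hlim
  have hcast : (((a.leadingCoeff / b.leadingCoeff : ℝ)) : ℂ)
      = ((a.leadingCoeff : ℝ) : ℂ) / ((b.leadingCoeff : ℝ) : ℂ) := by
    push_cast
    ring
  rw [hcast]
  refine Tendsto.congr' ?_ hlim
  have hev : ∀ᶠ ρ : ℝ in atTop, ev b.reverse (((ρ:ℂ) * v))⁻¹ ≠ 0 := by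
    have h3 : Tendsto (fun ρ : ℝ => ev b.reverse (((ρ:ℂ) * v))⁻¹) atTop
        (𝓝 (ev b.reverse 0)) := ((ev_continuous _).tendsto 0).comp hinv
    apply h3.eventually_ne
    rw [ev_rev_zero]
    exact_mod_cast hL
  filter_upwards [hev, eventually_gt_atTop 0] with ρ h1 h2
  have ht : (ρ:ℂ) * v ≠ 0 := mul_ne_zero (by exact_mod_cast h2.ne') hv
  rw [ev_rev a ht, ev_rev b ht]
  set t := (ρ:ℂ) * v
  set A := ev a.reverse t⁻¹
  set B := ev b.reverse t⁻¹
  have hpow : t ^ (b.natDegree) = t ^ (b.natDegree - a.natDegree) * t ^ a.natDegree := by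
    rw [← pow_add, Nat.sub_add_cancel hdeg]
  rw [hpow]
  have : t ^ (b.natDegree - a.natDegree) ≠ 0 := pow_ne_zero _ ht
  have h2' : t ^ a.natDegree ≠ 0 := pow_ne_zero _ ht
  field_simp

lemma degree_le {a b : ℝ[X]} (H : Stab a b) (hb0 : b ≠ 0) (ha0 : a ≠ 0)
    (hpos : ∀ t : ℝ, 0 < t → 0 < a.eval t * b.eval t) : b.natDegree ≤ a.natDegree := by
  by_contra hlt
  push Not at hlt
  set m := b.natDegree - a.natDegree with hm
  have hm0 : 0 < m := by omega
  have hmR : (0:ℝ) < m := by exact_mod_cast hm0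
  set L : ℝ := a.leadingCoeff / b.leadingCoeff with hL
  have hLne : L ≠ 0 := div_ne_zero (leadingCoeff_ne_zero.mpr ha0) (leadingCoeff_ne_zero.mpr hb0)
  -- positivity along the positive axis
  have h1 := ray_tendsto (a := a) (b := b) hb0 (v := 1) one_ne_zero hlt.le
  have hLpos : 0 ≤ L := by
    have hre := Complex.continuous_re.continuousAt.tendsto.comp h1
    simp only [Complex.ofReal_re] at hre
    refine ge_of_tendsto hre ?_
    filter_upwards [eventually_gt_atTop 0] with ρ hρ
    have hρb := hpos ρ hρ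
    simp only [Function.comp, mul_one]
    rw [ev_real, ev_real]
    have e : ((ρ:ℂ)) ^ (b.natDegree - a.natDegree) * (((a.eval ρ : ℝ) : ℂ) / ((b.eval ρ : ℝ) : ℂ))
        = (((ρ ^ (b.natDegree - a.natDegree) * (a.eval ρ / b.eval ρ) : ℝ)) : ℂ) := by
      push_cast
      ring
    rw [e, Complex.ofReal_re]
    have hdiv : 0 ≤ a.eval ρ / b.eval ρ := by
      have hb : b.eval ρ ≠ 0 := by
        intro h
        rw [h] at hρb
        simp at hρb
      have e2 : a.eval ρ / b.eval ρ = (a.eval ρ * b.eval ρ) / (b.eval ρ) ^ 2 := by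
        field_simp
      rw [e2]
      positivity
    positivity
  -- the direction with `v ^ m = I`
  set θ : ℝ := Real.pi / (2 * m) with hθ
  have hpi := Real.pi_pos
  have hθ0 : 0 < θ := by positivity
  have hmθ : (m:ℝ) * θ = Real.pi / 2 := by
    rw [hθ]
    field_simp
  have hθpi : θ < Real.pi := by
    rw [hθ, div_lt_iff₀ (by positivity)]
    have : (1:ℝ) ≤ m := by exact_mod_cast hm0
    nlinarith
  set v : ℂ := Complex.exp (θ * Complex.I) with hv
  have hvne : v ≠ 0 := Complex.exp_ne_zero _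
  have hvm : v ^ m = Complex.I := by
    rw [hv, ← Complex.exp_nat_mul]
    have : (m:ℂ) * ((θ:ℂ) * Complex.I) = ((Real.pi / 2 : ℝ) : ℂ) * Complex.I := by
      rw [← hmθ]
      push_cast
      ring
    rw [this, Complex.exp_ofReal_mul_I, Real.cos_pi_div_two, Real.sin_pi_div_two]
    simp
  have him : v.im = Real.sin θ := by
    rw [hv, Complex.exp_ofReal_mul_I_im]
  have hsin : 0 < Real.sin θ := Real.sin_pos_of_pos_of_lt_pi hθ0 hθpi
  have h2 := ray_tendsto (a := a) (b := b) hb0 (v := v) hvne hlt.le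
  have hLneg : L ≤ 0 := by
    have hre := Complex.continuous_re.continuousAt.tendsto.comp h2
    simp only [Complex.ofReal_re] at hre
    refine le_of_tendsto hre ?_
    filter_upwards [eventually_gt_atTop 0] with ρ hρ
    simp only [Function.comp]
    have ht : 0 < ((ρ:ℂ) * v).im := by
      rw [Complex.im_ofReal_mul, him]
      positivity
    have hpk : 0 ≤ (ev a ((ρ:ℂ) * v) / ev b ((ρ:ℂ) * v)).im := by
      by_cases hbz : ev b ((ρ:ℂ) * v) = 0
      · rw [hbz]
        simp
      · exact pick H ht hbz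
    rw [← hm, mul_pow, hvm]
    have e : ((ρ:ℂ)) ^ m * Complex.I = (((ρ ^ m : ℝ)) : ℂ) * Complex.I := by
      push_cast
      ring
    rw [e, mul_assoc, Complex.re_ofReal_mul, Complex.I_mul_re]
    have : 0 < ρ ^ m := by positivity
    nlinarith
  exact hLne (le_antisymm hLneg hLpos)


lemma splits_of_stab {a b : ℝ[X]} (H : Stab a b) (hc : IsCoprime a b) (ha0 : a ≠ 0) :
    a.Splits := by
  refine Splits.of_splits_map_of_injective (i := algebraMap ℝ ℂ) (algebraMap ℝ ℂ).injective
    (IsAlgClosed.splits _) ?_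
  intro t ht
  have hmap : a.map (algebraMap ℝ ℂ) ≠ 0 := by
    simpa [Polynomial.map_eq_zero] using ha0
  have h0 : (a.map (algebraMap ℝ ℂ)).eval t = 0 := (mem_roots hmap).mp ht
  have h1 : ev a t = 0 := by
    simp only [ev, aeval_def, eval₂_eq_eval_map]
    exact h0
  have him := root_real H hc ha0 h1
  refine ⟨t.re, ?_⟩
  apply Complex.ext <;> simp [him]

lemma nodup_roots_of_stab {a b : ℝ[X]} (H : Stab a b) (hc : IsCoprime a b) (ha0 : a ≠ 0) :
    a.roots.Nodup := by
  rw [Multiset.nodup_iff_count_le_one]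
  intro x
  rw [count_roots]
  by_contra hlt
  push Not at hlt
  have h2 : 2 ≤ a.rootMultiplicity x := hlt
  have hroot : a.eval x = 0 := by
    have : 0 < a.rootMultiplicity x := by omega
    exact (rootMultiplicity_pos ha0).mp this
  obtain ⟨r, hr, hr0, _⟩ := root_simple H hc ha0 hroot
  have hdvd : (X - C x) ^ 2 ∣ a := (le_rootMultiplicity_iff ha0).mp h2
  rw [hr, pow_two] at hdvd
  have hne : (X - C x : ℝ[X]) ≠ 0 := X_sub_C_ne_zero x
  have := (mul_dvd_mul_iff_left hne).mp hdvd
  exact hr0 (Polynomial.dvd_iff_isRoot.mp this)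

/-- the coprime case of the interlacing inequality -/
lemma coprime_case {a b : ℝ[X]} (H : Stab a b) (hc : IsCoprime a b)
    (hpos : ∀ t : ℝ, 0 < t → 0 < a.eval t * b.eval t) :
    (derivative a).eval 1 * b.eval 1 - a.eval 1 * (derivative b).eval 1 ≤ a.eval 1 * b.eval 1 := by
  classical
  have ha0 : a ≠ 0 := by
    rintro rfl
    have := hpos 1 one_pos
    simp at this
  have hb0 : b ≠ 0 := by
    rintro rfl
    have := hpos 1 one_pos
    simp at this
  have hsplit := splits_of_stab H hc ha0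
  have hnodup := nodup_roots_of_stab H hc ha0
  set s := a.roots.toFinset with hs
  have hcard : s.card = a.natDegree := by
    rw [hs, Multiset.toFinset_card_of_nodup hnodup, hsplit.natDegree_eq_card_roots]
  have hmem : ∀ x, x ∈ s ↔ a.eval x = 0 := by
    intro x
    rw [hs, Multiset.mem_toFinset, mem_roots ha0]
    rfl
  have hfac : ∀ x : ℝ, ∃ N : ℝ[X], x ∈ s → a = (X - C x) * N ∧ N.eval x ≠ 0 ∧
      0 < N.eval x / b.eval x := by
    intro x
    by_cases hx : x ∈ s
    · obtain ⟨r, h1, h2, h3⟩ := root_simple H hc ha0 ((hmem x).mp hx)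
      exact ⟨r, fun _ => ⟨h1, h2, h3⟩⟩
    · exact ⟨0, fun h => absurd h hx⟩
  choose N hN using hfac
  have hxle : ∀ x ∈ s, x ≤ 0 := by
    intro x hx
    by_contra h
    push Not at h
    have := hpos x h
    rw [(hmem x).mp hx] at this
    simp at this
  set w : ℝ → ℝ := fun x => b.eval x / (N x).eval x with hw
  have hwpos : ∀ x ∈ s, 0 < w x := by
    intro x hx
    obtain ⟨_, h2, h3⟩ := hN x hx
    have hb : b.eval x ≠ 0 := by
      intro h
      rw [h] at h3
      simp at h3
    have : w x = ((N x).eval x / b.eval x)⁻¹ := by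
      rw [hw]
      simp only [inv_div]
    rw [this]
    exact inv_pos.mpr h3
  -- degree of the quotient
  have hq : (b / a).degree ≤ 0 := by
    by_cases hle : a.degree ≤ b.degree
    · have h := degree_add_div ha0 hle
      have hdeg := degree_le H hb0 ha0 hpos
      by_cases hq0 : b / a = 0
      · rw [hq0]
        simp
      · rw [degree_eq_natDegree ha0, degree_eq_natDegree hq0, degree_eq_natDegree hb0] at h
        have h2 : a.natDegree + (b / a).natDegree = b.natDegree := by exact_mod_cast h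
        have h3 : (b / a).natDegree = 0 := by omega
        rw [degree_eq_natDegree hq0, h3]
        simp
    · rw [(Polynomial.div_eq_zero_iff ha0).2 (not_le.1 hle)]
      simp
  obtain ⟨c, hcq⟩ : ∃ c : ℝ, b / a = C c := ⟨_, eq_C_of_degree_le_zero hq⟩
  have hdm : a * C c + b % a = b := by
    rw [← hcq]
    exact EuclideanDomain.div_add_mod b a
  -- Lagrange
  have hdeg_s : ∀ x ∈ s, (N x).degree < s.card := by
    intro x hx
    obtain ⟨h1, _, _⟩ := hN x hx
    have hNne : N x ≠ 0 := by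
      rintro h
      rw [h] at h1
      simp at h1
      exact ha0 h1
    rw [hcard, degree_eq_natDegree hNne]
    have h2 : a.natDegree = 1 + (N x).natDegree := by
      conv_lhs => rw [h1]
      rw [natDegree_mul (X_sub_C_ne_zero x) hNne, natDegree_X_sub_C]
    have h3 : (N x).natDegree < a.natDegree := by omega
    exact_mod_cast h3
  have hrep0 : b % a - ∑ x ∈ s, C (w x) * N x = 0 := by
    apply Polynomial.eq_zero_of_degree_lt_of_eval_finset_eq_zero (s := s)
    · refine lt_of_le_of_lt (degree_sub_le _ _) (max_lt ?_ ?_)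
      · have := degree_mod_lt b ha0
        rwa [degree_eq_natDegree ha0, ← hcard] at this
      · refine lt_of_le_of_lt (degree_sum_le _ _) ?_
        rw [Finset.sup_lt_iff]
        · intro x hx
          rw [C_mul']
          exact lt_of_le_of_lt (degree_smul_le _ _) (hdeg_s x hx)
        · exact WithBot.bot_lt_coe _
    · intro x hx
      have hax := (hmem x).mp hx
      have h1 : (b % a).eval x = b.eval x := by
        conv_rhs => rw [← hdm]
        simp [hax]
      rw [eval_sub, h1, eval_finsetSum, Finset.sum_eq_single x]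
      · obtain ⟨_, h2, _⟩ := hN x hx
        simp only [eval_mul, eval_C, hw]
        field_simp
        simp
      · intro y hy hne
        obtain ⟨h3, _, _⟩ := hN y hy
        have h4 : (N y).eval x = 0 := by
          have := congrArg (fun p : ℝ[X] => p.eval x) h3
          simp only [eval_mul, eval_sub, eval_X, eval_C, hax] at this
          have h5 : x - y ≠ 0 := sub_ne_zero.mpr (Ne.symm hne)
          exact (mul_eq_zero.mp this.symm).resolve_left h5
        simp [h4]
      · intro h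
        exact absurd hx h
  have hrep : b = C c * a + ∑ x ∈ s, C (w x) * N x := by
    have h1 : b % a = ∑ x ∈ s, C (w x) * N x := sub_eq_zero.mp hrep0
    rw [← h1, mul_comm]
    exact hdm.symm
  -- c ≥ 0
  have hc0 : 0 ≤ c := by
    have hlim : Tendsto (fun t : ℝ => c + ∑ x ∈ s, w x / (t - x)) atTop (𝓝 (c + ∑ x ∈ s, 0)) := by
      apply Tendsto.add tendsto_const_nhds
      apply tendsto_finsetSum
      intro x _
      apply Tendsto.const_div_atTop
      exact tendsto_atTop_add_const_right _ _ tendsto_id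
    simp only [Finset.sum_const_zero, add_zero] at hlim
    refine ge_of_tendsto hlim ?_
    filter_upwards [eventually_gt_atTop 0] with t ht
    have hab := hpos t ht
    have hane : a.eval t ≠ 0 := by
      intro h
      rw [h] at hab
      simp at hab
    have hbt : b.eval t = c * a.eval t + ∑ x ∈ s, w x * (N x).eval t := by
      conv_lhs => rw [hrep]
      simp [eval_finsetSum]
    have hterm : ∀ x ∈ s, w x * (N x).eval t = (w x / (t - x)) * a.eval t := by
      intro x hx
      obtain ⟨h1, _, _⟩ := hN x hx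
      have hx0 := hxle x hx
      have htx : t - x ≠ 0 := by
        have : 0 < t - x := by linarith
        exact this.ne'
      have h2 : a.eval t = (t - x) * (N x).eval t := by
        conv_lhs => rw [h1]
        simp
      rw [h2]
      field_simp
    have h3 : b.eval t = (c + ∑ x ∈ s, w x / (t - x)) * a.eval t := by
      rw [hbt, add_mul, Finset.sum_mul, Finset.sum_congr rfl hterm]
    have h4 : 0 < (c + ∑ x ∈ s, w x / (t - x)) * (a.eval t) ^ 2 := by
      have : a.eval t * b.eval t = (c + ∑ x ∈ s, w x / (t - x)) * (a.eval t) ^ 2 := by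
        rw [h3]
        ring
      rw [← this]
      exact hab
    have h5 : 0 < (a.eval t) ^ 2 := by positivity
    exact ((mul_pos_iff_of_pos_right h5).mp h4).le
  -- final identity
  have hder : ∀ x ∈ s, (derivative a).eval 1 = (N x).eval 1 + (1 - x) * (derivative (N x)).eval 1 := by
    intro x hx
    obtain ⟨h1, _, _⟩ := hN x hx
    conv_lhs => rw [h1]
    simp [derivative_mul]
  have hev1 : ∀ x ∈ s, a.eval 1 = (1 - x) * (N x).eval 1 := by
    intro x hx
    obtain ⟨h1, _, _⟩ := hN x hx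
    conv_lhs => rw [h1]
    simp
  have hb1 : b.eval 1 = c * a.eval 1 + ∑ x ∈ s, w x * (N x).eval 1 := by
    conv_lhs => rw [hrep]
    simp [eval_finsetSum]
  have hb1' : (derivative b).eval 1 = c * (derivative a).eval 1
      + ∑ x ∈ s, w x * (derivative (N x)).eval 1 := by
    conv_lhs => rw [hrep]
    simp [eval_finsetSum, derivative_mul]
  have key : (derivative a).eval 1 * b.eval 1 - a.eval 1 * (derivative b).eval 1
      - a.eval 1 * b.eval 1
      = ∑ x ∈ s, w x * x * ((N x).eval 1) ^ 2 - c * (a.eval 1) ^ 2 := by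
    rw [hb1, hb1']
    have h1 : ∑ x ∈ s, w x * x * ((N x).eval 1) ^ 2
        = ∑ x ∈ s, ((derivative a).eval 1 * (w x * (N x).eval 1)
            - a.eval 1 * (w x * (derivative (N x)).eval 1)
            - a.eval 1 * (w x * (N x).eval 1)) := by
      apply Finset.sum_congr rfl
      intro x hx
      rw [hder x hx, hev1 x hx]
      ring
    rw [h1, Finset.sum_sub_distrib, Finset.sum_sub_distrib, ← Finset.mul_sum, ← Finset.mul_sum,
      ← Finset.mul_sum]
    ring
  have hneg : ∑ x ∈ s, w x * x * ((N x).eval 1) ^ 2 ≤ 0 := by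
    apply Finset.sum_nonpos
    intro x hx
    have h1 := hwpos x hx
    have h2 := hxle x hx
    have h3 : 0 ≤ ((N x).eval 1) ^ 2 := sq_nonneg _
    have h4 : w x * x ≤ 0 := mul_nonpos_of_nonneg_of_nonpos h1.le h2
    exact mul_nonpos_of_nonpos_of_nonneg h4 h3
  have hc2 : 0 ≤ c * (a.eval 1) ^ 2 := by positivity
  linarith

/-- the interlacing inequality -/
theorem wronskian_le {a b : ℝ[X]} (H : Stab a b)
    (hpos : ∀ t : ℝ, 0 < t → 0 < a.eval t * b.eval t) :
    (derivative a).eval 1 * b.eval 1 - a.eval 1 * (derivative b).eval 1 ≤ a.eval 1 * b.eval 1 := by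
  have ha0 : a ≠ 0 := by
    rintro rfl
    have := hpos 1 one_pos
    simp at this
  set G := EuclideanDomain.gcd a b with hG
  obtain ⟨a', ha'⟩ : G ∣ a := EuclideanDomain.gcd_dvd_left a b
  obtain ⟨b', hb'⟩ : G ∣ b := EuclideanDomain.gcd_dvd_right a b
  have hG0 : G ≠ 0 := by
    intro h
    rw [h, zero_mul] at ha'
    exact ha0 ha'
  have hcop : IsCoprime a' b' := by
    have hbez := EuclideanDomain.gcd_eq_gcd_ab a b
    rw [← hG] at hbez
    refine ⟨EuclideanDomain.gcdA a b, EuclideanDomain.gcdB a b, ?_⟩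
    apply mul_left_cancel₀ hG0
    calc G * (EuclideanDomain.gcdA a b * a' + EuclideanDomain.gcdB a b * b')
        = (G * a') * EuclideanDomain.gcdA a b + (G * b') * EuclideanDomain.gcdB a b := by ring
      _ = a * EuclideanDomain.gcdA a b + b * EuclideanDomain.gcdB a b := by rw [← ha', ← hb']
      _ = G := hbez.symm
      _ = G * 1 := (mul_one G).symm
  have hStab : Stab a' b' := by
    intro t z ht hz h0
    apply H t z ht hz
    rw [ha', hb']
    simp only [ev, map_mul] at h0 ⊢
    linear_combination (aeval t G) * h0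
  have hpos' : ∀ t : ℝ, 0 < t → 0 < a'.eval t * b'.eval t := by
    intro t ht
    have h1 := hpos t ht
    rw [ha', hb'] at h1
    simp only [eval_mul] at h1
    have h2 : G.eval t * a'.eval t * (G.eval t * b'.eval t)
        = (a'.eval t * b'.eval t) * (G.eval t) ^ 2 := by ring
    rw [h2] at h1
    by_contra hneg
    push Not at hneg
    have : (a'.eval t * b'.eval t) * (G.eval t) ^ 2 ≤ 0 :=
      mul_nonpos_of_nonpos_of_nonneg hneg (sq_nonneg _)
    linarith
  have hmain := coprime_case hStab hcop hpos'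
  rw [ha', hb']
  simp only [derivative_mul, eval_add, eval_mul]
  have hg : 0 ≤ (G.eval 1) ^ 2 := sq_nonneg _
  nlinarith [mul_le_mul_of_nonneg_left hmain hg]


/-- the Wronskian is nonnegative at `1` -/
theorem wronskian_nonneg {a b : ℝ[X]} (H : Stab a b) :
    0 ≤ (derivative a).eval 1 * b.eval 1 - a.eval 1 * (derivative b).eval 1 := by
  set f : ℝ → ℂ := fun ε => ev a (1 + (ε:ℂ) * Complex.I) * ev b (1 - (ε:ℂ) * Complex.I) with hf
  have hd1 : HasDerivAt (fun ε : ℝ => ev a (1 + (ε:ℂ) * Complex.I))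
      (ev (derivative a) 1 * Complex.I) 0 := by
    have h1 : HasDerivAt (fun t : ℂ => ev a t) (ev (derivative a) 1) (1 + ((0:ℝ):ℂ) * Complex.I) := by
      have := Polynomial.hasDerivAt_aeval (𝕜 := ℂ) a (1 + ((0:ℝ):ℂ) * Complex.I)
      simpa using this
    have h2 : HasDerivAt (fun ε : ℝ => 1 + (ε:ℂ) * Complex.I) Complex.I 0 := by
      have h3 : HasDerivAt (fun ε : ℝ => (ε:ℂ)) 1 0 := Complex.ofRealCLM.hasDerivAt
      simpa using (h3.mul_const Complex.I).const_add 1
    exact h1.comp_of_eq (0:ℝ) h2 rfl |>.congr_deriv (by ring)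
  have hd2 : HasDerivAt (fun ε : ℝ => ev b (1 - (ε:ℂ) * Complex.I))
      (ev (derivative b) 1 * (-Complex.I)) 0 := by
    have h1 : HasDerivAt (fun t : ℂ => ev b t) (ev (derivative b) 1) (1 - ((0:ℝ):ℂ) * Complex.I) := by
      have := Polynomial.hasDerivAt_aeval (𝕜 := ℂ) b (1 - ((0:ℝ):ℂ) * Complex.I)
      simpa using this
    have h2 : HasDerivAt (fun ε : ℝ => 1 - (ε:ℂ) * Complex.I) (-Complex.I) 0 := by
      have h3 : HasDerivAt (fun ε : ℝ => (ε:ℂ)) 1 0 := Complex.ofRealCLM.hasDerivAt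
      simpa using (h3.mul_const Complex.I).const_sub 1
    exact h1.comp_of_eq (0:ℝ) h2 rfl
  have hd := hd1.mul hd2
  have him : HasDerivAt (fun ε : ℝ => (f ε).im)
      (ev (derivative a) 1 * Complex.I * ev b (1 - ((0:ℝ):ℂ) * Complex.I)
        + ev a (1 + ((0:ℝ):ℂ) * Complex.I) * (ev (derivative b) 1 * (-Complex.I))).im 0 :=
    Complex.imCLM.hasFDerivAt.comp_hasDerivAt (0:ℝ) hd
  have hone : (1:ℂ) = ((1:ℝ):ℂ) := by simp
  have hvalue : (ev (derivative a) 1 * Complex.I * ev b (1 - ((0:ℝ):ℂ) * Complex.I)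
        + ev a (1 + ((0:ℝ):ℂ) * Complex.I) * (ev (derivative b) 1 * (-Complex.I))).im
      = (derivative a).eval 1 * b.eval 1 - a.eval 1 * (derivative b).eval 1 := by
    have e1 : (1:ℂ) - ((0:ℝ):ℂ) * Complex.I = ((1:ℝ):ℂ) := by simp
    have e2 : (1:ℂ) + ((0:ℝ):ℂ) * Complex.I = ((1:ℝ):ℂ) := by simp
    rw [e1, e2, hone, ev_real, ev_real, ev_real, ev_real]
    simp [Complex.add_im, Complex.mul_im, Complex.mul_re]
    ring
  rw [hvalue] at him
  have hslope := (hasDerivAt_iff_tendsto_slope.mp him).mono_left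
    (nhdsGT_le_nhdsNE (0:ℝ))
  refine ge_of_tendsto hslope ?_
  filter_upwards [self_mem_nhdsWithin] with ε hε
  have hε0 : (0:ℝ) < ε := hε
  have hf0 : (f 0).im = 0 := by
    simp only [hf]
    have e1 : (1:ℂ) - ((0:ℝ):ℂ) * Complex.I = ((1:ℝ):ℂ) := by simp
    have e2 : (1:ℂ) + ((0:ℝ):ℂ) * Complex.I = ((1:ℝ):ℂ) := by simp
    rw [e1, e2, ev_real, ev_real]
    simp [Complex.mul_im]
  have hfε : 0 ≤ (f ε).im := by
    simp only [hf]
    set t : ℂ := 1 + (ε:ℂ) * Complex.I with ht
    have hconj : (1:ℂ) - (ε:ℂ) * Complex.I = (starRingEnd ℂ) t := by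
      simp [ht]
      ring
    have hb : ev b ((starRingEnd ℂ) t) = (starRingEnd ℂ) (ev b t) := by
      simpa [ev] using Polynomial.aeval_conj b t
    rw [hconj, hb]
    have htim : 0 < t.im := by
      simp [ht, hε0]
    by_cases hb0 : ev b t = 0
    · rw [hb0]
      simp
    · have hp := pick H htim hb0
      have e : ev a t * (starRingEnd ℂ) (ev b t)
          = (ev a t / ev b t) * ((Complex.normSq (ev b t) : ℝ) : ℂ) := by
        rw [Complex.normSq_eq_conj_mul_self]
        field_simp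
      rw [e, Complex.im_mul_ofReal]
      exact mul_nonneg hp (Complex.normSq_nonneg _)
  simp only [slope, vsub_eq_sub, sub_zero, hf0, smul_eq_mul]
  positivity

end Crest.Agent.SRUni
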