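import Mathlib
import Crest.Prelude.Def_StronglyRayleigh
import Crest.Agent.Lib.SRUni

/-!
Strongly Rayleigh laws: negative correlation and stochastic covering for every conditioning.
Masses `m(P,Q) = ν{P true, Q false}`.
-/

open Polynomial Filter Topology MeasureTheory
open Crest.ProbabilityR.StronglyRayleigh

namespace Crest.Agent.SRCore

/-- Hurwitz in one variable. -/
lemma hurwitz_aux (Ψ : ℝ → ℂ → ℂ) (hcont : Continuous (fun p : ℝ × ℂ => Ψ p.1 p.2))
    (hdiff : ∀ ε, Differentiable ℂ (Ψ ε))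
    (hnz : ∀ ε > 0, ∀ t : ℂ, 0 < t.im → Ψ ε t ≠ 0)
    (r : ℂ[X]) (hr : r ≠ 0) (h0 : ∀ t, Ψ 0 t = r.eval t) :
    ∀ t : ℂ, 0 < t.im → r.eval t ≠ 0 := by
  intro t0 ht0 hroot
  -- choose a radius avoiding the roots
  have hfin : (r.roots.toFinset.image (fun x => ‖x - t0‖) : Set ℝ).Finite := Finset.finite_toSet _
  have hinf : (Set.Ioo (0:ℝ) t0.im).Infinite := Set.Ioo_infinite ht0
  obtain ⟨ρ, hρ, hρ'⟩ := (hinf.sdiff hfin).nonempty
  have hρ0 : 0 < ρ := hρ.1
  have hρ1 : ρ < t0.im := hρ.2
  have hball : ∀ t ∈ Metric.closedBall t0 ρ, 0 < t.im := by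
    intro t ht
    have h1 : |t.im - t0.im| ≤ ‖t - t0‖ := by
      have := Complex.abs_im_le_norm (t - t0)
      simpa using this
    have h2 : ‖t - t0‖ ≤ ρ := by simpa [dist_eq_norm] using ht
    have h3 := abs_le.mp (h1.trans h2)
    linarith [h3.1]
  have hsphere : ∀ t ∈ Metric.sphere t0 ρ, r.eval t ≠ 0 := by
    intro t ht hzero
    apply hρ'
    have h1 : t ∈ r.roots.toFinset := by
      rw [Multiset.mem_toFinset, mem_roots hr]
      exact hzero
    have h2 : ‖t - t0‖ = ρ := by simpa [dist_eq_norm] using ht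
    simp only [Finset.coe_image, Set.mem_image, Finset.mem_coe]
    exact ⟨t, h1, h2⟩
  have hsph_ne : (Metric.sphere t0 ρ).Nonempty := NormedSpace.sphere_nonempty.mpr hρ0.le
  obtain ⟨t1, ht1, hmin⟩ := (isCompact_sphere t0 ρ).exists_isMinOn hsph_ne
    (r.continuous.norm.continuousOn)
  set δ := ‖r.eval t1‖ with hδ
  have hδ0 : 0 < δ := norm_pos_iff.mpr (hsphere t1 ht1)
  -- tube lemma
  have hopen : IsOpen {p : ℝ × ℂ | ‖Ψ p.1 p.2 - Ψ 0 p.2‖ < δ / 2} := by
    have : Continuous (fun p : ℝ × ℂ => ‖Ψ p.1 p.2 - Ψ 0 p.2‖) := by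
      apply Continuous.norm
      apply Continuous.sub hcont
      exact hcont.comp (continuous_const.prodMk continuous_snd)
    exact isOpen_lt this continuous_const
  have hsub : ({0} : Set ℝ) ×ˢ Metric.closedBall t0 ρ ⊆
      {p : ℝ × ℂ | ‖Ψ p.1 p.2 - Ψ 0 p.2‖ < δ / 2} := by
    rintro ⟨x, y⟩ ⟨hx, _⟩
    have hx' : x = 0 := hx
    subst hx'
    simp [hδ0]
  obtain ⟨u, v, hu, hv, hsu, hsv, huv⟩ := generalized_tube_lemma isCompact_singleton
    (isCompact_closedBall t0 ρ) hopen hsub
  obtain ⟨η, hη, hηu⟩ := Metric.isOpen_iff.mp hu 0 (hsu rfl)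
  set ε := η / 2 with hε
  have hε0 : 0 < ε := by positivity
  have hεu : ε ∈ u := hηu (by
    rw [Metric.mem_ball, Real.dist_eq, sub_zero, abs_of_pos hε0, hε]
    linarith)
  have hclose : ∀ t ∈ Metric.closedBall t0 ρ, ‖Ψ ε t - r.eval t‖ < δ / 2 := by
    intro t ht
    have := huv (Set.mk_mem_prod hεu (hsv ht))
    simpa [h0] using this
  -- maximum modulus applied to the reciprocal
  have hne : ∀ t ∈ Metric.closedBall t0 ρ, Ψ ε t ≠ 0 := fun t ht => hnz ε hε0 t (hball t ht)
  have hd : DiffContOnCl ℂ (fun t => (Ψ ε t)⁻¹) (Metric.ball t0 ρ) := by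
    have hdo : DifferentiableOn ℂ (fun t => (Ψ ε t)⁻¹) (Metric.closedBall t0 ρ) :=
      ((hdiff ε).differentiableOn).inv hne
    exact hdo.diffContOnCl_ball (Set.Subset.refl _)
  have hC : ∀ z ∈ frontier (Metric.ball t0 ρ), ‖(Ψ ε z)⁻¹‖ ≤ (δ / 2)⁻¹ := by
    intro z hz
    rw [frontier_ball t0 hρ0.ne'] at hz
    have hzb : z ∈ Metric.closedBall t0 ρ := Metric.sphere_subset_closedBall hz
    have h1 := hclose z hzb
    have h2 : δ ≤ ‖r.eval z‖ := hmin hz
    have h3 : δ / 2 ≤ ‖Ψ ε z‖ := by
      have := norm_sub_norm_le (r.eval z) (Ψ ε z)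
      rw [norm_sub_rev] at this
      linarith
    rw [norm_inv]
    exact inv_anti₀ (by positivity) h3
  have hcenter := Complex.norm_le_of_forall_mem_frontier_norm_le Metric.isBounded_ball hd hC
    (subset_closure (Metric.mem_ball_self hρ0))
  have h4 : ‖Ψ ε t0‖ < δ / 2 := by
    have := hclose t0 (Metric.mem_closedBall_self hρ0.le)
    rwa [hroot, sub_zero] at this
  rw [norm_inv] at hcenter
  have h5 : 0 < ‖Ψ ε t0‖ := norm_pos_iff.mpr (hne t0 (Metric.mem_closedBall_self hρ0.le))
  have h6 := inv_lt_inv₀ (by positivity : 0 < δ / 2) h5 |>.mpr h4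
  linarith


section Masses

set_option linter.unusedSectionVars false

variable {ι : Type*} [DecidableEq ι]

/-- the cell of a subset `S` of `F` -/
def cell (F S : Finset ι) : Set (ι → Bool) := {ω | ∀ i ∈ F, (ω i = true ↔ i ∈ S)}

/-- the cylinder `P` true, `Q` false -/
def cyl (P Q : Finset ι) : Set (ι → Bool) := {ω | (∀ i ∈ P, ω i = true) ∧ (∀ i ∈ Q, ω i = false)}

/-- the mass of a cylinder -/
noncomputable def mass (ν : Measure (ι → Bool)) (P Q : Finset ι) : ℝ := (ν (cyl P Q)).toReal

/-- the mass of a cell -/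
noncomputable def cmass (ν : Measure (ι → Bool)) (F S : Finset ι) : ℝ := (ν (cell F S)).toReal

lemma measurableSet_cell (F S : Finset ι) : MeasurableSet (cell F S) := by
  have : cell F S = ⋂ i ∈ F, {ω : ι → Bool | ω i = true ↔ i ∈ S} := by
    ext ω
    simp [cell]
  rw [this]
  apply Finset.measurableSet_biInter
  intro i _
  have h : {ω : ι → Bool | ω i = true ↔ i ∈ S} = (fun ω : ι → Bool => ω i) ⁻¹' {b | b = true ↔ i ∈ S} := rfl
  rw [h]
  exact (measurable_pi_apply i) (MeasurableSet.of_discrete)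

lemma measurableSet_cyl (P Q : Finset ι) : MeasurableSet (cyl P Q) := by
  have : cyl P Q = (⋂ i ∈ P, {ω : ι → Bool | ω i = true}) ∩ (⋂ i ∈ Q, {ω : ι → Bool | ω i = false}) := by
    ext ω
    simp [cyl]
  rw [this]
  apply MeasurableSet.inter
  · apply Finset.measurableSet_biInter
    intro i _
    have h : {ω : ι → Bool | ω i = true} = (fun ω : ι → Bool => ω i) ⁻¹' {b | b = true} := rfl
    rw [h]
    exact (measurable_pi_apply i) (MeasurableSet.of_discrete)
  · apply Finset.measurableSet_biInter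
    intro i _
    have h : {ω : ι → Bool | ω i = false} = (fun ω : ι → Bool => ω i) ⁻¹' {b | b = false} := rfl
    rw [h]
    exact (measurable_pi_apply i) (MeasurableSet.of_discrete)

lemma cmass_nonneg (ν : Measure (ι → Bool)) (F S : Finset ι) : 0 ≤ cmass ν F S := ENNReal.toReal_nonneg

lemma mass_nonneg (ν : Measure (ι → Bool)) (P Q : Finset ι) : 0 ≤ mass ν P Q := ENNReal.toReal_nonneg

/-- a cylinder with index set inside `F` is a disjoint union of cells -/
lemma mass_eq_sum (ν : Measure (ι → Bool)) [IsFiniteMeasure ν] (F A B : Finset ι) (hA : A ⊆ F) (hB : B ⊆ F) :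
    mass ν A B = ∑ S ∈ F.powerset, if A ⊆ S ∧ Disjoint S B then cmass ν F S else 0 := by
  classical
  have hU : cyl A B = ⋃ S ∈ (F.powerset.filter (fun S => A ⊆ S ∧ Disjoint S B)), cell F S := by
    ext ω
    simp only [cyl, Set.mem_ofPred_eq, Set.mem_iUnion, cell, Finset.mem_filter, Finset.mem_powerset, exists_prop]
    constructor
    · rintro ⟨h1, h2⟩
      refine ⟨F.filter (fun i => ω i = true), ⟨Finset.filter_subset _ _, ?_, ?_⟩, ?_⟩
      · intro i hi
        exact Finset.mem_filter.mpr ⟨hA hi, h1 i hi⟩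
      · rw [Finset.disjoint_left]
        intro i hi hi2
        have := (Finset.mem_filter.mp hi).2
        rw [h2 i hi2] at this
        simp at this
      · intro i hi
        simp [hi]
    · rintro ⟨S, ⟨hS, h1, h2⟩, h3⟩
      refine ⟨fun i hi => (h3 i (hA hi)).mpr (h1 hi), fun i hi => ?_⟩
      have hnS : i ∉ S := fun h => (Finset.disjoint_left.mp h2) h hi
      have := h3 i (hB hi)
      cases hω : ω i
      · rfl
      · rw [hω] at this
        exact absurd (this.mp rfl) hnS
  have hdisj : (↑(F.powerset.filter (fun S => A ⊆ S ∧ Disjoint S B)) : Set (Finset ι)).PairwiseDisjoint (fun S => cell F S) := by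
    intro S hS T hT hne
    have hS' := (Finset.mem_powerset.mp (Finset.mem_filter.mp hS).1)
    have hT' := (Finset.mem_powerset.mp (Finset.mem_filter.mp hT).1)
    rw [Function.onFun, Set.disjoint_left]
    intro ω h1 h2
    apply hne
    ext i
    constructor
    · intro hi
      exact (h2 i (hS' hi)).mp ((h1 i (hS' hi)).mpr hi)
    · intro hi
      exact (h1 i (hT' hi)).mp ((h2 i (hT' hi)).mpr hi)
  unfold mass
  rw [hU, measure_biUnion_finset hdisj (fun S _ => measurableSet_cell F S),
    ENNReal.toReal_sum (fun S _ => measure_ne_top _ _), Finset.sum_filter]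
  rfl

/-- `mass` is additive in a further site -/
lemma mass_add (ν : Measure (ι → Bool)) [IsFiniteMeasure ν] (P Q : Finset ι) (g : ι) :
    mass ν P Q = mass ν (insert g P) Q + mass ν P (insert g Q) := by
  unfold mass
  rw [← ENNReal.toReal_add (measure_ne_top _ _) (measure_ne_top _ _),
    ← measure_union _ (measurableSet_cyl _ _)]
  · congr 2
    ext ω
    simp only [cyl, Set.mem_ofPred_eq, Set.mem_union, Finset.mem_insert, forall_eq_or_imp]
    cases hω : ω g
    · simp
    · simp
  · rw [Set.disjoint_left]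
    rintro ω ⟨h1, _⟩ ⟨_, h3⟩
    have h4 := h1 g (Finset.mem_insert_self g P)
    have h5 := h3 g (Finset.mem_insert_self g Q)
    rw [h4] at h5
    simp at h5


/-- the filtered polynomial -/
noncomputable def fpoly (ν : Measure (ι → Bool)) (F A B J : Finset ι) : ℝ[X] :=
  ∑ S ∈ F.powerset, if A ⊆ S ∧ Disjoint S B then C (cmass ν F S) * X ^ (S ∩ J).card else 0

lemma fpoly_eval_one (ν : Measure (ι → Bool)) [IsFiniteMeasure ν] (F A B J : Finset ι)
    (hA : A ⊆ F) (hB : B ⊆ F) : (fpoly ν F A B J).eval 1 = mass ν A B := by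
  rw [mass_eq_sum ν F A B hA hB, fpoly, eval_finsetSum]
  apply Finset.sum_congr rfl
  intro S _
  split_ifs <;> simp

lemma fpoly_eval_nonneg (ν : Measure (ι → Bool)) (F A B J : Finset ι) {t : ℝ} (ht : 0 ≤ t) :
    0 ≤ (fpoly ν F A B J).eval t := by
  rw [fpoly, eval_finsetSum]
  apply Finset.sum_nonneg
  intro S _
  split_ifs
  · simp only [eval_mul, eval_C, eval_pow, eval_X]
    exact mul_nonneg (cmass_nonneg _ _ _) (pow_nonneg ht _)
  · simp

lemma fpoly_eval_pos (ν : Measure (ι → Bool)) [IsFiniteMeasure ν] (F A B J : Finset ι)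
    (hA : A ⊆ F) (hB : B ⊆ F) (hm : 0 < mass ν A B) {t : ℝ} (ht : 0 < t) :
    0 < (fpoly ν F A B J).eval t := by
  rw [mass_eq_sum ν F A B hA hB] at hm
  obtain ⟨S, hS, hSpos⟩ := Finset.exists_lt_of_sum_lt (f := fun _ => (0:ℝ)) (s := F.powerset)
    (by simpa using hm)
  rw [fpoly, eval_finsetSum]
  apply Finset.sum_pos'
  · intro S' _
    split_ifs
    · simp only [eval_mul, eval_C, eval_pow, eval_X]
      exact mul_nonneg (cmass_nonneg _ _ _) (pow_nonneg ht.le _)
    · simp
  · refine ⟨S, hS, ?_⟩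
    by_cases hc : A ⊆ S ∧ Disjoint S B
    · rw [if_pos hc] at hSpos ⊢
      simp only [eval_mul, eval_C, eval_pow, eval_X]
      exact mul_pos hSpos (pow_pos ht _)
    · rw [if_neg hc] at hSpos
      exact absurd hSpos (lt_irrefl _)

lemma fpoly_deriv_eval_one (ν : Measure (ι → Bool)) [IsFiniteMeasure ν] (F A B J : Finset ι)
    (hA : A ⊆ F) (hB : B ⊆ F) (hJ : J ⊆ F) :
    (derivative (fpoly ν F A B J)).eval 1 = ∑ f ∈ J, mass ν (insert f A) B := by
  have h1 : ∀ f ∈ J, mass ν (insert f A) B
      = ∑ S ∈ F.powerset, if f ∈ S ∧ A ⊆ S ∧ Disjoint S B then cmass ν F S else 0 := by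
    intro f hf
    rw [mass_eq_sum ν F (insert f A) B (Finset.insert_subset (hJ hf) hA) hB]
    apply Finset.sum_congr rfl
    intro S _
    simp only [Finset.insert_subset_iff, and_assoc]
  rw [Finset.sum_congr rfl h1, Finset.sum_comm, fpoly, derivative_sum, eval_finsetSum]
  apply Finset.sum_congr rfl
  intro S _
  by_cases hc : A ⊆ S ∧ Disjoint S B
  · rw [if_pos hc]
    have hcount : ∑ f ∈ J, (if f ∈ S ∧ A ⊆ S ∧ Disjoint S B then cmass ν F S else 0)
        = ((S ∩ J).card : ℝ) * cmass ν F S := by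
      have : ∀ f ∈ J, (if f ∈ S ∧ A ⊆ S ∧ Disjoint S B then cmass ν F S else 0)
          = (if f ∈ S then cmass ν F S else 0) := by
        intro f _
        simp only [hc.1, hc.2, and_self, and_true]
      have hf : J.filter (fun f => f ∈ S) = S ∩ J := by
        ext x
        simp [and_comm]
      rw [Finset.sum_congr rfl this, ← Finset.sum_filter, Finset.sum_const, nsmul_eq_mul, hf]
    rw [hcount]
    simp only [derivative_mul, derivative_C, zero_mul, zero_add, derivative_X_pow, eval_mul,
      eval_C, eval_pow, eval_X, one_pow, mul_one]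
    ring
  · rw [if_neg hc]
    have : ∀ f ∈ J, (if f ∈ S ∧ A ⊆ S ∧ Disjoint S B then cmass ν F S else 0) = 0 := by
      intro f _
      rw [if_neg]
      exact fun h => hc h.2
    rw [Finset.sum_eq_zero this]
    simp

/-- numerator factors -/
noncomputable def facU (P Q J : Finset ι) (z0 : ℂ) (ε : ℝ) (t : ℂ) (i : ι) : ℂ :=
  if i ∈ P then 1 else if i ∈ Q then Complex.I * (ε:ℂ) else if i ∈ J then t else z0

/-- denominator factors -/
noncomputable def facV (P : Finset ι) (ε : ℝ) (i : ι) : ℂ :=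
  if i ∈ P then -Complex.I * (ε:ℂ) else 1

/-- the interpolating function -/
noncomputable def Psi (ν : Measure (ι → Bool)) (F P Q J : Finset ι) (z0 : ℂ) (ε : ℝ) (t : ℂ) : ℂ :=
  ∑ S ∈ F.powerset, (cmass ν F S : ℂ) * ((∏ i ∈ S, facU P Q J z0 ε t i) * ∏ i ∈ F \ S, facV P ε i)

lemma Psi_continuous (ν : Measure (ι → Bool)) (F P Q J : Finset ι) (z0 : ℂ) :
    Continuous (fun p : ℝ × ℂ => Psi ν F P Q J z0 p.1 p.2) := by
  unfold Psi
  refine continuous_finsetSum _ fun S _ => ?_
  refine continuous_const.mul (Continuous.mul ?_ ?_)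
  · refine continuous_finsetProd _ fun i _ => ?_
    unfold facU
    split_ifs <;> fun_prop
  · refine continuous_finsetProd _ fun i _ => ?_
    unfold facV
    split_ifs <;> fun_prop

lemma Psi_differentiable (ν : Measure (ι → Bool)) (F P Q J : Finset ι) (z0 : ℂ) (ε : ℝ) :
    Differentiable ℂ (Psi ν F P Q J z0 ε) := by
  unfold Psi
  refine Differentiable.fun_sum fun S _ => ?_
  refine (differentiable_const _).mul (Differentiable.mul ?_ (differentiable_const _))
  refine Differentiable.fun_finsetProd fun i _ => ?_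
  unfold facU
  split_ifs <;> fun_prop

lemma Psi_ne_zero {ν : Measure (ι → Bool)} (hsr : IsStronglyRayleigh ν)
    {F P Q J : Finset ι} {z0 : ℂ} (hz0 : 0 < z0.im)
    {ε : ℝ} (hε : 0 < ε) {t : ℂ} (ht : 0 < t.im) : Psi ν F P Q J z0 ε t ≠ 0 := by
  have hV : ∀ i, facV P ε i ≠ 0 := by
    intro i
    unfold facV
    split_ifs
    · have : (ε:ℂ) ≠ 0 := by exact_mod_cast hε.ne'
      simp [this]
    · exact one_ne_zero
  set ζ : ι → ℂ := fun i => facU P Q J z0 ε t i / facV P ε i with hζ
  have hIm : ∀ i ∈ F, 0 < (ζ i).im := by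
    intro i hi
    by_cases h1 : i ∈ P
    · have : ζ i = Complex.I * ((ε⁻¹ : ℝ) : ℂ) := by
        simp only [hζ, facU, facV, if_pos h1]
        have h2 : (ε:ℂ) ≠ 0 := by exact_mod_cast hε.ne'
        push_cast
        field_simp
        simp
      rw [this]
      simp [hε]
    · by_cases h2 : i ∈ Q
      · have : ζ i = Complex.I * (ε : ℂ) := by
          simp [hζ, facU, facV, h1, h2]
        rw [this]
        simp [hε]
      · by_cases h3 : i ∈ J
        · have : ζ i = t := by
            simp [hζ, facU, facV, h1, h2, h3]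
          rw [this]
          exact ht
        · have : ζ i = z0 := by
            simp [hζ, facU, facV, h1, h2, h3]
          rw [this]
          exact hz0
  have hgp := hsr F ζ hIm
  have hprod : ∏ i ∈ F, facV P ε i ≠ 0 := Finset.prod_ne_zero_iff.mpr fun i _ => hV i
  have heq : Psi ν F P Q J z0 ε t = (∏ i ∈ F, facV P ε i) * genPoly ν F ζ := by
    unfold Psi genPoly
    rw [Finset.mul_sum]
    apply Finset.sum_congr rfl
    intro S hS
    have hSF := Finset.mem_powerset.mp hS
    have h1 : ∏ i ∈ F, facV P ε i = (∏ i ∈ F \ S, facV P ε i) * ∏ i ∈ S, facV P ε i :=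
      (Finset.prod_sdiff hSF).symm
    have h2 : ∏ i ∈ S, ζ i = (∏ i ∈ S, facU P Q J z0 ε t i) / ∏ i ∈ S, facV P ε i := by
      simp only [hζ]
      rw [Finset.prod_div_distrib]
    have h3 : ∏ i ∈ S, facV P ε i ≠ 0 := Finset.prod_ne_zero_iff.mpr fun i _ => hV i
    rw [h1, h2]
    simp only [cmass, cell]
    field_simp
  rw [heq]
  exact mul_ne_zero hprod hgp

lemma Psi_zero (ν : Measure (ι → Bool)) {F P Q J : Finset ι} {g : ι}
    (hF : F = P ∪ Q ∪ J ∪ {g}) (hPQ : Disjoint P Q) (hPJ : Disjoint P J)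
    (hgP : g ∉ P) (hgQ : g ∉ Q) (hgJ : g ∉ J) (z0 t : ℂ) :
    Psi ν F P Q J z0 0 t =
      (((fpoly ν F P (insert g Q) J).map (algebraMap ℝ ℂ))
        + C z0 * ((fpoly ν F (insert g P) Q J).map (algebraMap ℝ ℂ))).eval t := by
  unfold Psi fpoly
  simp only [Polynomial.map_sum, eval_add, eval_mul, eval_C, eval_finsetSum, Finset.mul_sum,
    ← Finset.sum_add_distrib]
  apply Finset.sum_congr rfl
  intro S hS
  have hSF := Finset.mem_powerset.mp hS
  by_cases hPS : P ⊆ S
  · by_cases hQS : Disjoint S Q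
    · -- the surviving terms
      have hV1 : ∏ i ∈ F \ S, facV P 0 i = 1 := by
        apply Finset.prod_eq_one
        intro i hi
        have : i ∉ P := fun h => (Finset.mem_sdiff.mp hi).2 (hPS h)
        simp [facV, this]
      have hU1 : ∏ i ∈ S, facU P Q J z0 0 t i = t ^ (S ∩ J).card * (if g ∈ S then z0 else 1) := by
        have hterm : ∀ i ∈ S, facU P Q J z0 0 t i
            = (if i ∈ J then t else 1) * (if i = g then z0 else 1) := by
          intro i hi
          have hiF := hSF hi
          have hiQ : i ∉ Q := Finset.disjoint_left.mp hQS hi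
          by_cases h1 : i ∈ P
          · have h2 : i ∉ J := Finset.disjoint_left.mp hPJ h1
            have h3 : i ≠ g := fun h => hgP (h ▸ h1)
            simp [facU, h1, h2, h3]
          · by_cases h2 : i ∈ J
            · have h3 : i ≠ g := fun h => hgJ (h ▸ h2)
              simp [facU, h1, h2, h3, hiQ]
            · have h3 : i = g := by
                rw [hF] at hiF
                simp only [Finset.mem_union, Finset.mem_singleton] at hiF
                tauto
              simp [facU, h3, hgQ, hgP, hgJ]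
        rw [Finset.prod_congr rfl hterm, Finset.prod_mul_distrib, Finset.prod_ite_eq']
        congr 1
        rw [Finset.prod_ite, Finset.prod_const_one, mul_one, Finset.prod_const]
        have hf : S.filter (fun i => i ∈ J) = S ∩ J := by
          ext x
          simp
        rw [hf]
      rw [hV1, hU1, mul_one]
      by_cases hgS : g ∈ S
      · have hc1 : ¬ (P ⊆ S ∧ Disjoint S (insert g Q)) := by
          rintro ⟨_, h⟩
          exact Finset.disjoint_left.mp h hgS (Finset.mem_insert_self g Q)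
        have hc2 : insert g P ⊆ S ∧ Disjoint S Q := ⟨Finset.insert_subset hgS hPS, hQS⟩
        rw [if_pos hgS, if_neg hc1, if_pos hc2]
        simp
        ring
      · have hc1 : P ⊆ S ∧ Disjoint S (insert g Q) := by
          refine ⟨hPS, ?_⟩
          rw [Finset.disjoint_insert_right]
          exact ⟨hgS, hQS⟩
        have hc2 : ¬ (insert g P ⊆ S ∧ Disjoint S Q) := by
          rintro ⟨h, _⟩
          exact hgS (h (Finset.mem_insert_self g P))
        rw [if_neg hgS, if_pos hc1, if_neg hc2]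
        simp
    · obtain ⟨i, hi1, hi2⟩ := Finset.not_disjoint_iff.mp hQS
      have hc1 : ¬ (P ⊆ S ∧ Disjoint S (insert g Q)) := by
        rintro ⟨_, h⟩
        exact Finset.disjoint_left.mp h hi1 (Finset.mem_insert_of_mem hi2)
      have hc2 : ¬ (insert g P ⊆ S ∧ Disjoint S Q) := fun h => hQS h.2
      rw [if_neg hc1, if_neg hc2]
      have hiP : i ∉ P := fun h => (Finset.disjoint_left.mp hPQ h) hi2
      have : ∏ i ∈ S, facU P Q J z0 0 t i = 0 := by
        apply Finset.prod_eq_zero hi1
        simp [facU, hiP, hi2]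
      rw [this]
      simp
  · obtain ⟨i, hi1, hi2⟩ := Finset.not_subset.mp hPS
    have hc1 : ¬ (P ⊆ S ∧ Disjoint S (insert g Q)) := fun h => hPS h.1
    have hc2 : ¬ (insert g P ⊆ S ∧ Disjoint S Q) := fun h =>
      hPS ((Finset.subset_insert g P).trans h.1)
    rw [if_neg hc1, if_neg hc2]
    have hiF : i ∈ F := by
      rw [hF]
      simp [hi1]
    have : ∏ i ∈ F \ S, facV P 0 i = 0 := by
      apply Finset.prod_eq_zero (Finset.mem_sdiff.mpr ⟨hiF, hi2⟩)
      simp [facV, hi1]
    rw [this]
    simp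


open Crest.Agent.SRUni in
/-- the two conditional polynomials are stable -/
theorem stab_of_sr {ν : Measure (ι → Bool)} [IsFiniteMeasure ν] (hsr : IsStronglyRayleigh ν)
    {P Q J : Finset ι} {g : ι} (hPQ : Disjoint P Q) (hPJ : Disjoint P J)
    (hgP : g ∉ P) (hgQ : g ∉ Q) (hgJ : g ∉ J) (hpos : 0 < mass ν P Q) :
    Stab (fpoly ν (P ∪ Q ∪ J ∪ {g}) P (insert g Q) J)
      (fpoly ν (P ∪ Q ∪ J ∪ {g}) (insert g P) Q J) := by
  intro t z ht hz
  set F := P ∪ Q ∪ J ∪ {g} with hF
  have hsP : P ⊆ F := by intro x hx; simp [hF, hx]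
  have hsQ : Q ⊆ F := by intro x hx; simp [hF, hx]
  have hgF : g ∈ F := by simp [hF]
  set a := fpoly ν F P (insert g Q) J with ha
  set b := fpoly ν F (insert g P) Q J with hb
  set r : ℂ[X] := a.map (algebraMap ℝ ℂ) + C z * b.map (algebraMap ℝ ℂ) with hr
  have hrev : ∀ w : ℂ, r.eval w = ev a w + z * ev b w := by
    intro w
    simp only [hr, eval_add, eval_mul, eval_C, ev, aeval_def, eval₂_eq_eval_map]
  have ha1 : a.eval 1 = mass ν P (insert g Q) :=
    fpoly_eval_one ν F _ _ J hsP (Finset.insert_subset hgF hsQ)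
  have hb1 : b.eval 1 = mass ν (insert g P) Q :=
    fpoly_eval_one ν F _ _ J (Finset.insert_subset hgF hsP) hsQ
  have hr0 : r ≠ 0 := by
    intro h0
    have h1 := hrev ((1:ℝ):ℂ)
    rw [h0, ev_real, ev_real, ha1, hb1] at h1
    simp only [eval_zero] at h1
    have him := congrArg Complex.im h1
    simp only [Complex.zero_im, Complex.add_im, Complex.ofReal_im, zero_add, Complex.mul_im,
      Complex.ofReal_re, Complex.ofReal_im, mul_zero] at him
    have hz' : z.im ≠ 0 := hz.ne'
    have hb2 : mass ν (insert g P) Q = 0 := by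
      have : z.im * mass ν (insert g P) Q = 0 := by linarith
      exact (mul_eq_zero.mp this).resolve_left hz'
    have hre := congrArg Complex.re h1
    simp only [Complex.zero_re, Complex.add_re, Complex.ofReal_re, Complex.mul_re,
      Complex.ofReal_im, mul_zero, sub_zero, hb2] at hre
    have hadd := mass_add ν P Q g
    simp at hre
    rw [hb2] at hadd
    linarith
  have := hurwitz_aux (Psi ν F P Q J z) (Psi_continuous ν F P Q J z)
    (Psi_differentiable ν F P Q J z)
    (fun ε hε t ht => Psi_ne_zero hsr hz hε ht) r hr0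
    (fun w => Psi_zero ν (g := g) hF hPQ hPJ hgP hgQ hgJ z w) t ht
  rwa [hrev] at this

lemma mass_insert_le_left (ν : Measure (ι → Bool)) [IsFiniteMeasure ν] (P Q : Finset ι) (f : ι) :
    mass ν (insert f P) Q ≤ mass ν P Q := by
  have := mass_add ν P Q f
  have h2 := mass_nonneg ν P (insert f Q)
  linarith

lemma mass_insert_le_right (ν : Measure (ι → Bool)) [IsFiniteMeasure ν] (P Q : Finset ι) (f : ι) :
    mass ν P (insert f Q) ≤ mass ν P Q := by
  have := mass_add ν P Q f
  have h2 := mass_nonneg ν (insert f P) Q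
  linarith

open Crest.Agent.SRUni in
/-- the basic evaluation package -/
lemma wron_data {ν : Measure (ι → Bool)} [IsFiniteMeasure ν]
    {P Q J : Finset ι} {g : ι} :
    let F := P ∪ Q ∪ J ∪ {g}
    let a := fpoly ν F P (insert g Q) J
    let b := fpoly ν F (insert g P) Q J
    a.eval 1 = mass ν P (insert g Q) ∧ b.eval 1 = mass ν (insert g P) Q ∧
    (derivative a).eval 1 = ∑ f ∈ J, mass ν (insert f P) (insert g Q) ∧
    (derivative b).eval 1 = ∑ f ∈ J, mass ν (insert f (insert g P)) Q := by
  intro F a b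
  have hsP : P ⊆ F := by intro x hx; simp [F, hx]
  have hsQ : Q ⊆ F := by intro x hx; simp [F, hx]
  have hsJ : J ⊆ F := by intro x hx; simp [F, hx]
  have hgF : g ∈ F := by simp [F]
  exact ⟨fpoly_eval_one ν F _ _ J hsP (Finset.insert_subset hgF hsQ),
    fpoly_eval_one ν F _ _ J (Finset.insert_subset hgF hsP) hsQ,
    fpoly_deriv_eval_one ν F _ _ J hsP (Finset.insert_subset hgF hsQ) hsJ,
    fpoly_deriv_eval_one ν F _ _ J (Finset.insert_subset hgF hsP) hsQ hsJ⟩

open Crest.Agent.SRUni in
/-- negative correlation in mass form, split on `g` -/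
theorem mass_cross_nonneg {ν : Measure (ι → Bool)} [IsFiniteMeasure ν] (hsr : IsStronglyRayleigh ν)
    {P Q : Finset ι} {f g : ι} (hPQ : Disjoint P Q) (hfP : f ∉ P) (hgP : g ∉ P)
    (hgQ : g ∉ Q) (hfg : f ≠ g) :
    mass ν (insert f (insert g P)) Q * mass ν P (insert g Q)
      ≤ mass ν (insert f P) (insert g Q) * mass ν (insert g P) Q := by
  by_cases hm : mass ν P Q = 0
  · have h1 : mass ν P (insert g Q) = 0 :=
      le_antisymm (hm ▸ mass_insert_le_right ν P Q g) (mass_nonneg _ _ _)
    rw [h1, mul_zero]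
    exact mul_nonneg (mass_nonneg _ _ _) (mass_nonneg _ _ _)
  · have hpos : 0 < mass ν P Q := lt_of_le_of_ne (mass_nonneg _ _ _) (Ne.symm hm)
    have hPJ : Disjoint P {f} := by simpa using hfP
    have hgJ : g ∉ ({f} : Finset ι) := by simpa using hfg.symm
    have hS := stab_of_sr hsr hPQ hPJ hgP hgQ hgJ hpos
    obtain ⟨h1, h2, h3, h4⟩ := wron_data (ν := ν) (P := P) (Q := Q) (J := {f}) (g := g)
    have hW := wronskian_nonneg hS
    rw [h1, h2, h3, h4] at hW
    simp only [Finset.sum_singleton] at hW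
    linarith

/-- negative correlation in mass form for every conditioning -/
theorem mass_nc {ν : Measure (ι → Bool)} [IsFiniteMeasure ν] (hsr : IsStronglyRayleigh ν)
    {P Q : Finset ι} {f g : ι} (hPQ : Disjoint P Q) (hfP : f ∉ P) (hgP : g ∉ P)
    (hgQ : g ∉ Q) (hfg : f ≠ g) :
    mass ν (insert f (insert g P)) Q * mass ν P Q ≤ mass ν (insert f P) Q * mass ν (insert g P) Q := by
  have h := mass_cross_nonneg hsr hPQ hfP hgP hgQ hfg
  have h1 := mass_add ν P Q g
  have h2 := mass_add ν (insert f P) Q g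
  rw [Finset.insert_comm] at h2
  rw [h1, h2]
  nlinarith

open Crest.Agent.SRUni in
/-- stochastic covering in mass form for every conditioning -/
theorem mass_row {ν : Measure (ι → Bool)} [IsFiniteMeasure ν] (hsr : IsStronglyRayleigh ν)
    {P Q J : Finset ι} {g : ι} (hPQ : Disjoint P Q) (hPJ : Disjoint P J)
    (hgP : g ∉ P) (hgQ : g ∉ Q) (hgJ : g ∉ J) :
    ∑ f ∈ J, |mass ν (insert f (insert g P)) Q * mass ν P (insert g Q)
        - mass ν (insert f P) (insert g Q) * mass ν (insert g P) Q|
      ≤ mass ν (insert g P) Q * mass ν P (insert g Q) := by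
  set A0 := mass ν P (insert g Q) with hA0
  set A1 := mass ν (insert g P) Q with hA1
  have hA0n : 0 ≤ A0 := mass_nonneg _ _ _
  have hA1n : 0 ≤ A1 := mass_nonneg _ _ _
  by_cases hz : A0 = 0 ∨ A1 = 0
  · rw [Finset.sum_eq_zero]
    · exact mul_nonneg hA1n hA0n
    · intro f _
      rcases hz with h | h
      · have h1 : mass ν (insert f P) (insert g Q) = 0 := by
          have h3 : mass ν (insert f P) (insert g Q) ≤ A0 := mass_insert_le_left ν _ _ f
          rw [h] at h3
          exact le_antisymm h3 (mass_nonneg _ _ _)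
        rw [h, h1]
        simp
      · have h1 : mass ν (insert f (insert g P)) Q = 0 := by
          have h3 : mass ν (insert f (insert g P)) Q ≤ A1 := mass_insert_le_left ν _ _ f
          rw [h] at h3
          exact le_antisymm h3 (mass_nonneg _ _ _)
        rw [h, h1]
        simp
  · push Not at hz
    have hA0p : 0 < A0 := lt_of_le_of_ne hA0n (Ne.symm hz.1)
    have hA1p : 0 < A1 := lt_of_le_of_ne hA1n (Ne.symm hz.2)
    have hm : 0 < mass ν P Q := by
      rw [mass_add ν P Q g]
      linarith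
    have hS := stab_of_sr hsr hPQ hPJ hgP hgQ hgJ hm
    set F := P ∪ Q ∪ J ∪ {g} with hF
    have hsP : P ⊆ F := by intro x hx; simp [hF, hx]
    have hsQ : Q ⊆ F := by intro x hx; simp [hF, hx]
    have hgF : g ∈ F := by simp [hF]
    have hposab : ∀ t : ℝ, 0 < t → 0 < (fpoly ν F P (insert g Q) J).eval t
        * (fpoly ν F (insert g P) Q J).eval t := by
      intro t ht
      exact mul_pos
        (fpoly_eval_pos ν F _ _ J hsP (Finset.insert_subset hgF hsQ) hA0p ht)
        (fpoly_eval_pos ν F _ _ J (Finset.insert_subset hgF hsP) hsQ hA1p ht)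
    have hW := wronskian_le hS hposab
    obtain ⟨h1, h2, h3, h4⟩ := wron_data (ν := ν) (P := P) (Q := Q) (J := J) (g := g)
    rw [← hF] at h1 h2 h3 h4
    rw [h1, h2, h3, h4, ← hA0, ← hA1] at hW
    have hterm : ∀ f ∈ J, |mass ν (insert f (insert g P)) Q * A0
        - mass ν (insert f P) (insert g Q) * A1|
        = mass ν (insert f P) (insert g Q) * A1 - mass ν (insert f (insert g P)) Q * A0 := by
      intro f hf
      have hfP : f ∉ P := fun h => Finset.disjoint_left.mp hPJ h hf
      have hfg : f ≠ g := fun h => hgJ (h ▸ hf)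
      have := mass_cross_nonneg hsr hPQ hfP hgP hgQ hfg
      rw [abs_of_nonpos (by linarith)]
      ring
    rw [Finset.sum_congr rfl hterm, Finset.sum_sub_distrib, ← Finset.sum_mul, ← Finset.sum_mul]
    linarith

end Masses

end Crest.Agent.SRCore
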