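import Crest.Agent.Lib.USTMass
import Crest.Prelude.Def_GraphTables

/-!
# Invariance and measurability of the forest masses.
-/

set_option autoImplicit false
set_option linter.unusedSectionVars false

namespace USTCore

open Finset Crest.ProbabilityR.SpanningTrees Filter Topology MeasureTheory

section Invariance

variable {V : Type*} [DecidableEq V] {G : SimpleGraph V} {S : Finset V}

/-- The action of a permutation on unordered pairs. -/
def symEquiv (σ : Equiv.Perm V) : Sym2 V ≃ Sym2 V where
  toFun := Sym2.map σ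
  invFun := Sym2.map σ.symm
  left_inv := by
    intro e
    simp [Sym2.map_map]
  right_inv := by
    intro e
    simp [Sym2.map_map]

@[simp] lemma symEquiv_mk (σ : Equiv.Perm V) (a b : V) : symEquiv σ s(a, b) = s(σ a, σ b) := rfl

lemma symEquiv_apply (σ : Equiv.Perm V) (e : Sym2 V) : symEquiv σ e = Sym2.map σ e := rfl

variable (σ : Equiv.Perm V)

lemma mem_edgesIn_comap (e : Sym2 V) :
    e ∈ edgesIn (G.comap σ) S ↔ symEquiv σ e ∈ edgesIn G (S.map σ.toEmbedding) := by
  classical
  induction e using Sym2.ind with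
  | _ a b =>
    rw [symEquiv_mk, mem_edgesIn, mem_edgesIn]
    simp only [SimpleGraph.comap_adj, Finset.mem_map_equiv, Equiv.symm_apply_apply]

lemma edgeset_map_subset {A : Finset (Sym2 V)} :
    A ⊆ edgesIn (G.comap σ) S ↔
      A.map (symEquiv σ).toEmbedding ⊆ edgesIn G (S.map σ.toEmbedding) := by
  constructor
  · intro h e he
    obtain ⟨e', he', rfl⟩ := Finset.mem_map.mp he
    exact (mem_edgesIn_comap σ e').mp (h he')
  · intro h e he
    exact (mem_edgesIn_comap σ e).mpr (h (Finset.mem_map.mpr ⟨e, he, rfl⟩))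

/-- The vertex bijection between pieces. -/
def pcEquiv : Pc S ≃ Pc (S.map σ.toEmbedding) where
  toFun u := ⟨σ u.1, by
    have := u.2
    simpa using this⟩
  invFun v := ⟨σ.symm v.1, by
    have := v.2
    simpa using this⟩
  left_inv := by
    intro u
    simp
  right_inv := by
    intro v
    simp

lemma tg_connected_iff {A : Finset (Sym2 V)} :
    (TG S A).Connected ↔ (TG (S.map σ.toEmbedding) (A.map (symEquiv σ).toEmbedding)).Connected := by
  let φ : TG S A ≃g TG (S.map σ.toEmbedding) (A.map (symEquiv σ).toEmbedding) :=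
    { toEquiv := pcEquiv σ
      map_rel_iff' := by
        intro a b
        rw [TG_adj, TG_adj]
        have h1 : s(((pcEquiv σ a) : Pc (S.map σ.toEmbedding)).1, ((pcEquiv σ b) : Pc (S.map σ.toEmbedding)).1)
            = (symEquiv σ).toEmbedding s(a.1, b.1) := rfl
        rw [h1, Finset.mem_map']
        have h2 : (pcEquiv σ a : Pc (S.map σ.toEmbedding)).1 = σ a.1 := rfl
        have h3 : (pcEquiv σ b : Pc (S.map σ.toEmbedding)).1 = σ b.1 := rfl
        rw [h2, h3]
        simp }
  exact φ.connected_iff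

lemma isSpanningTreeOn_comap {A : Finset (Sym2 V)} :
    IsSpanningTreeOn (G.comap σ) S A ↔
      IsSpanningTreeOn G (S.map σ.toEmbedding) (A.map (symEquiv σ).toEmbedding) := by
  rw [isSpanningTreeOn_iff, isSpanningTreeOn_iff, edgeset_map_subset, tg_connected_iff,
    Finset.card_map, Finset.card_map]

lemma cnt_comap (P Q : Finset (Sym2 V)) :
    cnt (G.comap σ) S P Q = cnt G (S.map σ.toEmbedding) (P.map (symEquiv σ).toEmbedding)
      (Q.map (symEquiv σ).toEmbedding) := by
  classical
  unfold cnt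
  refine Finset.card_equiv (Equiv.finsetCongr (symEquiv σ)) ?_
  intro A
  simp only [Finset.mem_filter, mem_trees, Equiv.finsetCongr_apply]
  rw [isSpanningTreeOn_comap, Finset.map_subset_map, Finset.disjoint_map]

lemma ust_comap (F : Finset (Sym2 V)) :
    ustContains (G.comap σ) S F = ustContains G (S.map σ.toEmbedding) (F.map (symEquiv σ).toEmbedding) := by
  rw [ustContains_eq_cnt, ustContains_eq_cnt, cnt_comap, cnt_comap]
  simp

lemma conn_comap : Conn (G.comap σ) S ↔ Conn G (S.map σ.toEmbedding) := by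
  unfold Conn
  let φ : (G.comap σ).induce (S : Set V) ≃g G.induce ((S.map σ.toEmbedding : Finset V) : Set V) :=
    { toEquiv := pcEquiv σ
      map_rel_iff' := by
        intro a b
        simp only [SimpleGraph.comap_adj, Function.Embedding.subtype_apply]
        rfl }
  exact φ.connected_iff

lemma cov_comap (F : Finset (Sym2 V)) :
    Cov S F ↔ Cov (S.map σ.toEmbedding) (F.map (symEquiv σ).toEmbedding) := by
  unfold Cov
  have key : ∀ e : Sym2 V, e ∈ S.sym2 ↔ symEquiv σ e ∈ (S.map σ.toEmbedding).sym2 := by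
    intro e
    induction e using Sym2.ind with
    | _ a b =>
      rw [symEquiv_mk, Finset.mk_mem_sym2_iff, Finset.mk_mem_sym2_iff]
      simp
  constructor
  · intro h e he
    obtain ⟨e', he', rfl⟩ := Finset.mem_map.mp he
    exact (key e').mp (h e' he')
  · intro h e he
    exact (key e).mpr (h _ (Finset.mem_map.mpr ⟨e, he, rfl⟩))

lemma hVal_comap (F : Finset (Sym2 V)) (S : Finset V) :
    hVal (G.comap σ) F S = hVal G (F.map (symEquiv σ).toEmbedding) (S.map σ.toEmbedding) := by
  classical
  unfold hVal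
  simp only [conn_comap, ← cov_comap, ust_comap]

lemma fusfPlus_comap (F : Finset (Sym2 V)) :
    fusfPlus (G.comap σ) F = fusfPlus G (F.map (symEquiv σ).toEmbedding) := by
  unfold fusfPlus
  refine Equiv.iInf_congr (Equiv.finsetCongr σ) ?_
  intro S
  rw [hVal_comap]
  rfl

lemma fusfM_comap (P Q : Finset (Sym2 V)) :
    fusfM (G.comap σ) P Q = fusfM G (P.map (symEquiv σ).toEmbedding) (Q.map (symEquiv σ).toEmbedding) := by
  classical
  unfold fusfM
  refine Finset.sum_equiv (Equiv.finsetCongr (symEquiv σ)) ?_ ?_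
  · intro R
    simp only [Finset.mem_powerset, Equiv.finsetCongr_apply, Finset.map_subset_map]
  · intro R _
    simp only [Equiv.finsetCongr_apply, Finset.card_map, Finset.map_union, fusfPlus_comap]

lemma good_comap : Good (G.comap σ) ↔ Good G := by
  unfold Good
  have h1 : (G.comap σ).Connected ↔ G.Connected := (SimpleGraph.Iso.comap σ G).connected_iff
  rw [h1]
  have h2 : ∀ v, (G.comap σ).neighborSet v = σ ⁻¹' (G.neighborSet (σ v)) := by
    intro v
    ext u
    simp
  constructor
  · rintro ⟨h3, h4⟩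
    refine ⟨h3, fun v => ?_⟩
    have h5 := h4 (σ.symm v)
    rw [h2] at h5
    simp only [Equiv.apply_symm_apply] at h5
    have := h5.image σ
    rwa [Set.image_preimage_eq _ σ.surjective] at this
  · rintro ⟨h3, h4⟩
    refine ⟨h3, fun v => ?_⟩
    rw [h2]
    exact (h4 (σ v)).preimage σ.injective.injOn

/-- The forest masses are equivariant. -/
theorem fusfMass_comap (P Q : Finset (Sym2 V)) :
    (fusfMass (G.comap σ)).m P Q
      = (fusfMass G).m (P.map (symEquiv σ).toEmbedding) (Q.map (symEquiv σ).toEmbedding) := by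
  by_cases hG : Good G
  · rw [fusfMass_m_good ((good_comap σ).mpr hG), fusfMass_m_good hG, fusfM_comap]
  · rw [fusfMass_m_bad (fun h => hG ((good_comap σ).mp h)), fusfMass_m_bad hG]
    simp

end Invariance

section Measurability

open Crest.ProbabilityR.GraphTables

lemma measurable_of_finite_dep {X : Type*} [MeasurableSpace X] (S : Finset ℕ)
    (φ : (ℕ → ℕ → Bool) → X) (h : ∀ A B : ℕ → ℕ → Bool, (∀ i ∈ S, ∀ j ∈ S, A i j = B i j) → φ A = φ B) :
    Measurable φ := by
  classical
  let res : (ℕ → ℕ → Bool) → (↥S × ↥S → Bool) := fun A p => A p.1 p.2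
  let ext' : (↥S × ↥S → Bool) → (ℕ → ℕ → Bool) := fun ρ i j =>
    if hh : i ∈ S ∧ j ∈ S then ρ (⟨i, hh.1⟩, ⟨j, hh.2⟩) else false
  have hres : Measurable res := by
    refine measurable_pi_iff.mpr fun p => ?_
    exact (measurable_pi_apply (p.2 : ℕ)).comp (measurable_pi_apply (p.1 : ℕ))
  have hφ : φ = (φ ∘ ext') ∘ res := by
    funext A
    apply h
    intro i hi j hj
    simp [res, ext', hi, hj]
  rw [hφ]
  exact (Measurable.of_discrete).comp hres

variable {G G' : SimpleGraph ℕ} {S : Finset ℕ}

lemma edgesIn_agree (h : ∀ a ∈ S, ∀ b ∈ S, (G.Adj a b ↔ G'.Adj a b)) : edgesIn G S = edgesIn G' S := by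
  classical
  ext e
  induction e using Sym2.ind with
  | _ a b =>
    rw [mem_edgesIn, mem_edgesIn]
    constructor
    · rintro ⟨h1, h2, h3⟩
      exact ⟨h1, h2, (h a h1 b h2).mp h3⟩
    · rintro ⟨h1, h2, h3⟩
      exact ⟨h1, h2, (h a h1 b h2).mpr h3⟩

lemma trees_agree (h : ∀ a ∈ S, ∀ b ∈ S, (G.Adj a b ↔ G'.Adj a b)) : trees G S = trees G' S := by
  classical
  ext A
  rw [mem_trees, mem_trees, isSpanningTreeOn_iff, isSpanningTreeOn_iff, edgesIn_agree h]

lemma cnt_agree (h : ∀ a ∈ S, ∀ b ∈ S, (G.Adj a b ↔ G'.Adj a b)) (P Q : Finset (Sym2 ℕ)) :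
    cnt G S P Q = cnt G' S P Q := by
  unfold cnt
  rw [trees_agree h]

lemma ust_agree (h : ∀ a ∈ S, ∀ b ∈ S, (G.Adj a b ↔ G'.Adj a b)) (F : Finset (Sym2 ℕ)) :
    ustContains G S F = ustContains G' S F := by
  rw [ustContains_eq_cnt, ustContains_eq_cnt, cnt_agree h, cnt_agree h]

lemma conn_agree (h : ∀ a ∈ S, ∀ b ∈ S, (G.Adj a b ↔ G'.Adj a b)) : Conn G S ↔ Conn G' S := by
  unfold Conn
  have : G.induce (S : Set ℕ) = G'.induce (S : Set ℕ) := by
    ext a b
    simp only [SimpleGraph.comap_adj, Function.Embedding.subtype_apply]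
    exact h a.1 a.2 b.1 b.2
  rw [this]

lemma table_agree {A B : ℕ → ℕ → Bool} (h : ∀ i ∈ S, ∀ j ∈ S, A i j = B i j) :
    ∀ a ∈ S, ∀ b ∈ S, ((graphOfTable A).Adj a b ↔ (graphOfTable B).Adj a b) := by
  intro a ha b hb
  simp only [graphOfTable, SimpleGraph.fromRel_adj, h a ha b hb, h b hb a ha]

lemma measurable_hVal (F : Finset (Sym2 ℕ)) (S : Finset ℕ) :
    Measurable fun A : ℕ → ℕ → Bool => hVal (graphOfTable A) F S := by
  apply measurable_of_finite_dep S
  intro A B h
  have h1 := table_agree h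
  unfold hVal
  have h2 := conn_agree h1
  by_cases hc : Conn (graphOfTable B) S ∧ Cov S F
  · rw [if_pos hc, if_pos ⟨h2.mpr hc.1, hc.2⟩, ust_agree h1]
  · rw [if_neg hc, if_neg (fun h => hc ⟨h2.mp h.1, h.2⟩)]

lemma measurable_fusfPlus (F : Finset (Sym2 ℕ)) :
    Measurable fun A : ℕ → ℕ → Bool => fusfPlus (graphOfTable A) F := by
  unfold fusfPlus
  exact Measurable.iInf fun S => measurable_hVal F S

lemma measurable_fusfM (P Q : Finset (Sym2 ℕ)) :
    Measurable fun A : ℕ → ℕ → Bool => fusfM (graphOfTable A) P Q := by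
  unfold fusfM
  refine Finset.measurable_sum _ fun R _ => ?_
  exact (measurable_fusfPlus _).const_mul _

lemma connected_iff_pieces : G.Connected ↔ ∀ u v : ℕ, ∃ T : Finset ℕ, u ∈ T ∧ v ∈ T ∧ Conn G T := by
  classical
  constructor
  · intro h u v
    obtain ⟨p⟩ := h.preconnected u v
    refine ⟨p.support.toFinset, by simp, by simp, ?_⟩
    unfold Conn
    have h1 : ((p.support.toFinset : Finset ℕ) : Set ℕ) = {v | v ∈ p.support} := by
      ext z; simp
    rw [h1]
    exact SimpleGraph.Walk.connected_induce_support p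
  · intro h
    have : Nonempty ℕ := ⟨0⟩
    refine ⟨fun u v => ?_⟩
    obtain ⟨T, hu, hv, hT⟩ := h u v
    have h2 := hT.preconnected (⟨u, hu⟩ : Pc T) ⟨v, hv⟩
    exact h2.map (SimpleGraph.Embedding.induce (T : Set ℕ)).toHom

lemma measurableSet_connected :
    MeasurableSet {A : ℕ → ℕ → Bool | (graphOfTable A).Connected} := by
  have h1 : {A : ℕ → ℕ → Bool | (graphOfTable A).Connected}
      = ⋂ u : ℕ, ⋂ v : ℕ, ⋃ T : Finset ℕ, {A | u ∈ T ∧ v ∈ T ∧ Conn (graphOfTable A) T} := by
    ext A
    simp only [Set.mem_ofPred_eq, Set.mem_iInter, Set.mem_iUnion]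
    exact connected_iff_pieces
  rw [h1]
  refine MeasurableSet.iInter fun u => MeasurableSet.iInter fun v => MeasurableSet.iUnion fun T => ?_
  apply measurableSet_setOfPred.mpr
  apply measurable_of_finite_dep T
  intro A B h
  simp only [conn_agree (table_agree h)]

lemma measurableSet_adj (v m : ℕ) : MeasurableSet {A : ℕ → ℕ → Bool | (graphOfTable A).Adj v m} := by
  apply measurableSet_setOfPred.mpr
  apply measurable_of_finite_dep {v, m}
  intro A B h
  exact propext (table_agree h v (by simp) m (by simp))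

lemma finite_nbr_iff (v : ℕ) : (G.neighborSet v).Finite ↔ ∃ N : ℕ, ∀ m : ℕ, N ≤ m → ¬ G.Adj v m := by
  rw [Set.finite_iff_bddAbove]
  constructor
  · rintro ⟨N, hN⟩
    refine ⟨N + 1, fun m hm hadj => ?_⟩
    have := hN hadj
    omega
  · rintro ⟨N, hN⟩
    refine ⟨N, fun m hm => ?_⟩
    by_contra hlt
    exact hN m (by omega) hm

lemma measurableSet_good : MeasurableSet {A : ℕ → ℕ → Bool | Good (graphOfTable A)} := by
  have h1 : {A : ℕ → ℕ → Bool | Good (graphOfTable A)}
      = {A | (graphOfTable A).Connected} ∩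
        ⋂ v : ℕ, ⋃ N : ℕ, ⋂ m : ℕ, ⋂ _ : N ≤ m, {A | (graphOfTable A).Adj v m}ᶜ := by
    ext A
    simp only [Set.mem_ofPred_eq, Set.mem_inter_iff, Set.mem_iInter, Set.mem_iUnion, Set.mem_compl_iff, Good,
      finite_nbr_iff]
  rw [h1]
  refine measurableSet_connected.inter (MeasurableSet.iInter fun v => MeasurableSet.iUnion fun N =>
    MeasurableSet.iInter fun m => MeasurableSet.iInter fun _ => (measurableSet_adj v m).compl)

/-- The forest masses are measurable in the table. -/
theorem fusfMass_measurable (P Q : Finset (Sym2 ℕ)) :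
    Measurable fun A : ℕ → ℕ → Bool => (fusfMass (graphOfTable A)).m P Q := by
  classical
  have h1 : (fun A : ℕ → ℕ → Bool => (fusfMass (graphOfTable A)).m P Q)
      = fun A => if Good (graphOfTable A) then fusfM (graphOfTable A) P Q else (if P = ∅ then 1 else 0) := by
    funext A
    by_cases hG : Good (graphOfTable A)
    · rw [fusfMass_m_good hG, if_pos hG]
    · rw [fusfMass_m_bad hG, if_neg hG]
  rw [h1]
  exact Measurable.ite measurableSet_good (measurable_fusfM P Q) measurable_const

end Measurability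

end USTCore
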