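import Mathlib

/-!
# Areas of flat pieces in Euclidean 3-space

The area formula for linear images of planar sets inside `EuclideanSpace ℝ (Fin 3)`, with the area
taken to be `μHE[2]`, and its consequences for triangles and parallelograms.
-/

set_option autoImplicit false
set_option linter.unusedSimpArgs false
set_option linter.deprecated false
open MeasureTheory
open scoped ENNReal RealInnerProductSpace

namespace Crest.Agent.Lib.TetArea

abbrev E3 := EuclideanSpace ℝ (Fin 3)
abbrev E2 := EuclideanSpace ℝ (Fin 2)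

/-- Gram determinant of two vectors. -/
noncomputable def gram (a b : E3) : ℝ := ‖a‖ ^ 2 * ‖b‖ ^ 2 - ⟪a, b⟫ ^ 2

lemma inner3 (x y : E3) : ⟪x, y⟫ = x 0 * y 0 + x 1 * y 1 + x 2 * y 2 := by
  simp [PiLp.inner_apply, Fin.sum_univ_three]
  ring

lemma normsq3 (x : E3) : ‖x‖ ^ 2 = x 0 ^ 2 + x 1 ^ 2 + x 2 ^ 2 := by
  simp [EuclideanSpace.norm_sq_eq, Fin.sum_univ_three]

lemma inner2 (x y : E2) : ⟪x, y⟫ = x 0 * y 0 + x 1 * y 1 := by
  simp [PiLp.inner_apply, Fin.sum_univ_two]
  ring

lemma normsq2 (x : E2) : ‖x‖ ^ 2 = x 0 ^ 2 + x 1 ^ 2 := by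
  simp [EuclideanSpace.norm_sq_eq, Fin.sum_univ_two]

lemma gram_nonneg (a b : E3) : 0 ≤ gram a b := by
  unfold gram
  have h := abs_real_inner_le_norm a b
  have h2 : ⟪a, b⟫ ^ 2 ≤ (‖a‖ * ‖b‖) ^ 2 := by
    rw [← sq_abs]; exact pow_le_pow_left₀ (abs_nonneg _) h 2
  nlinarith

/-- The 2D linear map with columns `a`, `b`. -/
noncomputable def lin2 (a b : E2) : E2 →ₗ[ℝ] E2 :=
  Matrix.toLin (EuclideanSpace.basisFun (Fin 2) ℝ).toBasis (EuclideanSpace.basisFun (Fin 2) ℝ).toBasis
    !![a 0, b 0; a 1, b 1]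

lemma det_lin2 (a b : E2) : LinearMap.det (lin2 a b) = a 0 * b 1 - a 1 * b 0 := by
  unfold lin2
  rw [LinearMap.det_toLin, Matrix.det_fin_two_of]
  ring

lemma lin2_apply (a b x : E2) : lin2 a b x = x 0 • a + x 1 • b := by
  unfold lin2
  ext i
  fin_cases i <;>
  simp [Matrix.toLin_apply, Fin.sum_univ_two, Matrix.mulVec, dotProduct, EuclideanSpace.basisFun_apply] <;> ring

/-- Volume of the image of a set under a 2D linear map. -/
theorem vol_image_lin2 (a b : E2) (S : Set E2) :
    volume ((fun x : E2 => x 0 • a + x 1 • b) '' S) =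
      ENNReal.ofReal |a 0 * b 1 - a 1 * b 0| * volume S := by
  have h := Measure.addHaar_image_linearMap (volume : Measure E2) (lin2 a b) S
  rw [det_lin2] at h
  rw [← h]
  congr 1
  ext x
  simp only [Set.mem_image, lin2_apply]

/-- A normal frame for two vectors. -/
lemma exists_frame (a b : E3) :
    ∃ B : OrthonormalBasis (Fin 3) ℝ E3, ⟪a, B 2⟫ = 0 ∧ ⟪b, B 2⟫ = 0 := by
  let f : E3 →ₗ[ℝ] (Fin 2 → ℝ) :=
    LinearMap.pi ![innerₛₗ ℝ a, innerₛₗ ℝ b]
  have hker : LinearMap.ker f ≠ ⊥ := by
    apply LinearMap.ker_ne_bot_of_finrank_lt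
    simp
  obtain ⟨n, hn, hn0⟩ := Submodule.exists_mem_ne_zero_of_ne_bot hker
  have h0 : ⟪a, n⟫ = 0 := by
    have := congrFun (LinearMap.mem_ker.1 hn) 0
    simpa [f] using this
  have h1 : ⟪b, n⟫ = 0 := by
    have := congrFun (LinearMap.mem_ker.1 hn) 1
    simpa [f] using this
  have hnn : ‖n‖ ≠ 0 := by simpa using hn0
  let m : E3 := (‖n‖⁻¹ : ℝ) • n
  have hm : ‖m‖ = 1 := by
    simp only [m, norm_smul, norm_inv, norm_norm]
    field_simp
  let v : Fin 3 → E3 := fun _ => m
  have hv : Orthonormal ℝ (({2} : Set (Fin 3)).domRestrict v) := by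
    rw [orthonormal_iff_ite]
    rintro ⟨i, hi⟩ ⟨j, hj⟩
    have hi' : i = 2 := hi
    have hj' : j = 2 := hj
    subst hi' hj'
    simp [v, hm, real_inner_self_eq_norm_sq]
  obtain ⟨B, hB⟩ := hv.exists_orthonormalBasis_extension_of_card_eq (by simp)
  refine ⟨B, ?_, ?_⟩
  · rw [hB 2 rfl]
    simp [v, m, inner_smul_right, h0]
  · rw [hB 2 rfl]
    simp [v, m, inner_smul_right, h1]

/-- A frame with prescribed unit third vector. -/
lemma exists_frame_unit (v : E3) (hv : ‖v‖ = 1) :
    ∃ B : OrthonormalBasis (Fin 3) ℝ E3, B 2 = v := by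
  let w : Fin 3 → E3 := fun _ => v
  have hw : Orthonormal ℝ (({2} : Set (Fin 3)).domRestrict w) := by
    rw [orthonormal_iff_ite]
    rintro ⟨i, hi⟩ ⟨j, hj⟩
    have hi' : i = 2 := hi
    have hj' : j = 2 := hj
    subst hi' hj'
    simp [w, hv, real_inner_self_eq_norm_sq]
  obtain ⟨B, hB⟩ := hw.exists_orthonormalBasis_extension_of_card_eq (by simp)
  exact ⟨B, hB 2 rfl⟩

lemma B_inner (B : OrthonormalBasis (Fin 3) ℝ E3) (i j : Fin 3) :
    ⟪B i, B j⟫ = if i = j then (1 : ℝ) else 0 := by
  exact (orthonormal_iff_ite.1 B.orthonormal) i j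

/-- Expansion of a vector in an orthonormal basis. -/
lemma B_expand (B : OrthonormalBasis (Fin 3) ℝ E3) (x : E3) :
    x = ⟪x, B 0⟫ • B 0 + ⟪x, B 1⟫ • B 1 + ⟪x, B 2⟫ • B 2 := by
  have := B.sum_repr' x
  rw [Fin.sum_univ_three] at this
  simp only [real_inner_comm] at this ⊢
  exact this.symm

/-- The isometric embedding of the plane with image `(B 2)^⊥`. -/
noncomputable def emb (B : OrthonormalBasis (Fin 3) ℝ E3) : E2 → E3 :=
  fun y => y 0 • B 0 + y 1 • B 1

/-- Coordinates on the plane `(B 2)^⊥`. -/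
noncomputable def crd (B : OrthonormalBasis (Fin 3) ℝ E3) : E3 → E2 :=
  fun x => !₂[⟪x, B 0⟫, ⟪x, B 1⟫]

lemma crd_apply0 (B : OrthonormalBasis (Fin 3) ℝ E3) (x : E3) : crd B x 0 = ⟪x, B 0⟫ := by
  simp [crd]

lemma crd_apply1 (B : OrthonormalBasis (Fin 3) ℝ E3) (x : E3) : crd B x 1 = ⟪x, B 1⟫ := by
  simp [crd]

lemma emb_inner (B : OrthonormalBasis (Fin 3) ℝ E3) (x y : E2) :
    ⟪emb B x, emb B y⟫ = ⟪x, y⟫ := by
  simp only [emb, inner_add_left, inner_add_right, inner_smul_left, inner_smul_right, B_inner]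
  simp [inner2]
  ring

lemma emb_isometry (B : OrthonormalBasis (Fin 3) ℝ E3) : Isometry (emb B) := by
  apply Isometry.of_dist_eq
  intro x y
  have h : emb B x - emb B y = emb B (x - y) := by
    simp only [emb, PiLp.sub_apply, sub_smul]
    abel
  rw [dist_eq_norm, dist_eq_norm, h]
  have h2 : ‖emb B (x - y)‖ ^ 2 = ‖x - y‖ ^ 2 := by
    rw [← real_inner_self_eq_norm_sq, ← real_inner_self_eq_norm_sq, emb_inner]
  exact (pow_left_inj₀ (norm_nonneg _) (norm_nonneg _) (by norm_num)).1 h2

lemma emb_crd (B : OrthonormalBasis (Fin 3) ℝ E3) (x : E3) :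
    emb B (crd B x) = x - ⟪x, B 2⟫ • B 2 := by
  have := B_expand B x
  simp only [emb, crd_apply0, crd_apply1]
  exact eq_sub_of_add_eq this.symm

lemma emb_crd_of_perp (B : OrthonormalBasis (Fin 3) ℝ E3) (x : E3) (h : ⟪x, B 2⟫ = 0) :
    emb B (crd B x) = x := by
  rw [emb_crd, h]; simp

lemma crd_emb (B : OrthonormalBasis (Fin 3) ℝ E3) (y : E2) : crd B (emb B y) = y := by
  ext i
  fin_cases i
  · simp [crd, emb, inner_add_left, inner_smul_left, B_inner]
  · simp [crd, emb, inner_add_left, inner_smul_left, B_inner]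

lemma emb_inner_B2 (B : OrthonormalBasis (Fin 3) ℝ E3) (y : E2) : ⟪emb B y, B 2⟫ = 0 := by
  simp [emb, inner_add_left, inner_smul_left, B_inner]

lemma emb_lin (B : OrthonormalBasis (Fin 3) ℝ E3) (s t : ℝ) (x y : E2) :
    emb B (s • x + t • y) = s • emb B x + t • emb B y := by
  simp only [emb, PiLp.add_apply, PiLp.smul_apply, smul_eq_mul, add_smul, mul_smul, smul_add]
  abel

/-- `μHE[2]` on the plane `(B 2)^⊥` is the planar volume. -/
lemma area_emb_image (B : OrthonormalBasis (Fin 3) ℝ E3) (S : Set E2) :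
    μHE[2] (emb B '' S) = volume S := by
  rw [(emb_isometry B).euclideanHausdorffMeasure_image, EuclideanSpace.euclideanHausdorffMeasure_eq_volume]

/-- The area formula. -/
theorem area_image (a b : E3) (S : Set E2) :
    μHE[2] ((fun x : E2 => x 0 • a + x 1 • b) '' S) =
      ENNReal.ofReal (√(gram a b)) * volume S := by
  obtain ⟨B, ha, hb⟩ := exists_frame a b
  set a' := crd B a with ha'
  set b' := crd B b with hb'
  have hea : emb B a' = a := emb_crd_of_perp B a ha
  have heb : emb B b' = b := emb_crd_of_perp B b hb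
  have himg : (fun x : E2 => x 0 • a + x 1 • b) '' S =
      emb B '' ((fun x : E2 => x 0 • a' + x 1 • b') '' S) := by
    rw [Set.image_image]
    apply Set.image_congr
    intro x _
    rw [emb_lin, hea, heb]
  rw [himg, area_emb_image, vol_image_lin2]
  congr 2
  have hg : gram a b = (a' 0 * b' 1 - a' 1 * b' 0) ^ 2 := by
    unfold gram
    rw [← hea, ← heb, ← real_inner_self_eq_norm_sq, ← real_inner_self_eq_norm_sq, emb_inner,
      emb_inner, emb_inner]
    simp only [inner2]
    ring
  rw [hg, Real.sqrt_sq_eq_abs]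

/-- The area formula, affine version. -/
theorem area_image_affine (c a b : E3) (S : Set E2) :
    μHE[2] ((fun x : E2 => c + x 0 • a + x 1 • b) '' S) =
      ENNReal.ofReal (√(gram a b)) * volume S := by
  have h : (fun x : E2 => c + x 0 • a + x 1 • b) '' S =
      (fun y => c + y) '' ((fun x : E2 => x 0 • a + x 1 • b) '' S) := by
    rw [Set.image_image]
    apply Set.image_congr
    intro x _
    abel
  have hi : Isometry (fun y : E3 => c + y) := (IsometryEquiv.addLeft c).isometry
  rw [h, hi.euclideanHausdorffMeasure_image, area_image]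

/-- The unit square. -/
def square : Set E2 := {x | 0 ≤ x 0 ∧ x 0 ≤ 1 ∧ 0 ≤ x 1 ∧ x 1 ≤ 1}

/-- The standard triangle. -/
def stdTri : Set E2 := {x | 0 ≤ x 0 ∧ 0 ≤ x 1 ∧ x 0 + x 1 ≤ 1}

lemma vol_square : volume square = 1 := by
  have h := (EuclideanSpace.volume_preserving_symm_measurableEquiv_toLp (Fin 2))
  have hs : square = (MeasurableEquiv.toLp 2 (Fin 2 → ℝ)).symm ⁻¹' (Set.Icc (fun _ => 0) (fun _ => 1)) := by
    ext x
    simp only [square, Set.mem_setOf_eq, Set.mem_preimage, Set.mem_Icc, Pi.le_def, Fin.forall_fin_two]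
    simp only [MeasurableEquiv.coe_toLp_symm]
    tauto
  rw [hs, h.measure_preimage (measurableSet_Icc.nullMeasurableSet), Real.volume_Icc_pi]
  simp

/-- An affine line in the plane is null. -/
lemma vol_line (α β γ : ℝ) (hne : α ≠ 0 ∨ β ≠ 0) :
    volume {x : E2 | α * x 0 + β * x 1 = γ} = 0 := by
  by_cases hem : {x : E2 | α * x 0 + β * x 1 = γ} = ∅
  · rw [hem]; simp
  obtain ⟨p, hp⟩ := Set.nonempty_iff_ne_empty.2 hem
  have hp' : α * p 0 + β * p 1 = γ := hp
  let f : E2 →ₗ[ℝ] ℝ :=
    α • (EuclideanSpace.proj (0 : Fin 2) : E2 →L[ℝ] ℝ).toLinearMap +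
      β • (EuclideanSpace.proj (1 : Fin 2) : E2 →L[ℝ] ℝ).toLinearMap
  have hf : ∀ x, f x = α * x 0 + β * x 1 := by
    intro x; simp [f]
  have hker : LinearMap.ker f ≠ ⊤ := by
    intro htop
    rw [LinearMap.ker_eq_top] at htop
    rcases hne with h | h
    · have := hf (EuclideanSpace.single 0 1)
      rw [htop] at this
      simp at this
      exact h this.symm
    · have := hf (EuclideanSpace.single 1 1)
      rw [htop] at this
      simp at this
      exact h this.symm
  have h0 := Measure.addHaar_submodule (volume : Measure E2) (LinearMap.ker f) hker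
  have hsub : {x : E2 | α * x 0 + β * x 1 = γ} = (fun y => p + y) '' (LinearMap.ker f : Set E2) := by
    ext x
    simp only [Set.mem_setOf_eq, Set.mem_image, SetLike.mem_coe, LinearMap.mem_ker]
    constructor
    · intro hx
      refine ⟨x - p, ?_, by abel⟩
      rw [map_sub, hf, hf, hx, hp', sub_self]
    · rintro ⟨y, hy, rfl⟩
      rw [hf] at hy
      simp only [PiLp.add_apply]
      linarith
  rw [hsub, Set.image_add_left, measure_preimage_add]
  exact h0

lemma measurableSet_stdTri : MeasurableSet stdTri := by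
  have : IsClosed stdTri := by
    have h0 : Continuous (fun x : E2 => x 0) := by fun_prop
    have h1 : Continuous (fun x : E2 => x 1) := by fun_prop
    exact (isClosed_le continuous_const h0).inter
      ((isClosed_le continuous_const h1).inter (isClosed_le (h0.add h1) continuous_const))
  exact this.measurableSet

lemma vol_stdTri : volume stdTri = 1 / 2 := by
  -- the square is the union of `stdTri` and its reflection
  let e : E2 := !₂[1, 1]
  let refl : E2 → E2 := fun x => e - x
  have hrefl : Isometry refl := (IsometryEquiv.subLeft e).isometry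
  have hv : volume (refl '' stdTri) = volume stdTri := by
    have := hrefl.euclideanHausdorffMeasure_image (d := 2) stdTri
    simpa [EuclideanSpace.euclideanHausdorffMeasure_eq_volume] using this
  have hm : MeasurableSet (refl '' stdTri) := by
    have : refl '' stdTri = {x : E2 | 0 ≤ 1 - x 0 ∧ 0 ≤ 1 - x 1 ∧ (1 - x 0) + (1 - x 1) ≤ 1} := by
      ext x
      simp only [Set.mem_image, stdTri, Set.mem_setOf_eq]
      constructor
      · rintro ⟨y, ⟨h0, h1, h2⟩, rfl⟩
        simp only [refl, e, PiLp.sub_apply]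
        simp
        refine ⟨by linarith, by linarith, by linarith⟩
      · rintro ⟨h0, h1, h2⟩
        refine ⟨e - x, ?_, by simp [refl]⟩
        simp only [e, PiLp.sub_apply]
        simp
        refine ⟨by linarith, by linarith, by linarith⟩
    rw [this]
    have h0 : Continuous (fun x : E2 => x 0) := by fun_prop
    have h1 : Continuous (fun x : E2 => x 1) := by fun_prop
    have : IsClosed {x : E2 | 0 ≤ 1 - x 0 ∧ 0 ≤ 1 - x 1 ∧ (1 - x 0) + (1 - x 1) ≤ 1} :=
      (isClosed_le continuous_const (continuous_const.sub h0)).inter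
        ((isClosed_le continuous_const (continuous_const.sub h1)).inter
          (isClosed_le ((continuous_const.sub h0).add (continuous_const.sub h1)) continuous_const))
    exact this.measurableSet
  have hun : square = stdTri ∪ refl '' stdTri := by
    ext x
    simp only [square, Set.mem_setOf_eq, Set.mem_union, Set.mem_image, stdTri]
    constructor
    · rintro ⟨h0, h1, h2, h3⟩
      by_cases hx : x 0 + x 1 ≤ 1
      · exact Or.inl ⟨h0, h2, hx⟩
      · right
        refine ⟨e - x, ?_, by simp [refl]⟩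
        simp only [e, PiLp.sub_apply]
        simp
        rw [not_le] at hx
        refine ⟨by linarith, by linarith, by linarith⟩
    · rintro (⟨h0, h1, h2⟩ | ⟨y, ⟨h0, h1, h2⟩, rfl⟩)
      · refine ⟨h0, by linarith, h1, by linarith⟩
      · simp only [refl, e, PiLp.sub_apply]
        simp
        refine ⟨by linarith, by linarith, by linarith, by linarith⟩
  have hint : volume (stdTri ∩ refl '' stdTri) = 0 := by
    apply measure_mono_null _ (vol_line 1 1 1 (Or.inl one_ne_zero))
    rintro x ⟨⟨h0, h1, h2⟩, y, ⟨h3, h4, h5⟩, rfl⟩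
    simp only [refl, e, PiLp.sub_apply] at h0 h1 h2 ⊢
    simp at h0 h1 h2 ⊢
    linarith
  have hadd := measure_union_add_inter (μ := volume) stdTri hm
  rw [← hun, vol_square, hint, add_zero, hv] at hadd
  -- `1 = v + v`
  have hfin : volume stdTri ≠ ⊤ := by
    intro htop
    rw [htop] at hadd
    simp at hadd
  have h2 : volume stdTri = ENNReal.ofReal (1 / 2) := by
    have hr : (volume stdTri).toReal + (volume stdTri).toReal = 1 := by
      have := congrArg ENNReal.toReal hadd
      rw [ENNReal.toReal_add hfin hfin] at this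
      simpa using this.symm
    rw [← ENNReal.ofReal_toReal hfin]
    congr 1
    linarith
  rw [h2, ENNReal.ofReal_div_of_pos (by norm_num)]
  simp

/-- Membership in a triangle by explicit weights. -/
lemma mem_conv3_of_weights {p q r x : E3} {α β γ : ℝ} (hα : 0 ≤ α) (hβ : 0 ≤ β) (hγ : 0 ≤ γ)
    (hs : α + β + γ = 1) (hx : x = α • p + β • q + γ • r) : x ∈ convexHull ℝ {p, q, r} := by
  have h := (convex_convexHull ℝ ({p, q, r} : Set E3)).sum_mem (t := Finset.univ)
    (w := ![α, β, γ]) (z := ![p, q, r]) ?_ ?_ ?_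
  · simpa [Fin.sum_univ_three, hx] using h
  · intro i _; fin_cases i <;> simp [hα, hβ, hγ]
  · simp [Fin.sum_univ_three, hs]
  · intro i _
    apply subset_convexHull
    fin_cases i <;> simp

lemma mem_conv3_of_weights' {V : Type*} [AddCommGroup V] [Module ℝ V] {p q r x : V} {α β γ : ℝ}
    (hα : 0 ≤ α) (hβ : 0 ≤ β) (hγ : 0 ≤ γ)
    (hs : α + β + γ = 1) (hx : x = α • p + β • q + γ • r) : x ∈ convexHull ℝ {p, q, r} := by
  have h := (convex_convexHull ℝ ({p, q, r} : Set V)).sum_mem (t := Finset.univ)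
    (w := ![α, β, γ]) (z := ![p, q, r]) ?_ ?_ ?_
  · simpa [Fin.sum_univ_three, hx] using h
  · intro i _; fin_cases i <;> simp [hα, hβ, hγ]
  · simp [Fin.sum_univ_three, hs]
  · intro i _
    apply subset_convexHull
    fin_cases i <;> simp

/-- The weights of a point of a triangle. -/
lemma weights_of_mem_conv3 {V : Type*} [AddCommGroup V] [Module ℝ V] {p q r x : V}
    (hx : x ∈ convexHull ℝ {p, q, r}) :
    ∃ α β γ : ℝ, 0 ≤ α ∧ 0 ≤ β ∧ 0 ≤ γ ∧ α + β + γ = 1 ∧ x = α • p + β • q + γ • r := by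
  have hsub : convexHull ℝ {p, q, r} ⊆
      {x : V | ∃ α β γ : ℝ, 0 ≤ α ∧ 0 ≤ β ∧ 0 ≤ γ ∧ α + β + γ = 1 ∧ x = α • p + β • q + γ • r} := by
    apply convexHull_min
    · intro y hy
      simp only [Set.mem_insert_iff, Set.mem_singleton_iff] at hy
      rcases hy with rfl | rfl | rfl
      · exact ⟨1, 0, 0, by norm_num, by norm_num, by norm_num, by norm_num, by simp⟩
      · exact ⟨0, 1, 0, by norm_num, by norm_num, by norm_num, by norm_num, by simp⟩
      · exact ⟨0, 0, 1, by norm_num, by norm_num, by norm_num, by norm_num, by simp⟩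
    · rintro y ⟨α, β, γ, h1, h2, h3, h4, rfl⟩ z ⟨α', β', γ', h1', h2', h3', h4', rfl⟩ a b ha hb hab
      refine ⟨a * α + b * α', a * β + b * β', a * γ + b * γ', by positivity, by positivity,
        by positivity, ?_, ?_⟩
      · calc a * α + b * α' + (a * β + b * β') + (a * γ + b * γ')
            = a * (α + β + γ) + b * (α' + β' + γ') := by ring
          _ = 1 := by rw [h4, h4']; linarith
      · simp only [smul_add, add_smul, mul_smul]
        abel
  exact hsub hx

lemma conv3_eq_image (p q r : E3) :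
    convexHull ℝ {p, q, r} = (fun x : E2 => p + x 0 • (q - p) + x 1 • (r - p)) '' stdTri := by
  ext x
  constructor
  · intro hx
    obtain ⟨α, β, γ, h1, h2, h3, h4, rfl⟩ := weights_of_mem_conv3 hx
    refine ⟨!₂[β, γ], ?_, ?_⟩
    · simp only [stdTri, Set.mem_setOf_eq]
      simp
      exact ⟨h2, h3, by linarith⟩
    · simp
      have : α = 1 - β - γ := by linarith
      subst this
      simp only [smul_sub, sub_smul, one_smul]
      abel
  · rintro ⟨y, ⟨h0, h1, h2⟩, rfl⟩
    refine mem_conv3_of_weights (α := 1 - y 0 - y 1) (β := y 0) (γ := y 1) (by linarith) h0 h1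
      (by ring) ?_
    simp only [smul_sub, sub_smul, one_smul]
    abel

/-- Area of a triangle. -/
theorem area_tri (p q r : E3) :
    μHE[2] (convexHull ℝ {p, q, r}) = ENNReal.ofReal (√(gram (q - p) (r - p)) / 2) := by
  rw [conv3_eq_image, area_image_affine, vol_stdTri,
    ENNReal.ofReal_div_of_pos (by norm_num : (0 : ℝ) < 2)]
  rw [div_eq_mul_inv, div_eq_mul_inv]
  simp

theorem area_tri_toReal (p q r : E3) :
    (μHE[2] (convexHull ℝ ({p, q, r} : Set E3))).toReal = √(gram (q - p) (r - p)) / 2 := by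
  rw [area_tri, ENNReal.toReal_ofReal (by positivity)]

/-- The parallelogram as a set. -/
def par (c a b : E3) : Set E3 :=
  {x | ∃ s ∈ Set.Icc (0 : ℝ) 1, ∃ t ∈ Set.Icc (0 : ℝ) 1, x = c + s • a + t • b}

lemma par_eq_image (c a b : E3) :
    par c a b = (fun x : E2 => c + x 0 • a + x 1 • b) '' square := by
  ext x
  constructor
  · rintro ⟨s, ⟨hs0, hs1⟩, t, ⟨ht0, ht1⟩, rfl⟩
    refine ⟨!₂[s, t], ?_, by simp⟩
    simp only [square, Set.mem_setOf_eq]
    simpa using ⟨hs0, hs1, ht0, ht1⟩
  · rintro ⟨y, ⟨h0, h1, h2, h3⟩, rfl⟩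
    exact ⟨y 0, ⟨h0, h1⟩, y 1, ⟨h2, h3⟩, rfl⟩

/-- Area of a parallelogram. -/
theorem area_par (c a b : E3) : μHE[2] (par c a b) = ENNReal.ofReal (√(gram a b)) := by
  rw [par_eq_image, area_image_affine, vol_square, mul_one]

theorem area_par_toReal (c a b : E3) : (μHE[2] (par c a b)).toReal = √(gram a b) := by
  rw [area_par, ENNReal.toReal_ofReal (by positivity)]

end Crest.Agent.Lib.TetArea
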