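import Crest.Agent.Lib.TetFan

/-!
# Consequences of the fan cover: padding, standard parameters, equality in the least projection
-/

set_option autoImplicit false
set_option linter.unusedSimpArgs false
set_option linter.deprecated false
open MeasureTheory
open scoped ENNReal RealInnerProductSpace

namespace Crest.Agent.Lib.TetCover

open Crest.Agent.Lib.TetArea Crest.Agent.Lib.TetMinProj Crest.Agent.Lib.TetFanReal
  Crest.Agent.Lib.TetFan

/-- The margin in the fan cover with the standard parameters. -/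
theorem std_cover : ∃ (N : ℕ) (u p q r : Fin N ⊕ Fin N → E3), N = 4000000 ∧
    IsTriCover K0 (√2 * (1 / 2 - 1 / 100000000)) u p q r := by
  obtain ⟨N, hN⟩ : ∃ N : ℕ, N = 4000000 := ⟨_, rfl⟩
  have hN' : (N : ℝ) = 4000000 := by rw [hN]; norm_num
  obtain ⟨u, p, q, r, hc⟩ := fan_cover (1 / 1000) (1 / 2000000) N (by omega) (by norm_num)
    (by norm_num) (by norm_num) (by norm_num) (by rw [hN']; norm_num)
  refine ⟨N, u, p, q, r, hN, hc.1, hc.2.1, hc.2.2.1, hc.2.2.2.trans ?_⟩
  apply mul_le_mul_of_nonneg_left _ (by positivity)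
  norm_num

/-- A degenerate or pad triangle of prescribed area. -/
noncomputable def padU : E3 := !₂[1, 0, 0]

lemma padU_unit : ‖padU‖ = 1 := by
  have : ‖padU‖ ^ 2 = 1 := by rw [normsq3]; simp [padU]
  have h0 := norm_nonneg padU
  nlinarith

lemma pad_area (Φ : ℝ) (hΦ : 0 ≤ Φ) :
    triA (0 : E3) (!₂[0, 2 * Φ, 0]) (!₂[0, 0, 1]) = Φ := by
  unfold triA gram
  rw [sub_zero, sub_zero, normsq3, normsq3, inner3]
  simp
  have : (2 * Φ) ^ 2 = (2 * Φ) ^ 2 := rfl
  rw [Real.sqrt_sq (by positivity)]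
  ring

lemma deg_area : triA (0 : E3) 0 0 = 0 := by
  simp [triA, gram]

/-- Padding a cover to a prescribed number of cylinders and a prescribed total area. -/
theorem pad_cover {ι : Type*} [Fintype ι] {S : Set E3} {A : ℝ} {u p q r : ι → E3}
    (h : IsTriCover S A u p q r) (n : ℕ) (hn : Fintype.card ι < n) (T : ℝ) (hT : A ≤ T) :
    ∃ u' p' q' r' : Fin n → E3, (∀ i, ‖u' i‖ = 1) ∧
      (∀ i, ⟪p' i, u' i⟫ = 0 ∧ ⟪q' i, u' i⟫ = 0 ∧ ⟪r' i, u' i⟫ = 0) ∧
      (S ⊆ ⋃ i, cyl (u' i) (p' i) (q' i) (r' i)) ∧ ∑ i, triA (p' i) (q' i) (r' i) = T := by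
  obtain ⟨h1, h2, h3, h4⟩ := h
  obtain ⟨k, hk⟩ : ∃ k, n = Fintype.card ι + (k + 1) := ⟨n - Fintype.card ι - 1, by omega⟩
  let α := ι ⊕ Option (Fin k)
  have hcard : Fintype.card α = n := by
    simp [α, hk]
  let e : α ≃ Fin n := Fintype.equivFinOfCardEq hcard
  obtain ⟨Φ, hΦ⟩ : ∃ Φ, Φ = T - ∑ i, triA (p i) (q i) (r i) := ⟨_, rfl⟩
  have hΦ0 : 0 ≤ Φ := by rw [hΦ]; linarith
  let U : α → E3 := Sum.elim u (fun _ => padU)
  let P : α → E3 := Sum.elim p (fun _ => 0)
  let Q : α → E3 := Sum.elim q (fun o => o.elim (!₂[0, 2 * Φ, 0]) (fun _ => 0))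
  let R : α → E3 := Sum.elim r (fun o => o.elim (!₂[0, 0, 1]) (fun _ => 0))
  refine ⟨U ∘ e.symm, P ∘ e.symm, Q ∘ e.symm, R ∘ e.symm, ?_, ?_, ?_, ?_⟩
  · intro i
    simp only [Function.comp_apply]
    rcases e.symm i with a | o
    · exact h1 a
    · exact padU_unit
  · intro i
    simp only [Function.comp_apply]
    rcases e.symm i with a | o
    · exact h2 a
    · rcases o with _ | b
      · simp [U, P, Q, R, padU, inner3]
      · simp [U, P, Q, R]
  · intro x hx
    obtain ⟨a, ha⟩ := Set.mem_iUnion.1 (h3 hx)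
    refine Set.mem_iUnion.2 ⟨e (Sum.inl a), ?_⟩
    simpa [U, P, Q, R] using ha
  · have hsum : ∑ i, triA ((P ∘ e.symm) i) ((Q ∘ e.symm) i) ((R ∘ e.symm) i) =
        ∑ a, triA (P a) (Q a) (R a) :=
      Equiv.sum_comp e.symm (fun a => triA (P a) (Q a) (R a))
    rw [hsum, Fintype.sum_sum_type, Fintype.sum_option]
    simp only [P, Q, R, Sum.elim_inl, Sum.elim_inr, Option.elim, deg_area]
    rw [pad_area Φ hΦ0, hΦ]
    simp

/-- Linear form of the projection. -/
noncomputable def prjL (v : E3) : E3 →ₗ[ℝ] E3 :=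
  LinearMap.id - (innerₛₗ ℝ v).smulRight v

lemma prjL_apply (v x : E3) : prjL v x = prj v x := by
  simp [prjL, prj, real_inner_comm]

lemma prj_image_conv (v : E3) (S : Set E3) :
    prj v '' convexHull ℝ S = convexHull ℝ (prj v '' S) := by
  have h : prj v = prjL v := by
    funext x; rw [prjL_apply]
  rw [h]
  exact (prjL v).image_convexHull S

noncomputable def e0 : E3 := !₂[1, 0, 0]

lemma e0_unit : ‖e0‖ = 1 := padU_unit

/-- Equality case of the least projection. -/
theorem min_proj_eq : μHE[2] (prj e0 '' K0) = ENNReal.ofReal √2 := by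
  have hA : prj e0 vA = 0 := by
    have hi : ⟪vA, e0⟫ = 1 := by rw [inner3]; simp [vA, e0]
    simp only [prj, hi, one_smul]
    ext i; fin_cases i <;> simp [e0, vA]
  have hB : prj e0 vB = 0 := by
    have hi : ⟪vB, e0⟫ = -1 := by rw [inner3]; simp [vB, e0]
    simp only [prj, hi]
    ext i; fin_cases i <;> simp [e0, vB]
  have hC : prj e0 vC = vC := by
    ext i; fin_cases i <;> simp [prj, e0, vC, inner3]
  have hD : prj e0 vD = vD := by
    ext i; fin_cases i <;> simp [prj, e0, vD, inner3]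
  have himg : prj e0 '' K0 = convexHull ℝ {(0 : E3), vC, vD} := by
    unfold K0
    rw [prj_image_conv]
    congr 1
    simp only [Set.image_insert_eq, Set.image_singleton, hA, hB, hC, hD]
    simp
  rw [himg, area_tri]
  congr 1
  have hg : gram (vC - 0) (vD - 0) = 8 := by
    have r2 : √2 ^ 2 = 2 := Real.sq_sqrt (by norm_num)
    unfold gram
    rw [sub_zero, sub_zero, normsq3, normsq3, inner3]
    simp only [vC0, vC1, vC2, vD0, vD1, vD2]
    rw [show √2 * √2 = √2 ^ 2 by ring, r2]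
    norm_num
  rw [hg]
  have : √8 = 2 * √2 := by
    rw [show (8 : ℝ) = 2 ^ 2 * 2 by norm_num, Real.sqrt_mul (by positivity), Real.sqrt_sq (by norm_num)]
  rw [this]
  ring

/-- The real-number bound in the least projection, as an `ENNReal` bound. -/
theorem min_proj_enn (v : E3) (hv : ‖v‖ = 1) : ENNReal.ofReal √2 ≤ μHE[2] (prj v '' K0) :=
  ENNReal.ofReal_le_of_le_toReal (min_proj v hv)

/-- Areas of triangles in a sum. -/
lemma sum_area_eq {ι : Type*} [Fintype ι] (p q r : ι → E3) :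
    ∑ i, (μHE[2] (convexHull ℝ ({p i, q i, r i} : Set E3))).toReal = ∑ i, triA (p i) (q i) (r i) := by
  apply Finset.sum_congr rfl
  intro i _
  exact area_tri_toReal _ _ _

/-- Reindexing a cover by `Fin`. -/
theorem IsTriCover.toFin {ι : Type*} [Fintype ι] {S : Set E3} {A : ℝ} {u p q r : ι → E3}
    (h : IsTriCover S A u p q r) :
    ∃ u' p' q' r' : Fin (Fintype.card ι) → E3, IsTriCover S A u' p' q' r' := by
  obtain ⟨h1, h2, h3, h4⟩ := h
  let e : ι ≃ Fin (Fintype.card ι) := Fintype.equivFin ι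
  refine ⟨u ∘ e.symm, p ∘ e.symm, q ∘ e.symm, r ∘ e.symm, fun i => h1 _, fun i => h2 _, ?_, ?_⟩
  · intro x hx
    obtain ⟨a, ha⟩ := Set.mem_iUnion.1 (h3 hx)
    refine Set.mem_iUnion.2 ⟨e a, ?_⟩
    simpa using ha
  · have : ∑ i, triA ((p ∘ e.symm) i) ((q ∘ e.symm) i) ((r ∘ e.symm) i) =
        ∑ a, triA (p a) (q a) (r a) :=
      Equiv.sum_comp e.symm (fun a => triA (p a) (q a) (r a))
    rw [this]
    exact h4

/-- The scale between the raw and the normalised Hausdorff measure. -/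
noncomputable def scaleC : ℝ :=
  ((Measure.addHaarScalarFactor (volume : Measure (EuclideanSpace ℝ (Fin 2)))
    (μH[((2 : ℕ) : ℝ)] : Measure (EuclideanSpace ℝ (Fin 2))) : NNReal) : ℝ)

lemma scaleC_pos : 0 < scaleC := by
  unfold scaleC
  have := Measure.addHaarScalarFactor_volume_hausdorffMeasure_ne_zero 2
  exact_mod_cast pos_iff_ne_zero.2 this

lemma toReal_HE (s : Set E3) : (μHE[2] s).toReal = scaleC * (μH[(2 : ℝ)] s).toReal := by
  rw [Measure.euclideanHausdorffMeasure_def, Measure.smul_apply, ENNReal.smul_def, smul_eq_mul,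
    ENNReal.toReal_mul]
  simp only [scaleC, ENNReal.coe_toReal]
  norm_num

end Crest.Agent.Lib.TetCover
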