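import Mathlib

/-!
# Real-variable estimates for the fan cover of the tetrahedron
-/

set_option autoImplicit false
set_option maxHeartbeats 2000000

namespace Crest.Agent.Lib.TetFanReal

/-- Height function of the fan. -/
noncomputable def rho (ε h c : ℝ) : ℝ := 1 / 2 + ε ^ 2 * (c ^ 2 + c ^ 4) / 4 + 2 * ε ^ 3 + 2 * ε * h

/-- The wedge function. -/
noncomputable def F (ε x y t τ : ℝ) : ℝ := y - τ * t - ε / 2 * x * (1 - τ ^ 2)

lemma rho_ge (ε h c : ℝ) (hε : 0 ≤ ε) (hh : 0 ≤ h) : 1 / 2 ≤ rho ε h c := by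
  unfold rho
  have : 0 ≤ ε ^ 2 * (c ^ 2 + c ^ 4) / 4 := by positivity
  have : 0 ≤ 2 * ε ^ 3 := by positivity
  have : 0 ≤ 2 * ε * h := by positivity
  linarith

/-- Two absolute-value facts on the unit interval. -/
lemma sq_le_one_of_abs {c : ℝ} (hc : |c| ≤ 1) : c ^ 2 ≤ 1 := by
  rw [← sq_abs]; exact pow_le_one₀ (abs_nonneg c) hc

/-- No point can escape both fans. -/
theorem no_escape (ε h x y t w c c' e₁ e₂ : ℝ) (hε : 0 < ε) (hε' : ε ≤ 1 / 2) (hh : 0 < h)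
    (hc : |c| ≤ 1) (hc' : |c'| ≤ 1) (hx : |x| ≤ 1) (hy : |y| ≤ 1) (htw : t + w = 1)
    (he₁ : e₁ = y - c * t - ε / 2 * x * (1 - c ^ 2))
    (he₂ : e₂ = x - c' * w + ε / 2 * y * (1 - c' ^ 2))
    (hb₁ : |e₁| ≤ h) (hb₂ : |e₂| ≤ h) :
    ¬ (rho ε h c < t - ε * c * x ∧ rho ε h c' < w + ε * c' * y) := by
  rintro ⟨h1, h2⟩
  obtain ⟨a, ha⟩ : ∃ a, a = t - ε * c * x - rho ε h c := ⟨_, rfl⟩
  obtain ⟨b, hb⟩ : ∃ b, b = w + ε * c' * y - rho ε h c' := ⟨_, rfl⟩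
  have ha0 : 0 < a := by rw [ha]; linarith
  have hb0 : 0 < b := by rw [hb]; linarith
  have hc2 : c ^ 2 ≤ 1 := sq_le_one_of_abs hc
  have hc'2 : c' ^ 2 ≤ 1 := sq_le_one_of_abs hc'
  have hc20 : 0 ≤ c ^ 2 := sq_nonneg c
  have hc'20 : 0 ≤ c' ^ 2 := sq_nonneg c'
  have hcx : |c * x| ≤ 1 := by
    rw [abs_mul]; exact mul_le_one₀ hc (abs_nonneg _) hx
  have hcy : |c' * y| ≤ 1 := by
    rw [abs_mul]; exact mul_le_one₀ hc' (abs_nonneg _) hy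
  have hr1 := rho_ge ε h c hε.le hh.le
  have hr2 := rho_ge ε h c' hε.le hh.le
  -- `t` and `w` are close to `1/2`
  have ht : 1 / 2 - ε ≤ t := by
    have : -1 ≤ c * x := (abs_le.1 hcx).1
    have : ε * (-1) ≤ ε * (c * x) := mul_le_mul_of_nonneg_left this hε.le
    have e : t = a + rho ε h c + ε * (c * x) := by rw [ha]; ring
    rw [e]; linarith
  have hw : 1 / 2 - ε ≤ w := by
    have : -1 ≤ -(c' * y) := by linarith [(abs_le.1 hcy).2]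
    have : ε * (-1) ≤ ε * (-(c' * y)) := mul_le_mul_of_nonneg_left this hε.le
    have e : w = b + rho ε h c' + ε * (-(c' * y)) := by rw [hb]; ring
    rw [e]; linarith
  have ht' : |t - 1 / 2| ≤ ε := by rw [abs_le]; constructor <;> linarith
  have hw' : |w - 1 / 2| ≤ ε := by rw [abs_le]; constructor <;> linarith
  -- coordinates of the point
  have hX : |x - c' / 2| ≤ 3 / 2 * ε + h := by
    have e : x - c' / 2 = c' * (w - 1 / 2) - ε / 2 * y * (1 - c' ^ 2) + e₂ := by rw [he₂]; ring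
    have a1 : |c' * (w - 1 / 2)| ≤ ε := by
      rw [abs_mul]; exact (mul_le_of_le_one_left (abs_nonneg _) hc').trans hw'
    have a2 : |ε / 2 * y * (1 - c' ^ 2)| ≤ ε / 2 := by
      rw [abs_mul, abs_mul, abs_of_nonneg (by positivity : 0 ≤ ε / 2),
        abs_of_nonneg (by linarith : 0 ≤ 1 - c' ^ 2)]
      have : |y| * (1 - c' ^ 2) ≤ 1 := by nlinarith [abs_nonneg y]
      nlinarith
    rw [e]
    calc |c' * (w - 1 / 2) - ε / 2 * y * (1 - c' ^ 2) + e₂|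
        ≤ |c' * (w - 1 / 2) - ε / 2 * y * (1 - c' ^ 2)| + |e₂| := abs_add_le _ _
      _ ≤ |c' * (w - 1 / 2)| + |ε / 2 * y * (1 - c' ^ 2)| + |e₂| := by
          gcongr; exact abs_sub _ _
      _ ≤ 3 / 2 * ε + h := by linarith
  have hY : |y - c / 2| ≤ 3 / 2 * ε + h := by
    have e : y - c / 2 = c * (t - 1 / 2) + ε / 2 * x * (1 - c ^ 2) + e₁ := by rw [he₁]; ring
    have a1 : |c * (t - 1 / 2)| ≤ ε := by
      rw [abs_mul]; exact (mul_le_of_le_one_left (abs_nonneg _) hc).trans ht'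
    have a2 : |ε / 2 * x * (1 - c ^ 2)| ≤ ε / 2 := by
      rw [abs_mul, abs_mul, abs_of_nonneg (by positivity : 0 ≤ ε / 2),
        abs_of_nonneg (by linarith : 0 ≤ 1 - c ^ 2)]
      have : |x| * (1 - c ^ 2) ≤ 1 := by nlinarith [abs_nonneg x]
      nlinarith
    rw [e]
    calc |c * (t - 1 / 2) + ε / 2 * x * (1 - c ^ 2) + e₁|
        ≤ |c * (t - 1 / 2) + ε / 2 * x * (1 - c ^ 2)| + |e₁| := abs_add_le _ _
      _ ≤ |c * (t - 1 / 2)| + |ε / 2 * x * (1 - c ^ 2)| + |e₁| := by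
          gcongr; exact abs_add_le _ _
      _ ≤ 3 / 2 * ε + h := by linarith
  -- the identity
  have key : a + b = - (ε ^ 2 * (c ^ 2 - c' ^ 2) ^ 2 / 4) - 2 * (2 * ε ^ 3 + 2 * ε * h)
      + ε ^ 2 * ((c' * (1 + c ^ 2) / 2) * (x - c' / 2) + (c * (1 + c' ^ 2) / 2) * (y - c / 2))
      + ε * (c * c') * (rho ε h c - rho ε h c') + ε * (c * c') * (a - b)
      + ε * (c' * e₁ - c * e₂) := by
    rw [he₁, he₂, ha, hb]
    have hw0 : w = 1 - t := by linarith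
    subst hw0
    unfold rho
    ring
  -- bounds on the terms
  have b1 : |(c' * (1 + c ^ 2) / 2) * (x - c' / 2) + (c * (1 + c' ^ 2) / 2) * (y - c / 2)| ≤
      3 * ε + 2 * h := by
    have a1 : |c' * (1 + c ^ 2) / 2| ≤ 1 := by
      rw [abs_div, abs_mul, abs_of_nonneg (by positivity : 0 ≤ 1 + c ^ 2)]
      simp only [Nat.abs_ofNat]
      have : |c'| * (1 + c ^ 2) ≤ 1 * 2 := by
        apply mul_le_mul hc' (by linarith) (by positivity) (by norm_num)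
      linarith
    have a2 : |c * (1 + c' ^ 2) / 2| ≤ 1 := by
      rw [abs_div, abs_mul, abs_of_nonneg (by positivity : 0 ≤ 1 + c' ^ 2)]
      simp only [Nat.abs_ofNat]
      have : |c| * (1 + c' ^ 2) ≤ 1 * 2 := by
        apply mul_le_mul hc (by linarith) (by positivity) (by norm_num)
      linarith
    calc _ ≤ |(c' * (1 + c ^ 2) / 2) * (x - c' / 2)| + |(c * (1 + c' ^ 2) / 2) * (y - c / 2)| :=
          abs_add_le _ _
      _ ≤ |x - c' / 2| + |y - c / 2| := by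
          rw [abs_mul, abs_mul]
          gcongr
          · exact mul_le_of_le_one_left (abs_nonneg _) a1
          · exact mul_le_of_le_one_left (abs_nonneg _) a2
      _ ≤ 3 * ε + 2 * h := by linarith
  have hcc : |c * c'| ≤ 1 := by
    rw [abs_mul]; exact mul_le_one₀ hc (abs_nonneg _) hc'
  have b2 : |rho ε h c - rho ε h c'| ≤ ε ^ 2 / 2 := by
    have e : rho ε h c - rho ε h c' = ε ^ 2 * ((c ^ 2 - c' ^ 2) + (c ^ 4 - c' ^ 4)) / 4 := by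
      unfold rho; ring
    rw [e, abs_div, abs_mul, abs_of_nonneg (by positivity : 0 ≤ ε ^ 2)]
    simp only [Nat.abs_ofNat]
    have h1 : |c ^ 2 - c' ^ 2| ≤ 1 := by rw [abs_le]; constructor <;> linarith
    have hc4 : c ^ 4 ≤ 1 := by nlinarith
    have hc'4 : c' ^ 4 ≤ 1 := by nlinarith
    have hc40 : 0 ≤ c ^ 4 := by positivity
    have hc'40 : 0 ≤ c' ^ 4 := by positivity
    have h2 : |c ^ 4 - c' ^ 4| ≤ 1 := by rw [abs_le]; constructor <;> linarith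
    have h3 : |c ^ 2 - c' ^ 2 + (c ^ 4 - c' ^ 4)| ≤ 2 := by
      calc _ ≤ |c ^ 2 - c' ^ 2| + |c ^ 4 - c' ^ 4| := abs_add_le _ _
        _ ≤ 2 := by linarith
    have : ε ^ 2 * |c ^ 2 - c' ^ 2 + (c ^ 4 - c' ^ 4)| ≤ ε ^ 2 * 2 :=
      mul_le_mul_of_nonneg_left h3 (by positivity)
    linarith
  have b3 : |a - b| ≤ a + b := by rw [abs_le]; constructor <;> linarith
  have b4 : |c' * e₁ - c * e₂| ≤ 2 * h := by
    calc _ ≤ |c' * e₁| + |c * e₂| := abs_sub _ _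
      _ ≤ |e₁| + |e₂| := by
        rw [abs_mul, abs_mul]
        gcongr
        · exact mul_le_of_le_one_left (abs_nonneg _) hc'
        · exact mul_le_of_le_one_left (abs_nonneg _) hc
      _ ≤ 2 * h := by linarith
  -- combine
  have t1 : ε ^ 2 * ((c' * (1 + c ^ 2) / 2) * (x - c' / 2) + (c * (1 + c' ^ 2) / 2) * (y - c / 2))
      ≤ ε ^ 2 * (3 * ε + 2 * h) :=
    mul_le_mul_of_nonneg_left ((le_abs_self _).trans b1) (by positivity)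
  have t2 : ε * (c * c') * (rho ε h c - rho ε h c') ≤ ε * (ε ^ 2 / 2) := by
    have : (c * c') * (rho ε h c - rho ε h c') ≤ ε ^ 2 / 2 := by
      refine (le_abs_self _).trans ?_
      rw [abs_mul]
      exact (mul_le_of_le_one_left (abs_nonneg _) hcc).trans b2
    calc _ = ε * ((c * c') * (rho ε h c - rho ε h c')) := by ring
      _ ≤ _ := mul_le_mul_of_nonneg_left this hε.le
  have t3 : ε * (c * c') * (a - b) ≤ ε * (a + b) := by
    have : (c * c') * (a - b) ≤ a + b := by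
      refine (le_abs_self _).trans ?_
      rw [abs_mul]
      exact (mul_le_of_le_one_left (abs_nonneg _) hcc).trans b3
    calc _ = ε * ((c * c') * (a - b)) := by ring
      _ ≤ _ := mul_le_mul_of_nonneg_left this hε.le
  have t4 : ε * (c' * e₁ - c * e₂) ≤ ε * (2 * h) :=
    mul_le_mul_of_nonneg_left ((le_abs_self _).trans b4) hε.le
  have t5 : 0 ≤ ε ^ 2 * (c ^ 2 - c' ^ 2) ^ 2 / 4 := by positivity
  have t6 : (1 - ε) * (a + b) ≤ - (1 / 2 * ε ^ 3) - 2 * ε * h + 2 * ε ^ 2 * h := by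
    nlinarith
  have t7 : 2 * ε ^ 2 * h ≤ 2 * ε * h := by
    have : ε ^ 2 ≤ ε := by nlinarith
    have : ε ^ 2 * h ≤ ε * h := mul_le_mul_of_nonneg_right this hh.le
    linarith
  have t8 : 0 < (1 - ε) * (a + b) := by
    apply mul_pos <;> linarith
  have t9 : 0 < ε ^ 3 := by positivity
  linarith

/-- The wedge conditions in the sheared coordinates and the centre error. -/
theorem wedge_data (ε h τ x y t : ℝ) (hε : 0 ≤ ε) (hh : 0 < h)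
    (h1 : 0 ≤ F ε x y t τ) (h2 : F ε x y t (τ + h) ≤ 0) :
    τ * (t - ε * (τ + h / 2) * x) ≤ y - ε / 2 * (1 + τ * (τ + h)) * x ∧
      y - ε / 2 * (1 + τ * (τ + h)) * x ≤ (τ + h) * (t - ε * (τ + h / 2) * x) ∧
      0 ≤ t - ε * (τ + h / 2) * x ∧
      |y - (τ + h / 2) * t - ε / 2 * x * (1 - (τ + h / 2) ^ 2)| ≤
        h / 2 * (t - ε * (τ + h / 2) * x) + ε * |x| * h ^ 2 / 8 := by
  obtain ⟨c, hc⟩ : ∃ c, c = τ + h / 2 := ⟨_, rfl⟩
  obtain ⟨g, hg⟩ : ∃ g, g = ε / 2 * (1 + τ * (τ + h)) := ⟨_, rfl⟩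
  obtain ⟨tt, htt⟩ : ∃ tt, tt = t - ε * c * x := ⟨_, rfl⟩
  obtain ⟨yy, hyy⟩ : ∃ yy, yy = y - g * x := ⟨_, rfl⟩
  rw [← hc, ← hg, ← htt, ← hyy]
  have e1 : yy - τ * tt = F ε x y t τ := by
    rw [hyy, htt, hg, hc]; simp only [F]; ring
  have e2 : yy - (τ + h) * tt = F ε x y t (τ + h) := by
    rw [hyy, htt, hg, hc]; simp only [F]; ring
  have h3 : τ * tt ≤ yy := by linarith
  have h4 : yy ≤ (τ + h) * tt := by linarith
  have h5 : 0 ≤ tt := by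
    have : 0 ≤ h * tt := by nlinarith
    exact nonneg_of_mul_nonneg_right this hh
  refine ⟨h3, h4, h5, ?_⟩
  have e3 : y - c * t - ε / 2 * x * (1 - c ^ 2) = (yy - c * tt) - ε * x * h ^ 2 / 8 := by
    rw [hyy, htt, hg, hc]; ring
  rw [e3]
  have e4 : |yy - c * tt| ≤ h / 2 * tt := by
    rw [abs_le, hc]
    constructor <;> nlinarith
  have e5 : |ε * x * h ^ 2 / 8| = ε * |x| * h ^ 2 / 8 := by
    rw [abs_div, abs_mul, abs_mul, abs_of_nonneg hε, abs_of_nonneg (by positivity : 0 ≤ h ^ 2)]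
    simp
  calc _ ≤ |yy - c * tt| + |ε * x * h ^ 2 / 8| := abs_sub _ _
    _ ≤ _ := by rw [e5]; linarith

/-- The wedge error is at most the wedge width. -/
theorem wedge_err (ε h τ x y t : ℝ) (hε : 0 ≤ ε) (hε' : ε ≤ 1 / 2) (hh : 0 < h) (hh' : h ≤ 1)
    (hτ : |τ + h / 2| ≤ 1) (hx : |x| ≤ 1) (ht : t ≤ 1)
    (h1 : 0 ≤ F ε x y t τ) (h2 : F ε x y t (τ + h) ≤ 0) :
    |y - (τ + h / 2) * t - ε / 2 * x * (1 - (τ + h / 2) ^ 2)| ≤ h := by
  obtain ⟨-, -, -, h4⟩ := wedge_data ε h τ x y t hε hh h1 h2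
  refine h4.trans ?_
  have hcx : -1 ≤ (τ + h / 2) * x := by
    have : |(τ + h / 2) * x| ≤ 1 := by
      rw [abs_mul]; exact mul_le_one₀ hτ (abs_nonneg _) hx
    exact (abs_le.1 this).1
  have a1 : t - ε * (τ + h / 2) * x ≤ 1 + 1 / 2 := by
    have : ε * (-1) ≤ ε * ((τ + h / 2) * x) := mul_le_mul_of_nonneg_left hcx hε
    have e : ε * (τ + h / 2) * x = ε * ((τ + h / 2) * x) := by ring
    rw [e]; linarith
  have a2 : h / 2 * (t - ε * (τ + h / 2) * x) ≤ h / 2 * (3 / 2) :=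
    mul_le_mul_of_nonneg_left (by linarith) (by positivity)
  have a3 : ε * |x| * h ^ 2 / 8 ≤ h / 16 := by
    have b1 : ε * |x| ≤ 1 / 2 := by
      calc ε * |x| ≤ (1 / 2) * 1 := mul_le_mul hε' hx (abs_nonneg _) (by norm_num)
        _ = 1 / 2 := by norm_num
    have b2 : h ^ 2 ≤ h := by nlinarith
    have b3 : ε * |x| * h ^ 2 ≤ 1 / 2 * h := mul_le_mul b1 b2 (by positivity) (by norm_num)
    linarith
  linarith

/-- Discrete intermediate value theorem. -/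
theorem discrete_ivt (f : ℕ → ℝ) (N : ℕ) (hN : 0 < N) (h0 : 0 ≤ f 0) (h1 : f N ≤ 0) :
    ∃ i, i < N ∧ 0 ≤ f i ∧ f (i + 1) ≤ 0 := by
  by_contra hcon
  push Not at hcon
  have : ∀ i, i ≤ N → 0 ≤ f i := by
    intro i
    induction i with
    | zero => intro _; exact h0
    | succ k ih =>
      intro hk
      exact (hcon k (by omega) (ih (by omega))).le
  have h2 := hcon (N - 1) (by omega) (this _ (by omega))
  rw [Nat.sub_add_cancel hN] at h2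
  linarith

/-- Every point of the region lies in a wedge. -/
theorem exists_wedge (ε h x y t : ℝ) (N : ℕ) (hN : 0 < N) (hNh : (N : ℝ) * h = 2)
    (hy : |y| ≤ t) :
    ∃ i, i < N ∧ 0 ≤ F ε x y t (-1 + (i : ℝ) * h) ∧ F ε x y t (-1 + (i : ℝ) * h + h) ≤ 0 := by
  obtain ⟨i, hi, h1, h2⟩ := discrete_ivt (fun i => F ε x y t (-1 + (i : ℝ) * h)) N hN
    (by
      simp only [F]
      have := (abs_le.1 hy).1
      norm_num
      linarith)
    (by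
      simp only [F, hNh]
      have := (abs_le.1 hy).2
      norm_num
      linarith)
  refine ⟨i, hi, h1, ?_⟩
  have : -1 + (i : ℝ) * h + h = -1 + ((i + 1 : ℕ) : ℝ) * h := by push_cast; ring
  rw [this]
  exact h2

/-- The quartic in the area integrand. -/
noncomputable def G (c : ℝ) : ℝ := 7 / 32 * c ^ 4 - 1 / 16 * c ^ 2 - 1 / 32

/-- An antiderivative of `G`. -/
noncomputable def Gam (σ : ℝ) : ℝ := 7 / 160 * σ ^ 5 - 1 / 48 * σ ^ 3 - σ / 32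

lemma midpoint_G (τ h : ℝ) (hh : 0 ≤ h) :
    h * G (τ + h / 2) ≤ Gam (τ + h) - Gam τ + h ^ 3 / 192 := by
  have e : Gam (τ + h) - Gam τ + h ^ 3 / 192 - h * G (τ + h / 2) =
      7 / 8 * (τ + h / 2) ^ 2 * (h / 2) ^ 3 + 7 / 80 * (h / 2) ^ 5 := by
    unfold Gam G; ring
  have : 0 ≤ 7 / 8 * (τ + h / 2) ^ 2 * (h / 2) ^ 3 + 7 / 80 * (h / 2) ^ 5 := by positivity
  linarith

lemma one_div_sqrt_le (s : ℝ) (hs : 0 ≤ s) (hs' : s ≤ 1) :
    1 / √(1 + s) ≤ 1 - s / 2 + 3 * s ^ 2 / 8 := by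
  have hW : 0 < 1 - s / 2 + 3 * s ^ 2 / 8 := by nlinarith [sq_nonneg s]
  have hR : 0 < √(1 + s) := Real.sqrt_pos.2 (by linarith)
  rw [div_le_iff₀ hR]
  have h2 : (1 : ℝ) ^ 2 ≤ ((1 - s / 2 + 3 * s ^ 2 / 8) * √(1 + s)) ^ 2 := by
    rw [mul_pow, Real.sq_sqrt (by linarith)]
    have e : (1 - s / 2 + 3 * s ^ 2 / 8) ^ 2 * (1 + s) =
        1 + s ^ 3 * (5 / 8 - 15 / 64 * s + 9 / 64 * s ^ 2) := by ring
    rw [e]
    have : 0 ≤ s ^ 3 * (5 / 8 - 15 / 64 * s + 9 / 64 * s ^ 2) := by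
      apply mul_nonneg (by positivity)
      nlinarith [sq_nonneg s]
    linarith
  exact (pow_le_pow_iff_left₀ (by norm_num) (by positivity) (by norm_num)).1 h2

/-- The bound for one term of the area sum. -/
theorem term_bound (ε h c : ℝ) (hε : 0 ≤ ε) (hε' : ε ≤ 1 / 10) (hh : 0 ≤ h) (hh' : h ≤ 1)
    (hc : |c| ≤ 1) (s : ℝ)
    (hs : s = ε ^ 2 * ((1 + (c ^ 2 - h ^ 2 / 4)) ^ 2 / 4 + 2 * c ^ 2)) :
    rho ε h c ^ 2 / √(1 + s) ≤ 1 / 4 + (2 * ε ^ 3 + 2 * ε * h) + ε ^ 2 * G c +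
      ((ε ^ 2 / 2 + (2 * ε ^ 3 + 2 * ε * h)) ^ 2 + 27 * ε ^ 4 / 32 + ε ^ 2 * h ^ 2 / 32) := by
  obtain ⟨p, hp⟩ : ∃ p, p = c ^ 2 := ⟨_, rfl⟩
  have hp0 : 0 ≤ p := by rw [hp]; positivity
  have hp1 : p ≤ 1 := by rw [hp]; exact sq_le_one_of_abs hc
  obtain ⟨δ, hδ⟩ : ∃ δ, δ = 2 * ε ^ 3 + 2 * ε * h := ⟨_, rfl⟩
  have hδ0 : 0 ≤ δ := by rw [hδ]; positivity
  obtain ⟨u, hu⟩ : ∃ u, u = ε ^ 2 * (p + p ^ 2) / 4 + δ := ⟨_, rfl⟩
  have hu0 : 0 ≤ u := by rw [hu]; positivity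
  have hu1 : u ≤ ε ^ 2 / 2 + δ := by
    rw [hu]
    have : p + p ^ 2 ≤ 2 := by nlinarith
    have : ε ^ 2 * (p + p ^ 2) ≤ ε ^ 2 * 2 := mul_le_mul_of_nonneg_left this (by positivity)
    linarith
  have hrho : rho ε h c = 1 / 2 + u := by
    rw [hu, hδ, hp]; unfold rho; ring
  have hG : G c = 7 / 32 * p ^ 2 - 1 / 16 * p - 1 / 32 := by
    rw [hp]; unfold G; ring
  have hε2 : ε ^ 2 ≤ 1 / 100 := by nlinarith
  have hk : 0 ≤ h ^ 2 / 4 := by positivity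
  have hk' : h ^ 2 / 4 ≤ 1 / 4 := by nlinarith
  rw [← hp] at hs
  -- bounds for `s`
  have hq : 0 ≤ 1 + (p - h ^ 2 / 4) := by linarith
  have hq' : 1 + (p - h ^ 2 / 4) ≤ 2 := by linarith
  have hs0 : 0 ≤ s := by rw [hs]; positivity
  have hs1 : s ≤ 3 * ε ^ 2 := by
    rw [hs]
    have : (1 + (p - h ^ 2 / 4)) ^ 2 / 4 + 2 * p ≤ 3 := by nlinarith
    nlinarith [sq_nonneg ε]
  have hs2 : s ≥ ε ^ 2 * ((1 + p) ^ 2 / 4 + 2 * p) - ε ^ 2 * (h ^ 2 / 4) := by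
    rw [hs]
    have : (1 + (p - h ^ 2 / 4)) ^ 2 / 4 + 2 * p ≥ (1 + p) ^ 2 / 4 + 2 * p - h ^ 2 / 4 := by
      nlinarith
    nlinarith [sq_nonneg ε]
  have hs3 : s ≤ 3 / 100 := by linarith
  have hW := one_div_sqrt_le s hs0 (by linarith)
  have hW1 : 1 - s / 2 + 3 * s ^ 2 / 8 ≤ 1 := by nlinarith
  have hW0 : 0 ≤ 1 - s / 2 + 3 * s ^ 2 / 8 := by nlinarith [sq_nonneg s]
  have hss : s ^ 2 ≤ 9 * ε ^ 4 := by
    have : s ^ 2 ≤ (3 * ε ^ 2) ^ 2 := pow_le_pow_left₀ hs0 hs1 2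
    nlinarith
  have huu : u ^ 2 ≤ (ε ^ 2 / 2 + δ) ^ 2 := pow_le_pow_left₀ hu0 hu1 2
  have e1 : rho ε h c ^ 2 / √(1 + s) = rho ε h c ^ 2 * (1 / √(1 + s)) := by ring
  rw [e1, hrho, ← hδ, hG]
  have s1 : (1 / 2 + u) ^ 2 * (1 / √(1 + s)) ≤ (1 / 2 + u) ^ 2 * (1 - s / 2 + 3 * s ^ 2 / 8) :=
    mul_le_mul_of_nonneg_left hW (by positivity)
  have s2 : (1 / 2 + u) ^ 2 * (1 - s / 2 + 3 * s ^ 2 / 8) ≤
      1 / 4 * (1 - s / 2 + 3 * s ^ 2 / 8) + (u + u ^ 2) := by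
    have e : (1 / 2 + u) ^ 2 = 1 / 4 + (u + u ^ 2) := by ring
    rw [e, add_mul]
    have : (u + u ^ 2) * (1 - s / 2 + 3 * s ^ 2 / 8) ≤ (u + u ^ 2) * 1 :=
      mul_le_mul_of_nonneg_left hW1 (by positivity)
    linarith
  have e2 : u = ε ^ 2 * (p + p ^ 2) / 4 + δ := hu
  have s3 : 1 / 4 * (1 - s / 2 + 3 * s ^ 2 / 8) + (u + u ^ 2) ≤
      1 / 4 + δ + ε ^ 2 * (7 / 32 * p ^ 2 - 1 / 16 * p - 1 / 32) +
        ((ε ^ 2 / 2 + δ) ^ 2 + 27 * ε ^ 4 / 32 + ε ^ 2 * h ^ 2 / 32) := by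
    have : ε ^ 2 * (7 / 32 * p ^ 2 - 1 / 16 * p - 1 / 32) =
        ε ^ 2 * (p + p ^ 2) / 4 - ε ^ 2 * ((1 + p) ^ 2 / 4 + 2 * p) / 8 := by ring
    rw [this]
    nlinarith
  linarith

/-- The value of the quintic at the end points. -/
lemma Gam_ends : Gam 1 - Gam (-1) = -1 / 60 := by
  unfold Gam; norm_num

/-- The sum of the areas of a fan. -/
theorem fan_sum (ε h : ℝ) (N : ℕ) (hε : 0 ≤ ε) (hε' : ε ≤ 1 / 10) (hh : 0 < h) (hh' : h ≤ 1)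
    (hNh : (N : ℝ) * h = 2) (R : ℕ → ℝ)
    (hR : ∀ i, i < N → R i = √(1 + ε ^ 2 * ((1 + (-1 + (i : ℝ) * h) * (-1 + (i : ℝ) * h + h)) ^ 2 / 4
      + 2 * (-1 + (i : ℝ) * h + h / 2) ^ 2))) :
    ∑ i ∈ Finset.range N, h * (rho ε h (-1 + (i : ℝ) * h + h / 2) ^ 2 / R i) ≤
      1 / 2 - ε ^ 2 / 60 + 2 * (2 * ε ^ 3 + 2 * ε * h) +
        2 * ((ε ^ 2 / 2 + (2 * ε ^ 3 + 2 * ε * h)) ^ 2 + 27 * ε ^ 4 / 32 + ε ^ 2 * h ^ 2 / 32) +
        ε ^ 2 * h ^ 2 / 96 := by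
  obtain ⟨δ, hδ⟩ : ∃ δ, δ = 2 * ε ^ 3 + 2 * ε * h := ⟨_, rfl⟩
  obtain ⟨E, hE⟩ : ∃ E, E = (ε ^ 2 / 2 + δ) ^ 2 + 27 * ε ^ 4 / 32 + ε ^ 2 * h ^ 2 / 32 := ⟨_, rfl⟩
  rw [← hδ, ← hE]
  have hterm : ∀ i ∈ Finset.range N, h * (rho ε h (-1 + (i : ℝ) * h + h / 2) ^ 2 / R i) ≤
      h * (1 / 4 + δ + E) + ε ^ 2 * (Gam (-1 + ((i + 1 : ℕ) : ℝ) * h) - Gam (-1 + (i : ℝ) * h)) +
        ε ^ 2 * (h ^ 3 / 192) := by
    intro i hi
    have hi' : i < N := Finset.mem_range.1 hi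
    have hi0 : (0 : ℝ) ≤ (i : ℝ) * h := by positivity
    have hi1 : (i : ℝ) * h + h ≤ 2 := by
      rw [← hNh]
      have : ((i : ℝ) + 1) ≤ N := by exact_mod_cast hi'
      nlinarith
    have hc : |(-1 + (i : ℝ) * h + h / 2)| ≤ 1 := by
      rw [abs_le]; constructor <;> linarith
    have ht := term_bound ε h (-1 + (i : ℝ) * h + h / 2) hε hε' hh.le hh' hc _ rfl
    rw [← hδ, ← hE] at ht
    have hs : R i = √(1 + ε ^ 2 * ((1 + ((-1 + (i : ℝ) * h + h / 2) ^ 2 - h ^ 2 / 4)) ^ 2 / 4 +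
        2 * (-1 + (i : ℝ) * h + h / 2) ^ 2)) := by
      rw [hR i hi']
      congr 2
      ring
    rw [hs]
    have hm := midpoint_G (-1 + (i : ℝ) * h) h hh.le
    have e : -1 + ((i + 1 : ℕ) : ℝ) * h = -1 + (i : ℝ) * h + h := by push_cast; ring
    rw [e]
    have hm' := mul_le_mul_of_nonneg_left hm (by positivity : 0 ≤ ε ^ 2)
    have ht' := mul_le_mul_of_nonneg_left ht hh.le
    nlinarith
  refine (Finset.sum_le_sum hterm).trans ?_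
  rw [Finset.sum_add_distrib, Finset.sum_add_distrib]
  simp only [Finset.sum_const, Finset.card_range, nsmul_eq_mul]
  rw [← Finset.mul_sum, Finset.sum_range_sub (fun i : ℕ => Gam (-1 + (i : ℝ) * h))]
  have e0 : -1 + ((0 : ℕ) : ℝ) * h = -1 := by simp
  have e1 : -1 + (N : ℝ) * h = 1 := by rw [hNh]; norm_num
  rw [e0, e1, Gam_ends]
  have e2 : (N : ℝ) * (h * (1 / 4 + δ + E)) = ((N : ℝ) * h) * (1 / 4 + δ + E) := by ring
  have e3 : (N : ℝ) * (ε ^ 2 * (h ^ 3 / 192)) = ((N : ℝ) * h) * (ε ^ 2 * h ^ 2 / 192) := by ring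
  rw [e2, e3, hNh]
  nlinarith

end Crest.Agent.Lib.TetFanReal
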