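import Crest.Agent.Lib.TetMinProj
import Crest.Agent.Lib.TetFanReal

/-!
# The fan cover of the regular tetrahedron by triangular cylinders
-/

set_option autoImplicit false
set_option linter.unusedSimpArgs false
set_option linter.deprecated false
open MeasureTheory
open scoped ENNReal RealInnerProductSpace

namespace Crest.Agent.Lib.TetFan

open Crest.Agent.Lib.TetArea Crest.Agent.Lib.TetMinProj Crest.Agent.Lib.TetFanReal

/-- A cylinder with triangular base. -/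
def cyl (u p q r : E3) : Set E3 :=
  {x | ∃ b ∈ convexHull ℝ {p, q, r}, ∃ t : ℝ, x = b + t • u}

/-- Area of a triangle as a real number. -/
noncomputable def triA (p q r : E3) : ℝ := √(gram (q - p) (r - p)) / 2

lemma prj_lin (u : E3) (α β γ : ℝ) (A B C : E3) :
    prj u (α • A + β • B + γ • C) = α • prj u A + β • prj u B + γ • prj u C := by
  simp only [prj, inner_add_left, inner_smul_left, add_smul, mul_smul, smul_sub]
  simp only [conj_trivial]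
  abel

lemma prj_zero (u : E3) : prj u 0 = 0 := by simp [prj]

lemma prj_orth (u : E3) (hu : ‖u‖ = 1) (x : E3) : ⟪prj u x, u⟫ = 0 := by
  simp [prj, inner_sub_left, inner_smul_left, real_inner_self_eq_norm_sq, hu]

lemma unit_of_ne (v : E3) (hv : v ≠ 0) : ‖(‖v‖⁻¹ : ℝ) • v‖ = 1 := by
  have : ‖v‖ ≠ 0 := norm_ne_zero_iff.2 hv
  rw [norm_smul, norm_inv, norm_norm]
  field_simp

/-- A point of the translated triangle lies in the cylinder along a (non-unit) axis. -/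
lemma axis_cyl (v : E3) (hv : v ≠ 0) (A B C A' : E3) (hA' : A' ∈ convexHull ℝ {A, B, C}) (s : ℝ) :
    A' + s • v ∈ cyl ((‖v‖⁻¹ : ℝ) • v) (prj ((‖v‖⁻¹ : ℝ) • v) A) (prj ((‖v‖⁻¹ : ℝ) • v) B)
      (prj ((‖v‖⁻¹ : ℝ) • v) C) := by
  obtain ⟨u, hu⟩ : ∃ u, u = (‖v‖⁻¹ : ℝ) • v := ⟨_, rfl⟩
  rw [← hu]
  have hvu : v = ‖v‖ • u := by
    have : ‖v‖ ≠ 0 := norm_ne_zero_iff.2 hv
    rw [hu, smul_smul, mul_inv_cancel₀ this, one_smul]
  refine ⟨prj u A', ?_, ⟪A', u⟫ + s * ‖v‖, ?_⟩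
  · obtain ⟨α, β, γ, h1, h2, h3, h4, rfl⟩ := weights_of_mem_conv3 hA'
    rw [prj_lin]
    exact mem_conv3_of_weights h1 h2 h3 h4 rfl
  · nth_rewrite 1 [hvu]
    simp only [prj, add_smul, mul_smul]
    abel

/-- Projection and the Gram determinant. -/
lemma gram_prj (u : E3) (hu : ‖u‖ = 1) (A B : E3) :
    gram (prj u A) (prj u B) = det3 A B u ^ 2 := by
  have hu2 : u 0 ^ 2 + u 1 ^ 2 + u 2 ^ 2 = 1 := by rw [← normsq3, hu]; norm_num
  have e : ∀ x y : E3, ⟪prj u x, prj u y⟫ = ⟪x, y⟫ - ⟪x, u⟫ * ⟪y, u⟫ := by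
    intro x y
    simp only [prj, inner_sub_left, inner_sub_right, inner_smul_left, inner_smul_right,
      real_inner_self_eq_norm_sq, hu, conj_trivial, real_inner_comm]
    ring
  unfold gram
  rw [← real_inner_self_eq_norm_sq, ← real_inner_self_eq_norm_sq, e, e, e]
  simp only [inner3, det3]
  obtain ⟨a0, ha0⟩ : ∃ a, a = A 0 := ⟨_, rfl⟩
  obtain ⟨a1, ha1⟩ : ∃ a, a = A 1 := ⟨_, rfl⟩
  obtain ⟨a2, ha2⟩ : ∃ a, a = A 2 := ⟨_, rfl⟩
  obtain ⟨b0, hb0⟩ : ∃ a, a = B 0 := ⟨_, rfl⟩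
  obtain ⟨b1, hb1⟩ : ∃ a, a = B 1 := ⟨_, rfl⟩
  obtain ⟨b2, hb2⟩ : ∃ a, a = B 2 := ⟨_, rfl⟩
  obtain ⟨u0, hu0⟩ : ∃ a, a = u 0 := ⟨_, rfl⟩
  obtain ⟨u1, hu1⟩ : ∃ a, a = u 1 := ⟨_, rfl⟩
  obtain ⟨u2, hu2'⟩ : ∃ a, a = u 2 := ⟨_, rfl⟩
  simp only [← ha0, ← ha1, ← ha2, ← hb0, ← hb1, ← hb2, ← hu0, ← hu1, ← hu2'] at hu2 ⊢
  have h3 : u2 ^ 2 = 1 - u0 ^ 2 - u1 ^ 2 := by linarith
  -- Gram determinant of `A, B, u` with `‖u‖ = 1`
  linear_combination
    (-(a0 ^ 2 + a1 ^ 2 + a2 ^ 2) * (b0 ^ 2 + b1 ^ 2 + b2 ^ 2) +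
      (a0 * b0 + a1 * b1 + a2 * b2) ^ 2) * hu2

/-- The axis of the `τ`-cylinder of the lower fan. -/
noncomputable def Dx (ε h τ : ℝ) : E3 := !₂[1, ε / 2 * (1 + τ * (τ + h)), √2 * (ε * (τ + h / 2))]
/-- First base vertex. -/
noncomputable def ptB (ε h τ : ℝ) : E3 := !₂[0, τ * rho ε h (τ + h / 2), √2 * rho ε h (τ + h / 2)]
/-- Second base vertex. -/
noncomputable def ptC (ε h τ : ℝ) : E3 :=
  !₂[0, (τ + h) * rho ε h (τ + h / 2), √2 * rho ε h (τ + h / 2)]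

lemma Dx_ne (ε h τ : ℝ) : Dx ε h τ ≠ 0 := by
  intro h0
  have := congrArg (fun x : E3 => x 0) h0
  simp [Dx] at this

lemma Dx_norm (ε h τ : ℝ) :
    ‖Dx ε h τ‖ = √(1 + ε ^ 2 * ((1 + τ * (τ + h)) ^ 2 / 4 + 2 * (τ + h / 2) ^ 2)) := by
  have h2 : ‖Dx ε h τ‖ ^ 2 = 1 + ε ^ 2 * ((1 + τ * (τ + h)) ^ 2 / 4 + 2 * (τ + h / 2) ^ 2) := by
    rw [normsq3]
    simp only [Dx]
    have r2 : √2 ^ 2 = 2 := Real.sq_sqrt (by norm_num)
    simp only [PiLp.toLp_apply, Matrix.cons_val_zero, Matrix.cons_val_one, Matrix.cons_val]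
    linear_combination (ε * (τ + h / 2)) ^ 2 * r2
  rw [← h2, Real.sqrt_sq (norm_nonneg _)]

/-- The unit axis. -/
noncomputable def ux (ε h τ : ℝ) : E3 := (‖Dx ε h τ‖⁻¹ : ℝ) • Dx ε h τ

lemma ux_unit (ε h τ : ℝ) : ‖ux ε h τ‖ = 1 := unit_of_ne _ (Dx_ne ε h τ)

/-- A point in a wedge and under the height bound is in the cylinder. -/
theorem cyl_lower (ε h τ : ℝ) (X : E3) (t : ℝ) (hε : 0 ≤ ε) (hh : 0 < h) (hX : X 2 = √2 * t)
    (h1 : 0 ≤ F ε (X 0) (X 1) t τ) (h2 : F ε (X 0) (X 1) t (τ + h) ≤ 0)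
    (h3 : t - ε * (τ + h / 2) * X 0 ≤ rho ε h (τ + h / 2)) :
    X ∈ cyl (ux ε h τ) (prj (ux ε h τ) 0) (prj (ux ε h τ) (ptB ε h τ)) (prj (ux ε h τ) (ptC ε h τ)) := by
  obtain ⟨w1, w2, w3, -⟩ := wedge_data ε h τ (X 0) (X 1) t hε hh h1 h2
  have hρ : 0 < rho ε h (τ + h / 2) := by
    have := rho_ge ε h (τ + h / 2) hε hh.le
    linarith
  obtain ⟨ρ, hρ'⟩ : ∃ ρ, ρ = rho ε h (τ + h / 2) := ⟨_, rfl⟩
  obtain ⟨tt, htt⟩ : ∃ tt, tt = t - ε * (τ + h / 2) * X 0 := ⟨_, rfl⟩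
  obtain ⟨yy, hyy⟩ : ∃ yy, yy = X 1 - ε / 2 * (1 + τ * (τ + h)) * X 0 := ⟨_, rfl⟩
  rw [← htt, ← hyy] at w1 w2
  rw [← htt] at w3 h3
  rw [← hρ'] at h3 hρ
  have hmem : X - X 0 • Dx ε h τ ∈ convexHull ℝ {(0 : E3), ptB ε h τ, ptC ε h τ} := by
    have hβ : 0 ≤ ((τ + h) * tt - yy) / (h * ρ) := div_nonneg (by linarith) (by positivity)
    have hγ : 0 ≤ (yy - τ * tt) / (h * ρ) := div_nonneg (by linarith) (by positivity)
    have hsum : ((τ + h) * tt - yy) / (h * ρ) + (yy - τ * tt) / (h * ρ) = tt / ρ := by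
      field_simp
      ring
    have hα : 0 ≤ 1 - tt / ρ := by
      have : tt / ρ ≤ 1 := (div_le_one hρ).2 h3
      linarith
    refine mem_conv3_of_weights hα hβ hγ (by linarith) ?_
    ext i
    fin_cases i
    · simp [Dx, ptB, ptC]
    · simp [Dx, ptB, ptC, ← hρ']
      field_simp
      rw [hyy]
      ring
    · simp [Dx, ptB, ptC, ← hρ', hX]
      field_simp
      rw [htt]
      ring
  have := axis_cyl (Dx ε h τ) (Dx_ne ε h τ) 0 (ptB ε h τ) (ptC ε h τ) _ hmem (X 0)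
  simpa [ux] using this

/-- The area of a lower cylinder base. -/
lemma triA_lower (ε h τ : ℝ) (hh : 0 < h) :
    triA (prj (ux ε h τ) 0) (prj (ux ε h τ) (ptB ε h τ)) (prj (ux ε h τ) (ptC ε h τ)) =
      √2 / 2 * (h * (rho ε h (τ + h / 2) ^ 2 / ‖Dx ε h τ‖)) := by
  have hn : 0 < ‖Dx ε h τ‖ := norm_pos_iff.2 (Dx_ne ε h τ)
  unfold triA
  rw [prj_zero, sub_zero, sub_zero, gram_prj _ (ux_unit ε h τ)]
  have hdet : det3 (ptB ε h τ) (ptC ε h τ) (ux ε h τ) =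
      -(√2 * (h * (rho ε h (τ + h / 2) ^ 2 / ‖Dx ε h τ‖))) := by
    simp [det3, ptB, ptC, ux, Dx]
    field_simp
    ring
  rw [hdet, neg_sq, Real.sqrt_sq (by positivity)]
  ring

/-- The region containing the tetrahedron. -/
def region : Set E3 := {X | ∃ t, X 2 = √2 * t ∧ |X 0| ≤ 1 - t ∧ |X 1| ≤ t}

lemma K0_sub_region : K0 ⊆ region := by
  apply convexHull_min
  · intro X hX
    simp only [Set.mem_insert_iff, Set.mem_singleton_iff] at hX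
    rcases hX with rfl | rfl | rfl | rfl
    · exact ⟨0, by simp [vA], by simp [vA], by simp [vA]⟩
    · exact ⟨0, by simp [vB], by simp [vB], by simp [vB]⟩
    · exact ⟨1, by simp [vC], by simp [vC], by simp [vC]⟩
    · exact ⟨1, by simp [vD], by simp [vD], by simp [vD]⟩
  · rintro X ⟨t, h1, h2, h3⟩ Y ⟨t', h1', h2', h3'⟩ a b ha hb hab
    refine ⟨a * t + b * t', ?_, ?_, ?_⟩
    · simp [h1, h1']; ring
    · simp only [PiLp.add_apply, PiLp.smul_apply, smul_eq_mul]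
      calc |a * X 0 + b * Y 0| ≤ |a * X 0| + |b * Y 0| := abs_add_le _ _
        _ = a * |X 0| + b * |Y 0| := by rw [abs_mul, abs_mul, abs_of_nonneg ha, abs_of_nonneg hb]
        _ ≤ a * (1 - t) + b * (1 - t') := by gcongr
        _ = 1 - (a * t + b * t') := by
          have : b = 1 - a := by linarith
          subst this; ring
    · simp only [PiLp.add_apply, PiLp.smul_apply, smul_eq_mul]
      calc |a * X 1 + b * Y 1| ≤ |a * X 1| + |b * Y 1| := abs_add_le _ _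
        _ = a * |X 1| + b * |Y 1| := by rw [abs_mul, abs_mul, abs_of_nonneg ha, abs_of_nonneg hb]
        _ ≤ a * t + b * t' := by gcongr

/-! ### Similarities -/

section Sim

variable (Q : E3 ≃ₗᵢ[ℝ] E3) (lam : ℝ) (b : E3)

/-- The similarity. -/
noncomputable def simMap (x : E3) : E3 := lam • Q x + b

/-- The image of a base point. -/
noncomputable def simPt (u p : E3) : E3 := lam • Q p + prj (Q u) b

lemma sim_unit (u : E3) (hu : ‖u‖ = 1) : ‖Q u‖ = 1 := by rw [Q.norm_map, hu]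

lemma sim_orth (u p : E3) (hu : ‖u‖ = 1) (hp : ⟪p, u⟫ = 0) : ⟪simPt Q lam b u p, Q u⟫ = 0 := by
  simp only [simPt, inner_add_left, inner_smul_left, Q.inner_map_map, hp]
  rw [prj_orth _ (sim_unit Q u hu)]
  simp

lemma sim_cyl (u p q r x : E3) (hx : x ∈ cyl u p q r) :
    simMap Q lam b x ∈ cyl (Q u) (simPt Q lam b u p) (simPt Q lam b u q) (simPt Q lam b u r) := by
  obtain ⟨y, hy, t, rfl⟩ := hx
  obtain ⟨α, β, γ, h1, h2, h3, h4, rfl⟩ := weights_of_mem_conv3 hy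
  refine ⟨_, mem_conv3_of_weights h1 h2 h3 h4 rfl, lam * t + ⟪b, Q u⟫, ?_⟩
  obtain ⟨P, hP⟩ : ∃ P, P = prj (Q u) b := ⟨_, rfl⟩
  have hb : b = P + ⟪b, Q u⟫ • Q u := by rw [hP]; simp [prj]
  simp only [simPt, ← hP]
  have h5 : α • (lam • Q p + P) + β • (lam • Q q + P) + γ • (lam • Q r + P) =
      lam • (α • Q p + β • Q q + γ • Q r) + (α + β + γ) • P := by
    simp only [smul_add, add_smul, smul_smul, mul_comm]
    abel
  rw [h5, h4, one_smul]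
  simp only [simMap, map_add, map_smul, smul_add, add_smul, mul_smul]
  nth_rewrite 1 [hb]
  abel

lemma sim_sub (u p q : E3) : simPt Q lam b u q - simPt Q lam b u p = lam • Q (q - p) := by
  simp only [simPt, map_sub, smul_sub]
  abel

lemma sim_gram (x y : E3) : gram (lam • Q x) (lam • Q y) = lam ^ 4 * gram x y := by
  unfold gram
  rw [norm_smul, norm_smul, Q.norm_map, Q.norm_map, inner_smul_left, inner_smul_right,
    Q.inner_map_map]
  simp only [Real.norm_eq_abs, conj_trivial]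
  rw [mul_pow, mul_pow, sq_abs]
  ring

lemma sim_triA (u p q r : E3) :
    triA (simPt Q lam b u p) (simPt Q lam b u q) (simPt Q lam b u r) = lam ^ 2 * triA p q r := by
  unfold triA
  rw [sim_sub, sim_sub, sim_gram]
  have : lam ^ 4 = (lam ^ 2) ^ 2 := by ring
  rw [this, Real.sqrt_mul (by positivity), Real.sqrt_sq (by positivity)]
  ring

end Sim

/-- A cover of `S` by cylinders of total base area at most `A`. -/
def IsTriCover {ι : Type*} [Fintype ι] (S : Set E3) (A : ℝ) (u p q r : ι → E3) : Prop :=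
  (∀ i, ‖u i‖ = 1) ∧ (∀ i, ⟪p i, u i⟫ = 0 ∧ ⟪q i, u i⟫ = 0 ∧ ⟪r i, u i⟫ = 0) ∧
    (S ⊆ ⋃ i, cyl (u i) (p i) (q i) (r i)) ∧ ∑ i, triA (p i) (q i) (r i) ≤ A

theorem IsTriCover.sim {ι : Type*} [Fintype ι] {S : Set E3} {A : ℝ} {u p q r : ι → E3}
    (h : IsTriCover S A u p q r) (Q : E3 ≃ₗᵢ[ℝ] E3) (lam : ℝ) (b : E3) (hlam : 0 ≤ lam) :
    IsTriCover (simMap Q lam b '' S) (lam ^ 2 * A) (fun i => Q (u i))
      (fun i => simPt Q lam b (u i) (p i)) (fun i => simPt Q lam b (u i) (q i))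
      (fun i => simPt Q lam b (u i) (r i)) := by
  obtain ⟨h1, h2, h3, h4⟩ := h
  refine ⟨fun i => sim_unit Q _ (h1 i), fun i => ⟨sim_orth Q lam b _ _ (h1 i) (h2 i).1,
    sim_orth Q lam b _ _ (h1 i) (h2 i).2.1, sim_orth Q lam b _ _ (h1 i) (h2 i).2.2⟩, ?_, ?_⟩
  · rintro _ ⟨x, hx, rfl⟩
    obtain ⟨i, hi⟩ := Set.mem_iUnion.1 (h3 hx)
    exact Set.mem_iUnion.2 ⟨i, sim_cyl Q lam b _ _ _ _ _ hi⟩
  · simp only [sim_triA Q lam b _ _ _ _]
    rw [← Finset.mul_sum]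
    exact mul_le_mul_of_nonneg_left h4 (by positivity)

/-- Linear isometries from an orthonormal triple. -/
lemma exists_QI (f : Fin 3 → E3) (hf : Orthonormal ℝ f) :
    ∃ Q : E3 ≃ₗᵢ[ℝ] E3, ∀ x, Q x = x 0 • f 0 + x 1 • f 1 + x 2 • f 2 := by
  have hf' : Orthonormal ℝ ((Set.univ : Set (Fin 3)).domRestrict f) := by
    rw [orthonormal_iff_ite] at hf ⊢
    rintro ⟨i, hi⟩ ⟨j, hj⟩
    simpa using hf i j
  obtain ⟨B, hB⟩ := hf'.exists_orthonormalBasis_extension_of_card_eq (by simp)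
  refine ⟨(EuclideanSpace.basisFun (Fin 3) ℝ).equiv B (Equiv.refl _), ?_⟩
  intro x
  have hx : x = ∑ i, x i • EuclideanSpace.basisFun (Fin 3) ℝ i := by
    have := (EuclideanSpace.basisFun (Fin 3) ℝ).sum_repr x
    simpa using this.symm
  conv_lhs => rw [hx]
  rw [map_sum, Fin.sum_univ_three]
  simp only [map_smul, OrthonormalBasis.equiv_apply_basis, Equiv.refl_apply]
  rw [hB 0 (Set.mem_univ _), hB 1 (Set.mem_univ _), hB 2 (Set.mem_univ _)]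

/-- The symmetry of the tetrahedron exchanging the two fans: linear part. -/
lemma exists_sigma : ∃ Q : E3 ≃ₗᵢ[ℝ] E3, ∀ x, Q x = !₂[x 1, -x 0, -x 2] := by
  obtain ⟨Q, hQ⟩ := exists_QI ![!₂[0, -1, 0], !₂[1, 0, 0], !₂[0, 0, -1]] (by
    rw [orthonormal_iff_ite]
    intro i j
    rw [inner3]
    fin_cases i <;> fin_cases j <;> simp)
  refine ⟨Q, fun x => ?_⟩
  rw [hQ]
  ext i
  fin_cases i <;> simp

/-- The fan cover. -/
theorem fan_cover (ε h : ℝ) (N : ℕ) (hN : 0 < N) (hε : 0 < ε) (hε' : ε ≤ 1 / 10) (hh : 0 < h)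
    (hh' : h ≤ 1) (hNh : (N : ℝ) * h = 2) :
    ∃ u p q r : Fin N ⊕ Fin N → E3, IsTriCover K0
      (√2 * (1 / 2 - ε ^ 2 / 60 + 2 * (2 * ε ^ 3 + 2 * ε * h) +
        2 * ((ε ^ 2 / 2 + (2 * ε ^ 3 + 2 * ε * h)) ^ 2 + 27 * ε ^ 4 / 32 + ε ^ 2 * h ^ 2 / 32) +
        ε ^ 2 * h ^ 2 / 96)) u p q r := by
  obtain ⟨Q, hQ⟩ := exists_sigma
  let b0 : E3 := !₂[0, 0, √2]
  let τ : Fin N → ℝ := fun i => -1 + ((i : ℕ) : ℝ) * h
  let ul : Fin N → E3 := fun i => ux ε h (τ i)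
  let pl : Fin N → E3 := fun i => prj (ul i) 0
  let ql : Fin N → E3 := fun i => prj (ul i) (ptB ε h (τ i))
  let rl : Fin N → E3 := fun i => prj (ul i) (ptC ε h (τ i))
  have hsum : ∑ i, triA (pl i) (ql i) (rl i) ≤ √2 / 2 * (1 / 2 - ε ^ 2 / 60 + 2 * (2 * ε ^ 3 + 2 * ε * h) +
        2 * ((ε ^ 2 / 2 + (2 * ε ^ 3 + 2 * ε * h)) ^ 2 + 27 * ε ^ 4 / 32 + ε ^ 2 * h ^ 2 / 32) +
        ε ^ 2 * h ^ 2 / 96) := by
    have h1 := fan_sum ε h N hε.le hε' hh hh' hNh (fun i => ‖Dx ε h (-1 + (i : ℝ) * h)‖)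
      (fun i _ => Dx_norm ε h _)
    have h2 : ∑ i, triA (pl i) (ql i) (rl i) = √2 / 2 * ∑ i : Fin N,
        h * (rho ε h (-1 + ((i : ℕ) : ℝ) * h + h / 2) ^ 2 / ‖Dx ε h (-1 + ((i : ℕ) : ℝ) * h)‖) := by
      rw [Finset.mul_sum]
      apply Finset.sum_congr rfl
      intro i _
      exact triA_lower ε h _ hh
    rw [h2, Fin.sum_univ_eq_sum_range (fun i : ℕ => h * (rho ε h (-1 + (i : ℝ) * h + h / 2) ^ 2 /
      ‖Dx ε h (-1 + (i : ℝ) * h)‖)) N]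
    exact mul_le_mul_of_nonneg_left h1 (by positivity)
  have hl : ∀ i, ‖ul i‖ = 1 := fun i => ux_unit ε h _
  have horth : ∀ i, ⟪pl i, ul i⟫ = 0 ∧ ⟪ql i, ul i⟫ = 0 ∧ ⟪rl i, ul i⟫ = 0 := fun i =>
    ⟨prj_orth _ (hl i) _, prj_orth _ (hl i) _, prj_orth _ (hl i) _⟩
  refine ⟨Sum.elim ul (fun i => Q (ul i)), Sum.elim pl (fun i => simPt Q 1 b0 (ul i) (pl i)),
    Sum.elim ql (fun i => simPt Q 1 b0 (ul i) (ql i)),
    Sum.elim rl (fun i => simPt Q 1 b0 (ul i) (rl i)), ?_, ?_, ?_, ?_⟩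
  · rintro (i | i)
    · exact hl i
    · exact sim_unit Q _ (hl i)
  · rintro (i | i)
    · exact horth i
    · exact ⟨sim_orth Q 1 b0 _ _ (hl i) (horth i).1, sim_orth Q 1 b0 _ _ (hl i) (horth i).2.1,
        sim_orth Q 1 b0 _ _ (hl i) (horth i).2.2⟩
  · intro X hX
    obtain ⟨t, hX2, hX0, hX1⟩ := K0_sub_region hX
    have ht0 : 0 ≤ t := (abs_nonneg _).trans hX1
    have ht1 : t ≤ 1 := by linarith [abs_nonneg (X 0)]
    -- the image point under the inverse symmetry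
    obtain ⟨i, hi, w1, w2⟩ := exists_wedge ε h (X 0) (X 1) t N hN hNh hX1
    obtain ⟨j, hj, w3, w4⟩ := exists_wedge ε h (-(X 1)) (X 0) (1 - t) N hN hNh hX0
    have hbound : ∀ k : ℕ, k < N → |(-1 + (k : ℝ) * h + h / 2)| ≤ 1 := by
      intro k hk
      have h0 : (0 : ℝ) ≤ (k : ℝ) * h := by positivity
      have h1 : (k : ℝ) * h + h ≤ 2 := by
        rw [← hNh]
        have : ((k : ℝ) + 1) ≤ N := by exact_mod_cast hk
        nlinarith
      rw [abs_le]; constructor <;> linarith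
    have hx1 : |X 0| ≤ 1 := by linarith
    have hy1 : |X 1| ≤ 1 := by linarith
    have he1 := wedge_err ε h _ (X 0) (X 1) t hε.le (by linarith) hh hh' (hbound i hi) hx1 ht1 w1 w2
    have he2 := wedge_err ε h _ (-(X 1)) (X 0) (1 - t) hε.le (by linarith) hh hh' (hbound j hj)
      (by rwa [abs_neg]) (by linarith) w3 w4
    have hno := no_escape ε h (X 0) (X 1) t (1 - t) (-1 + (i : ℝ) * h + h / 2)
      (-1 + (j : ℝ) * h + h / 2) _ _ hε (by linarith) hh (hbound i hi) (hbound j hj) hx1 hy1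
      (by ring) rfl rfl he1 (by
        have e : X 0 - (-1 + (j : ℝ) * h + h / 2) * (1 - t) +
            ε / 2 * X 1 * (1 - (-1 + (j : ℝ) * h + h / 2) ^ 2) =
            X 0 - (-1 + (j : ℝ) * h + h / 2) * (1 - t) -
            ε / 2 * (-(X 1)) * (1 - (-1 + (j : ℝ) * h + h / 2) ^ 2) := by ring
        rw [e]
        exact he2)
    rw [not_and_or, not_lt, not_lt] at hno
    rcases hno with hno | hno
    · -- lower fan
      refine Set.mem_iUnion.2 ⟨Sum.inl ⟨i, hi⟩, ?_⟩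
      exact cyl_lower ε h _ X t hε.le hh hX2 w1 w2 hno
    · -- upper fan
      refine Set.mem_iUnion.2 ⟨Sum.inr ⟨j, hj⟩, ?_⟩
      let X' : E3 := !₂[-(X 1), X 0, √2 - X 2]
      have hX'2 : X' 2 = √2 * (1 - t) := by simp [X', hX2]; ring
      have hmem := cyl_lower ε h _ X' (1 - t) hε.le hh hX'2 (by simpa [X'] using w3)
        (by simpa [X'] using w4) (by
          have e : 1 - t - ε * (-1 + (j : ℝ) * h + h / 2) * X' 0 =
              1 - t + ε * (-1 + (j : ℝ) * h + h / 2) * X 1 := by simp [X']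
          rw [e]
          exact hno)
      have hsim := sim_cyl Q 1 b0 _ _ _ _ _ hmem
      have hXe : simMap Q 1 b0 X' = X := by
        simp only [simMap, hQ, one_smul]
        ext k
        fin_cases k <;> simp [X', b0]
      rw [hXe] at hsim
      exact hsim
  · rw [Fintype.sum_sum_type]
    simp only [Sum.elim_inl, Sum.elim_inr, sim_triA Q 1 b0 _ _ _ _, one_pow, one_mul]
    have : √2 * (1 / 2 - ε ^ 2 / 60 + 2 * (2 * ε ^ 3 + 2 * ε * h) +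
        2 * ((ε ^ 2 / 2 + (2 * ε ^ 3 + 2 * ε * h)) ^ 2 + 27 * ε ^ 4 / 32 + ε ^ 2 * h ^ 2 / 32) +
        ε ^ 2 * h ^ 2 / 96) = 2 * (√2 / 2 * (1 / 2 - ε ^ 2 / 60 + 2 * (2 * ε ^ 3 + 2 * ε * h) +
        2 * ((ε ^ 2 / 2 + (2 * ε ^ 3 + 2 * ε * h)) ^ 2 + 27 * ε ^ 4 / 32 + ε ^ 2 * h ^ 2 / 32) +
        ε ^ 2 * h ^ 2 / 96)) := by ring
    rw [this]
    linarith

end Crest.Agent.Lib.TetFan
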