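import Crest.Agent.Lib.TetArea

/-!
# The least projection area of the regular tetrahedron

For every unit vector `v`, the orthogonal projection of the tetrahedron with vertices
`(±1, 0, 0)`, `(0, ±1, √2)` onto `v^⊥` has area at least `√2`.
-/

set_option autoImplicit false
set_option linter.unusedSimpArgs false
set_option linter.deprecated false
open MeasureTheory
open scoped ENNReal RealInnerProductSpace

namespace Crest.Agent.Lib.TetMinProj

open Crest.Agent.Lib.TetArea

/-- Twice the signed area of a planar triangle. -/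
noncomputable def sarea (P Q R : E2) : ℝ :=
  (Q 0 - P 0) * (R 1 - P 1) - (Q 1 - P 1) * (R 0 - P 0)

lemma conv3_eq_image2 (P Q R : E2) :
    convexHull ℝ {P, Q, R} = (fun x : E2 => P + (x 0 • (Q - P) + x 1 • (R - P))) '' stdTri := by
  ext x
  constructor
  · intro hx
    obtain ⟨α, β, γ, h1, h2, h3, h4, rfl⟩ := weights_of_mem_conv3 hx
    refine ⟨!₂[β, γ], ?_, ?_⟩
    · simp only [stdTri, Set.mem_setOf_eq]
      simp
      exact ⟨h2, h3, by linarith⟩
    · simp
      have : α = 1 - β - γ := by linarith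
      subst this
      simp only [smul_sub, sub_smul, one_smul]
      abel
  · rintro ⟨y, ⟨h0, h1, h2⟩, rfl⟩
    refine mem_conv3_of_weights' (α := 1 - y 0 - y 1) (β := y 0) (γ := y 1) (by linarith) h0 h1
      (by ring) ?_
    simp only [smul_sub, sub_smul, one_smul]
    abel

/-- Area of a planar triangle. -/
theorem vol_tri2 (P Q R : E2) :
    volume (convexHull ℝ {P, Q, R}) = ENNReal.ofReal (|sarea P Q R| / 2) := by
  have h : (fun x : E2 => P + (x 0 • (Q - P) + x 1 • (R - P))) '' stdTri =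
      (fun y => P + y) '' ((fun x : E2 => x 0 • (Q - P) + x 1 • (R - P)) '' stdTri) := by
    rw [Set.image_image]
  rw [conv3_eq_image2, h, Set.image_add_left, measure_preimage_add, vol_image_lin2, vol_stdTri,
    ENNReal.ofReal_div_of_pos (by norm_num : (0 : ℝ) < 2)]
  have h2 : (Q - P) 0 * (R - P) 1 - (Q - P) 1 * (R - P) 0 = sarea P Q R := by
    simp [sarea]
  rw [h2, div_eq_mul_inv, div_eq_mul_inv]
  simp

lemma sarea_conv (P Q R : E2) {α β γ : ℝ} (hs : α + β + γ = 1) :
    sarea P Q (α • P + β • Q + γ • R) = γ * sarea P Q R := by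
  have : α = 1 - β - γ := by linarith
  subst this
  simp only [sarea, PiLp.add_apply, PiLp.smul_apply, smul_eq_mul]
  ring

/-- Two triangles on opposite sides of a common edge. -/
theorem vol_two_tri (P Q R W : E2) (h : sarea P Q R * sarea P Q W ≤ 0) :
    ENNReal.ofReal ((|sarea P Q R| + |sarea P Q W|) / 2) ≤
      volume (convexHull ℝ {P, Q, R} ∪ convexHull ℝ {P, Q, W}) := by
  by_cases hPQ : P = Q
  · subst hPQ
    simp [sarea]
  have hline : volume {X : E2 | (-(Q 1 - P 1)) * X 0 + (Q 0 - P 0) * X 1 =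
      (Q 0 - P 0) * P 1 - (Q 1 - P 1) * P 0} = 0 := by
    apply vol_line
    by_contra hcon
    push Not at hcon
    apply hPQ
    ext i
    fin_cases i
    · simp; linarith [hcon.2]
    · simp; linarith [hcon.1]
  have hinter : volume (convexHull ℝ {P, Q, R} ∩ convexHull ℝ {P, Q, W}) = 0 := by
    apply measure_mono_null _ hline
    rintro X ⟨hX1, hX2⟩
    obtain ⟨α, β, γ, h1, h2, h3, h4, rfl⟩ := weights_of_mem_conv3 hX1
    obtain ⟨α', β', γ', h1', h2', h3', h4', h5⟩ := weights_of_mem_conv3 hX2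
    have e1 := sarea_conv P Q R h4
    have e2 := sarea_conv P Q W h4'
    rw [← h5] at e2
    have hz : sarea P Q (α • P + β • Q + γ • R) = 0 := by
      set Z := sarea P Q (α • P + β • Q + γ • R) with hZ
      have : Z * Z ≤ 0 := by
        calc Z * Z = (γ * sarea P Q R) * (γ' * sarea P Q W) := by rw [← e1, ← e2]
          _ = (γ * γ') * (sarea P Q R * sarea P Q W) := by ring
          _ ≤ 0 := mul_nonpos_of_nonneg_of_nonpos (by positivity) h
      nlinarith
    simp only [sarea] at hz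
    simp only [Set.mem_setOf_eq]
    linarith
  have hcl : MeasurableSet (convexHull ℝ ({P, Q, W} : Set E2)) :=
    ((Set.toFinite ({P, Q, W} : Set E2)).isCompact_convexHull (𝕜 := ℝ)).measurableSet
  have hadd := measure_union_add_inter (μ := volume) (convexHull ℝ ({P, Q, R} : Set E2)) hcl
  rw [hinter, add_zero, vol_tri2, vol_tri2] at hadd
  rw [hadd, add_div, ENNReal.ofReal_add (by positivity) (by positivity)]

/-- The determinant of three vectors in coordinates. -/
noncomputable def det3 (x y z : E3) : ℝ :=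
  x 0 * (y 1 * z 2 - y 2 * z 1) - x 1 * (y 0 * z 2 - y 2 * z 0) + x 2 * (y 0 * z 1 - y 1 * z 0)

lemma B_coord (B : OrthonormalBasis (Fin 3) ℝ E3) (x : E3) (i : Fin 3) :
    x i = ⟪x, B 0⟫ * B 0 i + ⟪x, B 1⟫ * B 1 i + ⟪x, B 2⟫ * B 2 i := by
  have := B_expand B x
  conv_lhs => rw [this]
  simp

lemma det3_sq (B : OrthonormalBasis (Fin 3) ℝ E3) : det3 (B 0) (B 1) (B 2) ^ 2 = 1 := by
  have h00 := B_inner B 0 0
  have h01 := B_inner B 0 1
  have h02 := B_inner B 0 2
  have h11 := B_inner B 1 1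
  have h12 := B_inner B 1 2
  have h22 := B_inner B 2 2
  rw [if_pos rfl] at h00 h11 h22
  rw [if_neg (by decide)] at h01 h02 h12
  simp only [inner3] at h00 h01 h02 h11 h12 h22
  unfold det3
  set a0 := B 0 0
  set a1 := B 0 1
  set a2 := B 0 2
  set b0 := B 1 0
  set b1 := B 1 1
  set b2 := B 1 2
  set c0 := B 2 0
  set c1 := B 2 1
  set c2 := B 2 2
  have key : (a0 * (b1 * c2 - b2 * c1) - a1 * (b0 * c2 - b2 * c0) + a2 * (b0 * c1 - b1 * c0)) ^ 2 =
      (a0*a0+a1*a1+a2*a2) * ((b0*b0+b1*b1+b2*b2) * (c0*c0+c1*c1+c2*c2) - (b0*c0+b1*c1+b2*c2)^2)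
      - (a0*b0+a1*b1+a2*b2) * ((a0*b0+a1*b1+a2*b2) * (c0*c0+c1*c1+c2*c2) - (b0*c0+b1*c1+b2*c2) * (a0*c0+a1*c1+a2*c2))
      + (a0*c0+a1*c1+a2*c2) * ((a0*b0+a1*b1+a2*b2) * (b0*c0+b1*c1+b2*c2) - (b0*b0+b1*b1+b2*b2) * (a0*c0+a1*c1+a2*c2)) := by
    ring
  rw [key, h00, h01, h02, h11, h12, h22]
  norm_num

/-- The planar determinant of coordinates is (up to a global sign) the determinant with the normal. -/
lemma crd_det (B : OrthonormalBasis (Fin 3) ℝ E3) (x y : E3) :
    ⟪x, B 0⟫ * ⟪y, B 1⟫ - ⟪x, B 1⟫ * ⟪y, B 0⟫ = det3 (B 0) (B 1) (B 2) * det3 x y (B 2) := by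
  have hσ := det3_sq B
  have e : det3 x y (B 2) = (⟪x, B 0⟫ * ⟪y, B 1⟫ - ⟪x, B 1⟫ * ⟪y, B 0⟫) * det3 (B 0) (B 1) (B 2) := by
    unfold det3
    rw [B_coord B x 0, B_coord B x 1, B_coord B x 2, B_coord B y 0, B_coord B y 1, B_coord B y 2]
    ring
  rw [e]
  calc ⟪x, B 0⟫ * ⟪y, B 1⟫ - ⟪x, B 1⟫ * ⟪y, B 0⟫
      = (⟪x, B 0⟫ * ⟪y, B 1⟫ - ⟪x, B 1⟫ * ⟪y, B 0⟫) * det3 (B 0) (B 1) (B 2) ^ 2 := by rw [hσ, mul_one]
    _ = _ := by ring

lemma sarea_crd (B : OrthonormalBasis (Fin 3) ℝ E3) (X Y Z : E3) :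
    sarea (crd B X) (crd B Y) (crd B Z) =
      det3 (B 0) (B 1) (B 2) * det3 (Y - X) (Z - X) (B 2) := by
  rw [← crd_det]
  simp only [sarea, crd_apply0, crd_apply1, inner_sub_left]

lemma crd_conv (B : OrthonormalBasis (Fin 3) ℝ E3) (α β γ : ℝ) (X Y Z : E3) :
    α • crd B X + β • crd B Y + γ • crd B Z = crd B (α • X + β • Y + γ • Z) := by
  ext i
  fin_cases i
  · simp [crd, inner_add_left, inner_smul_left]
  · simp [crd, inner_add_left, inner_smul_left]

/-- The tetrahedron. -/
noncomputable def vA : E3 := !₂[1, 0, 0]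
noncomputable def vB : E3 := !₂[-1, 0, 0]
noncomputable def vC : E3 := !₂[0, 1, √2]
noncomputable def vD : E3 := !₂[0, -1, √2]

noncomputable def K0 : Set E3 := convexHull ℝ {vA, vB, vC, vD}

/-- The projection along a unit vector. -/
noncomputable def prj (v : E3) : E3 → E3 := fun y => y - ⟪y, v⟫ • v

lemma prj_image (B : OrthonormalBasis (Fin 3) ℝ E3) (S : Set E3) :
    prj (B 2) '' S = emb B '' (crd B '' S) := by
  rw [Set.image_image]
  apply Set.image_congr
  intro x _
  rw [emb_crd]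
  rfl

lemma area_prj (B : OrthonormalBasis (Fin 3) ℝ E3) (S : Set E3) :
    μHE[2] (prj (B 2) '' S) = volume (crd B '' S) := by
  rw [prj_image, area_emb_image]

lemma crd_continuous (B : OrthonormalBasis (Fin 3) ℝ E3) : Continuous (crd B) := by
  unfold crd
  apply (PiLp.continuous_toLp 2 _).comp
  apply continuous_pi
  intro i
  fin_cases i
  · simpa using (continuous_id.inner continuous_const)
  · simpa using (continuous_id.inner continuous_const)

lemma K0_compact : IsCompact K0 :=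
  (Set.toFinite ({vA, vB, vC, vD} : Set E3)).isCompact_convexHull (𝕜 := ℝ)

lemma area_prj_K0_ne_top (v : E3) (hv : ‖v‖ = 1) : μHE[2] (prj v '' K0) ≠ ⊤ := by
  obtain ⟨B, rfl⟩ := exists_frame_unit v hv
  rw [area_prj]
  exact (K0_compact.image (crd_continuous B)).measure_lt_top.ne

lemma tri_sub_K0 {X Y Z : E3} (hX : X ∈ K0) (hY : Y ∈ K0) (hZ : Z ∈ K0)
    (B : OrthonormalBasis (Fin 3) ℝ E3) :
    convexHull ℝ {crd B X, crd B Y, crd B Z} ⊆ crd B '' K0 := by
  intro p hp
  obtain ⟨α, β, γ, h1, h2, h3, h4, rfl⟩ := weights_of_mem_conv3 hp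
  refine ⟨α • X + β • Y + γ • Z, ?_, (crd_conv B α β γ X Y Z).symm⟩
  have hconv : Convex ℝ K0 := convex_convexHull _ _
  have h5 := hconv.sum_mem (t := Finset.univ) (w := ![α, β, γ]) (z := ![X, Y, Z]) ?_ ?_ ?_
  · simpa [Fin.sum_univ_three] using h5
  · intro i _; fin_cases i <;> simp [h1, h2, h3]
  · simp [Fin.sum_univ_three, h4]
  · intro i _
    fin_cases i
    · simpa using hX
    · simpa using hY
    · simpa using hZ

lemma vA_mem : vA ∈ K0 := subset_convexHull _ _ (by simp)
lemma vB_mem : vB ∈ K0 := subset_convexHull _ _ (by simp)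
lemma vC_mem : vC ∈ K0 := subset_convexHull _ _ (by simp)
lemma vD_mem : vD ∈ K0 := subset_convexHull _ _ (by simp)

/-- The elementary inequality behind the least-projection bound. -/
lemma min_real (x y z V : ℝ) (h : x ^ 2 + y ^ 2 + 2 * z ^ 2 = 2) (hV : 0 ≤ V)
    (h1 : |y - z| ≤ V) (h2 : |y + z| ≤ V) (h3 : |x + z| ≤ V) (h4 : |x - z| ≤ V)
    (h5 : 0 ≤ (y - z) * (x + z) → |y - z| + |x + z| ≤ V)
    (h6 : (y + z) * (x + z) ≤ 0 → |y + z| + |x + z| ≤ V)
    (h7 : (x + z) * (x - z) ≤ 0 → |x + z| + |x - z| ≤ V) : √2 ≤ V := by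
  apply Real.sqrt_le_iff.2
  refine ⟨hV, ?_⟩
  -- reduce to absolute values of x, y, z
  have ax := abs_nonneg x
  have ay := abs_nonneg y
  have az := abs_nonneg z
  have sx : x ^ 2 = |x| ^ 2 := (sq_abs x).symm
  have sy : y ^ 2 = |y| ^ 2 := (sq_abs y).symm
  have sz : z ^ 2 = |z| ^ 2 := (sq_abs z).symm
  have hyz : |y| + |z| ≤ V := by
    rcases le_total 0 y with hy | hy <;> rcases le_total 0 z with hz | hz
    · rw [abs_of_nonneg hy, abs_of_nonneg hz]; rw [abs_of_nonneg (by linarith)] at h2; exact h2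
    · rw [abs_of_nonneg hy, abs_of_nonpos hz]; rw [abs_of_nonneg (by linarith)] at h1; linarith
    · rw [abs_of_nonpos hy, abs_of_nonneg hz]; rw [abs_of_nonpos (by linarith)] at h1; linarith
    · rw [abs_of_nonpos hy, abs_of_nonpos hz]; rw [abs_of_nonpos (by linarith)] at h2; linarith
  have hxz : |x| + |z| ≤ V := by
    rcases le_total 0 x with hy | hy <;> rcases le_total 0 z with hz | hz
    · rw [abs_of_nonneg hy, abs_of_nonneg hz]; rw [abs_of_nonneg (by linarith)] at h3; exact h3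
    · rw [abs_of_nonneg hy, abs_of_nonpos hz]; rw [abs_of_nonneg (by linarith)] at h4; linarith
    · rw [abs_of_nonpos hy, abs_of_nonneg hz]; rw [abs_of_nonpos (by linarith)] at h4; linarith
    · rw [abs_of_nonpos hy, abs_of_nonpos hz]; rw [abs_of_nonpos (by linarith)] at h3; linarith
  by_cases c1 : |z| ≤ |x|
  · by_cases c2 : |z| ≤ |y|
    · -- both dominate `z`: two triangles with bound `|x| + |y|`
      have hxy : |x| + |y| ≤ V := by
        have az' : z ^ 2 ≤ x ^ 2 := by rw [sz, sx]; exact pow_le_pow_left₀ az c1 2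
        have az'' : z ^ 2 ≤ y ^ 2 := by rw [sz, sy]; exact pow_le_pow_left₀ az c2 2
        rcases le_total 0 x with hx | hx <;> rcases le_total 0 y with hy | hy
        · have a1 : 0 ≤ y - z := by
            rw [abs_of_nonneg hy] at c2; linarith [le_abs_self z]
          have a2 : 0 ≤ x + z := by
            rw [abs_of_nonneg hx] at c1; linarith [neg_abs_le z]
          have := h5 (mul_nonneg a1 a2)
          rw [abs_of_nonneg a1, abs_of_nonneg a2] at this
          rw [abs_of_nonneg hx, abs_of_nonneg hy]; linarith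
        · have a1 : y + z ≤ 0 := by
            rw [abs_of_nonpos hy] at c2; linarith [le_abs_self z]
          have a2 : 0 ≤ x + z := by
            rw [abs_of_nonneg hx] at c1; linarith [neg_abs_le z]
          have := h6 (mul_nonpos_of_nonpos_of_nonneg a1 a2)
          rw [abs_of_nonpos a1, abs_of_nonneg a2] at this
          rw [abs_of_nonneg hx, abs_of_nonpos hy]; linarith
        · have a1 : 0 ≤ y + z := by
            rw [abs_of_nonneg hy] at c2; linarith [neg_abs_le z]
          have a2 : x + z ≤ 0 := by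
            rw [abs_of_nonpos hx] at c1; linarith [le_abs_self z]
          have := h6 (mul_nonpos_of_nonneg_of_nonpos a1 a2)
          rw [abs_of_nonneg a1, abs_of_nonpos a2] at this
          rw [abs_of_nonpos hx, abs_of_nonneg hy]; linarith
        · have a1 : y - z ≤ 0 := by
            rw [abs_of_nonpos hy] at c2; linarith [neg_abs_le z]
          have a2 : x + z ≤ 0 := by
            rw [abs_of_nonpos hx] at c1; linarith [le_abs_self z]
          have := h5 (mul_nonneg_of_nonpos_of_nonpos a1 a2)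
          rw [abs_of_nonpos a1, abs_of_nonpos a2] at this
          rw [abs_of_nonpos hx, abs_of_nonpos hy]; linarith
      have hzxy : |z| ^ 2 ≤ |x| * |y| := by nlinarith
      nlinarith [mul_nonneg ax ay]
    · -- `|x| ≥ |z| > |y|`
      rw [not_le] at c2
      have : |z| * |z| ≤ |x| * |z| := mul_le_mul_of_nonneg_right c1 az
      nlinarith [mul_self_nonneg (|z| - |y|), mul_nonneg ax az]
  · rw [not_le] at c1
    by_cases c2 : |z| ≤ |y|
    · have : |z| * |z| ≤ |y| * |z| := mul_le_mul_of_nonneg_right c2 az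
      nlinarith [mul_self_nonneg (|z| - |x|), mul_nonneg ay az]
    · -- `z` dominates: two triangles with bound `2 |z|`
      rw [not_le] at c2
      have hzz : 2 * |z| ≤ V := by
        have a0 : (x + z) * (x - z) ≤ 0 := by
          have : x ^ 2 ≤ z ^ 2 := by rw [sz, sx]; exact pow_le_pow_left₀ ax c1.le 2
          nlinarith
        have := h7 a0
        have a1 : |(x + z) - (x - z)| ≤ |x + z| + |x - z| := abs_sub _ _
        have e : (x + z) - (x - z) = 2 * z := by ring
        rw [e, abs_mul] at a1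
        simp only [Nat.abs_ofNat] at a1
        linarith
      have : |x| ^ 2 ≤ |z| ^ 2 := pow_le_pow_left₀ ax c1.le 2
      have : |y| ^ 2 ≤ |z| ^ 2 := pow_le_pow_left₀ ay c2.le 2
      nlinarith

lemma vA0 : vA 0 = 1 := by simp [vA]
lemma vA1 : vA 1 = 0 := by simp [vA]
lemma vA2 : vA 2 = 0 := by simp [vA]
lemma vB0 : vB 0 = -1 := by simp [vB]
lemma vB1 : vB 1 = 0 := by simp [vB]
lemma vB2 : vB 2 = 0 := by simp [vB]
lemma vC0 : vC 0 = 0 := by simp [vC]
lemma vC1 : vC 1 = 1 := by simp [vC]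
lemma vC2 : vC 2 = √2 := by simp [vC]
lemma vD0 : vD 0 = 0 := by simp [vD]
lemma vD1 : vD 1 = -1 := by simp [vD]
lemma vD2 : vD 2 = √2 := by simp [vD]

/-- **Least projection**: the projection of `K0` along any unit vector has area at least `√2`. -/
theorem min_proj (v : E3) (hv : ‖v‖ = 1) : √2 ≤ (μHE[2] (prj v '' K0)).toReal := by
  have htop := area_prj_K0_ne_top v hv
  obtain ⟨B, rfl⟩ := exists_frame_unit v hv
  rw [area_prj] at htop ⊢
  set V := (volume (crd B '' K0)).toReal with hVdef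
  set S := crd B '' K0 with hS
  set σ := det3 (B 0) (B 1) (B 2) with hσ
  have hσ2 : σ ^ 2 = 1 := det3_sq B
  have aσ : |σ| = 1 := by
    have : |σ| ^ 2 = 1 := by rw [sq_abs]; exact hσ2
    nlinarith [abs_nonneg σ, sq_nonneg (|σ| - 1), sq_nonneg (|σ| + 1)]
  set v0 := B 2 0 with hv0
  set v1 := B 2 1 with hv1
  set v2 := B 2 2 with hv2
  have hn : v0 ^ 2 + v1 ^ 2 + v2 ^ 2 = 1 := by rw [← normsq3, hv]; norm_num
  have r2 : √2 * √2 = 2 := Real.mul_self_sqrt (by norm_num)
  set x := √2 * v0 with hx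
  set y := √2 * v1 with hy
  set z := v2 with hz
  have hxyz : x ^ 2 + y ^ 2 + 2 * z ^ 2 = 2 := by
    have e : x ^ 2 + y ^ 2 + 2 * z ^ 2 = (√2 * √2) * v0 ^ 2 + (√2 * √2) * v1 ^ 2 + 2 * v2 ^ 2 := by
      simp only [hx, hy, hz]; ring
    rw [e, r2]
    nlinarith
  -- signed areas
  have eABC : sarea (crd B vA) (crd B vB) (crd B vC) = σ * (2 * (y - z)) := by
    rw [sarea_crd]
    congr 1
    simp only [det3, PiLp.sub_apply, vA0, vA1, vA2, vB0, vB1, vB2, vC0, vC1, vC2, hy, hz]
    ring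
  have eABD : sarea (crd B vA) (crd B vB) (crd B vD) = σ * (2 * (y + z)) := by
    rw [sarea_crd]
    congr 1
    simp only [det3, PiLp.sub_apply, vA0, vA1, vA2, vB0, vB1, vB2, vD0, vD1, vD2, hy, hz]
    ring
  have eACD : sarea (crd B vA) (crd B vC) (crd B vD) = σ * (2 * (x + z)) := by
    rw [sarea_crd]
    congr 1
    simp only [det3, PiLp.sub_apply, vA0, vA1, vA2, vC0, vC1, vC2, vD0, vD1, vD2, hx, hz]
    ring
  have eBCD : sarea (crd B vB) (crd B vC) (crd B vD) = σ * (2 * (x - z)) := by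
    rw [sarea_crd]
    congr 1
    simp only [det3, PiLp.sub_apply, vB0, vB1, vB2, vC0, vC1, vC2, vD0, vD1, vD2, hx, hz]
    ring
  -- area bounds
  have mono : ∀ T : Set E2, T ⊆ S → (volume T).toReal ≤ V := fun T hT =>
    ENNReal.toReal_mono htop (measure_mono hT)
  have single : ∀ X Y Z : E3, X ∈ K0 → Y ∈ K0 → Z ∈ K0 →
      |sarea (crd B X) (crd B Y) (crd B Z)| / 2 ≤ V := by
    intro X Y Z hX hY hZ
    have := mono _ (tri_sub_K0 hX hY hZ B)
    rwa [vol_tri2, ENNReal.toReal_ofReal (by positivity)] at this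
  have twin : ∀ X Y Z W : E3, X ∈ K0 → Y ∈ K0 → Z ∈ K0 → W ∈ K0 →
      sarea (crd B X) (crd B Y) (crd B Z) * sarea (crd B X) (crd B Y) (crd B W) ≤ 0 →
      (|sarea (crd B X) (crd B Y) (crd B Z)| + |sarea (crd B X) (crd B Y) (crd B W)|) / 2 ≤ V := by
    intro X Y Z W hX hY hZ hW hc
    have h1 := vol_two_tri _ _ _ _ hc
    have h2 : (volume (convexHull ℝ {crd B X, crd B Y, crd B Z} ∪
        convexHull ℝ {crd B X, crd B Y, crd B W})).toReal ≤ V :=
      mono _ (Set.union_subset (tri_sub_K0 hX hY hZ B) (tri_sub_K0 hX hY hW B))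
    have hfin : volume (convexHull ℝ {crd B X, crd B Y, crd B Z} ∪
        convexHull ℝ {crd B X, crd B Y, crd B W}) ≠ ⊤ :=
      ((measure_mono (Set.union_subset (tri_sub_K0 hX hY hZ B) (tri_sub_K0 hX hY hW B))).trans_lt
        htop.lt_top).ne
    have h3 := ENNReal.toReal_mono hfin h1
    rw [ENNReal.toReal_ofReal (by positivity)] at h3
    exact h3.trans h2
  have abs2 : ∀ t : ℝ, |σ * (2 * t)| / 2 = |t| := by
    intro t
    rw [abs_mul, aσ, abs_mul, one_mul]
    simp
  have abs2' : ∀ s t : ℝ, (|σ * (2 * s)| + |σ * (2 * t)|) / 2 = |s| + |t| := by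
    intro s t
    rw [add_div, abs2, abs2]
  have prod : ∀ s t : ℝ, (σ * (2 * s)) * (σ * (2 * t)) = 4 * (s * t) := by
    intro s t
    have : (σ * (2 * s)) * (σ * (2 * t)) = σ ^ 2 * (4 * (s * t)) := by ring
    rw [this, hσ2, one_mul]
  -- orientation flips
  have flip1 : ∀ P Q R : E2, sarea P Q R = - sarea P R Q := by
    intro P Q R; simp only [sarea]; ring
  have flip2 : ∀ P Q R : E2, sarea P Q R = sarea Q R P := by
    intro P Q R; simp only [sarea]; ring
  apply min_real x y z V hxyz ENNReal.toReal_nonneg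
  · have := single _ _ _ vA_mem vB_mem vC_mem
    rwa [eABC, abs2] at this
  · have := single _ _ _ vA_mem vB_mem vD_mem
    rwa [eABD, abs2] at this
  · have := single _ _ _ vA_mem vC_mem vD_mem
    rwa [eACD, abs2] at this
  · have := single _ _ _ vB_mem vC_mem vD_mem
    rwa [eBCD, abs2] at this
  · -- edge `AC`: vertices `B` and `D` on opposite sides
    intro hc
    have := twin vA vC vB vD vA_mem vC_mem vB_mem vD_mem (by
      rw [flip1 (crd B vA) (crd B vC) (crd B vB), eABC, eACD, neg_mul, prod]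
      nlinarith)
    rw [flip1 (crd B vA) (crd B vC) (crd B vB), eABC, eACD, abs_neg, abs2'] at this
    exact this
  · -- edge `AD`: vertices `B` and `C` on opposite sides
    intro hc
    have e1 : sarea (crd B vA) (crd B vD) (crd B vB) = -(σ * (2 * (y + z))) := by
      rw [flip1 (crd B vA) (crd B vD) (crd B vB), eABD]
    have e2 : sarea (crd B vA) (crd B vD) (crd B vC) = -(σ * (2 * (x + z))) := by
      rw [flip1 (crd B vA) (crd B vD) (crd B vC), eACD]
    have := twin vA vD vB vC vA_mem vD_mem vB_mem vC_mem (by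
      rw [e1, e2, neg_mul_neg, prod]
      nlinarith)
    rw [e1, e2, abs_neg, abs_neg, abs2'] at this
    exact this
  · -- edge `CD`: vertices `A` and `B` on opposite sides
    intro hc
    have e1 : sarea (crd B vC) (crd B vD) (crd B vA) = σ * (2 * (x + z)) := by
      rw [← flip2, eACD]
    have e2 : sarea (crd B vC) (crd B vD) (crd B vB) = σ * (2 * (x - z)) := by
      rw [← flip2, eBCD]
    have := twin vC vD vA vB vC_mem vD_mem vA_mem vB_mem (by
      rw [e1, e2, prod]
      nlinarith)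
    rw [e1, e2, abs2'] at this
    exact this

end Crest.Agent.Lib.TetMinProj
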