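import Crest.Agent.Lib.TetCover

/-!
# Similarities between regular tetrahedra, thickening of flat sets, staircases of parallelograms
-/

set_option autoImplicit false
set_option linter.unusedSimpArgs false
set_option linter.deprecated false
open MeasureTheory
open scoped ENNReal RealInnerProductSpace Pointwise

namespace Crest.Agent.Lib.TetSim

open Crest.Agent.Lib.TetArea Crest.Agent.Lib.TetMinProj Crest.Agent.Lib.TetFanReal
  Crest.Agent.Lib.TetFan Crest.Agent.Lib.TetCover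

/-- Area scaling under a similarity. -/
lemma area_simMap (Q : E3 ≃ₗᵢ[ℝ] E3) (lam : ℝ) (hlam : 0 < lam) (b : E3) (S : Set E3) :
    (μHE[2] (simMap Q lam b '' S)).toReal = lam ^ 2 * (μHE[2] S).toReal := by
  have h1 : simMap Q lam b '' S = (fun y => y + b) '' (lam • (Q '' S)) := by
    ext x
    simp only [Set.mem_image, simMap]
    constructor
    · rintro ⟨y, hy, rfl⟩
      exact ⟨lam • Q y, Set.smul_mem_smul_set ⟨y, hy, rfl⟩, rfl⟩
    · rintro ⟨z, hz, rfl⟩
      obtain ⟨z', ⟨y, hy, rfl⟩, rfl⟩ := hz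
      exact ⟨y, hy, rfl⟩
  have hi : Isometry (fun y : E3 => y + b) := (IsometryEquiv.addRight b).isometry
  rw [h1, hi.euclideanHausdorffMeasure_image, Measure.euclideanHausdorffMeasure_smul₀ 2 hlam.ne',
    Q.isometry.euclideanHausdorffMeasure_image]
  rw [ENNReal.smul_def, smul_eq_mul, ENNReal.toReal_mul]
  congr 1
  simp [abs_of_pos hlam]

lemma prj_simMap (Q : E3 ≃ₗᵢ[ℝ] E3) (lam : ℝ) (b v y : E3) :
    prj v (simMap Q lam b y) = simMap Q lam (prj v b) (prj (Q.symm v) y) := by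
  have e : ⟪y, Q.symm v⟫ = ⟪Q y, v⟫ := by
    rw [← Q.inner_map_map]; simp
  simp only [prj, simMap, map_sub, map_smul, LinearIsometryEquiv.apply_symm_apply, e,
    inner_add_left, inner_smul_left, conj_trivial, add_smul, smul_sub, mul_smul]
  abel

/-- The projection of a similar image of the tetrahedron. -/
lemma area_prj_simMap (Q : E3 ≃ₗᵢ[ℝ] E3) (lam : ℝ) (hlam : 0 < lam) (b v : E3) (hv : ‖v‖ = 1) :
    lam ^ 2 * √2 ≤ (μHE[2] (prj v '' (simMap Q lam b '' K0))).toReal := by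
  have h : prj v '' (simMap Q lam b '' K0) =
      simMap Q lam (prj v b) '' (prj (Q.symm v) '' K0) := by
    rw [Set.image_image, Set.image_image]
    apply Set.image_congr
    intro y _
    exact prj_simMap Q lam b v y
  rw [h, area_simMap Q lam hlam]
  exact mul_le_mul_of_nonneg_left
    (min_proj _ (by rw [Q.symm.norm_map, hv])) (by positivity)

/-- `simMap` as an affine map. -/
noncomputable def simAff (Q : E3 ≃ₗᵢ[ℝ] E3) (lam : ℝ) (b : E3) : E3 →ᵃ[ℝ] E3 :=
  (lam • (Q.toLinearEquiv.toLinearMap)).toAffineMap + AffineMap.const ℝ E3 b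

lemma simAff_apply (Q : E3 ≃ₗᵢ[ℝ] E3) (lam : ℝ) (b x : E3) :
    simAff Q lam b x = simMap Q lam b x := by
  simp [simAff, simMap]

/-- Any regular tetrahedron is similar to the standard one. -/
theorem exists_similarity (w : Fin 4 → E3) (ℓ : ℝ) (hℓ : 0 < ℓ)
    (hw : ∀ i j, i ≠ j → dist (w i) (w j) = ℓ) :
    ∃ (Q : E3 ≃ₗᵢ[ℝ] E3) (b : E3), convexHull ℝ (Set.range w) = simMap Q (ℓ / 2) b '' K0 := by
  have hn : ∀ i j, i ≠ j → ‖w i - w j‖ = ℓ := fun i j hij => by rw [← dist_eq_norm]; exact hw i j hij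
  obtain ⟨x1, hx1⟩ : ∃ x, x = w 1 - w 0 := ⟨_, rfl⟩
  obtain ⟨x2, hx2⟩ : ∃ x, x = w 2 - w 0 := ⟨_, rfl⟩
  obtain ⟨x3, hx3⟩ : ∃ x, x = w 3 - w 0 := ⟨_, rfl⟩
  have n1 : ‖x1‖ = ℓ := by rw [hx1]; exact hn _ _ (by decide)
  have n2 : ‖x2‖ = ℓ := by rw [hx2]; exact hn _ _ (by decide)
  have n3 : ‖x3‖ = ℓ := by rw [hx3]; exact hn _ _ (by decide)
  have d12 : ‖x1 - x2‖ = ℓ := by
    rw [hx1, hx2, sub_sub_sub_cancel_right]; exact hn _ _ (by decide)
  have d13 : ‖x1 - x3‖ = ℓ := by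
    rw [hx1, hx3, sub_sub_sub_cancel_right]; exact hn _ _ (by decide)
  have d23 : ‖x2 - x3‖ = ℓ := by
    rw [hx2, hx3, sub_sub_sub_cancel_right]; exact hn _ _ (by decide)
  have pol : ∀ x y : E3, ‖x‖ = ℓ → ‖y‖ = ℓ → ‖x - y‖ = ℓ → ⟪x, y⟫ = ℓ ^ 2 / 2 := by
    intro x y hx hy hxy
    rw [real_inner_eq_norm_mul_self_add_norm_mul_self_sub_norm_sub_mul_self_div_two, hx, hy, hxy]
    ring
  have i11 : ⟪x1, x1⟫ = ℓ ^ 2 := by rw [real_inner_self_eq_norm_sq, n1]
  have i22 : ⟪x2, x2⟫ = ℓ ^ 2 := by rw [real_inner_self_eq_norm_sq, n2]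
  have i33 : ⟪x3, x3⟫ = ℓ ^ 2 := by rw [real_inner_self_eq_norm_sq, n3]
  have i12 : ⟪x1, x2⟫ = ℓ ^ 2 / 2 := pol _ _ n1 n2 d12
  have i13 : ⟪x1, x3⟫ = ℓ ^ 2 / 2 := pol _ _ n1 n3 d13
  have i23 : ⟪x2, x3⟫ = ℓ ^ 2 / 2 := pol _ _ n2 n3 d23
  have i21 : ⟪x2, x1⟫ = ℓ ^ 2 / 2 := by rw [real_inner_comm]; exact i12
  have i31 : ⟪x3, x1⟫ = ℓ ^ 2 / 2 := by rw [real_inner_comm]; exact i13
  have i32 : ⟪x3, x2⟫ = ℓ ^ 2 / 2 := by rw [real_inner_comm]; exact i23
  have hs2 : √2 * √2 = 2 := Real.mul_self_sqrt (by norm_num)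
  have hs0 : √(2 : ℝ) ≠ 0 := by positivity
  have hℓ0 : ℓ ≠ 0 := hℓ.ne'
  -- the orthonormal triple
  let f0 : E3 := (-ℓ⁻¹ : ℝ) • x1
  let f1 : E3 := (ℓ⁻¹ : ℝ) • (x2 - x3)
  let f2 : E3 := ((√2 * ℓ)⁻¹ : ℝ) • (x2 + x3 - x1)
  have e00 : ⟪f0, f0⟫ = 1 := by
    simp only [f0, inner_smul_left, inner_smul_right, conj_trivial, i11]
    field_simp
  have e11 : ⟪f1, f1⟫ = 1 := by
    simp only [f1, inner_smul_left, inner_smul_right, conj_trivial, inner_sub_left, inner_sub_right,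
      i22, i23, i32, i33]
    field_simp
    ring
  have e22 : ⟪f2, f2⟫ = 1 := by
    simp only [f2, inner_smul_left, inner_smul_right, conj_trivial, inner_sub_left, inner_sub_right,
      inner_add_left, inner_add_right, i11, i12, i13, i21, i22, i23, i31, i32, i33]
    field_simp
    nlinarith [hs2]
  have e01 : ⟪f0, f1⟫ = 0 := by
    simp only [f0, f1, inner_smul_left, inner_smul_right, conj_trivial, inner_sub_right, i12, i13]
    ring
  have e02 : ⟪f0, f2⟫ = 0 := by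
    simp only [f0, f2, inner_smul_left, inner_smul_right, conj_trivial, inner_sub_right,
      inner_add_right, i11, i12, i13]
    ring
  have e12 : ⟪f1, f2⟫ = 0 := by
    simp only [f1, f2, inner_smul_left, inner_smul_right, conj_trivial, inner_sub_right,
      inner_sub_left, inner_add_right, i21, i22, i23, i31, i32, i33]
    ring
  have unit_of : ∀ f : E3, ⟪f, f⟫ = 1 → ‖f‖ = 1 := by
    intro f hf
    rw [real_inner_self_eq_norm_sq] at hf
    nlinarith [norm_nonneg f, sq_nonneg (‖f‖ - 1), sq_nonneg (‖f‖ + 1)]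
  have n0' := unit_of f0 e00
  have n1' := unit_of f1 e11
  have n2' := unit_of f2 e22
  have e10 : ⟪f1, f0⟫ = 0 := by rw [real_inner_comm]; exact e01
  have e20 : ⟪f2, f0⟫ = 0 := by rw [real_inner_comm]; exact e02
  have e21 : ⟪f2, f1⟫ = 0 := by rw [real_inner_comm]; exact e12
  obtain ⟨Q, hQ⟩ := exists_QI ![f0, f1, f2] (by
    rw [orthonormal_iff_ite]
    intro i j
    fin_cases i <;> fin_cases j <;> simp [n0', n1', n2', e01, e02, e12, e10, e20, e21])
  obtain ⟨w0, hw0⟩ : ∃ w0, w0 = w 0 := ⟨_, rfl⟩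
  let b : E3 := w0 + (1 / 2 : ℝ) • x1
  have s1 : (ℓ / 2) * ℓ⁻¹ = 1 / 2 := by field_simp
  have s2 : (ℓ / 2) * (√2 * (√2 * ℓ)⁻¹) = 1 / 2 := by field_simp
  have mA : simMap Q (ℓ / 2) b vA = w 1 - x1 := by
    have : w 1 = x1 + w0 := by rw [hx1, hw0]; abel
    rw [this]
    simp only [simMap, hQ, b, f0]
    have : (ℓ / 2) • (vA 0 • (-ℓ⁻¹ : ℝ) • x1 + vA 1 • f1 + vA 2 • f2) = (-(1 / 2) : ℝ) • x1 := by
      rw [vA0, vA1, vA2]
      simp only [one_smul, zero_smul, add_zero, smul_smul]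
      congr 1
      linarith
    simp only [Matrix.cons_val_zero, Matrix.cons_val_one, Matrix.cons_val]
    rw [this]
    module
  have mB : simMap Q (ℓ / 2) b vB = w 1 := by
    have : w 1 = x1 + w0 := by rw [hx1, hw0]; abel
    rw [this]
    simp only [simMap, hQ, b, f0]
    have : (ℓ / 2) • (vB 0 • (-ℓ⁻¹ : ℝ) • x1 + vB 1 • f1 + vB 2 • f2) = ((1 / 2) : ℝ) • x1 := by
      rw [vB0, vB1, vB2]
      simp only [zero_smul, add_zero, smul_smul]
      congr 1
      linarith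
    simp only [Matrix.cons_val_zero, Matrix.cons_val_one, Matrix.cons_val]
    rw [this]
    module
  have mC : simMap Q (ℓ / 2) b vC = w 2 := by
    have : w 2 = x2 + w0 := by rw [hx2, hw0]; abel
    rw [this]
    simp only [simMap, hQ, b, f1, f2]
    have : (ℓ / 2) • (vC 0 • f0 + vC 1 • (ℓ⁻¹ : ℝ) • (x2 - x3) +
        vC 2 • ((√2 * ℓ)⁻¹ : ℝ) • (x2 + x3 - x1)) =
        ((1 / 2) : ℝ) • (x2 - x3) + ((1 / 2) : ℝ) • (x2 + x3 - x1) := by
      rw [vC0, vC1, vC2]
      simp only [zero_smul, zero_add, one_smul, smul_add, smul_smul, one_mul, s1, s2]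
    simp only [Matrix.cons_val_zero, Matrix.cons_val_one, Matrix.cons_val]
    rw [this]
    module
  have mD : simMap Q (ℓ / 2) b vD = w 3 := by
    have : w 3 = x3 + w0 := by rw [hx3, hw0]; abel
    rw [this]
    simp only [simMap, hQ, b, f1, f2]
    have : (ℓ / 2) • (vD 0 • f0 + vD 1 • (ℓ⁻¹ : ℝ) • (x2 - x3) +
        vD 2 • ((√2 * ℓ)⁻¹ : ℝ) • (x2 + x3 - x1)) =
        (-(1 / 2) : ℝ) • (x2 - x3) + ((1 / 2) : ℝ) • (x2 + x3 - x1) := by
      rw [vD0, vD1, vD2]
      simp only [zero_smul, zero_add, smul_add, smul_smul, s2]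
      congr 2
      field_simp
    simp only [Matrix.cons_val_zero, Matrix.cons_val_one, Matrix.cons_val]
    rw [this]
    module
  have mA' : simMap Q (ℓ / 2) b vA = w 0 := by
    rw [mA, hx1]; abel
  refine ⟨Q, b, ?_⟩
  have hrange : Set.range w = simMap Q (ℓ / 2) b '' {vA, vB, vC, vD} := by
    simp only [Set.image_insert_eq, Set.image_singleton, mA', mB, mC, mD]
    ext x
    simp only [Set.mem_range, Set.mem_insert_iff, Set.mem_singleton_iff]
    constructor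
    · rintro ⟨i, rfl⟩
      fin_cases i <;> simp
    · rintro (rfl | rfl | rfl | rfl)
      · exact ⟨0, rfl⟩
      · exact ⟨1, rfl⟩
      · exact ⟨2, rfl⟩
      · exact ⟨3, rfl⟩
  have hfun : simMap Q (ℓ / 2) b = simAff Q (ℓ / 2) b := by
    funext x; rw [simAff_apply]
  rw [hrange, hfun]
  exact ((simAff Q (ℓ / 2) b).image_convexHull _).symm

/-- A bounded flat set has an open thickening of nearly the same area. -/
theorem exists_thicken (u : E3) (hu : ‖u‖ = 1) (T : Set E3) (hT : Bornology.IsBounded T)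
    (hperp : ∀ x ∈ T, ⟪x, u⟫ = 0) (η : ℝ) (hη : 0 < η) :
    ∃ B : Set E3, T ⊆ B ∧ Bornology.IsBounded B ∧
      (∃ O : Set E3, IsOpen O ∧ B = O ∩ {x | ⟪x, u⟫ = 0}) ∧
      (μHE[2] B).toReal ≤ (μHE[2] T).toReal + η := by
  obtain ⟨Bs, rfl⟩ := exists_frame_unit u hu
  obtain ⟨R, hR⟩ := hT.subset_closedBall (0 : E3)
  have hnorm : ∀ y : E2, ‖emb Bs y‖ = ‖y‖ := by
    intro y
    have h := (emb_isometry Bs).dist_eq y 0
    have h0 : emb Bs 0 = 0 := by simp [emb]
    rwa [h0, dist_zero_right, dist_zero_right] at h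
  have hTe : T = emb Bs '' (crd Bs '' T) := by
    rw [Set.image_image]
    ext x
    constructor
    · intro hx
      exact ⟨x, hx, emb_crd_of_perp Bs x (hperp x hx)⟩
    · rintro ⟨y, hy, rfl⟩
      show emb Bs (crd Bs y) ∈ T
      rw [emb_crd_of_perp Bs y (hperp y hy)]
      exact hy
  have hT' : crd Bs '' T ⊆ Metric.ball (0 : E2) (R + 1) := by
    rintro _ ⟨x, hx, rfl⟩
    have h1 : ‖crd Bs x‖ = ‖x‖ := by
      rw [← hnorm, emb_crd_of_perp Bs x (hperp x hx)]
    have h2 : ‖x‖ ≤ R := by simpa using hR hx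
    simp only [Metric.mem_ball, dist_zero_right, h1]
    linarith
  have hfin : volume (crd Bs '' T) ≠ ⊤ :=
    ((measure_mono hT').trans_lt (Metric.isBounded_ball).measure_lt_top).ne
  obtain ⟨U, hU, hUo, hUv⟩ := Set.exists_isOpen_lt_add (crd Bs '' T) hfin
    (ε := ENNReal.ofReal η) (by simpa using hη)
  let W := U ∩ Metric.ball (0 : E2) (R + 1)
  refine ⟨emb Bs '' W, ?_, ?_, ⟨crd Bs ⁻¹' W, ?_, ?_⟩, ?_⟩
  · rw [hTe]
    exact Set.image_mono (Set.subset_inter hU hT')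
  · apply (Metric.isBounded_closedBall (x := (0 : E3)) (r := R + 1)).subset
    rintro _ ⟨y, hy, rfl⟩
    have : ‖y‖ < R + 1 := by simpa using hy.2
    simp only [Metric.mem_closedBall, dist_zero_right, hnorm]
    exact this.le
  · exact (hUo.inter Metric.isOpen_ball).preimage (crd_continuous Bs)
  · ext x
    constructor
    · rintro ⟨y, hy, rfl⟩
      refine ⟨?_, emb_inner_B2 Bs y⟩
      simp only [Set.mem_preimage, crd_emb]
      exact hy
    · rintro ⟨h1, h2⟩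
      exact ⟨crd Bs x, h1, emb_crd_of_perp Bs x h2⟩
  · have hT2 : μHE[2] T = volume (crd Bs '' T) := by
      conv_lhs => rw [hTe]
      rw [area_emb_image]
    rw [area_emb_image, hT2]
    have h1 : volume W ≤ volume (crd Bs '' T) + ENNReal.ofReal η :=
      (measure_mono Set.inter_subset_left).trans hUv.le
    have h2 := ENNReal.toReal_mono (by simp [hfin]) h1
    rwa [ENNReal.toReal_add hfin (by simp), ENNReal.toReal_ofReal hη.le] at h2

end Crest.Agent.Lib.TetSim
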