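import Mathlib
import Crest.Prelude.Def_SpanningTrees

/-!
# Uniform spanning trees on finite pieces: matrix-tree formula, negative correlation.

Part A: determinant of a reduced Laplacian by row expansion over "parent functions".
-/

set_option autoImplicit false
set_option linter.unusedSectionVars false

namespace USTCore

open Finset Matrix

section PartA

variable {U : Type*} [Fintype U] [DecidableEq U] (r : U)

/-- non-root vertices. -/
abbrev NR := {u : U // u ≠ r}

/-- The matrix of a parent function: `δ_ij - δ_{φ i, j}`. -/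
def parentMat (φ : NR r → U) : Matrix (NR r) (NR r) ℝ :=
  fun i j => (if i = j then 1 else 0) - (if φ i = (j : U) then 1 else 0)

/-- The extension of a parent function fixing the root. -/
def stepOf (φ : NR r → U) (u : U) : U :=
  if h : u = r then r else φ ⟨u, h⟩

/-- `φ` is acyclic: every vertex reaches the root. -/
def Acyc (φ : NR r → U) : Prop := ∀ u : U, ∃ k : ℕ, (stepOf r φ)^[k] u = r

variable {r}

lemma stepOf_root (φ : NR r → U) : stepOf r φ r = r := by simp [stepOf]

lemma stepOf_nr (φ : NR r → U) (i : NR r) : stepOf r φ i = φ i := by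
  simp [stepOf, i.2]

lemma iter_root (φ : NR r → U) (k : ℕ) : (stepOf r φ)^[k] r = r := by
  induction k with
  | zero => rfl
  | succ n ih => rw [Function.iterate_succ_apply, stepOf_root, ih]

lemma det_parentMat_of_not_acyc (φ : NR r → U) (h : ¬ Acyc r φ) : (parentMat r φ).det = 0 := by
  classical
  rw [← Matrix.exists_mulVec_eq_zero_iff]
  unfold Acyc at h
  push Not at h
  obtain ⟨u₀, hu₀⟩ := h
  -- Z = set of vertices never reaching root
  let Z : U → Prop := fun u => ∀ k : ℕ, (stepOf r φ)^[k] u ≠ r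
  let x : NR r → ℝ := fun i => if Z i then 1 else 0
  have hu₀r : u₀ ≠ r := by simpa using hu₀ 0
  refine ⟨x, ?_, ?_⟩
  · intro hx
    have := congrFun hx ⟨u₀, hu₀r⟩
    simp only [x, Pi.zero_apply] at this
    rw [if_pos hu₀] at this
    exact one_ne_zero this
  · funext i
    simp only [Matrix.mulVec, dotProduct, parentMat, Pi.zero_apply]
    have hZr : ¬ Z r := fun hz => hz 0 rfl
    have key : Z (φ i) ↔ Z i := by
      constructor
      · intro hz k
        cases k with
        | zero => exact i.2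
        | succ n =>
          rw [Function.iterate_succ_apply, stepOf_nr]
          exact hz n
      · intro hz k
        have := hz (k + 1)
        rwa [Function.iterate_succ_apply, stepOf_nr] at this
    have h1 : ∑ j : NR r, ((if i = j then (1:ℝ) else 0) - (if φ i = (j : U) then 1 else 0)) * x j
        = x i - (if Z (φ i) then 1 else 0) := by
      simp only [sub_mul, Finset.sum_sub_distrib, ite_mul, one_mul, zero_mul]
      rw [Finset.sum_ite_eq]
      simp only [Finset.mem_univ, if_true]
      congr 1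
      by_cases hφ : φ i = r
      · rw [hφ, if_neg hZr]
        apply Finset.sum_eq_zero
        intro j _
        rw [if_neg]
        exact fun e => j.2 e.symm
      · rw [Finset.sum_eq_single (⟨φ i, hφ⟩ : NR r)]
        · simp [x]
        · intro j _ hj
          rw [if_neg]
          intro e
          exact hj (Subtype.ext e.symm)
        · simp
    rw [h1]
    simp only [x, key]
    simp

lemma pow_parent (φ : NR r → U) (n : ℕ) (i j : NR r) :
    ((Matrix.of fun (i j : NR r) => if φ i = (j : U) then (1:ℝ) else 0) ^ n) i j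
      = if (stepOf r φ)^[n] i = j then 1 else 0 := by
  induction n generalizing i with
  | zero =>
    simp only [pow_zero, Matrix.one_apply, Function.iterate_zero, id_eq]
    congr 1
    exact propext ⟨fun h => by rw [h], fun h => Subtype.ext h⟩
  | succ n ih =>
    rw [pow_succ', Matrix.mul_apply]
    simp only [Matrix.of_apply, ite_mul, one_mul, zero_mul, ih]
    rw [Function.iterate_succ_apply, stepOf_nr]
    by_cases hφ : φ i = r
    · rw [Finset.sum_eq_zero]
      · rw [hφ, iter_root, if_neg]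
        exact fun e => j.2 e.symm
      · intro k _
        rw [if_neg]
        rw [hφ]
        exact fun e => k.2 e.symm
    · rw [Finset.sum_eq_single (⟨φ i, hφ⟩ : NR r)]
      · simp
      · intro k _ hk
        rw [if_neg]
        intro e
        exact hk (Subtype.ext e.symm)
      · simp

lemma det_parentMat_of_acyc (φ : NR r → U) (h : Acyc r φ) : (parentMat r φ).det = 1 := by
  classical
  set P : Matrix (NR r) (NR r) ℝ := Matrix.of fun (i j : NR r) => if φ i = (j : U) then (1:ℝ) else 0
    with hP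
  have hM : parentMat r φ = 1 - P := by
    ext i j
    simp [parentMat, hP, Matrix.one_apply]
  choose K hK using h
  have hnil : IsNilpotent P := by
    refine ⟨Finset.univ.sup K, ?_⟩
    ext i j
    rw [hP, pow_parent]
    simp only [Matrix.zero_apply]
    rw [if_neg]
    have hle : K i ≤ Finset.univ.sup K := Finset.le_sup (Finset.mem_univ _)
    obtain ⟨m, hm⟩ := Nat.exists_eq_add_of_le hle
    rw [hm, add_comm, Function.iterate_add_apply, hK, iter_root]
    exact fun e => j.2 e.symm
  have hchar := Matrix.isNilpotent_charpoly_sub_pow_of_isNilpotent hnil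
  have hchar' : P.charpoly = Polynomial.X ^ Fintype.card (NR r) := by
    have := hchar.eq_zero
    exact sub_eq_zero.mp this
  have := Matrix.eval_charpoly P 1
  rw [hchar'] at this
  simp only [Polynomial.eval_pow, Polynomial.eval_X, one_pow, Matrix.scalar_apply] at this
  rw [hM]
  have h1 : (Matrix.diagonal fun _ => (1:ℝ)) = (1 : Matrix (NR r) (NR r) ℝ) := by
    simp
  rw [h1] at this
  exact this.symm

lemma det_parentMat (φ : NR r → U) [Decidable (Acyc r φ)] :
    (parentMat r φ).det = if Acyc r φ then 1 else 0 := by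
  split_ifs with h
  · exact det_parentMat_of_acyc φ h
  · exact det_parentMat_of_not_acyc φ h

variable (r)

/-- The reduced Laplacian with weight kernel `W`. -/
def lapl (W : U → U → ℝ) : Matrix (NR r) (NR r) ℝ :=
  fun i j => ∑ u : U, W i u * ((if i = j then 1 else 0) - (if u = (j : U) then 1 else 0))

variable {r}

open Classical in
/-- Matrix forest/tree formula. -/
theorem det_lapl (W : U → U → ℝ) :
    (lapl r W).det = ∑ φ : NR r → U, if Acyc r φ then ∏ i : NR r, W i (φ i) else 0 := by
  have hrow : ∀ i : NR r, (lapl r W) i = ∑ u : U, W i u • (fun j : NR r => (if i = j then (1:ℝ) else 0) - (if u = (j : U) then 1 else 0)) := by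
    intro i
    funext j
    simp [lapl, Finset.sum_apply]
  have hdet : (lapl r W).det = Matrix.detRowAlternating (lapl r W) := rfl
  rw [hdet]
  have : (lapl r W) = fun i : NR r => ∑ u : U, W i u • (fun j : NR r => (if i = j then (1:ℝ) else 0) - (if u = (j : U) then 1 else 0)) := by
    funext i
    exact hrow i
  rw [this]
  have h3 := (Matrix.detRowAlternating (R := ℝ) (n := NR r)).toMultilinearMap.map_sum
     (fun (i : NR r) (u : U) => W i u • (fun j : NR r => (if i = j then (1:ℝ) else 0) - (if u = (j : U) then 1 else 0)))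
  refine h3.trans ?_
  refine Finset.sum_congr rfl ?_
  intro φ _
  have h4 := (Matrix.detRowAlternating (R := ℝ) (n := NR r)).toMultilinearMap.map_smul_univ
     (fun i : NR r => W i (φ i)) (fun (i : NR r) (j : NR r) => (if i = j then (1:ℝ) else 0) - (if φ i = (j : U) then 1 else 0))
  rw [h4]
  have h2 : (Matrix.detRowAlternating (R := ℝ) (n := NR r)).toMultilinearMap
      (fun i j : NR r => (if i = j then (1:ℝ) else 0) - (if φ i = (j : U) then 1 else 0)) = (parentMat r φ).det := rfl
  rw [h2, det_parentMat]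
  split_ifs <;> simp

end PartA

section PartB

open Crest.ProbabilityR.SpanningTrees SimpleGraph

variable {V : Type*} [DecidableEq V] (G : SimpleGraph V) (S : Finset V)

/-- vertices of the piece. -/
abbrev Pc := ((S : Set V) : Type _)

/-- The graph of an edge set on the piece. -/
abbrev TG (A : Finset (Sym2 V)) : SimpleGraph (Pc S) :=
  (SimpleGraph.fromEdgeSet (A : Set (Sym2 V))).induce (S : Set V)

lemma TG_adj (A : Finset (Sym2 V)) (x y : Pc S) :
    (TG S A).Adj x y ↔ s(x.1, y.1) ∈ A ∧ x.1 ≠ y.1 := by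
  simp [TG, SimpleGraph.comap_adj]

variable {G S}

lemma edgesIn_spec {e : Sym2 V} (he : e ∈ edgesIn G S) :
    e ∈ S.sym2 ∧ e ∈ G.edgeSet := by
  classical
  simpa [edgesIn] using he

lemma card_edgeSet_TG {A : Finset (Sym2 V)} (hA : A ⊆ edgesIn G S) :
    Nat.card (TG S A).edgeSet = A.card := by
  classical
  have hinj : Function.Injective (Sym2.map (Subtype.val : Pc S → V)) :=
    Sym2.map.injective Subtype.val_injective
  have himg : (Sym2.map (Subtype.val : Pc S → V)) '' (TG S A).edgeSet = (A : Set (Sym2 V)) := by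
    ext e
    constructor
    · rintro ⟨e', he', rfl⟩
      induction e' using Sym2.ind with
      | _ x y =>
        rw [SimpleGraph.mem_edgeSet, TG_adj] at he'
        simpa using he'.1
    · intro he
      have he' : e ∈ edgesIn G S := hA he
      obtain ⟨h1, h2⟩ := edgesIn_spec he'
      induction e using Sym2.ind with
      | _ x y =>
        simp only [Finset.mk_mem_sym2_iff] at h1
        refine ⟨s(⟨x, h1.1⟩, ⟨y, h1.2⟩), ?_, by simp⟩
        rw [SimpleGraph.mem_edgeSet, TG_adj]
        exact ⟨he, G.ne_of_adj h2⟩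
  have : Nat.card (TG S A).edgeSet = Set.ncard (TG S A).edgeSet := rfl
  rw [this, ← Set.ncard_image_of_injective _ hinj, himg, Set.ncard_coe_finset]

lemma card_Pc : Nat.card (Pc S) = S.card := by
  simp

lemma isSpanningTreeOn_iff {A : Finset (Sym2 V)} :
    IsSpanningTreeOn G S A ↔ A ⊆ edgesIn G S ∧ (TG S A).Connected ∧ A.card + 1 = S.card := by
  unfold IsSpanningTreeOn
  constructor
  · rintro ⟨h1, h2⟩
    have := SimpleGraph.isTree_iff_connected_and_card.mp h2
    refine ⟨h1, this.1, ?_⟩
    have h3 := this.2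
    rw [card_edgeSet_TG h1, card_Pc] at h3
    exact h3
  · rintro ⟨h1, h2, h3⟩
    refine ⟨h1, SimpleGraph.isTree_iff_connected_and_card.mpr ⟨h2, ?_⟩⟩
    rw [card_edgeSet_TG h1, card_Pc]
    exact h3

lemma exists_closer {W : Type*} {H : SimpleGraph W} (hc : H.Connected) {x y : W} (hne : x ≠ y) :
    ∃ u, H.Adj x u ∧ H.dist u y < H.dist x y := by
  obtain ⟨p, hp⟩ := hc.exists_walk_length_eq_dist x y
  cases p with
  | nil => exact absurd rfl hne
  | @cons _ u _ hadj q =>
    refine ⟨u, hadj, ?_⟩
    have h4 : H.dist u y ≤ q.length := SimpleGraph.dist_le q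
    simp only [SimpleGraph.Walk.length_cons] at hp
    omega

section Bij

variable (r : Pc S)

/-- Edge set of a parent function. -/
def edgesOf (φ : NR r → Pc S) : Finset (Sym2 V) :=
  Finset.univ.image (fun i : NR r => s(i.1.1, (φ i).1))

omit [DecidableEq V] in
lemma acyc_no_two_cycle [DecidableEq V] {φ : NR r → Pc S} (h : Acyc r φ) (i j : NR r)
    (hij : φ i = j) (hji : φ j = i) : False := by
  obtain ⟨k, hk⟩ := h i
  have : ∀ k : ℕ, (stepOf r φ)^[k] (i : Pc S) = i ∨ (stepOf r φ)^[k] (i : Pc S) = j := by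
    intro k
    induction k with
    | zero => left; rfl
    | succ n ih =>
      rw [Function.iterate_succ_apply']
      rcases ih with ih | ih
      · right; rw [ih, stepOf_nr, hij]
      · left; rw [ih, stepOf_nr, hji]
  rcases this k with h1 | h1
  · exact i.2 (h1.symm.trans hk)
  · exact j.2 (h1.symm.trans hk)

lemma edgesOf_inj_aux {φ : NR r → Pc S} (h : Acyc r φ) :
    Function.Injective (fun i : NR r => s(i.1.1, (φ i).1)) := by
  intro i j hij
  simp only [Sym2.eq_iff] at hij
  rcases hij with ⟨h1, _⟩ | ⟨h1, h2⟩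
  · exact Subtype.ext (Subtype.ext h1)
  · exfalso
    exact acyc_no_two_cycle r h i j (Subtype.ext h2) (Subtype.ext h1.symm)

lemma card_NR : Fintype.card (NR r) + 1 = S.card := by
  classical
  have h1 : Fintype.card (NR r) = Fintype.card (Pc S) - 1 := by
    simpa using Set.card_ne_eq r
  have h2 : Fintype.card (Pc S) = S.card := by simp
  have h3 : 0 < S.card := Finset.card_pos.mpr ⟨r.1, r.2⟩
  omega

lemma card_edgesOf {φ : NR r → Pc S} (h : Acyc r φ) :
    (edgesOf r φ).card + 1 = S.card := by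
  rw [edgesOf, Finset.card_image_of_injective _ (edgesOf_inj_aux r h), Finset.card_univ, card_NR]

lemma edgesOf_tree {φ : NR r → Pc S} (h : Acyc r φ) (hE : ∀ i : NR r, s(i.1.1, (φ i).1) ∈ edgesIn G S) :
    IsSpanningTreeOn G S (edgesOf r φ) := by
  rw [isSpanningTreeOn_iff]
  refine ⟨?_, ?_, card_edgesOf r h⟩
  · intro e he
    obtain ⟨i, -, rfl⟩ := Finset.mem_image.mp he
    exact hE i
  · have hreach : ∀ (k : ℕ) (u : Pc S), (stepOf r φ)^[k] u = r → (TG S (edgesOf r φ)).Reachable u r := by
      intro k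
      induction k with
      | zero => intro u hu; simp only [Function.iterate_zero, id_eq] at hu; rw [hu]
      | succ n ih =>
        intro u hu
        rw [Function.iterate_succ_apply] at hu
        by_cases hur : u = r
        · rw [hur]
        · have h1 := ih _ hu
          refine SimpleGraph.Reachable.trans ?_ h1
          have h2 : stepOf r φ u = φ ⟨u, hur⟩ := stepOf_nr φ ⟨u, hur⟩
          rw [h2]
          apply SimpleGraph.Adj.reachable
          rw [TG_adj]
          refine ⟨Finset.mem_image.mpr ⟨⟨u, hur⟩, Finset.mem_univ _, rfl⟩, ?_⟩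
          have := (edgesIn_spec (hE ⟨u, hur⟩)).2
          exact G.ne_of_adj this
    have : Nonempty (Pc S) := ⟨r⟩
    refine ⟨fun u v => ?_⟩
    obtain ⟨k, hk⟩ := h u
    obtain ⟨l, hl⟩ := h v
    exact (hreach k u hk).trans (hreach l v hl).symm

lemma edgesOf_surj {A : Finset (Sym2 V)} (hA : IsSpanningTreeOn G S A) :
    ∃ φ : NR r → Pc S, Acyc r φ ∧ (∀ i : NR r, s(i.1.1, (φ i).1) ∈ edgesIn G S) ∧ edgesOf r φ = A := by
  classical
  obtain ⟨h1, h2, h3⟩ := isSpanningTreeOn_iff.mp hA
  have hex : ∀ i : NR r, ∃ u : Pc S, (TG S A).Adj i u ∧ (TG S A).dist u r < (TG S A).dist i r :=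
    fun i => exists_closer h2 i.2
  choose φ hφ1 hφ2 using hex
  have hac : Acyc r φ := by
    have : ∀ n : ℕ, ∀ u : Pc S, (TG S A).dist u r = n → ∃ k : ℕ, (stepOf r φ)^[k] u = r := by
      intro n
      induction n using Nat.strong_induction_on with
      | _ n ih =>
        intro u hu
        by_cases hur : u = r
        · exact ⟨0, hur⟩
        · have h5 := hφ2 ⟨u, hur⟩
          obtain ⟨k, hk⟩ := ih _ (by rw [← hu]; exact h5) _ rfl
          refine ⟨k + 1, ?_⟩
          rw [Function.iterate_succ_apply]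
          have h2 : stepOf r φ u = φ ⟨u, hur⟩ := stepOf_nr φ ⟨u, hur⟩
          rw [h2]
          exact hk
    exact fun u => this _ u rfl
  have hsub : edgesOf r φ ⊆ A := by
    intro e he
    obtain ⟨i, -, rfl⟩ := Finset.mem_image.mp he
    exact ((TG_adj S A _ _).mp (hφ1 i)).1
  have heq : edgesOf r φ = A := by
    apply Finset.eq_of_subset_of_card_le hsub
    have := card_edgesOf r hac
    omega
  refine ⟨φ, hac, ?_, heq⟩
  intro i
  apply h1
  exact ((TG_adj S A _ _).mp (hφ1 i)).1

lemma edgesOf_unique {φ φ' : NR r → Pc S} (_h : Acyc r φ) (h' : Acyc r φ')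
    (heq : edgesOf r φ = edgesOf r φ') : φ = φ' := by
  classical
  by_contra hne
  obtain ⟨i₀, hi₀⟩ : ∃ i, φ i ≠ φ' i := by
    by_contra hcon
    push Not at hcon
    exact hne (funext hcon)
  have step : ∀ i : NR r, φ i ≠ φ' i → ∃ j : NR r, (j : Pc S) = φ' i ∧ φ j ≠ φ' j := by
    intro i hi
    have hmem : s(i.1.1, (φ' i).1) ∈ edgesOf r φ := by
      rw [heq]
      exact Finset.mem_image.mpr ⟨i, Finset.mem_univ _, rfl⟩
    obtain ⟨j, -, hj⟩ := Finset.mem_image.mp hmem
    simp only [Sym2.eq_iff] at hj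
    rcases hj with ⟨h1, h2⟩ | ⟨h1, h2⟩
    · exfalso
      have : j = i := Subtype.ext (Subtype.ext h1)
      subst this
      exact hi (Subtype.ext h2)
    · refine ⟨j, Subtype.ext h1, ?_⟩
      intro hjj
      have h3 : φ j = i := Subtype.ext h2
      have h4 : φ' j = i := by rw [← hjj, h3]
      have h5 : φ' i = j := (Subtype.ext h1).symm
      exact acyc_no_two_cycle r h' i j h5 h4
  obtain ⟨k, hk⟩ := h' i₀
  have hall : ∀ k : ℕ, ∃ j : NR r, (j : Pc S) = (stepOf r φ')^[k] i₀ ∧ φ j ≠ φ' j := by
    intro k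
    induction k with
    | zero => exact ⟨i₀, rfl, hi₀⟩
    | succ n ih =>
      obtain ⟨j, hj1, hj2⟩ := ih
      obtain ⟨j', hj'1, hj'2⟩ := step j hj2
      refine ⟨j', ?_, hj'2⟩
      rw [Function.iterate_succ_apply', ← hj1, stepOf_nr, hj'1]
  obtain ⟨j, hj1, -⟩ := hall k
  exact j.2 (hj1.trans hk)

variable (G S)

open Classical in
/-- The family of spanning trees of the piece. -/
noncomputable def trees : Finset (Finset (Sym2 V)) :=
  (edgesIn G S).powerset.filter (fun A => IsSpanningTreeOn G S A)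

/-- Weight kernel on the piece. -/
noncomputable def Wk (w : Sym2 V → ℝ) (x y : Pc S) : ℝ :=
  haveI := Classical.propDecidable
  if s(x.1, y.1) ∈ edgesIn G S then w s(x.1, y.1) else 0

variable {G S}

lemma mem_trees {A : Finset (Sym2 V)} : A ∈ trees G S ↔ IsSpanningTreeOn G S A := by
  classical
  unfold trees
  rw [Finset.mem_filter, Finset.mem_powerset]
  exact ⟨fun h => h.2, fun h => ⟨h.1, h⟩⟩

open Classical in
/-- Matrix-tree theorem (weighted). -/
theorem det_lapl_eq_trees (w : Sym2 V → ℝ) :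
    (lapl r (Wk G S w)).det = ∑ A ∈ trees G S, ∏ e ∈ A, w e := by
  rw [det_lapl]
  have h1 : ∑ φ : NR r → Pc S, (if Acyc r φ then ∏ i : NR r, Wk G S w i (φ i) else 0)
      = ∑ φ ∈ Finset.univ.filter (fun φ : NR r → Pc S => Acyc r φ ∧ ∀ i : NR r, s(i.1.1, (φ i).1) ∈ edgesIn G S),
          ∏ i : NR r, w s(i.1.1, (φ i).1) := by
    rw [Finset.sum_filter]
    refine Finset.sum_congr rfl ?_
    intro φ _
    by_cases ha : Acyc r φ
    · rw [if_pos ha]
      by_cases hE : ∀ i : NR r, s(i.1.1, (φ i).1) ∈ edgesIn G S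
      · rw [if_pos ⟨ha, hE⟩]
        refine Finset.prod_congr rfl ?_
        intro i _
        simp only [Wk]
        rw [if_pos (hE i)]
      · rw [if_neg (fun hh => hE hh.2)]
        push Not at hE
        obtain ⟨i, hi⟩ := hE
        apply Finset.prod_eq_zero (Finset.mem_univ i)
        simp only [Wk]
        rw [if_neg hi]
    · rw [if_neg ha, if_neg (fun hh => ha hh.1)]
  rw [h1]
  refine Finset.sum_bij (fun φ _ => edgesOf r φ) ?_ ?_ ?_ ?_
  · intro φ hφ
    rw [Finset.mem_filter] at hφ
    exact mem_trees.mpr (edgesOf_tree r hφ.2.1 hφ.2.2)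
  · intro φ hφ φ' hφ' heq
    rw [Finset.mem_filter] at hφ hφ'
    exact edgesOf_unique r hφ.2.1 hφ'.2.1 heq
  · intro A hA
    obtain ⟨φ, h1, h2, h3⟩ := edgesOf_surj r (mem_trees.mp hA)
    exact ⟨φ, Finset.mem_filter.mpr ⟨Finset.mem_univ _, h1, h2⟩, h3⟩
  · intro φ hφ
    rw [Finset.mem_filter] at hφ
    rw [edgesOf, Finset.prod_image]
    intro i _ j _ hij
    exact edgesOf_inj_aux r hφ.2.1 hij

end Bij

end PartB

section RankTwo

variable {R : Type*} [Fintype R] [DecidableEq R]

lemma det_rank_two (L : Matrix R R ℝ) (hL : L.IsSymm) (hdet : L.det ≠ 0) (u v : R → ℝ) :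
    ∃ α β γ : ℝ, ∀ ξ η : ℝ,
      (L + ξ • vecMulVec u u + η • vecMulVec v v).det
        = L.det * ((1 + ξ * α) * (1 + η * β) - ξ * η * γ ^ 2) := by
  classical
  have hunit : IsUnit L.det := isUnit_iff_ne_zero.mpr hdet
  set Li := L⁻¹ with hLi
  have hLiL : Li * L = 1 := Matrix.nonsing_inv_mul L hunit
  have hLLi : L * Li = 1 := Matrix.mul_nonsing_inv L hunit
  have hLisymm : Li.IsSymm := by
    unfold Matrix.IsSymm
    rw [hLi, Matrix.transpose_nonsing_inv, hL.eq]
  refine ⟨u ⬝ᵥ (Li *ᵥ u), v ⬝ᵥ (Li *ᵥ v), u ⬝ᵥ (Li *ᵥ v), ?_⟩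
  intro ξ η
  let U : Matrix R (Fin 2) ℝ := Matrix.of fun i k => if k = 0 then u i else v i
  let Y : Matrix (Fin 2) R ℝ := Matrix.of fun k j => if k = 0 then ξ * u j else η * v j
  have hUY : ξ • vecMulVec u u + η • vecMulVec v v = U * Y := by
    ext i j
    simp [U, Y, Matrix.mul_apply, Fin.sum_univ_two, vecMulVec_apply]
    ring
  have hfact : L + ξ • vecMulVec u u + η • vecMulVec v v = L * (1 + (Li * U) * Y) := by
    rw [add_assoc, hUY, Matrix.mul_add, Matrix.mul_one, Matrix.mul_assoc, ← Matrix.mul_assoc L Li, hLLi, Matrix.one_mul]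
  rw [hfact, Matrix.det_mul, Matrix.det_one_add_mul_comm, Matrix.det_fin_two]
  have hsym : v ⬝ᵥ (Li *ᵥ u) = u ⬝ᵥ (Li *ᵥ v) := by
    rw [Matrix.dotProduct_mulVec, ← Matrix.mulVec_transpose, hLisymm.eq, dotProduct_comm]
  have e00 : (Y * (Li * U)) 0 0 = ξ * (u ⬝ᵥ (Li *ᵥ u)) := by
    simp only [Y, U, Matrix.mul_apply, dotProduct, Matrix.mulVec, Finset.mul_sum, Matrix.of_apply]
    simp
    exact Finset.sum_congr rfl fun _ _ => Finset.sum_congr rfl fun _ _ => by ring
  have e01 : (Y * (Li * U)) 0 1 = ξ * (u ⬝ᵥ (Li *ᵥ v)) := by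
    simp only [Y, U, Matrix.mul_apply, dotProduct, Matrix.mulVec, Finset.mul_sum, Matrix.of_apply]
    simp
    exact Finset.sum_congr rfl fun _ _ => Finset.sum_congr rfl fun _ _ => by ring
  have e10 : (Y * (Li * U)) 1 0 = η * (v ⬝ᵥ (Li *ᵥ u)) := by
    simp only [Y, U, Matrix.mul_apply, dotProduct, Matrix.mulVec, Finset.mul_sum, Matrix.of_apply]
    simp
    exact Finset.sum_congr rfl fun _ _ => Finset.sum_congr rfl fun _ _ => by ring
  have e11 : (Y * (Li * U)) 1 1 = η * (v ⬝ᵥ (Li *ᵥ v)) := by
    simp only [Y, U, Matrix.mul_apply, dotProduct, Matrix.mulVec, Finset.mul_sum, Matrix.of_apply]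
    simp
    exact Finset.sum_congr rfl fun _ _ => Finset.sum_congr rfl fun _ _ => by ring
  simp only [Matrix.add_apply, Matrix.one_apply_eq, Matrix.one_apply_ne (zero_ne_one (α := Fin 2)),
    Matrix.one_apply_ne (one_ne_zero (α := Fin 2)), e00, e01, e10, e11, hsym]
  ring

end RankTwo

section Rayleigh

open Crest.ProbabilityR.SpanningTrees

variable {V : Type*} [DecidableEq V] {G : SimpleGraph V} {S : Finset V} (r : Pc S)

/-- incidence vector -/
def incVec (a b : Pc S) : NR r → ℝ :=
  fun i => (if (i : Pc S) = a then 1 else 0) - (if (i : Pc S) = b then 1 else 0)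

lemma lapl_update (w w' : Sym2 V → ℝ) (a b : Pc S) (he : s(a.1, b.1) ∈ edgesIn G S)
    (hw : ∀ g, g ≠ s(a.1, b.1) → w' g = w g) :
    lapl r (Wk G S w') = lapl r (Wk G S w)
      + (w' s(a.1, b.1) - w s(a.1, b.1)) • vecMulVec (incVec r a b) (incVec r a b) := by
  classical
  have hab : a ≠ b := by
    intro h
    have := (edgesIn_spec he).2
    rw [h] at this
    simp at this
  set Δ := w' s(a.1, b.1) - w s(a.1, b.1) with hΔ
  have hW : ∀ x y : Pc S, Wk G S w' x y = Wk G S w x y + (if s(x.1, y.1) = s(a.1, b.1) then Δ else 0) := by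
    intro x y
    simp only [Wk]
    by_cases h : s(x.1, y.1) = s(a.1, b.1)
    · rw [if_pos h, h, if_pos he, if_pos he, hΔ]
      ring
    · rw [if_neg h, hw _ h]
      simp
  ext i j
  simp only [lapl, Matrix.add_apply, Matrix.smul_apply, vecMulVec_apply, incVec, smul_eq_mul, hW, add_mul,
    Finset.sum_add_distrib]
  congr 1
  have hij : (i = j) ↔ ((i : Pc S) = j) := Subtype.ext_iff
  simp only [hij]
  have e1 : ∀ x y : Pc S, (if x = y then (1:ℝ) else 0) = if y = x then 1 else 0 := fun x y => by
    by_cases h : x = y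
    · simp [h]
    · simp [h, Ne.symm h]
  by_cases hia : (i : Pc S) = a
  · have hib : (i : Pc S) ≠ b := by rw [hia]; exact hab
    rw [Finset.sum_eq_single b]
    · rw [if_pos (by rw [hia]), hia]
      simp [hab]
      left
      rw [e1 a, e1 b]
    · intro u _ hu
      rw [if_neg, zero_mul]
      intro h
      rw [hia, Sym2.eq_iff] at h
      rcases h with ⟨_, h⟩ | ⟨h, _⟩
      · exact hu (Subtype.ext h)
      · exact hab (Subtype.ext h)
    · simp
  · by_cases hib : (i : Pc S) = b
    · rw [Finset.sum_eq_single a]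
      · rw [if_pos (by rw [hib, Sym2.eq_swap]), hib]
        simp [hab.symm]
        left
        rw [e1 a, e1 b]
      · intro u _ hu
        rw [if_neg, zero_mul]
        intro h
        rw [hib, Sym2.eq_iff] at h
        rcases h with ⟨h, _⟩ | ⟨_, h⟩
        · exact hab (Subtype.ext h).symm
        · exact hu (Subtype.ext h)
      · simp
    · rw [Finset.sum_eq_zero]
      · simp [hia, hib]
      · intro u _
        rw [if_neg, zero_mul]
        intro h
        rw [Sym2.eq_iff] at h
        rcases h with ⟨h, _⟩ | ⟨h, _⟩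
        · exact hia (Subtype.ext h)
        · exact hib (Subtype.ext h)

lemma lapl_symm (w : Sym2 V → ℝ) : (lapl r (Wk G S w)).IsSymm := by
  classical
  ext i j
  simp only [Matrix.transpose_apply, lapl]
  have h1 : ∀ x y : Pc S, x ≠ y → Wk G S w x y = Wk G S w y x := by
    intro x y _
    unfold Wk
    rw [Sym2.eq_swap]
  by_cases hij : i = j
  · rw [hij]
  · have hij' : (i : Pc S) ≠ j := fun h => hij (Subtype.ext h)
    rw [if_neg hij, if_neg (Ne.symm hij)]
    simp only [zero_sub]
    rw [Finset.sum_eq_single (i : Pc S), Finset.sum_eq_single (j : Pc S)]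
    · simp [hij', hij'.symm, h1 _ _ hij']
    · intro u _ hu
      simp [hu]
    · simp
    · intro u _ hu
      simp [hu]
    · simp

/-- tree weight. -/
def wt (w : Sym2 V → ℝ) (A : Finset (Sym2 V)) : ℝ := ∏ g ∈ A, w g

lemma wt_update (w : Sym2 V → ℝ) {e f : Sym2 V} (hef : e ≠ f) (he : w e = 1) (hf : w f = 1) (x y : ℝ)
    (A : Finset (Sym2 V)) :
    wt (Function.update (Function.update w e x) f y) A
      = (if e ∈ A then x else 1) * (if f ∈ A then y else 1) * wt w A := by
  classical
  have h1 : ∀ g, Function.update (Function.update w e x) f y g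
      = (if g = e then x else 1) * (if g = f then y else 1) * w g := by
    intro g
    by_cases hgf : g = f
    · subst hgf
      simp [hef.symm, hf]
    · by_cases hge : g = e
      · subst hge
        simp [hef, he]
      · simp [hgf, hge]
  simp only [wt, h1, Finset.prod_mul_distrib, Finset.prod_ite_eq', Finset.prod_const_one]

open Classical in
/-- Rayleigh at positive weights. -/
theorem rayleigh_pos (w : Sym2 V → ℝ) (hpos : ∀ g, 0 < w g) {e f : Sym2 V} (hef : e ≠ f)
    (he : w e = 1) (hf : w f = 1) :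
    (∑ A ∈ trees G S, if e ∉ A ∧ f ∉ A then wt w A else 0) *
      (∑ A ∈ trees G S, if e ∈ A ∧ f ∈ A then wt w A else 0)
    ≤ (∑ A ∈ trees G S, if e ∈ A ∧ f ∉ A then wt w A else 0) *
      (∑ A ∈ trees G S, if e ∉ A ∧ f ∈ A then wt w A else 0) := by
  set a := ∑ A ∈ trees G S, if e ∉ A ∧ f ∉ A then wt w A else 0 with ha
  set b := ∑ A ∈ trees G S, if e ∈ A ∧ f ∉ A then wt w A else 0 with hb
  set c := ∑ A ∈ trees G S, if e ∉ A ∧ f ∈ A then wt w A else 0 with hc
  set d := ∑ A ∈ trees G S, if e ∈ A ∧ f ∈ A then wt w A else 0 with hd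
  have hwtpos : ∀ A, 0 < wt w A := fun A => Finset.prod_pos fun g _ => hpos g
  have ha0 : 0 ≤ a := Finset.sum_nonneg fun A _ => by split_ifs; exact (hwtpos A).le; exact le_rfl
  have hb0 : 0 ≤ b := Finset.sum_nonneg fun A _ => by split_ifs; exact (hwtpos A).le; exact le_rfl
  have hc0 : 0 ≤ c := Finset.sum_nonneg fun A _ => by split_ifs; exact (hwtpos A).le; exact le_rfl
  have hd0 : 0 ≤ d := Finset.sum_nonneg fun A _ => by split_ifs; exact (hwtpos A).le; exact le_rfl
  -- the polynomial identity
  have hpoly : ∀ x y : ℝ, ∑ A ∈ trees G S, wt (Function.update (Function.update w e x) f y) A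
      = a + b * x + c * y + d * x * y := by
    intro x y
    simp only [ha, hb, hc, hd, Finset.sum_mul]
    rw [← Finset.sum_add_distrib, ← Finset.sum_add_distrib, ← Finset.sum_add_distrib]
    refine Finset.sum_congr rfl fun A _ => ?_
    rw [wt_update w hef he hf]
    by_cases h1 : e ∈ A <;> by_cases h2 : f ∈ A <;> simp [h1, h2] <;> ring
  have hsum : a + b + c + d = ∑ A ∈ trees G S, wt w A := by
    have := hpoly 1 1
    have h3 : Function.update (Function.update w e 1) f 1 = w := by
      funext g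
      by_cases hgf : g = f
      · subst hgf
        simp [hf]
      · by_cases hge : g = e
        · subst hge
          simp [hgf, he]
        · simp [hgf, hge]
    rw [h3] at this
    linarith
  by_cases hne : (trees G S).Nonempty
  swap
  · rw [Finset.not_nonempty_iff_eq_empty] at hne
    simp [ha, hb, hc, hd, hne]
  have hD : 0 < a + b + c + d := by
    rw [hsum]
    exact Finset.sum_pos (fun A _ => hwtpos A) hne
  by_cases hE : e ∈ edgesIn G S ∧ f ∈ edgesIn G S
  swap
  · have hz : ∀ A ∈ trees G S, ¬ (e ∈ A ∧ f ∈ A) := by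
      intro A hA h
      have hsub := (mem_trees.mp hA).1
      exact hE ⟨hsub h.1, hsub h.2⟩
    have hd' : d = 0 := by
      rw [hd]
      exact Finset.sum_eq_zero fun A hA => if_neg (hz A hA)
    rw [hd', mul_zero]
    exact mul_nonneg hb0 hc0
  obtain ⟨he1, hf1⟩ := hE
  obtain ⟨A₀, hA₀⟩ := hne
  -- pick a root
  have hS : S.Nonempty := by
    obtain ⟨x⟩ := (mem_trees.mp hA₀).2.1.nonempty
    exact ⟨x.1, x.2⟩
  obtain ⟨r₀, hr₀⟩ := hS
  let r : Pc S := ⟨r₀, hr₀⟩
  -- representatives
  obtain ⟨a₁, b₁, hab⟩ : ∃ a₁ b₁ : Pc S, e = s(a₁.1, b₁.1) := by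
    have := (edgesIn_spec he1).1
    induction e using Sym2.ind with
    | _ x y =>
      simp only [Finset.mk_mem_sym2_iff] at this
      exact ⟨⟨x, this.1⟩, ⟨y, this.2⟩, rfl⟩
  obtain ⟨a₂, b₂, hcd⟩ : ∃ a₂ b₂ : Pc S, f = s(a₂.1, b₂.1) := by
    have := (edgesIn_spec hf1).1
    induction f using Sym2.ind with
    | _ x y =>
      simp only [Finset.mk_mem_sym2_iff] at this
      exact ⟨⟨x, this.1⟩, ⟨y, this.2⟩, rfl⟩
  set L := lapl r (Wk G S w) with hL
  have hdetL : L.det = a + b + c + d := by
    rw [hL, det_lapl_eq_trees, hsum]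
    rfl
  have hdetne : L.det ≠ 0 := by rw [hdetL]; exact hD.ne'
  obtain ⟨α, β, γ, hdet⟩ := det_rank_two L (lapl_symm r w) hdetne (incVec r a₁ b₁) (incVec r a₂ b₂)
  have hT : ∀ ξ η : ℝ, (L + ξ • vecMulVec (incVec r a₁ b₁) (incVec r a₁ b₁)
      + η • vecMulVec (incVec r a₂ b₂) (incVec r a₂ b₂)).det
      = a + b * (1 + ξ) + c * (1 + η) + d * (1 + ξ) * (1 + η) := by
    intro ξ η
    rw [← hpoly]
    have h5 : ∑ A ∈ trees G S, wt (Function.update (Function.update w e (1 + ξ)) f (1 + η)) A =
        (lapl r (Wk G S (Function.update (Function.update w e (1 + ξ)) f (1 + η)))).det := by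
      rw [det_lapl_eq_trees]
      rfl
    rw [h5]
    have h6 := lapl_update r w (Function.update w e (1 + ξ)) a₁ b₁ (hab ▸ he1)
      (by
        intro g hg
        rw [← hab] at hg
        simp [hg])
    have h7 := lapl_update r (Function.update w e (1 + ξ))
      (Function.update (Function.update w e (1 + ξ)) f (1 + η)) a₂ b₂ (hcd ▸ hf1)
      (by
        intro g hg
        rw [← hcd] at hg
        simp [hg])
    rw [h7, h6, ← hab, ← hcd]
    simp only [Function.update_self, Function.update_of_ne hef.symm, he, hf, add_sub_cancel_left]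
    rfl
  have e00 := hT 0 0
  have e10 := hT 1 0
  have e01 := hT 0 1
  have e11 := hT 1 1
  rw [hdet] at e00 e10 e01 e11
  rw [hdetL] at e00 e10 e01 e11
  set D := a + b + c + d with hDdef
  have hbd : b + d = D * α := by
    linear_combination (-1) * e10 + hDdef
  have hcd' : c + d = D * β := by
    linear_combination (-1) * e01 + hDdef
  have hd2 : d = D * (α * β - γ ^ 2) := by
    linear_combination (-1) * e11 + e10 + e01 - hDdef
  have hfinal : b * c - a * d = (D * γ) ^ 2 := by
    have h8 : b * c - a * d = (b + d) * (c + d) - D * d := by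
      rw [hDdef]; ring
    rw [h8, hbd, hcd', hd2]
    ring
  have := sq_nonneg (D * γ)
  linarith

end Rayleigh

section Count

open Crest.ProbabilityR.SpanningTrees Filter Topology

variable {V : Type*} [DecidableEq V] (G : SimpleGraph V) (S : Finset V)

/-- Number of spanning trees containing `P` and avoiding `Q`. -/
noncomputable def cnt (P Q : Finset (Sym2 V)) : ℕ :=
  ((trees G S).filter (fun A => P ⊆ A ∧ Disjoint A Q)).card

variable {G S}

lemma cnt_split (P Q : Finset (Sym2 V)) (g : Sym2 V) :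
    cnt G S P Q = cnt G S (insert g P) Q + cnt G S P (insert g Q) := by
  classical
  unfold cnt
  rw [← Finset.card_union_of_disjoint]
  · congr 1
    ext A
    simp only [Finset.mem_filter, Finset.mem_union, Finset.insert_subset_iff, Finset.disjoint_insert_right]
    by_cases hg : g ∈ A <;> simp [hg] <;> tauto
  · rw [Finset.disjoint_left]
    intro A hA hA'
    simp only [Finset.mem_filter, Finset.insert_subset_iff, Finset.disjoint_insert_right] at hA hA'
    exact hA'.2.2.1 hA.2.1.1

lemma cnt_not_disjoint {P Q : Finset (Sym2 V)} (h : ¬ Disjoint P Q) : cnt G S P Q = 0 := by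
  classical
  unfold cnt
  rw [Finset.card_eq_zero, Finset.filter_eq_empty_iff]
  rintro A _ ⟨h1, h2⟩
  exact h (Finset.disjoint_of_subset_left h1 h2)

/-- test weights for the limit. -/
noncomputable def tw (P Q : Finset (Sym2 V)) (t : ℝ) (g : Sym2 V) : ℝ :=
  if g ∈ P then t⁻¹ else if g ∈ Q then t else 1

lemma tw_pos (P Q : Finset (Sym2 V)) {t : ℝ} (ht : 0 < t) (g : Sym2 V) : 0 < tw P Q t g := by
  unfold tw
  split_ifs
  · exact inv_pos.mpr ht
  · exact ht
  · exact one_pos

/-- exponent -/
def nexp (P Q A : Finset (Sym2 V)) : ℕ := (P \ A).card + (A ∩ Q).card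

lemma nexp_eq_zero {P Q A : Finset (Sym2 V)} : nexp P Q A = 0 ↔ P ⊆ A ∧ Disjoint A Q := by
  unfold nexp
  rw [Nat.add_eq_zero_iff, Finset.card_eq_zero, Finset.card_eq_zero, Finset.sdiff_eq_empty_iff_subset,
    Finset.disjoint_iff_inter_eq_empty]

lemma pow_mul_wt (P Q A : Finset (Sym2 V)) (hPQ : Disjoint P Q) {t : ℝ} (ht : 0 < t) :
    t ^ P.card * wt (tw P Q t) A = t ^ nexp P Q A := by
  classical
  have h1 : wt (tw P Q t) A = (t⁻¹) ^ (A ∩ P).card * t ^ (A ∩ Q).card := by
    unfold wt tw
    rw [Finset.prod_ite, Finset.prod_ite]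
    simp only [Finset.prod_const, one_pow, mul_one]
    have e1 : A.filter (fun x => x ∈ P) = A ∩ P := by
      ext g; simp
    have e2 : (A.filter (fun x => x ∉ P)).filter (fun x => x ∈ Q) = A ∩ Q := by
      ext g
      simp only [Finset.mem_filter, Finset.mem_inter]
      constructor
      · rintro ⟨⟨h1, _⟩, h3⟩; exact ⟨h1, h3⟩
      · rintro ⟨h1, h3⟩; exact ⟨⟨h1, Finset.disjoint_right.mp hPQ h3⟩, h3⟩
    rw [e1, e2]
  rw [h1]
  have h2 : P.card = (P \ A).card + (A ∩ P).card := by
    rw [Finset.inter_comm, Finset.card_sdiff_add_card_inter]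
  unfold nexp
  rw [h2, pow_add, pow_add, inv_pow]
  have : t ^ (A ∩ P).card ≠ 0 := (pow_pos ht _).ne'
  field_simp

lemma tendsto_sum_pow (𝓣 : Finset (Finset (Sym2 V))) (q : Finset (Sym2 V) → Prop) [DecidablePred q]
    (n : Finset (Sym2 V) → ℕ) :
    Tendsto (fun t : ℝ => ∑ A ∈ 𝓣, if q A then t ^ n A else 0) (𝓝[>] 0)
      (𝓝 (((𝓣.filter (fun A => q A ∧ n A = 0)).card : ℕ) : ℝ)) := by
  classical
  have h1 : (((𝓣.filter (fun A => q A ∧ n A = 0)).card : ℕ) : ℝ)
      = ∑ A ∈ 𝓣, if q A then (0:ℝ) ^ n A else 0 := by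
    rw [Finset.card_filter]
    push_cast
    refine Finset.sum_congr rfl fun A _ => ?_
    by_cases hq : q A
    · by_cases hn : n A = 0
      · simp [hq, hn]
      · simp [hq, hn]
    · simp [hq]
  rw [h1]
  apply tendsto_finsetSum
  intro A _
  by_cases hq : q A
  · simp only [hq, if_true]
    exact ((continuous_pow (n A)).tendsto 0).mono_left nhdsWithin_le_nhds
  · simp only [hq, if_false]
    exact tendsto_const_nhds

/-- Raw Rayleigh inequality on counts. -/
theorem nc_raw (P Q : Finset (Sym2 V)) {e f : Sym2 V} (hef : e ≠ f)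
    (heP : e ∉ P) (heQ : e ∉ Q) (hfP : f ∉ P) (hfQ : f ∉ Q) :
    cnt G S (insert e (insert f P)) Q * cnt G S P (insert e (insert f Q))
      ≤ cnt G S (insert e P) (insert f Q) * cnt G S (insert f P) (insert e Q) := by
  classical
  by_cases hPQ : Disjoint P Q
  swap
  · have : cnt G S (insert e (insert f P)) Q = 0 := by
      apply cnt_not_disjoint
      intro hd
      exact hPQ (Finset.disjoint_of_subset_left
        ((Finset.subset_insert f P).trans (Finset.subset_insert e _)) hd)
    rw [this, zero_mul]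
    exact Nat.zero_le _
  have key : ∀ t : ℝ, 0 < t →
      ((∑ A ∈ trees G S, if e ∉ A ∧ f ∉ A then t ^ nexp P Q A else 0) *
        (∑ A ∈ trees G S, if e ∈ A ∧ f ∈ A then t ^ nexp P Q A else 0))
      ≤ ((∑ A ∈ trees G S, if e ∈ A ∧ f ∉ A then t ^ nexp P Q A else 0) *
        (∑ A ∈ trees G S, if e ∉ A ∧ f ∈ A then t ^ nexp P Q A else 0)) := by
    intro t ht
    have h1 := rayleigh_pos (G := G) (S := S) (tw P Q t) (fun g => tw_pos P Q ht g) hef
      (by simp [tw, heP, heQ]) (by simp [tw, hfP, hfQ])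
    have h2 : ∀ (q : Finset (Sym2 V) → Prop) [DecidablePred q],
        (∑ A ∈ trees G S, if q A then t ^ nexp P Q A else 0)
          = t ^ P.card * ∑ A ∈ trees G S, if q A then wt (tw P Q t) A else 0 := by
      intro q _
      rw [Finset.mul_sum]
      refine Finset.sum_congr rfl fun A _ => ?_
      split_ifs
      · exact (pow_mul_wt P Q A hPQ ht).symm
      · simp
    rw [h2 (fun A => e ∉ A ∧ f ∉ A), h2 (fun A => e ∈ A ∧ f ∈ A), h2 (fun A => e ∈ A ∧ f ∉ A),
      h2 (fun A => e ∉ A ∧ f ∈ A)]
    have h3 : 0 ≤ (t ^ P.card) * (t ^ P.card) := by positivity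
    nlinarith [mul_le_mul_of_nonneg_left h1 h3]
  have lim := le_of_tendsto_of_tendsto
    ((tendsto_sum_pow (trees G S) (fun A => e ∉ A ∧ f ∉ A) (nexp P Q)).mul
      (tendsto_sum_pow (trees G S) (fun A => e ∈ A ∧ f ∈ A) (nexp P Q)))
    ((tendsto_sum_pow (trees G S) (fun A => e ∈ A ∧ f ∉ A) (nexp P Q)).mul
      (tendsto_sum_pow (trees G S) (fun A => e ∉ A ∧ f ∈ A) (nexp P Q)))
    (by
      filter_upwards [self_mem_nhdsWithin] with t ht
      exact key t ht)
  have c00 : ((trees G S).filter (fun A => (e ∉ A ∧ f ∉ A) ∧ nexp P Q A = 0)).card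
      = cnt G S P (insert e (insert f Q)) := by
    unfold cnt
    congr 1
    apply Finset.filter_congr
    intro A _
    rw [nexp_eq_zero]
    simp only [Finset.disjoint_insert_right]
    tauto
  have c11 : ((trees G S).filter (fun A => (e ∈ A ∧ f ∈ A) ∧ nexp P Q A = 0)).card
      = cnt G S (insert e (insert f P)) Q := by
    unfold cnt
    congr 1
    apply Finset.filter_congr
    intro A _
    rw [nexp_eq_zero]
    simp only [Finset.insert_subset_iff]
    tauto
  have c10 : ((trees G S).filter (fun A => (e ∈ A ∧ f ∉ A) ∧ nexp P Q A = 0)).card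
      = cnt G S (insert e P) (insert f Q) := by
    unfold cnt
    congr 1
    apply Finset.filter_congr
    intro A _
    rw [nexp_eq_zero]
    simp only [Finset.insert_subset_iff, Finset.disjoint_insert_right]
    tauto
  have c01 : ((trees G S).filter (fun A => (e ∉ A ∧ f ∈ A) ∧ nexp P Q A = 0)).card
      = cnt G S (insert f P) (insert e Q) := by
    unfold cnt
    congr 1
    apply Finset.filter_congr
    intro A _
    rw [nexp_eq_zero]
    simp only [Finset.insert_subset_iff, Finset.disjoint_insert_right]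
    tauto
  rw [c00, c11, c10, c01] at lim
  have lim' : ((cnt G S P (insert e (insert f Q)) * cnt G S (insert e (insert f P)) Q : ℕ) : ℝ)
      ≤ ((cnt G S (insert e P) (insert f Q) * cnt G S (insert f P) (insert e Q) : ℕ) : ℝ) := by
    push_cast
    exact lim
  have := Nat.cast_le.mp lim'
  rw [mul_comm]
  exact this

/-- Negative correlation on counts. -/
theorem nc_cnt (P Q : Finset (Sym2 V)) {f g : Sym2 V} (hfg : f ≠ g)
    (hfP : f ∉ P) (hfQ : f ∉ Q) (hgP : g ∉ P) (hgQ : g ∉ Q) :
    cnt G S (insert f (insert g P)) Q * cnt G S P Q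
      ≤ cnt G S (insert f P) Q * cnt G S (insert g P) Q := by
  have h1 := nc_raw (G := G) (S := S) P Q hfg hfP hfQ hgP hgQ
  have h2 : cnt G S P Q = cnt G S (insert f P) Q + cnt G S P (insert f Q) := cnt_split _ _ _
  have h3 : cnt G S (insert f P) Q = cnt G S (insert g (insert f P)) Q + cnt G S (insert f P) (insert g Q) :=
    cnt_split _ _ _
  have h4 : cnt G S P (insert f Q) = cnt G S (insert g P) (insert f Q) + cnt G S P (insert g (insert f Q)) :=
    cnt_split _ _ _
  have h5 : cnt G S (insert g P) Q = cnt G S (insert f (insert g P)) Q + cnt G S (insert g P) (insert f Q) :=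
    cnt_split _ _ _
  rw [Finset.insert_comm g f P] at h3
  rw [Finset.insert_comm g f Q] at h4
  set N11 := cnt G S (insert f (insert g P)) Q
  set N10 := cnt G S (insert f P) (insert g Q)
  set N01 := cnt G S (insert g P) (insert f Q)
  set N00 := cnt G S P (insert f (insert g Q))
  rw [h2, h3, h4, h5]
  nlinarith [h1]

lemma card_of_mem_trees {A : Finset (Sym2 V)} (hA : A ∈ trees G S) : A.card + 1 = S.card :=
  (isSpanningTreeOn_iff.mp (mem_trees.mp hA)).2.2

lemma subset_of_mem_trees {A : Finset (Sym2 V)} (hA : A ∈ trees G S) : A ⊆ edgesIn G S :=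
  (mem_trees.mp hA).1

lemma cnt_eq_zero_of_not_mem {P Q : Finset (Sym2 V)} {f : Sym2 V} (hf : f ∉ edgesIn G S) (hP : f ∈ P) :
    cnt G S P Q = 0 := by
  classical
  unfold cnt
  rw [Finset.card_eq_zero, Finset.filter_eq_empty_iff]
  rintro A hA ⟨h1, _⟩
  exact hf (subset_of_mem_trees hA (h1 hP))

/-- Row bound on counts. -/
theorem row_cnt (P Q : Finset (Sym2 V)) (g : Sym2 V) (J : Finset (Sym2 V)) (hgJ : g ∉ J)
    (hgP : g ∉ P) (hgQ : g ∉ Q) (hJP : Disjoint J P) (hJQ : Disjoint J Q) :
    ∑ f ∈ J, ((cnt G S (insert f P) Q : ℝ) * cnt G S (insert g P) Q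
        - (cnt G S (insert f (insert g P)) Q : ℝ) * cnt G S P Q)
      ≤ (cnt G S (insert g P) Q : ℝ) * cnt G S P (insert g Q) := by
  classical
  set E := edgesIn G S with hE
  set U := ((E \ P) \ Q).erase g with hU
  set C := (trees G S).filter (fun A => P ⊆ A ∧ Disjoint A Q) with hC
  set K : ℝ := (S.card : ℝ) - 1 - P.card with hK
  have hN0 : (cnt G S P Q : ℝ) = ∑ A ∈ C, (1 : ℝ) := by
    simp [cnt, hC]
  have hNg : (cnt G S (insert g P) Q : ℝ) = ∑ A ∈ C, (if g ∈ A then (1 : ℝ) else 0) := by
    unfold cnt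
    rw [Finset.sum_boole]
    congr 2
    ext A
    simp only [hC, Finset.mem_filter, Finset.insert_subset_iff]
    tauto
  have hNf : ∀ f, (cnt G S (insert f P) Q : ℝ) = ∑ A ∈ C, (if f ∈ A then (1 : ℝ) else 0) := by
    intro f
    unfold cnt
    rw [Finset.sum_boole]
    congr 2
    ext A
    simp only [hC, Finset.mem_filter, Finset.insert_subset_iff]
    tauto
  have hNfg : ∀ f, (cnt G S (insert f (insert g P)) Q : ℝ)
      = ∑ A ∈ C, (if g ∈ A then (if f ∈ A then (1 : ℝ) else 0) else 0) := by
    intro f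
    unfold cnt
    simp only [← ite_and]
    rw [Finset.sum_boole]
    congr 2
    ext A
    simp only [hC, Finset.mem_filter, Finset.insert_subset_iff]
    tauto
  have hUA : ∀ A ∈ C, (∑ f ∈ U, (if f ∈ A then (1 : ℝ) else 0)) = K - (if g ∈ A then 1 else 0) := by
    intro A hA
    rw [hC, Finset.mem_filter] at hA
    obtain ⟨hA1, hA2, hA3⟩ := hA
    rw [Finset.sum_boole]
    have h1 : U.filter (fun f => f ∈ A) = (A \ P).erase g := by
      ext f
      simp only [hU, Finset.mem_filter, Finset.mem_erase, Finset.mem_sdiff]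
      constructor
      · rintro ⟨⟨h1, ⟨_, h2⟩, _⟩, h3⟩
        exact ⟨h1, h3, h2⟩
      · rintro ⟨h1, h3, h2⟩
        exact ⟨⟨h1, ⟨subset_of_mem_trees hA1 h3, h2⟩, Finset.disjoint_left.mp hA3 h3⟩, h3⟩
    rw [h1]
    have h2 : ((A \ P).card : ℝ) = K := by
      have h3 := Finset.card_sdiff_add_card_eq_card hA2
      have h4 := card_of_mem_trees hA1
      rw [hK]
      have h5 : ((A \ P).card : ℝ) + P.card = A.card := by exact_mod_cast h3
      have h6 : (A.card : ℝ) + 1 = S.card := by exact_mod_cast h4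
      linarith
    by_cases hg : g ∈ A
    · rw [if_pos hg, Finset.card_erase_of_mem (by simp [hg, hgP]), Nat.cast_sub, h2]
      · simp
      · exact Finset.card_pos.mpr ⟨g, by simp [hg, hgP]⟩
    · rw [if_neg hg, Finset.erase_eq_of_notMem (by simp [hg]), h2]
      simp
  have hsum1 : ∑ f ∈ U, (cnt G S (insert f P) Q : ℝ) = K * cnt G S P Q - cnt G S (insert g P) Q := by
    simp only [hNf]
    rw [Finset.sum_comm, Finset.sum_congr rfl hUA, Finset.sum_sub_distrib, hN0]
    congr 1
    simp [mul_comm]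
  have hsum2 : ∑ f ∈ U, (cnt G S (insert f (insert g P)) Q : ℝ) = (K - 1) * cnt G S (insert g P) Q := by
    simp only [hNfg]
    rw [Finset.sum_comm, hNg, Finset.mul_sum]
    refine Finset.sum_congr rfl fun A hA => ?_
    by_cases hg : g ∈ A
    · simp only [hg, if_true]
      rw [hUA A hA, if_pos hg]
      ring
    · simp [hg]
  have hsplit : (cnt G S P Q : ℝ) = cnt G S (insert g P) Q + cnt G S P (insert g Q) := by
    exact_mod_cast cnt_split P Q g
  have hnn : ∀ f ∈ U, 0 ≤ ((cnt G S (insert f P) Q : ℝ) * cnt G S (insert g P) Q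
        - (cnt G S (insert f (insert g P)) Q : ℝ) * cnt G S P Q) := by
    intro f hf
    simp only [hU, Finset.mem_erase, Finset.mem_sdiff] at hf
    have := nc_cnt (G := G) (S := S) P Q hf.1 hf.2.1.2 hf.2.2 hgP hgQ
    have h' : ((cnt G S (insert f (insert g P)) Q * cnt G S P Q : ℕ) : ℝ)
        ≤ ((cnt G S (insert f P) Q * cnt G S (insert g P) Q : ℕ) : ℝ) := by
      exact_mod_cast this
    push_cast at h'
    linarith
  have hUtot : ∑ f ∈ U, ((cnt G S (insert f P) Q : ℝ) * cnt G S (insert g P) Q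
        - (cnt G S (insert f (insert g P)) Q : ℝ) * cnt G S P Q)
      = (cnt G S (insert g P) Q : ℝ) * cnt G S P (insert g Q) := by
    rw [Finset.sum_sub_distrib, ← Finset.sum_mul, ← Finset.sum_mul, hsum1, hsum2, hsplit]
    ring
  rw [← hUtot]
  -- reduce J to J ∩ E ⊆ U
  have hJ : ∑ f ∈ J, ((cnt G S (insert f P) Q : ℝ) * cnt G S (insert g P) Q
        - (cnt G S (insert f (insert g P)) Q : ℝ) * cnt G S P Q)
      = ∑ f ∈ J.filter (fun f => f ∈ E), ((cnt G S (insert f P) Q : ℝ) * cnt G S (insert g P) Q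
        - (cnt G S (insert f (insert g P)) Q : ℝ) * cnt G S P Q) := by
    symm
    apply Finset.sum_subset (Finset.filter_subset _ _)
    intro f hf hf'
    have hfE : f ∉ E := by
      intro h
      exact hf' (Finset.mem_filter.mpr ⟨hf, h⟩)
    rw [cnt_eq_zero_of_not_mem hfE (Finset.mem_insert_self f P),
      cnt_eq_zero_of_not_mem hfE (Finset.mem_insert_self f _)]
    simp
  rw [hJ]
  apply Finset.sum_le_sum_of_subset_of_nonneg
  · intro f hf
    rw [Finset.mem_filter] at hf
    simp only [hU, Finset.mem_erase, Finset.mem_sdiff]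
    refine ⟨fun h => hgJ (h ▸ hf.1), ⟨hf.2, Finset.disjoint_left.mp hJP hf.1⟩, Finset.disjoint_left.mp hJQ hf.1⟩
  · intro f hf _
    exact hnn f hf

end Count

end USTCore
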