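import Crest.Agent.Lib.USTCore

/-!
# Monotonicity of UST marginals under adding a vertex.
-/

set_option autoImplicit false
set_option linter.unusedSectionVars false

namespace USTCore

open Finset Matrix Crest.ProbabilityR.SpanningTrees

variable {V : Type*} [DecidableEq V] {G : SimpleGraph V} {S : Finset V}

lemma ustContains_eq_cnt (F : Finset (Sym2 V)) :
    ustContains G S F = (cnt G S F ∅ : ℝ) / (cnt G S ∅ ∅ : ℝ) := by
  classical
  unfold ustContains
  have h1 : ∀ A : Finset (Sym2 V), A ∈ trees G S ↔ (A ∈ (edgesIn G S).powerset ∧ IsSpanningTreeOn G S A) := by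
    intro A
    rw [mem_trees, Finset.mem_powerset]
    exact ⟨fun h => ⟨h.1, h⟩, fun h => h.2⟩
  congr 2
  · apply congrArg Finset.card
    ext A
    simp only [cnt, Finset.mem_filter, h1]
    simp
    tauto
  · apply congrArg Finset.card
    ext A
    simp only [cnt, Finset.mem_filter, h1]
    simp

lemma exists_parent (H : SimpleGraph (Pc S)) (hc : H.Connected) (r : Pc S) :
    ∃ φ : NR r → Pc S, Acyc r φ ∧ ∀ i : NR r, H.Adj i (φ i) := by
  classical
  have hex : ∀ i : NR r, ∃ u : Pc S, H.Adj i u ∧ H.dist u r < H.dist i r :=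
    fun i => exists_closer hc i.2
  choose φ hφ1 hφ2 using hex
  refine ⟨φ, ?_, hφ1⟩
  have : ∀ n : ℕ, ∀ u : Pc S, H.dist u r = n → ∃ k : ℕ, (stepOf r φ)^[k] u = r := by
    intro n
    induction n using Nat.strong_induction_on with
    | _ n ih =>
      intro u hu
      by_cases hur : u = r
      · exact ⟨0, hur⟩
      · have h5 := hφ2 ⟨u, hur⟩
        obtain ⟨k, hk⟩ := ih _ (by rw [← hu]; exact h5) _ rfl
        refine ⟨k + 1, ?_⟩
        rw [Function.iterate_succ_apply]
        have h2 : stepOf r φ u = φ ⟨u, hur⟩ := stepOf_nr φ ⟨u, hur⟩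
        rw [h2]
        exact hk
  exact fun u => this _ u rfl

/-- connected pieces have a spanning tree. -/
lemma trees_nonempty (hS : (G.induce (S : Set V)).Connected) : (trees G S).Nonempty := by
  classical
  obtain ⟨r⟩ := hS.nonempty
  obtain ⟨φ, h1, h2⟩ := exists_parent (G.induce (S : Set V)) hS r
  refine ⟨edgesOf r φ, mem_trees.mpr (edgesOf_tree r h1 ?_)⟩
  intro i
  have := h2 i
  simp only [SimpleGraph.comap_adj, Function.Embedding.subtype_apply] at this
  simp only [edgesIn, Finset.mem_filter, Finset.mk_mem_sym2_iff, SimpleGraph.mem_edgeSet]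
  exact ⟨⟨i.1.2, (φ i).2⟩, this⟩

lemma cnt_empty_pos (hS : (G.induce (S : Set V)).Connected) : 0 < cnt G S ∅ ∅ := by
  classical
  obtain ⟨A, hA⟩ := trees_nonempty hS
  unfold cnt
  apply Finset.card_pos.mpr
  exact ⟨A, Finset.mem_filter.mpr ⟨hA, by simp, by simp⟩⟩

lemma cnt_le_of_subset {P P' Q : Finset (Sym2 V)} (h : P ⊆ P') : cnt G S P' Q ≤ cnt G S P Q := by
  classical
  unfold cnt
  apply Finset.card_le_card
  intro A hA
  rw [Finset.mem_filter] at hA ⊢
  exact ⟨hA.1, h.trans hA.2.1, hA.2.2⟩

lemma cnt_le_of_subset_right {P Q Q' : Finset (Sym2 V)} (h : Q ⊆ Q') : cnt G S P Q' ≤ cnt G S P Q := by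
  classical
  unfold cnt
  apply Finset.card_le_card
  intro A hA
  rw [Finset.mem_filter] at hA ⊢
  exact ⟨hA.1, hA.2.1, Finset.disjoint_of_subset_right h hA.2.2⟩

/-- Correlation of a set with an edge. -/
lemma corr_set (F Q : Finset (Sym2 V)) {q : Sym2 V} (hqF : q ∉ F) (hqQ : q ∉ Q) :
    cnt G S (insert q F) Q * cnt G S ∅ Q ≤ cnt G S F Q * cnt G S {q} Q := by
  classical
  induction F using Finset.induction_on with
  | empty => simp [mul_comm]
  | insert f F' hfF' ih =>
    have hqF' : q ∉ F' := fun h => hqF (Finset.mem_insert_of_mem h)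
    have hfq : f ≠ q := fun h => hqF (h ▸ Finset.mem_insert_self f F')
    have ih' := ih hqF'
    by_cases hfQ : f ∈ Q
    · have : cnt G S (insert q (insert f F')) Q = 0 := by
        apply cnt_not_disjoint
        intro hd
        exact Finset.disjoint_left.mp hd (by simp) hfQ
      rw [this, zero_mul]
      exact Nat.zero_le _
    · have hnc := nc_cnt (G := G) (S := S) F' Q hfq hfF' hfQ hqF' hqQ
      rw [Finset.insert_comm q f F']
      by_cases h0 : cnt G S F' Q = 0
      · have : cnt G S (insert f (insert q F')) Q = 0 := by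
          have h3 : F' ⊆ insert f (insert q F') :=
            (Finset.subset_insert _ _).trans (Finset.subset_insert _ _)
          have := cnt_le_of_subset (G := G) (S := S) (Q := Q) h3
          omega
        rw [this, zero_mul]
        exact Nat.zero_le _
      · have hpos : 0 < cnt G S F' Q := Nat.pos_of_ne_zero h0
        refine Nat.le_of_mul_le_mul_left ?_ hpos
        calc cnt G S F' Q * (cnt G S (insert f (insert q F')) Q * cnt G S ∅ Q)
            = (cnt G S (insert f (insert q F')) Q * cnt G S F' Q) * cnt G S ∅ Q := by ring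
          _ ≤ (cnt G S (insert f F') Q * cnt G S (insert q F') Q) * cnt G S ∅ Q :=
              Nat.mul_le_mul_right _ hnc
          _ = cnt G S (insert f F') Q * (cnt G S (insert q F') Q * cnt G S ∅ Q) := by ring
          _ ≤ cnt G S (insert f F') Q * (cnt G S F' Q * cnt G S {q} Q) :=
              Nat.mul_le_mul_left _ ih'
          _ = cnt G S F' Q * (cnt G S (insert f F') Q * cnt G S {q} Q) := by ring

/-- Conditioning on one absent edge increases inclusion probabilities. -/
lemma del_step (F Q : Finset (Sym2 V)) {q : Sym2 V} (hqF : q ∉ F) (hqQ : q ∉ Q) :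
    cnt G S F Q * cnt G S ∅ (insert q Q) ≤ cnt G S F (insert q Q) * cnt G S ∅ Q := by
  have h1 := corr_set (G := G) (S := S) F Q hqF hqQ
  have h2 : cnt G S F Q = cnt G S (insert q F) Q + cnt G S F (insert q Q) := cnt_split _ _ _
  have h3 : cnt G S ∅ Q = cnt G S (insert q ∅) Q + cnt G S ∅ (insert q Q) := cnt_split _ _ _
  have h4 : insert q (∅ : Finset (Sym2 V)) = {q} := by simp
  rw [h4] at h3
  set X := cnt G S (insert q F) Q
  set Y := cnt G S F (insert q Q)
  set U := cnt G S {q} Q
  set W := cnt G S ∅ (insert q Q)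
  rw [h2, h3] at h1 ⊢
  nlinarith [h1]

/-- Conditioning on a set of absent edges increases inclusion probabilities. -/
lemma del_set (F Q : Finset (Sym2 V)) (hd : Disjoint F Q) :
    cnt G S F ∅ * cnt G S ∅ Q ≤ cnt G S F Q * cnt G S ∅ ∅ := by
  classical
  induction Q using Finset.induction_on with
  | empty => exact le_rfl
  | insert q Q₀ hq ih =>
    have hd0 : Disjoint F Q₀ := Finset.disjoint_of_subset_right (Finset.subset_insert _ _) hd
    have ih' := ih hd0
    have hqF : q ∉ F := fun h => Finset.disjoint_left.mp hd h (Finset.mem_insert_self _ _)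
    have hstep := del_step (G := G) (S := S) F Q₀ hqF hq
    by_cases h0 : cnt G S ∅ Q₀ = 0
    · have : cnt G S ∅ (insert q Q₀) = 0 := by
        have := cnt_le_of_subset_right (G := G) (S := S) (P := ∅) (Finset.subset_insert q Q₀)
        omega
      rw [this, mul_zero]
      exact Nat.zero_le _
    · have hpos := Nat.pos_of_ne_zero h0
      refine Nat.le_of_mul_le_mul_left ?_ hpos
      calc cnt G S ∅ Q₀ * (cnt G S F ∅ * cnt G S ∅ (insert q Q₀))
          = (cnt G S F ∅ * cnt G S ∅ Q₀) * cnt G S ∅ (insert q Q₀) := by ring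
        _ ≤ (cnt G S F Q₀ * cnt G S ∅ ∅) * cnt G S ∅ (insert q Q₀) := Nat.mul_le_mul_right _ ih'
        _ = (cnt G S F Q₀ * cnt G S ∅ (insert q Q₀)) * cnt G S ∅ ∅ := by ring
        _ ≤ (cnt G S F (insert q Q₀) * cnt G S ∅ Q₀) * cnt G S ∅ ∅ := Nat.mul_le_mul_right _ hstep
        _ = cnt G S ∅ Q₀ * (cnt G S F (insert q Q₀) * cnt G S ∅ ∅) := by ring

section Leaf

open Classical in
/-- edges at `x` other than `xy`. -/
noncomputable def Qx (G : SimpleGraph V) (S : Finset V) (x y : V) : Finset (Sym2 V) :=
  ((S.erase y).filter (fun u => G.Adj x u)).image (fun u => s(x, u))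

lemma mem_Qx {x y : V} {e : Sym2 V} : e ∈ Qx G S x y ↔ ∃ u, u ∈ S ∧ u ≠ y ∧ G.Adj x u ∧ e = s(x, u) := by
  classical
  simp only [Qx, Finset.mem_image, Finset.mem_filter, Finset.mem_erase]
  constructor
  · rintro ⟨u, ⟨⟨h1, h2⟩, h3⟩, rfl⟩
    exact ⟨u, h2, h1, h3, rfl⟩
  · rintro ⟨u, h2, h1, h3, rfl⟩
    exact ⟨u, ⟨⟨h1, h2⟩, h3⟩, rfl⟩

lemma mem_edgesIn {a b : V} : s(a, b) ∈ edgesIn G S ↔ a ∈ S ∧ b ∈ S ∧ G.Adj a b := by
  classical
  simp only [edgesIn, Finset.mem_filter, Finset.mk_mem_sym2_iff, SimpleGraph.mem_edgeSet]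
  tauto

lemma edgesIn_mono {S' : Finset V} (h : S ⊆ S') : edgesIn G S ⊆ edgesIn G S' := by
  classical
  intro e he
  induction e using Sym2.ind with
  | _ a b =>
    rw [mem_edgesIn] at he ⊢
    exact ⟨h he.1, h he.2.1, he.2.2⟩

lemma leaf_forward {x y : V} (hx : x ∉ S) (hy : y ∈ S) (hxy : G.Adj x y) {A : Finset (Sym2 V)}
    (hA : A ∈ trees G (insert x S)) (hd : Disjoint A (Qx G S x y)) :
    s(x, y) ∈ A ∧ A.erase s(x, y) ∈ trees G S := by
  classical
  have hyS' : y ∈ insert x S := Finset.mem_insert_of_mem hy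
  let r : Pc (insert x S) := ⟨y, by simpa using Or.inr hy⟩
  let xx : Pc (insert x S) := ⟨x, by simp⟩
  have hxx : xx ≠ r := by
    intro h
    have : x = y := congrArg Subtype.val h
    exact G.ne_of_adj hxy this
  obtain ⟨φ, hac, hE, hφ⟩ := edgesOf_surj r (mem_trees.mp hA)
  have hmem : ∀ i : NR r, s(i.1.1, (φ i).1) ∈ A := by
    intro i
    rw [← hφ]
    exact Finset.mem_image.mpr ⟨i, Finset.mem_univ _, rfl⟩
  -- (a) edges of A at x
  have ha : ∀ u : V, s(x, u) ∈ A → u = y := by
    intro u hu
    by_contra hne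
    have h1 := subset_of_mem_trees hA hu
    rw [mem_edgesIn] at h1
    have hux : u ≠ x := (G.ne_of_adj h1.2.2).symm
    have huS : u ∈ S := by
      have := h1.2.1
      rw [Finset.mem_insert] at this
      exact this.resolve_left hux
    exact Finset.disjoint_left.mp hd hu (mem_Qx.mpr ⟨u, huS, hne, h1.2.2, rfl⟩)
  -- (b)
  have hb : φ ⟨xx, hxx⟩ = r := by
    have := ha _ (hmem ⟨xx, hxx⟩)
    exact Subtype.ext this
  have hxyA : s(x, y) ∈ A := by
    have := hmem ⟨xx, hxx⟩
    rw [hb] at this
    exact this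
  -- (c)
  have hc : ∀ i : NR r, (i : Pc (insert x S)) ≠ xx → φ i ≠ xx := by
    intro i hi h
    have h1 := hmem i
    rw [h, Sym2.eq_swap] at h1
    have h2 := ha _ h1
    exact i.2 (Subtype.ext h2)
  refine ⟨hxyA, mem_trees.mpr ?_⟩
  have hcardA := card_of_mem_trees hA
  rw [Finset.card_insert_of_notMem hx] at hcardA
  rw [isSpanningTreeOn_iff]
  have hinS : ∀ u : Pc (insert x S), u ≠ xx → u.1 ∈ S := by
    intro u hu
    have h1 : u.1 ∈ insert x S := u.2
    rw [Finset.mem_insert] at h1
    exact h1.resolve_left (fun h => hu (Subtype.ext h))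
  refine ⟨?_, ?_, ?_⟩
  · intro e he
    rw [Finset.mem_erase] at he
    obtain ⟨hne, heA⟩ := he
    rw [← hφ] at heA
    obtain ⟨i, -, rfl⟩ := Finset.mem_image.mp heA
    have hi : (i : Pc (insert x S)) ≠ xx := by
      intro h
      apply hne
      have e1 : i = ⟨xx, hxx⟩ := Subtype.ext h
      rw [e1, hb]
    rw [mem_edgesIn]
    refine ⟨hinS _ hi, hinS _ (hc i hi), ?_⟩
    have := hE i
    rw [mem_edgesIn] at this
    exact this.2.2
  · let r' : Pc S := ⟨y, hy⟩
    have hreach : ∀ (k : ℕ) (u : Pc (insert x S)) (hu : u ≠ xx), (stepOf r φ)^[k] u = r →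
        (TG S (A.erase s(x, y))).Reachable ⟨u.1, hinS u hu⟩ r' := by
      intro k
      induction k with
      | zero =>
        intro u hu h
        simp only [Function.iterate_zero, id_eq] at h
        have h' : u.1 = y := congrArg Subtype.val h
        have : (⟨u.1, hinS u hu⟩ : Pc S) = r' := Subtype.ext h'
        rw [this]
      | succ n ih =>
        intro u hu h
        by_cases hur : u = r
        · have h' : u.1 = y := congrArg Subtype.val hur
          have : (⟨u.1, hinS u hu⟩ : Pc S) = r' := Subtype.ext h'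
          rw [this]
        · rw [Function.iterate_succ_apply] at h
          have h2 : stepOf r φ u = φ ⟨u, hur⟩ := stepOf_nr φ ⟨u, hur⟩
          rw [h2] at h
          have h3 := hc ⟨u, hur⟩ hu
          have h4 := ih _ h3 h
          refine SimpleGraph.Reachable.trans ?_ h4
          apply SimpleGraph.Adj.reachable
          rw [TG_adj]
          have h5 := hmem ⟨u, hur⟩
          have h6 := hE ⟨u, hur⟩
          rw [mem_edgesIn] at h6
          refine ⟨Finset.mem_erase.mpr ⟨?_, h5⟩, G.ne_of_adj h6.2.2⟩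
          intro h7
          simp only [Sym2.eq_iff] at h7
          rcases h7 with ⟨h8, _⟩ | ⟨_, h8⟩
          · exact hu (Subtype.ext h8)
          · exact h3 (Subtype.ext h8)
    have hreach' : ∀ u : Pc S, (TG S (A.erase s(x, y))).Reachable u r' := by
      intro u
      have hu' : (⟨u.1, Finset.mem_coe.mpr (Finset.mem_insert_of_mem (Finset.mem_coe.mp u.2))⟩ : Pc (insert x S)) ≠ xx := by
        intro h
        have h1 : u.1 = x := congrArg Subtype.val h
        exact hx (h1 ▸ Finset.mem_coe.mp u.2)
      obtain ⟨k, hk⟩ := hac ⟨u.1, Finset.mem_coe.mpr (Finset.mem_insert_of_mem (Finset.mem_coe.mp u.2))⟩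
      exact hreach k _ hu' hk
    have : Nonempty (Pc S) := ⟨r'⟩
    exact ⟨fun u v => (hreach' u).trans (hreach' v).symm⟩
  · rw [Finset.card_erase_of_mem hxyA]
    have : 0 < A.card := Finset.card_pos.mpr ⟨_, hxyA⟩
    omega

lemma leaf_backward {x y : V} (hx : x ∉ S) (hy : y ∈ S) (hxy : G.Adj x y) {A : Finset (Sym2 V)}
    (hA : A ∈ trees G S) :
    insert s(x, y) A ∈ trees G (insert x S) ∧ Disjoint (insert s(x, y) A) (Qx G S x y) := by
  classical
  have hnot : s(x, y) ∉ A := by
    intro h
    have := subset_of_mem_trees hA h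
    rw [mem_edgesIn] at this
    exact hx this.1
  have htree := isSpanningTreeOn_iff.mp (mem_trees.mp hA)
  obtain ⟨h1, h2, h3⟩ := htree
  constructor
  · apply mem_trees.mpr
    rw [isSpanningTreeOn_iff]
    refine ⟨?_, ?_, ?_⟩
    · intro e he
      rw [Finset.mem_insert] at he
      rcases he with rfl | he
      · rw [mem_edgesIn]
        exact ⟨by simp, Finset.mem_insert_of_mem hy, hxy⟩
      · exact edgesIn_mono (Finset.subset_insert _ _) (h1 he)
    · let r : Pc (insert x S) := ⟨y, by simpa using Or.inr hy⟩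
      let r' : Pc S := ⟨y, hy⟩
      let f : (TG S A) →g (TG (insert x S) (insert s(x, y) A)) :=
        { toFun := fun u => ⟨u.1, Finset.mem_coe.mpr (Finset.mem_insert_of_mem (Finset.mem_coe.mp u.2))⟩
          map_rel' := by
            intro a b hab
            rw [TG_adj] at hab ⊢
            exact ⟨Finset.mem_insert_of_mem hab.1, hab.2⟩ }
      have hreach : ∀ u : Pc (insert x S), (TG (insert x S) (insert s(x, y) A)).Reachable u r := by
        intro u
        by_cases hux : u.1 = x
        · apply SimpleGraph.Adj.reachable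
          rw [TG_adj, hux]
          exact ⟨Finset.mem_insert_self _ _, G.ne_of_adj hxy⟩
        · have huS : u.1 ∈ S := by
            have h4 : u.1 ∈ insert x S := u.2
            rw [Finset.mem_insert] at h4
            exact h4.resolve_left hux
          have := (h2.preconnected (⟨u.1, huS⟩ : Pc S) r').map f
          exact this
      have : Nonempty (Pc (insert x S)) := ⟨r⟩
      exact ⟨fun u v => (hreach u).trans (hreach v).symm⟩
    · rw [Finset.card_insert_of_notMem hnot, Finset.card_insert_of_notMem hx]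
      omega
  · rw [Finset.disjoint_left]
    intro e he he'
    obtain ⟨u, hu1, hu2, hu3, rfl⟩ := mem_Qx.mp he'
    rw [Finset.mem_insert] at he
    rcases he with he | he
    · simp only [Sym2.eq_iff] at he
      rcases he with ⟨_, h⟩ | ⟨h, _⟩
      · exact hu2 h
      · exact hx (h ▸ hy)
    · have := h1 he
      rw [mem_edgesIn] at this
      exact hx this.1

lemma cnt_leaf {x y : V} (hx : x ∉ S) (hy : y ∈ S) (hxy : G.Adj x y) {F : Finset (Sym2 V)}
    (hF : F ⊆ edgesIn G S) :
    cnt G (insert x S) F (Qx G S x y) = cnt G S F ∅ := by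
  classical
  unfold cnt
  have hxyF : s(x, y) ∉ F := by
    intro h
    have := hF h
    rw [mem_edgesIn] at this
    exact hx this.1
  refine Finset.card_bij' (fun A _ => A.erase s(x, y)) (fun A _ => insert s(x, y) A) ?_ ?_ ?_ ?_
  · intro A hA
    rw [Finset.mem_filter] at hA ⊢
    obtain ⟨h1, h2⟩ := leaf_forward hx hy hxy hA.1 hA.2.2
    refine ⟨h2, ?_, by simp⟩
    intro e he
    rw [Finset.mem_erase]
    exact ⟨fun h => hxyF (h ▸ he), hA.2.1 he⟩
  · intro A hA
    rw [Finset.mem_filter] at hA ⊢
    obtain ⟨h1, h2⟩ := leaf_backward hx hy hxy hA.1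
    exact ⟨h1, hA.2.1.trans (Finset.subset_insert _ _), h2⟩
  · intro A hA
    rw [Finset.mem_filter] at hA
    obtain ⟨h1, _⟩ := leaf_forward hx hy hxy hA.1 hA.2.2
    exact Finset.insert_erase h1
  · intro A hA
    rw [Finset.mem_filter] at hA
    apply Finset.erase_insert
    intro h
    have := subset_of_mem_trees hA.1 h
    rw [mem_edgesIn] at this
    exact hx this.1

/-- Adding a vertex decreases inclusion probabilities. -/
lemma ust_mono_insert {x y : V} (hx : x ∉ S) (hy : y ∈ S) (hxy : G.Adj x y)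
    (hS : (G.induce (S : Set V)).Connected) {F : Finset (Sym2 V)} (hF : F ⊆ edgesIn G S) :
    ustContains G (insert x S) F ≤ ustContains G S F := by
  classical
  rw [ustContains_eq_cnt, ustContains_eq_cnt]
  have hdisj : Disjoint F (Qx G S x y) := by
    rw [Finset.disjoint_left]
    intro e he he'
    obtain ⟨u, _, _, _, rfl⟩ := mem_Qx.mp he'
    have := hF he
    rw [mem_edgesIn] at this
    exact hx this.1
  have h1 := del_set (G := G) (S := insert x S) F (Qx G S x y) hdisj
  rw [cnt_leaf hx hy hxy hF, cnt_leaf hx hy hxy (Finset.empty_subset _)] at h1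
  have hpos : 0 < cnt G S ∅ ∅ := cnt_empty_pos hS
  have hpos' : 0 < cnt G (insert x S) ∅ ∅ := by
    have h2 := cnt_leaf (G := G) hx hy hxy (Finset.empty_subset _)
    have h3 := cnt_le_of_subset_right (G := G) (S := insert x S) (P := ∅)
      (Finset.empty_subset (Qx G S x y))
    omega
  rw [div_le_div_iff₀ (by exact_mod_cast hpos') (by exact_mod_cast hpos)]
  exact_mod_cast h1

end Leaf

section Mono

/-- Connected piece. -/
def Conn (G : SimpleGraph V) (S : Finset V) : Prop := (G.induce (S : Set V)).Connected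

lemma conn_insert {x y : V} (hS : Conn G S) (hy : y ∈ S) (hxy : G.Adj x y) : Conn G (insert x S) := by
  classical
  unfold Conn
  have h1 : ((insert x S : Finset V) : Set V) = (S : Set V) ∪ {x} := by
    ext z
    simp [or_comm]
  rw [h1]
  refine SimpleGraph.connected_induce_union (v := y) (w := x) hS.preconnected ?_ hy rfl hxy.symm
  intro a b
  have : a = b := Subtype.ext (by
    have h1 : a.1 = x := a.2
    have h2 : b.1 = x := b.2
    rw [h1, h2])
  rw [this]

lemma ust_mono_aux (n : ℕ) {S S' : Finset V} (hcard : (S' \ S).card = n) (hSS' : S ⊆ S')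
    (hS : Conn G S) (hS' : Conn G S') {F : Finset (Sym2 V)} (hF : F ⊆ edgesIn G S) :
    ustContains G S' F ≤ ustContains G S F := by
  classical
  induction n generalizing S with
  | zero =>
    have : S' ⊆ S := by
      rw [Finset.card_eq_zero, Finset.sdiff_eq_empty_iff_subset] at hcard
      exact hcard
    rw [Finset.Subset.antisymm hSS' this]
  | succ n ih =>
    obtain ⟨v, hv⟩ : (S' \ S).Nonempty := by
      rw [← Finset.card_pos]; omega
    rw [Finset.mem_sdiff] at hv
    obtain ⟨u₀⟩ := hS.nonempty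
    have huS' : u₀.1 ∈ S' := hSS' u₀.2
    obtain ⟨p⟩ := hS'.preconnected (⟨u₀.1, huS'⟩ : Pc S') ⟨v, hv.1⟩
    obtain ⟨d, -, hd1, hd2⟩ := p.exists_boundary_dart {z : Pc S' | z.1 ∈ S} u₀.2 hv.2
    have hadj : G.Adj d.fst.1 d.snd.1 := d.adj
    have hx : d.snd.1 ∉ S := hd2
    have hy : d.fst.1 ∈ S := hd1
    have hconn : Conn G (insert d.snd.1 S) := conn_insert hS hy hadj.symm
    have hsub : insert d.snd.1 S ⊆ S' := by
      intro z hz
      rw [Finset.mem_insert] at hz
      rcases hz with rfl | hz
      · exact d.snd.2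
      · exact hSS' hz
    have hc2 : (S' \ insert d.snd.1 S).card = n := by
      have h1 : S' \ S = insert d.snd.1 (S' \ insert d.snd.1 S) := by
        ext z
        simp only [Finset.mem_sdiff, Finset.mem_insert, not_or]
        constructor
        · rintro ⟨h1, h2⟩
          by_cases hz : z = d.snd.1
          · exact Or.inl hz
          · exact Or.inr ⟨h1, hz, h2⟩
        · rintro (rfl | ⟨h1, _, h2⟩)
          · exact ⟨d.snd.2, hx⟩
          · exact ⟨h1, h2⟩
      rw [h1, Finset.card_insert_of_notMem (by simp)] at hcard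
      omega
    calc ustContains G S' F ≤ ustContains G (insert d.snd.1 S) F :=
          ih hc2 hsub hconn (hF.trans (edgesIn_mono (Finset.subset_insert _ _)))
      _ ≤ ustContains G S F := ust_mono_insert hx hy hadj.symm hS hF

/-- Monotonicity of UST marginals in the piece. -/
theorem ust_mono {S S' : Finset V} (hSS' : S ⊆ S') (hS : Conn G S) (hS' : Conn G S')
    {F : Finset (Sym2 V)} (hF : F ⊆ edgesIn G S) :
    ustContains G S' F ≤ ustContains G S F :=
  ust_mono_aux _ rfl hSS' hS hS' hF

lemma ust_nonneg (S : Finset V) (F : Finset (Sym2 V)) : 0 ≤ ustContains G S F := by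
  rw [ustContains_eq_cnt]
  positivity

lemma ust_le_one (S : Finset V) (F : Finset (Sym2 V)) : ustContains G S F ≤ 1 := by
  rw [ustContains_eq_cnt]
  apply div_le_one_of_le₀
  · exact_mod_cast cnt_le_of_subset (Finset.empty_subset F)
  · positivity

/-- `S` covers `F`. -/
def Cov (S : Finset V) (F : Finset (Sym2 V)) : Prop := ∀ e ∈ F, e ∈ S.sym2

open Classical in
/-- value used in the infimum. -/
noncomputable def hVal (G : SimpleGraph V) (F : Finset (Sym2 V)) (S : Finset V) : ℝ :=
  if Conn G S ∧ Cov S F then ustContains G S F else 1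

/-- The decreasing limit of the UST inclusion probabilities. -/
noncomputable def fusfPlus (G : SimpleGraph V) (F : Finset (Sym2 V)) : ℝ :=
  ⨅ S : Finset V, hVal G F S

lemma hVal_nonneg (F : Finset (Sym2 V)) (S : Finset V) : 0 ≤ hVal G F S := by
  unfold hVal
  split_ifs
  · exact ust_nonneg _ _
  · exact zero_le_one

lemma hVal_bdd (F : Finset (Sym2 V)) : BddBelow (Set.range (hVal G F)) :=
  ⟨0, by rintro _ ⟨S, rfl⟩; exact hVal_nonneg F S⟩

lemma ust_eq_zero_of_not_edge {F : Finset (Sym2 V)} {e : Sym2 V} (he : e ∈ F) (hne : e ∉ G.edgeSet)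
    (S : Finset V) : ustContains G S F = 0 := by
  classical
  rw [ustContains_eq_cnt]
  have : cnt G S F ∅ = 0 := by
    apply cnt_eq_zero_of_not_mem _ he
    intro h
    exact hne (edgesIn_spec h).2
  simp [this]

/-- Convergence along every exhaustion by connected pieces. -/
theorem tendsto_ust {S : ℕ → Finset V} (hmono : Monotone S) (hex : ∀ v, ∃ n, v ∈ S n)
    (hconn : ∀ n, Conn G (S n)) (F : Finset (Sym2 V)) :
    Filter.Tendsto (fun n => ustContains G (S n) F) Filter.atTop (nhds (fusfPlus G F)) := by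
  classical
  -- finite sets are eventually covered
  have hfin : ∀ T : Finset V, ∃ N, ∀ n, N ≤ n → T ⊆ S n := by
    intro T
    induction T using Finset.induction_on with
    | empty => exact ⟨0, fun _ _ => Finset.empty_subset _⟩
    | insert a T' _ ih =>
      obtain ⟨N, hN⟩ := ih
      obtain ⟨m, hm⟩ := hex a
      refine ⟨max N m, fun n hn => ?_⟩
      intro z hz
      rw [Finset.mem_insert] at hz
      rcases hz with rfl | hz
      · exact hmono (le_trans (le_max_right _ _) hn) hm
      · exact hN n (le_trans (le_max_left _ _) hn) hz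
  have hcovEv : ∃ N, ∀ n, N ≤ n → Cov (S n) F := by
    -- vertices of F
    obtain ⟨N, hN⟩ := hfin (F.biUnion fun e => e.toFinset)
    refine ⟨N, fun n hn e he => ?_⟩
    rw [Finset.mem_sym2_iff]
    intro a ha
    apply hN n hn
    exact Finset.mem_biUnion.mpr ⟨e, he, by simpa using ha⟩
  obtain ⟨N₀, hN₀⟩ := hcovEv
  have hlow : ∀ n, N₀ ≤ n → fusfPlus G F ≤ ustContains G (S n) F := by
    intro n hn
    have h1 : fusfPlus G F ≤ hVal G F (S n) := ciInf_le (hVal_bdd F) (S n)
    have h2 : hVal G F (S n) = ustContains G (S n) F := by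
      unfold hVal
      rw [if_pos ⟨hconn n, hN₀ n hn⟩]
    rwa [h2] at h1
  rw [tendsto_order]
  constructor
  · intro a ha
    filter_upwards [Filter.eventually_ge_atTop N₀] with n hn
    exact lt_of_lt_of_le ha (hlow n hn)
  · intro b hb
    obtain ⟨T, hT⟩ := exists_lt_of_ciInf_lt hb
    obtain ⟨N, hN⟩ := hfin T
    filter_upwards [Filter.eventually_ge_atTop N] with n hn
    unfold hVal at hT
    split_ifs at hT with hc
    · by_cases hedge : ∀ e ∈ F, e ∈ G.edgeSet
      · have hF : F ⊆ edgesIn G T := by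
          intro e he
          simp only [edgesIn, Finset.mem_filter]
          exact ⟨hc.2 e he, hedge e he⟩
        exact lt_of_le_of_lt (ust_mono (hN n hn) hc.1 (hconn n) hF) hT
      · push Not at hedge
        obtain ⟨e, he, hne⟩ := hedge
        rw [ust_eq_zero_of_not_edge he hne]
        rw [ust_eq_zero_of_not_edge he hne] at hT
        exact hT
    · exact lt_of_le_of_lt (ust_le_one _ _) hT

end Mono

end USTCore
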