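import Crest.Agent.Lib.USTLimit
import Crest.Agent.Lib.SRC.Defs

/-!
# Free uniform spanning forest masses.
-/

set_option autoImplicit false
set_option linter.unusedSectionVars false

namespace USTCore

open Finset Crest.ProbabilityR.SpanningTrees Filter Topology

variable {V : Type*} [DecidableEq V] {G : SimpleGraph V} {S : Finset V}

/-- finite-level mass -/
noncomputable def mS (G : SimpleGraph V) (S : Finset V) (P Q : Finset (Sym2 V)) : ℝ :=
  (cnt G S P Q : ℝ) / (cnt G S ∅ ∅ : ℝ)

lemma cnt_incl_excl (P Q : Finset (Sym2 V)) :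
    (cnt G S P Q : ℝ) = ∑ R ∈ Q.powerset, (-1 : ℝ) ^ R.card * (cnt G S (P ∪ R) ∅ : ℝ) := by
  classical
  induction Q using Finset.induction_on generalizing P with
  | empty => simp
  | insert q Q₀ hq ih =>
    rw [Finset.sum_powerset_insert hq]
    have h1 : (cnt G S P Q₀ : ℝ) = cnt G S (insert q P) Q₀ + cnt G S P (insert q Q₀) := by
      exact_mod_cast cnt_split P Q₀ q
    have h2 : ∑ t ∈ Q₀.powerset, (-1 : ℝ) ^ (insert q t).card * (cnt G S (P ∪ insert q t) ∅ : ℝ)
        = - (cnt G S (insert q P) Q₀ : ℝ) := by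
      rw [ih (insert q P), ← Finset.sum_neg_distrib]
      refine Finset.sum_congr rfl fun t ht => ?_
      have hqt : q ∉ t := fun h => hq (Finset.mem_powerset.mp ht h)
      rw [Finset.card_insert_of_notMem hqt, pow_succ, Finset.union_insert, Finset.insert_union]
      ring
    rw [h2, ← ih P]
    linarith

/-- inclusion-exclusion mass -/
noncomputable def fusfM (G : SimpleGraph V) (P Q : Finset (Sym2 V)) : ℝ :=
  ∑ R ∈ Q.powerset, (-1 : ℝ) ^ R.card * fusfPlus G (P ∪ R)

lemma mS_eq (P Q : Finset (Sym2 V)) :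
    mS G S P Q = ∑ R ∈ Q.powerset, (-1 : ℝ) ^ R.card * ustContains G S (P ∪ R) := by
  unfold mS
  rw [cnt_incl_excl, Finset.sum_div]
  refine Finset.sum_congr rfl fun R _ => ?_
  rw [ustContains_eq_cnt, mul_div_assoc]

lemma tendsto_mS {S : ℕ → Finset V} (hmono : Monotone S) (hex : ∀ v, ∃ n, v ∈ S n)
    (hconn : ∀ n, Conn G (S n)) (P Q : Finset (Sym2 V)) :
    Tendsto (fun n => mS G (S n) P Q) atTop (𝓝 (fusfM G P Q)) := by
  simp only [mS_eq]
  unfold fusfM
  apply tendsto_finsetSum
  intro R _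
  exact (tendsto_ust hmono hex hconn _).const_mul _

lemma mS_nonneg (P Q : Finset (Sym2 V)) : 0 ≤ mS G S P Q := by
  unfold mS; positivity

lemma mS_split (P Q : Finset (Sym2 V)) (g : Sym2 V) :
    mS G S P Q = mS G S (insert g P) Q + mS G S P (insert g Q) := by
  unfold mS
  rw [← add_div]
  congr 1
  exact_mod_cast cnt_split P Q g

lemma mS_contra {P Q : Finset (Sym2 V)} (h : ¬ Disjoint P Q) : mS G S P Q = 0 := by
  unfold mS
  rw [cnt_not_disjoint h]
  simp

lemma mS_empty (hS : Conn G S) : mS G S ∅ ∅ = 1 := by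
  unfold mS
  have : (cnt G S ∅ ∅ : ℝ) ≠ 0 := by
    exact_mod_cast (cnt_empty_pos hS).ne'
  field_simp

lemma mS_nc (P Q : Finset (Sym2 V)) {f g : Sym2 V} (hfg : f ≠ g)
    (hfP : f ∉ P) (hfQ : f ∉ Q) (hgP : g ∉ P) (hgQ : g ∉ Q) :
    mS G S (insert f (insert g P)) Q * mS G S P Q ≤ mS G S (insert f P) Q * mS G S (insert g P) Q := by
  unfold mS
  rw [div_mul_div_comm, div_mul_div_comm]
  apply div_le_div_of_nonneg_right _ (by positivity)
  exact_mod_cast nc_cnt P Q hfg hfP hfQ hgP hgQ

lemma mS_row (P Q : Finset (Sym2 V)) (g : Sym2 V) (J : Finset (Sym2 V)) (hgJ : g ∉ J)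
    (hgP : g ∉ P) (hgQ : g ∉ Q) (hJP : Disjoint J P) (hJQ : Disjoint J Q) :
    ∑ f ∈ J, (mS G S (insert f P) Q * mS G S (insert g P) Q
        - mS G S (insert f (insert g P)) Q * mS G S P Q)
      ≤ mS G S (insert g P) Q * mS G S P (insert g Q) := by
  unfold mS
  have h := row_cnt (G := G) (S := S) P Q g J hgJ hgP hgQ hJP hJQ
  have hn : (0:ℝ) ≤ (cnt G S ∅ ∅ : ℝ) * (cnt G S ∅ ∅ : ℝ) := by positivity
  have h2 := div_le_div_of_nonneg_right h hn
  simp only [Finset.sum_div, sub_div] at h2
  simp only [div_mul_div_comm]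
  exact h2

/-! ### Exhaustion -/

/-- Good graphs. -/
def Good (G : SimpleGraph V) : Prop := G.Connected ∧ ∀ v, (G.neighborSet v).Finite

open Classical in
/-- neighbours as a finset. -/
noncomputable def nbr (G : SimpleGraph V) (u : V) : Finset V :=
  if h : (G.neighborSet u).Finite then h.toFinset else ∅

open Classical in
/-- balls -/
noncomputable def ball (G : SimpleGraph V) (v₀ : V) : ℕ → Finset V
  | 0 => {v₀}
  | n + 1 => ball G v₀ n ∪ (ball G v₀ n).biUnion (nbr G)

lemma conn_singleton (v : V) : Conn G {v} := by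
  unfold Conn
  have hne : Nonempty (Pc ({v} : Finset V)) := ⟨⟨v, by simp⟩⟩
  refine ⟨?_⟩
  intro a b
  have : a = b := Subtype.ext (by
    have h1 : a.1 = v := by simpa using a.2
    have h2 : b.1 = v := by simpa using b.2
    rw [h1, h2])
  rw [this]

lemma conn_union_of_adj (hS : Conn G S) (T : Finset V) (hT : ∀ t ∈ T, ∃ y ∈ S, G.Adj t y) :
    Conn G (S ∪ T) := by
  classical
  induction T using Finset.induction_on with
  | empty => simpa using hS
  | insert t T' _ ih =>
    have h1 := ih (fun z hz => hT z (Finset.mem_insert_of_mem hz))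
    obtain ⟨y, hy, hty⟩ := hT t (Finset.mem_insert_self _ _)
    rw [Finset.union_insert]
    exact conn_insert h1 (Finset.mem_union_left _ hy) hty

lemma ball_mono (v₀ : V) : Monotone (ball G v₀) := by
  apply monotone_nat_of_le_succ
  intro n
  exact Finset.subset_union_left

lemma ball_conn (v₀ : V) (n : ℕ) (hG : ∀ v, (G.neighborSet v).Finite) : Conn G (ball G v₀ n) := by
  classical
  induction n with
  | zero => exact conn_singleton v₀
  | succ n ih =>
    apply conn_union_of_adj ih
    intro t ht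
    obtain ⟨y, hy, hty⟩ := Finset.mem_biUnion.mp ht
    refine ⟨y, hy, ?_⟩
    unfold nbr at hty
    rw [dif_pos (hG y)] at hty
    have := (Set.Finite.mem_toFinset _).mp hty
    exact (SimpleGraph.mem_neighborSet _ _ _).mp this |>.symm

lemma ball_exhaust (v₀ : V) (hG : G.Connected) (hfin : ∀ v, (G.neighborSet v).Finite) (v : V) :
    ∃ n, v ∈ ball G v₀ n := by
  classical
  obtain ⟨p⟩ := hG.preconnected v₀ v
  have aux : ∀ {a b : V} (q : G.Walk a b) (n : ℕ), a ∈ ball G v₀ n → ∃ m, b ∈ ball G v₀ m := by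
    intro a b q
    induction q with
    | nil => exact fun n h => ⟨n, h⟩
    | @cons u w x hadj _ ih =>
      intro n hn
      apply ih (n + 1)
      simp only [ball, Finset.mem_union]
      right
      refine Finset.mem_biUnion.mpr ⟨u, hn, ?_⟩
      unfold nbr
      rw [dif_pos (hfin u)]
      exact (Set.Finite.mem_toFinset _).mpr hadj
  exact aux p 0 (by simp [ball])

/-- Existence of an exhaustion. -/
lemma exists_exhaustion (hG : Good G) :
    ∃ S : ℕ → Finset V, Monotone S ∧ (∀ v, ∃ n, v ∈ S n) ∧ ∀ n, Conn G (S n) := by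
  obtain ⟨v₀⟩ := hG.1.nonempty
  exact ⟨ball G v₀, ball_mono v₀, ball_exhaust v₀ hG.1 hG.2, fun n => ball_conn v₀ n hG.2⟩

/-! ### The mass system -/

open Classical in
/-- Free uniform spanning forest masses (for good graphs; point mass at the empty set otherwise). -/
noncomputable def fusfMass (G : SimpleGraph V) : Crest.Agent.SRC.MassSys (Sym2 V) where
  m := fun P Q => if Good G then fusfM G P Q else (if P = ∅ then 1 else 0)
  nonneg := by
    intro P Q
    by_cases hG : Good G
    · rw [if_pos hG]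
      obtain ⟨S, h1, h2, h3⟩ := exists_exhaustion hG
      exact ge_of_tendsto' (tendsto_mS h1 h2 h3 P Q) fun n => mS_nonneg P Q
    · rw [if_neg hG]
      split_ifs <;> norm_num
  empty := by
    by_cases hG : Good G
    · rw [if_pos hG]
      obtain ⟨S, h1, h2, h3⟩ := exists_exhaustion hG
      refine tendsto_nhds_unique (tendsto_mS h1 h2 h3 ∅ ∅) ?_
      have : ∀ n, mS G (S n) ∅ ∅ = 1 := fun n => mS_empty (h3 n)
      simp only [this]
      exact tendsto_const_nhds
    · rw [if_neg hG]
      simp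
  contra := by
    intro P Q hd
    by_cases hG : Good G
    · rw [if_pos hG]
      obtain ⟨S, h1, h2, h3⟩ := exists_exhaustion hG
      refine tendsto_nhds_unique (tendsto_mS h1 h2 h3 P Q) ?_
      simp only [mS_contra hd]
      exact tendsto_const_nhds
    · rw [if_neg hG, if_neg]
      rintro rfl
      exact hd (Finset.disjoint_empty_left _)
  split := by
    intro P Q g
    by_cases hG : Good G
    · simp only [if_pos hG]
      obtain ⟨S, h1, h2, h3⟩ := exists_exhaustion hG
      refine tendsto_nhds_unique (tendsto_mS h1 h2 h3 P Q) ?_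
      simp only [mS_split (G := G) P Q g]
      exact (tendsto_mS h1 h2 h3 _ _).add (tendsto_mS h1 h2 h3 _ _)
    · simp only [if_neg hG]
      by_cases hP : P = ∅
      · simp [hP]
      · simp [hP]

lemma fusfMass_m_good (hG : Good G) (P Q : Finset (Sym2 V)) :
    (fusfMass G).m P Q = fusfM G P Q := by
  simp [fusfMass, hG]

lemma fusfMass_m_bad (hG : ¬ Good G) (P Q : Finset (Sym2 V)) :
    (fusfMass G).m P Q = if P = ∅ then 1 else 0 := by
  simp [fusfMass, hG]

/-- `m F ∅` is the decreasing limit. -/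
lemma fusfMass_plus (hG : Good G) (F : Finset (Sym2 V)) :
    (fusfMass G).m F ∅ = fusfPlus G F := by
  rw [fusfMass_m_good hG]
  simp [fusfM]

/-- The UST inclusion probabilities converge along every exhaustion to the forest mass. -/
theorem fusfMass_tendsto (hG : Good G) {S : ℕ → Finset V} (hmono : Monotone S) (hex : ∀ v, ∃ n, v ∈ S n)
    (hconn : ∀ n, (G.induce (S n : Set V)).Connected) (F : Finset (Sym2 V)) :
    Tendsto (fun n => ustContains G (S n) F) atTop (𝓝 ((fusfMass G).m F ∅)) := by
  rw [fusfMass_plus hG]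
  exact tendsto_ust hmono hex hconn F

theorem fusfMass_NC (G : SimpleGraph V) : (fusfMass G).NC := by
  intro P Q f g hfg hfP hfQ hgP hgQ
  by_cases hG : Good G
  · simp only [fusfMass_m_good hG]
    obtain ⟨S, h1, h2, h3⟩ := exists_exhaustion hG
    refine le_of_tendsto_of_tendsto' ((tendsto_mS h1 h2 h3 _ _).mul (tendsto_mS h1 h2 h3 _ _))
      ((tendsto_mS h1 h2 h3 _ _).mul (tendsto_mS h1 h2 h3 _ _)) fun n => ?_
    exact mS_nc P Q hfg hfP hfQ hgP hgQ
  · simp only [fusfMass_m_bad hG]
    simp only [Finset.insert_ne_empty, if_false, zero_mul]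
    exact le_of_eq (by ring)

theorem fusfMass_ROW (G : SimpleGraph V) : (fusfMass G).ROW := by
  intro P Q g J hgJ hgP hgQ hJP hJQ
  by_cases hG : Good G
  · simp only [fusfMass_m_good hG]
    obtain ⟨S, h1, h2, h3⟩ := exists_exhaustion hG
    have lhs : Tendsto (fun n => ∑ f ∈ J, (mS G (S n) (insert f P) Q * mS G (S n) (insert g P) Q
        - mS G (S n) (insert f (insert g P)) Q * mS G (S n) P Q)) atTop
        (𝓝 (∑ f ∈ J, (fusfM G (insert f P) Q * fusfM G (insert g P) Q
        - fusfM G (insert f (insert g P)) Q * fusfM G P Q))) := by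
      apply tendsto_finsetSum
      intro f _
      exact ((tendsto_mS h1 h2 h3 _ _).mul (tendsto_mS h1 h2 h3 _ _)).sub
        ((tendsto_mS h1 h2 h3 _ _).mul (tendsto_mS h1 h2 h3 _ _))
    exact le_of_tendsto_of_tendsto' lhs
      ((tendsto_mS h1 h2 h3 _ _).mul (tendsto_mS h1 h2 h3 _ _))
      fun n => mS_row P Q g J hgJ hgP hgQ hJP hJQ
  · simp only [fusfMass_m_bad hG]
    simp

end USTCore
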